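import Mathlib

/-!
# Section E3, E4 of the blueprint for S0351: the geometry of the chain

All data of the good tuple are hypotheses in the structure `Data`; see `BLUEPRINT.md`.
The indices are 0-based (`ζ i` is `zeta_{i+1}` of the blueprint).
-/

set_option autoImplicit false

namespace Crest.Agent.LT.Geom

open Finset

section Reals

variable {N : ℕ}

/-- `t_r = ∑_{i ≥ r} p^i ρ_i`. -/
noncomputable def tt (p : ℕ) (ρ : Fin N → ℝ) (r : ℕ) : ℝ :=
  ∑ i ∈ univ.filter (fun i : Fin N => r ≤ (i : ℕ)), (p : ℝ) ^ (i : ℕ) * ρ i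

/-- `A = t_0`. -/
noncomputable def AA (p : ℕ) (ρ : Fin N → ℝ) : ℝ := tt p ρ 0

/-- `ψ(m) = (1 - θ^m)/(1 - θ^N)`. -/
noncomputable def psi (θ : ℝ) (N m : ℕ) : ℝ := (1 - θ ^ m) / (1 - θ ^ N)

lemma tt_of_le {p : ℕ} {ρ : Fin N → ℝ} {r : ℕ} (h : N ≤ r) : tt p ρ r = 0 := by
  unfold tt
  rw [Finset.filter_false_of_mem, Finset.sum_empty]
  intro i _
  have := i.2
  omega

lemma tt_succ {p : ℕ} {ρ : Fin N → ℝ} {r : ℕ} (h : r < N) :
    tt p ρ r = (p : ℝ) ^ r * ρ ⟨r, h⟩ + tt p ρ (r + 1) := by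
  unfold tt
  have : univ.filter (fun i : Fin N => r ≤ (i : ℕ))
      = insert (⟨r, h⟩ : Fin N) (univ.filter (fun i : Fin N => r + 1 ≤ (i : ℕ))) := by
    ext i
    simp only [mem_filter, mem_univ, true_and, mem_insert, Fin.ext_iff]
    omega
  rw [this, Finset.sum_insert]
  simp

lemma tt_nonneg {p : ℕ} {ρ : Fin N → ℝ} (hρ : ∀ i, 0 < ρ i) (r : ℕ) : 0 ≤ tt p ρ r := by
  unfold tt
  exact Finset.sum_nonneg fun i _ => mul_nonneg (by positivity) (hρ i).le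

lemma AA_nonneg {p : ℕ} {ρ : Fin N → ℝ} (hρ : ∀ i, 0 < ρ i) : 0 ≤ AA p ρ := tt_nonneg hρ 0

lemma AA_eq_sum {p : ℕ} {ρ : Fin N → ℝ} : AA p ρ = ∑ i : Fin N, (p : ℝ) ^ (i : ℕ) * ρ i := by
  unfold AA tt
  rw [Finset.filter_true_of_mem]
  intro i _
  exact Nat.zero_le _

lemma psi_zero (θ : ℝ) (N : ℕ) : psi θ N 0 = 0 := by simp [psi]

lemma psi_self {θ : ℝ} {N : ℕ} (h : 1 - θ ^ N ≠ 0) : psi θ N N = 1 := by
  unfold psi; exact div_self h

lemma psi_le_one {θ : ℝ} (h0 : 0 < θ) (h1 : θ < 1) {N m : ℕ} (hN : 0 < N) (hm : m ≤ N) :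
    psi θ N m ≤ 1 := by
  unfold psi
  have hθN : θ ^ N < 1 := pow_lt_one₀ h0.le h1 hN.ne'
  rw [div_le_one (by linarith)]
  have : θ ^ N ≤ θ ^ m := pow_le_pow_of_le_one h0.le h1.le hm
  linarith

/-- the function `g_i(r) = (p-1) t_r + p^r ρ_i` of the blueprint. -/
noncomputable def gg (p : ℕ) (ρ : Fin N → ℝ) (i : Fin N) (r : ℕ) : ℝ :=
  ((p : ℝ) - 1) * tt p ρ r + (p : ℝ) ^ r * ρ i

lemma gg_succ {p : ℕ} {ρ : Fin N → ℝ} (i : Fin N) {r : ℕ} (h : r < N) :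
    gg p ρ i (r + 1) = gg p ρ i r + ((p : ℝ) - 1) * (p : ℝ) ^ r * (ρ i - ρ ⟨r, h⟩) := by
  unfold gg
  rw [tt_succ h, pow_succ]
  ring

lemma gg_top {p : ℕ} {ρ : Fin N → ℝ} (i : Fin N) : gg p ρ i N = (p : ℝ) ^ N * ρ i := by
  unfold gg; rw [tt_of_le le_rfl]; ring

lemma gg_anti {p : ℕ} (hp : 1 ≤ p) {ρ : Fin N → ℝ} (hanti : Antitone ρ) (i : Fin N) {r r' : ℕ}
    (hr : r ≤ r') (hr' : r' ≤ (i : ℕ) + 1) : gg p ρ i r' ≤ gg p ρ i r := by
  induction r', hr using Nat.le_induction with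
  | base => exact le_rfl
  | succ m hm ih =>
    have hmN : m < N := by have := i.2; omega
    have hmi : m ≤ (i : ℕ) := by omega
    refine le_trans ?_ (ih (by omega))
    rw [gg_succ i hmN]
    have h1 : ρ i ≤ ρ ⟨m, hmN⟩ := hanti (by simpa [Fin.le_def] using hmi)
    have hp1 : (0 : ℝ) ≤ (p : ℝ) - 1 := by
      have : (1 : ℝ) ≤ p := by exact_mod_cast hp
      linarith
    have : ((p : ℝ) - 1) * (p : ℝ) ^ m * (ρ i - ρ ⟨m, hmN⟩) ≤ 0 :=
      mul_nonpos_of_nonneg_of_nonpos (mul_nonneg hp1 (by positivity)) (by linarith)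
    linarith

lemma gg_mono {p : ℕ} (hp : 1 ≤ p) {ρ : Fin N → ℝ} (hanti : Antitone ρ) (i : Fin N) {r r' : ℕ}
    (hr0 : (i : ℕ) ≤ r) (hr : r ≤ r') (hr' : r' ≤ N) : gg p ρ i r ≤ gg p ρ i r' := by
  induction r', hr using Nat.le_induction with
  | base => exact le_rfl
  | succ m hm ih =>
    have hmN : m < N := by omega
    have hmi : (i : ℕ) ≤ m := by omega
    refine le_trans (ih (by omega)) ?_
    rw [gg_succ i hmN]
    have h1 : ρ ⟨m, hmN⟩ ≤ ρ i := hanti (by simpa [Fin.le_def] using hmi)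
    have hp1 : (0 : ℝ) ≤ (p : ℝ) - 1 := by
      have : (1 : ℝ) ≤ p := by exact_mod_cast hp
      linarith
    have : 0 ≤ ((p : ℝ) - 1) * (p : ℝ) ^ m * (ρ i - ρ ⟨m, hmN⟩) :=
      mul_nonneg (mul_nonneg hp1 (by positivity)) (by linarith)
    linarith

end Reals


section Slots

/-- The slot index: for `N ≤ j` and `u < N`, the unique `s ∈ [j-N, j)` with `s % N = u`. -/
def sl (N j : ℕ) (u : Fin N) : ℕ := (j - N) + ((u + N - (j - N) % N) % N)

variable {N : ℕ}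

lemma sl_lb (j : ℕ) (u : Fin N) : j - N ≤ sl N j u := Nat.le_add_right _ _

lemma sl_ub {j : ℕ} (hj : N ≤ j) (u : Fin N) : sl N j u < j := by
  have hN : 0 < N := lt_of_le_of_lt (Nat.zero_le _) u.2
  have : (u + N - (j - N) % N) % N < N := Nat.mod_lt _ hN
  unfold sl
  omega

lemma sl_mod (j : ℕ) (u : Fin N) : sl N j u % N = u := by
  have hN : 0 < N := lt_of_le_of_lt (Nat.zero_le _) u.2
  have hb : (j - N) % N < N := Nat.mod_lt _ hN
  unfold sl
  rw [Nat.add_mod, Nat.mod_mod, Nat.add_mod_mod]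
  have : (j - N) % N + (u + N - (j - N) % N) = u + N := by omega
  rw [this, Nat.add_mod_right, Nat.mod_eq_of_lt u.2]

lemma eq_of_mod_eq_of_window {a b : ℕ} (h : a % N = b % N) (hab : a < b + N) (hba : b < a + N) :
    a = b := by
  by_contra hne
  rcases lt_or_gt_of_ne hne with hlt | hgt
  · have hd : N ∣ b - a := (Nat.modEq_iff_dvd' hlt.le).mp h
    have := Nat.le_of_dvd (by omega) hd
    omega
  · have hd : N ∣ a - b := (Nat.modEq_iff_dvd' hgt.le).mp h.symm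
    have := Nat.le_of_dvd (by omega) hd
    omega

/-- uniqueness of the slot index. -/
lemma sl_eq_of {j s : ℕ} (hj : N ≤ j) (u : Fin N) (hs : j - N ≤ s) (hs' : s < j) (h : s % N = u) :
    sl N j u = s := by
  have h1 := sl_lb j u
  have h2 := sl_ub hj u
  refine eq_of_mod_eq_of_window (by rw [sl_mod, h]) (by omega) (by omega)

lemma sl_injective {j : ℕ} : Function.Injective (sl N j) := by
  intro u v h
  have := congrArg (· % N) h
  simp only [sl_mod] at this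
  exact Fin.ext this

/-- the slot of `j`. -/
def slotOf (hN : 0 < N) (j : ℕ) : Fin N := ⟨j % N, Nat.mod_lt _ hN⟩

lemma sl_slotOf (hN : 0 < N) {j : ℕ} (hj : N ≤ j) : sl N j (slotOf hN j) = j - N := by
  refine sl_eq_of hj _ le_rfl (by omega) ?_
  simp only [slotOf]
  conv_rhs => rw [← Nat.sub_add_cancel hj, Nat.add_mod_right]

lemma sl_succ_slotOf (hN : 0 < N) {j : ℕ} (hj : N ≤ j) : sl N (j + 1) (slotOf hN j) = j :=
  sl_eq_of (by omega) _ (by omega) (by omega) rfl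

lemma sl_succ_of_ne (hN : 0 < N) {j : ℕ} (hj : N ≤ j) {u : Fin N} (hu : u ≠ slotOf hN j) :
    sl N (j + 1) u = sl N j u := by
  have h1 := sl_lb j u
  have h2 := sl_ub hj u
  have hne : sl N j u ≠ j - N := by
    intro h
    apply hu
    rw [← sl_slotOf hN hj] at h
    exact sl_injective h
  exact sl_eq_of (by omega) _ (by omega) (by omega) (sl_mod j u)

lemma sl_window {j : ℕ} (hj : N ≤ j) (u : Fin N) : sl N j u < j ∧ j ≤ sl N j u + N := by
  have h1 := sl_lb j u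
  have h2 := sl_ub hj u
  omega

end Slots

lemma one_le_of_prime (p : ℕ) [Fact p.Prime] : 1 ≤ p := (Fact.out : p.Prime).one_lt.le

/-- The data of a good tuple needed for the geometry (E3, E4). -/
structure Data (p n N : ℕ) (K : Type*) [NormedField K] where
  θ : ℝ
  ζ : Fin N → K
  ρ : Fin N → ℝ
  c : ℕ → K
  hN : 0 < N
  hNn : N < n
  θ_pos : 0 < θ
  θ_lt : θ < 1
  θ_pow : θ ^ N * (p : ℝ) ^ n = (p : ℝ) ^ N
  norm_ζ : ∀ i, ‖ζ i‖ = Real.exp (-ρ i)
  ρ_pos : ∀ i, 0 < ρ i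
  ρ_anti : Antitone ρ
  reg : ∀ r, 1 ≤ r → r < N → AA p ρ * (1 - psi θ N r) ≤ tt p ρ r
  c_norm : ∀ r, r < N → ‖c r‖ ≤ Real.exp (-(((p : ℝ) - 1) * tt p ρ r))
  c0_norm : ‖c 0‖ = Real.exp (-(((p : ℝ) - 1) * AA p ρ))
  recur : ∀ i, ζ i ^ p ^ N = ∑ r ∈ range N, c r * ζ i ^ p ^ r
  moore_norm : ∀ s, ‖(Matrix.of fun (i m : Fin N) => ζ i ^ p ^ (s + (m : ℕ))).det‖
    = Real.exp (-((p : ℝ) ^ s * AA p ρ))

namespace Data

variable {p n N : ℕ} {K : Type*} [NormedField K] (D : Data p n N K)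

lemma θN_lt : D.θ ^ N < 1 := pow_lt_one₀ D.θ_pos.le D.θ_lt D.hN.ne'

lemma one_sub_θN_pos : 0 < 1 - D.θ ^ N := by linarith [D.θN_lt]

lemma one_sub_θN_ne : 1 - D.θ ^ N ≠ 0 := D.one_sub_θN_pos.ne'

/-- `d_s = (ζ_i^{p^s})_i`. -/
def d (s : ℕ) : Fin N → K := fun i => D.ζ i ^ p ^ s

/-- the vectors `x_{s,j}`. -/
def x (s j : ℕ) : Fin N → K := fun i => ∑ t ∈ Ico s j, D.c (t - s) ^ p ^ s * D.ζ i ^ p ^ t

/-- the exponents `τ_{s,j}` of the radii. -/
noncomputable def tau (s j : ℕ) : ℝ :=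
  ((p : ℝ) - 1) * (p : ℝ) ^ s * AA p D.ρ * (1 - psi D.θ N (j - s))

/-- `S_j = θ^j`. -/
noncomputable def S (j : ℕ) : ℝ := D.θ ^ j

/-- `κ = (p-1) A (1-θ)/(1-θ^N)`. -/
noncomputable def kappa : ℝ := ((p : ℝ) - 1) * AA p D.ρ * (1 - D.θ) / (1 - D.θ ^ N)

/-- the weights `w_s = κ (p/θ)^s`. -/
noncomputable def w (s : ℕ) : ℝ := D.kappa * ((p : ℝ) / D.θ) ^ s

/-- `σ_j = ∑_{l ≥ j} S_l = θ^j/(1-θ)`. -/
noncomputable def sigma (j : ℕ) : ℝ := D.θ ^ j / (1 - D.θ)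

lemma x_self (s : ℕ) : D.x s s = 0 := by
  funext i; simp [x]

lemma x_succ {s j : ℕ} (h : s ≤ j) (i : Fin N) :
    D.x s (j + 1) i = D.x s j i + D.c (j - s) ^ p ^ s * D.d j i := by
  simp only [x, d]
  rw [Finset.sum_Ico_succ_top h]

lemma x_succ_self (j : ℕ) (i : Fin N) : D.x j (j + 1) i = D.c 0 ^ p ^ j * D.d j i := by
  rw [D.x_succ le_rfl, D.x_self]; simp

lemma tau_self (j : ℕ) : D.tau j j = ((p : ℝ) - 1) * (p : ℝ) ^ j * AA p D.ρ := by
  simp [tau, psi_zero]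

lemma tau_top (s : ℕ) : D.tau s (s + N) = 0 := by
  have h : s + N - s = N := by omega
  simp [tau, h, psi_self D.one_sub_θN_ne]

lemma tau_succ {s j : ℕ} (h : s ≤ j) : D.tau s (j + 1) = D.tau s j - D.S j * D.w s := by
  obtain ⟨r, rfl⟩ := Nat.exists_eq_add_of_le h
  have h1 : s + r + 1 - s = r + 1 := by omega
  have h2 : s + r - s = r := by omega
  have hθ : D.θ ≠ 0 := D.θ_pos.ne'
  have hne := D.one_sub_θN_ne
  have key : D.θ ^ (s + r) * ((p : ℝ) / D.θ) ^ s = (p : ℝ) ^ s * D.θ ^ r := by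
    rw [div_pow, pow_add]; field_simp
  have : D.S (s + r) * D.w s = D.kappa * ((p : ℝ) ^ s * D.θ ^ r) := by
    simp only [S, w]; rw [← key]; ring
  rw [this]
  simp only [tau, h1, h2, kappa, psi]
  field_simp
  ring

lemma w_add_N (s : ℕ) : D.w (s + N) = (p : ℝ) ^ n * D.w s := by
  simp only [w]
  have hθ : D.θ ≠ 0 := D.θ_pos.ne'
  have h : ((p : ℝ) / D.θ) ^ N = (p : ℝ) ^ n := by
    rw [div_pow, div_eq_iff (pow_ne_zero _ hθ), ← D.θ_pow]; ring
  rw [pow_add, h]; ring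

lemma sigma_succ (j : ℕ) : D.sigma j = D.S j + D.sigma (j + 1) := by
  simp only [sigma, S]
  have : 1 - D.θ ≠ 0 := by linarith [D.θ_lt]
  field_simp
  ring


section Norms

variable [IsUltrametricDist K] [Fact p.Prime] [CharP K p]

omit [IsUltrametricDist K] [CharP K p] in
lemma p_sub_one_nonneg : (0 : ℝ) ≤ (p : ℝ) - 1 := by
  have : (1 : ℝ) ≤ p := by exact_mod_cast (Fact.out : p.Prime).one_lt.le
  linarith

omit [IsUltrametricDist K] [Fact p.Prime] [CharP K p] in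
lemma norm_ζ_pow (i : Fin N) (m : ℕ) : ‖D.ζ i ^ p ^ m‖ = Real.exp (-((p : ℝ) ^ m * D.ρ i)) := by
  rw [norm_pow, D.norm_ζ, ← Real.exp_nat_mul]
  congr 1
  push_cast
  ring

omit [IsUltrametricDist K] [Fact p.Prime] [CharP K p] in
lemma pow_p_le {a : K} {b : ℝ} (h : ‖a‖ ≤ Real.exp (-b)) (s : ℕ) :
    ‖a ^ p ^ s‖ ≤ Real.exp (-((p : ℝ) ^ s * b)) := by
  rw [norm_pow]
  calc ‖a‖ ^ p ^ s ≤ Real.exp (-b) ^ p ^ s := pow_le_pow_left₀ (norm_nonneg _) h _
    _ = Real.exp (-((p : ℝ) ^ s * b)) := by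
      rw [← Real.exp_nat_mul]
      congr 1
      push_cast
      ring

omit [IsUltrametricDist K] [Fact p.Prime] [CharP K p] in
lemma term_norm (i : Fin N) {r : ℕ} (hr : r < N) :
    ‖D.c r * D.ζ i ^ p ^ r‖ ≤ Real.exp (-gg p D.ρ i r) := by
  rw [norm_mul, D.norm_ζ_pow]
  calc ‖D.c r‖ * Real.exp (-((p : ℝ) ^ r * D.ρ i))
      ≤ Real.exp (-(((p : ℝ) - 1) * tt p D.ρ r)) * Real.exp (-((p : ℝ) ^ r * D.ρ i)) := by
        gcongr
        exact D.c_norm r hr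
    _ = Real.exp (-gg p D.ρ i r) := by
        rw [← Real.exp_add]; congr 1; unfold gg; ring

/-- the partial sums of the relation `P_N(ζ_i) = 0`. -/
def yy (r0 : ℕ) (i : Fin N) : K := ∑ r ∈ range r0, D.c r * D.ζ i ^ p ^ r

omit [Fact p.Prime] [CharP K p] in
lemma yy_norm_of_le (hp : 1 ≤ p) (i : Fin N) {r0 : ℕ} (h : r0 ≤ (i : ℕ) + 1) :
    ‖D.yy r0 i‖ ≤ Real.exp (-gg p D.ρ i r0) := by
  refine IsUltrametricDist.norm_sum_le_of_forall_le_of_nonneg (Real.exp_pos _).le ?_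
  intro r hr
  have hr' : r < r0 := Finset.mem_range.mp hr
  have hrN : r < N := by have := i.2; omega
  refine (D.term_norm i hrN).trans (Real.exp_le_exp.mpr ?_)
  have := gg_anti hp D.ρ_anti i hr'.le h
  linarith

omit [Fact p.Prime] [CharP K p] in
lemma yy_norm_of_ge (hp : 1 ≤ p) (i : Fin N) {r0 : ℕ} (h : (i : ℕ) + 1 ≤ r0) (h' : r0 ≤ N) :
    ‖D.yy r0 i‖ ≤ Real.exp (-gg p D.ρ i r0) := by
  have hsplit : D.yy r0 i = D.ζ i ^ p ^ N + -∑ r ∈ Ico r0 N, D.c r * D.ζ i ^ p ^ r := by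
    rw [D.recur i, ← Finset.sum_range_add_sum_Ico _ h']
    simp [yy]
  rw [hsplit]
  refine (IsUltrametricDist.norm_add_le_max _ _).trans (max_le ?_ ?_)
  · rw [D.norm_ζ_pow]
    refine Real.exp_le_exp.mpr ?_
    have := gg_mono hp D.ρ_anti i (by omega : (i : ℕ) ≤ r0) h' le_rfl
    rw [gg_top] at this
    linarith
  · rw [norm_neg]
    refine IsUltrametricDist.norm_sum_le_of_forall_le_of_nonneg (Real.exp_pos _).le ?_
    intro r hr
    have hr' := Finset.mem_Ico.mp hr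
    refine (D.term_norm i hr'.2).trans (Real.exp_le_exp.mpr ?_)
    have := gg_mono hp D.ρ_anti i (by omega : (i : ℕ) ≤ r0) hr'.1 hr'.2.le
    linarith

omit [Fact p.Prime] [CharP K p] in
lemma yy_norm (hp : 1 ≤ p) (i : Fin N) {r0 : ℕ} (h' : r0 ≤ N) :
    ‖D.yy r0 i‖ ≤ Real.exp (-gg p D.ρ i r0) := by
  rcases le_total r0 ((i : ℕ) + 1) with h | h
  · exact D.yy_norm_of_le hp i h
  · exact D.yy_norm_of_ge hp i h h'

omit [IsUltrametricDist K] in
lemma x_eq_yy_pow {s j : ℕ} (h : s ≤ j) (i : Fin N) :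
    D.x s j i = D.yy (j - s) i ^ p ^ s := by
  simp only [x, yy]
  rw [Finset.sum_Ico_eq_sum_range, sum_pow_char_pow]
  refine Finset.sum_congr rfl fun r _ => ?_
  rw [mul_pow, ← pow_mul, ← pow_add]
  congr 2
  · congr 1; omega
  · congr 1; omega

omit [IsUltrametricDist K] in
/-- The recurrence `d_{s+N} = ∑_{r<N} c_r^{p^s} d_{s+r}`. -/
lemma recur_s (s : ℕ) (i : Fin N) :
    D.d (s + N) i = ∑ r ∈ range N, D.c r ^ p ^ s * D.d (s + r) i := by
  simp only [d]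
  have := congrArg (· ^ p ^ s) (D.recur i)
  simp only [sum_pow_char_pow] at this
  rw [pow_add, mul_comm (p ^ s), pow_mul, this]
  refine Finset.sum_congr rfl fun r _ => ?_
  rw [mul_pow, ← pow_mul, ← pow_add, add_comm r s]

omit [IsUltrametricDist K] in
/-- `x_{j-N,j} = d_j`. -/
lemma x_top (s : ℕ) : D.x s (s + N) = D.d (s + N) := by
  funext i
  rw [D.recur_s s i]
  simp only [x, d]
  rw [Finset.sum_Ico_eq_sum_range]
  have : s + N - s = N := by omega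
  rw [this]
  refine Finset.sum_congr rfl fun r _ => ?_
  congr 3
  omega

omit [IsUltrametricDist K] [Fact p.Prime] [CharP K p] in
lemma tau_le {s j : ℕ} (hp : 1 ≤ p) (h : s < j) (h' : j ≤ s + N) :
    D.tau s j ≤ ((p : ℝ) - 1) * (p : ℝ) ^ s * tt p D.ρ (j - s) := by
  have hp1 : (0 : ℝ) ≤ (p : ℝ) - 1 := by
    have : (1 : ℝ) ≤ p := by exact_mod_cast hp
    linarith
  unfold tau
  rw [mul_assoc _ (AA p D.ρ)]
  refine mul_le_mul_of_nonneg_left ?_ (mul_nonneg hp1 (by positivity))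
  rcases Nat.lt_or_ge (j - s) N with hlt | hge
  · exact D.reg _ (by omega) hlt
  · have heq : j - s = N := by omega
    rw [heq, psi_self D.one_sub_θN_ne, tt_of_le le_rfl]
    simp

/-- (Shear). -/
lemma shear {s j : ℕ} (h : s < j) (h' : j < s + N) :
    ‖D.c (j - s) ^ p ^ s‖ ≤ Real.exp (-D.tau s j) := by
  have h1 := D.c_norm (j - s) (by omega)
  refine (pow_p_le h1 s).trans (Real.exp_le_exp.mpr ?_)
  have := D.tau_le (one_le_of_prime p) h h'.le
  nlinarith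

/-- (Box), first part. -/
lemma box {s j : ℕ} (h : s < j) (h' : j ≤ s + N) (i : Fin N) :
    ‖D.x s j i‖ ≤ Real.exp (-(D.tau s j + (p : ℝ) ^ j * D.ρ i)) := by
  rw [D.x_eq_yy_pow h.le]
  have h1 := D.yy_norm (one_le_of_prime p) i (by omega : j - s ≤ N)
  refine (pow_p_le h1 s).trans (Real.exp_le_exp.mpr ?_)
  have h2 := D.tau_le (one_le_of_prime p) h h'
  have h3 : (p : ℝ) ^ s * gg p D.ρ i (j - s)
      = ((p : ℝ) - 1) * (p : ℝ) ^ s * tt p D.ρ (j - s) + (p : ℝ) ^ j * D.ρ i := by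
    unfold gg
    have : (p : ℝ) ^ j = (p : ℝ) ^ s * (p : ℝ) ^ (j - s) := by
      rw [← pow_add]; congr 1; omega
    rw [this]
    ring
  rw [h3]
  linarith

omit [IsUltrametricDist K] [Fact p.Prime] [CharP K p] in
lemma d_norm_le (i : Fin N) (j : ℕ) : ‖D.d j i‖ = Real.exp (-((p : ℝ) ^ j * D.ρ i)) :=
  D.norm_ζ_pow i j

/-- (Box), second part: the stage `j+1` basis with the radii of stage `j`. -/
lemma box' {s j : ℕ} (h : s ≤ j) (h' : j < s + N) (i : Fin N) :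
    ‖D.x s (j + 1) i‖ ≤ Real.exp (-(D.tau s j + (p : ℝ) ^ j * D.ρ i)) := by
  rcases h.lt_or_eq with hlt | rfl
  · rw [D.x_succ h]
    refine (IsUltrametricDist.norm_add_le_max _ _).trans (max_le (D.box hlt h'.le i) ?_)
    rw [norm_mul, D.d_norm_le]
    calc ‖D.c (j - s) ^ p ^ s‖ * Real.exp (-((p : ℝ) ^ j * D.ρ i))
        ≤ Real.exp (-D.tau s j) * Real.exp (-((p : ℝ) ^ j * D.ρ i)) := by
          gcongr
          exact D.shear hlt h'
      _ = _ := by rw [← Real.exp_add]; congr 1; ring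
  · rw [D.x_succ_self, norm_mul, D.d_norm_le]
    have h0 : ‖D.c 0 ^ p ^ s‖ ≤ Real.exp (-D.tau s s) := by
      have := pow_p_le (p := p) (le_of_eq D.c0_norm) s
      rw [D.tau_self]
      refine this.trans (le_of_eq ?_)
      congr 2
      ring
    calc ‖D.c 0 ^ p ^ s‖ * Real.exp (-((p : ℝ) ^ s * D.ρ i))
        ≤ Real.exp (-D.tau s s) * Real.exp (-((p : ℝ) ^ s * D.ρ i)) := by
          gcongr
      _ = _ := by rw [← Real.exp_add]; congr 1; ring


end Norms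

section Dual

open Matrix

/-- the Moore matrix with columns `d_s, …, d_{s+N-1}`. -/
def moore (s : ℕ) : Matrix (Fin N) (Fin N) K :=
  Matrix.of fun (i m : Fin N) => D.ζ i ^ p ^ (s + (m : ℕ))

/-- `Δ_s`. -/
def del (s : ℕ) : K := (D.moore s).det

lemma norm_del (s : ℕ) : ‖D.del s‖ = Real.exp (-((p : ℝ) ^ s * AA p D.ρ)) := D.moore_norm s

lemma del_ne (s : ℕ) : D.del s ≠ 0 := by
  rw [← norm_pos_iff, norm_del]; exact Real.exp_pos _

lemma c0_ne : D.c 0 ≠ 0 := by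
  rw [← norm_pos_iff, D.c0_norm]; exact Real.exp_pos _

/-- the first column index. -/
def z0 : Fin N := ⟨0, D.hN⟩

/-- `ν_s(y) = det[y, d_{s+1}, …, d_{s+N-1}]`. -/
def nu (s : ℕ) (y : Fin N → K) : K := Matrix.cramer (D.moore s) y D.z0

lemma nu_add (s : ℕ) (y y' : Fin N → K) : D.nu s (y + y') = D.nu s y + D.nu s y' := by
  simp [nu, map_add]

lemma nu_smul (s : ℕ) (a : K) (y : Fin N → K) : D.nu s (a • y) = a * D.nu s y := by
  simp [nu, map_smul]

lemma nu_neg (s : ℕ) (y : Fin N → K) : D.nu s (-y) = - D.nu s y := by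
  simp [nu, map_neg]

lemma nu_sum {ι : Type*} (t : Finset ι) (s : ℕ) (f : ι → Fin N → K) :
    D.nu s (∑ a ∈ t, f a) = ∑ a ∈ t, D.nu s (f a) := by
  simp [nu, map_sum, Finset.sum_apply]

lemma nu_eq_sum (s : ℕ) (y : Fin N → K) :
    D.nu s y = ∑ i, Matrix.adjugate (D.moore s) D.z0 i * y i := by
  simp [nu, Matrix.cramer_eq_adjugate_mulVec, Matrix.mulVec, dotProduct]

lemma nu_d_self (s : ℕ) : D.nu s (D.d s) = D.del s := by
  have h : D.d s = fun k => D.moore s k D.z0 := by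
    funext k; simp [d, moore, z0]
  rw [nu, Matrix.cramer_apply, h, Matrix.updateCol_eq_self]
  rfl

lemma nu_d_zero {s u : ℕ} (h : s < u) (h' : u < s + N) : D.nu s (D.d u) = 0 := by
  rw [nu, Matrix.cramer_apply]
  have hm : u - s < N := by omega
  have hne : D.z0 ≠ ⟨u - s, hm⟩ := by
    simp only [z0, ne_eq, Fin.mk.injEq]; omega
  refine Matrix.det_zero_of_column_eq hne ?_
  intro k
  rw [Matrix.updateCol_self, Matrix.updateCol_ne hne.symm]
  simp only [d, moore, Matrix.of_apply]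
  congr 2
  omega

/-- `x_{t,j}` as a combination of the `d_u`. -/
lemma x_eq_sum (t j : ℕ) :
    D.x t j = ∑ u ∈ Ico t j, D.c (u - t) ^ p ^ t • D.d u := by
  funext i
  simp [x, d, Finset.sum_apply]

/-- `ν_s` kills `x_{t,j}` for `s < t`. -/
lemma nu_x_of_lt {s t j : ℕ} (h : s < t) (hj : j ≤ s + N) : D.nu s (D.x t j) = 0 := by
  rw [x_eq_sum, nu_sum]
  refine Finset.sum_eq_zero fun u hu => ?_
  have hu' := Finset.mem_Ico.mp hu
  rw [nu_smul, D.nu_d_zero (by omega) (by omega), mul_zero]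

/-- `ν_s(x_{s,j}) = c_0^{p^s} Δ_s`. -/
lemma nu_x_self {s j : ℕ} (h : s < j) (hj : j ≤ s + N) :
    D.nu s (D.x s j) = D.c 0 ^ p ^ s * D.del s := by
  rw [x_eq_sum, Finset.sum_eq_sum_Ico_succ_bot h, nu_add, nu_sum, nu_smul, nu_d_self]
  rw [Finset.sum_eq_zero, add_zero]
  · simp
  · intro u hu
    have hu' := Finset.mem_Ico.mp hu
    rw [nu_smul, D.nu_d_zero (by omega) (by omega), mul_zero]

variable [Fact p.Prime] [CharP K p]

/-- `ν_s` kills `x_{t,j}` for `t < s` on the window. -/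
lemma nu_x_of_gt {s t j : ℕ} (h : t < s) (hs : s < j) (hj : j ≤ t + N) :
    D.nu s (D.x t j) = 0 := by
  have hsplit : D.x t j = D.x t (t + N) + - ∑ u ∈ Ico j (t + N), D.c (u - t) ^ p ^ t • D.d u := by
    rw [x_eq_sum, x_eq_sum, ← Finset.sum_Ico_consecutive _ (by omega : t ≤ j) hj]
    simp
  rw [hsplit, nu_add, nu_neg, nu_sum, D.x_top, D.nu_d_zero (by omega) (by omega), Finset.sum_eq_zero]
  · simp
  · intro u hu
    have hu' := Finset.mem_Ico.mp hu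
    rw [nu_smul, D.nu_d_zero (by omega) (by omega), mul_zero]

/-- The `s`-th dual coordinate `ξ_s`. -/
noncomputable def xi (s : ℕ) (y : Fin N → K) : K := D.nu s y / (D.c 0 ^ p ^ s * D.del s)

/-- coefficients of the linear form `ξ_s`. -/
noncomputable def xiCoef (s : ℕ) (i : Fin N) : K :=
  Matrix.adjugate (D.moore s) D.z0 i / (D.c 0 ^ p ^ s * D.del s)

lemma xi_eq_sum (s : ℕ) (y : Fin N → K) : D.xi s y = ∑ i, D.xiCoef s i * y i := by
  simp only [xi, xiCoef, nu_eq_sum, Finset.sum_div]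
  refine Finset.sum_congr rfl fun i _ => ?_
  ring

lemma denom_ne (s : ℕ) : D.c 0 ^ p ^ s * D.del s ≠ 0 :=
  mul_ne_zero (pow_ne_zero _ D.c0_ne) (D.del_ne s)

lemma xi_add (s : ℕ) (y y' : Fin N → K) : D.xi s (y + y') = D.xi s y + D.xi s y' := by
  simp [xi, nu_add, add_div]

lemma xi_smul (s : ℕ) (a : K) (y : Fin N → K) : D.xi s (a • y) = a * D.xi s y := by
  simp [xi, nu_smul, mul_div_assoc]

/-- the pairing `ξ_s(x_{t,j}) = δ_{s,t}` on a window. -/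
lemma xi_x {s t j : ℕ} (hs : s < j) (hs' : j ≤ s + N) (ht : t < j) (ht' : j ≤ t + N) :
    D.xi s (D.x t j) = if t = s then 1 else 0 := by
  split_ifs with h
  · subst h
    rw [xi, D.nu_x_self hs hs', div_self (D.denom_ne _)]
  · rw [xi]
    rcases lt_or_gt_of_ne h with hlt | hgt
    · rw [D.nu_x_of_gt hlt hs ht', zero_div]
    · rw [D.nu_x_of_lt hgt hs', zero_div]


section Expansion

open Matrix

/-- the matrix of the dual coordinates at stage `j`. -/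
noncomputable def dualMat (j : ℕ) : Matrix (Fin N) (Fin N) K :=
  Matrix.of fun u i => D.xiCoef (sl N j u) i

/-- the matrix of the basis at stage `j`. -/
def baseMat (j : ℕ) : Matrix (Fin N) (Fin N) K :=
  Matrix.of fun i u => D.x (sl N j u) j i

lemma dualMat_mul_baseMat {j : ℕ} (hj : N ≤ j) : D.dualMat j * D.baseMat j = 1 := by
  ext u v
  simp only [Matrix.mul_apply, dualMat, baseMat, Matrix.of_apply, Matrix.one_apply]
  have h := D.xi_eq_sum (sl N j u) (D.x (sl N j v) j)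
  rw [← h, D.xi_x (sl_window hj u).1 (sl_window hj u).2 (sl_window hj v).1 (sl_window hj v).2]
  by_cases huv : u = v
  · subst huv; simp
  · have : sl N j v ≠ sl N j u := fun h => huv (sl_injective h).symm
    simp [huv, this]

lemma baseMat_mul_dualMat {j : ℕ} (hj : N ≤ j) : D.baseMat j * D.dualMat j = 1 :=
  mul_eq_one_comm.mp (D.dualMat_mul_baseMat hj)

/-- The expansion of a vector in the basis of stage `j`. -/
lemma expansion {j : ℕ} (hj : N ≤ j) (y : Fin N → K) (i : Fin N) :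
    y i = ∑ u, D.xi (sl N j u) y * D.x (sl N j u) j i := by
  have h := congrFun (congrArg (fun M => M *ᵥ y) (D.baseMat_mul_dualMat hj)) i
  simp only [Matrix.one_mulVec, ← Matrix.mulVec_mulVec] at h
  rw [← h]
  simp only [Matrix.mulVec, dotProduct, baseMat, dualMat, Matrix.of_apply, D.xi_eq_sum]
  refine Finset.sum_congr rfl fun u _ => ?_
  ring

/-- `L_j ξ = ∑_u ξ_u x_{sl j u, j}`. -/
def LL (j : ℕ) (ξ : Fin N → K) : Fin N → K := fun i => ∑ u, ξ u * D.x (sl N j u) j i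

lemma xi_LL {j : ℕ} (hj : N ≤ j) (ξ : Fin N → K) (v : Fin N) : D.xi (sl N j v) (D.LL j ξ) = ξ v := by
  have h : D.LL j ξ = ∑ u, ξ u • D.x (sl N j u) j := by
    funext i; simp [LL, Finset.sum_apply]
  rw [h, D.xi_eq_sum]
  have : ∀ i, D.xiCoef (sl N j v) i * (∑ u, ξ u • D.x (sl N j u) j) i
      = ∑ u, ξ u * (D.xiCoef (sl N j v) i * D.x (sl N j u) j i) := by
    intro i
    simp only [Finset.sum_apply, Pi.smul_apply, smul_eq_mul, Finset.mul_sum]
    refine Finset.sum_congr rfl fun u _ => ?_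
    ring
  simp only [this]
  rw [Finset.sum_comm]
  have h2 : ∀ u, ∑ i, ξ u * (D.xiCoef (sl N j v) i * D.x (sl N j u) j i)
      = ξ u * (if sl N j u = sl N j v then 1 else 0) := by
    intro u
    rw [← Finset.mul_sum, ← D.xi_eq_sum,
      D.xi_x (sl_window hj v).1 (sl_window hj v).2 (sl_window hj u).1 (sl_window hj u).2]
  simp only [h2]
  rw [Finset.sum_eq_single v]
  · simp
  · intro u _ huv
    have : sl N j u ≠ sl N j v := fun h => huv (sl_injective h)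
    simp [this]
  · simp

lemma LL_xi {j : ℕ} (hj : N ≤ j) (y : Fin N → K) : D.LL j (fun u => D.xi (sl N j u) y) = y := by
  funext i
  exact (D.expansion hj y i).symm

/-- The slot of `j`, as an element of `Fin N`. -/
def i0 (j : ℕ) : Fin N := slotOf D.hN j

/-- The shear relating the coordinates of stage `j` and stage `j+1`
(Step 1 of E5): `ξ_{j-N} = c_0^{p^j} ξ'_j + ∑_s c_{j-s}^{p^s} ξ'_s`. -/
noncomputable def shearMap (j : ℕ) (ξ' : Fin N → K) : Fin N → K := fun u =>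
  if u = D.i0 j then
    D.c 0 ^ p ^ j * ξ' (D.i0 j)
      + ∑ v ∈ univ.erase (D.i0 j), D.c (j - sl N j v) ^ p ^ (sl N j v) * ξ' v
  else ξ' u

lemma LL_shearMap {j : ℕ} (hj : N ≤ j) (ξ' : Fin N → K) :
    D.LL j (D.shearMap j ξ') = D.LL (j + 1) ξ' := by
  funext i
  simp only [LL]
  have hi0 : D.i0 j ∈ (univ : Finset (Fin N)) := mem_univ _
  rw [← Finset.add_sum_erase _ _ hi0, ← Finset.add_sum_erase (a := D.i0 j) _ (fun u => ξ' u * _) hi0]
  have h1 : sl N j (D.i0 j) = j - N := sl_slotOf D.hN hj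
  have h2 : sl N (j + 1) (D.i0 j) = j := sl_succ_slotOf D.hN hj
  have h3 : D.x (j - N) j = D.d j := by
    have := D.x_top (j - N)
    rwa [Nat.sub_add_cancel hj] at this
  rw [h1, h2, h3, D.x_succ_self]
  have h4 : ∀ u ∈ univ.erase (D.i0 j),
      ξ' u * D.x (sl N (j + 1) u) (j + 1) i
        = ξ' u * D.x (sl N j u) j i
          + (D.c (j - sl N j u) ^ p ^ (sl N j u) * ξ' u) * D.d j i := by
    intro u hu
    have hu' : u ≠ slotOf D.hN j := Finset.ne_of_mem_erase hu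
    rw [sl_succ_of_ne D.hN hj hu', D.x_succ (sl_window hj u).1.le]
    ring
  rw [Finset.sum_congr rfl h4, Finset.sum_add_distrib, ← Finset.sum_mul]
  have h5 : ∑ u ∈ univ.erase (D.i0 j), D.shearMap j ξ' u * D.x (sl N j u) j i
      = ∑ u ∈ univ.erase (D.i0 j), ξ' u * D.x (sl N j u) j i := by
    refine Finset.sum_congr rfl fun u hu => ?_
    simp [shearMap, Finset.ne_of_mem_erase hu]
  rw [h5]
  simp only [shearMap, if_true]
  ring

end Expansion


end Dual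

omit [NormedField K] in
/-- the sum `A^{(i)}`. -/
noncomputable def Ai {N' : ℕ} (p : ℕ) (ρ : Fin (N' + 1) → ℝ) (i : Fin (N' + 1)) : ℝ :=
  ∑ b : Fin N', (p : ℝ) ^ (b : ℕ) * ρ (i.succAbove b)

lemma Ai_nonneg {N' : ℕ} {p : ℕ} {ρ : Fin (N' + 1) → ℝ} (hρ : ∀ i, 0 < ρ i) (i : Fin (N' + 1)) :
    0 ≤ Ai p ρ i :=
  Finset.sum_nonneg fun b _ => mul_nonneg (by positivity) (hρ _).le

/-- The real inequality behind (Carry). -/
lemma carry_real {N' : ℕ} {p : ℕ} (hp : 1 ≤ p) {ρ : Fin (N' + 1) → ℝ} (hanti : Antitone ρ)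
    (i : Fin (N' + 1)) :
    (p : ℝ) * AA p ρ - (p : ℝ) * Ai p ρ i ≤ (p : ℝ) ^ (N' + 1) * ρ i := by
  have hp0 : (0 : ℝ) ≤ (p : ℝ) := by positivity
  have hp1 : (1 : ℝ) ≤ (p : ℝ) := by exact_mod_cast hp
  have hA : AA p ρ = (p : ℝ) ^ (i : ℕ) * ρ i
      + ∑ b : Fin N', (p : ℝ) ^ ((i.succAbove b : Fin (N' + 1)) : ℕ) * ρ (i.succAbove b) := by
    rw [AA_eq_sum, Fin.sum_univ_succAbove _ i]
  have hterm : ∀ b : Fin N',
      (p : ℝ) ^ ((i.succAbove b : Fin (N' + 1)) : ℕ) * ρ (i.succAbove b)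
          - (p : ℝ) ^ (b : ℕ) * ρ (i.succAbove b)
        ≤ ((p : ℝ) ^ ((i.succAbove b : Fin (N' + 1)) : ℕ) - (p : ℝ) ^ (b : ℕ)) * ρ i := by
    intro b
    by_cases h : b.castSucc < i
    · rw [Fin.succAbove_of_castSucc_lt _ _ h]
      simp
    · have h' : i ≤ b.castSucc := not_lt.mp h
      rw [Fin.succAbove_of_le_castSucc _ _ h']
      have h1 : ρ b.succ ≤ ρ i := hanti (h'.trans (Fin.castSucc_lt_succ).le)
      have h2 : (p : ℝ) ^ (b : ℕ) ≤ (p : ℝ) ^ ((b.succ : Fin (N' + 1)) : ℕ) := by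
        simpa using pow_le_pow_right₀ hp1 (Nat.le_succ (b : ℕ))
      have : ((p : ℝ) ^ ((b.succ : Fin (N' + 1)) : ℕ) - (p : ℝ) ^ (b : ℕ)) * ρ b.succ
          ≤ ((p : ℝ) ^ ((b.succ : Fin (N' + 1)) : ℕ) - (p : ℝ) ^ (b : ℕ)) * ρ i :=
        mul_le_mul_of_nonneg_left h1 (by linarith)
      linarith
  have hsum : AA p ρ - Ai p ρ i ≤ (p : ℝ) ^ N' * ρ i := by
    have h1 : AA p ρ - Ai p ρ i = (p : ℝ) ^ (i : ℕ) * ρ i
        + ∑ b : Fin N', ((p : ℝ) ^ ((i.succAbove b : Fin (N' + 1)) : ℕ) * ρ (i.succAbove b)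
          - (p : ℝ) ^ (b : ℕ) * ρ (i.succAbove b)) := by
      rw [hA, Finset.sum_sub_distrib, Ai]; ring
    have h2 : ∑ b : Fin N', ((p : ℝ) ^ ((i.succAbove b : Fin (N' + 1)) : ℕ) * ρ (i.succAbove b)
          - (p : ℝ) ^ (b : ℕ) * ρ (i.succAbove b))
        ≤ ∑ b : Fin N', ((p : ℝ) ^ ((i.succAbove b : Fin (N' + 1)) : ℕ) - (p : ℝ) ^ (b : ℕ)) * ρ i :=
      Finset.sum_le_sum fun b _ => hterm b
    have h3 : (p : ℝ) ^ (i : ℕ)
        + ∑ b : Fin N', ((p : ℝ) ^ ((i.succAbove b : Fin (N' + 1)) : ℕ) - (p : ℝ) ^ (b : ℕ))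
        = (p : ℝ) ^ N' := by
      have e1 := Fin.sum_univ_succAbove (fun l : Fin (N' + 1) => (p : ℝ) ^ (l : ℕ)) i
      have e2 := Fin.sum_univ_castSucc (fun l : Fin (N' + 1) => (p : ℝ) ^ (l : ℕ))
      simp only [Fin.val_castSucc, Fin.val_last] at e2
      rw [Finset.sum_sub_distrib]
      linarith
    rw [h1]
    rw [← Finset.sum_mul] at h2
    calc _ ≤ (p : ℝ) ^ (i : ℕ) * ρ i
          + (∑ b : Fin N', ((p : ℝ) ^ ((i.succAbove b : Fin (N' + 1)) : ℕ) - (p : ℝ) ^ (b : ℕ))) * ρ i := by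
            linarith
      _ = ((p : ℝ) ^ (i : ℕ)
        + ∑ b : Fin N', ((p : ℝ) ^ ((i.succAbove b : Fin (N' + 1)) : ℕ) - (p : ℝ) ^ (b : ℕ))) * ρ i := by
            ring
      _ = _ := by rw [h3]
  have : (p : ℝ) * AA p ρ - (p : ℝ) * Ai p ρ i = (p : ℝ) * (AA p ρ - Ai p ρ i) := by ring
  rw [this, pow_succ']
  calc _ ≤ (p : ℝ) * ((p : ℝ) ^ N' * ρ i) := mul_le_mul_of_nonneg_left hsum hp0
    _ = _ := by ring

section Carry

variable [IsUltrametricDist K] [Fact p.Prime]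

omit [NormedField K] [IsUltrametricDist K] [Fact p.Prime] in
/-- An ultrametric bound for determinants. -/
lemma norm_det_le {K' : Type*} [NormedField K'] [IsUltrametricDist K'] {m : ℕ}
    (M : Matrix (Fin m) (Fin m) K') {B : ℝ} (hB : 0 ≤ B)
    (h : ∀ σ : Equiv.Perm (Fin m), ∏ b, ‖M (σ b) b‖ ≤ B) : ‖M.det‖ ≤ B := by
  rw [Matrix.det_apply]
  refine IsUltrametricDist.norm_sum_le_of_forall_le_of_nonneg hB fun σ _ => ?_
  have : ‖(Equiv.Perm.sign σ) • ∏ b, M (σ b) b‖ = ‖∏ b, M (σ b) b‖ := by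
    rcases Int.units_eq_one_or (Equiv.Perm.sign σ) with h1 | h1 <;> simp [h1]
  rw [this, norm_prod]
  exact h σ

/-- The cofactor estimate, by the rearrangement inequality. -/
lemma adj_norm_le {N' : ℕ} (D : Data p n (N' + 1) K) (s : ℕ) (i : Fin (N' + 1)) :
    ‖Matrix.adjugate (D.moore s) D.z0 i‖
      ≤ Real.exp (-((p : ℝ) ^ (s + 1) * Ai p D.ρ i)) := by
  have hz : D.z0 = 0 := rfl
  rw [hz, Matrix.adjugate_fin_succ_eq_det_submatrix, norm_mul, norm_pow, norm_neg, norm_one, one_pow,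
    one_mul]
  refine norm_det_le _ (Real.exp_pos _).le fun σ => ?_
  have hentry : ∀ b : Fin N',
      ‖(D.moore s).submatrix i.succAbove (Fin.succAbove 0) (σ b) b‖
        = Real.exp (-((p : ℝ) ^ (s + 1) * ((p : ℝ) ^ (b : ℕ) * D.ρ (i.succAbove (σ b))))) := by
    intro b
    simp only [Matrix.submatrix_apply, moore, Matrix.of_apply, Fin.succAbove_zero, Fin.val_succ]
    rw [D.norm_ζ_pow]
    congr 2
    rw [show s + ((b : ℕ) + 1) = s + 1 + (b : ℕ) by omega, pow_add]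
    ring
  simp only [hentry]
  rw [← Real.exp_sum]
  refine Real.exp_le_exp.mpr ?_
  simp only [Finset.sum_neg_distrib, neg_le_neg_iff, ← Finset.mul_sum]
  refine mul_le_mul_of_nonneg_left ?_ (by positivity)
  -- rearrangement
  have hanti : Antivary (fun b : Fin N' => (p : ℝ) ^ (b : ℕ)) (fun b : Fin N' => D.ρ (i.succAbove b)) := by
    intro a b hab
    have hba : b ≤ a := by
      by_contra hc
      have h1 : a ≤ b := (not_le.mp hc).le
      have h2 := D.ρ_anti ((Fin.strictMono_succAbove i).monotone h1)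
      exact absurd hab (not_lt.mpr h2)
    have hp1 : (1 : ℝ) ≤ (p : ℝ) := by exact_mod_cast one_le_of_prime p
    exact pow_le_pow_right₀ hp1 hba
  exact hanti.sum_mul_le_sum_mul_comp_perm


variable [CharP K p]

omit [IsUltrametricDist K] in
lemma norm_c0_pow (s : ℕ) : ‖D.c 0 ^ p ^ s‖ = Real.exp (-D.tau s s) := by
  rw [norm_pow, D.c0_norm, ← Real.exp_nat_mul, D.tau_self]
  congr 1
  push_cast
  ring

omit [IsUltrametricDist K] in
lemma norm_denom (s : ℕ) :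
    ‖D.c 0 ^ p ^ s * D.del s‖ = Real.exp (-((p : ℝ) ^ (s + 1) * AA p D.ρ)) := by
  rw [norm_mul, D.norm_c0_pow, D.norm_del, ← Real.exp_add, D.tau_self]
  congr 1
  rw [pow_succ]
  ring

/-- the estimate of the cofactors with the real inequality inside: for every `s`, `i`. -/
lemma xiCoef_norm_le (s : ℕ) (i : Fin N) :
    ‖D.xiCoef s i‖ ≤ Real.exp ((p : ℝ) ^ s * ((p : ℝ) ^ N * D.ρ i)) := by
  obtain ⟨N', rfl⟩ : ∃ N', N = N' + 1 := ⟨N - 1, by have := D.hN; omega⟩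
  rw [xiCoef, norm_div, D.norm_denom, div_le_iff₀ (Real.exp_pos _), ← Real.exp_add]
  refine (D.adj_norm_le s i).trans (Real.exp_le_exp.mpr ?_)
  have h := carry_real (one_le_of_prime p) D.ρ_anti i
  have hs : (0 : ℝ) ≤ (p : ℝ) ^ s := by positivity
  have := mul_le_mul_of_nonneg_left h hs
  rw [pow_succ]
  nlinarith

/-- A cruder form, for E9. -/
lemma xiCoef_norm_le' (s : ℕ) (i : Fin N) :
    ‖D.xiCoef s i‖ ≤ Real.exp ((p : ℝ) ^ (s + 1) * AA p D.ρ) := by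
  obtain ⟨N', rfl⟩ : ∃ N', N = N' + 1 := ⟨N - 1, by have := D.hN; omega⟩
  rw [xiCoef, norm_div, D.norm_denom, div_le_iff₀ (Real.exp_pos _), ← Real.exp_add]
  refine (D.adj_norm_le s i).trans (Real.exp_le_exp.mpr ?_)
  have h := Ai_nonneg (p := p) D.ρ_pos i
  have hs : (0 : ℝ) ≤ (p : ℝ) ^ (s + 1) := by positivity
  have := mul_nonneg hs h
  have h0 : (p : ℝ) ^ (s + 1) * AA p D.ρ + -((p : ℝ) ^ (s + 1) * AA p D.ρ) = 0 := by ring
  linarith

omit [IsUltrametricDist K] [CharP K p] in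
lemma tau_nonneg {s j : ℕ} (h : s ≤ j) (h' : j ≤ s + N) : 0 ≤ D.tau s j := by
  have hp1 : (0 : ℝ) ≤ (p : ℝ) - 1 := by
    have : (1 : ℝ) ≤ p := by exact_mod_cast one_le_of_prime p
    linarith
  unfold tau
  have := psi_le_one D.θ_pos D.θ_lt D.hN (by omega : j - s ≤ N)
  exact mul_nonneg (mul_nonneg (mul_nonneg hp1 (by positivity)) (AA_nonneg D.ρ_pos)) (by linarith)

/-- (Carry), coefficient form: for `s ≤ j`, the form `ξ_s` is strictly less than one on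
the box `v(C_i) ≥ q p^j ρ_i`. -/
lemma carry_coef {s j : ℕ} (h : s ≤ j) (i : Fin N) :
    ‖D.xiCoef s i‖ * Real.exp (-((p : ℝ) ^ n * (p : ℝ) ^ j * D.ρ i)) < 1 := by
  have hp1 : (1 : ℝ) < (p : ℝ) := by exact_mod_cast (Fact.out : p.Prime).one_lt
  have h1 := D.xiCoef_norm_le s i
  have hlt : (p : ℝ) ^ s * ((p : ℝ) ^ N * D.ρ i) < (p : ℝ) ^ n * (p : ℝ) ^ j * D.ρ i := by
    have h2 : (p : ℝ) ^ s ≤ (p : ℝ) ^ j := pow_le_pow_right₀ hp1.le h
    have h3 : (p : ℝ) ^ N < (p : ℝ) ^ n := pow_lt_pow_right₀ hp1 D.hNn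
    have hρ := D.ρ_pos i
    have h4 : (p : ℝ) ^ s * (p : ℝ) ^ N < (p : ℝ) ^ n * (p : ℝ) ^ j := by
      calc (p : ℝ) ^ s * (p : ℝ) ^ N ≤ (p : ℝ) ^ j * (p : ℝ) ^ N := by gcongr
        _ = (p : ℝ) ^ N * (p : ℝ) ^ j := by ring
        _ < (p : ℝ) ^ n * (p : ℝ) ^ j := by
          exact mul_lt_mul_of_pos_right h3 (by positivity)
    calc (p : ℝ) ^ s * ((p : ℝ) ^ N * D.ρ i) = ((p : ℝ) ^ s * (p : ℝ) ^ N) * D.ρ i := by ring
      _ < ((p : ℝ) ^ n * (p : ℝ) ^ j) * D.ρ i := mul_lt_mul_of_pos_right h4 hρ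
  calc ‖D.xiCoef s i‖ * Real.exp (-((p : ℝ) ^ n * (p : ℝ) ^ j * D.ρ i))
      ≤ Real.exp ((p : ℝ) ^ s * ((p : ℝ) ^ N * D.ρ i))
          * Real.exp (-((p : ℝ) ^ n * (p : ℝ) ^ j * D.ρ i)) := by gcongr
    _ = Real.exp ((p : ℝ) ^ s * ((p : ℝ) ^ N * D.ρ i) + -((p : ℝ) ^ n * (p : ℝ) ^ j * D.ρ i)) := by
        rw [Real.exp_add]
    _ < 1 := by
        rw [Real.exp_lt_one_iff]  
        linarith

/-- (Carry), coefficient form with the radius: `‖ξ_s coefficient‖ · exp(-q p^j ρ_i) < r_{s,j}`. -/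
lemma carry_coef_tau {s j : ℕ} (h : s ≤ j) (h' : j ≤ s + N) (i : Fin N) :
    ‖D.xiCoef s i‖ * Real.exp (-((p : ℝ) ^ n * (p : ℝ) ^ j * D.ρ i)) < Real.exp (D.tau s j) :=
  (D.carry_coef h i).trans_le (Real.one_le_exp (D.tau_nonneg h h'))

/-- (Carry), vector form. -/
lemma carry_vec {s j : ℕ} (h : s ≤ j) (h' : j ≤ s + N) (C : Fin N → K)
    (hC : ∀ i, ‖C i‖ ≤ Real.exp (-((p : ℝ) ^ n * (p : ℝ) ^ j * D.ρ i))) :
    ‖D.xi s C‖ < Real.exp (D.tau s j) := by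
  rw [D.xi_eq_sum]
  have hne : (Finset.univ : Finset (Fin N)).Nonempty := ⟨D.z0, mem_univ _⟩
  obtain ⟨i, -, hi⟩ := IsUltrametricDist.exists_norm_finsetSum_le_of_nonempty hne
    (fun i => D.xiCoef s i * C i)
  refine hi.trans_lt ?_
  rw [norm_mul]
  calc ‖D.xiCoef s i‖ * ‖C i‖
      ≤ ‖D.xiCoef s i‖ * Real.exp (-((p : ℝ) ^ n * (p : ℝ) ^ j * D.ρ i)) := by
        gcongr
        exact hC i
    _ < _ := D.carry_coef_tau h h' i

end Carry

end Data

end Crest.Agent.LT.Geom
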