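import Crest.Agent.Lib.LubinTate.ChainDickson
import Crest.Agent.Lib.LubinTate.ChainGeom

/-!
# Bridge: a good tuple (`ChainDickson`) gives the data of the chain geometry (`ChainGeom`)
-/

set_option autoImplicit false

namespace Crest.Agent.LT.Dickson

variable {K : Type*} [NormedField K] [IsUltrametricDist K] {p n N : ℕ} [Fact p.Prime] [CharP K p]
  {ζ : Fin N → K} {ρ : Fin N → ℝ}

theorem geom_tt_eq (p : ℕ) (ρ : Fin N → ℝ) (r : ℕ) : Geom.tt p ρ r = tt p ρ r := by
  unfold Geom.tt tt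
  rw [Finset.sum_filter]

theorem geom_AA_eq (p : ℕ) (ρ : Fin N → ℝ) : Geom.AA p ρ = AA p ρ := by
  unfold Geom.AA
  rw [geom_tt_eq, tt_zero]

theorem geom_psi_eq (θ : ℝ) (N m : ℕ) : Geom.psi θ N m = psi θ N m := rfl

/-- A good tuple (with `θ = p q^{-1/N}`, `0 < N < n`) fills the hypothesis structure of
`ChainGeom`. The coefficients are `dickC p ζ`. -/
noncomputable def GoodTuple.toData (hG : GoodTuple p (thetaReal p n N) ζ ρ) (hN : 0 < N)
    (hNn : N < n) : Geom.Data p n N K where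
  θ := thetaReal p n N
  ζ := ζ
  ρ := ρ
  c := dickC p ζ
  hN := hN
  hNn := hNn
  θ_pos := thetaReal_pos (Fact.out : p.Prime).pos n N
  θ_lt := thetaReal_lt_one (Fact.out : p.Prime).one_lt hN.ne' hNn
  θ_pow := by
    have hp0 : (0 : ℝ) < (p : ℝ) := by exact_mod_cast (Fact.out : p.Prime).pos
    rw [thetaReal_pow (Fact.out : p.Prime).pos n hN.ne']
    field_simp
  norm_ζ := hG.norm_eq
  ρ_pos := hG.rho_pos
  ρ_anti := hG.anti
  reg := by
    intro r h1 h2
    rw [geom_AA_eq, geom_tt_eq, geom_psi_eq]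
    exact hG.reg r h1 h2
  c_norm := by
    intro r _
    rw [geom_tt_eq]
    exact hG.norm_dickC_le r
  c0_norm := by
    rw [geom_AA_eq]
    exact hG.norm_dickC_zero
  recur := fun i => GoodTuple.dickC_rec (p := p) (ζ := ζ) i
  moore_norm := by
    intro s
    rw [geom_AA_eq]
    exact hG.norm_mooreDet s

end Crest.Agent.LT.Dickson
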