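import Mathlib

set_option autoImplicit false

namespace Crest.Agent.LT.Dickson

open Finset Polynomial

section Dickson

variable {K : Type*} [Field K] (p : ℕ) (ζ : ℕ → K)

/-- Coefficients `c^{(i)}_r` of the Dickson polynomial `P_i = ∑ c^{(i)}_r T^{p^r}`. -/
noncomputable def dCoef : ℕ → ℕ → K
  | 0 => fun r => if r = 0 then 1 else 0
  | i + 1 => fun r =>
      (if r = 0 then 0 else (dCoef i (r - 1)) ^ p)
        - (∑ s ∈ range (i + 1), dCoef i s * ζ i ^ p ^ s) ^ (p - 1) * dCoef i r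

/-- The Dickson polynomial function `P_i`. -/
noncomputable def dP (i : ℕ) (x : K) : K := ∑ s ∈ range (i + 1), dCoef p ζ i s * x ^ p ^ s

/-- `β_i = P_i(ζ_i)`. -/
noncomputable def dBeta (i : ℕ) : K := dP p ζ i (ζ i)

theorem dCoef_zero (r : ℕ) : dCoef p ζ 0 r = if r = 0 then 1 else 0 := rfl

theorem dCoef_succ (i r : ℕ) : dCoef p ζ (i + 1) r =
    (if r = 0 then 0 else (dCoef p ζ i (r - 1)) ^ p) - dBeta p ζ i ^ (p - 1) * dCoef p ζ i r := rfl

theorem dCoef_succ_zero (i : ℕ) : dCoef p ζ (i + 1) 0 =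
    - (dBeta p ζ i ^ (p - 1) * dCoef p ζ i 0) := by
  rw [dCoef_succ]; simp

theorem dCoef_succ_succ (i r : ℕ) : dCoef p ζ (i + 1) (r + 1) =
    (dCoef p ζ i r) ^ p - dBeta p ζ i ^ (p - 1) * dCoef p ζ i (r + 1) := by
  rw [dCoef_succ]; simp

variable [Fact p.Prime]

theorem dCoef_of_gt (i r : ℕ) (h : i < r) : dCoef p ζ i r = 0 := by
  have hp : p ≠ 0 := (Fact.out : p.Prime).ne_zero
  induction i generalizing r with
  | zero =>
    rw [dCoef_zero, if_neg (by omega)]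
  | succ i ih =>
    obtain ⟨r, rfl⟩ : ∃ r', r = r' + 1 := ⟨r - 1, by omega⟩
    rw [dCoef_succ_succ, ih r (by omega), ih (r + 1) (by omega)]
    simp [hp]

theorem dCoef_self (i : ℕ) : dCoef p ζ i i = 1 := by
  induction i with
  | zero => simp [dCoef_zero]
  | succ i ih =>
    rw [dCoef_succ_succ, ih, dCoef_of_gt p ζ i (i + 1) (by omega)]
    simp

variable [CharP K p]

theorem dP_succ (i : ℕ) (x : K) :
    dP p ζ (i + 1) x = (dP p ζ i x) ^ p - dBeta p ζ i ^ (p - 1) * dP p ζ i x := by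
  unfold dP
  rw [sum_pow_char p]
  rw [Finset.sum_range_succ' _ (i + 1)]
  simp only [dCoef_succ_succ, dCoef_succ_zero]
  have h1 : ∑ s ∈ range (i + 1), dBeta p ζ i ^ (p - 1) * dCoef p ζ i (s + 1) * x ^ p ^ (s + 1)
      = dBeta p ζ i ^ (p - 1) * ∑ s ∈ range (i + 1), dCoef p ζ i s * x ^ p ^ s
        - dBeta p ζ i ^ (p - 1) * (dCoef p ζ i 0 * x ^ p ^ 0) := by
    have := Finset.sum_range_succ' (fun s => dCoef p ζ i s * x ^ p ^ s) (i + 1)
    rw [Finset.sum_range_succ, dCoef_of_gt p ζ i (i + 1) (by omega)] at this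
    simp only [zero_mul, add_zero] at this
    rw [this, mul_add, Finset.mul_sum]
    simp only [mul_assoc, add_sub_cancel_right]
  simp only [sub_mul, Finset.sum_sub_distrib]
  rw [h1]
  have h2 : ∀ s ∈ range (i + 1), dCoef p ζ i s ^ p * x ^ p ^ (s + 1)
      = (dCoef p ζ i s * x ^ p ^ s) ^ p := by
    intro s _
    rw [mul_pow, ← pow_mul, pow_succ]
  rw [Finset.sum_congr rfl h2]
  ring

theorem dP_add (i : ℕ) (x y : K) : dP p ζ i (x + y) = dP p ζ i x + dP p ζ i y := by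
  unfold dP
  rw [← Finset.sum_add_distrib]
  refine Finset.sum_congr rfl fun s _ => ?_
  rw [add_pow_char_pow, mul_add]

theorem dP_sub (i : ℕ) (x y : K) : dP p ζ i (x - y) = dP p ζ i x - dP p ζ i y := by
  unfold dP
  rw [← Finset.sum_sub_distrib]
  refine Finset.sum_congr rfl fun s _ => ?_
  rw [sub_pow_char_pow, mul_sub]

omit [Fact p.Prime] in
theorem zcast_pow_pow [Fact p.Prime] (a : ZMod p) (s : ℕ) : (ZMod.cast a : K) ^ p ^ s = (ZMod.cast a : K) := by
  have h := ZMod.pow_card_pow (p := p) (n := s) a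
  calc (ZMod.cast a : K) ^ p ^ s = ZMod.castHom (dvd_refl p) K (a ^ p ^ s) := by
        rw [map_pow]; rfl
    _ = ZMod.cast a := by rw [h]; rfl

theorem dP_cast_mul (i : ℕ) (a : ZMod p) (x : K) :
    dP p ζ i ((ZMod.cast a : K) * x) = (ZMod.cast a : K) * dP p ζ i x := by
  unfold dP
  rw [Finset.mul_sum]
  refine Finset.sum_congr rfl fun s _ => ?_
  rw [mul_pow, zcast_pow_pow]
  ring

omit [Fact p.Prime] in
theorem prod_sub_zcast [Fact p.Prime] (u : K) : ∏ a : ZMod p, (u - (ZMod.cast a : K)) = u ^ p - u := by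
  classical
  have hp1 : 1 < p := (Fact.out : p.Prime).one_lt
  have hroots : (X ^ p - X : (ZMod p)[X]).roots = Finset.univ.val := by
    have := FiniteField.roots_X_pow_card_sub_X (ZMod p)
    rwa [ZMod.card] at this
  have hmonic : (X ^ p - X : (ZMod p)[X]).Monic :=
    Polynomial.monic_X_pow_sub (by simpa using hp1)
  have hdeg := FiniteField.X_pow_card_sub_X_natDegree_eq (ZMod p) hp1
  have hcard : Multiset.card (X ^ p - X : (ZMod p)[X]).roots
      = (X ^ p - X : (ZMod p)[X]).natDegree := by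
    rw [hroots, hdeg]
    simp [ZMod.card]
  have hprod := Polynomial.prod_multiset_X_sub_C_of_monic_of_roots_card_eq hmonic hcard
  rw [hroots] at hprod
  have hprod' : ∏ a : ZMod p, (X - C a) = (X ^ p - X : (ZMod p)[X]) := hprod
  have h3 := congrArg (Polynomial.eval₂ (ZMod.castHom (dvd_refl p) K) u) hprod'
  simp only [Polynomial.eval₂_sub, Polynomial.eval₂_pow, Polynomial.eval₂_X,
    Polynomial.eval₂_finsetProd, Polynomial.eval₂_C] at h3
  exact h3

omit [Fact p.Prime] in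
theorem prod_sub_zcast_mul [Fact p.Prime] (y b : K) :
    ∏ a : ZMod p, (y - (ZMod.cast a : K) * b) = y ^ p - b ^ (p - 1) * y := by
  have hp1 : 1 < p := (Fact.out : p.Prime).one_lt
  by_cases hb : b = 0
  · subst hb
    have : (0 : K) ^ (p - 1) = 0 := zero_pow (by omega)
    simp [this, ZMod.card]
  · have h1 : ∀ a : ZMod p, y - (ZMod.cast a : K) * b = b * (y / b - (ZMod.cast a : K)) := by
      intro a; field_simp
    simp only [h1, Finset.prod_mul_distrib, prod_sub_zcast]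
    simp only [Finset.prod_const, Finset.card_univ, ZMod.card]
    have hp : b ^ p = b ^ (p - 1) * b := by
      rw [← pow_succ]; congr 1; omega
    have hy : y = b * (y / b) := by field_simp
    generalize y / b = u at hy ⊢
    subst hy
    rw [mul_pow, hp]
    ring

theorem dP_succ_prod (i : ℕ) (x : K) :
    dP p ζ (i + 1) x = ∏ a : ZMod p, dP p ζ i (x - (ZMod.cast a : K) * ζ i) := by
  rw [dP_succ]
  simp only [dP_sub, dP_cast_mul]
  exact (prod_sub_zcast_mul p (dP p ζ i x) (dP p ζ i (ζ i))).symm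

theorem dP_vanish (i l : ℕ) (h : l < i) : dP p ζ i (ζ l) = 0 := by
  have hp1 : 1 < p := (Fact.out : p.Prime).one_lt
  induction i with
  | zero => omega
  | succ i ih =>
    rw [dP_succ]
    rcases Nat.lt_succ_iff_lt_or_eq.mp h with h | h
    · rw [ih h]
      simp; omega
    · subst h
      have hp : dBeta p ζ l ^ p = dBeta p ζ l ^ (p - 1) * dBeta p ζ l := by
        rw [← pow_succ]; congr 1; omega
      change dBeta p ζ l ^ p - dBeta p ζ l ^ (p - 1) * dBeta p ζ l = 0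
      rw [hp]; ring


omit [Fact p.Prime] [CharP K p] in
theorem dP_zero (x : K) : dP p ζ 0 x = x := by
  simp [dP, dCoef_zero]

/-- The Moore matrix of `ζ_0, …, ζ_{i-1}`. -/
noncomputable def mooreM (i : ℕ) : Matrix (Fin i) (Fin i) K :=
  Matrix.of fun a b => ζ a ^ p ^ (b : ℕ)

theorem mooreM_det_succ (i : ℕ) :
    (mooreM p ζ (i + 1)).det = dBeta p ζ i * (mooreM p ζ i).det := by
  classical
  set A := mooreM p ζ (i + 1) with hA
  have h1 := Matrix.det_updateCol_sum A (Fin.last i) (fun k => dCoef p ζ i k)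
  have hc : dCoef p ζ i ((Fin.last i : Fin (i + 1)) : ℕ) = 1 := by
    simpa using dCoef_self p ζ i
  rw [hc, one_smul] at h1
  rw [← h1, Matrix.det_succ_column _ (Fin.last i)]
  have hentry : ∀ k : Fin (i + 1), (A.updateCol (Fin.last i)
      (fun k => ∑ l : Fin (i + 1), (dCoef p ζ i (l : ℕ) : K) • A k l)) k (Fin.last i) = dP p ζ i (ζ k) := by
    intro k
    rw [Matrix.updateCol_self, dP, ← Fin.sum_univ_eq_sum_range (fun s => dCoef p ζ i s * ζ k ^ p ^ s)]
    simp [hA, mooreM]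
  rw [Finset.sum_eq_single (Fin.last i)]
  · rw [hentry]
    have hsub : (A.updateCol (Fin.last i) (fun k => ∑ l : Fin (i + 1), (dCoef p ζ i (l : ℕ) : K) • A k l)).submatrix
        (Fin.last i).succAbove (Fin.last i).succAbove = mooreM p ζ i := by
      ext a b
      simp [hA, mooreM, Fin.succAbove_last, Fin.castSucc_lt_last b |>.ne]
    rw [hsub]
    have hsign : ((-1 : K) ^ ((Fin.last i : Fin (i + 1)) : ℕ) *
        (-1) ^ ((Fin.last i : Fin (i + 1)) : ℕ)) = 1 := by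
      rw [← mul_pow]; simp
    have hsign' : (-1 : K) ^ (((Fin.last i : Fin (i + 1)) : ℕ) + ((Fin.last i : Fin (i + 1)) : ℕ)) = 1 := by
      rw [pow_add]; exact hsign
    rw [hsign']
    simp [dBeta]
  · intro k _ hk
    rw [hentry]
    have hlt : (k : ℕ) < i := by
      have := k.2
      have hne : (k : ℕ) ≠ i := fun h => hk (Fin.ext (by simpa using h))
      omega
    rw [dP_vanish p ζ i k hlt]
    simp
  · simp


end Dickson

section DicksonNorm

variable {K : Type*} [NormedField K] (p : ℕ) [Fact p.Prime] [CharP K p] (ζ : ℕ → K)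

theorem dP_norm (i : ℕ) (x : K)
    (hx : ∀ a : ℕ → ZMod p, ‖x - ∑ l ∈ range i, (ZMod.cast (a l) : K) * ζ l‖ = ‖x‖) :
    ‖dP p ζ i x‖ = ‖x‖ ^ p ^ i := by
  induction i generalizing x with
  | zero => simp [dP_zero]
  | succ i ih =>
    rw [dP_succ_prod, norm_prod]
    have hstep : ∀ a₀ : ZMod p, ‖dP p ζ i (x - (ZMod.cast a₀ : K) * ζ i)‖ = ‖x‖ ^ p ^ i := by
      intro a₀
      have hgen : ∀ a : ℕ → ZMod p,
          ‖(x - (ZMod.cast a₀ : K) * ζ i) - ∑ l ∈ range i, (ZMod.cast (a l) : K) * ζ l‖ = ‖x‖ := by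
        intro a
        have := hx (Function.update a i a₀)
        rw [Finset.sum_range_succ] at this
        have hsum : ∑ l ∈ range i, (ZMod.cast (Function.update a i a₀ l) : K) * ζ l
            = ∑ l ∈ range i, (ZMod.cast (a l) : K) * ζ l := by
          refine Finset.sum_congr rfl fun l hl => ?_
          have : l ≠ i := by
            have := Finset.mem_range.mp hl; omega
          rw [Function.update_of_ne this]
        rw [hsum, Function.update_self] at this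
        rw [← this]
        congr 1
        ring
      have hn : ‖x - (ZMod.cast a₀ : K) * ζ i‖ = ‖x‖ := by
        have := hgen (fun _ => 0)
        simpa using this
      rw [ih _ ?_, hn]
      intro a
      rw [hgen a, hn]
    simp only [hstep, Finset.prod_const, Finset.card_univ, ZMod.card]
    rw [← pow_mul, pow_succ]

variable {N : ℕ} {ρ : ℕ → ℝ}

/-- Partial sums `∑_{r ≤ l < i} p^l ρ_l`. -/
noncomputable def tI (p : ℕ) (ρ : ℕ → ℝ) (i r : ℕ) : ℝ := ∑ l ∈ Ico r i, (p : ℝ) ^ l * ρ l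

omit [Fact p.Prime] in
theorem tI_succ (i r : ℕ) (h : r ≤ i) : tI p ρ (i + 1) r = tI p ρ i r + (p : ℝ) ^ i * ρ i := by
  unfold tI
  rw [Finset.sum_Ico_succ_top h]

omit [Fact p.Prime] in
theorem tI_mul_le (i r : ℕ) (hanti : ∀ l, l + 1 ≤ i → ρ (l + 1) ≤ ρ l) :
    tI p ρ (i + 1) (r + 1) ≤ p * tI p ρ i r := by
  unfold tI
  rw [Finset.mul_sum, ← Finset.sum_Ico_add' (fun l => (p : ℝ) ^ l * ρ l) r i 1]
  refine Finset.sum_le_sum fun l hl => ?_
  have hl' := Finset.mem_Ico.mp hl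
  rw [pow_succ]
  have h := hanti l (by omega)
  have hp : (0 : ℝ) ≤ (p : ℝ) ^ l * p := by positivity
  calc (p : ℝ) ^ l * p * ρ (l + 1) ≤ (p : ℝ) ^ l * p * ρ l := by
        exact mul_le_mul_of_nonneg_left h hp
    _ = p * ((p : ℝ) ^ l * ρ l) := by ring

omit [Fact p.Prime] in
theorem tI_nonneg (i r : ℕ) (hpos : ∀ l, l < i → 0 ≤ ρ l) : 0 ≤ tI p ρ i r := by
  unfold tI
  refine Finset.sum_nonneg fun l hl => ?_
  have hl' := Finset.mem_Ico.mp hl
  have := hpos l hl'.2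
  positivity

variable (hρ : ∀ l < N, ‖ζ l‖ = Real.exp (-ρ l))
  (hO : ∀ i < N, ∀ a : ℕ → ZMod p, ‖ζ i - ∑ l ∈ range i, (ZMod.cast (a l) : K) * ζ l‖ = ‖ζ i‖)

include hO in
theorem dBeta_norm' (i : ℕ) (hi : i < N) : ‖dBeta p ζ i‖ = ‖ζ i‖ ^ p ^ i :=
  dP_norm p ζ i (ζ i) (hO i hi)

include hρ hO in
theorem dBeta_norm (i : ℕ) (hi : i < N) : ‖dBeta p ζ i‖ = Real.exp (-((p : ℝ) ^ i * ρ i)) := by
  rw [dBeta_norm' p ζ hO i hi, hρ i hi, ← Real.exp_nat_mul]
  congr 1
  push_cast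
  ring

include hρ hO in
theorem dBeta_pow_norm (i : ℕ) (hi : i < N) :
    ‖dBeta p ζ i ^ (p - 1)‖ = Real.exp (-(((p : ℝ) - 1) * ((p : ℝ) ^ i * ρ i))) := by
  have hp : 1 ≤ p := (Fact.out : p.Prime).one_lt.le
  rw [norm_pow, dBeta_norm p ζ hρ hO i hi, ← Real.exp_nat_mul]
  congr 1
  rw [Nat.cast_sub hp]
  push_cast
  ring

include hρ hO in
theorem dCoef_zero_norm (i : ℕ) (hi : i ≤ N) :
    ‖dCoef p ζ i 0‖ = Real.exp (-(((p : ℝ) - 1) * tI p ρ i 0)) := by
  induction i with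
  | zero => simp [dCoef_zero, tI]
  | succ i ih =>
    rw [dCoef_succ_zero, norm_neg, norm_mul, dBeta_pow_norm p ζ hρ hO i (by omega), ih (by omega),
      ← Real.exp_add, tI_succ p i 0 (Nat.zero_le _)]
    congr 1
    ring

variable [IsUltrametricDist K]

include hρ hO in
theorem dCoef_norm_le (hanti : ∀ l, l + 1 < N → ρ (l + 1) ≤ ρ l) (_hpos : ∀ l < N, 0 ≤ ρ l)
    (i r : ℕ) (hi : i ≤ N) :
    ‖dCoef p ζ i r‖ ≤ Real.exp (-(((p : ℝ) - 1) * tI p ρ i r)) := by
  have hp1 : (1 : ℝ) ≤ (p : ℝ) := by exact_mod_cast (Fact.out : p.Prime).one_lt.le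
  induction i generalizing r with
  | zero =>
    rw [dCoef_zero]
    have : tI p ρ 0 r = 0 := by simp [tI]
    rw [this]
    split_ifs <;> simp
  | succ i ih =>
    have hiN : i < N := by omega
    cases r with
    | zero => exact (dCoef_zero_norm p ζ hρ hO (i + 1) hi).le
    | succ r =>
      rw [dCoef_succ_succ]
      rw [sub_eq_add_neg]
      refine (IsUltrametricDist.norm_add_le_max _ _).trans (max_le ?_ ?_)
      · rw [norm_pow]
        have h1 := ih r (by omega)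
        calc ‖dCoef p ζ i r‖ ^ p ≤ (Real.exp (-(((p : ℝ) - 1) * tI p ρ i r))) ^ p :=
              pow_le_pow_left₀ (norm_nonneg _) h1 p
          _ = Real.exp (-(((p : ℝ) - 1) * (p * tI p ρ i r))) := by
              rw [← Real.exp_nat_mul]; congr 1; ring
          _ ≤ Real.exp (-(((p : ℝ) - 1) * tI p ρ (i + 1) (r + 1))) := by
              apply Real.exp_le_exp.mpr
              have := tI_mul_le (p := p) (ρ := ρ) i r (fun l hl => hanti l (by omega))
              have h3 : ((p : ℝ) - 1) * tI p ρ (i + 1) (r + 1) ≤ ((p : ℝ) - 1) * (p * tI p ρ i r) :=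
                mul_le_mul_of_nonneg_left this (by linarith)
              linarith
      · rw [norm_neg, norm_mul, dBeta_pow_norm p ζ hρ hO i hiN]
        by_cases hr : r + 1 ≤ i
        · have h1 := ih (r + 1) (by omega)
          calc _ ≤ Real.exp (-(((p : ℝ) - 1) * ((p : ℝ) ^ i * ρ i))) *
                Real.exp (-(((p : ℝ) - 1) * tI p ρ i (r + 1))) :=
                mul_le_mul_of_nonneg_left h1 (Real.exp_pos _).le
            _ = _ := by
                rw [← Real.exp_add, tI_succ p i (r + 1) hr]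
                congr 1
                ring
        · rw [dCoef_of_gt p ζ i (r + 1) (by omega)]
          simp only [norm_zero, mul_zero]
          exact (Real.exp_pos _).le

omit [IsUltrametricDist K] in
include hρ hO in
theorem mooreM_det_norm (i : ℕ) (hi : i ≤ N) :
    ‖(mooreM p ζ i).det‖ = Real.exp (-tI p ρ i 0) := by
  induction i with
  | zero => simp [tI]
  | succ i ih =>
    rw [mooreM_det_succ, norm_mul, dBeta_norm p ζ hρ hO i (by omega), ih (by omega),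
      ← Real.exp_add, tI_succ p i 0 (Nat.zero_le _)]
    congr 1
    ring

end DicksonNorm

section Reals

/-- `θ = p q^{-1/N}`, `q = p^n`. -/
noncomputable def thetaReal (p n N : ℕ) : ℝ := (p : ℝ) * ((p : ℝ) ^ n) ^ (-(1 : ℝ) / N)

theorem thetaReal_pos {p : ℕ} (hp : 0 < p) (n N : ℕ) : 0 < thetaReal p n N := by
  unfold thetaReal
  have h : (0 : ℝ) < (p : ℝ) := by exact_mod_cast hp
  positivity

theorem thetaReal_pow {p : ℕ} (hp : 0 < p) (n : ℕ) {N : ℕ} (hN : N ≠ 0) :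
    thetaReal p n N ^ N = (p : ℝ) ^ N / (p : ℝ) ^ n := by
  unfold thetaReal
  have h : (0 : ℝ) < (p : ℝ) := by exact_mod_cast hp
  have hq : (0 : ℝ) < (p : ℝ) ^ n := by positivity
  rw [mul_pow, ← Real.rpow_natCast (((p : ℝ) ^ n) ^ (-(1 : ℝ) / N)) N, ← Real.rpow_mul hq.le]
  have hN' : (N : ℝ) ≠ 0 := by exact_mod_cast hN
  have : -(1 : ℝ) / N * N = -1 := by field_simp
  rw [this, Real.rpow_neg_one, div_eq_mul_inv]

theorem thetaReal_lt_one {p : ℕ} (hp : 1 < p) {n N : ℕ} (hN : N ≠ 0) (hNn : N < n) :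
    thetaReal p n N < 1 := by
  have hp0 : 0 < p := by omega
  have h1 := thetaReal_pow hp0 n hN
  have hp' : (1 : ℝ) < (p : ℝ) := by exact_mod_cast hp
  have h2 : thetaReal p n N ^ N < 1 := by
    rw [h1, div_lt_one (by positivity)]
    exact pow_lt_pow_right₀ hp' hNn
  exact (pow_lt_one_iff_of_nonneg (thetaReal_pos hp0 n N).le hN).mp h2

/-- `ψ(m) = (1 - θ^m)/(1 - θ^N)`. -/
noncomputable def psi (θ : ℝ) (N m : ℕ) : ℝ := (1 - θ ^ m) / (1 - θ ^ N)

variable {N : ℕ}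

/-- `t_r = ∑_{i ≥ r} p^i ρ_i` (0-indexed; the paper's `t_r = ∑_{i > r} p^{i-1} ρ_i`). -/
noncomputable def tt (p : ℕ) (ρ : Fin N → ℝ) (r : ℕ) : ℝ :=
  ∑ i : Fin N, if r ≤ (i : ℕ) then (p : ℝ) ^ (i : ℕ) * ρ i else 0

/-- `A = ∑_i p^i ρ_i`. -/
noncomputable def AA (p : ℕ) (ρ : Fin N → ℝ) : ℝ := ∑ i : Fin N, (p : ℝ) ^ (i : ℕ) * ρ i

theorem tt_zero (p : ℕ) (ρ : Fin N → ℝ) : tt p ρ 0 = AA p ρ := by
  simp [tt, AA]

/-- Extension of a `Fin N`-tuple by zero to a sequence. -/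
def extSeq {α : Type*} [Zero α] (f : Fin N → α) (l : ℕ) : α :=
  if h : l < N then f ⟨l, h⟩ else 0

theorem extSeq_coe {α : Type*} [Zero α] (f : Fin N → α) (i : Fin N) : extSeq f (i : ℕ) = f i := by
  simp [extSeq]

theorem tt_eq_tI (p : ℕ) (ρ : Fin N → ℝ) (r : ℕ) : tt p ρ r = tI p (extSeq ρ) N r := by
  unfold tt tI
  have h1 : ∑ i : Fin N, (if r ≤ (i : ℕ) then (p : ℝ) ^ (i : ℕ) * ρ i else 0)
      = ∑ i : Fin N, (if r ≤ (i : ℕ) then (p : ℝ) ^ (i : ℕ) * extSeq ρ (i : ℕ) else 0) := by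
    refine Finset.sum_congr rfl fun i _ => ?_
    rw [extSeq_coe]
  rw [h1, Fin.sum_univ_eq_sum_range (fun l => if r ≤ l then (p : ℝ) ^ l * extSeq ρ l else 0) N,
    ← Finset.sum_filter]
  refine Finset.sum_congr ?_ fun _ _ => rfl
  ext l
  simp only [Finset.mem_filter, Finset.mem_range, Finset.mem_Ico]
  tauto

theorem AA_eq_tI (p : ℕ) (ρ : Fin N → ℝ) : AA p ρ = tI p (extSeq ρ) N 0 := by
  rw [← tt_zero, tt_eq_tI]

/-- The core of the rotation lemma: for `a(l+N) = θ^N a(l)`, a window minimizing `Ā_i θ^{-i}` is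
regular. -/
theorem rotation_core (a : ℕ → ℝ) {θ : ℝ} (hθ0 : 0 < θ) (hN : 0 < N)
    (ha : ∀ l, a (l + N) = θ ^ N * a l) :
    ∃ i₀ < N, ∀ r ≤ N, (θ ^ r - θ ^ N) * ∑ j ∈ range N, a (i₀ + j)
        ≤ (1 - θ ^ N) * ∑ j ∈ Ico r N, a (i₀ + j) := by
  classical
  set Ab : ℕ → ℝ := fun i => ∑ j ∈ range N, a (i + j) with hAb
  set f : ℕ → ℝ := fun i => Ab i / θ ^ i with hf
  have hAbN : ∀ i, Ab (i + N) = θ ^ N * Ab i := by
    intro i
    simp only [hAb, Finset.mul_sum]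
    refine Finset.sum_congr rfl fun j _ => ?_
    rw [← ha (i + j)]
    congr 1
    ring
  have hfN : ∀ i, f (i + N) = f i := by
    intro i
    simp only [hf]
    rw [hAbN, pow_add]
    have : θ ^ N ≠ 0 := (pow_pos hθ0 N).ne'
    have : θ ^ i ≠ 0 := (pow_pos hθ0 i).ne'
    field_simp
  have hfmod : ∀ i, f i = f (i % N) := by
    intro i
    induction i using Nat.strong_induction_on with
    | _ i ih =>
      by_cases hi : i < N
      · rw [Nat.mod_eq_of_lt hi]
      · have h1 : i = (i - N) + N := by omega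
        have h2 := ih (i - N) (by omega)
        have h3 : (i - N) % N = i % N := by
          conv_rhs => rw [h1]
          simp
        rw [h1, hfN, h2, h3]
        conv_rhs => rw [← h1]
  obtain ⟨i₀, hi₀, hmin⟩ := Finset.exists_min_image (Finset.range N) f
    ⟨0, Finset.mem_range.mpr hN⟩
  have hi₀' := Finset.mem_range.mp hi₀
  refine ⟨i₀, hi₀', fun r hr => ?_⟩
  have hglob : f i₀ ≤ f (i₀ + r) := by
    rw [hfmod (i₀ + r)]
    exact hmin _ (Finset.mem_range.mpr (Nat.mod_lt _ hN))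
  have h1 : θ ^ r * Ab i₀ ≤ Ab (i₀ + r) := by
    simp only [hf] at hglob
    have hp1 : 0 < θ ^ i₀ := pow_pos hθ0 _
    have hp2 : 0 < θ ^ (i₀ + r) := pow_pos hθ0 _
    rw [div_le_div_iff₀ hp1 hp2] at hglob
    rw [pow_add] at hglob
    have := le_of_mul_le_mul_right (a := θ ^ i₀) (by linarith : θ ^ r * Ab i₀ * θ ^ i₀ ≤ Ab (i₀ + r) * θ ^ i₀) hp1
    exact this
  -- split the windows
  set T : ℝ := ∑ j ∈ Ico r N, a (i₀ + j) with hT
  have h2 : Ab i₀ = ∑ j ∈ range r, a (i₀ + j) + T := by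
    simp only [hAb, hT]
    rw [Finset.range_eq_Ico, Finset.range_eq_Ico, Finset.sum_Ico_consecutive _ (Nat.zero_le r) hr]
  have h3 : Ab (i₀ + r) = T + θ ^ N * ∑ j ∈ range r, a (i₀ + j) := by
    simp only [hAb, hT]
    rw [Finset.mul_sum]
    have h4 : ∑ j ∈ range N, a (i₀ + r + j) = ∑ j ∈ Ico r (N + r), a (i₀ + j) := by
      have := Finset.sum_Ico_add' (fun j => a (i₀ + j)) 0 N r
      rw [zero_add] at this
      rw [← this, Finset.range_eq_Ico]
      refine Finset.sum_congr rfl fun j _ => ?_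
      congr 1
      ring
    rw [h4, ← Finset.sum_Ico_consecutive _ hr (by omega : N ≤ N + r)]
    congr 1
    have h5 : ∑ j ∈ Ico N (N + r), a (i₀ + j) = ∑ j ∈ Ico 0 r, a (i₀ + (j + N)) := by
      have := Finset.sum_Ico_add' (fun j => a (i₀ + j)) 0 r N
      rw [zero_add, add_comm r N] at this
      rw [← this]
    rw [h5, Finset.range_eq_Ico]
    refine Finset.sum_congr rfl fun j _ => ?_
    rw [← ha]
    congr 1
    ring
  have h6 : ∑ j ∈ range N, a (i₀ + j) = Ab i₀ := rfl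
  rw [h6]
  have h7 : ∑ j ∈ range r, a (i₀ + j) = Ab i₀ - T := by linarith
  rw [h7] at h3
  nlinarith [h1, h3]


theorem exists_div_pow_mem_Ioc {x c q : ℝ} (hq : 1 < q) (hc : 0 < c) (hx : c ≤ x) :
    ∃ k : ℕ, x / q ^ k ≤ c ∧ c / q < x / q ^ k := by
  classical
  have hq0 : 0 < q := by linarith
  have hex : ∃ k : ℕ, x / q ^ k ≤ c := by
    obtain ⟨k, hk⟩ := pow_unbounded_of_one_lt (x / c) hq
    refine ⟨k, ?_⟩
    rw [div_lt_iff₀ hc] at hk
    rw [div_le_iff₀ (pow_pos hq0 k)]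
    linarith
  refine ⟨Nat.find hex, Nat.find_spec hex, ?_⟩
  rcases hk : Nat.find hex with _ | m
  · simp only [pow_zero, div_one]
    have : c / q < c := div_lt_self hc hq
    linarith
  · have hm : ¬ (x / q ^ m ≤ c) := Nat.find_min hex (by omega)
    rw [not_le] at hm
    rw [pow_succ, ← div_div]
    exact div_lt_div_of_pos_right hm hq0

/-- **Rotation lemma** (real part of E1): any positive values `R i` can, after dividing by powers
of `q` and rotating the sorted list, be made into a sorted list satisfying the regularity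
condition (R). -/
theorem exists_rotation {p : ℕ} (hp : 0 < p) [NeZero N] (R : Fin N → ℝ) (hR : ∀ i, 0 < R i)
    {q θ : ℝ} (hq : 1 < q) (hθ0 : 0 < θ) (hθ1 : θ < 1) (hθN : θ ^ N = (p : ℝ) ^ N / q) :
    ∃ (σ : Equiv.Perm (Fin N)) (k : Fin N → ℕ),
      Antitone (fun j => R (σ j) / q ^ k j) ∧
      ∀ r, 1 ≤ r → r < N →
        AA p (fun j => R (σ j) / q ^ k j) * (1 - psi θ N r) ≤ tt p (fun j => R (σ j) / q ^ k j) r := by
  classical
  have hNpos : 0 < N := Nat.pos_of_ne_zero (NeZero.ne N)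
  have hq0 : 0 < q := by linarith
  have hp' : (0 : ℝ) < (p : ℝ) := by exact_mod_cast hp
  -- Step 1: normalize
  obtain ⟨i₁, -, hi₁⟩ := Finset.exists_min_image (Finset.univ : Finset (Fin N)) R
    ⟨⟨0, hNpos⟩, Finset.mem_univ _⟩
  set c := R i₁ with hc
  have hc0 : 0 < c := hR i₁
  choose k hk1 hk2 using fun i => exists_div_pow_mem_Ioc hq hc0 (hi₁ i (Finset.mem_univ i))
  set w : Fin N → ℝ := fun i => R i / q ^ k i with hw
  -- Step 2: sort
  set τ : Equiv.Perm (Fin N) := Fin.revPerm.trans (Tuple.sort w) with hτ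
  set ρ₁ : Fin N → ℝ := fun j => w (τ j) with hρ₁
  have hρ₁anti : Antitone ρ₁ := by
    intro a b hab
    have := Tuple.monotone_sort w (Fin.rev_le_rev.mpr hab)
    simpa [hρ₁, hτ] using this
  have hρ₁le : ∀ j, ρ₁ j ≤ c := fun j => hk1 _
  have hρ₁gt : ∀ j, c / q < ρ₁ j := fun j => hk2 _
  -- Step 3: extend
  have hmodlt : ∀ l : ℕ, l % N < N := fun l => Nat.mod_lt _ hNpos
  set ρt : ℕ → ℝ := fun l => ρ₁ ⟨l % N, hmodlt l⟩ / q ^ (l / N) with hρt
  have hρtN : ∀ l, ρt (l + N) = ρt l / q := by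
    intro l
    simp only [hρt]
    have h1 : (l + N) % N = l % N := by simp
    have h2 : (l + N) / N = l / N + 1 := Nat.add_div_right l hNpos
    have h3 : (⟨(l + N) % N, hmodlt _⟩ : Fin N) = ⟨l % N, hmodlt l⟩ := Fin.ext h1
    rw [h3, h2, pow_succ, ← div_div]
  have hρtstep : ∀ l, ρt (l + 1) ≤ ρt l := by
    intro l
    simp only [hρt]
    set m := l % N with hm
    set d := l / N with hd
    have hl : l = N * d + m := (Nat.div_add_mod l N).symm
    have hmN : m < N := hmodlt l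
    by_cases hm1 : m + 1 < N
    · have h1 : (l + 1) % N = m + 1 := by
        rw [hl, add_assoc, Nat.mul_add_mod, Nat.mod_eq_of_lt hm1]
      have h2 : (l + 1) / N = d := by
        rw [hl, add_assoc, Nat.mul_add_div hNpos, Nat.div_eq_of_lt hm1, add_zero]
      have h3 : (⟨(l + 1) % N, hmodlt _⟩ : Fin N) = ⟨m + 1, hm1⟩ := Fin.ext h1
      rw [h3, h2]
      refine div_le_div_of_nonneg_right ?_ (pow_pos hq0 d).le
      apply hρ₁anti
      exact Fin.mk_le_mk.mpr (by omega)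
    · have hm2 : m + 1 = N := by omega
      have h1 : (l + 1) % N = 0 := by
        rw [hl, add_assoc, hm2]; simp
      have h2 : (l + 1) / N = d + 1 := by
        rw [hl, add_assoc, hm2, ← Nat.mul_succ]
        exact Nat.mul_div_cancel_left _ hNpos
      have h3 : (⟨(l + 1) % N, hmodlt _⟩ : Fin N) = ⟨0, hNpos⟩ := Fin.ext h1
      rw [h3, h2, pow_succ', ← div_div]
      refine div_le_div_of_nonneg_right ?_ (pow_pos hq0 d).le
      have h4 := hρ₁le ⟨0, hNpos⟩
      have h5 := hρ₁gt ⟨m, hmN⟩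
      have h6 : ρ₁ ⟨0, hNpos⟩ / q ≤ c / q := div_le_div_of_nonneg_right h4 hq0.le
      linarith
  have hρtanti : Antitone ρt := antitone_nat_of_succ_le hρtstep
  set a : ℕ → ℝ := fun l => (p : ℝ) ^ l * ρt l with ha
  have haN : ∀ l, a (l + N) = θ ^ N * a l := by
    intro l
    simp only [ha]
    rw [hρtN, hθN, pow_add]
    field_simp
  -- Step 4: rotate
  obtain ⟨i₀, hi₀, hcore⟩ := rotation_core a hθ0 hNpos haN
  set e : Equiv.Perm (Fin N) := Equiv.addLeft (⟨i₀, hi₀⟩ : Fin N) with he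
  have hev : ∀ j : Fin N, ((e j : Fin N) : ℕ) = (i₀ + j) % N := by
    intro j
    simp [he, Fin.val_add]
  set σ : Equiv.Perm (Fin N) := e.trans τ with hσ
  refine ⟨σ, fun j => k (σ j) + (i₀ + j) / N, ?_⟩
  have hval : ∀ j : Fin N, R (σ j) / q ^ (k (σ j) + (i₀ + (j : ℕ)) / N) = ρt (i₀ + j) := by
    intro j
    simp only [hρt]
    have h1 : (⟨(i₀ + j) % N, hmodlt _⟩ : Fin N) = e j := Fin.ext (hev j).symm
    rw [h1, pow_add, ← div_div]
    rfl
  simp only [hval]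
  refine ⟨fun a' b' hab => hρtanti (by have : (a' : ℕ) ≤ b' := hab; omega), ?_⟩
  intro r hr1 hrN
  set ρ' : Fin N → ℝ := fun j => ρt (i₀ + j) with hρ'
  have hext : ∀ l, l < N → extSeq ρ' l = ρt (i₀ + l) := by
    intro l hl
    simp [extSeq, hl, hρ']
  have hA : (p : ℝ) ^ i₀ * AA p ρ' = ∑ j ∈ range N, a (i₀ + j) := by
    have h0 : ∑ i : Fin N, (p : ℝ) ^ i₀ * ((p : ℝ) ^ (i : ℕ) * ρ' i)
        = ∑ l ∈ range N, (p : ℝ) ^ i₀ * ((p : ℝ) ^ l * ρt (i₀ + l)) :=
      Fin.sum_univ_eq_sum_range (fun l => (p : ℝ) ^ i₀ * ((p : ℝ) ^ l * ρt (i₀ + l))) N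
    rw [AA, Finset.mul_sum, h0]
    refine Finset.sum_congr rfl fun j _ => ?_
    simp only [ha]
    rw [pow_add]
    ring
  have hT : (p : ℝ) ^ i₀ * tt p ρ' r = ∑ j ∈ Ico r N, a (i₀ + j) := by
    rw [tt_eq_tI, tI, Finset.mul_sum]
    refine Finset.sum_congr rfl fun j hj => ?_
    have hj' := Finset.mem_Ico.mp hj
    rw [hext j hj'.2]
    simp only [ha]
    rw [pow_add]
    ring
  have hc1 := hcore r hrN.le
  rw [← hA, ← hT] at hc1
  have hpow : 0 < (p : ℝ) ^ i₀ := pow_pos hp' _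
  have hden : 0 < 1 - θ ^ N := by
    have := pow_lt_one₀ hθ0.le hθ1 (NeZero.ne N)
    linarith
  have hc2 : (θ ^ r - θ ^ N) * AA p ρ' ≤ (1 - θ ^ N) * tt p ρ' r := by
    have : (p : ℝ) ^ i₀ * ((θ ^ r - θ ^ N) * AA p ρ') ≤ (p : ℝ) ^ i₀ * ((1 - θ ^ N) * tt p ρ' r) := by
      nlinarith [hc1]
    exact le_of_mul_le_mul_left this hpow
  have hpsi : 1 - psi θ N r = (θ ^ r - θ ^ N) / (1 - θ ^ N) := by
    unfold psi
    field_simp
    ring
  rw [hpsi]
  rw [mul_div_assoc', div_le_iff₀ hden]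
  nlinarith [hc2]

end Reals

section GoodTupleAPI

variable {K : Type*} [NormedField K] {N : ℕ}

/-- A **good tuple** (blueprint E): `ζ_0, …, ζ_{N-1}` with `‖ζ i‖ = exp (-ρ i)`, `ρ` positive and
antitone, `F_p`-orthogonal (in top-index form: since `ρ` is antitone the largest index in the
support attains the minimum valuation) and regular (R). -/
structure GoodTuple (p : ℕ) [Fact p.Prime] [CharP K p] (θ : ℝ) (ζ : Fin N → K) (ρ : Fin N → ℝ) :
    Prop where
  norm_eq : ∀ i, ‖ζ i‖ = Real.exp (-ρ i)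
  rho_pos : ∀ i, 0 < ρ i
  anti : Antitone ρ
  orth : ∀ (a : Fin N → ZMod p) (i : Fin N), a i ≠ 0 → (∀ j, i < j → a j = 0) →
    ‖∑ j, (ZMod.cast (a j) : K) * ζ j‖ = ‖ζ i‖
  reg : ∀ r : ℕ, 1 ≤ r → r < N → AA p ρ * (1 - psi θ N r) ≤ tt p ρ r

variable {p : ℕ} [Fact p.Prime] [CharP K p] {θ : ℝ} {ζ : Fin N → K} {ρ : Fin N → ℝ}

/-- The coefficients of `P_N = T^{p^N} - ∑_{r<N} c_r T^{p^r}`. -/
noncomputable def dickC (p : ℕ) (ζ : Fin N → K) (r : ℕ) : K := - dCoef p (extSeq ζ) N r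

/-- The vectors `d_s = (ζ_i^{p^s})_i`. -/
noncomputable def dVec (p : ℕ) (ζ : Fin N → K) (s : ℕ) : Fin N → K := fun i => ζ i ^ p ^ s

/-- The determinant `Δ_s = det [d_s, …, d_{s+N-1}]`. -/
noncomputable def mooreDet (p : ℕ) (ζ : Fin N → K) (s : ℕ) : K :=
  (Matrix.of fun (i j : Fin N) => ζ i ^ p ^ (s + (j : ℕ))).det

namespace GoodTuple

include p in
omit [Fact p.Prime] [CharP K p] in
theorem zmod_sum_extSeq_aux [Fact p.Prime] [CharP K p] (ζ : Fin N → K) (a : Fin N → ZMod p) :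
    ∑ j, (ZMod.cast (a j) : K) * ζ j
      = ∑ l ∈ range N, (ZMod.cast (extSeq a l) : K) * extSeq ζ l := by
  rw [← Fin.sum_univ_eq_sum_range (fun l => (ZMod.cast (extSeq a l) : K) * extSeq ζ l) N]
  refine Finset.sum_congr rfl fun j _ => ?_
  rw [extSeq_coe, extSeq_coe]

/-- The internal orthogonality hypothesis of the Dickson recursion. -/
theorem hO (hG : GoodTuple p θ ζ ρ) :
    ∀ i < N, ∀ a : ℕ → ZMod p,
      ‖extSeq ζ i - ∑ l ∈ range i, (ZMod.cast (a l) : K) * extSeq ζ l‖ = ‖extSeq ζ i‖ := by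
  intro i hi a
  classical
  set a' : Fin N → ZMod p := fun j => if (j : ℕ) < i then - a j else if (j : ℕ) = i then 1 else 0
    with ha'
  have h1 := hG.orth a' ⟨i, hi⟩ (by simp [ha']) (by
    intro j hj
    have hj' : i < (j : ℕ) := hj
    have h2 : ¬ ((j : ℕ) < i) := by omega
    have h3 : ¬ ((j : ℕ) = i) := by omega
    simp [ha', h2, h3])
  have hi' : extSeq ζ i = ζ ⟨i, hi⟩ := by simp [extSeq, hi]
  rw [hi', ← h1]
  congr 1
  rw [zmod_sum_extSeq_aux (p := p) ζ a']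
  have hsub : ∑ l ∈ range N, (ZMod.cast (extSeq a' l) : K) * extSeq ζ l
      = ∑ l ∈ range (i + 1), (ZMod.cast (extSeq a' l) : K) * extSeq ζ l := by
    symm
    apply Finset.sum_subset
    · intro l hl
      have := Finset.mem_range.mp hl
      exact Finset.mem_range.mpr (by omega)
    · intro l hl hl2
      have h1 := Finset.mem_range.mp hl
      have h2 : ¬ (l < i + 1) := fun h => hl2 (Finset.mem_range.mpr h)
      have h3 : extSeq a' l = 0 := by
        have h4 : ¬ (l < i) := by omega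
        have h5 : ¬ (l = i) := by omega
        simp [extSeq, h1, ha', h4, h5]
      rw [h3]
      simp
  rw [hsub, Finset.sum_range_succ]
  have htop : extSeq a' i = 1 := by simp [extSeq, hi, ha']
  rw [htop]
  have hcast1 : (ZMod.cast (1 : ZMod p) : K) = 1 := map_one (ZMod.castHom (dvd_refl p) K)
  rw [hcast1, one_mul]
  have hlow : ∑ l ∈ range i, (ZMod.cast (extSeq a' l) : K) * extSeq ζ l
      = - ∑ l ∈ range i, (ZMod.cast (a l) : K) * extSeq ζ l := by
    rw [← Finset.sum_neg_distrib]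
    refine Finset.sum_congr rfl fun l hl => ?_
    have hl' := Finset.mem_range.mp hl
    have hlN : l < N := by omega
    have h3 : extSeq a' l = - a l := by simp [extSeq, hlN, ha', hl']
    rw [h3]
    have hcast2 : (ZMod.cast (- a l) : K) = - ZMod.cast (a l) :=
      map_neg (ZMod.castHom (dvd_refl p) K) (a l)
    rw [hcast2]
    ring
  rw [hlow, hi']
  ring

theorem hρ' (hG : GoodTuple p θ ζ ρ) : ∀ l < N, ‖extSeq ζ l‖ = Real.exp (-extSeq ρ l) := by
  intro l hl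
  simp [extSeq, hl, hG.norm_eq]

theorem hanti' (hG : GoodTuple p θ ζ ρ) : ∀ l, l + 1 < N → extSeq ρ (l + 1) ≤ extSeq ρ l := by
  intro l hl
  have hl' : l < N := by omega
  simp only [extSeq, hl, hl', dif_pos]
  exact hG.anti (Fin.mk_le_mk.mpr (by omega))

theorem hpos' (hG : GoodTuple p θ ζ ρ) : ∀ l < N, 0 ≤ extSeq ρ l := by
  intro l hl
  simp only [extSeq, hl, dif_pos]
  exact (hG.rho_pos _).le

/-- `ζ_i^{p^N} = ∑_{r<N} c_r ζ_i^{p^r}`. -/
theorem dickC_rec (i : Fin N) :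
    ζ i ^ p ^ N = ∑ r ∈ range N, dickC p ζ r * ζ i ^ p ^ r := by
  have h := dP_vanish p (extSeq ζ) N i i.2
  rw [dP, Finset.sum_range_succ, dCoef_self, one_mul, extSeq_coe] at h
  rw [eq_comm, ← sub_eq_zero]
  simp only [dickC, neg_mul, Finset.sum_neg_distrib]
  linear_combination -h

/-- `d_{s+N} = ∑_{r<N} c_r^{p^s} d_{s+r}` in coordinates. -/
theorem dickC_rec_pow (s : ℕ) (i : Fin N) :
    ζ i ^ p ^ (s + N) = ∑ r ∈ range N, dickC p ζ r ^ p ^ s * ζ i ^ p ^ (s + r) := by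
  have h := congrArg (fun x : K => x ^ p ^ s) (dickC_rec (p := p) (ζ := ζ) i)
  rw [sum_pow_char_pow] at h
  rw [pow_add, mul_comm, pow_mul, h]
  refine Finset.sum_congr rfl fun r _ => ?_
  rw [mul_pow, ← pow_mul, pow_add p s r, mul_comm (p ^ s)]

theorem dVec_rec (s : ℕ) :
    dVec p ζ (s + N) = ∑ r ∈ range N, dickC p ζ r ^ p ^ s • dVec p ζ (s + r) := by
  ext i
  simp only [Finset.sum_apply, Pi.smul_apply, smul_eq_mul, dVec]
  exact dickC_rec_pow s i

variable [IsUltrametricDist K]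

/-- `v(c_r) ≥ (p-1) t_r`. -/
theorem norm_dickC_le (hG : GoodTuple p θ ζ ρ) (r : ℕ) :
    ‖dickC p ζ r‖ ≤ Real.exp (-(((p : ℝ) - 1) * tt p ρ r)) := by
  rw [dickC, norm_neg, tt_eq_tI]
  exact dCoef_norm_le p (extSeq ζ) hG.hρ' hG.hO hG.hanti' hG.hpos' N r le_rfl

omit [IsUltrametricDist K] in
/-- `v(c_0) = (p-1) A`. -/
theorem norm_dickC_zero (hG : GoodTuple p θ ζ ρ) :
    ‖dickC p ζ 0‖ = Real.exp (-(((p : ℝ) - 1) * AA p ρ)) := by
  rw [dickC, norm_neg, AA_eq_tI]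
  exact dCoef_zero_norm p (extSeq ζ) hG.hρ' hG.hO N le_rfl

omit [IsUltrametricDist K] in
/-- `v(Δ_0) = A`, `v(Δ_s) = p^s A`. -/
theorem norm_mooreDet (hG : GoodTuple p θ ζ ρ) (s : ℕ) :
    ‖mooreDet p ζ s‖ = Real.exp (-((p : ℝ) ^ s * AA p ρ)) := by
  have h0 : (mooreM p (extSeq ζ) N).det = (Matrix.of fun (i j : Fin N) => ζ i ^ p ^ (j : ℕ)).det := by
    congr 1
    ext i j
    simp [mooreM, extSeq_coe]
  have h1 : mooreDet p ζ s = (iterateFrobenius K p s) (mooreM p (extSeq ζ) N).det := by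
    rw [h0, RingHom.map_det]
    unfold mooreDet
    congr 1
    ext i j
    simp only [RingHom.mapMatrix_apply, Matrix.map_apply, Matrix.of_apply, iterateFrobenius_def]
    rw [← pow_mul, pow_add, mul_comm]
  rw [h1, iterateFrobenius_def, norm_pow, mooreM_det_norm p (extSeq ζ) hG.hρ' hG.hO N le_rfl,
    ← AA_eq_tI, ← Real.exp_nat_mul]
  congr 1
  push_cast
  ring

end GoodTuple

end GoodTupleAPI

section Law

/-- Abstract form of the formal group law on the open unit ball of `K`: `G` is the ball with the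
law, `ι` its inclusion in `K` (blueprint E1; `G4` and `[p]_Γ = X^q` give these). -/
structure LawData {K G : Type*} [NormedField K] [AddCommMonoid G] (p Q : ℕ) (ι : G → K) : Prop where
  zero : ι 0 = 0
  lt_one : ∀ x, ‖ι x‖ < 1
  near : ∀ x y, ‖ι (x + y) - (ι x + ι y)‖ ≤ (max ‖ι x‖ ‖ι y‖) ^ 2
  frob : ∀ x, ι (p • x) = ι x ^ Q

/-- Orthogonality of a tuple in the ball, with integer coefficients: if `j₀` attains the maximal
norm of the `a_j • b_j`, then the law-sum has that norm. -/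
def OrthFamily {K G : Type*} [NormedField K] [AddCommMonoid G] {N : ℕ} (ι : G → K)
    (b : Fin N → G) : Prop :=
  ∀ (a : Fin N → ℕ) (j₀ : Fin N), (∀ j, ‖ι (a j • b j)‖ ≤ ‖ι (a j₀ • b j₀)‖) →
    ‖ι (∑ j, a j • b j)‖ = ‖ι (a j₀ • b j₀)‖

variable {K G : Type*} [NormedField K] [IsUltrametricDist K] [AddCommMonoid G]
  {p Q : ℕ} {ι : G → K} {N : ℕ}

omit [IsUltrametricDist K] in
theorem LawData.frob_pow (hL : LawData p Q ι) (m : ℕ) (x : G) :
    ι (p ^ m • x) = ι x ^ Q ^ m := by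
  induction m with
  | zero => simp
  | succ m ih =>
    rw [pow_succ', mul_smul, hL.frob, ih, ← pow_mul, pow_succ]

theorem LawData.nsmul_near (hL : LawData p Q ι) (u : ℕ) (x : G) :
    ‖ι (u • x) - (u : K) * ι x‖ ≤ ‖ι x‖ ^ 2 ∧ ‖ι (u • x)‖ ≤ ‖ι x‖ := by
  have hx1 : ‖ι x‖ ≤ 1 := (hL.lt_one x).le
  have hx0 : 0 ≤ ‖ι x‖ := norm_nonneg _
  have hsq : ‖ι x‖ ^ 2 ≤ ‖ι x‖ := by nlinarith
  have hu' : ∀ u : ℕ, ‖((u : ℕ) : K)‖ ≤ 1 := fun u => IsUltrametricDist.norm_natCast_le_one K u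
  induction u with
  | zero =>
    simp [hL.zero]
  | succ u ih =>
    have h1 : ι ((u + 1) • x) - ((u + 1 : ℕ) : K) * ι x
        = (ι (u • x + x) - (ι (u • x) + ι x)) + (ι (u • x) - (u : K) * ι x) := by
      rw [succ_nsmul]
      push_cast
      ring
    have h2 : ‖ι ((u + 1) • x) - ((u + 1 : ℕ) : K) * ι x‖ ≤ ‖ι x‖ ^ 2 := by
      rw [h1]
      refine (IsUltrametricDist.norm_add_le_max _ _).trans (max_le ?_ ih.1)
      refine (hL.near _ _).trans ?_
      rw [max_eq_right ih.2]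
    refine ⟨h2, ?_⟩
    have h3 : ι ((u + 1) • x) = (ι ((u + 1) • x) - ((u + 1 : ℕ) : K) * ι x)
        + ((u + 1 : ℕ) : K) * ι x := by ring
    rw [h3]
    refine (IsUltrametricDist.norm_add_le_max _ _).trans (max_le (h2.trans hsq) ?_)
    rw [norm_mul]
    calc ‖((u + 1 : ℕ) : K)‖ * ‖ι x‖ ≤ 1 * ‖ι x‖ :=
          mul_le_mul_of_nonneg_right (hu' _) hx0
      _ = ‖ι x‖ := one_mul _

omit [IsUltrametricDist K] in
theorem norm_zcast_eq_one (p : ℕ) [Fact p.Prime] [CharP K p] {a : ZMod p} (ha : a ≠ 0) :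
    ‖(ZMod.cast a : K)‖ = 1 := by
  have hp1 : 1 < p := (Fact.out : p.Prime).one_lt
  have h1 : a ^ (p - 1) = 1 := ZMod.pow_card_sub_one_eq_one ha
  have h2 : (ZMod.cast a : K) ^ (p - 1) = 1 := by
    have h3 := congrArg (ZMod.castHom (dvd_refl p) K) h1
    rw [map_pow, map_one] at h3
    exact h3
  have h4 : ‖(ZMod.cast a : K)‖ ^ (p - 1) = 1 := by
    rw [← norm_pow, h2, norm_one]
  exact (pow_eq_one_iff_of_nonneg (norm_nonneg _) (by omega)).mp h4

/-- Integer multiples `u • x` with `u` prime to `p` keep the norm. -/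
theorem LawData.norm_nsmul_eq (hL : LawData p Q ι) [Fact p.Prime] [CharP K p] (x : G)
    (hx : ι x ≠ 0) (a : ZMod p) (ha : a ≠ 0) : ‖ι (a.val • x)‖ = ‖ι x‖ := by
  have h := (hL.nsmul_near a.val x).1
  have hc : ((a.val : ℕ) : K) = ZMod.cast a := ZMod.natCast_val a
  rw [hc] at h
  have hx0 : 0 < ‖ι x‖ := norm_pos_iff.mpr hx
  have hx1 := hL.lt_one x
  have hsq : ‖ι x‖ ^ 2 < ‖ι x‖ := by nlinarith
  have h1 : ‖(ZMod.cast a : K) * ι x‖ = ‖ι x‖ := by
    rw [norm_mul, norm_zcast_eq_one p ha, one_mul]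
  have h2 : ι (a.val • x) = (ZMod.cast a : K) * ι x + (ι (a.val • x) - (ZMod.cast a : K) * ι x) := by
    ring
  rw [h2]
  have hne : ‖(ZMod.cast a : K) * ι x‖ ≠ ‖ι (a.val • x) - (ZMod.cast a : K) * ι x‖ := by
    rw [h1]
    exact (lt_of_le_of_lt h hsq).ne'
  rw [IsUltrametricDist.norm_add_eq_max_of_norm_ne_norm hne, h1]
  exact max_eq_left (h.trans hsq.le)

theorem LawData.sum_near (hL : LawData p Q ι) {α : Type*} (s : Finset α) (y : α → G) {M : ℝ}
    (hM0 : 0 ≤ M) (hM1 : M ≤ 1) (hy : ∀ j ∈ s, ‖ι (y j)‖ ≤ M) :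
    ‖ι (∑ j ∈ s, y j)‖ ≤ M ∧ ‖ι (∑ j ∈ s, y j) - ∑ j ∈ s, ι (y j)‖ ≤ M ^ 2 := by
  classical
  have hsq : M ^ 2 ≤ M := by nlinarith
  induction s using Finset.induction_on with
  | empty =>
    simp [hL.zero, hM0]
  | insert a s ha ih =>
    have hs : ∀ j ∈ s, ‖ι (y j)‖ ≤ M := fun j hj => hy j (Finset.mem_insert_of_mem hj)
    have hya : ‖ι (y a)‖ ≤ M := hy a (Finset.mem_insert_self _ _)
    obtain ⟨ih1, ih2⟩ := ih hs
    rw [Finset.sum_insert ha, Finset.sum_insert ha]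
    have hnear : ‖ι (y a + ∑ j ∈ s, y j) - (ι (y a) + ι (∑ j ∈ s, y j))‖ ≤ M ^ 2 := by
      refine (hL.near _ _).trans ?_
      exact pow_le_pow_left₀ (le_max_of_le_left (norm_nonneg _)) (max_le hya ih1) 2
    constructor
    · have h3 : ι (y a + ∑ j ∈ s, y j) = (ι (y a + ∑ j ∈ s, y j) - (ι (y a) + ι (∑ j ∈ s, y j)))
          + (ι (y a) + ι (∑ j ∈ s, y j)) := by ring
      rw [h3]
      refine (IsUltrametricDist.norm_add_le_max _ _).trans (max_le (hnear.trans hsq) ?_)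
      exact (IsUltrametricDist.norm_add_le_max _ _).trans (max_le hya ih1)
    · have h3 : ι (y a + ∑ j ∈ s, y j) - (ι (y a) + ∑ j ∈ s, ι (y j))
          = (ι (y a + ∑ j ∈ s, y j) - (ι (y a) + ι (∑ j ∈ s, y j)))
            + (ι (∑ j ∈ s, y j) - ∑ j ∈ s, ι (y j)) := by ring
      rw [h3]
      exact (IsUltrametricDist.norm_add_le_max _ _).trans (max_le hnear ih2)

/-- **(O) for a rotated tuple**: if `p^{k_j} • z_j = b_{σ j}` with `b` orthogonal, and the norms of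
`ι z_j` are sorted, then `ι ∘ z` is `F_p`-orthogonal in top-index form. -/
theorem LawData.orth_top (hL : LawData p Q ι) [Fact p.Prime] [CharP K p] (hQ : 1 ≤ Q)
    {b : Fin N → G} (hb : OrthFamily ι b) (σ : Equiv.Perm (Fin N)) (k : Fin N → ℕ) (z : Fin N → G)
    (hz : ∀ j, p ^ k j • z j = b (σ j)) (hz0 : ∀ j, ι (z j) ≠ 0)
    (hmono : Monotone fun j => ‖ι (z j)‖)
    (a : Fin N → ZMod p) (i : Fin N) (hai : a i ≠ 0) (hatop : ∀ j, i < j → a j = 0) :
    ‖∑ j, (ZMod.cast (a j) : K) * ι (z j)‖ = ‖ι (z i)‖ := by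
  classical
  set M := ‖ι (z i)‖ with hM
  have hM0 : 0 < M := norm_pos_iff.mpr (hz0 i)
  have hM1 : M < 1 := hL.lt_one _
  have hMsq : M ^ 2 < M := by nlinarith
  have hle : ∀ j, a j ≠ 0 → ‖ι (z j)‖ ≤ M := by
    intro j hj
    apply hmono
    by_contra h
    exact hj (hatop j (not_le.mp h))
  set u : Fin N → ℕ := fun j => (a j).val with hu
  have hu0 : ∀ j, a j = 0 → u j = 0 := by
    intro j hj
    simp [hu, hj]
  -- the law-sum
  set y : G := ∑ j, u j • z j with hy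
  have hterm : ∀ j, ‖ι (u j • z j)‖ ≤ M := by
    intro j
    by_cases hj : a j = 0
    · rw [hu0 j hj, zero_smul, hL.zero, norm_zero]
      exact hM0.le
    · exact (hL.nsmul_near _ _).2.trans (hle j hj)
  obtain ⟨-, hsum⟩ := hL.sum_near Finset.univ (fun j => u j • z j) hM0.le hM1.le (fun j _ => hterm j)
  have hdiff : ‖ι y - ∑ j, (ZMod.cast (a j) : K) * ι (z j)‖ ≤ M ^ 2 := by
    have h1 : ι y - ∑ j, (ZMod.cast (a j) : K) * ι (z j)
        = (ι y - ∑ j, ι (u j • z j))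
          + ∑ j, (ι (u j • z j) - (ZMod.cast (a j) : K) * ι (z j)) := by
      rw [Finset.sum_sub_distrib]
      ring
    rw [h1]
    refine (IsUltrametricDist.norm_add_le_max _ _).trans (max_le hsum ?_)
    refine IsUltrametricDist.norm_sum_le_of_forall_le_of_nonneg (by positivity) ?_
    intro j _
    have hc : ((u j : ℕ) : K) = ZMod.cast (a j) := ZMod.natCast_val (a j)
    by_cases hj : a j = 0
    · rw [hu0 j hj, zero_smul, hL.zero, ← hc, hu0 j hj]
      simp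
      positivity
    · rw [← hc]
      refine (hL.nsmul_near _ _).1.trans ?_
      exact pow_le_pow_left₀ (norm_nonneg _) (hle j hj) 2
  -- norm of the law-sum, from orthogonality of `b` after applying `p^L`
  set L := ∑ j, k j with hL'
  have hkL : ∀ j, k j ≤ L := fun j =>
    Finset.single_le_sum (f := k) (fun _ _ => Nat.zero_le _) (Finset.mem_univ j)
  have hyL : ι (p ^ L • y) = ι y ^ Q ^ L := hL.frob_pow L y
  set a' : Fin N → ℕ := fun j' => u (σ.symm j') * p ^ (L - k (σ.symm j')) with ha'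
  have hterm2 : ∀ j, a' (σ j) • b (σ j) = p ^ L • (u j • z j) := by
    intro j
    simp only [ha', Equiv.symm_apply_apply]
    rw [← hz j, mul_smul, ← mul_smul (p ^ _), ← pow_add, Nat.sub_add_cancel (hkL j), smul_comm]
  have hsum2 : ∑ j', a' j' • b j' = p ^ L • y := by
    rw [← Equiv.sum_comp σ, hy, Finset.smul_sum]
    exact Finset.sum_congr rfl fun j _ => hterm2 j
  have hnorm : ∀ j, ‖ι (a' (σ j) • b (σ j))‖ = ‖ι (u j • z j)‖ ^ Q ^ L := by
    intro j
    rw [hterm2, hL.frob_pow, norm_pow]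
  have hni : ‖ι (u i • z i)‖ = M := hL.norm_nsmul_eq (z i) (hz0 i) (a i) hai
  have hmax : ∀ j', ‖ι (a' j' • b j')‖ ≤ ‖ι (a' (σ i) • b (σ i))‖ := by
    intro j'
    obtain ⟨j, rfl⟩ := σ.surjective j'
    rw [hnorm, hnorm, hni]
    exact pow_le_pow_left₀ (norm_nonneg _) (hterm j) _
  have horth := hb a' (σ i) hmax
  rw [hsum2, hyL, norm_pow, hnorm, hni] at horth
  have hQL : Q ^ L ≠ 0 := (pow_pos (by omega) L).ne'
  have hyn : ‖ι y‖ = M := (pow_left_inj₀ (norm_nonneg _) hM0.le hQL).mp horth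
  -- conclusion
  have h5 : ∑ j, (ZMod.cast (a j) : K) * ι (z j)
      = ι y - (ι y - ∑ j, (ZMod.cast (a j) : K) * ι (z j)) := by ring
  rw [h5, sub_eq_add_neg]
  have hne : ‖ι y‖ ≠ ‖-(ι y - ∑ j, (ZMod.cast (a j) : K) * ι (z j))‖ := by
    rw [norm_neg, hyn]
    exact (lt_of_le_of_lt hdiff hMsq).ne'
  rw [IsUltrametricDist.norm_add_eq_max_of_norm_ne_norm hne, hyn, norm_neg]
  exact max_eq_left (hdiff.trans hMsq.le)

/-- **E1**: an orthogonal tuple `b` of the ball (with `p`-divisible law and `[p] = (·)^q`,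
`q = p^n`, `0 < N < n`) yields a good tuple: `z` with `p^{k_j} • z_j = b_{σ j}`. -/
theorem exists_goodTuple [Fact p.Prime] [CharP K p] {n : ℕ} (hN : N ≠ 0) (hNn : N < n)
    (hL : LawData p (p ^ n) ι) {b : Fin N → G} (hb : OrthFamily ι b)
    (hb0 : ∀ j, ι (b j) ≠ 0) (hdiv : ∀ x : G, ∃ y : G, p • y = x) :
    ∃ (σ : Equiv.Perm (Fin N)) (k : Fin N → ℕ) (z : Fin N → G) (ρ : Fin N → ℝ),
      (∀ j, p ^ k j • z j = b (σ j)) ∧
      GoodTuple p (thetaReal p n N) (fun j => ι (z j)) ρ := by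
  classical
  have : NeZero N := ⟨hN⟩
  have hp1 : 1 < p := (Fact.out : p.Prime).one_lt
  have hp0 : 0 < p := by omega
  have hp1' : (1 : ℝ) < (p : ℝ) := by exact_mod_cast hp1
  have hn0 : n ≠ 0 := by omega
  have hq : (1 : ℝ) < (p : ℝ) ^ n := one_lt_pow₀ hp1' hn0
  have hdivm : ∀ (m : ℕ) (x : G), ∃ y : G, p ^ m • y = x := by
    intro m
    induction m with
    | zero => exact fun x => ⟨x, by simp⟩
    | succ m ih =>
      intro x
      obtain ⟨y, hy⟩ := hdiv x
      obtain ⟨w, hw⟩ := ih y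
      exact ⟨w, by rw [pow_succ', mul_smul, hw, hy]⟩
  set R : Fin N → ℝ := fun i => -Real.log ‖ι (b i)‖ with hR
  have hRpos : ∀ i, 0 < R i := by
    intro i
    have h1 : 0 < ‖ι (b i)‖ := norm_pos_iff.mpr (hb0 i)
    have h2 := hL.lt_one (b i)
    have := Real.log_neg h1 h2
    simp only [hR]
    linarith
  obtain ⟨σ, k, hanti, hreg⟩ := exists_rotation hp0 R hRpos hq (thetaReal_pos hp0 n N)
    (thetaReal_lt_one hp1 hN hNn) (thetaReal_pow hp0 n hN)
  choose z hz using fun j => hdivm (k j) (b (σ j))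
  set ρ : Fin N → ℝ := fun j => R (σ j) / ((p : ℝ) ^ n) ^ k j with hρ
  have hqk : ∀ j, (0 : ℝ) < ((p : ℝ) ^ n) ^ k j := fun j => by positivity
  have hnorm : ∀ j, ‖ι (z j)‖ = Real.exp (-ρ j) := by
    intro j
    have h1 : ι (b (σ j)) = ι (z j) ^ (p ^ n) ^ k j := by
      rw [← hz j, hL.frob_pow]
    have h2 : ‖ι (z j)‖ ^ (p ^ n) ^ k j = ‖ι (b (σ j))‖ := by
      rw [h1, norm_pow]
    have h3 : ((p ^ n) ^ k j : ℕ) ≠ 0 := (pow_pos (pow_pos hp0 n) _).ne'
    have h4 : Real.exp (-ρ j) ^ (p ^ n) ^ k j = ‖ι (b (σ j))‖ := by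
      rw [← Real.exp_nat_mul]
      have h5 : ((((p ^ n) ^ k j : ℕ) : ℝ)) * -ρ j = Real.log ‖ι (b (σ j))‖ := by
        simp only [hρ, hR]
        push_cast
        have := (hqk j).ne'
        field_simp
      rw [h5, Real.exp_log (norm_pos_iff.mpr (hb0 _))]
    exact (pow_left_inj₀ (norm_nonneg _) (Real.exp_pos _).le h3).mp (h2.trans h4.symm)
  have hz0 : ∀ j, ι (z j) ≠ 0 := by
    intro j
    rw [← norm_pos_iff, hnorm]
    exact Real.exp_pos _
  have hρanti : Antitone ρ := hanti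
  refine ⟨σ, k, z, ρ, hz, ?_⟩
  refine
    { norm_eq := hnorm
      rho_pos := fun i => div_pos (hRpos _) (hqk i)
      anti := hρanti
      orth := ?_
      reg := hreg }
  intro a i hai hatop
  refine hL.orth_top (pow_pos hp0 n) hb σ k z hz hz0 ?_ a i hai hatop
  intro j₁ j₂ h
  simp only [hnorm]
  exact Real.exp_le_exp.mpr (neg_le_neg (hρanti h))

end Law

end Crest.Agent.LT.Dickson
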