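/-
S0351 (row 227), shared definitions.  See BLUEPRINT.md in this folder.  NO sorry in this file.
Namespace: Crest.Agent.LT.
-/
import Mathlib
import Crest.Prelude.Def_LubinTate

set_option autoImplicit false
set_option linter.unusedSectionVars false

namespace Crest.Agent.LT

open Crest.LubinTate

variable (p : ℕ) [Fact p.Prime] (n : ℕ)

/-- residue field `𝔽_q`, `q = p ^ n`. -/
abbrev kk : Type := GaloisField p n
/-- Witt vectors of `kk`. -/
abbrev WW : Type := WittVector p (GaloisField p n)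
/-- The Lubin–Tate ring `W[[t_1..t_{n-1}]]`. -/
abbrev AA : Type := LTRing p n

/-- the power series variable `t_{i+1}` (index `i : Fin (n-1)`). -/
noncomputable def tt (i : Fin (n - 1)) : AA p n := MvPowerSeries.X i

/-- `v_h`: `v_0 = p`, `v_h = t_h` for `1 ≤ h < n`, `v_h = 1` for `h ≥ n` (`h ≠ 0`). -/
noncomputable def vv (h : ℕ) : AA p n :=
  if h = 0 then (p : AA p n) else if hh : h - 1 < n - 1 then tt p n ⟨h - 1, hh⟩ else 1

/-- The explicit height ideal `I_h = (p, t_1, …, t_{h-1})` (`I_0 = 0`). -/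
noncomputable def II (h : ℕ) : Ideal (AA p n) :=
  if h = 0 then ⊥ else Ideal.span ({(p : AA p n)} ∪ {x | ∃ i : Fin (n - 1), i.val + 1 < h ∧ x = tt p n i})

/-- The ideal `T_h = (t_h, …, t_{n-1})`. -/
noncomputable def TT (h : ℕ) : Ideal (AA p n) :=
  Ideal.span {x | ∃ i : Fin (n - 1), h ≤ i.val + 1 ∧ x = tt p n i}

/-- `c_i` as a rational polynomial: `c_i = t_i` for `1 ≤ i < n`, `c_n = 1`, `c_i = 0` otherwise
(`i = 0` included). -/
noncomputable def ccPoly (i : ℕ) : MvPolynomial (Fin (n - 1)) ℚ :=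
  if hi : 1 ≤ i ∧ i < n then MvPolynomial.X ⟨i - 1, by omega⟩ else if i = n then 1 else 0

/-- Hazewinkel's recursion `ℓ_0 = 1`, `p ℓ_m = ∑_{i=1}^{m} ℓ_{m-i} c_i ^ (p ^ (m-i))`. -/
noncomputable def ellPoly : ℕ → MvPolynomial (Fin (n - 1)) ℚ
  | 0 => 1
  | m + 1 => (p : ℚ)⁻¹ • ∑ i : Fin (m + 1),
      ellPoly (m - i.val) * (ccPoly n (i.val + 1)) ^ (p ^ (m - i.val))
decreasing_by omega

theorem ellPoly_zero : ellPoly p n 0 = 1 := by
  rw [ellPoly]

theorem ellPoly_succ (m : ℕ) : ellPoly p n (m + 1) = (p : ℚ)⁻¹ • ∑ i ∈ Finset.range (m + 1),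
      ellPoly p n (m - i) * (ccPoly n (i + 1)) ^ (p ^ (m - i)) := by
  rw [ellPoly, Finset.sum_range]

/-- The logarithm `∑ ℓ_m(τ) X ^ (p ^ m)` at parameters `τ` in a `ℚ`-algebra. -/
noncomputable def logSeries {C : Type} [CommRing C] [Algebra ℚ C] (τ : Fin (n - 1) → C) :
    PowerSeries C :=
  PowerSeries.mk fun e =>
    if e ≠ 0 ∧ p ^ Nat.log p e = e then MvPolynomial.aeval τ (ellPoly p n (Nat.log p e)) else 0

theorem coeff_logSeries_pow {C : Type} [CommRing C] [Algebra ℚ C] (τ : Fin (n - 1) → C) (m : ℕ) :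
    PowerSeries.coeff (p ^ m) (logSeries p n τ) = MvPolynomial.aeval τ (ellPoly p n m) := by
  have hp : 1 < p := (Fact.out : p.Prime).one_lt
  have h1 : Nat.log p (p ^ m) = m := Nat.log_pow hp m
  have h2 : p ^ m ≠ 0 := pow_ne_zero _ (by omega)
  simp only [logSeries, PowerSeries.coeff_mk]
  rw [if_pos ⟨h2, by rw [h1]⟩, h1]

theorem coeff_logSeries_of_ne {C : Type} [CommRing C] [Algebra ℚ C] (τ : Fin (n - 1) → C) (e : ℕ)
    (he : ∀ m, e ≠ p ^ m) : PowerSeries.coeff e (logSeries p n τ) = 0 := by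
  simp only [logSeries, PowerSeries.coeff_mk]
  rw [if_neg]
  rintro ⟨-, h⟩
  exact he _ h.symm

end Crest.Agent.LT
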