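import Crest.Agent.Lib.LubinTate.Defs

/-!
# The Hazewinkel formal group law: integrality (row 227, module A3a)

`hazE`, `logSeries`, the functional equation and the integrality theorem.
-/

set_option autoImplicit false

namespace Crest.Agent.LT.HazInt

open MvPowerSeries

/-! ### The integer form of the Hazewinkel coefficients -/

section HazE

variable {R S : Type*} [CommRing R] [CommRing S] (p : ℕ)

/-- Integer form of the Hazewinkel coefficients: `E 0 = 1`,
`E (m+1) = ∑_{i ≤ m} p^i E (m-i) c_{i+1}^{p^(m-i)}`, so that `l_m = E m / p^m`. -/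
noncomputable def hazE (c : ℕ → R) : ℕ → R
  | 0 => 1
  | (m + 1) => ∑ i : Fin (m + 1), (p : R) ^ (i : ℕ) * hazE c (m - i) * c (i + 1) ^ p ^ (m - i)
decreasing_by
  all_goals omega

@[simp] lemma hazE_zero (c : ℕ → R) : hazE p c 0 = 1 := by
  rw [hazE]

lemma hazE_succ (c : ℕ → R) (m : ℕ) :
    hazE p c (m + 1) =
      ∑ i ∈ Finset.range (m + 1), (p : R) ^ i * hazE p c (m - i) * c (i + 1) ^ p ^ (m - i) := by
  rw [hazE, Finset.sum_range]

/-- Ring homomorphisms commute with `hazE`. -/
lemma map_hazE (f : R →+* S) (c : ℕ → R) (m : ℕ) :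
    f (hazE p c m) = hazE p (fun j => f (c j)) m := by
  induction m using Nat.strong_induction_on with
  | _ m ih =>
    cases m with
    | zero => simp
    | succ m =>
      rw [hazE_succ, hazE_succ, map_sum]
      refine Finset.sum_congr rfl fun i hi => ?_
      have hi' : m - i < m + 1 := by omega
      simp [ih _ hi', map_mul, map_pow]

lemma iterate_pow_of_frob (σ : R →+* R) (x : R) (hx : σ x = x ^ p) (i : ℕ) :
    σ^[i] x = x ^ p ^ i := by
  induction i with
  | zero => simp
  | succ i ih =>
    rw [Function.iterate_succ_apply', ih, map_pow, hx, ← pow_mul, pow_succ, mul_comm (p ^ i)]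

/-- The left recursion of the Hazewinkel coefficients. -/
lemma hazE_succ_left (σ : R →+* R) (c : ℕ → R) (hc : ∀ j, σ (c j) = c j ^ p) (m : ℕ) :
    hazE p c (m + 1) =
      ∑ i ∈ Finset.range (m + 1), (p : R) ^ i * c (i + 1) * σ^[i + 1] (hazE p c (m - i)) := by
  induction m using Nat.strong_induction_on with
  | _ m ih =>
    rw [hazE_succ, Finset.sum_range_succ, Finset.sum_range_succ]
    have hlast : (p : R) ^ m * hazE p c (m - m) * c (m + 1) ^ p ^ (m - m) =
        (p : R) ^ m * c (m + 1) * σ^[m + 1] (hazE p c (m - m)) := by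
      simp [iterate_map_one]
    rw [hlast]
    congr 1
    -- both sides become the same double sum
    have h1 : ∀ j ∈ Finset.range m,
        (p : R) ^ j * hazE p c (m - j) * c (j + 1) ^ p ^ (m - j) =
        ∑ i ∈ Finset.range (m - j), (p : R) ^ i * c (i + 1) * σ^[i + 1] (hazE p c (m - j - 1 - i))
          * ((p : R) ^ j * c (j + 1) ^ p ^ (m - j)) := by
      intro j hj
      have hj' : j < m := Finset.mem_range.mp hj
      have hm : m - j = (m - j - 1) + 1 := by omega
      have := ih (m - j - 1) (by omega)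
      rw [← hm] at this
      rw [this, ← Finset.sum_mul]
      ring
    have h2 : ∀ i ∈ Finset.range m,
        (p : R) ^ i * c (i + 1) * σ^[i + 1] (hazE p c (m - i)) =
        ∑ j ∈ Finset.range (m - i), (p : R) ^ i * c (i + 1) * σ^[i + 1] (hazE p c (m - j - 1 - i))
          * ((p : R) ^ j * c (j + 1) ^ p ^ (m - j)) := by
      intro i hi
      have hi' : i < m := Finset.mem_range.mp hi
      have hm : m - i = (m - i - 1) + 1 := by omega
      rw [hm, hazE_succ, ← hm]
      rw [show (σ^[i + 1] (∑ j ∈ Finset.range (m - i),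
            (p : R) ^ j * hazE p c (m - i - 1 - j) * c (j + 1) ^ p ^ (m - i - 1 - j))) =
          σ^[i + 1]  (∑ j ∈ Finset.range (m - i),
            (p : R) ^ j * hazE p c (m - i - 1 - j) * c (j + 1) ^ p ^ (m - i - 1 - j)) from rfl]
      have hs : ∀ x : R, σ^[i + 1] x = (σ ^ (i + 1)) x := fun x => by rw [RingHom.coe_pow]
      rw [hs, map_sum, Finset.mul_sum]
      refine Finset.sum_congr rfl fun j hj => ?_
      have hj' : j < m - i := Finset.mem_range.mp hj
      rw [map_mul, map_mul, map_pow, map_pow, map_natCast, ← hs, ← hs]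
      rw [iterate_pow_of_frob p σ _ (hc _)]
      have e1 : (m - i - 1 - j) = m - j - 1 - i := by omega
      have e2 : p ^ (m - j) = p ^ (m - j - 1 - i) * p ^ (i + 1) := by
        rw [← pow_add]; congr 1; omega
      rw [e1, e2, pow_mul]
      ring
    rw [Finset.sum_congr rfl h1, Finset.sum_congr rfl h2]
    refine Finset.sum_comm' ?_
    intro x y
    simp only [Finset.mem_range]
    omega

end HazE

/-! ### Log series -/

section LogSeries

variable {R S : Type*} [CommRing R] [CommRing S] (p : ℕ)

/-- The series `∑ a_m X^(p^m)`. -/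
noncomputable def logSeries (a : ℕ → R) : PowerSeries R :=
  PowerSeries.mk fun k => if p ^ Nat.log p k = k then a (Nat.log p k) else 0

lemma coeff_logSeries_pow (hp : 1 < p) (a : ℕ → R) (m : ℕ) :
    PowerSeries.coeff (p ^ m) (logSeries p a) = a m := by
  simp [logSeries, Nat.log_pow hp]

lemma coeff_logSeries_of_ne (a : ℕ → R) (k : ℕ) (hk : ∀ m, k ≠ p ^ m) :
    PowerSeries.coeff k (logSeries p a) = 0 := by
  simp only [logSeries, PowerSeries.coeff_mk]
  rw [if_neg]
  exact fun h => hk _ h.symm

lemma map_logSeries (f : R →+* S) (a : ℕ → R) :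
    PowerSeries.map f (logSeries p a) = logSeries p (fun m => f (a m)) := by
  ext k
  simp only [logSeries, PowerSeries.coeff_map, PowerSeries.coeff_mk]
  split_ifs <;> simp

lemma constantCoeff_logSeries (hp : 1 < p) (a : ℕ → R) :
    PowerSeries.constantCoeff (logSeries p a) = 0 := by
  rw [← PowerSeries.coeff_zero_eq_constantCoeff_apply]
  apply coeff_logSeries_of_ne
  intro m h
  exact absurd h.symm (pow_ne_zero _ (by omega))

lemma coeff_one_logSeries (hp : 1 < p) (a : ℕ → R) :
    PowerSeries.coeff 1 (logSeries p a) = a 0 := by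
  have := coeff_logSeries_pow p hp a 0
  simpa using this

end LogSeries

/-! ### The ideal of series vanishing below an index -/

section Vanish

variable {τ R S : Type*} [CommRing R] [CommRing S]

/-- The ideal of series whose coefficients vanish at all `m ≤ e`. -/
def vanIdeal (R : Type*) [CommRing R] (e : τ →₀ ℕ) : Ideal (MvPowerSeries τ R) where
  carrier := {h | ∀ m, m ≤ e → coeff m h = 0}
  add_mem' := by
    intro a b ha hb m hm
    simp [ha m hm, hb m hm]
  zero_mem' := by
    intro m _
    simp
  smul_mem' := by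
    intro c x hx m hm
    classical
    rw [smul_eq_mul, coeff_mul]
    refine Finset.sum_eq_zero fun q hq => ?_
    have hq' := Finset.HasAntidiagonal.mem_antidiagonal.mp hq
    have : q.2 ≤ e := le_trans (by rw [← hq']; exact le_add_self) hm
    rw [hx _ this, mul_zero]

lemma mem_vanIdeal {e : τ →₀ ℕ} {h : MvPowerSeries τ R} :
    h ∈ vanIdeal R e ↔ ∀ m, m ≤ e → coeff m h = 0 := Iff.rfl

/-- If `h` vanishes strictly below `e` and `Y` has zero constant coefficient, `h * Y` vanishes at
all `m ≤ e`. -/
lemma mul_mem_vanIdeal {e : τ →₀ ℕ} {h Y : MvPowerSeries τ R}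
    (hh : ∀ m, m < e → coeff m h = 0) (hY : constantCoeff Y = 0) :
    h * Y ∈ vanIdeal R e := by
  classical
  intro m hm
  rw [coeff_mul]
  refine Finset.sum_eq_zero fun q hq => ?_
  have hq' := Finset.HasAntidiagonal.mem_antidiagonal.mp hq
  have h1 : q.1 ≤ e := le_trans (by rw [← hq']; exact le_self_add) hm
  rcases lt_or_eq_of_le h1 with h2 | h2
  · rw [hh _ h2, zero_mul]
  · -- q.1 = e, hence q.2 = 0
    have : q.2 = 0 := by
      have h3 : e + q.2 ≤ e := by rw [← h2, hq']; rw [h2]; exact hm
      ext i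
      have := h3 i
      simp only [Finsupp.coe_add, Pi.add_apply] at this
      simp only [Finsupp.coe_zero, Pi.zero_apply]
      omega
    rw [this, coeff_zero_eq_constantCoeff_apply, hY, mul_zero]

lemma pow_sub_pow_mem_vanIdeal {e : τ →₀ ℕ} {x y : MvPowerSeries τ R} (h : x - y ∈ vanIdeal R e)
    (k : ℕ) : x ^ k - y ^ k ∈ vanIdeal R e :=
  Ideal.mem_of_dvd _ (sub_dvd_pow_sub_pow x y k) h

/-- If `x = y` modulo series vanishing strictly below `e`, and `x, y` have zero constant
coefficient, then `x ^ q = y ^ q` at all `m ≤ e`, for `q ≥ 2`. -/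
lemma pow_sub_pow_mem_vanIdeal_of_lt {e : τ →₀ ℕ} {x y : MvPowerSeries τ R}
    (hx : constantCoeff x = 0) (hy : constantCoeff y = 0)
    (h : ∀ m, m < e → coeff m (x - y) = 0) {q : ℕ} (hq : 2 ≤ q) :
    x ^ q - y ^ q ∈ vanIdeal R e := by
  rw [← geom_sum₂_mul x y q, mul_comm]
  refine mul_mem_vanIdeal h ?_
  rw [map_sum]
  refine Finset.sum_eq_zero fun j hj => ?_
  have hj' := Finset.mem_range.mp hj
  rw [map_mul, map_pow, map_pow, hx, hy]
  have hj2 : j ≠ 0 ∨ q - 1 - j ≠ 0 := by omega
  rcases hj2 with h2 | h2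
  · rw [zero_pow h2, zero_mul]
  · rw [zero_pow h2, mul_zero]

end Vanish

/-! ### The Frobenius map on series -/

section Phi

variable {τ R S : Type*} [CommRing R] [CommRing S] (p : ℕ) (hp0 : p ≠ 0)

/-- The "Frobenius lift" on series: apply `s` to the coefficients and then `X ↦ X^p`. -/
noncomputable def phi (s : R →+* R) : MvPowerSeries τ R →+* MvPowerSeries τ R :=
  ((expand p hp0 : MvPowerSeries τ R →ₐ[R] MvPowerSeries τ R) : MvPowerSeries τ R →+* _).comp
    (MvPowerSeries.map s)

lemma phi_apply (s : R →+* R) (f : MvPowerSeries τ R) :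
    phi p hp0 s f = expand p hp0 (MvPowerSeries.map s f) := rfl

lemma phi_X (s : R →+* R) (i : τ) : phi p hp0 s (X i : MvPowerSeries τ R) = X i ^ p := by
  rw [phi_apply, map_X, expand_X]

lemma constantCoeff_phi (s : R →+* R) (f : MvPowerSeries τ R) :
    constantCoeff (phi p hp0 s f) = s (constantCoeff f) := by
  rw [phi_apply, constantCoeff_expand, constantCoeff_map]

lemma coeff_phi_smul (s : R →+* R) (f : MvPowerSeries τ R) (m : τ →₀ ℕ) :
    coeff (p • m) (phi p hp0 s f) = s (coeff m f) := by
  rw [phi_apply, coeff_expand_smul, coeff_map]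

lemma coeff_phi_of_not_dvd (s : R →+* R) (f : MvPowerSeries τ R) {m : τ →₀ ℕ} {i : τ}
    (h : ¬ p ∣ m i) : coeff m (phi p hp0 s f) = 0 := by
  rw [phi_apply, coeff_expand_of_not_dvd p hp0 _ h]

/-- `coeff m (phi f)` vanishes as soon as the coefficients of `f` at all `m'` with `p • m' = m`
vanish. -/
lemma coeff_phi_eq_zero (s : R →+* R) (f : MvPowerSeries τ R) {m : τ →₀ ℕ}
    (h : ∀ m', p • m' = m → coeff m' f = 0) : coeff m (phi p hp0 s f) = 0 := by
  classical
  by_cases hd : ∀ i, p ∣ m i
  · obtain ⟨m', hm'⟩ : ∃ m', p • m' = m :=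
      ⟨m.mapRange (fun a ↦ a / p) (by simp), by
        ext i; simp [Nat.mul_div_cancel' (hd i)]⟩
    rw [← hm', coeff_phi_smul, h m' hm', map_zero]
  · obtain ⟨i, hi⟩ := not_forall.mp hd
    exact coeff_phi_of_not_dvd p hp0 s f hi

section Frob

variable [DecidableEq τ]

omit [DecidableEq τ] in
/-- Polynomial case of the Frobenius congruence. -/
lemma frob_cong_poly (hp : p.Prime) (s : R →+* R) (hs : ∀ a, ∃ b, s a - a ^ p = p * b)
    (f : MvPolynomial τ R) :
    ∃ g : MvPowerSeries τ R, phi p hp.ne_zero s (f : MvPowerSeries τ R) - (f : MvPowerSeries τ R) ^ p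
      = (p : MvPowerSeries τ R) * g := by
  induction f using MvPolynomial.induction_on with
  | C a =>
    obtain ⟨b, hb⟩ := hs a
    refine ⟨C b, ?_⟩
    have h1 : phi p hp.ne_zero s ((MvPolynomial.C a : MvPolynomial τ R) : MvPowerSeries τ R)
        = C (s a) := by
      rw [MvPolynomial.coe_C, phi_apply, map_C, expand_C]
    rw [h1, MvPolynomial.coe_C, ← map_pow, ← map_sub, hb, map_mul, map_natCast]
  | add x y hx hy =>
    obtain ⟨gx, hgx⟩ := hx
    obtain ⟨gy, hgy⟩ := hy
    obtain ⟨r, hr⟩ := exists_add_pow_prime_eq hp (x : MvPowerSeries τ R) (y : MvPowerSeries τ R)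
    refine ⟨gx + gy - x * y * r, ?_⟩
    rw [MvPolynomial.coe_add, map_add, hr]
    have : (p : MvPowerSeries τ R) * (gx + gy - x * y * r) =
        (p : MvPowerSeries τ R) * gx + (p : MvPowerSeries τ R) * gy
          - (p : MvPowerSeries τ R) * x * y * r := by ring
    rw [this, ← hgx, ← hgy]
    ring
  | mul_X x i hx =>
    obtain ⟨g, hg⟩ := hx
    refine ⟨g * X i ^ p, ?_⟩
    rw [MvPolynomial.coe_mul, map_mul, MvPolynomial.coe_X, phi_X, mul_pow, ← mul_assoc, ← hg]
    ring

omit [DecidableEq τ] in
/-- Frobenius congruence for series: `phi f ≡ f ^ p` modulo `p`. -/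
lemma frob_cong (hp : p.Prime) (s : R →+* R) (hs : ∀ a, ∃ b, s a - a ^ p = p * b)
    (f : MvPowerSeries τ R) :
    ∃ g : MvPowerSeries τ R, phi p hp.ne_zero s f - f ^ p = (p : MvPowerSeries τ R) * g := by
  classical
  have key : ∀ e : τ →₀ ℕ, ∃ r : R, coeff e (phi p hp.ne_zero s f - f ^ p) = (p : R) * r := by
    intro e
    obtain ⟨g, hg⟩ := frob_cong_poly p hp s hs (trunc' R e f)
    obtain ⟨t, ht⟩ : ∃ t : MvPowerSeries τ R, t = (trunc' R e f : MvPolynomial τ R) := ⟨_, rfl⟩
    rw [← ht] at hg
    have h1 : f - t ∈ vanIdeal R e := by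
      intro m hm
      rw [map_sub, ht, MvPolynomial.coeff_coe, coeff_trunc', if_pos hm, sub_self]
    have h2 : f ^ p - t ^ p ∈ vanIdeal R e := pow_sub_pow_mem_vanIdeal h1 p
    have h3 : phi p hp.ne_zero s f - phi p hp.ne_zero s t ∈ vanIdeal R e := by
      rw [← map_sub]
      intro m hm
      refine coeff_phi_eq_zero p hp.ne_zero s _ fun m' hm' => h1 m' ?_
      refine le_trans ?_ hm
      rw [← hm']
      intro i
      simp only [Finsupp.coe_smul, Pi.smul_apply, smul_eq_mul]
      exact Nat.le_mul_of_pos_left _ hp.pos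
    have h4 := h3 e le_rfl
    have h5 := h2 e le_rfl
    rw [map_sub] at h4 h5
    refine ⟨coeff e g, ?_⟩
    have h6 : coeff e (phi p hp.ne_zero s t - t ^ p) = (p : R) * coeff e g := by
      rw [hg, ← map_natCast (C (σ := τ) (R := R)) p, coeff_C_mul]
    rw [map_sub, ← h6, map_sub]
    linear_combination h4 - h5
  choose r hr using key
  obtain ⟨g, hg⟩ : ∃ g : MvPowerSeries τ R, ∀ e, coeff e g = r e := ⟨r, fun e => rfl⟩
  refine ⟨g, ?_⟩
  ext e
  rw [hr, ← map_natCast (C (σ := τ) (R := R)) p, coeff_C_mul, hg]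

omit [DecidableEq τ] in
/-- Iterated Frobenius congruence. -/
lemma frob_cong_iter (hp : p.Prime) (s : R →+* R) (hs : ∀ a, ∃ b, s a - a ^ p = p * b)
    (f : MvPowerSeries τ R) (i : ℕ) :
    ∃ g : MvPowerSeries τ R, (phi p hp.ne_zero s)^[i] f - f ^ p ^ i = (p : MvPowerSeries τ R) * g := by
  induction i with
  | zero => exact ⟨0, by simp⟩
  | succ i ih =>
    obtain ⟨g, hg⟩ := ih
    obtain ⟨g', hg'⟩ := frob_cong p hp s hs (f ^ p ^ i)
    refine ⟨phi p hp.ne_zero s g + g', ?_⟩
    rw [Function.iterate_succ_apply']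
    have h1 : (phi p hp.ne_zero s)^[i] f = f ^ p ^ i + (p : MvPowerSeries τ R) * g := by
      rw [← hg]; ring
    rw [h1, map_add, map_mul, map_natCast, mul_add, ← hg', pow_succ, pow_mul]
    ring

end Frob

end Phi

/-! ### Substitution of a log series -/

section Subst

variable {τ B : Type*} [CommRing B]

lemma subst_expand {Z : MvPowerSeries τ B} (hZ : PowerSeries.HasSubst Z) {q : ℕ} (hq : q ≠ 0)
    (g : PowerSeries B) :
    PowerSeries.subst Z (PowerSeries.expand q hq g) = PowerSeries.subst (Z ^ q) g := by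
  rw [PowerSeries.expand_apply,
    PowerSeries.subst_comp_subst_apply (PowerSeries.HasSubst.X_pow hq) hZ]
  congr 1
  rw [PowerSeries.subst_pow hZ, PowerSeries.subst_X hZ]

/-- The map `phi` and substitution into a one-variable series. -/
lemma phi_subst (p : ℕ) (hp0 : p ≠ 0) (s : B →+* B) {Z : MvPowerSeries τ B}
    (hZ : PowerSeries.HasSubst Z) (g : PowerSeries B) :
    phi p hp0 s (PowerSeries.subst Z g) =
      PowerSeries.subst (phi p hp0 s Z) (PowerSeries.map s g) := by
  have h : PowerSeries.HasSubst (MvPowerSeries.map s Z) := by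
    have := IsNilpotent.map hZ s
    rwa [← MvPowerSeries.constantCoeff_map] at this
  rw [phi_apply, phi_apply, PowerSeries.map_subst hZ, PowerSeries.expand_subst _ _ h]

end Subst

section LogCong

variable {τ A B : Type*} [CommRing A] [CommRing B] (ι : A →+* B) (p : ℕ)

/-- The congruence lemma: `a_m ∈ p^(-m) A`, `α ^ (p ^ m) ≡ β ^ (p ^ m)` mod `p ^ (m+1)` at `e`;
then `l(α) ≡ l(β)` mod `p` at `e`. -/
lemma logCong (hp : 1 < p) (a : ℕ → B) (b : ℕ → A) (ha : ∀ m, a m * (p : B) ^ m = ι (b m))
    {α β : MvPowerSeries τ B} (hα : PowerSeries.HasSubst α) (hβ : PowerSeries.HasSubst β)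
    (e : τ →₀ ℕ)
    (h : ∀ m, ∃ γ, coeff e (α ^ p ^ m) - coeff e (β ^ p ^ m) = (p : B) ^ (m + 1) * ι γ) :
    ∃ γ, coeff e (PowerSeries.subst α (logSeries p a)) -
      coeff e (PowerSeries.subst β (logSeries p a)) = (p : B) * ι γ := by
  rw [PowerSeries.coeff_subst hα, PowerSeries.coeff_subst hβ,
    ← finsum_sub_distrib (PowerSeries.coeff_subst_finite hα _ e)
      (PowerSeries.coeff_subst_finite hβ _ e)]
  refine finsum_induction (fun x : B => ∃ γ, x = (p : B) * ι γ) ⟨0, by simp⟩ ?_ ?_
  · rintro x y ⟨g1, rfl⟩ ⟨g2, rfl⟩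
    exact ⟨g1 + g2, by rw [map_add]; ring⟩
  · intro d
    simp only [smul_eq_mul]
    by_cases hd : ∃ m, d = p ^ m
    · obtain ⟨m, rfl⟩ := hd
      obtain ⟨γ, hγ⟩ := h m
      refine ⟨b m * γ, ?_⟩
      rw [← mul_sub, hγ, coeff_logSeries_pow p hp, map_mul, ← ha, pow_succ]
      ring
    · rw [coeff_logSeries_of_ne p a d (fun m hm => hd ⟨m, hm⟩)]
      exact ⟨0, by simp⟩

end LogCong

/-! ### The abstract setting -/

/-- The data for the functional equation lemma. -/
structure HazData (p n : ℕ) (A B : Type*) [CommRing A] [CommRing B] where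
  /-- the inclusion of `A` in `B` -/
  ι : A →+* B
  inj : Function.Injective ι
  /-- the inverse of `p` in `B` -/
  P : B
  hP : (p : B) * P = 1
  /-- the Frobenius lift on `A` -/
  σ : A →+* A
  /-- the Frobenius lift on `B` -/
  σB : B →+* B
  hσ : ∀ a, σB (ι a) = ι (σ a)
  frob : ∀ a, ∃ b, σ a - a ^ p = p * b
  /-- the parameters `c_i` of the law, `1 ≤ i ≤ n` -/
  c : ℕ → A
  hc : ∀ j, σ (c j) = c j ^ p
  hc0 : ∀ j, n < j → c j = 0

namespace HazData

variable {p n : ℕ} {A B : Type*} [CommRing A] [CommRing B] (D : HazData p n A B)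

lemma σB_P : D.σB D.P = D.P := by
  have h := congrArg D.σB D.hP
  rw [map_mul, map_natCast, map_one] at h
  calc D.σB D.P = (D.P * (p : B)) * D.σB D.P := by rw [mul_comm D.P, D.hP, one_mul]
    _ = D.P * ((p : B) * D.σB D.P) := by ring
    _ = D.P := by rw [h, mul_one]

/-- The coefficients of the log: `l_m = E_m / p ^ m`. -/
noncomputable def ell (m : ℕ) : B := D.P ^ m * D.ι (hazE p D.c m)

/-- The logarithm. -/
noncomputable def l : PowerSeries B := logSeries p D.ell

/-- `σ^i` applied to the logarithm. -/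
noncomputable def g (i : ℕ) : PowerSeries B :=
  logSeries p fun m => D.P ^ m * D.ι (D.σ^[i] (hazE p D.c m))

lemma g_zero : D.g 0 = D.l := rfl

lemma map_g (i : ℕ) : PowerSeries.map D.σB (D.g i) = D.g (i + 1) := by
  rw [g, map_logSeries, g]
  congr 1
  ext m
  rw [map_mul, map_pow, D.σB_P, D.hσ, Function.iterate_succ_apply']

lemma ell_zero : D.ell 0 = 1 := by simp [ell]

variable (hp : p.Prime)

include hp

/-- The functional equation of the logarithm. -/
lemma func_eq : D.l = PowerSeries.X + ∑ i ∈ Finset.range n,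
    PowerSeries.C (D.P * D.ι (D.c (i + 1))) *
      PowerSeries.expand (p ^ (i + 1)) (pow_ne_zero _ hp.ne_zero) (D.g (i + 1)) := by
  have hp1 : 1 < p := hp.one_lt
  ext k
  rw [map_add, map_sum]
  simp_rw [PowerSeries.coeff_C_mul, PowerSeries.coeff_expand]
  by_cases hk : ∃ M, k = p ^ M
  · obtain ⟨M, rfl⟩ := hk
    rw [l, coeff_logSeries_pow p hp1]
    cases M with
    | zero =>
      simp only [pow_zero, PowerSeries.coeff_one_X]
      rw [D.ell_zero]
      have : ∀ i ∈ Finset.range n, D.P * D.ι (D.c (i + 1)) *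
          (if p ^ (i + 1) ∣ 1 then
            PowerSeries.coeff (1 / p ^ (i + 1)) (D.g (i + 1)) else 0) = 0 := by
        intro i _
        rw [if_neg, mul_zero]
        intro h
        have := Nat.le_of_dvd one_pos h
        have h2 : p ^ 1 ≤ p ^ (i + 1) := Nat.pow_le_pow_right hp.pos (by omega)
        rw [pow_one] at h2
        omega
      rw [Finset.sum_eq_zero this, add_zero]
    | succ M =>
      have hne : p ^ (M + 1) ≠ 1 := by
        have : 1 < p ^ (M + 1) := Nat.one_lt_pow (by omega) hp1
        omega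
      rw [PowerSeries.coeff_X, if_neg hne, zero_add]
      -- rewrite the sum as a sum over `range (M + 1)`
      have hterm : ∀ i, i ≤ M → D.P * D.ι (D.c (i + 1)) *
          (if p ^ (i + 1) ∣ p ^ (M + 1) then
            PowerSeries.coeff (p ^ (M + 1) / p ^ (i + 1)) (D.g (i + 1)) else 0) =
          D.P * D.ι (D.c (i + 1)) * (D.P ^ (M - i) * D.ι (D.σ^[i + 1] (hazE p D.c (M - i)))) := by
        intro i hi
        rw [if_pos (pow_dvd_pow _ (by omega)), Nat.pow_div (by omega) hp.pos,
          show M + 1 - (i + 1) = M - i by omega, g, coeff_logSeries_pow p hp1]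
      have hzero : ∀ i, M < i → D.P * D.ι (D.c (i + 1)) *
          (if p ^ (i + 1) ∣ p ^ (M + 1) then
            PowerSeries.coeff (p ^ (M + 1) / p ^ (i + 1)) (D.g (i + 1)) else 0) = 0 := by
        intro i hi
        rw [if_neg, mul_zero]
        intro h
        have := (Nat.pow_dvd_pow_iff_le_right hp1).mp h
        omega
      have hS : ∑ i ∈ Finset.range n, D.P * D.ι (D.c (i + 1)) *
          (if p ^ (i + 1) ∣ p ^ (M + 1) then
            PowerSeries.coeff (p ^ (M + 1) / p ^ (i + 1)) (D.g (i + 1)) else 0) =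
          ∑ i ∈ Finset.range (M + 1), D.P * D.ι (D.c (i + 1)) *
            (D.P ^ (M - i) * D.ι (D.σ^[i + 1] (hazE p D.c (M - i)))) := by
        -- both equal the sum over `range (n + M + 1)`
        have h1 : ∑ i ∈ Finset.range n, D.P * D.ι (D.c (i + 1)) *
            (if p ^ (i + 1) ∣ p ^ (M + 1) then
              PowerSeries.coeff (p ^ (M + 1) / p ^ (i + 1)) (D.g (i + 1)) else 0) =
            ∑ i ∈ Finset.range (n + M + 1), D.P * D.ι (D.c (i + 1)) *
            (if p ^ (i + 1) ∣ p ^ (M + 1) then
              PowerSeries.coeff (p ^ (M + 1) / p ^ (i + 1)) (D.g (i + 1)) else 0) := by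
          refine Finset.sum_subset ?_ ?_
          · intro x hx
            simp only [Finset.mem_range] at hx ⊢
            omega
          · intro x _ hx
            simp only [Finset.mem_range, not_lt] at hx
            rw [D.hc0 (x + 1) (by omega), map_zero, mul_zero, zero_mul]
        have h2 : ∑ i ∈ Finset.range (M + 1), D.P * D.ι (D.c (i + 1)) *
            (if p ^ (i + 1) ∣ p ^ (M + 1) then
              PowerSeries.coeff (p ^ (M + 1) / p ^ (i + 1)) (D.g (i + 1)) else 0) =
            ∑ i ∈ Finset.range (n + M + 1), D.P * D.ι (D.c (i + 1)) *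
            (if p ^ (i + 1) ∣ p ^ (M + 1) then
              PowerSeries.coeff (p ^ (M + 1) / p ^ (i + 1)) (D.g (i + 1)) else 0) := by
          refine Finset.sum_subset ?_ ?_
          · intro x hx
            simp only [Finset.mem_range] at hx ⊢
            omega
          · intro x _ hx
            simp only [Finset.mem_range, not_lt] at hx
            exact hzero x (by omega)
        rw [h1, ← h2]
        refine Finset.sum_congr rfl fun i hi => hterm i (by
          have := Finset.mem_range.mp hi
          omega)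
      rw [hS, ell, hazE_succ_left p D.σ D.c D.hc, map_sum, Finset.mul_sum]
      refine Finset.sum_congr rfl fun i hi => ?_
      have hi' : i ≤ M := by
        have := Finset.mem_range.mp hi
        omega
      rw [map_mul, map_mul, map_pow, map_natCast]
      have hPP : D.P ^ (M + 1) * (p : B) ^ i = D.P * D.P ^ (M - i) := by
        have : D.P ^ (M + 1) = D.P ^ i * (D.P * D.P ^ (M - i)) := by
          rw [← pow_succ', ← pow_add]; congr 1; omega
        rw [this, mul_right_comm, ← mul_pow, mul_comm D.P, D.hP, one_pow, one_mul]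
      linear_combination (D.ι (D.c (i + 1)) * D.ι (D.σ^[i + 1] (hazE p D.c (M - i)))) * hPP
  · have hne : ∀ m, k ≠ p ^ m := fun m hm => hk ⟨m, hm⟩
    rw [l, coeff_logSeries_of_ne p _ k hne, PowerSeries.coeff_X, if_neg, zero_add]
    · symm
      refine Finset.sum_eq_zero fun i _ => ?_
      by_cases hd : p ^ (i + 1) ∣ k
      · rw [if_pos hd, g, coeff_logSeries_of_ne, mul_zero]
        intro m hm
        obtain ⟨q, rfl⟩ := hd
        rw [Nat.mul_div_cancel_left _ (pow_pos hp.pos _)] at hm
        exact hne (m + (i + 1)) (by rw [hm, pow_add]; ring)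
      · rw [if_neg hd, mul_zero]
    · intro h
      exact hne 0 (by simpa using h)

/-- The functional equation, evaluated at a series without constant term. -/
lemma func_eq_subst {τ : Type*} {Z : MvPowerSeries τ B} (hZ : PowerSeries.HasSubst Z) :
    PowerSeries.subst Z D.l = Z + ∑ i ∈ Finset.range n,
      C (D.P * D.ι (D.c (i + 1))) * PowerSeries.subst (Z ^ p ^ (i + 1)) (D.g (i + 1)) := by
  conv_lhs => rw [D.func_eq hp]
  rw [← PowerSeries.coe_substAlgHom hZ, map_add, map_sum, PowerSeries.substAlgHom_X]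
  congr 1
  refine Finset.sum_congr rfl fun i _ => ?_
  rw [map_mul, PowerSeries.coe_substAlgHom, subst_expand hZ, PowerSeries.subst_C]

end HazData

section Main

variable {p n : ℕ} {A B : Type*} [CommRing A] [CommRing B] (D : HazData p n A B) (hp : p.Prime)

include hp

lemma constantCoeff_iterate_phi {τ : Type*} (F : MvPowerSeries τ B) (hF : constantCoeff F = 0)
    (i : ℕ) : constantCoeff ((phi p hp.ne_zero D.σB)^[i] F) = 0 := by
  induction i with
  | zero => simpa using hF
  | succ i ih =>
    rw [Function.iterate_succ_apply', constantCoeff_phi, ih, map_zero]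

/-- The law for `σ^i l`, evaluated at `X^(p^i), Y^(p^i)`. -/
lemma subst_iterate_phi (F : MvPowerSeries (Fin 2) B) (hF0 : constantCoeff F = 0)
    (hF : PowerSeries.subst F D.l =
      PowerSeries.subst (X 0 : MvPowerSeries (Fin 2) B) D.l +
        PowerSeries.subst (X 1 : MvPowerSeries (Fin 2) B) D.l) (i : ℕ) :
    PowerSeries.subst ((phi p hp.ne_zero D.σB)^[i] F) (D.g i) =
      PowerSeries.subst ((X 0 : MvPowerSeries (Fin 2) B) ^ p ^ i) (D.g i) +
        PowerSeries.subst ((X 1 : MvPowerSeries (Fin 2) B) ^ p ^ i) (D.g i) := by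
  have hXs : ∀ (j : Fin 2) (q : ℕ), q ≠ 0 →
      PowerSeries.HasSubst ((X j : MvPowerSeries (Fin 2) B) ^ q) := by
    intro j q hq
    refine PowerSeries.HasSubst.of_constantCoeff_zero ?_
    rw [map_pow, constantCoeff_X, zero_pow hq]
  induction i with
  | zero =>
    simp only [Function.iterate_zero, id_eq, pow_zero, pow_one]
    exact hF
  | succ i ih =>
    have hq : p ^ i ≠ 0 := pow_ne_zero _ hp.ne_zero
    rw [Function.iterate_succ_apply', ← D.map_g,
      ← phi_subst p hp.ne_zero D.σB (PowerSeries.HasSubst.of_constantCoeff_zero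
        (constantCoeff_iterate_phi D hp F hF0 i)), ih, map_add,
      phi_subst p hp.ne_zero D.σB (hXs 0 _ hq), phi_subst p hp.ne_zero D.σB (hXs 1 _ hq),
      map_pow, map_pow, phi_X, phi_X, ← pow_mul, ← pow_mul, pow_succ' p i]

/-- The master identity of the functional equation lemma. -/
lemma master_identity (F : MvPowerSeries (Fin 2) B) (hF0 : constantCoeff F = 0)
    (hF : PowerSeries.subst F D.l =
      PowerSeries.subst (X 0 : MvPowerSeries (Fin 2) B) D.l +
        PowerSeries.subst (X 1 : MvPowerSeries (Fin 2) B) D.l) :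
    F = X 0 + X 1 + ∑ i ∈ Finset.range n, C (D.P * D.ι (D.c (i + 1))) *
      (PowerSeries.subst ((phi p hp.ne_zero D.σB)^[i + 1] F) (D.g (i + 1)) -
        PowerSeries.subst (F ^ p ^ (i + 1)) (D.g (i + 1))) := by
  have hXs : ∀ (j : Fin 2), PowerSeries.HasSubst (X j : MvPowerSeries (Fin 2) B) := fun j =>
    PowerSeries.HasSubst.of_constantCoeff_zero (constantCoeff_X j)
  have h1 := D.func_eq_subst hp (PowerSeries.HasSubst.of_constantCoeff_zero hF0)
  have h2 := D.func_eq_subst hp (hXs 0)
  have h3 := D.func_eq_subst hp (hXs 1)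
  rw [hF, h2, h3] at h1
  simp_rw [mul_sub, Finset.sum_sub_distrib, subst_iterate_phi D hp F hF0 hF, mul_add,
    Finset.sum_add_distrib]
  linear_combination -h1

lemma map_phi {τ : Type*} (T : MvPowerSeries τ A) :
    MvPowerSeries.map D.ι (phi p hp.ne_zero D.σ T) =
      phi p hp.ne_zero D.σB (MvPowerSeries.map D.ι T) := by
  rw [phi_apply, phi_apply, map_expand]
  congr 1
  ext m
  simp [D.hσ]

lemma map_iterate_phi {τ : Type*} (T : MvPowerSeries τ A) (i : ℕ) :
    MvPowerSeries.map D.ι ((phi p hp.ne_zero D.σ)^[i] T) =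
      (phi p hp.ne_zero D.σB)^[i] (MvPowerSeries.map D.ι T) := by
  induction i with
  | zero => simp
  | succ i ih =>
    rw [Function.iterate_succ_apply', Function.iterate_succ_apply', map_phi D hp, ih]

lemma phi_mem_vanIdeal {τ : Type*} (s : B →+* B) {e : τ →₀ ℕ} {h : MvPowerSeries τ B}
    (hh : h ∈ vanIdeal B e) : phi p hp.ne_zero s h ∈ vanIdeal B e := by
  intro m hm
  refine coeff_phi_eq_zero p hp.ne_zero s _ fun m' hm' => hh m' ?_
  refine le_trans ?_ hm
  rw [← hm']
  intro i
  simp only [Finsupp.coe_smul, Pi.smul_apply, smul_eq_mul]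
  exact Nat.le_mul_of_pos_left _ hp.pos

lemma phi_mem_vanIdeal_of_lt {τ : Type*} (s : B →+* B) {e : τ →₀ ℕ} {h : MvPowerSeries τ B}
    (hh : ∀ m, m < e → coeff m h = 0) (h0 : constantCoeff h = 0) :
    phi p hp.ne_zero s h ∈ vanIdeal B e := by
  intro m hm
  refine coeff_phi_eq_zero p hp.ne_zero s _ fun m' hm' => ?_
  by_cases hm0 : m' = 0
  · rw [hm0, coeff_zero_eq_constantCoeff_apply, h0]
  · refine hh m' (lt_of_lt_of_le ?_ hm)
    rw [← hm']
    refine lt_of_le_of_ne ?_ ?_
    · intro i
      simp only [Finsupp.coe_smul, Pi.smul_apply, smul_eq_mul]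
      exact Nat.le_mul_of_pos_left _ hp.pos
    · intro heq
      apply hm0
      ext i
      have := DFunLike.congr_fun heq i
      simp only [Finsupp.coe_smul, Pi.smul_apply, smul_eq_mul] at this
      have hp2 := hp.two_le
      simp only [Finsupp.coe_zero, Pi.zero_apply]
      by_contra hne
      have h3 : 1 * m' i < p * m' i := Nat.mul_lt_mul_of_pos_right (by omega) (Nat.pos_of_ne_zero hne)
      omega

/-- The integrality theorem (functional equation lemma): the coefficients of any solution `F` of
`l(F) = l(X) + l(Y)` lie in `A`. -/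
theorem integrality (F : MvPowerSeries (Fin 2) B) (hF0 : constantCoeff F = 0)
    (hF : PowerSeries.subst F D.l =
      PowerSeries.subst (X 0 : MvPowerSeries (Fin 2) B) D.l +
        PowerSeries.subst (X 1 : MvPowerSeries (Fin 2) B) D.l) :
    ∀ e, ∃ a, coeff e F = D.ι a := by
  classical
  have hp1 : 1 < p := hp.one_lt
  intro e
  induction e using WellFoundedLT.induction with
  | _ e IH =>
  -- the truncation
  obtain ⟨T, hT⟩ : ∃ T : MvPowerSeries (Fin 2) A, ∀ m, coeff m T =
      if h : m < e then (IH m h).choose else 0 := ⟨fun m => _, fun m => rfl⟩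
  set f : MvPowerSeries (Fin 2) B := MvPowerSeries.map D.ι T with hf
  have hcf : ∀ m, m < e → coeff m f = coeff m F := by
    intro m hm
    rw [hf, coeff_map, hT, dif_pos hm]
    exact (IH m hm).choose_spec.symm
  have hcf0 : constantCoeff f = 0 := by
    rw [← coeff_zero_eq_constantCoeff_apply]
    by_cases he : (0 : Fin 2 →₀ ℕ) < e
    · rw [hcf _ he, coeff_zero_eq_constantCoeff_apply, hF0]
    · rw [hf, coeff_map, hT, dif_neg he, map_zero]
  have hT0 : constantCoeff T = 0 := by
    apply D.inj
    rw [map_zero, ← hcf0, hf, constantCoeff_map]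
  have hvan1 : ∀ m, m < e → coeff m (F - f) = 0 := by
    intro m hm
    rw [map_sub, hcf m hm, sub_self]
  have hvan0 : constantCoeff (F - f) = 0 := by rw [map_sub, hF0, hcf0, sub_self]
  have key : ∀ i m, ∃ γ, coeff e (((phi p hp.ne_zero D.σB)^[i + 1] F) ^ p ^ m) -
      coeff e ((F ^ p ^ (i + 1)) ^ p ^ m) = (p : B) ^ (m + 1) * D.ι γ := by
    intro i m
    have hα : (phi p hp.ne_zero D.σB)^[i + 1] F - (phi p hp.ne_zero D.σB)^[i + 1] f ∈
        vanIdeal B e := by
      rw [← iterate_map_sub, Function.iterate_succ_apply]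
      have h1 := phi_mem_vanIdeal_of_lt hp D.σB hvan1 hvan0
      induction i with
      | zero => simpa using h1
      | succ i ih =>
        rw [Function.iterate_succ_apply']
        exact phi_mem_vanIdeal hp D.σB ih
    have hq : 2 ≤ p ^ (i + 1) := by
      calc 2 ≤ p := hp.two_le
        _ = p ^ 1 := (pow_one p).symm
        _ ≤ p ^ (i + 1) := Nat.pow_le_pow_right hp.pos (by omega)
    have hβ : F ^ p ^ (i + 1) - f ^ p ^ (i + 1) ∈ vanIdeal B e :=
      pow_sub_pow_mem_vanIdeal_of_lt hF0 hcf0 hvan1 hq
    obtain ⟨g, hg⟩ := frob_cong_iter p hp D.σ D.frob T (i + 1)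
    obtain ⟨G, hG⟩ := dvd_sub_pow_of_dvd_sub (p := p) (R := MvPowerSeries (Fin 2) A)
      (a := (phi p hp.ne_zero D.σ)^[i + 1] T) (b := T ^ p ^ (i + 1)) ⟨g, hg⟩ m
    refine ⟨coeff e G, ?_⟩
    have e1 := pow_sub_pow_mem_vanIdeal hα (p ^ m) e le_rfl
    have e2 := pow_sub_pow_mem_vanIdeal hβ (p ^ m) e le_rfl
    rw [map_sub] at e1 e2
    have e3 : coeff e (((phi p hp.ne_zero D.σB)^[i + 1] f) ^ p ^ m) -
        coeff e ((f ^ p ^ (i + 1)) ^ p ^ m) = (p : B) ^ (m + 1) * D.ι (coeff e G) := by
      rw [← map_sub, hf, ← map_iterate_phi D hp, ← map_pow, ← map_pow, ← map_pow, ← map_sub,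
        coeff_map, hG, ← map_natCast (C (σ := Fin 2) (R := A)) p, ← map_pow, coeff_C_mul, map_mul,
        map_pow, map_natCast]
    linear_combination e1 - e2 + e3
  have key2 : ∀ i, ∃ γ, coeff e (PowerSeries.subst ((phi p hp.ne_zero D.σB)^[i + 1] F) (D.g (i + 1)))
      - coeff e (PowerSeries.subst (F ^ p ^ (i + 1)) (D.g (i + 1))) = (p : B) * D.ι γ := by
    intro i
    refine logCong D.ι p hp1 _ (fun m => D.σ^[i + 1] (hazE p D.c m)) ?_
      (PowerSeries.HasSubst.of_constantCoeff_zero (constantCoeff_iterate_phi D hp F hF0 (i + 1)))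
      (PowerSeries.HasSubst.of_constantCoeff_zero (by
        rw [map_pow, hF0, zero_pow (pow_ne_zero _ hp.ne_zero)])) e (key i)
    intro m
    rw [mul_right_comm, ← mul_pow, mul_comm D.P, D.hP, one_pow, one_mul]
  choose γ hγ using key2
  have hm := congrArg (coeff e) (master_identity D hp F hF0 hF)
  rw [map_add, map_add, map_sum] at hm
  simp_rw [coeff_C_mul, map_sub, hγ] at hm
  refine ⟨coeff e (X 0 : MvPowerSeries (Fin 2) A) + coeff e (X 1 : MvPowerSeries (Fin 2) A) +
    ∑ i ∈ Finset.range n, D.c (i + 1) * γ i, ?_⟩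
  rw [hm, map_add, map_add, map_sum, ← coeff_map, ← coeff_map, map_X, map_X]
  congr 1
  refine Finset.sum_congr rfl fun i _ => ?_
  rw [map_mul]
  linear_combination (D.ι (D.c (i + 1)) * D.ι (γ i)) * D.hP

end Main

/-! ### The formal group law of a logarithm -/

section LawOfLog

variable {B : Type*} [CommRing B] (l : PowerSeries B)

/-- Composition of a one-variable substitution with a many-variable one. -/
lemma subst_powerSeries_subst {σ τ : Type*} {a : MvPowerSeries σ B} (ha : PowerSeries.HasSubst a)
    {b : σ → MvPowerSeries τ B} (hb : HasSubst b) (f : PowerSeries B) :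
    MvPowerSeries.subst b (PowerSeries.subst a f) =
      PowerSeries.subst (MvPowerSeries.subst b a) f := by
  rw [PowerSeries.subst_def, subst_comp_subst_apply (PowerSeries.HasSubst.const ha) hb,
    PowerSeries.subst_def]

lemma hasSubst_pair {τ : Type*} {u v : MvPowerSeries τ B} (hu : constantCoeff u = 0)
    (hv : constantCoeff v = 0) : HasSubst ![u, v] :=
  hasSubst_of_constantCoeff_zero (by
    intro s
    fin_cases s
    · exact hu
    · exact hv)

variable (hl1 : PowerSeries.coeff 1 l = 1) (hl0 : PowerSeries.constantCoeff l = 0)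

/-- `l⁻¹(l X + l Y)`. -/
noncomputable def logLaw : MvPowerSeries (Fin 2) B :=
  PowerSeries.subst
    (PowerSeries.subst (X 0 : MvPowerSeries (Fin 2) B) l +
      PowerSeries.subst (X 1 : MvPowerSeries (Fin 2) B) l)
    (PowerSeries.substInvOfIsUnit l (by rw [hl1]; exact isUnit_one))

include hl0 in
lemma constantCoeff_subst_log {τ : Type*} {Z : MvPowerSeries τ B} (hZ : constantCoeff Z = 0) :
    constantCoeff (PowerSeries.subst Z l) = 0 :=
  PowerSeries.constantCoeff_subst_eq_zero hZ l hl0

include hl0 in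
lemma constantCoeff_logLaw : constantCoeff (logLaw l hl1) = 0 := by
  refine PowerSeries.constantCoeff_subst_eq_zero ?_ _ (by simp)
  rw [map_add, constantCoeff_subst_log l hl0 (constantCoeff_X 0),
    constantCoeff_subst_log l hl0 (constantCoeff_X 1), add_zero]

include hl0 in
lemma subst_logLaw : PowerSeries.subst (logLaw l hl1) l =
    PowerSeries.subst (X 0 : MvPowerSeries (Fin 2) B) l +
      PowerSeries.subst (X 1 : MvPowerSeries (Fin 2) B) l := by
  have hG : constantCoeff (PowerSeries.subst (X 0 : MvPowerSeries (Fin 2) B) l +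
      PowerSeries.subst (X 1 : MvPowerSeries (Fin 2) B) l) = 0 := by
    rw [map_add, constantCoeff_subst_log l hl0 (constantCoeff_X 0),
      constantCoeff_subst_log l hl0 (constantCoeff_X 1), add_zero]
  rw [logLaw, ← PowerSeries.subst_comp_subst_apply (PowerSeries.HasSubst.substInvOfIsUnit _ _)
    (PowerSeries.HasSubst.of_constantCoeff_zero hG),
    PowerSeries.subst_substInvOfIsUnit_right l hl0,
    PowerSeries.subst_X (PowerSeries.HasSubst.of_constantCoeff_zero hG)]

include hl1 hl0 in
/-- The logarithm is injective on series without constant term. -/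
lemma log_injective {τ : Type*} {a b : MvPowerSeries τ B} (ha : constantCoeff a = 0)
    (hb : constantCoeff b = 0) (h : PowerSeries.subst a l = PowerSeries.subst b l) : a = b := by
  have hu : IsUnit (PowerSeries.coeff 1 l) := by rw [hl1]; exact isUnit_one
  have key : ∀ c : MvPowerSeries τ B, constantCoeff c = 0 →
      PowerSeries.subst (PowerSeries.subst c l) (PowerSeries.substInvOfIsUnit l hu) = c := by
    intro c hc
    have hc' := PowerSeries.HasSubst.of_constantCoeff_zero hc
    have hl' : PowerSeries.HasSubst l := PowerSeries.HasSubst.of_constantCoeff_zero' hl0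
    rw [← PowerSeries.subst_comp_subst_apply hl' hc',
      PowerSeries.subst_substInvOfIsUnit_left l hl0, PowerSeries.subst_X hc']
  rw [← key a ha, ← key b hb, h]

include hl0 in
/-- The logarithm of a sum under the law. -/
lemma subst_pair_logLaw {τ : Type*} {u v : MvPowerSeries τ B} (hu : constantCoeff u = 0)
    (hv : constantCoeff v = 0) :
    PowerSeries.subst (MvPowerSeries.subst ![u, v] (logLaw l hl1)) l =
      PowerSeries.subst u l + PowerSeries.subst v l := by
  have hb := hasSubst_pair hu hv
  rw [← subst_powerSeries_subst (PowerSeries.HasSubst.of_constantCoeff_zero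
      (constantCoeff_logLaw l hl1 hl0)) hb, subst_logLaw l hl1 hl0, subst_add hb,
    subst_powerSeries_subst (PowerSeries.HasSubst.X 0) hb,
    subst_powerSeries_subst (PowerSeries.HasSubst.X 1) hb, subst_X hb, subst_X hb]
  rfl

include hl0 in
lemma constantCoeff_subst_pair {τ : Type*} {u v : MvPowerSeries τ B} (hu : constantCoeff u = 0)
    (hv : constantCoeff v = 0) :
    constantCoeff (MvPowerSeries.subst ![u, v] (logLaw l hl1)) = 0 :=
  constantCoeff_subst_eq_zero (hasSubst_pair hu hv) (by
    intro s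
    fin_cases s
    · exact hu
    · exact hv) (constantCoeff_logLaw l hl1 hl0)

include hl1 hl0 in
/-- The coefficients of degree one of `l(Z)` are those of `Z`. -/
lemma coeff_subst_log_of_single {τ : Type*} {Z : MvPowerSeries τ B} (hZ : constantCoeff Z = 0)
    (i : τ) : coeff (Finsupp.single i 1) (PowerSeries.subst Z l) =
      coeff (Finsupp.single i 1) Z := by
  classical
  rw [PowerSeries.coeff_subst (PowerSeries.HasSubst.of_constantCoeff_zero hZ),
    finsum_eq_single _ 1]
  · rw [hl1, one_smul, pow_one]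
  · intro d hd
    rcases Nat.eq_zero_or_pos d with rfl | hd0
    · rw [PowerSeries.coeff_zero_eq_constantCoeff_apply, hl0, zero_smul]
    · obtain ⟨k, rfl⟩ : ∃ k, d = k + 2 := ⟨d - 2, by omega⟩
      have h1 : ∀ m, m < Finsupp.single i 1 → coeff m Z = 0 := by
        intro m hm
        have : m = 0 := by
          by_contra hne
          obtain ⟨j, hj⟩ := Finsupp.ne_iff.mp hne
          have hle := hm.le
          have hji : i = j := by
            by_contra hji
            have h3 := hle j
            simp only [Finsupp.single_apply, if_neg hji] at h3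
            simp only [Finsupp.coe_zero, Pi.zero_apply] at hj
            omega
          subst hji
          apply hm.ne
          ext t
          have h3 := hle t
          by_cases ht : i = t
          · subst ht
            simp only [Finsupp.single_eq_same] at h3 ⊢
            simp only [Finsupp.coe_zero, Pi.zero_apply] at hj
            omega
          · simp only [Finsupp.single_apply, if_neg ht] at h3 ⊢
            omega
        rw [this, coeff_zero_eq_constantCoeff_apply, hZ]
      have h2 : Z * Z ^ (k + 1) ∈ vanIdeal B (Finsupp.single i 1) :=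
        mul_mem_vanIdeal h1 (by rw [map_pow, hZ, zero_pow (by omega)])
      have h3 := h2 (Finsupp.single i 1) le_rfl
      rw [show Z ^ (k + 2) = Z * Z ^ (k + 1) by ring, h3, smul_zero]

/-- The formal group law of a logarithm. -/
noncomputable def lawOfLog : FormalGroup B where
  toPowerSeries := logLaw l hl1
  zero_constantCoeff := constantCoeff_logLaw l hl1 hl0
  lin_coeff_X := by
    have h := congrArg (coeff (Finsupp.single (0 : Fin 2) 1)) (subst_logLaw l hl1 hl0)
    rw [coeff_subst_log_of_single l hl1 hl0 (constantCoeff_logLaw l hl1 hl0), map_add,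
      coeff_subst_log_of_single l hl1 hl0 (constantCoeff_X 0),
      coeff_subst_log_of_single l hl1 hl0 (constantCoeff_X 1)] at h
    classical
    simpa [coeff_index_single_X] using h
  lin_coeff_Y := by
    have h := congrArg (coeff (Finsupp.single (1 : Fin 2) 1)) (subst_logLaw l hl1 hl0)
    rw [coeff_subst_log_of_single l hl1 hl0 (constantCoeff_logLaw l hl1 hl0), map_add,
      coeff_subst_log_of_single l hl1 hl0 (constantCoeff_X 0),
      coeff_subst_log_of_single l hl1 hl0 (constantCoeff_X 1)] at h
    classical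
    simpa [coeff_index_single_X] using h
  assoc := by
    have h0 : constantCoeff (X 0 : MvPowerSeries (Fin 3) B) = 0 := constantCoeff_X 0
    have h1 : constantCoeff (X 1 : MvPowerSeries (Fin 3) B) = 0 := constantCoeff_X 1
    have h2 : constantCoeff (X 2 : MvPowerSeries (Fin 3) B) = 0 := constantCoeff_X 2
    have h01 := constantCoeff_subst_pair l hl1 hl0 h0 h1
    have h12 := constantCoeff_subst_pair l hl1 hl0 h1 h2
    refine log_injective l hl1 hl0 (constantCoeff_subst_pair l hl1 hl0 h01 h2)
      (constantCoeff_subst_pair l hl1 hl0 h0 h12) ?_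
    rw [subst_pair_logLaw l hl1 hl0 h01 h2, subst_pair_logLaw l hl1 hl0 h0 h12,
      subst_pair_logLaw l hl1 hl0 h0 h1, subst_pair_logLaw l hl1 hl0 h1 h2, add_assoc]

instance lawOfLog_isComm : (lawOfLog l hl1 hl0).IsComm where
  comm := by
    refine log_injective l hl1 hl0 (constantCoeff_logLaw l hl1 hl0)
      (constantCoeff_subst_pair l hl1 hl0 (constantCoeff_X 1) (constantCoeff_X 0)) ?_
    change PowerSeries.subst (logLaw l hl1) l = _
    rw [subst_logLaw l hl1 hl0]
    change _ = PowerSeries.subst (MvPowerSeries.subst ![X 1, X 0] (logLaw l hl1)) l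
    rw [subst_pair_logLaw l hl1 hl0 (constantCoeff_X 1) (constantCoeff_X 0), add_comm]

end LawOfLog

/-! ### Pull-back of a law along an injective ring homomorphism -/

section Pullback

variable {A B : Type*} [CommRing A] [CommRing B] (ι : A →+* B) (hι : Function.Injective ι)

include hι in
lemma map_injective_of_injective {τ : Type*} {x y : MvPowerSeries τ A}
    (h : MvPowerSeries.map ι x = MvPowerSeries.map ι y) : x = y := by
  ext e
  apply hι
  rw [← coeff_map, ← coeff_map, h]

lemma map_pair {τ : Type*} (g₁ g₂ : MvPowerSeries τ A) :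
    (fun i => MvPowerSeries.map ι (![g₁, g₂] i)) =
      ![MvPowerSeries.map ι g₁, MvPowerSeries.map ι g₂] := by
  ext1 i
  fin_cases i <;> simp

lemma map_subst_pair {τ : Type*} {u v : MvPowerSeries τ A} (hu : constantCoeff u = 0)
    (hv : constantCoeff v = 0) (G : MvPowerSeries (Fin 2) A) :
    MvPowerSeries.map ι (MvPowerSeries.subst ![u, v] G) =
      MvPowerSeries.subst ![MvPowerSeries.map ι u, MvPowerSeries.map ι v]
        (MvPowerSeries.map ι G) := by
  rw [MvPowerSeries.map_subst (hasSubst_pair hu hv), map_pair]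

/-- The law over `A` whose image in `B` is a given law over `B`. -/
noncomputable def lawOfMap (Fb : FormalGroup B) (G : MvPowerSeries (Fin 2) A)
    (hG : MvPowerSeries.map ι G = Fb.toPowerSeries) : FormalGroup A where
  toPowerSeries := G
  zero_constantCoeff := by
    apply hι
    rw [map_zero, ← constantCoeff_map, hG, Fb.zero_constantCoeff]
  lin_coeff_X := by
    apply hι
    rw [map_one, ← coeff_map, hG, Fb.lin_coeff_X]
  lin_coeff_Y := by
    apply hι
    rw [map_one, ← coeff_map, hG, Fb.lin_coeff_Y]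
  assoc := by
    have h0 : constantCoeff G = 0 := by
      apply hι
      rw [map_zero, ← constantCoeff_map, hG, Fb.zero_constantCoeff]
    have hc : ∀ i : Fin 3, constantCoeff (X i : MvPowerSeries (Fin 3) A) = 0 := constantCoeff_X
    have h01 : constantCoeff (MvPowerSeries.subst ![(X 0 : MvPowerSeries (Fin 3) A), X 1] G) = 0 :=
      constantCoeff_subst_eq_zero (hasSubst_pair (hc 0) (hc 1)) (by
        intro s; fin_cases s
        · exact hc 0
        · exact hc 1) h0
    have h12 : constantCoeff (MvPowerSeries.subst ![(X 1 : MvPowerSeries (Fin 3) A), X 2] G) = 0 :=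
      constantCoeff_subst_eq_zero (hasSubst_pair (hc 1) (hc 2)) (by
        intro s; fin_cases s
        · exact hc 1
        · exact hc 2) h0
    apply map_injective_of_injective ι hι
    rw [map_subst_pair ι h01 (hc 2), map_subst_pair ι (hc 0) h12, map_subst_pair ι (hc 0) (hc 1),
      map_subst_pair ι (hc 1) (hc 2), map_X, map_X, map_X, hG]
    exact Fb.assoc

end Pullback

/-! ### The Lubin-Tate ring -/

section Instance

open Crest.LubinTate

variable (p : ℕ) [hp : Fact p.Prime] (n : ℕ)

/-- `B = A[1/p]`. -/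
abbrev BB : Type := Localization.Away ((p : ℕ) : AA p n)

lemma frobW_cong (a : WW p n) : ∃ b, WittVector.frobenius a - a ^ p = (p : WW p n) * b := by
  have h : WittVector.frobenius a - a ^ p ∈ Ideal.span {(p : WW p n)} := by
    rw [WittVector.mem_span_p_iff_coeff_zero_eq_zero]
    have h1 : (WittVector.frobenius a - a ^ p).coeff 0 =
        WittVector.constantCoeff (WittVector.frobenius a - a ^ p) := rfl
    rw [h1, map_sub, map_pow]
    have h2 : WittVector.constantCoeff (WittVector.frobenius a) = (WittVector.frobenius a).coeff 0 :=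
      rfl
    have h3 : WittVector.constantCoeff a = a.coeff 0 := rfl
    rw [h2, h3, WittVector.coeff_frobenius_charP, sub_self]
  exact Ideal.mem_span_singleton.mp h

lemma p_ne_zero : ((p : ℕ) : AA p n) ≠ 0 := by
  intro h
  have h1 : (p : WW p n) = 0 := by
    have := congrArg (coeff (0 : Fin (n - 1) →₀ ℕ)) h
    rw [← map_natCast (C (σ := Fin (n - 1)) (R := WW p n)) p, coeff_zero_C, map_zero] at this
    exact this
  have h2 := WittVector.eq_zero_of_p_mul_eq_zero (p := p) (1 : WW p n) (by rw [one_mul]; exact h1)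
  exact one_ne_zero h2

/-- The Frobenius lift on `A`. -/
noncomputable def sigmaA : AA p n →+* AA p n :=
  phi p hp.out.ne_zero (WittVector.frobenius : WW p n →+* WW p n)

/-- The parameters: `c_i = t_i` for `1 ≤ i < n`, `c_n = 1`, else `0`. -/
noncomputable def hazC (i : ℕ) : AA p n :=
  if hi : 1 ≤ i ∧ i < n then tt p n ⟨i - 1, by omega⟩ else if i = n then 1 else 0

lemma sigmaA_hazC (j : ℕ) : sigmaA p n (hazC p n j) = hazC p n j ^ p := by
  rw [hazC]
  split_ifs with h1 h2
  · rw [sigmaA, tt, phi_X]
  · rw [map_one, one_pow]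
  · rw [map_zero, zero_pow hp.out.ne_zero]

lemma hazC_of_lt (j : ℕ) (h : n < j) : hazC p n j = 0 := by
  rw [hazC, dif_neg (by omega), if_neg (by omega)]

/-- The data of the functional equation lemma for the Lubin-Tate ring. -/
noncomputable def hazData : HazData p n (AA p n) (BB p n) where
  ι := algebraMap _ _
  inj := IsLocalization.injective _ (powers_le_nonZeroDivisors_of_noZeroDivisors (p_ne_zero p n))
  P := IsLocalization.Away.invSelf ((p : ℕ) : AA p n)
  hP := by
    have := IsLocalization.Away.mul_invSelf (S := BB p n) ((p : ℕ) : AA p n)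
    rwa [map_natCast] at this
  σ := sigmaA p n
  σB := IsLocalization.Away.lift ((p : ℕ) : AA p n)
    (g := (algebraMap (AA p n) (BB p n)).comp (sigmaA p n)) (by
      rw [RingHom.comp_apply, map_natCast]
      exact IsLocalization.Away.algebraMap_isUnit _)
  hσ := fun a => IsLocalization.Away.lift_eq _ _ a
  frob := frob_cong p hp.out (WittVector.frobenius : WW p n →+* WW p n) (frobW_cong p n)
  c := hazC p n
  hc := sigmaA_hazC p n
  hc0 := hazC_of_lt p n

lemma hazData_l_coeff_one : PowerSeries.coeff 1 (hazData p n).l = 1 := by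
  rw [HazData.l, coeff_one_logSeries p hp.out.one_lt, HazData.ell_zero]

lemma hazData_l_const : PowerSeries.constantCoeff (hazData p n).l = 0 :=
  constantCoeff_logSeries p hp.out.one_lt _

/-- The law of the logarithm over `B`. -/
noncomputable def hazFB : FormalGroup (BB p n) :=
  lawOfLog (hazData p n).l (hazData_l_coeff_one p n) (hazData_l_const p n)

lemma exists_G : ∃ G : MvPowerSeries (Fin 2) (AA p n),
    MvPowerSeries.map (hazData p n).ι G = (hazFB p n).toPowerSeries := by
  have h := integrality (hazData p n) hp.out (hazFB p n).toPowerSeries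
    (hazFB p n).zero_constantCoeff
    (subst_logLaw _ (hazData_l_coeff_one p n) (hazData_l_const p n))
  choose a ha using h
  obtain ⟨G, hG⟩ : ∃ G : MvPowerSeries (Fin 2) (AA p n), ∀ e, coeff e G = a e := ⟨a, fun _ => rfl⟩
  refine ⟨G, ?_⟩
  ext e
  rw [coeff_map, hG, ha]

/-- The Hazewinkel law over `A`. -/
noncomputable def hazFA : FormalGroup (AA p n) :=
  lawOfMap (hazData p n).ι (hazData p n).inj (hazFB p n) (exists_G p n).choose
    (exists_G p n).choose_spec

lemma map_hazFA : MvPowerSeries.map (hazData p n).ι (hazFA p n).toPowerSeries =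
    (hazFB p n).toPowerSeries := (exists_G p n).choose_spec

instance hazFA_isComm : (hazFA p n).IsComm where
  comm := by
    apply map_injective_of_injective (hazData p n).ι (hazData p n).inj
    have h0 := (hazFA p n).zero_constantCoeff
    rw [map_subst_pair (hazData p n).ι (constantCoeff_X 1) (constantCoeff_X 0), map_X, map_X,
      map_hazFA]
    exact (lawOfLog_isComm (hazData p n).l (hazData_l_coeff_one p n) (hazData_l_const p n)).comm

/-- The log identity over `B`. -/
theorem subst_hazFA : PowerSeries.subst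
      (MvPowerSeries.map (hazData p n).ι (hazFA p n).toPowerSeries) (hazData p n).l =
    PowerSeries.subst (X 0 : MvPowerSeries (Fin 2) (BB p n)) (hazData p n).l +
      PowerSeries.subst (X 1 : MvPowerSeries (Fin 2) (BB p n)) (hazData p n).l := by
  rw [map_hazFA]
  exact subst_logLaw _ (hazData_l_coeff_one p n) (hazData_l_const p n)

section Bridge

variable {C : Type} [CommRing C] [Algebra ℚ C] (ev : AA p n →+* C)

lemma ev_p_isUnit : IsUnit (ev ((p : ℕ) : AA p n)) := by
  rw [map_natCast]
  have h : ((p : ℕ) : ℚ) ≠ 0 := by exact_mod_cast hp.out.ne_zero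
  have := (IsUnit.mk0 _ h).map (algebraMap ℚ C)
  rwa [map_natCast] at this

/-- The extension of `ev` to `B`. -/
noncomputable def evB : BB p n →+* C :=
  IsLocalization.Away.lift ((p : ℕ) : AA p n) (g := ev) (ev_p_isUnit p n ev)

lemma evB_ι (a : AA p n) : evB p n ev ((hazData p n).ι a) = ev a :=
  IsLocalization.Away.lift_eq _ _ a

lemma aeval_ccPoly (j : ℕ) :
    MvPolynomial.aeval (fun i => ev (tt p n i)) (ccPoly n j) = ev (hazC p n j) := by
  rw [ccPoly, hazC]
  split_ifs with h1 h2
  · rw [MvPolynomial.aeval_X]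
  · rw [map_one, map_one]
  · rw [map_zero, map_zero]

lemma ellPoly_mul_pow (m : ℕ) :
    MvPolynomial.aeval (fun i => ev (tt p n i)) (ellPoly p n m) * (p : C) ^ m =
      ev (hazE p (hazC p n) m) := by
  induction m using Nat.strong_induction_on with
  | _ m ih =>
    cases m with
    | zero => simp [ellPoly_zero]
    | succ m =>
      have hp0 : ((p : ℕ) : ℚ) ≠ 0 := by exact_mod_cast hp.out.ne_zero
      rw [ellPoly_succ, hazE_succ, map_smul, map_sum, map_sum, Algebra.smul_def]
      have h1 : algebraMap ℚ C ((p : ℚ)⁻¹) * (p : C) = 1 := by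
        rw [← map_natCast (algebraMap ℚ C) p, ← map_mul, inv_mul_cancel₀ hp0, map_one]
      have h2 : ∀ S : C, algebraMap ℚ C ((p : ℚ)⁻¹) * S * (p : C) ^ (m + 1) = S * (p : C) ^ m := by
        intro S
        calc algebraMap ℚ C ((p : ℚ)⁻¹) * S * (p : C) ^ (m + 1)
            = (algebraMap ℚ C ((p : ℚ)⁻¹) * (p : C)) * (S * (p : C) ^ m) := by ring
          _ = S * (p : C) ^ m := by rw [h1, one_mul]
      rw [h2, Finset.sum_mul]
      refine Finset.sum_congr rfl fun i hi => ?_
      have hi' : i ≤ m := Nat.lt_succ_iff.mp (Finset.mem_range.mp hi)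
      rw [map_mul, map_pow, aeval_ccPoly, map_mul, map_mul, map_pow, map_pow, map_natCast,
        ← ih _ (by omega)]
      have : (p : C) ^ m = (p : C) ^ (m - i) * (p : C) ^ i := by
        rw [← pow_add]; congr 1; omega
      rw [this]
      ring

lemma evB_ell (m : ℕ) : evB p n ev ((hazData p n).ell m) =
    MvPolynomial.aeval (fun i => ev (tt p n i)) (ellPoly p n m) := by
  have hπ : evB p n ev (hazData p n).P * (p : C) = 1 := by
    have := congrArg (evB p n ev) (hazData p n).hP
    rw [map_mul, map_natCast, map_one, mul_comm] at this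
    exact this
  have h := ellPoly_mul_pow p n ev m
  rw [HazData.ell, map_mul, map_pow, evB_ι]
  change _ * ev (hazE p (hazC p n) m) = _
  rw [← h, ← mul_assoc, mul_comm (_ ^ m), mul_assoc, ← mul_pow, hπ, one_pow, mul_one]

lemma map_evB_l : PowerSeries.map (evB p n ev) (hazData p n).l =
    _root_.Crest.Agent.LT.logSeries p n (fun i => ev (tt p n i)) := by
  ext k
  rw [PowerSeries.coeff_map, HazData.l]
  by_cases hk : ∃ m, k = p ^ m
  · obtain ⟨m, rfl⟩ := hk
    rw [coeff_logSeries_pow p hp.out.one_lt, _root_.Crest.Agent.LT.coeff_logSeries_pow, evB_ell]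
  · have hne : ∀ m, k ≠ p ^ m := fun m hm => hk ⟨m, hm⟩
    rw [coeff_logSeries_of_ne p _ k hne, _root_.Crest.Agent.LT.coeff_logSeries_of_ne p n _ k hne,
      map_zero]

lemma map_evB_ι_map (G : MvPowerSeries (Fin 2) (AA p n)) :
    MvPowerSeries.map (evB p n ev) (MvPowerSeries.map (hazData p n).ι G) =
      MvPowerSeries.map ev G := by
  ext e
  rw [coeff_map, coeff_map, coeff_map, evB_ι]

end Bridge

/-- The main output of this module: the specification of `exists_hazF` in `HazAPI.lean`. -/
theorem exists_hazF' : ∃ F : FormalGroup (AA p n), F.IsComm ∧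
    ∀ (C : Type) [CommRing C] [Algebra ℚ C] (ev : AA p n →+* C),
      IsFGHom (F.map ev) FormalGroup.𝔾ₐ
        (_root_.Crest.Agent.LT.logSeries p n fun i => ev (tt p n i)) := by
  refine ⟨hazFA p n, hazFA_isComm p n, ?_⟩
  intro C _ _ ev
  have hl0 : PowerSeries.constantCoeff
      (_root_.Crest.Agent.LT.logSeries p n fun i => ev (tt p n i)) = 0 := by
    rw [← PowerSeries.coeff_zero_eq_constantCoeff_apply]
    refine _root_.Crest.Agent.LT.coeff_logSeries_of_ne p n _ 0 fun m hm => ?_
    exact pow_ne_zero m hp.out.ne_zero hm.symm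
  have hc : ∀ j : Fin 2, constantCoeff (PowerSeries.subst (X j : MvPowerSeries (Fin 2) C)
      (_root_.Crest.Agent.LT.logSeries p n fun i => ev (tt p n i))) = 0 := fun j =>
    PowerSeries.constantCoeff_subst_eq_zero (constantCoeff_X j) _ hl0
  refine ⟨hl0, ?_⟩
  have h := congrArg (MvPowerSeries.map (evB p n ev)) (subst_hazFA p n)
  have hX : ∀ j : Fin 2, PowerSeries.HasSubst (X j : MvPowerSeries (Fin 2) (BB p n)) := fun j =>
    PowerSeries.HasSubst.of_constantCoeff_zero (constantCoeff_X j)
  rw [map_add, PowerSeries.map_subst (hX 0), PowerSeries.map_subst (hX 1),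
    PowerSeries.map_subst (PowerSeries.HasSubst.of_constantCoeff_zero (by
      rw [constantCoeff_map, (hazFA p n).zero_constantCoeff, map_zero])), map_X, map_X,
    map_evB_ι_map, map_evB_l] at h
  have hsub := hasSubst_pair (hc 0) (hc 1)
  change PowerSeries.subst (MvPowerSeries.map ev (hazFA p n).toPowerSeries) _ =
    MvPowerSeries.subst _ (X 0 + X 1)
  rw [subst_add hsub, subst_X hsub, subst_X hsub, h]
  rfl

end Instance

end Crest.Agent.LT.HazInt
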