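/-
Row 227 (S0351), blueprint section A1: formal group law API over commutative rings.
`fgAdd F f g = F(f, g)`; homomorphisms applied to series; composition, map, `mulSeries` facts;
compositional inverse; the conjugate law `conj θ F`.
-/
import Crest.Prelude.Def_LubinTate

set_option autoImplicit false

namespace Crest.Agent.LT

open Crest.LubinTate

noncomputable section

variable {R S : Type*} [CommRing R] [CommRing S] {σ τ ρ : Type*}

/-- `F(f, g)`. -/
abbrev fgAdd (F : FormalGroup R) (f g : MvPowerSeries σ R) : MvPowerSeries σ R :=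
  F.toPowerSeries.subst ![f, g]

lemma hasSubst_vec {f g : MvPowerSeries σ R} (hf : PowerSeries.HasSubst f)
    (hg : PowerSeries.HasSubst g) : MvPowerSeries.HasSubst ![f, g] :=
  MvPowerSeries.hasSubst_of_constantCoeff_nilpotent (fun s => by fin_cases s <;> simpa)

lemma fgAdd_hasSubst (F : FormalGroup R) {f g : MvPowerSeries σ R} (hf : PowerSeries.HasSubst f)
    (hg : PowerSeries.HasSubst g) : PowerSeries.HasSubst (fgAdd F f g) :=
  MvPowerSeries.IsNilpotent_subst (hasSubst_vec hf hg) (F.zero_constantCoeff ▸ IsNilpotent.zero)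

/-- `HasSubst` from a vanishing constant coefficient. -/
lemma hasSubst_of_cc {f : MvPowerSeries σ R} (hf : MvPowerSeries.constantCoeff f = 0) :
    PowerSeries.HasSubst f := PowerSeries.HasSubst.of_constantCoeff_zero hf

lemma ps_hasSubst_of_cc {f : PowerSeries R} (hf : PowerSeries.constantCoeff f = 0) :
    PowerSeries.HasSubst f := PowerSeries.HasSubst.of_constantCoeff_zero' hf

lemma constantCoeff_fgAdd (F : FormalGroup R) {f g : MvPowerSeries σ R}
    (hf : MvPowerSeries.constantCoeff f = 0) (hg : MvPowerSeries.constantCoeff g = 0) :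
    MvPowerSeries.constantCoeff (fgAdd F f g) = 0 := by
  refine MvPowerSeries.constantCoeff_subst_eq_zero
    (hasSubst_vec (hasSubst_of_cc hf) (hasSubst_of_cc hg)) (fun s => ?_) F.zero_constantCoeff
  fin_cases s <;> simpa

lemma constantCoeff_ps_subst {φ : PowerSeries R} {u : MvPowerSeries σ R}
    (hφ : PowerSeries.constantCoeff φ = 0) (hu : MvPowerSeries.constantCoeff u = 0) :
    MvPowerSeries.constantCoeff (φ.subst u) = 0 :=
  PowerSeries.constantCoeff_subst_eq_zero hu φ hφ

/-- Substitution into a composite. -/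
lemma mv_subst_ps_subst (φ : PowerSeries R) {a : MvPowerSeries τ R} (ha : PowerSeries.HasSubst a)
    {b : τ → MvPowerSeries ρ R} (hb : MvPowerSeries.HasSubst b) :
    MvPowerSeries.subst b (φ.subst a) = φ.subst (MvPowerSeries.subst b a) := by
  rw [PowerSeries.subst, MvPowerSeries.subst_comp_subst_apply ha.const hb, PowerSeries.subst]

lemma mv_subst_fgAdd (F : FormalGroup R) {f g : MvPowerSeries σ R} (hf : PowerSeries.HasSubst f)
    (hg : PowerSeries.HasSubst g) {b : σ → MvPowerSeries ρ R} (hb : MvPowerSeries.HasSubst b) :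
    MvPowerSeries.subst b (fgAdd F f g) =
      fgAdd F (MvPowerSeries.subst b f) (MvPowerSeries.subst b g) := by
  rw [fgAdd, MvPowerSeries.subst_comp_subst_apply (hasSubst_vec hf hg) hb]
  congr! 2 with s
  fin_cases s <;> simp

lemma ps_subst_fgAdd (F : FormalGroup R) {f g : PowerSeries R} (hf : PowerSeries.HasSubst f)
    (hg : PowerSeries.HasSubst g) {u : MvPowerSeries ρ R} (hu : PowerSeries.HasSubst u) :
    MvPowerSeries.subst (fun _ : Unit => u) (fgAdd F f g) =
      fgAdd F (f.subst u) (g.subst u) :=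
  mv_subst_fgAdd F hf hg hu.const

lemma fgAdd_X_X (F : FormalGroup R) :
    fgAdd F (MvPowerSeries.X 0) (MvPowerSeries.X 1) = F.toPowerSeries := by
  have h : ![(MvPowerSeries.X 0 : MvPowerSeries (Fin 2) R), MvPowerSeries.X 1] = MvPowerSeries.X := by
    ext1 s; fin_cases s <;> rfl
  rw [fgAdd, h, MvPowerSeries.subst_self]
  rfl

/-- `F(f, 0) = f`. -/
lemma fgAdd_zero (F : FormalGroup R) {f : MvPowerSeries σ R} (hf : PowerSeries.HasSubst f) :
    fgAdd F f 0 = f := F.add_zero hf

/-- `F(0, f) = f`. -/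
lemma zero_fgAdd (F : FormalGroup R) {f : MvPowerSeries σ R} (hf : PowerSeries.HasSubst f) :
    fgAdd F 0 f = f := F.zero_add hf

/-- Associativity on series. -/
lemma fgAdd_assoc (F : FormalGroup R) {f g h : MvPowerSeries σ R} (hf : PowerSeries.HasSubst f)
    (hg : PowerSeries.HasSubst g) (hh : PowerSeries.HasSubst h) :
    fgAdd F (fgAdd F f g) h = fgAdd F f (fgAdd F g h) := F.assoc' hf hg hh

lemma fgAdd_comm (F : FormalGroup R) [F.IsComm] {f g : MvPowerSeries σ R}
    (hf : PowerSeries.HasSubst f) (hg : PowerSeries.HasSubst g) :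
    fgAdd F f g = fgAdd F g f := F.comm' hf hg

/-! ### linear coefficients -/

lemma coeff_single_mul [DecidableEq σ] (i : σ) (a b : MvPowerSeries σ R) :
    MvPowerSeries.coeff (Finsupp.single i 1) (a * b) =
      MvPowerSeries.coeff (Finsupp.single i 1) a * MvPowerSeries.constantCoeff b +
        MvPowerSeries.constantCoeff a * MvPowerSeries.coeff (Finsupp.single i 1) b := by
  rw [MvPowerSeries.coeff_mul, Finsupp.antidiagonal_single, Finset.sum_map,
    Finset.Nat.antidiagonal_succ]
  simp [MvPowerSeries.coeff_zero_eq_constantCoeff]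
  ring

lemma coeff_single_pow_of_cc [DecidableEq σ] (i : σ) {a : MvPowerSeries σ R}
    (ha : MvPowerSeries.constantCoeff a = 0) {n : ℕ} (hn : n ≠ 1) :
    MvPowerSeries.coeff (Finsupp.single i 1) (a ^ n) = 0 := by
  induction n with
  | zero =>
    rw [pow_zero, MvPowerSeries.coeff_one, if_neg]
    simp
  | succ n ih =>
    have hn' : n ≠ 0 := by omega
    rw [pow_succ, coeff_single_mul, ha, mul_zero, zero_add, map_pow, ha, zero_pow hn', zero_mul]

/-- `coeff (single i 1) (F(f, g)) = coeff (single i 1) f + coeff (single i 1) g`. -/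
lemma coeff_single_fgAdd [DecidableEq σ] (F : FormalGroup R) (i : σ) {f g : MvPowerSeries σ R}
    (hf : MvPowerSeries.constantCoeff f = 0) (hg : MvPowerSeries.constantCoeff g = 0) :
    MvPowerSeries.coeff (Finsupp.single i 1) (fgAdd F f g) =
      MvPowerSeries.coeff (Finsupp.single i 1) f + MvPowerSeries.coeff (Finsupp.single i 1) g := by
  have hv := hasSubst_vec (hasSubst_of_cc hf) (hasSubst_of_cc hg)
  have hterm : ∀ d : Fin 2 →₀ ℕ, MvPowerSeries.coeff (Finsupp.single i 1)
      (d.prod fun s e => (![f, g] s) ^ e) =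
      (if d = Finsupp.single 0 1 then MvPowerSeries.coeff (Finsupp.single i 1) f else 0) +
      (if d = Finsupp.single 1 1 then MvPowerSeries.coeff (Finsupp.single i 1) g else 0) := by
    intro d
    rw [Finsupp.prod_fintype _ _ (by simp)]
    simp only [Fin.prod_univ_two, Matrix.cons_val_zero, Matrix.cons_val_one, Matrix.cons_val_fin_one]
    have hcf : ∀ n : ℕ, MvPowerSeries.constantCoeff (f ^ n) = 0 ^ n := fun n => by
      rw [map_pow, hf]
    have hcg : ∀ n : ℕ, MvPowerSeries.constantCoeff (g ^ n) = 0 ^ n := fun n => by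
      rw [map_pow, hg]
    rw [coeff_single_mul, hcf, hcg]
    have hd0 : d = Finsupp.single 0 1 ↔ d 0 = 1 ∧ d 1 = 0 := by
      constructor
      · rintro rfl; simp
      · rintro ⟨h0, h1⟩
        ext s; fin_cases s <;> simp [h0, h1]
    have hd1 : d = Finsupp.single 1 1 ↔ d 0 = 0 ∧ d 1 = 1 := by
      constructor
      · rintro rfl; simp
      · rintro ⟨h0, h1⟩
        ext s; fin_cases s <;> simp [h0, h1]
    simp only [hd0, hd1]
    by_cases h0 : d 0 = 1
    · by_cases h1 : d 1 = 0
      · simp [h0, h1]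
      · simp [h0, h1, zero_pow h1]
    · by_cases h1 : d 1 = 1
      · by_cases h00 : d 0 = 0
        · simp [h00, h1]
        · simp [h0, h1, h00, zero_pow h00, coeff_single_pow_of_cc i hf h0]
      · have h2 := coeff_single_pow_of_cc i hf h0
        have h3 := coeff_single_pow_of_cc i hg h1
        simp [h0, h1, h2, h3]
  rw [fgAdd, MvPowerSeries.coeff_subst hv]
  simp only [hterm, smul_eq_mul]
  rw [finsum_eq_sum_of_support_subset (s := {Finsupp.single 0 1, Finsupp.single 1 1})]
  · have hne : (Finsupp.single (0 : Fin 2) 1 : Fin 2 →₀ ℕ) ≠ Finsupp.single 1 1 := by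
      intro h
      have := DFunLike.congr_fun h 0
      simp at this
    rw [Finset.sum_pair hne]
    simp [hne, hne.symm, F.lin_coeff_X, F.lin_coeff_Y]
  · intro d hd
    simp only [Function.mem_support] at hd
    simp only [Finset.coe_insert, Finset.coe_singleton, Set.mem_insert_iff, Set.mem_singleton_iff]
    by_contra hcon
    push Not at hcon
    apply hd
    simp [hcon.1, hcon.2]

/-- `coeff (single i 1) (φ(u)) = coeff 1 φ * coeff (single i 1) u`. -/
lemma coeff_single_ps_subst [DecidableEq σ] (φ : PowerSeries R) (i : σ) {u : MvPowerSeries σ R}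
    (hu : MvPowerSeries.constantCoeff u = 0) :
    MvPowerSeries.coeff (Finsupp.single i 1) (φ.subst u) =
      PowerSeries.coeff 1 φ * MvPowerSeries.coeff (Finsupp.single i 1) u := by
  rw [PowerSeries.coeff_subst (hasSubst_of_cc hu), finsum_eq_single _ 1]
  · simp
  · intro d hd
    simp [coeff_single_pow_of_cc i hu hd]

lemma coeff_one_eq_single (f : PowerSeries R) :
    PowerSeries.coeff 1 f = MvPowerSeries.coeff (Finsupp.single () 1) f := rfl

/-- Linear coefficient of a composite of one-variable series. -/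
lemma coeff_one_subst (φ ψ : PowerSeries R) (hψ : PowerSeries.constantCoeff ψ = 0) :
    PowerSeries.coeff 1 (φ.subst ψ) = PowerSeries.coeff 1 φ * PowerSeries.coeff 1 ψ :=
  coeff_single_ps_subst φ () hψ

/-- Linear coefficient of `F(f, g)` in one variable. -/
lemma coeff_one_fgAdd (F : FormalGroup R) {f g : PowerSeries R}
    (hf : PowerSeries.constantCoeff f = 0) (hg : PowerSeries.constantCoeff g = 0) :
    PowerSeries.coeff 1 (fgAdd F f g : PowerSeries R) = PowerSeries.coeff 1 f + PowerSeries.coeff 1 g :=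
  coeff_single_fgAdd F () hf hg

/-! ### homomorphisms -/

/-- A homomorphism applied to series: `φ(F(f, g)) = G(φ f, φ g)`. -/
theorem _root_.Crest.LubinTate.IsFGHom.apply {F G : FormalGroup R} {φ : PowerSeries R} (h : IsFGHom F G φ)
    {f g : MvPowerSeries σ R} (hf : PowerSeries.HasSubst f) (hg : PowerSeries.HasSubst g) :
    φ.subst (fgAdd F f g) = fgAdd G (φ.subst f) (φ.subst g) := by
  have hv := hasSubst_vec hf hg
  have hF : PowerSeries.HasSubst F.toPowerSeries := hasSubst_of_cc F.zero_constantCoeff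
  have h1 := congrArg (MvPowerSeries.subst ![f, g]) h.2
  rw [mv_subst_ps_subst φ hF hv] at h1
  refine h1.trans ?_
  have hX : ∀ s : Fin 2, PowerSeries.HasSubst (MvPowerSeries.X s : MvPowerSeries (Fin 2) R) :=
    fun s => PowerSeries.HasSubst.X s
  have h0 := constantCoeff_ps_subst (φ := φ) (u := (MvPowerSeries.X 0 : MvPowerSeries (Fin 2) R))
    h.1 (by simp)
  have h1' := constantCoeff_ps_subst (φ := φ) (u := (MvPowerSeries.X 1 : MvPowerSeries (Fin 2) R))
    h.1 (by simp)
  rw [mv_subst_fgAdd G (hasSubst_of_cc h0) (hasSubst_of_cc h1') hv,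
    mv_subst_ps_subst φ (hX 0) hv, mv_subst_ps_subst φ (hX 1) hv,
    MvPowerSeries.subst_X hv, MvPowerSeries.subst_X hv]
  simp

/-- Constructor for homomorphisms: it is enough to have the identity for the variables. -/
theorem isFGHom_of_apply {F G : FormalGroup R} {φ : PowerSeries R}
    (h0 : PowerSeries.constantCoeff φ = 0)
    (h : φ.subst (fgAdd F (MvPowerSeries.X 0) (MvPowerSeries.X 1)) =
      fgAdd G (φ.subst (MvPowerSeries.X 0 : MvPowerSeries (Fin 2) R))
        (φ.subst (MvPowerSeries.X 1 : MvPowerSeries (Fin 2) R))) : IsFGHom F G φ := by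
  refine ⟨h0, ?_⟩
  rw [fgAdd_X_X] at h
  exact h

theorem isFGHom_id (F : FormalGroup R) : IsFGHom F F PowerSeries.X := by
  refine ⟨by simp, ?_⟩
  rw [PowerSeries.subst_X (hasSubst_of_cc F.zero_constantCoeff),
    PowerSeries.subst_X (PowerSeries.HasSubst.X 0), PowerSeries.subst_X (PowerSeries.HasSubst.X 1)]
  exact (fgAdd_X_X F).symm

/-- Composition of homomorphisms. -/
theorem _root_.Crest.LubinTate.IsFGHom.comp {F G K : FormalGroup R} {φ ψ : PowerSeries R} (hψ : IsFGHom G K ψ)
    (hφ : IsFGHom F G φ) : IsFGHom F K (ψ.subst φ) := by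
  have hφs : PowerSeries.HasSubst φ := ps_hasSubst_of_cc hφ.1
  have hc : PowerSeries.constantCoeff (ψ.subst φ) = 0 := constantCoeff_ps_subst hψ.1 hφ.1
  refine isFGHom_of_apply hc ?_
  have hX : ∀ s : Fin 2, PowerSeries.HasSubst (MvPowerSeries.X s : MvPowerSeries (Fin 2) R) :=
    fun s => PowerSeries.HasSubst.X s
  rw [PowerSeries.subst_comp_subst_apply hφs (fgAdd_hasSubst F (hX 0) (hX 1)),
    PowerSeries.subst_comp_subst_apply hφs (hX 0), PowerSeries.subst_comp_subst_apply hφs (hX 1),
    hφ.apply (hX 0) (hX 1)]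
  have h0 := constantCoeff_ps_subst (φ := φ) (u := (MvPowerSeries.X 0 : MvPowerSeries (Fin 2) R))
    hφ.1 (by simp)
  have h1 := constantCoeff_ps_subst (φ := φ) (u := (MvPowerSeries.X 1 : MvPowerSeries (Fin 2) R))
    hφ.1 (by simp)
  exact hψ.apply (hasSubst_of_cc h0) (hasSubst_of_cc h1)

/-- Push-forward of a series substitution along a ring hom. -/
lemma map_ps_subst (h : R →+* S) (φ : PowerSeries R) {u : MvPowerSeries σ R}
    (hu : PowerSeries.HasSubst u) :
    MvPowerSeries.map h (φ.subst u) = (PowerSeries.map h φ).subst (MvPowerSeries.map h u) :=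
  PowerSeries.map_subst hu φ

lemma map_fgAdd (F : FormalGroup R) (h : R →+* S) {f g : MvPowerSeries σ R}
    (hf : PowerSeries.HasSubst f) (hg : PowerSeries.HasSubst g) :
    MvPowerSeries.map h (fgAdd F f g) =
      fgAdd (F.map h) (MvPowerSeries.map h f) (MvPowerSeries.map h g) := by
  rw [fgAdd, MvPowerSeries.map_subst (hasSubst_vec hf hg)]
  have : (fun i => MvPowerSeries.map h (![f, g] i)) =
      ![MvPowerSeries.map h f, MvPowerSeries.map h g] := by
    ext1 s; fin_cases s <;> rfl
  rw [this]
  rfl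

/-- Homomorphisms push forward along ring homs. -/
theorem _root_.Crest.LubinTate.IsFGHom.map {F G : FormalGroup R} {φ : PowerSeries R} (hφ : IsFGHom F G φ) (h : R →+* S) :
    IsFGHom (F.map h) (G.map h) (PowerSeries.map h φ) := by
  have hc : PowerSeries.constantCoeff (PowerSeries.map h φ) = 0 := by
    rw [← PowerSeries.coeff_zero_eq_constantCoeff_apply, PowerSeries.coeff_map,
      PowerSeries.coeff_zero_eq_constantCoeff_apply, hφ.1, map_zero]
  refine ⟨hc, ?_⟩
  have h1 := congrArg (MvPowerSeries.map h) hφ.2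
  have hF : PowerSeries.HasSubst F.toPowerSeries := hasSubst_of_cc F.zero_constantCoeff
  have hX : ∀ s : Fin 2, PowerSeries.HasSubst (MvPowerSeries.X s : MvPowerSeries (Fin 2) R) :=
    fun s => PowerSeries.HasSubst.X s
  have h0' := constantCoeff_ps_subst (φ := φ) (u := (MvPowerSeries.X 0 : MvPowerSeries (Fin 2) R))
    hφ.1 (by simp)
  have h1' := constantCoeff_ps_subst (φ := φ) (u := (MvPowerSeries.X 1 : MvPowerSeries (Fin 2) R))
    hφ.1 (by simp)
  rw [map_ps_subst h φ hF] at h1
  refine h1.trans ?_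
  rw [map_fgAdd G h (hasSubst_of_cc h0') (hasSubst_of_cc h1'), map_ps_subst h φ (hX 0),
    map_ps_subst h φ (hX 1), MvPowerSeries.map_X, MvPowerSeries.map_X]

/-! ### `mulSeries` -/

lemma mulSeries_zero (F : FormalGroup R) : mulSeries F 0 = 0 := rfl

lemma mulSeries_succ (F : FormalGroup R) (m : ℕ) :
    mulSeries F (m + 1) = fgAdd F (mulSeries F m) PowerSeries.X := rfl

lemma cc_X : MvPowerSeries.constantCoeff (PowerSeries.X : PowerSeries R) = 0 :=
  PowerSeries.constantCoeff_X

lemma constantCoeff_mulSeries (F : FormalGroup R) (m : ℕ) :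
    PowerSeries.constantCoeff (mulSeries F m) = 0 := by
  induction m with
  | zero => simp [mulSeries_zero]
  | succ m ih =>
    rw [mulSeries_succ]
    exact constantCoeff_fgAdd F ih cc_X

lemma mulSeries_hasSubst (F : FormalGroup R) (m : ℕ) : PowerSeries.HasSubst (mulSeries F m) :=
  ps_hasSubst_of_cc (constantCoeff_mulSeries F m)

lemma mulSeries_one (F : FormalGroup R) : mulSeries F 1 = PowerSeries.X := by
  rw [mulSeries_succ, mulSeries_zero]
  exact zero_fgAdd F PowerSeries.HasSubst.X'

/-- `[m+1]_F(u) = F([m]_F(u), u)`. -/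
lemma mulSeries_succ_subst (F : FormalGroup R) (m : ℕ) {u : MvPowerSeries σ R}
    (hu : PowerSeries.HasSubst u) :
    (mulSeries F (m + 1)).subst u = fgAdd F ((mulSeries F m).subst u) u := by
  rw [mulSeries_succ, PowerSeries.subst_def]
  rw [mv_subst_fgAdd F (mulSeries_hasSubst F m) PowerSeries.HasSubst.X' hu.const]
  rw [← PowerSeries.subst_def, ← PowerSeries.subst_def, PowerSeries.subst_X hu]

lemma zero_ps_subst {u : MvPowerSeries σ R} (hu : PowerSeries.HasSubst u) :
    (0 : PowerSeries R).subst u = 0 := by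
  rw [← PowerSeries.coe_substAlgHom hu, map_zero]

/-- The point of `F` given by a series. -/
def pt (F : FormalGroup R) (u : MvPowerSeries σ R) (hu : PowerSeries.HasSubst u) : F.Point σ :=
  ⟨u, hu⟩

/-- `[m]_F(u)` is the `m`-th multiple of `u` in the monoid of points. -/
lemma mulSeries_subst_eq_nsmul (F : FormalGroup R) (m : ℕ) {u : MvPowerSeries σ R}
    (hu : PowerSeries.HasSubst u) :
    (mulSeries F m).subst u = (m • pt F u hu).val := by
  induction m with
  | zero =>
    rw [mulSeries_zero, zero_smul, zero_ps_subst hu]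
    rfl
  | succ m ih =>
    rw [mulSeries_succ_subst F m hu, succ_nsmul, FormalGroup.add_apply, ← ih]
    rfl

lemma map_mulSeries (F : FormalGroup R) (h : R →+* S) (m : ℕ) :
    PowerSeries.map h (mulSeries F m) = mulSeries (F.map h) m := by
  induction m with
  | zero =>
    simp [mulSeries_zero]
  | succ m ih =>
    rw [mulSeries_succ, mulSeries_succ, ← ih]
    have := map_fgAdd F h (mulSeries_hasSubst F m) (PowerSeries.HasSubst.X' (R := R))
    refine this.trans ?_
    congr 3
    exact PowerSeries.map_X h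

/-- `θ ∘ [m]_F = [m]_G ∘ θ`. -/
theorem _root_.Crest.LubinTate.IsFGHom.subst_mulSeries {F G : FormalGroup R} {θ : PowerSeries R} (hθ : IsFGHom F G θ)
    (m : ℕ) : θ.subst (mulSeries F m) = (mulSeries G m).subst θ := by
  have hs : PowerSeries.HasSubst θ := ps_hasSubst_of_cc hθ.1
  induction m with
  | zero =>
    rw [mulSeries_zero, mulSeries_zero, zero_ps_subst hs]
    exact PowerSeries.subst_zero_of_constantCoeff_zero (τ := Unit) (S := R) hθ.1
  | succ m ih =>
    rw [mulSeries_succ_subst G m hs, ← ih, mulSeries_succ,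
      hθ.apply (mulSeries_hasSubst F m) PowerSeries.HasSubst.X', PowerSeries.X_subst]

/-- Multiplication by `m` is an endomorphism of a commutative law. -/
theorem isFGHom_mulSeries (F : FormalGroup R) [F.IsComm] (m : ℕ) :
    IsFGHom F F (mulSeries F m) := by
  refine isFGHom_of_apply (constantCoeff_mulSeries F m) ?_
  have hX : ∀ s : Fin 2, PowerSeries.HasSubst (MvPowerSeries.X s : MvPowerSeries (Fin 2) R) :=
    fun s => PowerSeries.HasSubst.X s
  rw [mulSeries_subst_eq_nsmul F m (fgAdd_hasSubst F (hX 0) (hX 1)),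
    mulSeries_subst_eq_nsmul F m (hX 0), mulSeries_subst_eq_nsmul F m (hX 1)]
  have h := nsmul_add (pt F _ (hX 0)) (pt F _ (hX 1)) m
  exact congrArg Subtype.val h

/-- `coeff 1 [m]_F = m`. -/
theorem coeff_one_mulSeries (F : FormalGroup R) (m : ℕ) :
    PowerSeries.coeff 1 (mulSeries F m) = (m : R) := by
  induction m with
  | zero => simp [mulSeries_zero]
  | succ m ih =>
    rw [mulSeries_succ, coeff_one_fgAdd F (constantCoeff_mulSeries F m) (by simp), ih]
    simp

/-- `IsComm` is inherited under push-forward. -/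
instance isComm_map (F : FormalGroup R) [F.IsComm] (h : R →+* S) : (F.map h).IsComm where
  comm := by
    have h1 := congrArg (MvPowerSeries.map h) (FormalGroup.IsComm.comm (F := F))
    have hv : MvPowerSeries.HasSubst
        ![(MvPowerSeries.X 1 : MvPowerSeries (Fin 2) R), MvPowerSeries.X 0] :=
      MvPowerSeries.HasSubst.X_X
    rw [MvPowerSeries.map_subst hv] at h1
    have : (fun i => MvPowerSeries.map h (![(MvPowerSeries.X 1 : MvPowerSeries (Fin 2) R),
        MvPowerSeries.X 0] i)) = ![MvPowerSeries.X 1, MvPowerSeries.X 0] := by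
      ext1 s; fin_cases s <;> simp
    rw [this] at h1
    exact h1

/-! ### compositional inverse -/

/-- The compositional inverse of a series with vanishing constant coefficient and unit linear
coefficient. -/
abbrev compInv (θ : PowerSeries R) (hu : IsUnit (PowerSeries.coeff 1 θ)) : PowerSeries R :=
  θ.substInvOfIsUnit hu

lemma compInv_cc (θ : PowerSeries R) (hu : IsUnit (PowerSeries.coeff 1 θ)) :
    PowerSeries.constantCoeff (compInv θ hu) = 0 := by simp

lemma compInv_hasSubst (θ : PowerSeries R) (hu : IsUnit (PowerSeries.coeff 1 θ)) :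
    PowerSeries.HasSubst (compInv θ hu) := ps_hasSubst_of_cc (compInv_cc θ hu)

lemma coeff_one_compInv_unit (θ : PowerSeries R) (hu : IsUnit (PowerSeries.coeff 1 θ)) :
    IsUnit (PowerSeries.coeff 1 (compInv θ hu)) := by
  rw [PowerSeries.coeff_one_substInvOfIsUnit]
  exact (hu.unit⁻¹).isUnit

/-- `θ(θ⁻¹(u)) = u`. -/
lemma subst_compInv_subst {θ : PowerSeries R} (h0 : PowerSeries.constantCoeff θ = 0)
    (hu : IsUnit (PowerSeries.coeff 1 θ)) {u : MvPowerSeries σ R} (hs : PowerSeries.HasSubst u) :
    θ.subst ((compInv θ hu).subst u) = u := by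
  rw [← PowerSeries.subst_comp_subst_apply (compInv_hasSubst θ hu) hs,
    PowerSeries.subst_substInvOfIsUnit_right θ h0 hu, PowerSeries.subst_X hs]

/-- `θ⁻¹(θ(u)) = u`. -/
lemma compInv_subst_subst {θ : PowerSeries R} (h0 : PowerSeries.constantCoeff θ = 0)
    (hu : IsUnit (PowerSeries.coeff 1 θ)) {u : MvPowerSeries σ R} (hs : PowerSeries.HasSubst u) :
    (compInv θ hu).subst (θ.subst u) = u := by
  rw [← PowerSeries.subst_comp_subst_apply (ps_hasSubst_of_cc h0) hs,
    PowerSeries.subst_substInvOfIsUnit_left θ h0 hu, PowerSeries.subst_X hs]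

/-- Uniqueness of the compositional inverse. -/
lemma eq_compInv {θ ψ : PowerSeries R} (h0 : PowerSeries.constantCoeff θ = 0)
    (hu : IsUnit (PowerSeries.coeff 1 θ)) (hψ0 : PowerSeries.constantCoeff ψ = 0)
    (h : θ.subst ψ = PowerSeries.X) : ψ = compInv θ hu := by
  have h1 := compInv_subst_subst h0 hu (ps_hasSubst_of_cc hψ0)
  rw [h, PowerSeries.X_subst] at h1
  exact h1.symm

/-- The compositional inverse of a homomorphism is a homomorphism. -/
theorem _root_.Crest.LubinTate.IsFGHom.compInv {F G : FormalGroup R} {θ : PowerSeries R}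
    (hθ : IsFGHom F G θ) (hu : IsUnit (PowerSeries.coeff 1 θ)) :
    IsFGHom G F (compInv θ hu) := by
  refine isFGHom_of_apply (compInv_cc θ hu) ?_
  have hX : ∀ s : Fin 2, PowerSeries.HasSubst (MvPowerSeries.X s : MvPowerSeries (Fin 2) R) :=
    fun s => PowerSeries.HasSubst.X s
  have hi : ∀ s : Fin 2, PowerSeries.HasSubst
      ((Crest.Agent.LT.compInv θ hu).subst (MvPowerSeries.X s : MvPowerSeries (Fin 2) R)) :=
    fun s => hasSubst_of_cc (constantCoeff_ps_subst (compInv_cc θ hu) (by simp))
  have h1 := hθ.apply (hi 0) (hi 1)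
  rw [subst_compInv_subst hθ.1 hu (hX 0), subst_compInv_subst hθ.1 hu (hX 1)] at h1
  rw [← h1, compInv_subst_subst hθ.1 hu (fgAdd_hasSubst F (hi 0) (hi 1))]

/-- Inverses are compatible with push-forward. -/
lemma map_compInv (h : R →+* S) {θ : PowerSeries R} (h0 : PowerSeries.constantCoeff θ = 0)
    (hu : IsUnit (PowerSeries.coeff 1 θ)) (hu' : IsUnit (PowerSeries.coeff 1 (PowerSeries.map h θ))) :
    PowerSeries.map h (compInv θ hu) = compInv (PowerSeries.map h θ) hu' := by
  have hcc : PowerSeries.constantCoeff (PowerSeries.map h θ) = 0 := by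
    rw [← PowerSeries.coeff_zero_eq_constantCoeff_apply, PowerSeries.coeff_map,
      PowerSeries.coeff_zero_eq_constantCoeff_apply, h0, map_zero]
  have hcc' : PowerSeries.constantCoeff (PowerSeries.map h (compInv θ hu)) = 0 := by
    rw [← PowerSeries.coeff_zero_eq_constantCoeff_apply, PowerSeries.coeff_map,
      PowerSeries.coeff_zero_eq_constantCoeff_apply, compInv_cc, map_zero]
  refine eq_compInv hcc hu' hcc' ?_
  have h1 := map_ps_subst h θ (compInv_hasSubst θ hu)
  rw [PowerSeries.subst_substInvOfIsUnit_right θ h0 hu] at h1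
  have h2 : (PowerSeries.map h θ).subst (PowerSeries.map h (compInv θ hu)) =
      PowerSeries.map h PowerSeries.X := h1.symm
  rw [h2, PowerSeries.map_X]

/-! ### the conjugate law -/

/-- `θ(F(θ⁻¹ X₀, θ⁻¹ X₁))`. -/
def conjSeries (θ : PowerSeries R) (hu : IsUnit (PowerSeries.coeff 1 θ)) (F : FormalGroup R) :
    MvPowerSeries (Fin 2) R :=
  θ.subst (fgAdd F ((compInv θ hu).subst (MvPowerSeries.X 0 : MvPowerSeries (Fin 2) R))
    ((compInv θ hu).subst (MvPowerSeries.X 1 : MvPowerSeries (Fin 2) R)))

lemma compInv_X_hasSubst (θ : PowerSeries R) (hu : IsUnit (PowerSeries.coeff 1 θ)) (s : Fin 2) :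
    PowerSeries.HasSubst ((compInv θ hu).subst (MvPowerSeries.X s : MvPowerSeries (Fin 2) R)) :=
  hasSubst_of_cc (constantCoeff_ps_subst (compInv_cc θ hu) (by simp))

lemma conjSeries_apply (θ : PowerSeries R) (hu : IsUnit (PowerSeries.coeff 1 θ))
    (F : FormalGroup R) {f g : MvPowerSeries σ R} (hf : PowerSeries.HasSubst f)
    (hg : PowerSeries.HasSubst g) :
    MvPowerSeries.subst ![f, g] (conjSeries θ hu F) =
      θ.subst (fgAdd F ((compInv θ hu).subst f) ((compInv θ hu).subst g)) := by
  have hv := hasSubst_vec hf hg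
  have hX : ∀ s : Fin 2, PowerSeries.HasSubst (MvPowerSeries.X s : MvPowerSeries (Fin 2) R) :=
    fun s => PowerSeries.HasSubst.X s
  rw [conjSeries, mv_subst_ps_subst θ (fgAdd_hasSubst F (compInv_X_hasSubst θ hu 0)
      (compInv_X_hasSubst θ hu 1)) hv,
    mv_subst_fgAdd F (compInv_X_hasSubst θ hu 0) (compInv_X_hasSubst θ hu 1) hv,
    mv_subst_ps_subst _ (hX 0) hv, mv_subst_ps_subst _ (hX 1) hv,
    MvPowerSeries.subst_X hv, MvPowerSeries.subst_X hv]
  simp

lemma coeff_single_conjSeries (θ : PowerSeries R)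
    (hu : IsUnit (PowerSeries.coeff 1 θ)) (F : FormalGroup R) (s : Fin 2) :
    MvPowerSeries.coeff (Finsupp.single s 1) (conjSeries θ hu F) = 1 := by
  have hc : ∀ s : Fin 2, MvPowerSeries.constantCoeff
      ((compInv θ hu).subst (MvPowerSeries.X s : MvPowerSeries (Fin 2) R)) = 0 :=
    fun s => constantCoeff_ps_subst (compInv_cc θ hu) (by simp)
  rw [conjSeries, coeff_single_ps_subst θ s (constantCoeff_fgAdd F (hc 0) (hc 1)),
    coeff_single_fgAdd F s (hc 0) (hc 1),
    coeff_single_ps_subst _ s (by simp), coeff_single_ps_subst _ s (by simp),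
    PowerSeries.coeff_one_substInvOfIsUnit]
  have hinv : PowerSeries.coeff 1 θ * ((hu.unit⁻¹ : (R)ˣ) : R) = 1 := by
    have := hu.unit.mul_inv
    simp
  fin_cases s
  · simp [MvPowerSeries.coeff_X, Finsupp.single_left_inj]
  · simp [MvPowerSeries.coeff_X, Finsupp.single_left_inj]

/-- The conjugate of a law: `θ(F(θ⁻¹ X, θ⁻¹ Y))`. -/
def conj (θ : PowerSeries R) (h0 : PowerSeries.constantCoeff θ = 0)
    (hu : IsUnit (PowerSeries.coeff 1 θ)) (F : FormalGroup R) : FormalGroup R where
  toPowerSeries := conjSeries θ hu F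
  zero_constantCoeff := by
    have hc : ∀ s : Fin 2, MvPowerSeries.constantCoeff
        ((compInv θ hu).subst (MvPowerSeries.X s : MvPowerSeries (Fin 2) R)) = 0 :=
      fun s => constantCoeff_ps_subst (compInv_cc θ hu) (by simp)
    exact constantCoeff_ps_subst h0 (constantCoeff_fgAdd F (hc 0) (hc 1))
  lin_coeff_X := coeff_single_conjSeries θ hu F 0
  lin_coeff_Y := coeff_single_conjSeries θ hu F 1
  assoc := by
    have hX : ∀ s : Fin 3, PowerSeries.HasSubst (MvPowerSeries.X s : MvPowerSeries (Fin 3) R) :=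
      fun s => PowerSeries.HasSubst.X s
    have hiX : ∀ s : Fin 3, PowerSeries.HasSubst
        ((compInv θ hu).subst (MvPowerSeries.X s : MvPowerSeries (Fin 3) R)) :=
      fun s => hasSubst_of_cc (constantCoeff_ps_subst (compInv_cc θ hu) (by simp))
    have hconj : ∀ {s t : Fin 3}, PowerSeries.HasSubst (MvPowerSeries.subst
        ![(MvPowerSeries.X s : MvPowerSeries (Fin 3) R), MvPowerSeries.X t] (conjSeries θ hu F)) := by
      intro s t
      rw [conjSeries_apply θ hu F (hX s) (hX t)]
      exact hasSubst_of_cc (constantCoeff_ps_subst h0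
        (constantCoeff_fgAdd F (constantCoeff_ps_subst (compInv_cc θ hu) (by simp))
          (constantCoeff_ps_subst (compInv_cc θ hu) (by simp))))
    show MvPowerSeries.subst ![MvPowerSeries.subst ![MvPowerSeries.X 0, MvPowerSeries.X 1]
        (conjSeries θ hu F), MvPowerSeries.X 2] (conjSeries θ hu F) =
      MvPowerSeries.subst ![MvPowerSeries.X 0, MvPowerSeries.subst ![MvPowerSeries.X 1,
        MvPowerSeries.X 2] (conjSeries θ hu F)] (conjSeries θ hu F)
    rw [conjSeries_apply θ hu F hconj (hX 2), conjSeries_apply θ hu F (hX 0) hconj,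
      conjSeries_apply θ hu F (hX 0) (hX 1), conjSeries_apply θ hu F (hX 1) (hX 2),
      compInv_subst_subst h0 hu (fgAdd_hasSubst F (hiX 0) (hiX 1)),
      compInv_subst_subst h0 hu (fgAdd_hasSubst F (hiX 1) (hiX 2)),
      fgAdd_assoc F (hiX 0) (hiX 1) (hiX 2)]

lemma conj_apply (θ : PowerSeries R) (h0 : PowerSeries.constantCoeff θ = 0)
    (hu : IsUnit (PowerSeries.coeff 1 θ)) (F : FormalGroup R) {f g : MvPowerSeries σ R}
    (hf : PowerSeries.HasSubst f) (hg : PowerSeries.HasSubst g) :
    fgAdd (conj θ h0 hu F) f g =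
      θ.subst (fgAdd F ((compInv θ hu).subst f) ((compInv θ hu).subst g)) :=
  conjSeries_apply θ hu F hf hg

/-- `θ` is a homomorphism from `F` to its conjugate. -/
theorem isFGHom_conj (θ : PowerSeries R) (h0 : PowerSeries.constantCoeff θ = 0)
    (hu : IsUnit (PowerSeries.coeff 1 θ)) (F : FormalGroup R) :
    IsFGHom F (conj θ h0 hu F) θ := by
  refine isFGHom_of_apply h0 ?_
  have hX : ∀ s : Fin 2, PowerSeries.HasSubst (MvPowerSeries.X s : MvPowerSeries (Fin 2) R) :=
    fun s => PowerSeries.HasSubst.X s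
  have hs : ∀ s : Fin 2, PowerSeries.HasSubst (θ.subst (MvPowerSeries.X s : MvPowerSeries (Fin 2) R)) :=
    fun s => hasSubst_of_cc (constantCoeff_ps_subst h0 (by simp))
  rw [conj_apply θ h0 hu F (hs 0) (hs 1), compInv_subst_subst h0 hu (hX 0),
    compInv_subst_subst h0 hu (hX 1)]

/-- The conjugate of a commutative law is commutative. -/
instance isComm_conj (θ : PowerSeries R) (h0 : PowerSeries.constantCoeff θ = 0)
    (hu : IsUnit (PowerSeries.coeff 1 θ)) (F : FormalGroup R) [F.IsComm] :
    (conj θ h0 hu F).IsComm where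
  comm := by
    have hX : ∀ s : Fin 2, PowerSeries.HasSubst (MvPowerSeries.X s : MvPowerSeries (Fin 2) R) :=
      fun s => PowerSeries.HasSubst.X s
    have hi : ∀ s : Fin 2, PowerSeries.HasSubst
        ((compInv θ hu).subst (MvPowerSeries.X s : MvPowerSeries (Fin 2) R)) :=
      fun s => compInv_X_hasSubst θ hu s
    show conjSeries θ hu F = MvPowerSeries.subst ![MvPowerSeries.X 1, MvPowerSeries.X 0]
      (conjSeries θ hu F)
    rw [conjSeries_apply θ hu F (hX 1) (hX 0), conjSeries, fgAdd_comm F (hi 0) (hi 1)]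

/-- Conjugation is compatible with push-forward. -/
theorem map_conj (h : R →+* S) (θ : PowerSeries R) (h0 : PowerSeries.constantCoeff θ = 0)
    (hu : IsUnit (PowerSeries.coeff 1 θ)) (F : FormalGroup R)
    (h0' : PowerSeries.constantCoeff (PowerSeries.map h θ) = 0)
    (hu' : IsUnit (PowerSeries.coeff 1 (PowerSeries.map h θ))) :
    (conj θ h0 hu F).map h = conj (PowerSeries.map h θ) h0' hu' (F.map h) := by
  ext1
  show MvPowerSeries.map h (conjSeries θ hu F) = conjSeries (PowerSeries.map h θ) hu' (F.map h)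
  rw [conjSeries, conjSeries, ← map_compInv h h0 hu hu',
    map_ps_subst h θ (fgAdd_hasSubst F (compInv_X_hasSubst θ hu 0) (compInv_X_hasSubst θ hu 1)),
    map_fgAdd F h (compInv_X_hasSubst θ hu 0) (compInv_X_hasSubst θ hu 1),
    map_ps_subst h _ (PowerSeries.HasSubst.X 0), map_ps_subst h _ (PowerSeries.HasSubst.X 1),
    MvPowerSeries.map_X, MvPowerSeries.map_X]

end

end Crest.Agent.LT
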