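/-
S0351 (row 227), blueprint section A3 (second half): the Hazewinkel law modulo `p`.
Everything here is proved for an ABSTRACT law `F` over the Lubin–Tate ring with the logarithm
property of `exists_hazF` (`IsHazLaw`), so this file does not depend on the integrality theorem.
Main results:
* `pSeries_congr`: `[p]_F ≡ Σ^F_{i=1}^n c_i X^{p^i}` modulo `p`;
* the coefficient facts of `[p]_F` modulo `I_h`, and `I_h(F) = (p, t_1, …, t_{h-1})`;
* the properties (G1)–(G5) of the reduction of `F` over the residue field.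
-/
import Crest.Agent.Lib.LubinTate.Defs
import Crest.Agent.Lib.LubinTate.FGBasic

set_option autoImplicit false
set_option linter.unusedSectionVars false

namespace Crest.Agent.LT

open Crest.LubinTate

noncomputable section

/-! ### Iterated sums under a formal group law -/

section Generic

variable {R S : Type*} [CommRing R] [CommRing S] {σ : Type*}

/-- `Σ^G_{i<m} f i`. -/
def fgSum (G : FormalGroup R) (f : ℕ → PowerSeries R) : ℕ → PowerSeries R
  | 0 => 0
  | m + 1 => fgAdd G (fgSum G f m) (f m)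

lemma fgSum_zero (G : FormalGroup R) (f : ℕ → PowerSeries R) : fgSum G f 0 = 0 := rfl

lemma fgSum_succ (G : FormalGroup R) (f : ℕ → PowerSeries R) (m : ℕ) :
    fgSum G f (m + 1) = fgAdd G (fgSum G f m) (f m) := rfl

lemma constantCoeff_fgSum (G : FormalGroup R) {f : ℕ → PowerSeries R}
    (hf : ∀ i, PowerSeries.constantCoeff (f i) = 0) (m : ℕ) :
    PowerSeries.constantCoeff (fgSum G f m) = 0 := by
  induction m with
  | zero => simp [fgSum_zero]
  | succ m ih =>
    rw [fgSum_succ]
    exact constantCoeff_fgAdd G ih (hf m)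

lemma map_fgSum (G : FormalGroup R) {f : ℕ → PowerSeries R}
    (hf : ∀ i, PowerSeries.constantCoeff (f i) = 0) (h : R →+* S) (m : ℕ) :
    PowerSeries.map h (fgSum G f m) = fgSum (G.map h) (fun i => PowerSeries.map h (f i)) m := by
  induction m with
  | zero => simp [fgSum_zero]
  | succ m ih =>
    rw [fgSum_succ, fgSum_succ, ← ih]
    exact map_fgAdd G h (ps_hasSubst_of_cc (constantCoeff_fgSum G hf m)) (ps_hasSubst_of_cc (hf m))

/-- Expansion of the coefficients of `G(x, y)`. -/
lemma coeff_fgAdd_eq_finsum (G : FormalGroup R) {x y : MvPowerSeries σ R}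
    (hx : PowerSeries.HasSubst x) (hy : PowerSeries.HasSubst y) (e : σ →₀ ℕ) :
    MvPowerSeries.coeff e (fgAdd G x y) = finsum (fun d : Fin 2 →₀ ℕ =>
      MvPowerSeries.coeff d G.toPowerSeries * MvPowerSeries.coeff e (x ^ (d 0) * y ^ (d 1))) := by
  rw [fgAdd, MvPowerSeries.coeff_subst (hasSubst_vec hx hy)]
  refine finsum_congr fun d => ?_
  rw [Finsupp.prod_fintype _ _ (by simp)]
  simp [Fin.prod_univ_two, smul_eq_mul]

/-- If all the products of total degree at least two have vanishing `e`-th coefficient then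
the `e`-th coefficient of `G(x, y)` is the sum of those of `x` and `y`. -/
lemma coeff_fgAdd_of_vanish (G : FormalGroup R) {x y : MvPowerSeries σ R}
    (hx : PowerSeries.HasSubst x) (hy : PowerSeries.HasSubst y) (e : σ →₀ ℕ)
    (h : ∀ a b : ℕ, 2 ≤ a + b → MvPowerSeries.coeff e (x ^ a * y ^ b) = 0) :
    MvPowerSeries.coeff e (fgAdd G x y) =
      MvPowerSeries.coeff e x + MvPowerSeries.coeff e y := by
  rw [coeff_fgAdd_eq_finsum G hx hy]
  rw [finsum_eq_sum_of_support_subset (s := {Finsupp.single 0 1, Finsupp.single 1 1})]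
  · have hne : (Finsupp.single (0 : Fin 2) 1 : Fin 2 →₀ ℕ) ≠ Finsupp.single 1 1 := by
      intro h
      have := DFunLike.congr_fun h 0
      simp at this
    rw [Finset.sum_pair hne]
    simp [G.lin_coeff_X, G.lin_coeff_Y]
  · intro d hd
    simp only [Function.mem_support] at hd
    simp only [Finset.coe_insert, Finset.coe_singleton, Set.mem_insert_iff, Set.mem_singleton_iff]
    by_contra hcon
    push Not at hcon
    apply hd
    have hsum : 2 ≤ d 0 + d 1 ∨ d = 0 := by
      by_cases h0 : d 0 + d 1 < 2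
      · right
        have h00 : d 0 = 0 ∨ d 0 = 1 := by omega
        have h11 : d 1 = 0 ∨ d 1 = 1 := by omega
        have hcases : (d 0 = 0 ∧ d 1 = 0) ∨ (d 0 = 1 ∧ d 1 = 0) ∨ (d 0 = 0 ∧ d 1 = 1) := by omega
        rcases hcases with ⟨a, b⟩ | ⟨a, b⟩ | ⟨a, b⟩
        · ext s; fin_cases s <;> simp [a, b]
        · exfalso; apply hcon.1; ext s; fin_cases s <;> simp [a, b]
        · exfalso; apply hcon.2; ext s; fin_cases s <;> simp [a, b]
      · left; omega
    rcases hsum with hs | rfl
    · rw [h _ _ hs, mul_zero]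
    · have := G.zero_constantCoeff
      rw [← MvPowerSeries.coeff_zero_eq_constantCoeff_apply] at this
      rw [this, zero_mul]

/-- `G(x, y) = x + y` if the products vanish. -/
lemma fgAdd_of_sq_zero (G : FormalGroup R) {x y : MvPowerSeries σ R}
    (hx : PowerSeries.HasSubst x) (hy : PowerSeries.HasSubst y)
    (hxx : x * x = 0) (hyy : y * y = 0) (hxy : x * y = 0) : fgAdd G x y = x + y := by
  ext e
  rw [coeff_fgAdd_of_vanish G hx hy e, map_add]
  intro a b hab
  have hz : x ^ a * y ^ b = 0 := by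
    by_cases ha : 2 ≤ a
    · obtain ⟨c, rfl⟩ := Nat.exists_eq_add_of_le ha
      rw [pow_add, pow_two, hxx, zero_mul, zero_mul]
    · by_cases hb : 2 ≤ b
      · obtain ⟨c, rfl⟩ := Nat.exists_eq_add_of_le hb
        rw [pow_add, pow_two, hyy, zero_mul, mul_zero]
      · have h1 : a = 1 := by omega
        have h2 : b = 1 := by omega
        rw [h1, h2, pow_one, pow_one, hxy]
  rw [hz, map_zero]

lemma mul_sub_mul_dvd_of_dvd {T : Type*} [CommRing T] {z x x' y y' : T} (hx : z ∣ x - x')
    (hy : z ∣ y - y') (a b : ℕ) : z ∣ x ^ a * y ^ b - x' ^ a * y' ^ b := by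
  have h : x ^ a * y ^ b - x' ^ a * y' ^ b =
      (x ^ a - x' ^ a) * y ^ b + x' ^ a * (y ^ b - y' ^ b) := by ring
  rw [h]
  exact dvd_add (Dvd.dvd.mul_right (hx.trans (sub_dvd_pow_sub_pow x x' a)) _)
    (Dvd.dvd.mul_left (hy.trans (sub_dvd_pow_sub_pow y y' b)) _)

/-- Low coefficients of `G(x, y)` only depend on the low coefficients of `x, y`. -/
lemma coeff_fgAdd_congr (G : FormalGroup R) {x y x' y' : PowerSeries R}
    (hx : PowerSeries.HasSubst x) (hy : PowerSeries.HasSubst y)
    (hx' : PowerSeries.HasSubst x') (hy' : PowerSeries.HasSubst y') {M m : ℕ} (hm : m < M)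
    (h1 : (PowerSeries.X : PowerSeries R) ^ M ∣ x - x')
    (h2 : (PowerSeries.X : PowerSeries R) ^ M ∣ y - y') :
    PowerSeries.coeff m (fgAdd G x y : PowerSeries R) =
      PowerSeries.coeff m (fgAdd G x' y' : PowerSeries R) := by
  have key := fun e => coeff_fgAdd_eq_finsum G hx hy e
  have key' := fun e => coeff_fgAdd_eq_finsum G hx' hy' e
  change MvPowerSeries.coeff (Finsupp.single () m) _ = MvPowerSeries.coeff (Finsupp.single () m) _
  rw [key, key']
  refine finsum_congr fun d => ?_
  congr 1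
  have hd := mul_sub_mul_dvd_of_dvd h1 h2 (d 0) (d 1)
  have := PowerSeries.X_pow_dvd_iff.1 hd m hm
  rw [map_sub, sub_eq_zero] at this
  exact this

/-- Series with support in the multiples of `k`. -/
def SuppDvd (k : ℕ) (f : PowerSeries R) : Prop := ∀ m, ¬ k ∣ m → PowerSeries.coeff m f = 0

lemma SuppDvd.one (k : ℕ) : SuppDvd k (1 : PowerSeries R) := by
  intro m hm
  rw [PowerSeries.coeff_one, if_neg]
  rintro rfl
  exact hm (dvd_zero _)

lemma SuppDvd.mul {k : ℕ} {f g : PowerSeries R} (hf : SuppDvd k f) (hg : SuppDvd k g) :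
    SuppDvd k (f * g) := by
  intro m hm
  rw [PowerSeries.coeff_mul]
  refine Finset.sum_eq_zero fun ij hij => ?_
  rw [Finset.HasAntidiagonal.mem_antidiagonal] at hij
  by_cases h1 : k ∣ ij.1
  · have h2 : ¬ k ∣ ij.2 := fun h2 => hm (hij ▸ dvd_add h1 h2)
    rw [hg _ h2, mul_zero]
  · rw [hf _ h1, zero_mul]

lemma SuppDvd.pow {k : ℕ} {f : PowerSeries R} (hf : SuppDvd k f) (a : ℕ) : SuppDvd k (f ^ a) := by
  induction a with
  | zero => rw [pow_zero]; exact SuppDvd.one k
  | succ a ih => rw [pow_succ]; exact ih.mul hf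

lemma SuppDvd.fgAdd (G : FormalGroup R) {k : ℕ} {x y : PowerSeries R}
    (hx : PowerSeries.HasSubst x) (hy : PowerSeries.HasSubst y) (hkx : SuppDvd k x)
    (hky : SuppDvd k y) : SuppDvd k (fgAdd G x y : PowerSeries R) := by
  intro m hm
  change MvPowerSeries.coeff (Finsupp.single () m) _ = 0
  rw [coeff_fgAdd_eq_finsum G hx hy]
  refine finsum_eq_zero_of_forall_eq_zero fun d => ?_
  have := ((hkx.pow (d 0)).mul (hky.pow (d 1))) m hm
  change MvPowerSeries.coeff (Finsupp.single () m) _ = 0 at this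
  rw [this, mul_zero]

lemma SuppDvd.fgSum (G : FormalGroup R) {k : ℕ} {f : ℕ → PowerSeries R}
    (hf : ∀ i, PowerSeries.constantCoeff (f i) = 0) (hk : ∀ i, SuppDvd k (f i)) (t : ℕ) :
    SuppDvd k (fgSum G f t) := by
  induction t with
  | zero => intro m _; simp [fgSum_zero]
  | succ t ih =>
    rw [fgSum_succ]
    exact SuppDvd.fgAdd G (ps_hasSubst_of_cc (constantCoeff_fgSum G hf t))
      (ps_hasSubst_of_cc (hf t)) ih (hk t)

/-- `X ^ M` divides `G(x, y)` if it divides `x`, `y`. -/
lemma X_pow_dvd_fgAdd (G : FormalGroup R) {x y : PowerSeries R}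
    (hx : PowerSeries.HasSubst x) (hy : PowerSeries.HasSubst y) {M : ℕ}
    (h1 : (PowerSeries.X : PowerSeries R) ^ M ∣ x) (h2 : (PowerSeries.X : PowerSeries R) ^ M ∣ y) :
    (PowerSeries.X : PowerSeries R) ^ M ∣ (fgAdd G x y : PowerSeries R) := by
  have h00 : fgAdd G (0 : PowerSeries R) (0 : PowerSeries R) = 0 := fgAdd_zero G PowerSeries.HasSubst.zero
  rw [PowerSeries.X_pow_dvd_iff]
  intro m hm
  rw [coeff_fgAdd_congr G hx hy PowerSeries.HasSubst.zero PowerSeries.HasSubst.zero hm
    (by simpa using h1) (by simpa using h2), h00, map_zero]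

/-- Sum in low degrees. -/
lemma coeff_fgAdd_of_X_pow_dvd (G : FormalGroup R) {x y : PowerSeries R}
    (hx : PowerSeries.HasSubst x) (hy : PowerSeries.HasSubst y) {M m : ℕ} (hm : m < 2 * M)
    (h1 : (PowerSeries.X : PowerSeries R) ^ M ∣ x) (h2 : (PowerSeries.X : PowerSeries R) ^ M ∣ y) :
    PowerSeries.coeff m (fgAdd G x y : PowerSeries R) = PowerSeries.coeff m x + PowerSeries.coeff m y := by
  refine coeff_fgAdd_of_vanish G hx hy (Finsupp.single () m) fun a b hab => ?_
  have h3 : (PowerSeries.X : PowerSeries R) ^ (M * (a + b)) ∣ x ^ a * y ^ b := by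
    rw [mul_add, pow_add, pow_mul, pow_mul]
    exact mul_dvd_mul (pow_dvd_pow_of_dvd h1 a) (pow_dvd_pow_of_dvd h2 b)
  have h4 : m < M * (a + b) := by nlinarith
  exact PowerSeries.X_pow_dvd_iff.1 h3 m h4

/-- low coefficients of an iterated sum of series divisible by `X ^ M` -/
lemma coeff_fgSum_of_X_pow_dvd (G : FormalGroup R) {f : ℕ → PowerSeries R}
    (hf : ∀ i, PowerSeries.constantCoeff (f i) = 0) {M m : ℕ} (hm : m < 2 * M)
    (hM : ∀ i, (PowerSeries.X : PowerSeries R) ^ M ∣ f i) (t : ℕ) :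
    (PowerSeries.X : PowerSeries R) ^ M ∣ fgSum G f t ∧
      PowerSeries.coeff m (fgSum G f t) = ∑ i ∈ Finset.range t, PowerSeries.coeff m (f i) := by
  induction t with
  | zero => simp [fgSum_zero]
  | succ t ih =>
    obtain ⟨ih1, ih2⟩ := ih
    have hs := ps_hasSubst_of_cc (constantCoeff_fgSum G hf t)
    refine ⟨?_, ?_⟩
    · rw [fgSum_succ]
      exact X_pow_dvd_fgAdd G hs (ps_hasSubst_of_cc (hf t)) ih1 (hM t)
    · rw [fgSum_succ, coeff_fgAdd_of_X_pow_dvd G hs (ps_hasSubst_of_cc (hf t)) hm ih1 (hM t),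
        ih2, Finset.sum_range_succ]

/-- Iterated sums of series with vanishing products. -/
lemma fgSum_of_sq_zero (G : FormalGroup R) {f : ℕ → PowerSeries R}
    (hf : ∀ i, PowerSeries.constantCoeff (f i) = 0) (t : ℕ) (h : ∀ i j, i < t → j < t → f i * f j = 0) :
    fgSum G f t = ∑ i ∈ Finset.range t, f i := by
  induction t with
  | zero => simp [fgSum_zero]
  | succ t ih =>
    have hs := ps_hasSubst_of_cc (constantCoeff_fgSum G hf t)
    have ih' := ih fun i j hi hj => h i j (by omega) (by omega)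
    rw [fgSum_succ, fgAdd_of_sq_zero G hs (ps_hasSubst_of_cc (hf t)) _ (h t t (by omega) (by omega)) _,
      ih', Finset.sum_range_succ]
    · rw [ih', Finset.sum_mul_sum]
      exact Finset.sum_eq_zero fun i hi => Finset.sum_eq_zero fun j hj =>
        h i j (by have := Finset.mem_range.1 hi; omega) (by have := Finset.mem_range.1 hj; omega)
    · rw [ih', Finset.sum_mul]
      exact Finset.sum_eq_zero fun i hi => h i t (by have := Finset.mem_range.1 hi; omega) (by omega)

/-- The last term dominates the sum in low degrees. -/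
lemma coeff_fgSum_succ_of_low (G : FormalGroup R) {f : ℕ → PowerSeries R}
    (hf : ∀ i, PowerSeries.constantCoeff (f i) = 0) {M m : ℕ} (hm : m < M) (t : ℕ)
    (h : (PowerSeries.X : PowerSeries R) ^ M ∣ f t) :
    PowerSeries.coeff m (fgSum G f (t + 1)) = PowerSeries.coeff m (fgSum G f t) := by
  have hs := ps_hasSubst_of_cc (constantCoeff_fgSum G hf t)
  rw [fgSum_succ, coeff_fgAdd_congr G hs (ps_hasSubst_of_cc (hf t)) hs PowerSeries.HasSubst.zero hm
    (by simp) (by simpa using h)]
  congr 1
  exact fgAdd_zero G hs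

/-- An iterated sum with only one nonzero term. -/
lemma fgSum_eq_single (G : FormalGroup R) {f : ℕ → PowerSeries R}
    (hf : ∀ i, PowerSeries.constantCoeff (f i) = 0) {t i₀ : ℕ} (hi : i₀ < t)
    (h : ∀ i, i < t → i ≠ i₀ → f i = 0) : fgSum G f t = f i₀ := by
  have h1 : ∀ s, s ≤ i₀ → fgSum G f s = 0 := by
    intro s
    induction s with
    | zero => simp [fgSum_zero]
    | succ s ih =>
      intro hs
      rw [fgSum_succ, ih (by omega), h s (by omega) (by omega)]
      exact fgAdd_zero G PowerSeries.HasSubst.zero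
  have h2 : ∀ s, i₀ < s → s ≤ t → fgSum G f s = f i₀ := by
    intro s
    induction s with
    | zero => intro h; omega
    | succ s ih =>
      intro hs hst
      rw [fgSum_succ]
      by_cases hsi : s = i₀
      · subst hsi
        rw [h1 s le_rfl]
        exact zero_fgAdd G (ps_hasSubst_of_cc (hf s))
      · rw [ih (by omega) (by omega), h s (by omega) hsi]
        exact fgAdd_zero G (ps_hasSubst_of_cc (hf i₀))
  exact h2 t hi le_rfl

end Generic

/-! ### Logarithms -/

section Log

variable {C : Type*} [CommRing C] {σ : Type*}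

lemma fgAdd_Ga (u v : MvPowerSeries σ C) (hu : PowerSeries.HasSubst u) (hv : PowerSeries.HasSubst v) :
    fgAdd (FormalGroup.𝔾ₐ (R := C)) u v = u + v := by
  have hs := hasSubst_vec hu hv
  simp [fgAdd, FormalGroup.𝔾ₐ, MvPowerSeries.subst_add hs, MvPowerSeries.subst_X hs]

lemma log_fgAdd {G : FormalGroup C} {l : PowerSeries C} (hl : IsFGHom G FormalGroup.𝔾ₐ l)
    {x y : MvPowerSeries σ C} (hx : MvPowerSeries.constantCoeff x = 0)
    (hy : MvPowerSeries.constantCoeff y = 0) :
    l.subst (fgAdd G x y) = l.subst x + l.subst y := by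
  rw [hl.apply (hasSubst_of_cc hx) (hasSubst_of_cc hy),
    fgAdd_Ga _ _ (hasSubst_of_cc (constantCoeff_ps_subst hl.1 hx))
      (hasSubst_of_cc (constantCoeff_ps_subst hl.1 hy))]

lemma log_mulSeries {G : FormalGroup C} {l : PowerSeries C} (hl : IsFGHom G FormalGroup.𝔾ₐ l)
    (m : ℕ) : l.subst (mulSeries G m) = m • l := by
  induction m with
  | zero =>
    rw [mulSeries_zero, zero_smul]
    exact PowerSeries.subst_zero_of_constantCoeff_zero (τ := Unit) (S := C) hl.1
  | succ m ih =>
    rw [mulSeries_succ, log_fgAdd hl (constantCoeff_mulSeries G m) cc_X, ih, PowerSeries.X_subst,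
      succ_nsmul]

lemma log_fgSum {G : FormalGroup C} {l : PowerSeries C} (hl : IsFGHom G FormalGroup.𝔾ₐ l)
    {f : ℕ → PowerSeries C} (hf : ∀ i, PowerSeries.constantCoeff (f i) = 0) (t : ℕ) :
    l.subst (fgSum G f t) = ∑ i ∈ Finset.range t, l.subst (f i) := by
  induction t with
  | zero =>
    rw [fgSum_zero, Finset.sum_range_zero]
    exact PowerSeries.subst_zero_of_constantCoeff_zero (τ := Unit) (S := C) hl.1
  | succ t ih =>
    rw [fgSum_succ, log_fgAdd hl (constantCoeff_fgSum G hf t) (hf t), ih, Finset.sum_range_succ]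

/-- Coefficients of `l(u)` as a finite sum. -/
lemma coeff_subst_eq_sum (l u : PowerSeries C) (hu : PowerSeries.constantCoeff u = 0) (e : ℕ) :
    PowerSeries.coeff e (l.subst u) =
      ∑ d ∈ Finset.range (e + 1), PowerSeries.coeff d l * PowerSeries.coeff e (u ^ d) := by
  rw [PowerSeries.coeff_subst' (ps_hasSubst_of_cc hu)]
  rw [finsum_eq_sum_of_support_subset (s := Finset.range (e + 1))]
  · rfl
  · intro d hd
    simp only [Function.mem_support] at hd
    simp only [Finset.coe_range, Set.mem_Iio]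
    by_contra hcon
    apply hd
    have h1 : (PowerSeries.X : PowerSeries C) ^ d ∣ u ^ d :=
      pow_dvd_pow_of_dvd (PowerSeries.X_dvd_iff.2 hu) d
    rw [PowerSeries.X_pow_dvd_iff.1 h1 e (by omega), smul_zero]

/-- Coefficients of `l(c X ^ k)`. -/
lemma coeff_subst_C_mul_X_pow (l : PowerSeries C) (c : C) {k : ℕ} (hk : k ≠ 0) (e : ℕ) :
    PowerSeries.coeff e (l.subst (PowerSeries.C c * PowerSeries.X ^ k)) =
      if k ∣ e then PowerSeries.coeff (e / k) l * c ^ (e / k) else 0 := by
  have hu : PowerSeries.constantCoeff (PowerSeries.C c * PowerSeries.X ^ k : PowerSeries C) = 0 := by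
    simp [hk]
  have hpow : ∀ d : ℕ, (PowerSeries.C c * PowerSeries.X ^ k : PowerSeries C) ^ d =
      PowerSeries.C (c ^ d) * PowerSeries.X ^ (k * d) := fun d => by
    rw [mul_pow, ← map_pow, ← pow_mul]
  rw [PowerSeries.coeff_subst' (ps_hasSubst_of_cc hu)]
  split_ifs with h
  · rw [finsum_eq_single _ (e / k)]
    · rw [hpow, Nat.mul_div_cancel' h, PowerSeries.coeff_C_mul_X_pow, if_pos rfl, smul_eq_mul]
    · intro d hd
      rw [hpow, PowerSeries.coeff_C_mul_X_pow, if_neg, smul_zero]
      rintro rfl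
      exact hd (Nat.mul_div_cancel_left d (Nat.pos_of_ne_zero hk)).symm
  · refine finsum_eq_zero_of_forall_eq_zero fun d => ?_
    rw [hpow, PowerSeries.coeff_C_mul_X_pow, if_neg, smul_zero]
    rintro rfl
    exact h (Dvd.intro _ rfl)

end Log

/-! ### The recursion of the logarithm -/

section Recursion

variable (p : ℕ) [Fact p.Prime] (n : ℕ)
variable {A : Type*} [CommRing A] {C : Type} [CommRing C] [Algebra ℚ C]

/-- `c_i`: `t_i` for `1 ≤ i < n`, `1` for `i = n`, `0` otherwise. -/
def cA (t : Fin (n - 1) → A) (i : ℕ) : A :=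
  if hi : 1 ≤ i ∧ i < n then t ⟨i - 1, by omega⟩ else if i = n then 1 else 0

lemma aeval_ccPoly_cA (t : Fin (n - 1) → A) (ι : A →+* C) (i : ℕ) :
    MvPolynomial.aeval (fun j => ι (t j)) (ccPoly n i) = ι (cA n t i) := by
  unfold ccPoly cA
  split_ifs <;> simp

/-- The coefficients `ℓ_m` at a point. -/
abbrev ellAt (τ : Fin (n - 1) → C) (m : ℕ) : C := MvPolynomial.aeval τ (ellPoly p n m)

lemma ellAt_zero (τ : Fin (n - 1) → C) : ellAt p n τ 0 = 1 := by
  simp [ellAt, ellPoly_zero]

/-- The recursion `p ℓ_{m+1} = ∑_{i ≤ m} ℓ_{m-i} c_{i+1} ^ p^(m-i)`. -/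
lemma ellAt_succ (τ : Fin (n - 1) → C) (m : ℕ) :
    (p : C) * ellAt p n τ (m + 1) = ∑ i ∈ Finset.range (m + 1),
      ellAt p n τ (m - i) * (MvPolynomial.aeval τ (ccPoly n (i + 1))) ^ (p ^ (m - i)) := by
  have hp : ((p : ℚ)) ≠ 0 := by
    exact_mod_cast (Fact.out : p.Prime).ne_zero
  rw [ellAt, ellPoly_succ, map_smul, map_sum, Algebra.smul_def, ← mul_assoc]
  have h1 : (p : C) * algebraMap ℚ C (p : ℚ)⁻¹ = 1 := by
    rw [← map_natCast (algebraMap ℚ C) p, ← map_mul, mul_inv_cancel₀ hp, map_one]
  rw [h1, one_mul]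
  refine Finset.sum_congr rfl fun i _ => ?_
  rw [map_mul, map_pow]

/-- The recursion in the form of a functional equation:
`p l(X) = p X + ∑_{i=1}^{n} l(c_i X ^ p^i)`. -/
theorem logSeries_recursion (τ : Fin (n - 1) → C) :
    p • logSeries p n τ = PowerSeries.C (p : C) * PowerSeries.X +
      ∑ i ∈ Finset.range n, (logSeries p n τ).subst
        (PowerSeries.C (MvPolynomial.aeval τ (ccPoly n (i + 1))) * PowerSeries.X ^ (p ^ (i + 1))) := by
  have hp : p.Prime := Fact.out
  have hp1 : 1 < p := hp.one_lt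
  have hk : ∀ i : ℕ, p ^ (i + 1) ≠ 0 := fun i => pow_ne_zero _ hp.ne_zero
  ext e
  rw [map_nsmul, map_add, map_sum, nsmul_eq_mul, PowerSeries.coeff_C_mul, PowerSeries.coeff_X]
  simp_rw [coeff_subst_C_mul_X_pow _ _ (hk _)]
  by_cases he : ∃ m, e = p ^ m
  · obtain ⟨m, rfl⟩ := he
    rcases m with _ | m
    · -- `e = 1`
      have h1 : PowerSeries.coeff 1 (logSeries p n τ) = 1 := by
        have := coeff_logSeries_pow p n τ 0
        rw [pow_zero] at this
        rw [this, ellPoly_zero, map_one]
      rw [pow_zero, h1, if_pos rfl]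
      rw [Finset.sum_eq_zero, add_zero]
      intro i _
      rw [if_neg]
      intro h
      have := Nat.le_of_dvd one_pos h
      have h2 : 1 < p ^ (i + 1) := Nat.one_lt_pow (by omega) hp1
      omega
    · have h1 : p ^ (m + 1) ≠ 1 := (Nat.one_lt_pow (by omega) hp1).ne'
      rw [coeff_logSeries_pow p n τ, if_neg h1, mul_zero, zero_add]
      have hLHS := ellAt_succ p n τ m
      simp only [ellAt] at hLHS
      rw [hLHS]
      have hterm : ∀ i ∈ Finset.range n,
          (if p ^ (i + 1) ∣ p ^ (m + 1) then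
            PowerSeries.coeff (p ^ (m + 1) / p ^ (i + 1)) (logSeries p n τ) *
              (MvPolynomial.aeval τ (ccPoly n (i + 1))) ^ (p ^ (m + 1) / p ^ (i + 1)) else 0) =
          if i ≤ m then (MvPolynomial.aeval τ (ellPoly p n (m - i))) *
            (MvPolynomial.aeval τ (ccPoly n (i + 1))) ^ (p ^ (m - i)) else 0 := by
        intro i _
        by_cases him : i ≤ m
        · have hd : p ^ (i + 1) ∣ p ^ (m + 1) := pow_dvd_pow _ (by omega)
          have hq : p ^ (m + 1) / p ^ (i + 1) = p ^ (m - i) := by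
            rw [Nat.pow_div (by omega) hp.pos]
            congr 1
            omega
          rw [if_pos hd, if_pos him, hq, coeff_logSeries_pow]
        · have hd : ¬ p ^ (i + 1) ∣ p ^ (m + 1) := by
            rw [Nat.pow_dvd_pow_iff_le_right hp1]
            omega
          rw [if_neg hd, if_neg him]
      rw [Finset.sum_congr rfl hterm, ← Finset.sum_filter]
      rw [← Finset.sum_filter_of_ne (s := Finset.range (m + 1)) (p := fun i => i < n)]
      · refine Finset.sum_congr ?_ fun _ _ => rfl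
        ext i
        simp only [Finset.mem_filter, Finset.mem_range]
        omega
      · intro i _ hne
        by_contra hni
        apply hne
        have h0 : ccPoly n (i + 1) = 0 := by
          unfold ccPoly
          rw [dif_neg (by omega), if_neg (by omega)]
        rw [h0, map_zero, zero_pow (pow_ne_zero _ hp.ne_zero), mul_zero]
  · push Not at he
    have h1 : e ≠ 1 := fun h => he 0 (by simpa using h)
    rw [coeff_logSeries_of_ne p n τ e he, mul_zero, if_neg h1, mul_zero, zero_add]
    symm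
    refine Finset.sum_eq_zero fun i _ => ?_
    split_ifs with hdvd
    · rw [coeff_logSeries_of_ne p n τ, zero_mul]
      intro m hm
      apply he (m + (i + 1))
      rw [pow_add, ← hm, mul_comm, Nat.mul_div_cancel' hdvd]
    · rfl

end Recursion

/-! ### The congruence lemma -/

section Congruence

variable (p : ℕ) [Fact p.Prime] (n : ℕ)
variable {A : Type*} [CommRing A] {C : Type} [CommRing C] [Algebra ℚ C]
variable (t : Fin (n - 1) → A) (ι : A →+* C)

/-- Integrality: `p ^ m ℓ_m` lies in the image of `A`. -/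
lemma pow_mul_ellAt_mem (m : ℕ) :
    (p : C) ^ m * ellAt p n (fun j => ι (t j)) m ∈ ι.range := by
  induction m using Nat.strong_induction_on with
  | _ m ih =>
    rcases m with _ | m
    · rw [pow_zero, one_mul, ellAt_zero]
      exact one_mem _
    · have h : (p : C) ^ (m + 1) * ellAt p n (fun j => ι (t j)) (m + 1) =
          ∑ i ∈ Finset.range (m + 1), (p : C) ^ i *
            ((p : C) ^ (m - i) * ellAt p n (fun j => ι (t j)) (m - i)) *
            (ι (cA n t (i + 1))) ^ (p ^ (m - i)) := by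
        rw [pow_succ, mul_assoc, ellAt_succ, Finset.mul_sum]
        refine Finset.sum_congr rfl fun i hi => ?_
        rw [aeval_ccPoly_cA]
        have him : i + (m - i) = m := by
          have := Finset.mem_range.1 hi
          omega
        nth_rw 1 [← him]
        rw [pow_add]
        ring
      rw [h]
      refine sum_mem fun i hi => mul_mem (mul_mem (pow_mem (natCast_mem _ _) _) (ih _ ?_))
        (pow_mem (ι.mem_range_self _) _)
      have := Finset.mem_range.1 hi
      omega

/-- truncation of a power series. -/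
def truncS (E : ℕ) (α : PowerSeries A) : PowerSeries A :=
  PowerSeries.mk fun i => if i < E then PowerSeries.coeff i α else 0

omit [Algebra ℚ C] in
lemma X_pow_dvd_pow_sub_pow {α γ : PowerSeries A} (h1 : (PowerSeries.X : PowerSeries A) ∣ α)
    (h2 : (PowerSeries.X : PowerSeries A) ∣ γ) {E d : ℕ}
    (hE : (PowerSeries.X : PowerSeries A) ^ E ∣ α - γ) (hd : 2 ≤ d) :
    (PowerSeries.X : PowerSeries A) ^ (E + 1) ∣ α ^ d - γ ^ d := by
  have h : α ^ d - γ ^ d = (∑ i ∈ Finset.range d, α ^ i * γ ^ (d - 1 - i)) * (α - γ) :=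
    ((Commute.all _ _).geom_sum₂_mul d).symm
  rw [h, pow_succ']
  refine mul_dvd_mul (Finset.dvd_sum fun i hi => ?_) hE
  have hi' := Finset.mem_range.1 hi
  by_cases h0 : i = 0
  · exact Dvd.dvd.mul_left (dvd_pow h2 (by omega)) _
  · exact Dvd.dvd.mul_right (dvd_pow h1 h0) _

lemma coeff_pow_truncS {α : PowerSeries A} (hα : PowerSeries.constantCoeff α = 0) {E d : ℕ}
    (hd : 2 ≤ d) : PowerSeries.coeff E (α ^ d) = PowerSeries.coeff E ((truncS E α) ^ d) := by
  have h2 : (PowerSeries.X : PowerSeries A) ∣ truncS E α := by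
    rw [PowerSeries.X_dvd_iff, ← PowerSeries.coeff_zero_eq_constantCoeff_apply, truncS,
      PowerSeries.coeff_mk]
    split_ifs
    · rw [PowerSeries.coeff_zero_eq_constantCoeff_apply, hα]
    · rfl
  have hE : (PowerSeries.X : PowerSeries A) ^ E ∣ α - truncS E α := by
    rw [PowerSeries.X_pow_dvd_iff]
    intro m hm
    rw [map_sub, truncS, PowerSeries.coeff_mk, if_pos hm, sub_self]
  have h3 := X_pow_dvd_pow_sub_pow (PowerSeries.X_dvd_iff.2 hα) h2 hE hd
  have h4 := PowerSeries.X_pow_dvd_iff.1 h3 E (by omega)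
  rw [map_sub, sub_eq_zero] at h4
  exact h4

/-- The key congruence `α ≡ β (p, X^E)` ⟹ `α^(p^m) ≡ β^(p^m) (p^(m+1), X^(E+1))`. -/
lemma pow_dvd_coeff_pow_sub {α β : PowerSeries A} (hα : PowerSeries.constantCoeff α = 0)
    (hβ : PowerSeries.constantCoeff β = 0) {E m : ℕ} (hm : m ≠ 0)
    (ih : ∀ e, e < E → (p : A) ∣ PowerSeries.coeff e α - PowerSeries.coeff e β) :
    (p : A) ^ (m + 1) ∣ PowerSeries.coeff E (α ^ (p ^ m)) - PowerSeries.coeff E (β ^ (p ^ m)) := by
  have hp : p.Prime := Fact.out
  have hd : 2 ≤ p ^ m := by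
    calc 2 ≤ p := hp.two_le
      _ = p ^ 1 := (pow_one p).symm
      _ ≤ p ^ m := Nat.pow_le_pow_right hp.pos (by omega)
  rw [coeff_pow_truncS hα hd, coeff_pow_truncS hβ hd]
  have h0 : ((p : ℕ) : PowerSeries A) ∣ truncS E α - truncS E β := by
    have hw : ∀ i, ∃ w : A, PowerSeries.coeff i (truncS E α - truncS E β) = (p : A) * w := by
      intro i
      rw [map_sub, truncS, truncS, PowerSeries.coeff_mk, PowerSeries.coeff_mk]
      split_ifs with hi
      · exact ih i hi
      · exact ⟨0, by simp⟩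
    choose w hw using hw
    refine ⟨PowerSeries.mk w, ?_⟩
    ext i
    rw [hw, ← map_natCast (PowerSeries.C (R := A)) p, PowerSeries.coeff_C_mul, PowerSeries.coeff_mk]
  obtain ⟨w, hw⟩ := dvd_sub_pow_of_dvd_sub h0 m
  refine ⟨PowerSeries.coeff E w, ?_⟩
  rw [← map_sub, hw, ← map_natCast (PowerSeries.C (R := A)) p, ← map_pow, PowerSeries.coeff_C_mul]

/-- The congruence lemma: if `l(α) ≡ l(β)` modulo `p` then `α ≡ β` modulo `p`, for integral series
without constant terms. -/
theorem coeff_dvd_of_log (hι : Function.Injective ι) {α β : PowerSeries A}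
    (hα : PowerSeries.constantCoeff α = 0) (hβ : PowerSeries.constantCoeff β = 0)
    (h : ∀ e, ∃ x : A, PowerSeries.coeff e
        ((logSeries p n fun i => ι (t i)).subst (PowerSeries.map ι α)) -
      PowerSeries.coeff e ((logSeries p n fun i => ι (t i)).subst (PowerSeries.map ι β)) =
        ι ((p : A) * x)) (e : ℕ) :
    (p : A) ∣ PowerSeries.coeff e α - PowerSeries.coeff e β := by
  have hp : p.Prime := Fact.out
  -- the subgroup `ι (p A)`
  let P : AddSubgroup C := ((ι : A →+ C).comp (AddMonoidHom.mulLeft (p : A))).range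
  have hP : ∀ z : C, z ∈ P ↔ ∃ x : A, ι ((p : A) * x) = z := fun z => by
    simp [P, AddMonoidHom.mem_range]
  induction e using Nat.strong_induction_on with
  | _ e ih =>
    rcases e with _ | e
    · simp [PowerSeries.coeff_zero_eq_constantCoeff_apply, hα, hβ]
    · set E := e + 1 with hE
      set l := logSeries p n fun i => ι (t i) with hl
      have hmapα : PowerSeries.constantCoeff (PowerSeries.map ι α) = 0 := by
        rw [← PowerSeries.coeff_zero_eq_constantCoeff_apply, PowerSeries.coeff_map,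
          PowerSeries.coeff_zero_eq_constantCoeff_apply, hα, map_zero]
      have hmapβ : PowerSeries.constantCoeff (PowerSeries.map ι β) = 0 := by
        rw [← PowerSeries.coeff_zero_eq_constantCoeff_apply, PowerSeries.coeff_map,
          PowerSeries.coeff_zero_eq_constantCoeff_apply, hβ, map_zero]
      have hsum : PowerSeries.coeff E (l.subst (PowerSeries.map ι α)) -
          PowerSeries.coeff E (l.subst (PowerSeries.map ι β)) =
          ∑ d ∈ Finset.range (E + 1), PowerSeries.coeff d l *
            ι (PowerSeries.coeff E (α ^ d) - PowerSeries.coeff E (β ^ d)) := by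
        rw [coeff_subst_eq_sum _ _ hmapα, coeff_subst_eq_sum _ _ hmapβ, ← Finset.sum_sub_distrib]
        refine Finset.sum_congr rfl fun d _ => ?_
        rw [← map_pow, ← map_pow, PowerSeries.coeff_map, PowerSeries.coeff_map, map_sub, mul_sub]
      have hterm : ∀ d ∈ (Finset.range (E + 1)).erase 1, PowerSeries.coeff d l *
            ι (PowerSeries.coeff E (α ^ d) - PowerSeries.coeff E (β ^ d)) ∈ P := by
        intro d hd
        have hd1 : d ≠ 1 := (Finset.mem_erase.1 hd).1
        by_cases hdp : ∃ m, d = p ^ m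
        · obtain ⟨m, rfl⟩ := hdp
          have hm : m ≠ 0 := by
            rintro rfl
            exact hd1 (pow_zero p)
          obtain ⟨z, hz⟩ := pow_dvd_coeff_pow_sub p hα hβ hm (E := E) ih
          obtain ⟨E', hE'⟩ := pow_mul_ellAt_mem p n t ι m
          rw [hP]
          refine ⟨E' * z, ?_⟩
          rw [hz, coeff_logSeries_pow p n, map_mul, map_mul, map_mul, map_pow, hE', map_natCast]
          simp only [ellAt]
          ring
        · push Not at hdp
          rw [coeff_logSeries_of_ne p n _ d hdp, zero_mul]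
          exact zero_mem _
      have h1mem : 1 ∈ Finset.range (E + 1) := Finset.mem_range.2 (by omega)
      have hc1 : PowerSeries.coeff 1 l = 1 := by
        have := coeff_logSeries_pow p n (fun i => ι (t i)) 0
        rw [pow_zero] at this
        rw [hl, this, ellPoly_zero, map_one]
      rw [← Finset.add_sum_erase _ _ h1mem, hc1, one_mul, pow_one, pow_one] at hsum
      have hmem : ι (PowerSeries.coeff E α - PowerSeries.coeff E β) ∈ P := by
        have h2 : ι (PowerSeries.coeff E α - PowerSeries.coeff E β) =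
            (PowerSeries.coeff E (l.subst (PowerSeries.map ι α)) -
              PowerSeries.coeff E (l.subst (PowerSeries.map ι β))) -
            ∑ d ∈ (Finset.range (E + 1)).erase 1, PowerSeries.coeff d l *
              ι (PowerSeries.coeff E (α ^ d) - PowerSeries.coeff E (β ^ d)) := by
          rw [hsum]
          ring
        rw [h2]
        refine sub_mem ?_ (sum_mem hterm)
        obtain ⟨x, hx⟩ := h E
        rw [hP]
        exact ⟨x, hx.symm⟩
      obtain ⟨x, hx⟩ := (hP _).1 hmem
      exact ⟨x, (hι hx).symm⟩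

/-- `[p]_F ≡ Σ^F_{i=1}^n c_i X ^ p^i` modulo `p`. -/
theorem pSeries_congr (hι : Function.Injective ι) (F : FormalGroup A)
    (hF : IsFGHom (F.map ι) FormalGroup.𝔾ₐ (logSeries p n fun i => ι (t i))) (e : ℕ) :
    (p : A) ∣ PowerSeries.coeff e (mulSeries F p) - PowerSeries.coeff e (fgSum F
      (fun i => PowerSeries.C (cA n t (i + 1)) * PowerSeries.X ^ (p ^ (i + 1))) n) := by
  have hp : p.Prime := Fact.out
  have hk : ∀ i : ℕ, p ^ (i + 1) ≠ 0 := fun i => pow_ne_zero _ hp.ne_zero
  have hcc : ∀ i, PowerSeries.constantCoeff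
      (PowerSeries.C (cA n t (i + 1)) * PowerSeries.X ^ (p ^ (i + 1)) : PowerSeries A) = 0 := fun i => by
    simp [zero_pow (hk i)]
  refine coeff_dvd_of_log p n t ι hι (constantCoeff_mulSeries F p) (constantCoeff_fgSum F hcc n) ?_ e
  intro e
  rw [map_mulSeries, log_mulSeries hF, map_fgSum F hcc, log_fgSum hF]
  · rw [logSeries_recursion p n (fun i => ι (t i))]
    have hterm : ∀ i, PowerSeries.map ι (PowerSeries.C (cA n t (i + 1)) * PowerSeries.X ^ (p ^ (i + 1))) =
        PowerSeries.C (MvPolynomial.aeval (fun j => ι (t j)) (ccPoly n (i + 1))) *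
          PowerSeries.X ^ (p ^ (i + 1)) := fun i => by
      rw [aeval_ccPoly_cA]
      simp
    simp_rw [hterm]
    rw [map_add, add_sub_cancel_right, PowerSeries.coeff_C_mul, PowerSeries.coeff_X]
    refine ⟨if e = 1 then 1 else 0, ?_⟩
    split_ifs <;> simp
  · intro i
    rw [← PowerSeries.coeff_zero_eq_constantCoeff_apply, PowerSeries.coeff_map,
      PowerSeries.coeff_zero_eq_constantCoeff_apply, hcc, map_zero]

/-- The `p`-series over a ring where `p = 0`. -/
theorem pSeries_map (hι : Function.Injective ι) (F : FormalGroup A)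
    (hF : IsFGHom (F.map ι) FormalGroup.𝔾ₐ (logSeries p n fun i => ι (t i)))
    {R : Type*} [CommRing R] (π : A →+* R) (hπ : π (p : A) = 0) :
    mulSeries (F.map π) p = fgSum (F.map π)
      (fun i => PowerSeries.C (π (cA n t (i + 1))) * PowerSeries.X ^ (p ^ (i + 1))) n := by
  have hp : p.Prime := Fact.out
  have hk : ∀ i : ℕ, p ^ (i + 1) ≠ 0 := fun i => pow_ne_zero _ hp.ne_zero
  have hcc : ∀ i, PowerSeries.constantCoeff
      (PowerSeries.C (cA n t (i + 1)) * PowerSeries.X ^ (p ^ (i + 1)) : PowerSeries A) = 0 := fun i => by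
    simp [zero_pow (hk i)]
  have hterm : ∀ i, PowerSeries.map π (PowerSeries.C (cA n t (i + 1)) * PowerSeries.X ^ (p ^ (i + 1))) =
      PowerSeries.C (π (cA n t (i + 1))) * PowerSeries.X ^ (p ^ (i + 1)) := fun i => by
    simp
  simp_rw [← hterm]
  rw [← map_mulSeries, ← map_fgSum F hcc]
  ext e
  rw [PowerSeries.coeff_map, PowerSeries.coeff_map]
  obtain ⟨w, hw⟩ := pSeries_congr p n t ι hι F hF e
  rw [← sub_eq_zero, ← map_sub, hw, map_mul, hπ, zero_mul]

end Congruence

/-! ### The Lubin–Tate ring -/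

section LT

variable (p : ℕ) [Fact p.Prime] (n : ℕ)

/-- The property of `exists_hazF`. -/
def IsHazLaw (F : FormalGroup (AA p n)) : Prop :=
  ∀ (C : Type) [CommRing C] [Algebra ℚ C] (ev : AA p n →+* C),
    IsFGHom (F.map ev) FormalGroup.𝔾ₐ (logSeries p n fun i => ev (tt p n i))

instance witt_charZero : CharZero (WW p n) := by
  have hp : p.Prime := Fact.out
  obtain ⟨r, hr⟩ := CharP.exists (WW p n)
  rcases CharP.char_is_prime_or_zero (WW p n) r with h | rfl
  · have h1 : ((r : ℕ) : WW p n) = 0 := CharP.cast_eq_zero _ r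
    have h2 : ((r : ℕ) : kk p n) = 0 := by
      have := congrArg (WittVector.constantCoeff (p := p) (R := kk p n)) h1
      rwa [map_natCast, map_zero] at this
    have h3 : p ∣ r := (CharP.cast_eq_zero_iff (kk p n) p r).1 h2
    have h4 : p = r := (Nat.prime_dvd_prime_iff_eq hp h).1 h3
    subst h4
    exact absurd h1 (WittVector.p_nonzero p _)
  · exact CharP.charP_to_charZero _

instance lt_charZero : CharZero (AA p n) :=
  charZero_of_injective_ringHom (f := MvPowerSeries.C (R := WW p n) (σ := Fin (n - 1)))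
    MvPowerSeries.C_injective

instance lt_isDomain : IsDomain (AA p n) := by
  have : Nontrivial (AA p n) := inferInstance
  have : NoZeroDivisors (AA p n) := inferInstance
  exact NoZeroDivisors.to_isDomain _

instance frac_charZero : CharZero (FractionRing (AA p n)) :=
  charZero_of_injective_algebraMap (IsFractionRing.injective (AA p n) (FractionRing (AA p n)))

instance fracW_charZero : CharZero (FractionRing (WW p n)) :=
  charZero_of_injective_algebraMap (IsFractionRing.injective (WW p n) (FractionRing (WW p n)))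

variable {p n}
variable {F : FormalGroup (AA p n)}

theorem IsHazLaw.pSeries_map (hF : IsHazLaw p n F) {R : Type*} [CommRing R] (π : AA p n →+* R)
    (hπ : π (p : AA p n) = 0) :
    mulSeries (F.map π) p = fgSum (F.map π)
      (fun i => PowerSeries.C (π (cA n (tt p n) (i + 1))) * PowerSeries.X ^ (p ^ (i + 1))) n :=
  Crest.Agent.LT.pSeries_map p n (tt p n) (algebraMap _ (FractionRing (AA p n)))
    (IsFractionRing.injective _ _) F (hF _ _) π hπ

lemma cA_of_lt {A : Type*} [CommRing A] (t : Fin (n - 1) → A) {i : ℕ} (h1 : 1 ≤ i) (h2 : i < n) :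
    cA n t i = t ⟨i - 1, by omega⟩ := dif_pos ⟨h1, h2⟩

lemma cA_self {A : Type*} [CommRing A] (t : Fin (n - 1) → A) : cA n t n = 1 := by
  unfold cA
  rw [dif_neg (by omega), if_pos rfl]

lemma cc_term {R : Type*} [CommRing R] (c : R) (k : ℕ) (hk : k ≠ 0) :
    PowerSeries.constantCoeff (PowerSeries.C c * PowerSeries.X ^ k : PowerSeries R) = 0 := by
  simp [zero_pow hk]

/-- When `p` and the `t_i` die: `[p] = X ^ q`. -/
theorem IsHazLaw.mulSeries_eq_X_pow (hF : IsHazLaw p n F) (hn : n ≠ 0) {R : Type*} [CommRing R]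
    (π : AA p n →+* R) (hπ : π (p : AA p n) = 0) (ht : ∀ i, π (tt p n i) = 0) :
    mulSeries (F.map π) p = PowerSeries.X ^ (p ^ n) := by
  have hp : p.Prime := Fact.out
  rw [hF.pSeries_map π hπ, fgSum_eq_single (F.map π) (fun i => cc_term _ _ (pow_ne_zero _ hp.ne_zero))
    (i₀ := n - 1) (by omega)]
  · rw [Nat.sub_add_cancel (by omega), cA_self, map_one, map_one, one_mul]
  · intro i hi hne
    rw [cA_of_lt _ (by omega) (by omega), ht, map_zero, zero_mul]

lemma p_mem_II {h : ℕ} (h1 : h ≠ 0) : (p : AA p n) ∈ II p n h := by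
  unfold II
  rw [if_neg h1]
  exact Ideal.subset_span (Or.inl rfl)

lemma tt_mem_II {h : ℕ} (h1 : h ≠ 0) (i : Fin (n - 1)) (hi : i.val + 1 < h) : tt p n i ∈ II p n h := by
  unfold II
  rw [if_neg h1]
  exact Ideal.subset_span (Or.inr ⟨i, hi, rfl⟩)

lemma tt_mem_TT {h : ℕ} (i : Fin (n - 1)) (hi : h ≤ i.val + 1) : tt p n i ∈ TT p n h :=
  Ideal.subset_span ⟨i, hi, rfl⟩

/-- Modulo `I_h`, the `p`-series only involves exponents divisible by `p ^ h`. -/
theorem IsHazLaw.coeff_pSeries_mem (hF : IsHazLaw p n F) (h m : ℕ) (hh : h ≤ n) (hm : ¬ p ^ h ∣ m) :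
    PowerSeries.coeff m (mulSeries F p) ∈ II p n h := by
  have hp : p.Prime := Fact.out
  have h0 : h ≠ 0 := by
    rintro rfl
    exact hm (by simp)
  let π := Ideal.Quotient.mk (II p n h)
  have hπ : π (p : AA p n) = 0 := Ideal.Quotient.eq_zero_iff_mem.2 (p_mem_II h0)
  have hkey := hF.pSeries_map π hπ
  have hsupp : SuppDvd (p ^ h) (mulSeries (F.map π) p) := by
    rw [hkey]
    refine SuppDvd.fgSum _ (fun i => cc_term _ _ (pow_ne_zero _ hp.ne_zero)) (fun i => ?_) n
    by_cases hi : i + 1 < h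
    · have : π (cA n (tt p n) (i + 1)) = 0 := by
        rw [cA_of_lt _ (by omega) (by omega)]
        exact Ideal.Quotient.eq_zero_iff_mem.2 (tt_mem_II h0 _ (by simpa using hi))
      intro m _
      simp [this]
    · intro m hm'
      rw [PowerSeries.coeff_C_mul_X_pow, if_neg]
      rintro rfl
      exact hm' (pow_dvd_pow _ (by omega))
  have := hsupp m hm
  rw [← map_mulSeries, PowerSeries.coeff_map] at this
  exact Ideal.Quotient.eq_zero_iff_mem.1 this

/-- The ideal `I_h + T_h` contains everything. -/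
lemma tt_mem_sup {h : ℕ} (h1 : h ≠ 0) (i : Fin (n - 1)) : tt p n i ∈ II p n h ⊔ TT p n h := by
  by_cases hi : i.val + 1 < h
  · exact Ideal.mem_sup_left (tt_mem_II h1 i hi)
  · exact Ideal.mem_sup_right (tt_mem_TT i (by omega))

theorem IsHazLaw.coeff_mem (hF : IsHazLaw p n F) (h l : ℕ) (h1 : 1 ≤ h) (hh : h < n)
    (hl : l ≠ p ^ (n - h)) : PowerSeries.coeff (l * p ^ h) (mulSeries F p) ∈ II p n h ⊔ TT p n h := by
  have hp : p.Prime := Fact.out
  let π := Ideal.Quotient.mk (II p n h ⊔ TT p n h)
  have hπ : π (p : AA p n) = 0 :=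
    Ideal.Quotient.eq_zero_iff_mem.2 (Ideal.mem_sup_left (p_mem_II (by omega)))
  have hkey := hF.mulSeries_eq_X_pow (by omega) π hπ
    (fun i => Ideal.Quotient.eq_zero_iff_mem.2 (tt_mem_sup (by omega) i))
  have := congrArg (PowerSeries.coeff (l * p ^ h)) hkey
  rw [← map_mulSeries, PowerSeries.coeff_map, PowerSeries.coeff_X_pow, if_neg] at this
  · exact Ideal.Quotient.eq_zero_iff_mem.1 this
  · intro heq
    apply hl
    have h2 : p ^ n = p ^ (n - h) * p ^ h := by
      rw [← pow_add]
      congr 1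
      omega
    rw [h2] at heq
    exact Nat.eq_of_mul_eq_mul_right (pow_pos hp.pos h) heq

theorem IsHazLaw.coeff_top_sub_one_mem (hF : IsHazLaw p n F) (h : ℕ) (h1 : 1 ≤ h) (hh : h < n) :
    PowerSeries.coeff (p ^ (n - h) * p ^ h) (mulSeries F p) - 1 ∈ II p n h ⊔ TT p n h := by
  let π := Ideal.Quotient.mk (II p n h ⊔ TT p n h)
  have hπ : π (p : AA p n) = 0 :=
    Ideal.Quotient.eq_zero_iff_mem.2 (Ideal.mem_sup_left (p_mem_II (by omega)))
  have hkey := hF.mulSeries_eq_X_pow (by omega) π hπ
    (fun i => Ideal.Quotient.eq_zero_iff_mem.2 (tt_mem_sup (by omega) i))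
  have h2 : p ^ (n - h) * p ^ h = p ^ n := by
    rw [← pow_add]
    congr 1
    omega
  have := congrArg (PowerSeries.coeff (p ^ (n - h) * p ^ h)) hkey
  rw [← map_mulSeries, PowerSeries.coeff_map, PowerSeries.coeff_X_pow, if_pos h2] at this
  refine Ideal.Quotient.eq_zero_iff_mem.1 ?_
  rw [map_sub, this, map_one, sub_self]

/-- Low coefficients of the `p`-series when the products of the parameters die. -/
theorem IsHazLaw.coeff_low (hF : IsHazLaw p n F) (hn : n ≠ 0) {R : Type*} [CommRing R]
    (π : AA p n →+* R) (hπ : π (p : AA p n) = 0)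
    (ht : ∀ i j, π (tt p n i) * π (tt p n j) = 0) {m : ℕ} (hm : m < p ^ n) :
    PowerSeries.coeff m (mulSeries (F.map π) p) = ∑ i ∈ Finset.range (n - 1),
      if m = p ^ (i + 1) then π (cA n (tt p n) (i + 1)) else 0 := by
  have hp : p.Prime := Fact.out
  have hcc : ∀ i, PowerSeries.constantCoeff
      (PowerSeries.C (π (cA n (tt p n) (i + 1))) * PowerSeries.X ^ (p ^ (i + 1)) : PowerSeries R) = 0 :=
    fun i => cc_term _ _ (pow_ne_zero _ hp.ne_zero)
  have hn1 : n - 1 + 1 = n := by omega
  rw [hF.pSeries_map π hπ]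
  have hS : ∀ f : ℕ → PowerSeries R, fgSum (F.map π) f n = fgSum (F.map π) f (n - 1 + 1) :=
    fun f => by rw [hn1]
  rw [hS, coeff_fgSum_succ_of_low _ hcc (M := p ^ n) hm (n - 1), fgSum_of_sq_zero _ hcc, map_sum]
  · refine Finset.sum_congr rfl fun i _ => ?_
    rw [PowerSeries.coeff_C_mul_X_pow]
  · intro i j hi hj
    rw [cA_of_lt _ (by omega) (by omega), cA_of_lt _ (by omega) (by omega)]
    have : PowerSeries.C (π (tt p n ⟨i + 1 - 1, by omega⟩)) * PowerSeries.X ^ (p ^ (i + 1)) *
        (PowerSeries.C (π (tt p n ⟨j + 1 - 1, by omega⟩)) * PowerSeries.X ^ (p ^ (j + 1))) =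
        PowerSeries.C (π (tt p n ⟨i + 1 - 1, by omega⟩) * π (tt p n ⟨j + 1 - 1, by omega⟩)) *
          (PowerSeries.X ^ (p ^ (i + 1)) * PowerSeries.X ^ (p ^ (j + 1))) := by
      rw [map_mul]
      ring
    rw [this, ht, map_zero, zero_mul]
  · exact Dvd.dvd.mul_left (by rw [hn1]) _

lemma tt_mul_tt_mem {h : ℕ} (h1 : h ≠ 0) (i j : Fin (n - 1)) :
    tt p n i * tt p n j ∈ II p n h ⊔ TT p n h ^ 2 := by
  by_cases hi : i.val + 1 < h
  · exact Ideal.mem_sup_left (Ideal.mul_mem_right _ _ (tt_mem_II h1 i hi))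
  · by_cases hj : j.val + 1 < h
    · exact Ideal.mem_sup_left (Ideal.mul_mem_left _ _ (tt_mem_II h1 j hj))
    · refine Ideal.mem_sup_right ?_
      rw [pow_two]
      exact Ideal.mul_mem_mul (tt_mem_TT i (by omega)) (tt_mem_TT j (by omega))

/-- `w_{p^j} - t_{h+j} ∈ I_h + T_h ^ 2` for `j < N`. -/
theorem IsHazLaw.coeff_pow_sub_mem (hF : IsHazLaw p n F) (h j : ℕ) (h1 : 1 ≤ h) (hh : h < n)
    (hj : j < n - h) :
    PowerSeries.coeff (p ^ j * p ^ h) (mulSeries F p) - vv p n (h + j) ∈ II p n h ⊔ TT p n h ^ 2 := by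
  have hp : p.Prime := Fact.out
  let π := Ideal.Quotient.mk (II p n h ⊔ TT p n h ^ 2)
  have hπ : π (p : AA p n) = 0 :=
    Ideal.Quotient.eq_zero_iff_mem.2 (Ideal.mem_sup_left (p_mem_II (by omega)))
  have ht : ∀ i j, π (tt p n i) * π (tt p n j) = 0 := fun i j => by
    rw [← map_mul]
    exact Ideal.Quotient.eq_zero_iff_mem.2 (tt_mul_tt_mem (by omega) i j)
  have hval : p ^ j * p ^ h = p ^ (h + j) := by
    rw [← pow_add, add_comm]
  have hm : p ^ j * p ^ h < p ^ n := by
    rw [hval]
    exact Nat.pow_lt_pow_right hp.one_lt (by omega)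
  have hkey := hF.coeff_low (by omega) π hπ ht hm
  rw [← map_mulSeries, PowerSeries.coeff_map] at hkey
  refine Ideal.Quotient.eq_zero_iff_mem.1 ?_
  rw [map_sub, hkey, sub_eq_zero, Finset.sum_eq_single (h + j - 1)]
  · rw [if_pos (by rw [hval]; congr 1; omega), Nat.sub_add_cancel (by omega), cA_of_lt _ (by omega) (by omega)]
    unfold vv
    rw [if_neg (by omega), dif_pos (by omega)]
  · intro i _ hne
    rw [if_neg]
    rw [hval]
    intro heq
    have := Nat.pow_right_injective hp.two_le heq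
    omega
  · intro hnot
    exact absurd (Finset.mem_range.2 (by omega)) hnot

/-- `w_l ∈ I_h + T_h ^ 2` for `l < p ^ N` which is not a power of `p`. -/
theorem IsHazLaw.coeff_mem_sq (hF : IsHazLaw p n F) (h l : ℕ) (h1 : 1 ≤ h) (hh : h < n)
    (hl : l < p ^ (n - h)) (hl' : ∀ j, l ≠ p ^ j) :
    PowerSeries.coeff (l * p ^ h) (mulSeries F p) ∈ II p n h ⊔ TT p n h ^ 2 := by
  have hp : p.Prime := Fact.out
  let π := Ideal.Quotient.mk (II p n h ⊔ TT p n h ^ 2)
  have hπ : π (p : AA p n) = 0 :=
    Ideal.Quotient.eq_zero_iff_mem.2 (Ideal.mem_sup_left (p_mem_II (by omega)))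
  have ht : ∀ i j, π (tt p n i) * π (tt p n j) = 0 := fun i j => by
    rw [← map_mul]
    exact Ideal.Quotient.eq_zero_iff_mem.2 (tt_mul_tt_mem (by omega) i j)
  have hm : l * p ^ h < p ^ n := by
    have h2 : p ^ n = p ^ (n - h) * p ^ h := by
      rw [← pow_add]
      congr 1
      omega
    rw [h2]
    exact Nat.mul_lt_mul_of_pos_right hl (pow_pos hp.pos h)
  have hkey := hF.coeff_low (by omega) π hπ ht hm
  rw [← map_mulSeries, PowerSeries.coeff_map] at hkey
  refine Ideal.Quotient.eq_zero_iff_mem.1 ?_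
  rw [hkey]
  refine Finset.sum_eq_zero fun i _ => ?_
  rw [if_neg]
  intro heq
  have hdvd : l ∣ p ^ (i + 1) := Dvd.intro _ heq
  obtain ⟨a, _, rfl⟩ := (Nat.dvd_prime_pow hp).1 hdvd
  exact hl' a rfl

/-- The coefficient of `X ^ (p ^ h)` modulo `I_h`. -/
theorem IsHazLaw.coeff_pow_sub_tt_mem (hF : IsHazLaw p n F) (h : ℕ) (h1 : 1 ≤ h) (hh : h < n) :
    PowerSeries.coeff (p ^ h) (mulSeries F p) - tt p n ⟨h - 1, by omega⟩ ∈ II p n h := by
  have hp : p.Prime := Fact.out
  have h0 : h ≠ 0 := by omega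
  let π := Ideal.Quotient.mk (II p n h)
  have hπ : π (p : AA p n) = 0 := Ideal.Quotient.eq_zero_iff_mem.2 (p_mem_II h0)
  have hcc : ∀ i, PowerSeries.constantCoeff
      (PowerSeries.C (π (cA n (tt p n) (i + 1))) * PowerSeries.X ^ (p ^ (i + 1)) :
        PowerSeries (AA p n ⧸ II p n h)) = 0 :=
    fun i => cc_term _ _ (pow_ne_zero _ hp.ne_zero)
  have hM : ∀ i, (PowerSeries.X : PowerSeries (AA p n ⧸ II p n h)) ^ (p ^ h) ∣
      (PowerSeries.C (π (cA n (tt p n) (i + 1))) * PowerSeries.X ^ (p ^ (i + 1))) := by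
    intro i
    by_cases hi : i + 1 < h
    · have : π (cA n (tt p n) (i + 1)) = 0 := by
        rw [cA_of_lt _ (by omega) (by omega)]
        exact Ideal.Quotient.eq_zero_iff_mem.2 (tt_mem_II h0 _ (by simpa using hi))
      rw [this, map_zero, zero_mul]
      exact dvd_zero _
    · exact Dvd.dvd.mul_left (pow_dvd_pow _ (Nat.pow_le_pow_right hp.pos (by omega))) _
  have hlt : p ^ h < 2 * p ^ h := by
    have := pow_pos hp.pos h
    omega
  have hkey := (coeff_fgSum_of_X_pow_dvd (F.map π) hcc hlt hM n).2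
  rw [← hF.pSeries_map π hπ, ← map_mulSeries, PowerSeries.coeff_map] at hkey
  refine Ideal.Quotient.eq_zero_iff_mem.1 ?_
  rw [map_sub, hkey, sub_eq_zero, Finset.sum_eq_single (h - 1)]
  · rw [Nat.sub_add_cancel (by omega), PowerSeries.coeff_C_mul_X_pow, if_pos rfl,
      cA_of_lt _ (by omega) (by omega)]
  · intro i _ hne
    rw [PowerSeries.coeff_C_mul_X_pow, if_neg]
    intro heq
    have := Nat.pow_right_injective hp.two_le heq
    omega
  · intro hnot
    exact absurd (Finset.mem_range.2 (by omega)) hnot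

lemma II_zero_hm : II p n 0 = ⊥ := by
  unfold II
  rw [if_pos rfl]

lemma II_one_hm : II p n 1 = Ideal.span {(p : AA p n)} := by
  unfold II
  rw [if_neg one_ne_zero]
  congr 1
  ext x
  simp

lemma II_succ_hm (h : ℕ) (h1 : 1 ≤ h) (hh : h < n) :
    II p n (h + 1) = II p n h ⊔ Ideal.span {tt p n ⟨h - 1, by omega⟩} := by
  apply le_antisymm
  · unfold II
    rw [if_neg (by omega), if_neg (by omega), ← Ideal.span_union, Ideal.span_le]
    rintro x (rfl | ⟨i, hi, rfl⟩)
    · exact Ideal.subset_span (Or.inl (Or.inl rfl))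
    · by_cases hi' : i.val + 1 < h
      · exact Ideal.subset_span (Or.inl (Or.inr ⟨i, hi', rfl⟩))
      · have : i = ⟨h - 1, by omega⟩ := by
          ext
          simp only
          omega
        rw [this]
        exact Ideal.subset_span (Or.inr rfl)
  · refine sup_le ?_ ?_
    · unfold II
      rw [if_neg (by omega), if_neg (by omega), Ideal.span_le]
      rintro x (rfl | ⟨i, hi, rfl⟩)
      · exact Ideal.subset_span (Or.inl rfl)
      · exact Ideal.subset_span (Or.inr ⟨i, by omega, rfl⟩)
    · rw [Ideal.span_le]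
      rintro x rfl
      exact tt_mem_II (by omega) _ (by simp; omega)

/-- Blueprint A3.3. -/
theorem IsHazLaw.heightIdeal_eq (hF : IsHazLaw p n F) (h : ℕ) (hh : h ≤ n) :
    heightIdeal p n F h = II p n h := by
  induction h with
  | zero => rw [II_zero_hm]; rfl
  | succ h ih =>
    rw [heightIdeal, ih (by omega)]
    rcases Nat.eq_zero_or_pos h with rfl | h1
    · rw [II_zero_hm, II_one_hm, bot_sup_eq, pow_zero, coeff_one_mulSeries]
    · rw [II_succ_hm h h1 (by omega)]
      have hmem := hF.coeff_pow_sub_tt_mem h h1 (by omega)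
      apply le_antisymm
      · refine sup_le le_sup_left ?_
        rw [Ideal.span_le]
        rintro x rfl
        have h3 : PowerSeries.coeff (p ^ h) (mulSeries F p) =
            (PowerSeries.coeff (p ^ h) (mulSeries F p) - tt p n ⟨h - 1, by omega⟩) +
              tt p n ⟨h - 1, by omega⟩ := by ring
        show PowerSeries.coeff (p ^ h) (mulSeries F p) ∈ _
        rw [h3]
        exact add_mem (Ideal.mem_sup_left hmem) (Ideal.mem_sup_right (Ideal.mem_span_singleton_self _))
      · refine sup_le le_sup_left ?_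
        rw [Ideal.span_le]
        rintro x rfl
        have h3 : tt p n ⟨h - 1, by omega⟩ = PowerSeries.coeff (p ^ h) (mulSeries F p) -
            (PowerSeries.coeff (p ^ h) (mulSeries F p) - tt p n ⟨h - 1, by omega⟩) := by ring
        show tt p n ⟨h - 1, by omega⟩ ∈ _
        rw [h3]
        exact sub_mem (Ideal.mem_sup_right (Ideal.mem_span_singleton_self _)) (Ideal.mem_sup_left hmem)

/-! ### The law over the residue field -/

section Gamma

variable {C : Type} [CommRing C] [Algebra ℚ C]

/-- `p` is invertible in a `ℚ`-algebra. -/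
lemma eq_zero_of_natCast_mul (hp : p.Prime) {x : C} (h : (p : C) * x = 0) : x = 0 := by
  have hp0 : ((p : ℚ)) ≠ 0 := by exact_mod_cast hp.ne_zero
  have h1 : algebraMap ℚ C (p : ℚ)⁻¹ * (p : C) = 1 := by
    rw [← map_natCast (algebraMap ℚ C) p, ← map_mul, inv_mul_cancel₀ hp0, map_one]
  calc x = (algebraMap ℚ C (p : ℚ)⁻¹ * (p : C)) * x := by rw [h1, one_mul]
    _ = 0 := by rw [mul_assoc, h, mul_zero]

omit [Algebra ℚ C] in
lemma ccPoly_eq_zero_of_ne [Algebra ℚ C] {i : ℕ} (hi : i ≠ n) :
    MvPolynomial.aeval (0 : Fin (n - 1) → C) (ccPoly n i) = 0 := by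
  unfold ccPoly
  split_ifs <;> simp

/-- At the origin, `ℓ_m = 0` unless `n ∣ m`. -/
lemma ellAt_zero_eq_zero (m : ℕ) (hm : ¬ n ∣ m) : ellAt p n (0 : Fin (n - 1) → C) m = 0 := by
  have hp : p.Prime := Fact.out
  induction m using Nat.strong_induction_on with
  | _ m ih =>
    rcases m with _ | m
    · exact absurd (dvd_zero n) hm
    · apply eq_zero_of_natCast_mul hp
      rw [ellAt_succ]
      refine Finset.sum_eq_zero fun i hi => ?_
      have hi' := Finset.mem_range.1 hi
      by_cases hin : i + 1 = n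
      · have hnd : ¬ n ∣ m - i := by
          intro hd
          apply hm
          have : m + 1 = (m - i) + n := by omega
          rw [this]
          exact dvd_add hd dvd_rfl
        rw [ih (m - i) (by omega) hnd, zero_mul]
      · rw [ccPoly_eq_zero_of_ne hin, zero_pow (pow_ne_zero _ hp.ne_zero), mul_zero]

/-- The logarithm at the origin. -/
abbrev l0 (C : Type) [CommRing C] [Algebra ℚ C] : PowerSeries C := logSeries p n (0 : Fin (n - 1) → C)

lemma coeff_l0_eq_zero {d : ℕ} (hd : ∀ m, n ∣ m → d ≠ p ^ m) :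
    PowerSeries.coeff d (l0 (p := p) (n := n) C) = 0 := by
  by_cases h : ∃ m, d = p ^ m
  · obtain ⟨m, rfl⟩ := h
    have hm : ¬ n ∣ m := fun hm => hd m hm rfl
    rw [coeff_logSeries_pow]
    exact ellAt_zero_eq_zero m hm
  · push Not at h
    exact coeff_logSeries_of_ne p n _ d h

lemma coeff_one_l0 : PowerSeries.coeff 1 (l0 (p := p) (n := n) C) = 1 := by
  have := coeff_logSeries_pow p n (0 : Fin (n - 1) → C) 0
  rw [pow_zero] at this
  rw [this, ellPoly_zero, map_one]

lemma cc_l0 : PowerSeries.constantCoeff (l0 (p := p) (n := n) C) = 0 := by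
  have hp : p.Prime := Fact.out
  rw [← PowerSeries.coeff_zero_eq_constantCoeff_apply]
  refine coeff_logSeries_of_ne p n _ 0 fun m hm => ?_
  exact (pow_ne_zero m hp.ne_zero) hm.symm

/-- A logarithm with unit linear coefficient is injective on series without constant term. -/
lemma eq_of_log_subst_eq {σ : Type*} {l : PowerSeries C} (h0 : PowerSeries.constantCoeff l = 0)
    (hu : IsUnit (PowerSeries.coeff 1 l)) {U V : MvPowerSeries σ C}
    (hU : MvPowerSeries.constantCoeff U = 0) (hV : MvPowerSeries.constantCoeff V = 0)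
    (h : l.subst U = l.subst V) : U = V := by
  have h1 := congrArg (compInv l hu).subst h
  rwa [compInv_subst_subst h0 hu (hasSubst_of_cc hU), compInv_subst_subst h0 hu (hasSubst_of_cc hV)] at h1

/-- `ev` killing the `t_i` makes `l0` a logarithm. -/
theorem IsHazLaw.hom0 (hF : IsHazLaw p n F) (ev : AA p n →+* C) (hev : ∀ i, ev (tt p n i) = 0) :
    IsFGHom (F.map ev) FormalGroup.𝔾ₐ (l0 (p := p) (n := n) C) := by
  have h := hF C ev
  have h' : (fun i => ev (tt p n i)) = (0 : Fin (n - 1) → C) := by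
    ext i
    exact hev i
  rwa [h'] at h

lemma log_law {G : FormalGroup C} {l : PowerSeries C} (hl : IsFGHom G FormalGroup.𝔾ₐ l) :
    l.subst G.toPowerSeries = l.subst (MvPowerSeries.X 0 : MvPowerSeries (Fin 2) C) +
      l.subst (MvPowerSeries.X 1 : MvPowerSeries (Fin 2) C) := by
  have := log_fgAdd hl (x := (MvPowerSeries.X 0 : MvPowerSeries (Fin 2) C))
    (y := (MvPowerSeries.X 1 : MvPowerSeries (Fin 2) C)) (by simp) (by simp)
  rwa [fgAdd_X_X] at this

/-- Two laws with the same logarithm coincide. -/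
lemma law_eq_of_log {G G' : FormalGroup C} {l : PowerSeries C} (hl : IsFGHom G FormalGroup.𝔾ₐ l)
    (hl' : IsFGHom G' FormalGroup.𝔾ₐ l) (hu : IsUnit (PowerSeries.coeff 1 l)) :
    G.toPowerSeries = G'.toPowerSeries :=
  eq_of_log_subst_eq hl.1 hu G.zero_constantCoeff G'.zero_constantCoeff
    ((log_law hl).trans (log_law hl').symm)

end Gamma

/-- The residue map in terms of Witt vectors. -/
lemma residue_eq (x : AA p n) :
    LTRing.residue p n x = WittVector.constantCoeff (MvPowerSeries.constantCoeff x) := rfl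

/-- The map `A → Frac W`, `t_i ↦ 0`. -/
def ev0 : AA p n →+* FractionRing (WW p n) :=
  (algebraMap (WW p n) (FractionRing (WW p n))).comp MvPowerSeries.constantCoeff

lemma ev0_tt (i : Fin (n - 1)) : ev0 (p := p) (n := n) (tt p n i) = 0 := by
  simp [ev0, tt]

lemma ev0_inj {x y : WW p n} (h : algebraMap (WW p n) (FractionRing (WW p n)) x =
    algebraMap (WW p n) (FractionRing (WW p n)) y) : x = y :=
  IsFractionRing.injective _ _ h

/-- The coefficients of `F` modulo the `t_i`. -/
def wCoeff (F : FormalGroup (AA p n)) (e : Fin 2 →₀ ℕ) : WW p n :=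
  MvPowerSeries.constantCoeff (MvPowerSeries.coeff e F.toPowerSeries)

lemma coeff_map_ev0 (F : FormalGroup (AA p n)) (e : Fin 2 →₀ ℕ) :
    MvPowerSeries.coeff e (F.map (ev0 (p := p) (n := n))).toPowerSeries =
      algebraMap (WW p n) (FractionRing (WW p n)) (wCoeff F e) := by
  simp [FormalGroup.map, ev0, wCoeff]

lemma coeff_map_residue (F : FormalGroup (AA p n)) (e : Fin 2 →₀ ℕ) :
    MvPowerSeries.coeff e (F.map (LTRing.residue p n)).toPowerSeries =
      WittVector.constantCoeff (wCoeff F e) := by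
  simp [FormalGroup.map, wCoeff, residue_eq]

/-- (G5) -/
theorem IsHazLaw.mulSeries_residue (hF : IsHazLaw p n F) (hn : n ≠ 0) :
    mulSeries (F.map (LTRing.residue p n)) p = PowerSeries.X ^ (p ^ n) := by
  refine hF.mulSeries_eq_X_pow hn _ ?_ ?_
  · rw [map_natCast]
    exact CharP.cast_eq_zero (kk p n) p
  · intro i
    simp [residue_eq, tt]

/-- (G4) -/
theorem IsHazLaw.coeff_residue_low (hF : IsHazLaw p n F) (e : Fin 2 →₀ ℕ) (h2 : 2 ≤ e 0 + e 1)
    (hq : e 0 + e 1 < p ^ n) :
    MvPowerSeries.coeff e (F.map (LTRing.residue p n)).toPowerSeries = 0 := by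
  have hp : p.Prime := Fact.out
  have hom := hF.hom0 (ev0 (p := p) (n := n)) ev0_tt
  have hlog := log_law hom
  set G := F.map (ev0 (p := p) (n := n)) with hG
  set l := l0 (p := p) (n := n) (FractionRing (WW p n)) with hl
  have hdeg : e.degree = e 0 + e 1 := by
    simp [Finsupp.degree_eq_sum]
  have hzero : ∀ d, (∃ m, d = p ^ m) → d ≠ 1 → d ≤ e 0 + e 1 → PowerSeries.coeff d l = 0 := by
    rintro d ⟨m, rfl⟩ hd1 hdle
    refine coeff_l0_eq_zero fun m' hm' heq => ?_
    have hmm := Nat.pow_right_injective hp.two_le heq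
    subst hmm
    have hm0 : m ≠ 0 := by
      rintro rfl
      exact hd1 (pow_zero p)
    have hle : n ≤ m := Nat.le_of_dvd (Nat.pos_of_ne_zero hm0) hm'
    have : p ^ n ≤ p ^ m := Nat.pow_le_pow_right hp.pos hle
    omega
  have hzero' : ∀ d, d ≠ 1 → d ≤ e 0 + e 1 → PowerSeries.coeff d l = 0 := by
    intro d hd1 hle
    by_cases h : ∃ m, d = p ^ m
    · exact hzero d h hd1 hle
    · push Not at h
      exact coeff_logSeries_of_ne p n _ d h
  -- left side
  have hL : MvPowerSeries.coeff e (l.subst G.toPowerSeries) = MvPowerSeries.coeff e G.toPowerSeries := by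
    rw [PowerSeries.coeff_subst (hasSubst_of_cc G.zero_constantCoeff), finsum_eq_single _ 1]
    · rw [coeff_one_l0, one_smul, pow_one]
    · intro d hd
      by_cases hle : d ≤ e 0 + e 1
      · rw [hzero' d hd hle, zero_smul]
      · rw [MvPowerSeries.coeff_eq_zero_of_constantCoeff_nilpotent (m := 1), smul_zero]
        · rw [pow_one]
          exact G.zero_constantCoeff
        · rw [hdeg]
          omega
  -- right side
  have hR : ∀ s : Fin 2, MvPowerSeries.coeff e
      (l.subst (MvPowerSeries.X s : MvPowerSeries (Fin 2) (FractionRing (WW p n)))) = 0 := by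
    intro s
    rw [PowerSeries.coeff_subst_single]
    split_ifs with hs
    · have hes : e s = e 0 + e 1 := by
        rw [hs]
        fin_cases s <;> simp
      refine hzero' _ ?_ hes.le
      omega
    · rfl
  have h := congrArg (MvPowerSeries.coeff e) hlog
  rw [hL, map_add, hR, hR, add_zero, hG, coeff_map_ev0] at h
  have h3 : wCoeff F e = 0 := by
    apply ev0_inj
    rw [h, map_zero]
  rw [coeff_map_residue, h3, map_zero]

/-- (G2) -/
theorem IsHazLaw.coeff_residue_frob (hF : IsHazLaw p n F) (e : Fin 2 →₀ ℕ) :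
    (MvPowerSeries.coeff e (F.map (LTRing.residue p n)).toPowerSeries) ^ p =
      MvPowerSeries.coeff e (F.map (LTRing.residue p n)).toPowerSeries := by
  let ev1 : AA p n →+* FractionRing (WW p n) :=
    (algebraMap (WW p n) (FractionRing (WW p n))).comp
      ((WittVector.frobenius (p := p)).comp MvPowerSeries.constantCoeff)
  have hev1 : ∀ i, ev1 (tt p n i) = 0 := fun i => by
    simp [ev1, tt]
  have hom := hF.hom0 (ev0 (p := p) (n := n)) ev0_tt
  have hom1 := hF.hom0 ev1 hev1
  have heq := law_eq_of_log hom hom1 (by rw [coeff_one_l0]; exact isUnit_one)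
  have hcoef := congrArg (MvPowerSeries.coeff e) heq
  rw [coeff_map_ev0] at hcoef
  have h1 : MvPowerSeries.coeff e (F.map ev1).toPowerSeries =
      algebraMap (WW p n) (FractionRing (WW p n)) (WittVector.frobenius (wCoeff F e)) := by
    simp [FormalGroup.map, ev1, wCoeff]
  rw [h1] at hcoef
  have h2 := ev0_inj hcoef
  rw [coeff_map_residue]
  have h3 : WittVector.constantCoeff (WittVector.frobenius (wCoeff F e)) =
      (WittVector.constantCoeff (wCoeff F e)) ^ p := by
    exact WittVector.coeff_frobenius_charP p (wCoeff F e) 0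
  rw [← h3, ← h2]

section Scalar

variable {C : Type} [CommRing C] [Algebra ℚ C]

/-- If `u ^ q = u` then `l0 (u Z) = u l0 (Z)`. -/
lemma l0_smul {σ : Type*} (u : C) (hu : u ^ (p ^ n) = u) {Z : MvPowerSeries σ C}
    (hZ : MvPowerSeries.constantCoeff Z = 0) :
    (l0 (p := p) (n := n) C).subst (u • Z) = u • (l0 (p := p) (n := n) C).subst Z := by
  have hpow : ∀ k : ℕ, u ^ ((p ^ n) ^ k) = u := by
    intro k
    induction k with
    | zero => simp
    | succ k ih => rw [pow_succ, pow_mul, ih, hu]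
  have h1 : PowerSeries.rescale u (l0 (p := p) (n := n) C) = u • (l0 (p := p) (n := n) C) := by
    ext d
    rw [PowerSeries.coeff_rescale, map_smul, smul_eq_mul]
    by_cases hd : ∃ m, n ∣ m ∧ d = p ^ m
    · obtain ⟨m, ⟨k, rfl⟩, rfl⟩ := hd
      rw [pow_mul, hpow]
    · push Not at hd
      rw [coeff_l0_eq_zero hd, mul_zero, mul_zero]
  have hs := hasSubst_of_cc hZ
  have h2 : PowerSeries.subst Z (PowerSeries.rescale u (l0 (p := p) (n := n) C)) =
      (l0 (p := p) (n := n) C).subst (u • Z) := by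
    have hX : PowerSeries.HasSubst (u • PowerSeries.X : PowerSeries C) :=
      ps_hasSubst_of_cc (by simp)
    rw [PowerSeries.rescale_eq_subst, PowerSeries.subst_comp_subst_apply hX hs,
      PowerSeries.subst_smul hs, PowerSeries.subst_X hs]
  rw [← h2, h1, PowerSeries.subst_smul hs]

end Scalar

/-- (G3) -/
theorem IsHazLaw.coeff_residue_scalar (hF : IsHazLaw p n F) (hn : n ≠ 0) (a : kk p n)
    (e : Fin 2 →₀ ℕ) :
    a ^ (e 0 + e 1) * MvPowerSeries.coeff e (F.map (LTRing.residue p n)).toPowerSeries =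
      a * MvPowerSeries.coeff e (F.map (LTRing.residue p n)).toPowerSeries := by
  have hp : p.Prime := Fact.out
  have hom := hF.hom0 (ev0 (p := p) (n := n)) ev0_tt
  set G := F.map (ev0 (p := p) (n := n)) with hG
  set l := l0 (p := p) (n := n) (FractionRing (WW p n)) with hl
  have ha : a ^ (p ^ n) = a := by
    have : Fintype (kk p n) := Fintype.ofFinite _
    have hcard : Fintype.card (kk p n) = p ^ n := by
      rw [← Nat.card_eq_fintype_card]
      exact GaloisField.card p n hn
    rw [← hcard]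
    exact FiniteField.pow_card a
  let w : WW p n := WittVector.teichmuller p a
  let u : FractionRing (WW p n) := algebraMap (WW p n) (FractionRing (WW p n)) w
  have hu : u ^ (p ^ n) = u := by
    rw [← map_pow]
    congr 1
    rw [← map_pow, ha]
  have hX : ∀ s : Fin 2, MvPowerSeries.constantCoeff
      (u • (MvPowerSeries.X s : MvPowerSeries (Fin 2) (FractionRing (WW p n)))) = 0 := fun s => by
    simp
  have hGs : MvPowerSeries.constantCoeff (u • G.toPowerSeries) = 0 := by
    simp [G.zero_constantCoeff]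
  have hcc0 : MvPowerSeries.constantCoeff
      (fgAdd G (u • (MvPowerSeries.X 0 : MvPowerSeries (Fin 2) (FractionRing (WW p n))))
        (u • MvPowerSeries.X 1)) = 0 :=
    constantCoeff_fgAdd G (hX 0) (hX 1)
  have key : fgAdd G (u • (MvPowerSeries.X 0 : MvPowerSeries (Fin 2) (FractionRing (WW p n))))
      (u • MvPowerSeries.X 1) = u • G.toPowerSeries := by
    refine eq_of_log_subst_eq (l := l) cc_l0 (by rw [hl, coeff_one_l0]; exact isUnit_one) hcc0 hGs ?_
    rw [log_fgAdd hom (hX 0) (hX 1), l0_smul u hu (by simp), l0_smul u hu (by simp),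
      l0_smul u hu G.zero_constantCoeff, log_law hom, smul_add]
  have key2 : MvPowerSeries.rescale (fun _ : Fin 2 => u) G.toPowerSeries = u • G.toPowerSeries := by
    rw [← key, MvPowerSeries.rescale_eq_subst]
    congr 2
    ext1 s
    fin_cases s <;> rfl
  have hcoef := congrArg (MvPowerSeries.coeff e) key2
  rw [MvPowerSeries.coeff_rescale, map_smul, smul_eq_mul,
    Finsupp.prod_fintype _ _ (by simp), hG, coeff_map_ev0] at hcoef
  simp only [Fin.prod_univ_two] at hcoef
  rw [← pow_add] at hcoef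
  have h3 : w ^ (e 0 + e 1) * wCoeff F e = w * wCoeff F e := by
    apply ev0_inj
    rw [map_mul, map_mul, map_pow]
    exact hcoef
  have h4 := congrArg (WittVector.constantCoeff (p := p) (R := kk p n)) h3
  rw [map_mul, map_mul, map_pow] at h4
  have h5 : WittVector.constantCoeff w = a := WittVector.teichmuller_coeff_zero p a
  rw [h5] at h4
  rw [coeff_map_residue]
  exact h4

end LT

end

end Crest.Agent.LT
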