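/-
S0351 (row 227).  The Hazewinkel law `hazF` and its reduction `Gamma0`: statement of the API used by
all other modules (Blueprint sections A3, A3.3, A3.4, A3.5).
Owners: module A3a-HazInt fills `exists_hazF`; module A3b-HazModP fills the rest.
(Proofs may live in other files imported here, as long as the names below stay.)
-/
import Crest.Agent.Lib.LubinTate.Defs
import Crest.Agent.Lib.LubinTate.HazInt
import Crest.Agent.Lib.LubinTate.HazModP

set_option autoImplicit false
set_option linter.unusedSectionVars false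

namespace Crest.Agent.LT

open Crest.LubinTate

variable (p : ℕ) [Fact p.Prime] (n : ℕ) [NeZero n]

/-- Blueprint A3.1: existence of the Hazewinkel law with its logarithm. -/
theorem exists_hazF : ∃ F : FormalGroup (AA p n), F.IsComm ∧
    ∀ (C : Type) [CommRing C] [Algebra ℚ C] (ev : AA p n →+* C),
      IsFGHom (F.map ev) FormalGroup.𝔾ₐ (logSeries p n fun i => ev (tt p n i)) :=
  HazInt.exists_hazF' p n

/-- The Hazewinkel formal group law over the Lubin–Tate ring. -/
noncomputable def hazF : FormalGroup (AA p n) := Classical.choose (exists_hazF p n)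

instance hazF_isComm : (hazF p n).IsComm := (Classical.choose_spec (exists_hazF p n)).1

/-- The defining property of the logarithm. -/
theorem hazF_log (C : Type) [CommRing C] [Algebra ℚ C] (ev : AA p n →+* C) :
    IsFGHom ((hazF p n).map ev) FormalGroup.𝔾ₐ (logSeries p n fun i => ev (tt p n i)) :=
  (Classical.choose_spec (exists_hazF p n)).2 C ev

/-- `hazF` has the abstract property used in `HazModP.lean`. -/
theorem hazF_isHazLaw : IsHazLaw p n (hazF p n) := fun C _ _ ev => hazF_log p n C ev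

/-- Blueprint A3.3: the height ideals of `hazF` are the explicit ideals. -/
theorem heightIdeal_hazF (h : ℕ) (hh : h ≤ n) : heightIdeal p n (hazF p n) h = II p n h :=
  (hazF_isHazLaw p n).heightIdeal_eq h hh

/-! ### The `p`-series of `hazF` modulo `I_h` (Blueprint A3.5). Here `1 ≤ h < n` and `N = n - h`. -/

/-- `w_l := coeff (l * p ^ h) [p]_F`. -/
noncomputable def wwCoeff (h l : ℕ) : AA p n :=
  PowerSeries.coeff (l * p ^ h) (mulSeries (hazF p n) p)

/-- Modulo `I_h`, the `p`-series only involves exponents divisible by `p ^ h`. -/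
theorem coeff_pSeries_mem_II (h m : ℕ) (hh : h ≤ n) (hm : ¬ p ^ h ∣ m) :
    PowerSeries.coeff m (mulSeries (hazF p n) p) ∈ II p n h :=
  (hazF_isHazLaw p n).coeff_pSeries_mem h m hh hm

/-- `w_l ∈ I_h + T_h` for `l ≠ p ^ N`. -/
theorem wwCoeff_mem (h l : ℕ) (h1 : 1 ≤ h) (hh : h < n) (hl : l ≠ p ^ (n - h)) :
    wwCoeff p n h l ∈ II p n h ⊔ TT p n h :=
  (hazF_isHazLaw p n).coeff_mem h l h1 hh hl

/-- `w_{p^N} - 1 ∈ I_h + T_h`. -/
theorem wwCoeff_top_sub_one_mem (h : ℕ) (h1 : 1 ≤ h) (hh : h < n) :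
    wwCoeff p n h (p ^ (n - h)) - 1 ∈ II p n h ⊔ TT p n h :=
  (hazF_isHazLaw p n).coeff_top_sub_one_mem h h1 hh

/-- `w_{p^j} - t_{h+j} ∈ I_h + T_h ^ 2` for `j < N`. -/
theorem wwCoeff_pow_sub_mem (h j : ℕ) (h1 : 1 ≤ h) (hh : h < n) (hj : j < n - h) :
    wwCoeff p n h (p ^ j) - vv p n (h + j) ∈ II p n h ⊔ TT p n h ^ 2 :=
  (hazF_isHazLaw p n).coeff_pow_sub_mem h j h1 hh hj

/-- `w_l ∈ I_h + T_h ^ 2` for `l < p ^ N` which is not a power of `p`. -/
theorem wwCoeff_mem_sq (h l : ℕ) (h1 : 1 ≤ h) (hh : h < n) (hl : l < p ^ (n - h))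
    (hl' : ∀ j, l ≠ p ^ j) : wwCoeff p n h l ∈ II p n h ⊔ TT p n h ^ 2 :=
  (hazF_isHazLaw p n).coeff_mem_sq h l h1 hh hl hl'

/-! ### The law `Gamma0` over `k` (Blueprint A3.4). -/

/-- `Γ₀ := hazF` reduced along the residue map. -/
noncomputable def Gamma0 : FormalGroup (kk p n) := (hazF p n).map (LTRing.residue p n)

/-- (G1) -/
instance Gamma0_isComm : (Gamma0 p n).IsComm :=
  isComm_map _ _

/-- (G2): coefficients of `Γ₀` lie in `𝔽_p`. -/
theorem Gamma0_coeff_frob (e : Fin 2 →₀ ℕ) :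
    (MvPowerSeries.coeff e (Gamma0 p n).toPowerSeries) ^ p
      = MvPowerSeries.coeff e (Gamma0 p n).toPowerSeries :=
  (hazF_isHazLaw p n).coeff_residue_frob e

/-- (G3): `Γ₀(aX, aY) = a Γ₀(X, Y)` for `a ∈ k`, coefficient form. -/
theorem Gamma0_coeff_scalar (a : kk p n) (e : Fin 2 →₀ ℕ) :
    a ^ (e 0 + e 1) * MvPowerSeries.coeff e (Gamma0 p n).toPowerSeries
      = a * MvPowerSeries.coeff e (Gamma0 p n).toPowerSeries :=
  (hazF_isHazLaw p n).coeff_residue_scalar (NeZero.ne n) a e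

/-- (G4): `Γ₀ = X + Y` modulo total degree `q`. -/
theorem Gamma0_coeff_low (e : Fin 2 →₀ ℕ) (h2 : 2 ≤ e 0 + e 1) (hq : e 0 + e 1 < p ^ n) :
    MvPowerSeries.coeff e (Gamma0 p n).toPowerSeries = 0 :=
  (hazF_isHazLaw p n).coeff_residue_low e h2 hq

/-- (G5): Honda: `[p]_{Γ₀} = X ^ q`. -/
theorem mulSeries_Gamma0 : mulSeries (Gamma0 p n) p = PowerSeries.X ^ (p ^ n) :=
  (hazF_isHazLaw p n).mulSeries_residue (NeZero.ne n)

end Crest.Agent.LT
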