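import Crest.Prelude.Def_LubinTate

/-!
# Bottom layer for row 227: formal group law API

`fgAdd F f g = F(f, g)` for arbitrary substitutable points `f g`, the laws of a formal group
on points, multiplication series and homomorphisms.
-/

set_option autoImplicit false

namespace Crest.Agent.LubinTate

open MvPowerSeries Crest.LubinTate

variable {R S : Type*} [CommRing R] [CommRing S] {σ τ υ : Type*}

/-- `F(f, g)`. -/
noncomputable abbrev fgAdd (F : FormalGroup R) (f g : MvPowerSeries σ R) : MvPowerSeries σ R :=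
  F.toPowerSeries.subst ![f, g]

lemma hasSubst_pair {f g : MvPowerSeries σ R} (hf : PowerSeries.HasSubst f)
    (hg : PowerSeries.HasSubst g) : MvPowerSeries.HasSubst ![f, g] :=
  hasSubst_of_constantCoeff_nilpotent (by
    intro s; fin_cases s
    · simpa using hf
    · simpa using hg)

lemma hasSubst_fgAdd (F : FormalGroup R) {f g : MvPowerSeries σ R}
    (hf : PowerSeries.HasSubst f) (hg : PowerSeries.HasSubst g) :
    PowerSeries.HasSubst (fgAdd F f g) :=
  IsNilpotent_subst (hasSubst_pair hf hg) (F.zero_constantCoeff ▸ IsNilpotent.zero)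

lemma fgAdd_assoc (F : FormalGroup R) {f g h : MvPowerSeries σ R}
    (hf : PowerSeries.HasSubst f) (hg : PowerSeries.HasSubst g) (hh : PowerSeries.HasSubst h) :
    fgAdd F (fgAdd F f g) h = fgAdd F f (fgAdd F g h) :=
  F.assoc' hf hg hh

lemma fgAdd_comm (F : FormalGroup R) [F.IsComm] {f g : MvPowerSeries σ R}
    (hf : PowerSeries.HasSubst f) (hg : PowerSeries.HasSubst g) :
    fgAdd F f g = fgAdd F g f :=
  F.comm' hf hg

@[simp] lemma fgAdd_zero (F : FormalGroup R) {f : MvPowerSeries σ R}
    (hf : PowerSeries.HasSubst f) : fgAdd F f 0 = f :=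
  FormalGroup.add_zero F hf

@[simp] lemma zero_fgAdd (F : FormalGroup R) {f : MvPowerSeries σ R}
    (hf : PowerSeries.HasSubst f) : fgAdd F 0 f = f :=
  FormalGroup.zero_add F hf

lemma subst_fgAdd (F : FormalGroup R) {f g : MvPowerSeries σ R}
    (hf : PowerSeries.HasSubst f) (hg : PowerSeries.HasSubst g)
    {a : σ → MvPowerSeries τ R} (ha : MvPowerSeries.HasSubst a) :
    MvPowerSeries.subst a (fgAdd F f g) =
      fgAdd F (MvPowerSeries.subst a f) (MvPowerSeries.subst a g) := by
  rw [fgAdd, subst_comp_subst_apply (hasSubst_pair hf hg) ha]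
  congr! 2 with s
  fin_cases s <;> rfl

lemma psubst_fgAdd (F : FormalGroup R) {f g : PowerSeries R}
    (hf : PowerSeries.HasSubst f) (hg : PowerSeries.HasSubst g)
    {a : MvPowerSeries τ R} (ha : PowerSeries.HasSubst a) :
    PowerSeries.subst a (fgAdd F f g) =
      fgAdd F (PowerSeries.subst a f) (PowerSeries.subst a g) := by
  rw [PowerSeries.subst_def]
  exact subst_fgAdd F hf hg ha.const


lemma constantCoeff_fgAdd (F : FormalGroup R) {f g : MvPowerSeries σ R}
    (hf : constantCoeff f = 0) (hg : constantCoeff g = 0) :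
    constantCoeff (fgAdd F f g) = 0 := by
  refine constantCoeff_subst_eq_zero (hasSubst_pair
    (PowerSeries.HasSubst.of_constantCoeff_zero hf)
    (PowerSeries.HasSubst.of_constantCoeff_zero hg)) ?_ F.zero_constantCoeff
  intro i; fin_cases i
  · simpa using hf
  · simpa using hg

lemma map_fgAdd (F : FormalGroup R) (φ : R →+* S) {f g : MvPowerSeries σ R}
    (hf : PowerSeries.HasSubst f) (hg : PowerSeries.HasSubst g) :
    MvPowerSeries.map φ (fgAdd F f g) =
      fgAdd (F.map φ) (MvPowerSeries.map φ f) (MvPowerSeries.map φ g) := by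
  rw [fgAdd, MvPowerSeries.map_subst (hasSubst_pair hf hg)]
  simp only [FormalGroup.map_toPowerSeries, fgAdd]
  congr! 2 with s
  fin_cases s <;> rfl

section mulSeries

variable (F : FormalGroup R)

@[simp] lemma mulSeries_zero : mulSeries F 0 = 0 := rfl

lemma mulSeries_succ (m : ℕ) :
    mulSeries F (m + 1) = fgAdd F (mulSeries F m) PowerSeries.X := rfl

lemma constantCoeff_X' : constantCoeff (PowerSeries.X : PowerSeries R) = 0 := by
  simp [PowerSeries.X]

@[simp] lemma constantCoeff_mulSeries (m : ℕ) : constantCoeff (mulSeries F m) = 0 := by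
  induction m with
  | zero => simp
  | succ m ih =>
    rw [mulSeries_succ]
    exact constantCoeff_fgAdd F ih (constantCoeff_X')

lemma hasSubst_mulSeries (m : ℕ) : PowerSeries.HasSubst (mulSeries F m) :=
  PowerSeries.HasSubst.of_constantCoeff_zero (constantCoeff_mulSeries F m)

@[simp] lemma mulSeries_one : mulSeries F 1 = PowerSeries.X := by
  rw [mulSeries_succ, mulSeries_zero]
  exact zero_fgAdd F PowerSeries.HasSubst.X'

lemma mulSeries_add (m k : ℕ) :
    mulSeries F (m + k) = fgAdd F (mulSeries F m) (mulSeries F k) := by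
  induction k with
  | zero =>
    simp only [add_zero, mulSeries_zero]
    exact (fgAdd_zero F (hasSubst_mulSeries F m)).symm
  | succ k ih =>
    rw [← add_assoc, mulSeries_succ, ih, mulSeries_succ]
    exact fgAdd_assoc F (hasSubst_mulSeries F m) (hasSubst_mulSeries F k) PowerSeries.HasSubst.X'

lemma psubst_mulSeries_succ {a : MvPowerSeries τ R} (ha : PowerSeries.HasSubst a) (m : ℕ) :
    PowerSeries.subst a (mulSeries F (m + 1)) =
      fgAdd F (PowerSeries.subst a (mulSeries F m)) a := by
  rw [mulSeries_succ, psubst_fgAdd F (hasSubst_mulSeries F m) PowerSeries.HasSubst.X' ha,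
    PowerSeries.subst_X ha]

lemma mulSeries_mul (m k : ℕ) :
    mulSeries F (m * k) = PowerSeries.subst (mulSeries F k) (mulSeries F m) := by
  induction m with
  | zero =>
    rw [zero_mul, mulSeries_zero, ← PowerSeries.coe_substAlgHom (hasSubst_mulSeries F k), map_zero]
  | succ m ih =>
    rw [psubst_mulSeries_succ F (hasSubst_mulSeries F k), ← ih, Nat.succ_mul, mulSeries_add]

lemma mulSeries_map (φ : R →+* S) (m : ℕ) :
    mulSeries (F.map φ) m = PowerSeries.map φ (mulSeries F m) := by
  induction m with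
  | zero => simp
  | succ m ih =>
    rw [mulSeries_succ, mulSeries_succ]
    have := map_fgAdd F φ (hasSubst_mulSeries F m) PowerSeries.HasSubst.X'
    rw [show PowerSeries.map φ = MvPowerSeries.map φ from rfl, this, ih]
    congr 2
    simp [PowerSeries.X]

end mulSeries

lemma hasSubst_psubst {φ : PowerSeries R} (hφ : PowerSeries.HasSubst φ)
    {w : MvPowerSeries σ R} (hw : PowerSeries.HasSubst w) :
    PowerSeries.HasSubst (PowerSeries.subst w φ) := by
  rw [← PowerSeries.coe_substAlgHom hw]
  exact PowerSeries.HasSubst.comp hφ hw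

section hom

variable {F G K : FormalGroup R} {φ ψ : PowerSeries R}

lemma fgHom_hasSubst (h : IsFGHom F G φ) : PowerSeries.HasSubst φ :=
  PowerSeries.HasSubst.of_constantCoeff_zero h.1

lemma psubst_psubst_X_pair {f g : MvPowerSeries σ R} (hf : PowerSeries.HasSubst f)
    (hg : PowerSeries.HasSubst g) (φ : PowerSeries R) (i : Fin 2) :
    MvPowerSeries.subst ![f, g] (PowerSeries.subst (X i : MvPowerSeries (Fin 2) R) φ) =
      PowerSeries.subst (![f, g] i) φ := by
  rw [PowerSeries.subst_def, subst_comp_subst_apply (PowerSeries.HasSubst.X i).const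
    (hasSubst_pair hf hg), PowerSeries.subst_def]
  congr! 2 with s
  rw [subst_X (hasSubst_pair hf hg)]

/-- The homomorphism law on arbitrary points. -/
lemma fgHom_fgAdd (h : IsFGHom F G φ) {f g : MvPowerSeries σ R}
    (hf : PowerSeries.HasSubst f) (hg : PowerSeries.HasSubst g) :
    PowerSeries.subst (fgAdd F f g) φ =
      fgAdd G (PowerSeries.subst f φ) (PowerSeries.subst g φ) := by
  have h2 := congrArg (MvPowerSeries.subst ![f, g]) h.2
  have hpair := hasSubst_pair hf hg
  have hF : PowerSeries.HasSubst F.toPowerSeries :=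
    PowerSeries.HasSubst.of_constantCoeff_zero F.zero_constantCoeff
  rw [PowerSeries.subst_def, subst_comp_subst_apply hF.const hpair,
    subst_comp_subst_apply ?_ hpair] at h2
  · rw [PowerSeries.subst_def, fgAdd, h2]
    congr! 2 with s
    fin_cases s
    · exact psubst_psubst_X_pair hf hg φ 0
    · exact psubst_psubst_X_pair hf hg φ 1
  · refine hasSubst_of_constantCoeff_nilpotent ?_
    intro s
    fin_cases s
    · simp only [Fin.zero_eta, Matrix.cons_val_zero]
      rw [PowerSeries.constantCoeff_subst_eq_zero (by simp) _ h.1]; exact IsNilpotent.zero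
    · simp only [Fin.mk_one, Matrix.cons_val_one, Matrix.cons_val_fin_one]
      rw [PowerSeries.constantCoeff_subst_eq_zero (by simp) _ h.1]; exact IsNilpotent.zero

/-- The converse of `fgHom_fgAdd`. -/
lemma isFGHom_of_forall (hφ : constantCoeff φ = 0)
    (h : ∀ (f g : MvPowerSeries (Fin 2) R), PowerSeries.HasSubst f → PowerSeries.HasSubst g →
      PowerSeries.subst (fgAdd F f g) φ =
        fgAdd G (PowerSeries.subst f φ) (PowerSeries.subst g φ)) : IsFGHom F G φ := by
  refine ⟨hφ, ?_⟩
  have := h (X 0) (X 1) (PowerSeries.HasSubst.X 0) (PowerSeries.HasSubst.X 1)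
  have hF : fgAdd F (X 0 : MvPowerSeries (Fin 2) R) (X 1) = F.toPowerSeries := by
    have hXX : (![X 0, X 1] : Fin 2 → MvPowerSeries (Fin 2) R) = X := by
      ext1 i; fin_cases i <;> rfl
    rw [fgAdd, hXX, MvPowerSeries.subst_self]
    rfl
  rwa [hF] at this

lemma isFGHom_id (F : FormalGroup R) : IsFGHom F F PowerSeries.X := by
  refine isFGHom_of_forall constantCoeff_X' ?_
  intro f g hf hg
  rw [PowerSeries.subst_X (hasSubst_fgAdd F hf hg), PowerSeries.subst_X hf, PowerSeries.subst_X hg]

lemma fgHom_comp (hψ : IsFGHom G K ψ) (hφ : IsFGHom F G φ) :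
    IsFGHom F K (PowerSeries.subst φ ψ) := by
  refine isFGHom_of_forall ?_ ?_
  · exact PowerSeries.constantCoeff_subst_eq_zero hφ.1 _ hψ.1
  · intro f g hf hg
    have hsub : ∀ {f : MvPowerSeries (Fin 2) R}, PowerSeries.HasSubst f →
        PowerSeries.subst f (PowerSeries.subst φ ψ) =
          PowerSeries.subst (PowerSeries.subst f φ) ψ := by
      intro f hf
      exact PowerSeries.subst_comp_subst_apply (fgHom_hasSubst hφ) hf ψ
    rw [hsub (hasSubst_fgAdd F hf hg), hsub hf, hsub hg, fgHom_fgAdd hφ hf hg,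
      fgHom_fgAdd hψ (hasSubst_psubst (fgHom_hasSubst hφ) hf)
        (hasSubst_psubst (fgHom_hasSubst hφ) hg)]

/-- The compositional inverse of a homomorphism with unit linear coefficient. -/
lemma fgHom_inv (hφ : IsFGHom F G φ) (hu : IsUnit (PowerSeries.coeff 1 φ)) :
    IsFGHom G F (PowerSeries.substInvOfIsUnit φ hu) := by
  set θ := PowerSeries.substInvOfIsUnit φ hu with hθ
  have hθs : PowerSeries.HasSubst θ := PowerSeries.HasSubst.substInvOfIsUnit φ hu
  have h1 : PowerSeries.subst θ φ = PowerSeries.X :=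
    PowerSeries.subst_substInvOfIsUnit_right φ hφ.1 hu
  have h2 : PowerSeries.subst φ θ = PowerSeries.X :=
    PowerSeries.subst_substInvOfIsUnit_left φ hφ.1 hu
  refine isFGHom_of_forall (PowerSeries.constantCoeff_substInvOfIsUnit φ hu) ?_
  intro f g hf hg
  have hφs := fgHom_hasSubst hφ
  -- apply `φ` on both sides; it is injective since it has a left inverse
  have key : ∀ {u v : MvPowerSeries (Fin 2) R}, PowerSeries.HasSubst u → PowerSeries.HasSubst v →
      PowerSeries.subst u φ = PowerSeries.subst v φ → u = v := by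
    intro u v hu hv huv
    have hc : ∀ {w : MvPowerSeries (Fin 2) R}, PowerSeries.HasSubst w →
        PowerSeries.subst (PowerSeries.subst w φ) θ = w := by
      intro w hw
      rw [← PowerSeries.subst_comp_subst_apply hφs hw, h2, PowerSeries.subst_X hw]
    rw [← hc hu, ← hc hv, huv]
  have hc' : ∀ {w : MvPowerSeries (Fin 2) R}, PowerSeries.HasSubst w →
      PowerSeries.subst (PowerSeries.subst w θ) φ = w := by
    intro w hw
    rw [← PowerSeries.subst_comp_subst_apply hθs hw, h1, PowerSeries.subst_X hw]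
  have hcomp : ∀ {w : MvPowerSeries (Fin 2) R}, PowerSeries.HasSubst w →
      PowerSeries.HasSubst (PowerSeries.subst w θ) := fun hw => hasSubst_psubst hθs hw
  refine key (hcomp (hasSubst_fgAdd G hf hg)) (hasSubst_fgAdd F (hcomp hf) (hcomp hg)) ?_
  rw [hc' (hasSubst_fgAdd G hf hg), fgHom_fgAdd hφ (hcomp hf) (hcomp hg), hc' hf, hc' hg]

lemma fgHom_map (hφ : IsFGHom F G φ) (f : R →+* S) :
    IsFGHom (F.map f) (G.map f) (PowerSeries.map f φ) := by
  refine ⟨?_, ?_⟩
  · rw [← PowerSeries.coeff_zero_eq_constantCoeff_apply, PowerSeries.coeff_map,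
      PowerSeries.coeff_zero_eq_constantCoeff_apply, show PowerSeries.constantCoeff φ = 0 from hφ.1,
      map_zero]
  · have h2 := congrArg (MvPowerSeries.map f) hφ.2
    have hF : PowerSeries.HasSubst F.toPowerSeries :=
      PowerSeries.HasSubst.of_constantCoeff_zero F.zero_constantCoeff
    have hs := fgHom_hasSubst hφ
    rw [show (MvPowerSeries.map f) (PowerSeries.subst F.toPowerSeries φ) =
        PowerSeries.subst (MvPowerSeries.map f F.toPowerSeries) (PowerSeries.map f φ) from
          PowerSeries.map_subst hF φ,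
      show (MvPowerSeries.map f) (MvPowerSeries.subst
      ![PowerSeries.subst (X 0 : MvPowerSeries (Fin 2) R) φ,
        PowerSeries.subst (X 1 : MvPowerSeries (Fin 2) R) φ] G.toPowerSeries) =
      MvPowerSeries.map f (fgAdd G (PowerSeries.subst (X 0 : MvPowerSeries (Fin 2) R) φ)
        (PowerSeries.subst (X 1 : MvPowerSeries (Fin 2) R) φ)) from rfl,
      map_fgAdd G f (hasSubst_psubst hs (PowerSeries.HasSubst.X 0))
        (hasSubst_psubst hs (PowerSeries.HasSubst.X 1)),
      PowerSeries.map_subst (PowerSeries.HasSubst.X 0),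
      PowerSeries.map_subst (PowerSeries.HasSubst.X 1)] at h2
    simpa [fgAdd, FormalGroup.map_toPowerSeries] using h2

/-- A homomorphism commutes with multiplication series. -/
lemma fgHom_mulSeries (hφ : IsFGHom F G φ) (m : ℕ) :
    PowerSeries.subst (mulSeries F m) φ = PowerSeries.subst φ (mulSeries G m) := by
  have hs := fgHom_hasSubst hφ
  induction m with
  | zero =>
    simp only [mulSeries_zero]
    rw [← PowerSeries.coe_substAlgHom hs, map_zero]
    exact PowerSeries.subst_zero_of_constantCoeff_zero hφ.1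
  | succ m ih =>
    rw [mulSeries_succ, fgHom_fgAdd hφ (hasSubst_mulSeries F m) PowerSeries.HasSubst.X', ih,
      psubst_mulSeries_succ G hs m, PowerSeries.X_subst]

/-- The sum of two homomorphisms into a commutative law is a homomorphism. -/
lemma fgHom_add [G.IsComm] (hφ : IsFGHom F G φ) (hψ : IsFGHom F G ψ) :
    IsFGHom F G (fgAdd G φ ψ) := by
  have hφs := fgHom_hasSubst hφ
  have hψs := fgHom_hasSubst hψ
  refine isFGHom_of_forall (constantCoeff_fgAdd G hφ.1 hψ.1) ?_
  intro f g hf hg
  have hfg := hasSubst_fgAdd F hf hg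
  rw [psubst_fgAdd G hφs hψs hfg, psubst_fgAdd G hφs hψs hf, psubst_fgAdd G hφs hψs hg,
    fgHom_fgAdd hφ hf hg, fgHom_fgAdd hψ hf hg]
  have a1 := hasSubst_psubst hφs hf
  have a2 := hasSubst_psubst hφs hg
  have b1 := hasSubst_psubst hψs hf
  have b2 := hasSubst_psubst hψs hg
  rw [fgAdd_assoc G a1 a2 (hasSubst_fgAdd G b1 b2), fgAdd_assoc G a1 b1 (hasSubst_fgAdd G a2 b2),
    ← fgAdd_assoc G a2 b1 b2, ← fgAdd_assoc G b1 a2 b2, fgAdd_comm G a2 b1]

/-- For a commutative law every multiplication series is an endomorphism. -/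
lemma isFGHom_mulSeries (F : FormalGroup R) [F.IsComm] (m : ℕ) :
    IsFGHom F F (mulSeries F m) := by
  induction m with
  | zero =>
    refine isFGHom_of_forall (by simp) ?_
    intro f g hf hg
    simp only [mulSeries_zero]
    have h0 : ∀ {w : MvPowerSeries (Fin 2) R}, PowerSeries.HasSubst w →
        PowerSeries.subst w (0 : PowerSeries R) = 0 := by
      intro w hw
      rw [← PowerSeries.coe_substAlgHom hw, map_zero]
    rw [h0 (hasSubst_fgAdd F hf hg), h0 hf, h0 hg]
    exact (fgAdd_zero F PowerSeries.HasSubst.zero).symm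
  | succ m ih =>
    rw [mulSeries_succ]
    exact fgHom_add ih (isFGHom_id F)

end hom

section expansion

variable (F : FormalGroup R)

lemma coeff_single_zero (e : ℕ) :
    coeff (Finsupp.single (0 : Fin 2) e) F.toPowerSeries =
      PowerSeries.coeff e (PowerSeries.X : PowerSeries R) := by
  have h := congrArg (PowerSeries.coeff e) F.Xzero_eq_X
  rw [FormalGroup.Xzero, PowerSeries.coeff, coeff_subst,
    finsum_eq_single _ (Finsupp.single 0 e)] at h
  · rw [← PowerSeries.coeff] at h
    simpa [PowerSeries.coeff_X_pow] using h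
  · intro d hd
    by_cases hd₁ : d 1 = 0
    · have hd₀ : d 0 ≠ e := by
        intro h0
        apply hd
        ext i; fin_cases i
        · simp [h0]
        · simp [hd₁]
      simp [hd₁, PowerSeries.coeff_X_pow]
      grind
    simp [hd₁]
  · exact HasSubst.X_zero

lemma coeff_single_one (e : ℕ) :
    coeff (Finsupp.single (1 : Fin 2) e) F.toPowerSeries =
      PowerSeries.coeff e (PowerSeries.X : PowerSeries R) := by
  have h := congrArg (PowerSeries.coeff e) F.zeroX_eq_X
  rw [FormalGroup.zeroX, PowerSeries.coeff, coeff_subst,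
    finsum_eq_single _ (Finsupp.single 1 e)] at h
  · rw [← PowerSeries.coeff] at h
    simpa [PowerSeries.coeff_X_pow] using h
  · intro d hd
    by_cases hd₀ : d 0 = 0
    · have hd₁ : d 1 ≠ e := by
        intro h0
        apply hd
        ext i; fin_cases i
        · simp [hd₀]
        · simp [h0]
      simp [hd₀, PowerSeries.coeff_X_pow]
      grind
    simp [hd₀]
  · exact HasSubst.zero_X

/-- `F(X,Y) = X + Y + XY H(X,Y)`. -/
theorem exists_expansion : ∃ H : MvPowerSeries (Fin 2) R,
    F.toPowerSeries = X 0 + X 1 + X 0 * X 1 * H := by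
  classical
  refine ⟨fun d => coeff (d + (Finsupp.single 0 1 + Finsupp.single 1 1)) F.toPowerSeries, ?_⟩
  ext e
  have hXX : (X 0 * X 1 : MvPowerSeries (Fin 2) R) =
      monomial (Finsupp.single 0 1 + Finsupp.single 1 1) 1 := by
    rw [X, X, monomial_mul_monomial, one_mul]
  rw [map_add, map_add, hXX, coeff_monomial_mul, coeff_X, coeff_X]
  by_cases h0 : e 0 = 0
  · have he : e = Finsupp.single 1 (e 1) := by
      ext i; fin_cases i
      · simp [h0]
      · simp
    rw [he, coeff_single_one, PowerSeries.coeff_X]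
    have h1 : ¬ (Finsupp.single 0 1 + Finsupp.single 1 1 ≤ Finsupp.single (1 : Fin 2) (e 1)) := by
      intro hle
      have := hle 0
      simp at this
    rw [if_neg h1]
    by_cases he1 : e 1 = 1
    · simp [he1, Finsupp.single_left_inj]
    · have h2 : ¬ (Finsupp.single (1 : Fin 2) (e 1) = Finsupp.single 1 1) := by
        intro h; exact he1 (by simpa using Finsupp.single_injective _ h)
      have h3 : ¬ (Finsupp.single (1 : Fin 2) (e 1) = Finsupp.single 0 1) := by
        intro h
        have := DFunLike.congr_fun h 0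
        simp at this
      simp [he1, h2, h3]
  by_cases h1 : e 1 = 0
  · have he : e = Finsupp.single 0 (e 0) := by
      ext i; fin_cases i
      · simp
      · simp [h1]
    rw [he, coeff_single_zero, PowerSeries.coeff_X]
    have h2 : ¬ (Finsupp.single 0 1 + Finsupp.single 1 1 ≤ Finsupp.single (0 : Fin 2) (e 0)) := by
      intro hle
      have := hle 1
      simp at this
    rw [if_neg h2]
    by_cases he1 : e 0 = 1
    · simp [he1, Finsupp.single_left_inj]
    · have h2 : ¬ (Finsupp.single (0 : Fin 2) (e 0) = Finsupp.single 0 1) := by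
        intro h; exact he1 (by simpa using Finsupp.single_injective _ h)
      have h3 : ¬ (Finsupp.single (0 : Fin 2) (e 0) = Finsupp.single 1 1) := by
        intro h
        have := DFunLike.congr_fun h 1
        simp at this
      simp [he1, h2, h3]
  · have hle : Finsupp.single 0 1 + Finsupp.single 1 1 ≤ e := by
      intro i; fin_cases i
      · simpa using Nat.one_le_iff_ne_zero.mpr h0
      · simpa using Nat.one_le_iff_ne_zero.mpr h1
    have h2 : ¬ (e = Finsupp.single 0 1) := by
      intro h; rw [h] at h1; simp at h1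
    have h3 : ¬ (e = Finsupp.single 1 1) := by
      intro h; rw [h] at h0; simp at h0
    rw [if_pos hle, if_neg h2, if_neg h3, one_mul]
    have hc : coeff (e - (Finsupp.single 0 1 + Finsupp.single 1 1))
        (fun d => coeff (d + (Finsupp.single 0 1 + Finsupp.single 1 1)) F.toPowerSeries :
          MvPowerSeries (Fin 2) R) =
        coeff (e - (Finsupp.single 0 1 + Finsupp.single 1 1) +
          (Finsupp.single 0 1 + Finsupp.single 1 1)) F.toPowerSeries := rfl
    rw [hc, tsub_add_cancel_of_le hle]
    simp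

/-- `F(f,g) = f + g + f g H(f,g)`. -/
theorem exists_fgAdd_expansion : ∃ H : MvPowerSeries (Fin 2) R,
    ∀ {σ : Type*} {f g : MvPowerSeries σ R}, PowerSeries.HasSubst f → PowerSeries.HasSubst g →
      fgAdd F f g = f + g + f * g * MvPowerSeries.subst ![f, g] H := by
  obtain ⟨H, hH⟩ := exists_expansion F
  refine ⟨H, ?_⟩
  intro σ f g hf hg
  have hp := hasSubst_pair hf hg
  rw [fgAdd, hH, subst_add hp, subst_add hp, subst_mul hp, subst_mul hp, subst_X hp, subst_X hp]
  simp

lemma coeff_one_fgAdd {f g : PowerSeries R} (hf : constantCoeff f = 0) (hg : constantCoeff g = 0) :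
    PowerSeries.coeff 1 (fgAdd F f g) = PowerSeries.coeff 1 f + PowerSeries.coeff 1 g := by
  obtain ⟨H, hH⟩ := exists_fgAdd_expansion F
  rw [hH (PowerSeries.HasSubst.of_constantCoeff_zero hf)
    (PowerSeries.HasSubst.of_constantCoeff_zero hg)]
  have hdf : PowerSeries.X ∣ f := PowerSeries.X_dvd_iff.mpr hf
  have hdg : PowerSeries.X ∣ g := PowerSeries.X_dvd_iff.mpr hg
  obtain ⟨a, rfl⟩ := hdf
  obtain ⟨b, rfl⟩ := hdg
  have : ∀ c : PowerSeries R, PowerSeries.coeff 1 ((PowerSeries.X * a) * (PowerSeries.X * b) * c) = 0 := by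
    intro c
    have : (PowerSeries.X * a) * (PowerSeries.X * b) * c = PowerSeries.X ^ 2 * (a * b * c) := by ring
    rw [this, PowerSeries.coeff_X_pow_mul']
    simp
  rw [map_add, map_add, this, add_zero]

@[simp] lemma coeff_one_mulSeries (m : ℕ) :
    PowerSeries.coeff 1 (mulSeries F m) = (m : R) := by
  induction m with
  | zero => simp
  | succ m ih =>
    rw [mulSeries_succ, coeff_one_fgAdd F (constantCoeff_mulSeries F m) constantCoeff_X', ih]
    simp

end expansion

/-- Linear coefficient of a composition. -/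
lemma coeff_one_subst {φ ψ : PowerSeries R} (hφ : constantCoeff φ = 0) :
    PowerSeries.coeff 1 (PowerSeries.subst φ ψ) = PowerSeries.coeff 1 ψ * PowerSeries.coeff 1 φ := by
  have hs : PowerSeries.HasSubst φ := PowerSeries.HasSubst.of_constantCoeff_zero hφ
  rw [PowerSeries.coeff_subst' hs, finsum_eq_single _ 1]
  · simp
  · intro d hd
    obtain ⟨a, rfl⟩ : PowerSeries.X ∣ φ := PowerSeries.X_dvd_iff.mpr hφ
    rcases Nat.lt_or_ge d 2 with h | h
    · have : d = 0 := by omega
      subst this
      simp [PowerSeries.coeff_one]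
    · obtain ⟨k, rfl⟩ : ∃ k, d = 2 + k := ⟨d - 2, by omega⟩
      have : (PowerSeries.X * a) ^ (2 + k) = PowerSeries.X ^ 2 * (a ^ 2 * (PowerSeries.X * a) ^ k) := by ring
      rw [this, PowerSeries.coeff_X_pow_mul']
      simp

section aut

variable {F G K : FormalGroup R} {g h : PowerSeries R}

lemma fgAut_comp (hg : IsFGAut F g) (hh : IsFGAut F h) : IsFGAut F (PowerSeries.subst h g) := by
  refine ⟨fgHom_comp hg.1 hh.1, ?_⟩
  rw [coeff_one_subst hh.1.1]
  exact hg.2.mul hh.2

lemma fgAut_X (F : FormalGroup R) : IsFGAut F PowerSeries.X :=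
  ⟨isFGHom_id F, by simp⟩

lemma fgAut_inv (hg : IsFGAut F g) : IsFGAut F (PowerSeries.substInvOfIsUnit g hg.2) := by
  refine ⟨fgHom_inv hg.1 hg.2, ?_⟩
  rw [PowerSeries.coeff_one_substInvOfIsUnit]
  exact Units.isUnit _

end aut

end Crest.Agent.LubinTate
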