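/-
Row 227 (S0351): the formal inverse `i_F` of a formal group law over an arbitrary commutative ring:
`F(X, i_F X) = 0 = F(i_F X, X)`, formal subtraction `fgSub`, cancellation, compatibility with `map`.
-/
import Crest.Agent.Lib.LubinTate.FGLBasics

set_option autoImplicit false

namespace Crest.Agent.LubinTate

open MvPowerSeries Crest.LubinTate

variable {R S : Type*} [CommRing R] [CommRing S] {σ τ : Type*}

section neg

variable (F : FormalGroup R)

local notation "𝕏" => (PowerSeries.X : PowerSeries R)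

/-- `F(X, f)`. -/
private noncomputable abbrev Φ (f : PowerSeries R) : PowerSeries R := fgAdd F 𝕏 f

/-- Coefficients of `F(X, f)` below `m` only depend on `f` modulo `X ^ m`. -/
private lemma Φ_congr {f g : PowerSeries R} (hf : PowerSeries.constantCoeff f = 0)
    (hg : PowerSeries.constantCoeff g = 0) {m : ℕ} (h : 𝕏 ^ m ∣ f - g) :
    𝕏 ^ m ∣ Φ F f - Φ F g := by
  classical
  have hX : PowerSeries.HasSubst 𝕏 := PowerSeries.HasSubst.X'
  have hf' : PowerSeries.HasSubst f := PowerSeries.HasSubst.of_constantCoeff_zero' hf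
  have hg' : PowerSeries.HasSubst g := PowerSeries.HasSubst.of_constantCoeff_zero' hg
  rw [PowerSeries.X_pow_dvd_iff]
  intro d hd
  rw [map_sub, sub_eq_zero]
  have key : ∀ e : Fin 2 →₀ ℕ,
      PowerSeries.coeff d (e.prod fun s k => (![𝕏, f] s) ^ k) =
        PowerSeries.coeff d (e.prod fun s k => (![𝕏, g] s) ^ k) := by
    intro e
    have hprod : ∀ u : PowerSeries R,
        (e.prod fun s k => (![𝕏, u] s) ^ k) = 𝕏 ^ (e 0) * u ^ (e 1) := by
      intro u
      rw [Finsupp.prod_fintype _ _ (fun s => by simp)]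
      simp [Fin.prod_univ_two]
    rw [hprod, hprod]
    have hdvd : 𝕏 ^ m ∣ 𝕏 ^ (e 0) * f ^ (e 1) - 𝕏 ^ (e 0) * g ^ (e 1) := by
      rw [← mul_sub]
      exact Dvd.dvd.mul_left (h.trans (sub_dvd_pow_sub_pow _ _ _)) _
    have := PowerSeries.X_pow_dvd_iff.mp hdvd d hd
    rwa [map_sub, sub_eq_zero] at this
  have hc : ∀ u : PowerSeries R, PowerSeries.HasSubst u →
      PowerSeries.coeff d (Φ F u) = finsum fun e : Fin 2 →₀ ℕ =>
        MvPowerSeries.coeff e F.toPowerSeries • PowerSeries.coeff d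
          (e.prod fun s k => (![𝕏, u] s) ^ k) := by
    intro u hu
    exact MvPowerSeries.coeff_subst (hasSubst_pair hX hu) _ _
  rw [hc f hf', hc g hg']
  exact finsum_congr fun e => by rw [key]

/-- One correction step. -/
private noncomputable def negStep (f : PowerSeries R) (k : ℕ) : PowerSeries R :=
  fgAdd F f (- (PowerSeries.C (PowerSeries.coeff (k + 1) (Φ F f)) * 𝕏 ^ (k + 1)))

private noncomputable def negApprox : ℕ → PowerSeries R
  | 0 => 0
  | k + 1 => negStep F (negApprox k) k

private lemma cc_u (c : R) (k : ℕ) :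
    PowerSeries.constantCoeff (- (PowerSeries.C c * 𝕏 ^ (k + 1))) = 0 := by
  simp

private lemma cc_negApprox (k : ℕ) : PowerSeries.constantCoeff (negApprox F k) = 0 := by
  induction k with
  | zero => simp [negApprox]
  | succ k ih =>
    simp only [negApprox, negStep]
    exact constantCoeff_fgAdd F ih (cc_u _ _)

private lemma dvd_Φ_negApprox (k : ℕ) : 𝕏 ^ (k + 1) ∣ Φ F (negApprox F k) := by
  induction k with
  | zero =>
    have : Φ F (negApprox F 0) = 𝕏 := by
      simp only [negApprox, Φ]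
      exact fgAdd_zero F PowerSeries.HasSubst.X'
    rw [this]; simp
  | succ k ih =>
    set f := negApprox F k with hfdef
    have hf : PowerSeries.constantCoeff f = 0 := cc_negApprox F k
    set A := Φ F f with hA
    set u : PowerSeries R := - (PowerSeries.C (PowerSeries.coeff (k + 1) A) * 𝕏 ^ (k + 1)) with hu
    have hu0 : PowerSeries.constantCoeff u = 0 := cc_u _ _
    have hA0 : PowerSeries.constantCoeff A = 0 :=
      constantCoeff_fgAdd F constantCoeff_X' hf
    have hX : PowerSeries.HasSubst 𝕏 := PowerSeries.HasSubst.X'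
    have hf' : PowerSeries.HasSubst f := PowerSeries.HasSubst.of_constantCoeff_zero' hf
    have hu' : PowerSeries.HasSubst u := PowerSeries.HasSubst.of_constantCoeff_zero' hu0
    have hA' : PowerSeries.HasSubst A := PowerSeries.HasSubst.of_constantCoeff_zero' hA0
    have hstep : Φ F (negApprox F (k + 1)) = fgAdd F A u := by
      simp only [negApprox, negStep]
      exact (fgAdd_assoc F hX hf' hu').symm
    rw [hstep]
    obtain ⟨H, hH⟩ := exists_fgAdd_expansion F
    rw [hH hA' hu']
    have hdu : 𝕏 ^ (k + 1) ∣ u := by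
      rw [hu]; exact (Dvd.intro_left _ rfl : 𝕏 ^ (k + 1) ∣ _).neg_right
    refine dvd_add ?_ ?_
    · rw [PowerSeries.X_pow_dvd_iff]
      intro m hm
      rcases Nat.lt_succ_iff_lt_or_eq.mp hm with hm | rfl
      · rw [map_add, PowerSeries.X_pow_dvd_iff.mp ih m hm, PowerSeries.X_pow_dvd_iff.mp hdu m hm,
          add_zero]
      · rw [map_add, hu, map_neg, PowerSeries.coeff_C_mul, PowerSeries.coeff_X_pow]
        simp
    · have h1 : 𝕏 ^ (k + 1) * 𝕏 ^ (k + 1) ∣ A * u := mul_dvd_mul ih hdu
      have h2 : 𝕏 ^ (k + 1 + 1) ∣ A * u :=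
        (pow_dvd_pow 𝕏 (by omega : k + 1 + 1 ≤ (k + 1) + (k + 1))).trans
          (by rw [pow_add]; exact h1)
      exact Dvd.dvd.mul_right h2 _

private lemma dvd_negApprox_succ_sub (k : ℕ) :
    𝕏 ^ (k + 1) ∣ negApprox F (k + 1) - negApprox F k := by
  set f := negApprox F k with hfdef
  have hf : PowerSeries.constantCoeff f = 0 := cc_negApprox F k
  simp only [negApprox, negStep, ← hfdef]
  set u : PowerSeries R := - (PowerSeries.C (PowerSeries.coeff (k + 1) (Φ F f)) * 𝕏 ^ (k + 1))
    with hu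
  have hu0 : PowerSeries.constantCoeff u = 0 := cc_u _ _
  have hf' : PowerSeries.HasSubst f := PowerSeries.HasSubst.of_constantCoeff_zero' hf
  have hu' : PowerSeries.HasSubst u := PowerSeries.HasSubst.of_constantCoeff_zero' hu0
  obtain ⟨H, hH⟩ := exists_fgAdd_expansion F
  rw [hH hf' hu']
  have hdu : 𝕏 ^ (k + 1) ∣ u := by
    rw [hu]; exact (Dvd.intro_left _ rfl : 𝕏 ^ (k + 1) ∣ _).neg_right
  have : f + u + f * u * MvPowerSeries.subst ![f, u] H - f =
      u * (1 + f * MvPowerSeries.subst ![f, u] H) := by ring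
  rw [this]
  exact Dvd.dvd.mul_right hdu _

private lemma dvd_negApprox_sub (k j : ℕ) : 𝕏 ^ (k + 1) ∣ negApprox F (k + j) - negApprox F k := by
  induction j with
  | zero => simp
  | succ j ih =>
    have h1 := dvd_negApprox_succ_sub F (k + j)
    have h2 : 𝕏 ^ (k + 1) ∣ negApprox F (k + j + 1) - negApprox F (k + j) :=
      (pow_dvd_pow 𝕏 (by omega)).trans h1
    have : negApprox F (k + (j + 1)) - negApprox F k =
        (negApprox F (k + j + 1) - negApprox F (k + j)) + (negApprox F (k + j) - negApprox F k) := by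
      rw [show k + (j + 1) = k + j + 1 by omega]; ring
    rw [this]
    exact dvd_add h2 ih

/-- The limit. -/
private noncomputable def negLim : PowerSeries R :=
  PowerSeries.mk fun d => PowerSeries.coeff d (negApprox F d)

private lemma dvd_negLim_sub (k : ℕ) : 𝕏 ^ (k + 1) ∣ negLim F - negApprox F k := by
  rw [PowerSeries.X_pow_dvd_iff]
  intro d hd
  have hd' : d ≤ k := by omega
  obtain ⟨j, rfl⟩ := Nat.exists_eq_add_of_le hd'
  have := PowerSeries.X_pow_dvd_iff.mp (dvd_negApprox_sub F d j) d (by omega)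
  rw [map_sub, sub_eq_zero] at this
  rw [map_sub, negLim, PowerSeries.coeff_mk, this, sub_self]

private lemma cc_negLim : PowerSeries.constantCoeff (negLim F) = 0 := by
  have := PowerSeries.X_pow_dvd_iff.mp (dvd_negLim_sub F 0) 0 (by omega)
  rw [map_sub, PowerSeries.coeff_zero_eq_constantCoeff_apply,
    PowerSeries.coeff_zero_eq_constantCoeff_apply, cc_negApprox F 0, sub_zero] at this
  exact this

private lemma Φ_negLim : Φ F (negLim F) = 0 := by
  ext d
  have h1 := Φ_congr F (cc_negLim F) (cc_negApprox F d) (dvd_negLim_sub F d)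
  have h2 := PowerSeries.X_pow_dvd_iff.mp h1 d (by omega)
  have h3 := PowerSeries.X_pow_dvd_iff.mp (dvd_Φ_negApprox F d) d (by omega)
  rw [map_sub, sub_eq_zero] at h2
  rw [h2, h3, map_zero]

/-- The formal inverse series `i_F`. -/
noncomputable def fgNeg : PowerSeries R := negLim F

@[simp] lemma constantCoeff_fgNeg : PowerSeries.constantCoeff (fgNeg F) = 0 := cc_negLim F

lemma hasSubst_fgNeg : PowerSeries.HasSubst (fgNeg F) :=
  PowerSeries.HasSubst.of_constantCoeff_zero' (constantCoeff_fgNeg F)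

/-- `F(X, i_F X) = 0`. -/
theorem fgAdd_X_fgNeg : fgAdd F 𝕏 (fgNeg F) = 0 := Φ_negLim F

/-- `i_F` applied to a point. -/
noncomputable def negPt (f : MvPowerSeries σ R) : MvPowerSeries σ R :=
  PowerSeries.subst f (fgNeg F)

lemma hasSubst_negPt {f : MvPowerSeries σ R} (hf : PowerSeries.HasSubst f) :
    PowerSeries.HasSubst (negPt F f) :=
  hasSubst_psubst (hasSubst_fgNeg F) hf

lemma constantCoeff_negPt {f : MvPowerSeries σ R} (hf : MvPowerSeries.constantCoeff f = 0) :
    MvPowerSeries.constantCoeff (negPt F f) = 0 :=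
  PowerSeries.constantCoeff_subst_eq_zero hf _ (constantCoeff_fgNeg F)

/-- `F(f, i_F f) = 0`. -/
theorem fgAdd_negPt {f : MvPowerSeries σ R} (hf : PowerSeries.HasSubst f) :
    fgAdd F f (negPt F f) = 0 := by
  have h := congrArg (PowerSeries.subst f) (fgAdd_X_fgNeg F)
  rw [psubst_fgAdd F PowerSeries.HasSubst.X' (hasSubst_fgNeg F) hf, PowerSeries.subst_X hf] at h
  have h0 : PowerSeries.subst f (0 : PowerSeries R) = 0 := by
    rw [← PowerSeries.coe_substAlgHom hf]; exact map_zero _
  rw [h0] at h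
  exact h

lemma negPt_X : negPt F 𝕏 = fgNeg F := PowerSeries.X_subst _

/-- `i_F (i_F X) = X`. -/
theorem negPt_fgNeg : negPt F (fgNeg F) = 𝕏 := by
  have hi := hasSubst_fgNeg F
  have hj := hasSubst_negPt F hi
  have hX : PowerSeries.HasSubst 𝕏 := PowerSeries.HasSubst.X'
  have h1 : fgAdd F (fgNeg F) (negPt F (fgNeg F)) = 0 := fgAdd_negPt F hi
  have h2 := fgAdd_assoc F hX hi hj
  rw [fgAdd_X_fgNeg, h1, fgAdd_zero F hX, zero_fgAdd F hj] at h2
  exact h2

/-- `F(i_F f, f) = 0`. -/
theorem negPt_fgAdd {f : MvPowerSeries σ R} (hf : PowerSeries.HasSubst f) :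
    fgAdd F (negPt F f) f = 0 := by
  have h1 : fgAdd F (fgNeg F) 𝕏 = 0 := by
    have := fgAdd_X_fgNeg F
    have h2 := fgAdd_negPt F (hasSubst_fgNeg F)
    rwa [negPt_fgNeg] at h2
  have h := congrArg (PowerSeries.subst f) h1
  rw [psubst_fgAdd F (hasSubst_fgNeg F) PowerSeries.HasSubst.X' hf, PowerSeries.subst_X hf] at h
  have h0 : PowerSeries.subst f (0 : PowerSeries R) = 0 := by
    rw [← PowerSeries.coe_substAlgHom hf]; exact map_zero _
  rw [h0] at h
  exact h

/-- Formal subtraction `f -_F g = F(f, i_F g)`. -/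
noncomputable def fgSub (f g : MvPowerSeries σ R) : MvPowerSeries σ R :=
  fgAdd F f (negPt F g)

lemma hasSubst_fgSub {f g : MvPowerSeries σ R} (hf : PowerSeries.HasSubst f)
    (hg : PowerSeries.HasSubst g) : PowerSeries.HasSubst (fgSub F f g) :=
  hasSubst_fgAdd F hf (hasSubst_negPt F hg)

lemma constantCoeff_fgSub {f g : MvPowerSeries σ R} (hf : MvPowerSeries.constantCoeff f = 0)
    (hg : MvPowerSeries.constantCoeff g = 0) : MvPowerSeries.constantCoeff (fgSub F f g) = 0 :=
  constantCoeff_fgAdd F hf (constantCoeff_negPt F hg)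

/-- `F(f -_F g, g) = f`. -/
theorem fgAdd_fgSub {f g : MvPowerSeries σ R} (hf : PowerSeries.HasSubst f)
    (hg : PowerSeries.HasSubst g) : fgAdd F (fgSub F f g) g = f := by
  rw [fgSub, fgAdd_assoc F hf (hasSubst_negPt F hg) hg, negPt_fgAdd F hg, fgAdd_zero F hf]

/-- `F(f, g) -_F g = f`. -/
theorem fgSub_fgAdd {f g : MvPowerSeries σ R} (hf : PowerSeries.HasSubst f)
    (hg : PowerSeries.HasSubst g) : fgSub F (fgAdd F f g) g = f := by
  rw [fgSub, fgAdd_assoc F hf hg (hasSubst_negPt F hg), fgAdd_negPt F hg, fgAdd_zero F hf]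

/-- Right cancellation. -/
theorem fgAdd_right_cancel {f f' g : MvPowerSeries σ R} (hf : PowerSeries.HasSubst f)
    (hf' : PowerSeries.HasSubst f') (hg : PowerSeries.HasSubst g)
    (h : fgAdd F f g = fgAdd F f' g) : f = f' := by
  rw [← fgSub_fgAdd F hf hg, h, fgSub_fgAdd F hf' hg]

/-- Left cancellation. -/
theorem fgAdd_left_cancel {f g g' : MvPowerSeries σ R} (hf : PowerSeries.HasSubst f)
    (hg : PowerSeries.HasSubst g) (hg' : PowerSeries.HasSubst g')
    (h : fgAdd F f g = fgAdd F f g') : g = g' := by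
  have hn := hasSubst_negPt F hf
  have e : ∀ u : MvPowerSeries σ R, PowerSeries.HasSubst u →
      fgAdd F (negPt F f) (fgAdd F f u) = u := by
    intro u hu
    rw [← fgAdd_assoc F hn hf hu, negPt_fgAdd F hf, zero_fgAdd F hu]
  rw [← e g hg, h, e g' hg']

/-- Uniqueness of the inverse. -/
theorem eq_negPt {f g : MvPowerSeries σ R} (hf : PowerSeries.HasSubst f)
    (hg : PowerSeries.HasSubst g) (h : fgAdd F f g = 0) : g = negPt F f := by
  refine fgAdd_left_cancel F hf hg (hasSubst_negPt F hf) ?_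
  rw [h, fgAdd_negPt F hf]

/-- Compatibility of `fgNeg` with ring homomorphisms. -/
theorem map_fgNeg (φ : R →+* S) :
    PowerSeries.map φ (fgNeg F) = fgNeg (F.map φ) := by
  have hi := hasSubst_fgNeg F
  have h : fgAdd (F.map φ) (PowerSeries.X : PowerSeries S) (PowerSeries.map φ (fgNeg F)) = 0 := by
    have h1 := congrArg (PowerSeries.map φ) (fgAdd_X_fgNeg F)
    rw [map_zero] at h1
    have h2 := map_fgAdd F φ (PowerSeries.HasSubst.X' (R := R)) hi
    have hXm : MvPowerSeries.map φ (PowerSeries.X : PowerSeries R) = (PowerSeries.X : PowerSeries S) :=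
      PowerSeries.map_X φ
    change PowerSeries.map φ _ = _ at h2
    rw [h1, hXm] at h2
    have h3 : MvPowerSeries.map φ (fgNeg F) = PowerSeries.map φ (fgNeg F) := rfl
    rw [h3] at h2
    exact h2.symm
  have := eq_negPt (F.map φ) (PowerSeries.HasSubst.X' (R := S))
    (PowerSeries.HasSubst.of_constantCoeff_zero' (by
      rw [← PowerSeries.coeff_zero_eq_constantCoeff_apply, PowerSeries.coeff_map,
        PowerSeries.coeff_zero_eq_constantCoeff_apply, constantCoeff_fgNeg, map_zero])) h
  rw [this, negPt_X]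

end neg

end Crest.Agent.LubinTate
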