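/-
Row 227 (S0351), module F-c-Transf, algebraic part (Blueprint F3).

The `p`-typical decomposition of a homomorphism: `E_0 = θ`, `α_j = coeff (p^j) E_j`,
`E_{j+1} = E_j -_F α_j X^{p^j}`.  If `F` has a `p`-typical logarithm `L` over a ring `K` (through a
ring hom `ι : O → K`), and `L ∘ θ = u L'` with `L'` `p`-typical, then
`u L'_M = ∑_{j ≤ M} L_{M-j} (ι α_j)^{p^{M-j}}`.
-/
import Crest.Agent.Lib.LubinTate.FGNeg

set_option autoImplicit false
set_option linter.unusedSectionVars false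

namespace Crest.Agent.LubinTate

open MvPowerSeries Crest.LubinTate

variable {O K : Type*} [CommRing O] [CommRing K]

section subst_mon

/-- Coefficient of `L (c X^D)`. -/
lemma coeff_subst_monomial (L : PowerSeries K) (c : K) {D : ℕ} (hD : D ≠ 0) (d : ℕ) :
    PowerSeries.coeff (D * d) (PowerSeries.subst (PowerSeries.C c * PowerSeries.X ^ D) L) =
      PowerSeries.coeff d L * c ^ d := by
  have hs : PowerSeries.HasSubst (PowerSeries.C c * PowerSeries.X ^ D : PowerSeries K) :=
    PowerSeries.HasSubst.of_constantCoeff_zero' (by simp [hD])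
  rw [PowerSeries.coeff_subst' hs, finsum_eq_single _ d]
  · rw [mul_pow, ← map_pow, ← pow_mul, PowerSeries.coeff_C_mul, PowerSeries.coeff_X_pow,
      if_pos rfl, mul_one, smul_eq_mul]
  · intro d' hd'
    rw [mul_pow, ← map_pow, ← pow_mul, PowerSeries.coeff_C_mul, PowerSeries.coeff_X_pow,
      if_neg, mul_zero, smul_zero]
    intro h
    apply hd'
    have : D * d = D * d' := by rw [h]
    exact (Nat.eq_of_mul_eq_mul_left (Nat.pos_of_ne_zero hD) this).symm

lemma coeff_subst_monomial_of_not_dvd (L : PowerSeries K) (c : K) {D : ℕ} (hD : D ≠ 0) (e : ℕ)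
    (he : ¬ D ∣ e) :
    PowerSeries.coeff e (PowerSeries.subst (PowerSeries.C c * PowerSeries.X ^ D) L) = 0 := by
  have hs : PowerSeries.HasSubst (PowerSeries.C c * PowerSeries.X ^ D : PowerSeries K) :=
    PowerSeries.HasSubst.of_constantCoeff_zero' (by simp [hD])
  rw [PowerSeries.coeff_subst' hs]
  refine finsum_eq_zero_of_forall_eq_zero fun d => ?_
  rw [mul_pow, ← map_pow, ← pow_mul, PowerSeries.coeff_C_mul, PowerSeries.coeff_X_pow,
    if_neg, mul_zero, smul_zero]
  intro h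
  exact he ⟨d, by rw [h]⟩

/-- Expansion `L(G) = G + G^2 M(G)`. -/
lemma exists_subst_expansion {L : PowerSeries K} (h0 : PowerSeries.constantCoeff L = 0)
    (h1 : PowerSeries.coeff 1 L = 1) :
    ∃ M : PowerSeries K, ∀ G : PowerSeries K, PowerSeries.HasSubst G →
      PowerSeries.subst G L = G + G ^ 2 * PowerSeries.subst G M := by
  refine ⟨PowerSeries.mk fun d => PowerSeries.coeff (d + 2) L, ?_⟩
  intro G hG
  have hL : L = PowerSeries.X + PowerSeries.X ^ 2 * PowerSeries.mk fun d => PowerSeries.coeff (d + 2) L := by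
    ext e
    rw [map_add]
    rcases e with _ | _ | e
    · simp [h0, PowerSeries.coeff_zero_eq_constantCoeff_apply]
    · rw [PowerSeries.coeff_X_pow_mul']
      simp [h1]
    · rw [PowerSeries.coeff_X_pow_mul', PowerSeries.coeff_X, if_neg (by omega)]
      simp [show 2 ≤ e + 1 + 1 by omega]
  conv_lhs => rw [hL]
  rw [PowerSeries.subst_add hG, PowerSeries.subst_mul hG, PowerSeries.subst_pow hG,
    PowerSeries.subst_X hG]

/-- If `L(E)` is divisible by `X^N`, so is `E`. -/
lemma dvd_of_dvd_subst {L E : PowerSeries K} (h0 : PowerSeries.constantCoeff L = 0)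
    (h1 : PowerSeries.coeff 1 L = 1) (hE : PowerSeries.constantCoeff E = 0) {N : ℕ}
    (h : PowerSeries.X ^ N ∣ PowerSeries.subst E L) : PowerSeries.X ^ N ∣ E := by
  obtain ⟨M, hM⟩ := exists_subst_expansion h0 h1
  have hEs : PowerSeries.HasSubst E := PowerSeries.HasSubst.of_constantCoeff_zero' hE
  have key : ∀ k, k ≤ N → PowerSeries.X ^ k ∣ E := by
    intro k
    induction k with
    | zero => intro _; simp
    | succ k ih =>
      intro hk
      rcases Nat.eq_zero_or_pos k with rfl | hk0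
      · simpa using PowerSeries.X_dvd_iff.mpr hE
      · have h2 : PowerSeries.X ^ (k + 1) ∣ E ^ 2 * PowerSeries.subst E M := by
          have h3 : (PowerSeries.X ^ k) ^ 2 ∣ E ^ 2 := pow_dvd_pow_of_dvd (ih (by omega)) 2
          have h4 : PowerSeries.X ^ (k + 1) ∣ (PowerSeries.X ^ k : PowerSeries K) ^ 2 := by
            rw [← pow_mul]; exact pow_dvd_pow _ (by omega)
          exact Dvd.dvd.mul_right (h4.trans h3) _
        have h3 : PowerSeries.X ^ (k + 1) ∣ PowerSeries.subst E L :=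
          (pow_dvd_pow _ hk).trans h
        rw [hM E hEs] at h3
        exact (dvd_add_left h2).mp h3
  exact key N le_rfl

end subst_mon

section additive

variable (K)

/-- An additive series over a `ℚ`-algebra is linear. -/
lemma additive_eq_linear [Algebra ℚ K] {φ : PowerSeries K}
    (h : IsFGHom (FormalGroup.𝔾ₐ (R := K)) FormalGroup.𝔾ₐ φ) :
    φ = PowerSeries.C (PowerSeries.coeff 1 φ) * PowerSeries.X := by
  have h2 := h.2
  have hp : MvPowerSeries.HasSubst
      ![PowerSeries.subst (X 0 : MvPowerSeries (Fin 2) K) φ,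
        PowerSeries.subst (X 1 : MvPowerSeries (Fin 2) K) φ] :=
    hasSubst_pair (hasSubst_psubst (fgHom_hasSubst h) (PowerSeries.HasSubst.X 0))
      (hasSubst_psubst (fgHom_hasSubst h) (PowerSeries.HasSubst.X 1))
  simp only [FormalGroup.𝔾ₐ_toPowerSeries] at h2
  rw [MvPowerSeries.subst_add hp, MvPowerSeries.subst_X hp, MvPowerSeries.subst_X hp] at h2
  ext e
  rw [PowerSeries.coeff_C_mul, PowerSeries.coeff_X]
  rcases e with _ | _ | d
  · simpa [PowerSeries.coeff_zero_eq_constantCoeff_apply] using h.1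
  · simp
  · have hc := congrArg (MvPowerSeries.coeff
      (Finsupp.single (0 : Fin 2) (d + 1) + Finsupp.single (1 : Fin 2) 1)) h2
    have h1 := PowerSeries.coeff_subst_X_zero_add_X_one φ
      (Finsupp.single (0 : Fin 2) (d + 1) + Finsupp.single (1 : Fin 2) 1)
    have e0 : (Finsupp.single (0 : Fin 2) (d + 1) + Finsupp.single (1 : Fin 2) 1 : Fin 2 →₀ ℕ) 0 = d + 1 := by simp
    have e1 : (Finsupp.single (0 : Fin 2) (d + 1) + Finsupp.single (1 : Fin 2) 1 : Fin 2 →₀ ℕ) 1 = 1 := by simp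
    rw [e0, e1] at h1
    have hz : ∀ i : Fin 2, MvPowerSeries.coeff
        (Finsupp.single (0 : Fin 2) (d + 1) + Finsupp.single (1 : Fin 2) 1)
        (PowerSeries.subst (X i : MvPowerSeries (Fin 2) K) φ) = 0 := by
      intro i
      rw [PowerSeries.coeff_subst_single, if_neg]
      intro hh
      have := DFunLike.congr_fun hh (1 - i)
      fin_cases i <;> simp at this
    have hm := by
      have := hc
      simp only [Matrix.cons_val_zero, Matrix.cons_val_one, Matrix.cons_val_fin_one, map_add, hz, add_zero] at this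
      exact this
    rw [show (X 0 + X 1 : MvPowerSeries (Fin 2) K) = (X 0 + X 1) from rfl, h1] at hm
    have hch : (((d + 1 + 1).choose (d + 1) : ℕ) : K) = ((d + 2 : ℕ) : K) := by
      congr 1
      rw [Nat.choose_succ_self_right]
    rw [hch] at hm
    have hne : ((d + 2 : ℕ) : K) * (algebraMap ℚ K ((d + 2 : ℕ) : ℚ)⁻¹) = 1 := by
      rw [← map_natCast (algebraMap ℚ K), ← map_mul, mul_inv_cancel₀ (by positivity), map_one]
    have : PowerSeries.coeff (d + 1 + 1) φ = 0 := by
      calc PowerSeries.coeff (d + 1 + 1) φ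
          = (algebraMap ℚ K ((d + 2 : ℕ) : ℚ)⁻¹) *
              (((d + 2 : ℕ) : K) * PowerSeries.coeff (d + 1 + 1) φ) := by
            rw [← mul_assoc, mul_comm (algebraMap ℚ K _), hne, one_mul]
        _ = 0 := by rw [hm, mul_zero]
    rw [this]
    simp

/-- A homomorphism to `𝔾ₐ` is a multiple of the logarithm. -/
theorem hom_eq_smul_log [Algebra ℚ K] {F : FormalGroup K} {L f : PowerSeries K}
    (hL : IsFGHom F FormalGroup.𝔾ₐ L) (hL1 : PowerSeries.coeff 1 L = 1)
    (hf : IsFGHom F FormalGroup.𝔾ₐ f) :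
    f = PowerSeries.C (PowerSeries.coeff 1 f) * L := by
  have hu : IsUnit (PowerSeries.coeff 1 L) := by rw [hL1]; exact isUnit_one
  set M := PowerSeries.substInvOfIsUnit L hu with hMdef
  have hM : IsFGHom FormalGroup.𝔾ₐ F M := fgHom_inv hL hu
  have hφ : IsFGHom (FormalGroup.𝔾ₐ (R := K)) FormalGroup.𝔾ₐ (PowerSeries.subst M f) :=
    fgHom_comp hf hM
  have hlin := additive_eq_linear K hφ
  have hLs : PowerSeries.HasSubst L := fgHom_hasSubst hL
  have hMs : PowerSeries.HasSubst M := fgHom_hasSubst hM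
  have hML : PowerSeries.subst L M = PowerSeries.X :=
    PowerSeries.subst_substInvOfIsUnit_left L hL.1 hu
  have hfe : f = PowerSeries.subst L (PowerSeries.subst M f) := by
    rw [PowerSeries.subst_comp_subst_apply hMs hLs, hML, PowerSeries.X_subst]
  have hc1 : PowerSeries.coeff 1 (PowerSeries.subst M f) = PowerSeries.coeff 1 f *
      PowerSeries.coeff 1 M := coeff_one_subst hM.1
  have hc2 : PowerSeries.coeff 1 M = 1 := by
    rw [hMdef, PowerSeries.coeff_one_substInvOfIsUnit]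
    simp [hL1]
  rw [hc2, mul_one] at hc1
  conv_lhs => rw [hfe, hlin, hc1]
  rw [PowerSeries.subst_mul hLs, PowerSeries.subst_X hLs, PowerSeries.subst_C]
  rfl

end additive


section fgAddGa

variable {σ : Type*}

lemma fgAdd_Ga {f g : MvPowerSeries σ K} (hf : PowerSeries.HasSubst f)
    (hg : PowerSeries.HasSubst g) : fgAdd (FormalGroup.𝔾ₐ (R := K)) f g = f + g := by
  have hp := hasSubst_pair hf hg
  simp only [fgAdd, FormalGroup.𝔾ₐ_toPowerSeries]
  rw [MvPowerSeries.subst_add hp, MvPowerSeries.subst_X hp, MvPowerSeries.subst_X hp]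
  rfl

/-- A log is additive on points. -/
lemma log_fgAdd {F : FormalGroup K} {L : PowerSeries K} (hL : IsFGHom F FormalGroup.𝔾ₐ L)
    {f g : MvPowerSeries σ K} (hf : PowerSeries.HasSubst f) (hg : PowerSeries.HasSubst g) :
    PowerSeries.subst (fgAdd F f g) L = PowerSeries.subst f L + PowerSeries.subst g L := by
  rw [fgHom_fgAdd hL hf hg, fgAdd_Ga (hasSubst_psubst (fgHom_hasSubst hL) hf)
    (hasSubst_psubst (fgHom_hasSubst hL) hg)]

end fgAddGa

section decomp

variable (F : FormalGroup O) (p : ℕ) (θ : PowerSeries O)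

/-- The decomposition sequence: `E_0 = θ`, `E_{j+1} = E_j -_F α_j X^{p^j}`. -/
noncomputable def dE : ℕ → PowerSeries O
  | 0 => θ
  | j + 1 => fgSub F (dE j) (PowerSeries.C (PowerSeries.coeff (p ^ j) (dE j)) * PowerSeries.X ^ (p ^ j))

/-- `α_j`. -/
noncomputable def dα (j : ℕ) : O := PowerSeries.coeff (p ^ j) (dE F p θ j)

/-- `α_j X^{p^j}`. -/
noncomputable def dA (j : ℕ) : PowerSeries O := PowerSeries.C (dα F p θ j) * PowerSeries.X ^ (p ^ j)

variable {F p θ}

lemma cc_dA (hp : p ≠ 0) (j : ℕ) : PowerSeries.constantCoeff (dA F p θ j) = 0 := by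
  rw [dA, map_mul, map_pow, PowerSeries.constantCoeff_X, zero_pow (pow_ne_zero j hp), mul_zero]

lemma cc_dE (hp : p ≠ 0) (hθ : PowerSeries.constantCoeff θ = 0) (j : ℕ) :
    PowerSeries.constantCoeff (dE F p θ j) = 0 := by
  induction j with
  | zero => exact hθ
  | succ j ih =>
    exact constantCoeff_fgSub F ih (cc_dA hp j)

lemma hasSubst_dA (hp : p ≠ 0) (j : ℕ) : PowerSeries.HasSubst (dA F p θ j) :=
  PowerSeries.HasSubst.of_constantCoeff_zero' (cc_dA hp j)

lemma hasSubst_dE (hp : p ≠ 0) (hθ : PowerSeries.constantCoeff θ = 0) (j : ℕ) :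
    PowerSeries.HasSubst (dE F p θ j) :=
  PowerSeries.HasSubst.of_constantCoeff_zero' (cc_dE hp hθ j)

lemma fgAdd_dE_succ (hp : p ≠ 0) (hθ : PowerSeries.constantCoeff θ = 0) (j : ℕ) :
    fgAdd F (dE F p θ (j + 1)) (dA F p θ j) = dE F p θ j :=
  fgAdd_fgSub F (hasSubst_dE hp hθ j) (hasSubst_dA hp j)

section log

variable {ι : O →+* K} {L L' : PowerSeries K} {u : K}

private lemma map_hasSubst {f : PowerSeries O} (hf : PowerSeries.constantCoeff f = 0) :
    PowerSeries.HasSubst (PowerSeries.map ι f) :=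
  PowerSeries.HasSubst.of_constantCoeff_zero' (by
    rw [← PowerSeries.coeff_zero_eq_constantCoeff_apply, PowerSeries.coeff_map,
      PowerSeries.coeff_zero_eq_constantCoeff_apply, hf, map_zero])

private lemma map_cc {f : PowerSeries O} (hf : PowerSeries.constantCoeff f = 0) :
    PowerSeries.constantCoeff (PowerSeries.map ι f) = 0 := by
  rw [← PowerSeries.coeff_zero_eq_constantCoeff_apply, PowerSeries.coeff_map,
      PowerSeries.coeff_zero_eq_constantCoeff_apply, hf, map_zero]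

/-- `L(E_{j+1}) + L(α_j X^{p^j}) = L(E_j)`. -/
lemma log_dE_succ (hL : IsFGHom (F.map ι) FormalGroup.𝔾ₐ L) (hp : p ≠ 0)
    (hθ : PowerSeries.constantCoeff θ = 0) (j : ℕ) :
    PowerSeries.subst (PowerSeries.map ι (dE F p θ (j + 1))) L +
      PowerSeries.subst (PowerSeries.map ι (dA F p θ j)) L =
    PowerSeries.subst (PowerSeries.map ι (dE F p θ j)) L := by
  have h := map_fgAdd F ι (hasSubst_dE (F := F) hp hθ (j + 1)) (hasSubst_dA (F := F) (θ := θ) hp j)
  rw [fgAdd_dE_succ hp hθ j] at h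
  have h2 : PowerSeries.map ι (dE F p θ j) = fgAdd (F.map ι)
      (PowerSeries.map ι (dE F p θ (j + 1))) (PowerSeries.map ι (dA F p θ j)) := h
  rw [h2, log_fgAdd hL (map_hasSubst (cc_dE hp hθ _)) (map_hasSubst (cc_dA hp _))]

lemma map_dA (j : ℕ) : PowerSeries.map ι (dA F p θ j) =
    PowerSeries.C (ι (dα F p θ j)) * PowerSeries.X ^ (p ^ j) := by
  simp [dA]

/-- The main induction: `X^{p^j} ∣ E_j`, and `L(E_j)` is `p`-typical. -/
theorem dE_spec (hp : 1 < p) (hθ : PowerSeries.constantCoeff θ = 0)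
    (hL : IsFGHom (F.map ι) FormalGroup.𝔾ₐ L) (hL1 : PowerSeries.coeff 1 L = 1)
    (hLs : ∀ e, (∀ m, e ≠ p ^ m) → PowerSeries.coeff e L = 0)
    (hL's : ∀ e, (∀ m, e ≠ p ^ m) → PowerSeries.coeff e L' = 0)
    (hrel : PowerSeries.subst (PowerSeries.map ι θ) L = PowerSeries.C u * L') (j : ℕ) :
    PowerSeries.X ^ (p ^ j) ∣ PowerSeries.map ι (dE F p θ j) ∧
      ∀ e, (∀ m, e ≠ p ^ m) →
        PowerSeries.coeff e (PowerSeries.subst (PowerSeries.map ι (dE F p θ j)) L) = 0 := by
  have hp0 : p ≠ 0 := by omega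
  obtain ⟨M, hM⟩ := exists_subst_expansion hL.1 hL1
  induction j with
  | zero =>
    refine ⟨?_, ?_⟩
    · simpa [dE] using PowerSeries.X_dvd_iff.mpr (map_cc (ι := ι) hθ)
    · intro e he
      change PowerSeries.coeff e (PowerSeries.subst (PowerSeries.map ι θ) L) = 0
      rw [hrel, PowerSeries.coeff_C_mul, hL's e he, mul_zero]
  | succ j ih =>
    obtain ⟨ih1, ih2⟩ := ih
    set G := PowerSeries.map ι (dE F p θ j) with hG
    set G' := PowerSeries.map ι (dE F p θ (j + 1)) with hG'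
    set c := ι (dα F p θ j) with hc
    have hPj : p ^ j ≠ 0 := pow_ne_zero j hp0
    have hA : PowerSeries.map ι (dA F p θ j) = PowerSeries.C c * PowerSeries.X ^ (p ^ j) := map_dA j
    have hrec := log_dE_succ (ι := ι) (F := F) (θ := θ) (p := p) hL hp0 hθ j
    rw [hA] at hrec
    have hsupp : ∀ e, (∀ m, e ≠ p ^ m) →
        PowerSeries.coeff e (PowerSeries.subst G' L) = 0 := by
      intro e he
      have h1 := congrArg (PowerSeries.coeff e) hrec
      rw [map_add, ih2 e he] at h1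
      by_cases hd : p ^ j ∣ e
      · obtain ⟨d, rfl⟩ := hd
        rw [coeff_subst_monomial L c hPj d, hLs d (fun m hm => he (m + j) (by
          rw [hm, pow_add, mul_comm])), zero_mul, add_zero] at h1
        exact h1
      · rw [coeff_subst_monomial_of_not_dvd L c hPj e hd, add_zero] at h1
        exact h1
    refine ⟨?_, hsupp⟩
    refine dvd_of_dvd_subst hL.1 hL1 (map_cc (cc_dE hp0 hθ _)) ?_
    rw [PowerSeries.X_pow_dvd_iff]
    intro e he
    by_cases hpow : ∀ m, e ≠ p ^ m
    · exact hsupp e hpow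
    · simp only [not_forall, not_not] at hpow
      obtain ⟨m, rfl⟩ := hpow
      have hmj : m < j + 1 := (Nat.pow_lt_pow_iff_right hp).mp he
      have h1 := congrArg (PowerSeries.coeff (p ^ m)) hrec
      rw [map_add] at h1
      -- coefficient of `L(G)` at `p^m`
      have hGs : PowerSeries.HasSubst G := map_hasSubst (cc_dE hp0 hθ _)
      have hLG : PowerSeries.coeff (p ^ m) (PowerSeries.subst G L) = PowerSeries.coeff (p ^ m) G := by
        rw [hM G hGs, map_add]
        have : PowerSeries.X ^ (2 * p ^ j) ∣ G ^ 2 * PowerSeries.subst G M := by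
          have h3 : (PowerSeries.X ^ (p ^ j)) ^ 2 ∣ G ^ 2 := pow_dvd_pow_of_dvd ih1 2
          rw [← pow_mul, mul_comm] at h3
          exact Dvd.dvd.mul_right h3 _
        have hlt : p ^ m < 2 * p ^ j := by
          have h5 : p ^ m ≤ p ^ j := Nat.pow_le_pow_right (by omega) (by omega)
          have h6 : 0 < p ^ j := Nat.pos_of_ne_zero hPj
          omega
        rw [PowerSeries.X_pow_dvd_iff.mp this _ hlt, add_zero]
      rw [hLG] at h1
      rcases Nat.lt_succ_iff_lt_or_eq.mp hmj with hlt | rfl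
      · -- `m < j`
        have h2 : PowerSeries.coeff (p ^ m) G = 0 :=
          PowerSeries.X_pow_dvd_iff.mp ih1 _ ((Nat.pow_lt_pow_iff_right hp).mpr hlt)
        have h3 : ¬ p ^ j ∣ p ^ m := fun hd =>
          absurd ((Nat.pow_dvd_pow_iff_le_right (by omega : 1 < p)).mp hd) (by omega)
        rw [h2, coeff_subst_monomial_of_not_dvd L c hPj _ h3, add_zero] at h1
        exact h1
      · -- `m = j`
        have h2 : PowerSeries.coeff (p ^ m) G = c := by
          rw [hG, PowerSeries.coeff_map]; rfl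
        have h3 := coeff_subst_monomial L c hPj 1
        rw [mul_one, hL1, one_mul, pow_one] at h3
        rw [h2, h3] at h1
        exact add_eq_right.mp h1

/-- The telescoped formula. -/
lemma log_dE_eq (hp : p ≠ 0) (hθ : PowerSeries.constantCoeff θ = 0)
    (hL : IsFGHom (F.map ι) FormalGroup.𝔾ₐ L)
    (hrel : PowerSeries.subst (PowerSeries.map ι θ) L = PowerSeries.C u * L') (j : ℕ) :
    PowerSeries.subst (PowerSeries.map ι (dE F p θ j)) L = PowerSeries.C u * L' -
      ∑ i ∈ Finset.range j, PowerSeries.subst (PowerSeries.map ι (dA F p θ i)) L := by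
  induction j with
  | zero => simpa [dE] using hrel
  | succ j ih =>
    have hrec := log_dE_succ (ι := ι) (F := F) (θ := θ) (p := p) hL hp hθ j
    rw [Finset.sum_range_succ, ← sub_sub, ← ih, ← hrec]
    ring

/-- **The finite transformation law.** -/
theorem transf_finite (hp : 1 < p) (hθ : PowerSeries.constantCoeff θ = 0)
    (hL : IsFGHom (F.map ι) FormalGroup.𝔾ₐ L) (hL1 : PowerSeries.coeff 1 L = 1)
    (hLs : ∀ e, (∀ m, e ≠ p ^ m) → PowerSeries.coeff e L = 0)
    (hL's : ∀ e, (∀ m, e ≠ p ^ m) → PowerSeries.coeff e L' = 0)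
    (hrel : PowerSeries.subst (PowerSeries.map ι θ) L = PowerSeries.C u * L') (M : ℕ) :
    u * PowerSeries.coeff (p ^ M) L' = ∑ j ∈ Finset.range (M + 1),
      PowerSeries.coeff (p ^ (M - j)) L * (ι (dα F p θ j)) ^ (p ^ (M - j)) := by
  have hp0 : p ≠ 0 := by omega
  obtain ⟨h1, -⟩ := dE_spec (F := F) hp hθ hL hL1 hLs hL's hrel (M + 1)
  have hEs : PowerSeries.HasSubst (PowerSeries.map ι (dE F p θ (M + 1))) :=
    map_hasSubst (cc_dE hp0 hθ _)
  obtain ⟨N, hN⟩ := exists_subst_expansion hL.1 hL1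
  have h2 : PowerSeries.X ^ (p ^ (M + 1)) ∣
      PowerSeries.subst (PowerSeries.map ι (dE F p θ (M + 1))) L := by
    rw [hN _ hEs]
    refine dvd_add h1 ?_
    have h3 := pow_dvd_pow_of_dvd h1 2
    rw [← pow_mul] at h3
    refine Dvd.dvd.mul_right (Dvd.dvd.trans (pow_dvd_pow _ ?_) h3) _
    have : 0 < p ^ (M + 1) := by positivity
    omega
  have h3 := PowerSeries.X_pow_dvd_iff.mp h2 (p ^ M)
    ((Nat.pow_lt_pow_iff_right hp).mpr (Nat.lt_succ_self M))
  rw [log_dE_eq hp0 hθ hL hrel, map_sub, PowerSeries.coeff_C_mul, map_sum, sub_eq_zero] at h3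
  rw [h3]
  refine Finset.sum_congr rfl fun j hj => ?_
  have hj' : j ≤ M := by simpa [Nat.lt_succ_iff] using hj
  have hpow : p ^ M = p ^ j * p ^ (M - j) := by
    rw [← pow_add]; congr 1; omega
  conv_lhs => rw [hpow]
  rw [map_dA, coeff_subst_monomial L _ (pow_ne_zero j hp0)]

end log

end decomp

/-- The relation `L ∘ θ = θ₁ L'` from the homomorphism property. -/
theorem log_comp_hom (K : Type*) [CommRing K] [Algebra ℚ K] {F F' : FormalGroup K} {θ L L' : PowerSeries K}
    (hθ : IsFGHom F' F θ) (hL : IsFGHom F FormalGroup.𝔾ₐ L) (hL1 : PowerSeries.coeff 1 L = 1)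
    (hL' : IsFGHom F' FormalGroup.𝔾ₐ L') (hL'1 : PowerSeries.coeff 1 L' = 1) :
    PowerSeries.subst θ L = PowerSeries.C (PowerSeries.coeff 1 θ) * L' := by
  have h := hom_eq_smul_log K hL' hL'1 (fgHom_comp hL hθ)
  rw [coeff_one_subst hθ.1, hL1, one_mul] at h
  exact h

section reduction

variable {S : Type*} [CommRing S]

private lemma map_hasSubst' (φ : O →+* S) {f : PowerSeries O} (hf : PowerSeries.constantCoeff f = 0) :
    PowerSeries.HasSubst (PowerSeries.map φ f) :=
  PowerSeries.HasSubst.of_constantCoeff_zero' (by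
    rw [← PowerSeries.coeff_zero_eq_constantCoeff_apply, PowerSeries.coeff_map,
      PowerSeries.coeff_zero_eq_constantCoeff_apply, hf, map_zero])

lemma map_fgSub (F : FormalGroup O) (φ : O →+* S) {f g : PowerSeries O}
    (hf : PowerSeries.constantCoeff f = 0) (hg : PowerSeries.constantCoeff g = 0) :
    PowerSeries.map φ (fgSub F f g) =
      fgSub (F.map φ) (PowerSeries.map φ f) (PowerSeries.map φ g) := by
  have hfs : PowerSeries.HasSubst f := PowerSeries.HasSubst.of_constantCoeff_zero' hf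
  have hgs : PowerSeries.HasSubst g := PowerSeries.HasSubst.of_constantCoeff_zero' hg
  have hm : ∀ {u : PowerSeries O}, PowerSeries.constantCoeff u = 0 →
      PowerSeries.HasSubst (PowerSeries.map φ u) := fun hu => map_hasSubst' φ hu
  have hsub : PowerSeries.constantCoeff (fgSub F f g) = 0 := constantCoeff_fgSub F hf hg
  refine fgAdd_right_cancel (F.map φ) (hm hsub)
    (hasSubst_fgSub (F.map φ) (hm hf) (hm hg)) (hm hg) ?_
  rw [fgAdd_fgSub (F.map φ) (hm hf) (hm hg)]
  have h := map_fgAdd F φ (PowerSeries.HasSubst.of_constantCoeff_zero' hsub) hgs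
  rw [fgAdd_fgSub F hfs hgs] at h
  exact h.symm

lemma map_dE (F : FormalGroup O) (φ : O →+* S) {p : ℕ} (hp : p ≠ 0) {θ : PowerSeries O}
    (hθ : PowerSeries.constantCoeff θ = 0) (j : ℕ) :
    PowerSeries.map φ (dE F p θ j) = dE (F.map φ) p (PowerSeries.map φ θ) j := by
  induction j with
  | zero => rfl
  | succ j ih =>
    simp only [dE]
    rw [map_fgSub F φ (cc_dE hp hθ j) (by
      rw [map_mul, map_pow, PowerSeries.constantCoeff_X, zero_pow (pow_ne_zero j hp), mul_zero]), ih]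
    congr 2
    rw [map_mul, map_pow, PowerSeries.map_X, PowerSeries.map_C, ← ih, PowerSeries.coeff_map]

lemma map_dα (F : FormalGroup O) (φ : O →+* S) {p : ℕ} (hp : p ≠ 0) {θ : PowerSeries O}
    (hθ : PowerSeries.constantCoeff θ = 0) (j : ℕ) :
    φ (dα F p θ j) = dα (F.map φ) p (PowerSeries.map φ θ) j := by
  rw [dα, dα, ← map_dE F φ hp hθ j, PowerSeries.coeff_map]

end reduction

section compute

variable {S : Type*} [CommRing S] (Γ : FormalGroup S) [Γ.IsComm] (p : ℕ) (ζ : S) (m : ℕ)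

/-- `g_{m,ζ} = X +_Γ ζ X^{p^m}`. -/
noncomputable def gmz : PowerSeries S :=
  fgAdd Γ PowerSeries.X (PowerSeries.C ζ * PowerSeries.X ^ (p ^ m))

variable {Γ p ζ m}

lemma cc_mono (hp : p ≠ 0) (a : S) (j : ℕ) :
    PowerSeries.constantCoeff (PowerSeries.C a * PowerSeries.X ^ (p ^ j) : PowerSeries S) = 0 := by
  rw [map_mul, map_pow, PowerSeries.constantCoeff_X, zero_pow (pow_ne_zero j hp), mul_zero]

lemma cc_gmz (hp : p ≠ 0) : PowerSeries.constantCoeff (gmz Γ p ζ m) = 0 :=
  constantCoeff_fgAdd Γ constantCoeff_X' (cc_mono hp ζ m)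

lemma coeff_one_gmz (hp : 1 < p) (hm : 1 ≤ m) : PowerSeries.coeff 1 (gmz Γ p ζ m) = 1 := by
  have hp0 : p ≠ 0 := by omega
  rw [gmz, coeff_one_fgAdd Γ constantCoeff_X' (cc_mono hp0 ζ m), PowerSeries.coeff_one_X,
    PowerSeries.coeff_C_mul, PowerSeries.coeff_X_pow, if_neg, mul_zero, add_zero]
  have : 1 < p ^ m := Nat.one_lt_pow (by omega) hp
  omega

lemma fgSub_zero' {f : PowerSeries S} (hf : PowerSeries.constantCoeff f = 0) :
    fgSub Γ f 0 = f := by
  have hfs : PowerSeries.HasSubst f := PowerSeries.HasSubst.of_constantCoeff_zero' hf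
  have h := fgSub_fgAdd Γ hfs (PowerSeries.HasSubst.zero')
  rwa [fgAdd_zero Γ hfs] at h

lemma fgSub_self' {f : PowerSeries S} (hf : PowerSeries.constantCoeff f = 0) :
    fgSub Γ f f = 0 :=
  fgAdd_negPt Γ (PowerSeries.HasSubst.of_constantCoeff_zero' hf)

/-- The decomposition of `g_{m,ζ}`, first step. -/
lemma dE_one_gmz (hp : 1 < p) (hm : 1 ≤ m) :
    dE Γ p (gmz Γ p ζ m) 1 = PowerSeries.C ζ * PowerSeries.X ^ (p ^ m) := by
  have hp0 : p ≠ 0 := by omega
  have h1 : PowerSeries.coeff (p ^ 0) (dE Γ p (gmz Γ p ζ m) 0) = 1 := by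
    rw [pow_zero]; exact coeff_one_gmz hp hm
  simp only [dE]
  have h1' : PowerSeries.coeff (p ^ 0) (gmz Γ p ζ m) = 1 := h1
  rw [h1']
  simp only [map_one, pow_zero, pow_one, one_mul]
  have hA : PowerSeries.HasSubst (PowerSeries.C ζ * PowerSeries.X ^ (p ^ m) : PowerSeries S) :=
    PowerSeries.HasSubst.of_constantCoeff_zero' (cc_mono hp0 ζ m)
  rw [gmz, fgAdd_comm Γ PowerSeries.HasSubst.X' hA]
  exact fgSub_fgAdd Γ hA PowerSeries.HasSubst.X'

/-- `dE j` for `1 ≤ j ≤ m`. -/
lemma dE_gmz_le (hp : 1 < p) (hm : 1 ≤ m) (j : ℕ) (hj : j + 1 ≤ m) :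
    dE Γ p (gmz Γ p ζ m) (j + 1) = PowerSeries.C ζ * PowerSeries.X ^ (p ^ m) := by
  have hp0 : p ≠ 0 := by omega
  induction j with
  | zero => exact dE_one_gmz hp hm
  | succ j ih =>
    have ih' := ih (by omega)
    rw [show j + 1 + 1 = (j + 1) + 1 by rfl]
    simp only [dE] at ih' ⊢
    rw [ih']
    have hc : PowerSeries.coeff (p ^ (j + 1))
        (PowerSeries.C ζ * PowerSeries.X ^ (p ^ m) : PowerSeries S) = 0 := by
      rw [PowerSeries.coeff_C_mul, PowerSeries.coeff_X_pow, if_neg, mul_zero]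
      intro h
      have := Nat.pow_right_injective hp h
      omega
    rw [hc]
    simp only [map_zero, zero_mul]
    exact fgSub_zero' (cc_mono hp0 ζ m)

lemma dα_gmz_zero (hp : 1 < p) (hm : 1 ≤ m) : dα Γ p (gmz Γ p ζ m) 0 = 1 := by
  rw [dα, pow_zero]; exact coeff_one_gmz hp hm

lemma dα_gmz_mid (hp : 1 < p) (hm : 1 ≤ m) {j : ℕ} (hj0 : 1 ≤ j) (hj : j < m) :
    dα Γ p (gmz Γ p ζ m) j = 0 := by
  obtain ⟨i, rfl⟩ : ∃ i, j = i + 1 := ⟨j - 1, by omega⟩
  rw [dα, dE_gmz_le hp hm i (by omega), PowerSeries.coeff_C_mul, PowerSeries.coeff_X_pow, if_neg,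
    mul_zero]
  intro h
  have := Nat.pow_right_injective hp h
  omega

lemma dα_gmz_self (hp : 1 < p) (hm : 1 ≤ m) : dα Γ p (gmz Γ p ζ m) m = ζ := by
  obtain ⟨i, rfl⟩ : ∃ i, m = i + 1 := ⟨m - 1, by omega⟩
  rw [dα, dE_gmz_le hp hm i (by omega), PowerSeries.coeff_C_mul, PowerSeries.coeff_X_pow, if_pos rfl,
    mul_one]

lemma dE_gmz_gt (hp : 1 < p) (hm : 1 ≤ m) (j : ℕ) :
    dE Γ p (gmz Γ p ζ m) (m + 1 + j) = 0 := by
  have hp0 : p ≠ 0 := by omega
  induction j with
  | zero =>
    have h := dE_gmz_le (Γ := Γ) (ζ := ζ) hp hm (m - 1) (by omega)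
    have hmm : m - 1 + 1 = m := by omega
    rw [hmm] at h
    simp only [dE]
    rw [h]
    have hc : PowerSeries.coeff (p ^ m)
        (PowerSeries.C ζ * PowerSeries.X ^ (p ^ m) : PowerSeries S) = ζ := by
      rw [PowerSeries.coeff_C_mul, PowerSeries.coeff_X_pow, if_pos rfl, mul_one]
    rw [hc]
    exact fgSub_self' (cc_mono hp0 ζ m)
  | succ j ih =>
    rw [show m + 1 + (j + 1) = (m + 1 + j) + 1 by ring]
    simp only [dE]
    rw [ih]
    simp only [map_zero, zero_mul]
    exact fgSub_zero' (by simp)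

lemma dα_gmz_gt (hp : 1 < p) (hm : 1 ≤ m) {j : ℕ} (hj : m < j) :
    dα Γ p (gmz Γ p ζ m) j = 0 := by
  obtain ⟨i, rfl⟩ : ∃ i, j = m + 1 + i := ⟨j - m - 1, by omega⟩
  rw [dα, dE_gmz_gt hp hm i, map_zero]

end compute

end Crest.Agent.LubinTate
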