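/-
Row 227 (S0351).  Endomorphisms of `Γ₀` (Blueprint A3.4, last line): `X ↦ aX` and `X ↦ X^p` are
endomorphisms of `Γ₀`; so `g_{m,ζ} = X +_Γ₀ ζ X^{p^m}` is an automorphism, `≡ X mod X^{p^m}`.
-/
import Crest.Agent.Lib.LubinTate.ZeroTransfAlg
import Crest.Agent.Lib.LubinTate.HazAPI

set_option autoImplicit false
set_option linter.unusedSectionVars false

namespace Crest.Agent.LT

open Crest.LubinTate Crest.Agent.LubinTate

noncomputable section

section general

variable {R : Type*} [CommRing R] (F : FormalGroup R)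

/-- `X ↦ aX` is an endomorphism when `a^{e₀+e₁} c_e = a c_e`. -/
theorem isFGHom_scalar (a : R)
    (h : ∀ e : Fin 2 →₀ ℕ, a ^ (e 0 + e 1) * MvPowerSeries.coeff e F.toPowerSeries =
      a * MvPowerSeries.coeff e F.toPowerSeries) :
    IsFGHom F F (PowerSeries.C a * PowerSeries.X) := by
  have hc : PowerSeries.constantCoeff (PowerSeries.C a * PowerSeries.X : PowerSeries R) = 0 := by
    simp
  refine ⟨hc, ?_⟩
  have hF : PowerSeries.HasSubst F.toPowerSeries :=
    PowerSeries.HasSubst.of_constantCoeff_zero F.zero_constantCoeff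
  rw [PowerSeries.subst_mul hF, PowerSeries.subst_C, PowerSeries.subst_X hF]
  have hX : ∀ i : Fin 2, PowerSeries.subst (MvPowerSeries.X i : MvPowerSeries (Fin 2) R)
      (PowerSeries.C a * PowerSeries.X : PowerSeries R) = MvPowerSeries.C a * MvPowerSeries.X i := by
    intro i
    have hs : PowerSeries.HasSubst (MvPowerSeries.X i : MvPowerSeries (Fin 2) R) :=
      PowerSeries.HasSubst.X i
    rw [PowerSeries.subst_mul hs, PowerSeries.subst_C, PowerSeries.subst_X hs]
  rw [hX 0, hX 1]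
  have hv : (![MvPowerSeries.C a * MvPowerSeries.X 0, MvPowerSeries.C a * MvPowerSeries.X 1] :
      Fin 2 → MvPowerSeries (Fin 2) R) =
      (fun _ : Fin 2 => a) • (MvPowerSeries.X : Fin 2 → MvPowerSeries (Fin 2) R) := by
    ext1 i
    fin_cases i <;> simp [MvPowerSeries.smul_eq_C_mul]
  rw [hv, ← MvPowerSeries.rescale_eq_subst]
  ext e
  rw [MvPowerSeries.coeff_rescale, MvPowerSeries.coeff_C_mul, ← h e]
  congr 1
  rw [Finsupp.prod_fintype _ _ (fun s => by simp)]
  simp [Fin.prod_univ_two, pow_add]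

/-- `X ↦ X^p` is an endomorphism when the coefficients are fixed by Frobenius. -/
theorem isFGHom_X_pow (p : ℕ) [hp : Fact p.Prime] [ExpChar R p]
    (h : ∀ e : Fin 2 →₀ ℕ, (MvPowerSeries.coeff e F.toPowerSeries) ^ p =
      MvPowerSeries.coeff e F.toPowerSeries) :
    IsFGHom F F (PowerSeries.X ^ p) := by
  have hp0 : p ≠ 0 := hp.out.ne_zero
  have hc : PowerSeries.constantCoeff (PowerSeries.X ^ p : PowerSeries R) = 0 := by
    rw [map_pow, PowerSeries.constantCoeff_X, zero_pow hp0]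
  refine ⟨hc, ?_⟩
  have hF : PowerSeries.HasSubst F.toPowerSeries :=
    PowerSeries.HasSubst.of_constantCoeff_zero F.zero_constantCoeff
  rw [PowerSeries.subst_pow hF, PowerSeries.subst_X hF]
  have hX : ∀ i : Fin 2, PowerSeries.subst (MvPowerSeries.X i : MvPowerSeries (Fin 2) R)
      (PowerSeries.X ^ p : PowerSeries R) = MvPowerSeries.X i ^ p := by
    intro i
    have hs : PowerSeries.HasSubst (MvPowerSeries.X i : MvPowerSeries (Fin 2) R) :=
      PowerSeries.HasSubst.X i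
    rw [PowerSeries.subst_pow hs, PowerSeries.subst_X hs]
  rw [hX 0, hX 1]
  have hv : (![MvPowerSeries.X 0 ^ p, MvPowerSeries.X 1 ^ p] :
      Fin 2 → MvPowerSeries (Fin 2) R) =
      fun i : Fin 2 => (MvPowerSeries.X i : MvPowerSeries (Fin 2) R) ^ p := by
    ext1 i
    fin_cases i <;> simp
  rw [hv]
  have hmap : MvPowerSeries.map (frobenius R p) F.toPowerSeries = F.toPowerSeries := by
    ext e
    rw [MvPowerSeries.coeff_map]
    exact h e
  have h2 : MvPowerSeries.expand p hp0 F.toPowerSeries = F.toPowerSeries ^ p := by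
    conv_lhs => rw [← hmap]
    rw [← MvPowerSeries.map_expand, MvPowerSeries.map_frobenius_expand]
  rw [← h2, MvPowerSeries.expand, MvPowerSeries.substAlgHom_apply]

/-- Powers of the Frobenius. -/
theorem isFGHom_X_pow_pow (p : ℕ) [hp : Fact p.Prime] [ExpChar R p]
    (h : ∀ e : Fin 2 →₀ ℕ, (MvPowerSeries.coeff e F.toPowerSeries) ^ p =
      MvPowerSeries.coeff e F.toPowerSeries) (m : ℕ) :
    IsFGHom F F (PowerSeries.X ^ (p ^ m)) := by
  have hp0 : p ≠ 0 := hp.out.ne_zero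
  induction m with
  | zero => simpa using isFGHom_id F
  | succ m ih =>
    have h1 := fgHom_comp ih (isFGHom_X_pow F p h)
    have hs : PowerSeries.HasSubst (PowerSeries.X ^ p : PowerSeries R) :=
      PowerSeries.HasSubst.X_pow hp0
    rw [PowerSeries.subst_pow hs, PowerSeries.subst_X hs, ← pow_mul, ← pow_succ'] at h1
    exact h1

/-- `a X^{p^m}`. -/
theorem isFGHom_mono (p : ℕ) [hp : Fact p.Prime] [ExpChar R p]
    (h : ∀ e : Fin 2 →₀ ℕ, (MvPowerSeries.coeff e F.toPowerSeries) ^ p =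
      MvPowerSeries.coeff e F.toPowerSeries) (a : R)
    (h' : ∀ e : Fin 2 →₀ ℕ, a ^ (e 0 + e 1) * MvPowerSeries.coeff e F.toPowerSeries =
      a * MvPowerSeries.coeff e F.toPowerSeries) (m : ℕ) :
    IsFGHom F F (PowerSeries.C a * PowerSeries.X ^ (p ^ m)) := by
  have hp0 : p ≠ 0 := hp.out.ne_zero
  have h1 := fgHom_comp (isFGHom_scalar F a h') (isFGHom_X_pow_pow F p h m)
  have hs : PowerSeries.HasSubst (PowerSeries.X ^ (p ^ m) : PowerSeries R) :=
    PowerSeries.HasSubst.X_pow (pow_ne_zero m hp0)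
  rw [PowerSeries.subst_mul hs, PowerSeries.subst_C, PowerSeries.subst_X hs] at h1
  exact h1

/-- `g_{m,ζ}` is an automorphism. -/
theorem isFGAut_gmz (p : ℕ) [hp : Fact p.Prime] [ExpChar R p] [F.IsComm]
    (h : ∀ e : Fin 2 →₀ ℕ, (MvPowerSeries.coeff e F.toPowerSeries) ^ p =
      MvPowerSeries.coeff e F.toPowerSeries) (a : R)
    (h' : ∀ e : Fin 2 →₀ ℕ, a ^ (e 0 + e 1) * MvPowerSeries.coeff e F.toPowerSeries =
      a * MvPowerSeries.coeff e F.toPowerSeries) {m : ℕ} (hm : 1 ≤ m) :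
    IsFGAut F (gmz F p a m) := by
  refine ⟨fgHom_add (isFGHom_id F) (isFGHom_mono F p h a h' m), ?_⟩
  rw [coeff_one_gmz hp.out.one_lt hm]
  exact isUnit_one

/-- `g_{m,ζ} ≡ X mod X^{p^m}`. -/
theorem coeff_gmz_low (p : ℕ) [hp : Fact p.Prime] (a : R) (m i : ℕ) (hi : i < p ^ m) :
    PowerSeries.coeff i (gmz F p a m) = PowerSeries.coeff i PowerSeries.X := by
  have hp0 : p ≠ 0 := hp.out.ne_zero
  obtain ⟨H, hH⟩ := exists_fgAdd_expansion F
  have hu : PowerSeries.HasSubst (PowerSeries.C a * PowerSeries.X ^ (p ^ m) : PowerSeries R) :=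
    PowerSeries.HasSubst.of_constantCoeff_zero' (cc_mono hp0 a m)
  rw [gmz, hH PowerSeries.HasSubst.X' hu]
  have hd : (PowerSeries.X ^ (p ^ m) : PowerSeries R) ∣
      (PowerSeries.C a * PowerSeries.X ^ (p ^ m) : PowerSeries R) := Dvd.intro_left _ rfl
  have e1 : PowerSeries.coeff i (PowerSeries.C a * PowerSeries.X ^ (p ^ m) : PowerSeries R) = 0 :=
    PowerSeries.X_pow_dvd_iff.mp hd i hi
  have hd2 : (PowerSeries.X ^ (p ^ m) : PowerSeries R) ∣ PowerSeries.X *
      (PowerSeries.C a * PowerSeries.X ^ (p ^ m)) *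
      MvPowerSeries.subst ![PowerSeries.X, PowerSeries.C a * PowerSeries.X ^ (p ^ m)] H :=
    Dvd.dvd.mul_right (Dvd.dvd.mul_left hd _) _
  have e2 := PowerSeries.X_pow_dvd_iff.mp hd2 i hi
  simp only [map_add]
  rw [e1, e2]
  simp

end general

variable (p : ℕ) [hpf : Fact p.Prime] (n : ℕ) [hn0 : NeZero n]

/-- `g_{m,ζ}` is an automorphism of `Γ₀`. -/
theorem isFGAut_Gamma0_gmz (a : kk p n) {m : ℕ} (hm : 1 ≤ m) :
    IsFGAut (Gamma0 p n) (gmz (Gamma0 p n) p a m) :=
  isFGAut_gmz (Gamma0 p n) p (Gamma0_coeff_frob p n) a (Gamma0_coeff_scalar p n a) hm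

/-- `X ↦ a X^{p^m}` is an endomorphism of `Γ₀`. -/
theorem isFGHom_Gamma0_mono (a : kk p n) (m : ℕ) :
    IsFGHom (Gamma0 p n) (Gamma0 p n) (PowerSeries.C a * PowerSeries.X ^ (p ^ m)) :=
  isFGHom_mono (Gamma0 p n) p (Gamma0_coeff_frob p n) a (Gamma0_coeff_scalar p n a) m

end

end Crest.Agent.LT
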