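/-
S0351 (row 227), part of module E-d-Main (BLUEPRINT E11): the automorphisms
`α = X +_Γ Σ^Γ_{l} a_l X^(p^(e_l))` of `Γ₀`, at the level of power series over `k`.
-/
import Crest.Agent.Lib.LubinTate.Gamma0Endo

set_option autoImplicit false
set_option linter.unusedSectionVars false

namespace Crest.Agent.LT

open Crest.LubinTate

variable (p : ℕ) [hp : Fact p.Prime] (n : ℕ) [NeZero n]

local notation "Γ₀" => Gamma0 p n

/-- The series `α_l = X +_Γ a_0 X^(p^(e_0)) +_Γ … +_Γ a_{l-1} X^(p^(e_{l-1}))`. -/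
noncomputable def digitSeries (a : ℕ → kk p n) (e : ℕ → ℕ) : ℕ → PowerSeries (kk p n)
  | 0 => PowerSeries.X
  | l + 1 => Crest.Agent.LubinTate.fgAdd (Γ₀) (digitSeries a e l)
      (PowerSeries.C (a l) * PowerSeries.X ^ p ^ e l)

theorem digitSeries_zero (a : ℕ → kk p n) (e : ℕ → ℕ) :
    digitSeries p n a e 0 = PowerSeries.X := rfl

theorem digitSeries_succ (a : ℕ → kk p n) (e : ℕ → ℕ) (l : ℕ) :
    digitSeries p n a e (l + 1) = Crest.Agent.LubinTate.fgAdd (Γ₀) (digitSeries p n a e l)
      (PowerSeries.C (a l) * PowerSeries.X ^ p ^ e l) := rfl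

theorem isFGHom_digitSeries (a : ℕ → kk p n) (e : ℕ → ℕ) (l : ℕ) :
    IsFGHom (Γ₀) (Γ₀) (digitSeries p n a e l) := by
  induction l with
  | zero => exact Crest.Agent.LubinTate.isFGHom_id _
  | succ l ih =>
    exact Crest.Agent.LubinTate.fgHom_add ih (isFGHom_Gamma0_mono p n (a l) (e l))

/-- Low coefficients of `α_l`. -/
theorem coeff_digitSeries (a : ℕ → kk p n) (e : ℕ → ℕ) (M : ℕ) (he : ∀ l, M ≤ p ^ e l) (l : ℕ) :
    ∀ i, i < M → PowerSeries.coeff i (digitSeries p n a e l) =
      PowerSeries.coeff i (PowerSeries.X : PowerSeries (kk p n)) := by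
  induction l with
  | zero => intro i _; rfl
  | succ l ih =>
    intro i hi
    obtain ⟨H, hH⟩ := Crest.Agent.LubinTate.exists_fgAdd_expansion (Γ₀)
    have hf : PowerSeries.HasSubst (digitSeries p n a e l) :=
      PowerSeries.HasSubst.of_constantCoeff_zero (isFGHom_digitSeries p n a e l).1
    have hg : PowerSeries.HasSubst (PowerSeries.C (a l) * PowerSeries.X ^ p ^ e l :
        PowerSeries (kk p n)) :=
      PowerSeries.HasSubst.of_constantCoeff_zero (isFGHom_Gamma0_mono p n (a l) (e l)).1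
    rw [digitSeries_succ, hH hf hg, map_add, map_add, ih i hi]
    have hdiv : ∀ w : PowerSeries (kk p n), PowerSeries.coeff i
        ((PowerSeries.C (a l) * PowerSeries.X ^ p ^ e l) * w) = 0 := by
      intro w
      have : (PowerSeries.C (a l) * PowerSeries.X ^ p ^ e l) * w =
          PowerSeries.X ^ p ^ e l * (PowerSeries.C (a l) * w) := by ring
      rw [this, PowerSeries.coeff_X_pow_mul', if_neg (by have := he l; omega)]
    have h1 := hdiv 1
    rw [mul_one] at h1
    have h2 : digitSeries p n a e l * (PowerSeries.C (a l) * PowerSeries.X ^ p ^ e l) *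
        MvPowerSeries.subst ![digitSeries p n a e l,
          PowerSeries.C (a l) * PowerSeries.X ^ p ^ e l] H =
        (PowerSeries.C (a l) * PowerSeries.X ^ p ^ e l) * (digitSeries p n a e l *
        MvPowerSeries.subst ![digitSeries p n a e l,
          PowerSeries.C (a l) * PowerSeries.X ^ p ^ e l] H) := by ring
    rw [h2, h1, hdiv]
    simp

/-- The linear coefficient of `α_l` is `1`. -/
theorem coeff_one_digitSeries (a : ℕ → kk p n) (e : ℕ → ℕ) (he : ∀ l, 2 ≤ p ^ e l) (l : ℕ) :
    PowerSeries.coeff 1 (digitSeries p n a e l) = 1 := by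
  have := coeff_digitSeries p n a e 2 he l 1 (by norm_num)
  simpa using this

theorem isFGAut_digitSeries (a : ℕ → kk p n) (e : ℕ → ℕ) (he : ∀ l, 2 ≤ p ^ e l) (l : ℕ) :
    IsFGAut (Γ₀) (digitSeries p n a e l) :=
  ⟨isFGHom_digitSeries p n a e l, by rw [coeff_one_digitSeries p n a e he l]; exact isUnit_one⟩

end Crest.Agent.LT
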