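import Mathlib

/-!
Row 227, module E-c-Step, Steps 2 and 3 of the blueprint (E5): the one-variable core
(root count over the residue field + pigeonhole).  Self-contained.
-/

set_option autoImplicit false

open Filter Topology
open scoped Valued NormedField

namespace Crest.Agent.LT

variable {K : Type*} [NontriviallyNormedField K] [IsUltrametricDist K]

/-- In the residue field: two elements at distance one have different residues. -/
lemma res_ne_of_norm_sub_eq_one (a b : 𝒪[K]) (h : ‖(a : K) - b‖ = 1) :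
    IsLocalRing.residue 𝒪[K] a ≠ IsLocalRing.residue 𝒪[K] b := by
  intro hab
  have h1 : IsLocalRing.residue 𝒪[K] (a - b) = 0 := by simp [hab]
  have h2 : a - b ∈ IsLocalRing.maximalIdeal 𝒪[K] := by
    rwa [IsLocalRing.residue_eq_zero_iff] at h1
  have h3 : ¬ IsUnit (a - b) := by
    simpa [IsLocalRing.mem_maximalIdeal, mem_nonunits_iff] using h2
  apply h3
  rw [Valued.integer.isUnit_iff_norm_eq_one]
  simpa using h

/-- The residue of an element of norm one is nonzero. -/
lemma res_ne_zero_of_norm_eq_one (a : 𝒪[K]) (h : ‖(a : K)‖ = 1) :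
    IsLocalRing.residue 𝒪[K] a ≠ 0 := by
  intro h1
  have h2 : a ∈ IsLocalRing.maximalIdeal 𝒪[K] := by
    rwa [IsLocalRing.residue_eq_zero_iff] at h1
  have h3 : ¬ IsUnit a := by
    simpa [IsLocalRing.mem_maximalIdeal, mem_nonunits_iff] using h2
  exact h3 ((Valued.integer.isUnit_iff_norm_eq_one).2 h)

/-- An element of the unit ball whose residue is nonzero has norm one. -/
lemma norm_eq_one_of_res_ne_zero (a : 𝒪[K]) (h : IsLocalRing.residue 𝒪[K] a ≠ 0) :
    ‖(a : K)‖ = 1 := by
  change ‖a‖ = 1
  rw [← Valued.integer.isUnit_iff_norm_eq_one]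
  by_contra h3
  apply h
  rw [IsLocalRing.residue_eq_zero_iff]
  simpa [IsLocalRing.mem_maximalIdeal, mem_nonunits_iff] using h3

/-- The root-count bound over a field: the multiplicities of the roots in a finite set sum to at
most the degree. -/
lemma sum_rootMultiplicity_le {F : Type*} [Field F] (H : Polynomial F)
    (T : Finset F) : ∑ a ∈ T, H.rootMultiplicity a ≤ H.natDegree := by
  classical
  have h1 : ∑ a ∈ T, H.rootMultiplicity a ≤ ∑ a ∈ T ∪ H.roots.toFinset, H.roots.count a := by
    calc ∑ a ∈ T, H.rootMultiplicity a = ∑ a ∈ T, H.roots.count a := by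
          apply Finset.sum_congr rfl
          intro a _
          rw [Polynomial.count_roots]
      _ ≤ _ := Finset.sum_le_sum_of_subset Finset.subset_union_left
  have h2 : ∑ a ∈ T ∪ H.roots.toFinset, H.roots.count a = Multiset.card H.roots := by
    apply Multiset.sum_count_eq_card
    intro a ha
    exact Finset.mem_union_right _ (Multiset.mem_toFinset.2 ha)
  calc _ ≤ _ := h1
    _ = _ := h2
    _ ≤ _ := Polynomial.card_roots' H


open Polynomial in
/-- **Steps 2 and 3 of E5: the one-variable core.**  A sequence `G b` in the unit ball, tending to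
zero, of norm one at `bs` and of norm `< 1` beyond.  For a finite set `A` of points of the unit ball
at mutual distance one, there are `a ∈ A` and a multiplicity `κ` with `|A| κ ≤ bs` such that the
coefficient of `ζ ^ κ` in `∑ b, G b (ζ + a) ^ b` has norm one. -/
theorem slice_pigeonhole [CompleteSpace K] (G : ℕ → K) (hG1 : ∀ b, ‖G b‖ ≤ 1)
    (hG0 : Tendsto G atTop (𝓝 0)) (bs : ℕ) (hbs : ‖G bs‖ = 1)
    (hbs' : ∀ b, bs < b → ‖G b‖ < 1) (A : Finset K) (hA0 : A.Nonempty)
    (hA1 : ∀ a ∈ A, ‖a‖ ≤ 1)
    (hA2 : ∀ a ∈ A, ∀ a' ∈ A, a ≠ a' → ‖a - a'‖ = 1) :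
    ∃ a ∈ A, ∃ κ : ℕ, A.card * κ ≤ bs ∧
      ‖∑' b : ℕ, G (b + κ) * ((b + κ).choose κ : K) * a ^ b‖ = 1 := by
  classical
  -- the residue polynomial
  let g : ℕ → 𝒪[K] := fun b => ⟨G b, Valued.integer.mem_iff.2 (hG1 b)⟩
  have hg : ∀ b, ((g b : 𝒪[K]) : K) = G b := fun b => rfl
  let res := IsLocalRing.residue 𝒪[K]
  let H : (IsLocalRing.ResidueField 𝒪[K])[X] :=
    ∑ b ∈ Finset.range (bs + 1), C (res (g b)) * X ^ b
  have hcoef : ∀ m, H.coeff m = if m ≤ bs then res (g m) else 0 := by
    intro m
    simp only [H, finsetSum_coeff, coeff_C_mul, coeff_X_pow]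
    by_cases hm : m ≤ bs
    · rw [if_pos hm, Finset.sum_eq_single m]
      · simp
      · intro b _ hb
        simp [Ne.symm hb]
      · intro h
        exact absurd (Finset.mem_range.2 (Nat.lt_succ_of_le hm)) h
    · rw [if_neg hm]
      apply Finset.sum_eq_zero
      intro b hb
      have : b ≤ bs := Nat.lt_succ_iff.1 (Finset.mem_range.1 hb)
      have hne : m ≠ b := by omega
      simp [hne]
  have hbs0 : res (g bs) ≠ 0 := res_ne_zero_of_norm_eq_one _ (by rw [hg]; exact hbs)
  have hH0 : H ≠ 0 := by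
    intro h
    have := hcoef bs
    rw [h, if_pos le_rfl] at this
    exact hbs0 this.symm
  have hdeg : H.natDegree ≤ bs := by
    rw [natDegree_le_iff_coeff_eq_zero]
    intro m hm
    rw [hcoef, if_neg (by omega)]
  -- digits in the unit ball
  let dig : K → 𝒪[K] := fun a => if h : ‖a‖ ≤ 1 then ⟨a, Valued.integer.mem_iff.2 h⟩ else 0
  have hdig : ∀ a ∈ A, ((dig a : 𝒪[K]) : K) = a := by
    intro a ha
    simp [dig, hA1 a ha]
  let rd : K → IsLocalRing.ResidueField 𝒪[K] := fun a => res (dig a)
  have hinj : Set.InjOn rd (A : Set K) := by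
    intro a ha a' ha' h
    by_contra hne
    refine res_ne_of_norm_sub_eq_one (dig a) (dig a') ?_ h
    rw [hdig a ha, hdig a' ha']
    exact hA2 a ha a' ha' hne
  have hsum : ∑ a ∈ A, H.rootMultiplicity (rd a) ≤ bs := by
    calc ∑ a ∈ A, H.rootMultiplicity (rd a)
        = ∑ x ∈ A.image rd, H.rootMultiplicity x := by
          rw [Finset.sum_image]
          exact hinj
      _ ≤ H.natDegree := sum_rootMultiplicity_le H _
      _ ≤ bs := hdeg
  obtain ⟨a, haA, ha⟩ : ∃ a ∈ A, A.card * H.rootMultiplicity (rd a) ≤ bs := by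
    have h1 : ∑ a ∈ A, A.card * H.rootMultiplicity (rd a) ≤ ∑ _a ∈ A, bs := by
      rw [← Finset.mul_sum, Finset.sum_const, smul_eq_mul]
      exact Nat.mul_le_mul_left _ hsum
    exact Finset.exists_le_of_sum_le hA0 h1
  refine ⟨a, haA, H.rootMultiplicity (rd a), ha, ?_⟩
  set κ := H.rootMultiplicity (rd a) with hκ
  have hκle : κ ≤ bs := by
    have : 0 < A.card := Finset.card_pos.2 hA0
    calc κ ≤ A.card * κ := Nat.le_mul_of_pos_left _ this
      _ ≤ bs := ha
  have hana : ‖a‖ ≤ 1 := hA1 a haA
  -- coefficient of the translated residue polynomial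
  have hT : (H.comp (X + C (rd a))).coeff κ ≠ 0 := by
    have h1 : H.comp (X + C (rd a)) ≠ 0 := by
      intro h
      have : H = 0 := by
        have h2 := congrArg (fun q => q.comp (X - C (rd a))) h
        simpa [comp_assoc] using h2
      exact hH0 this
    have h2 : κ = (H.comp (X + C (rd a))).natTrailingDegree := by
      rw [hκ, rootMultiplicity_eq_natTrailingDegree]
    rw [h2]
    exact (trailingCoeff_nonzero_iff_nonzero).2 h1
  have hTcoef : (H.comp (X + C (rd a))).coeff κ =
      ∑ b ∈ Finset.range (bs + 1), res (g b) * (rd a) ^ (b - κ) * (b.choose κ : _) := by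
    simp only [H, sum_comp, mul_comp, C_comp, pow_comp, X_comp, finsetSum_coeff, coeff_C_mul,
      coeff_X_add_C_pow, mul_assoc]
  -- the finite main part, as an element of the unit ball
  set M : 𝒪[K] := ∑ b ∈ Finset.range (bs + 1), g b * (dig a) ^ (b - κ) * (b.choose κ : 𝒪[K]) with hM
  have hresM : res M ≠ 0 := by
    rw [hM, map_sum]
    simp only [map_mul, map_pow, map_natCast]
    rw [← hTcoef]
    exact hT
  have hMnorm : ‖(M : K)‖ = 1 := norm_eq_one_of_res_ne_zero _ hresM
  have hMcoe : (M : K) = ∑ b ∈ Finset.range (bs + 1), G b * a ^ (b - κ) * (b.choose κ : K) := by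
    rw [hM]
    push_cast
    apply Finset.sum_congr rfl
    intro b _
    rw [hdig a haA]
  -- the series
  let f : ℕ → K := fun b => G (b + κ) * ((b + κ).choose κ : K) * a ^ b
  have hnat : ∀ m : ℕ, ‖(m : K)‖ ≤ 1 := fun m => IsUltrametricDist.norm_natCast_le_one K m
  have hfle : ∀ b, ‖f b‖ ≤ ‖G (b + κ)‖ := by
    intro b
    simp only [f, norm_mul, norm_pow]
    have h1 := hnat ((b + κ).choose κ)
    have h2 : ‖a‖ ^ b ≤ 1 := pow_le_one₀ (norm_nonneg _) hana
    calc ‖G (b + κ)‖ * ‖(((b + κ).choose κ : ℕ) : K)‖ * ‖a‖ ^ b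
        ≤ ‖G (b + κ)‖ * 1 * 1 := by gcongr
      _ = _ := by ring
  have hG0' : Tendsto (fun b => ‖G b‖) atTop (𝓝 0) := by
    simpa using hG0.norm
  have hf0 : Tendsto f atTop (𝓝 0) := by
    rw [tendsto_zero_iff_norm_tendsto_zero]
    refine squeeze_zero (fun _ => norm_nonneg _) hfle ?_
    exact hG0'.comp (tendsto_add_atTop_nat κ)
  have hfsum : Summable f :=
    NonarchimedeanAddGroup.summable_of_tendsto_cofinite_zero (by
      rwa [Nat.cofinite_eq_atTop])
  -- split at bs - κ + 1
  set N := bs - κ + 1 with hN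
  have hsplit : ∑' b, f b = ∑ b ∈ Finset.range N, f b + ∑' b, f (b + N) :=
    (hfsum.sum_add_tsum_nat_add N).symm
  have hmain : ∑ b ∈ Finset.range N, f b = (M : K) := by
    rw [hMcoe]
    -- terms with b < κ vanish since the binomial coefficient is zero
    have h1 : ∑ b ∈ Finset.range (bs + 1), G b * a ^ (b - κ) * (b.choose κ : K)
        = ∑ b ∈ Finset.Ico κ (bs + 1), G b * a ^ (b - κ) * (b.choose κ : K) := by
      symm
      apply Finset.sum_subset
      · intro b hb
        simp only [Finset.mem_Ico] at hb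
        exact Finset.mem_range.2 hb.2
      · intro b hb hb'
        simp only [Finset.mem_range] at hb
        simp only [Finset.mem_Ico, not_and, not_lt] at hb'
        have hlt : b < κ := by
          by_contra hc
          have := hb' (not_lt.1 hc)
          omega
        simp [Nat.choose_eq_zero_of_lt hlt]
    rw [h1, Finset.sum_Ico_eq_sum_range]
    have hlen : bs + 1 - κ = N := by omega
    rw [hlen]
    apply Finset.sum_congr rfl
    intro b _
    simp only [f]
    rw [show κ + b = b + κ by ring]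
    simp only [Nat.add_sub_cancel]
    ring
  -- the tail has norm < 1
  have htail : ‖∑' b, f (b + N)‖ < 1 := by
    have hsum' : Summable (fun b => f (b + N)) := (summable_nat_add_iff N).2 hfsum
    have hle : ∀ b, ‖f (b + N)‖ < 1 := by
      intro b
      refine lt_of_le_of_lt (hfle _) (hbs' _ ?_)
      omega
    -- the tail terms tend to zero, so the sup is attained
    have hto : Tendsto (fun b => ‖f (b + N)‖) atTop (𝓝 0) :=
      (tendsto_zero_iff_norm_tendsto_zero.1 hf0).comp (tendsto_add_atTop_nat N)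
    obtain ⟨b0, hb0⟩ : ∃ b0, ∀ b, ‖f (b + N)‖ ≤ ‖f (b0 + N)‖ ∨ ‖f (b + N)‖ ≤ 1 / 2 := by
      have hev : ∀ᶠ b in atTop, ‖f (b + N)‖ ≤ 1 / 2 :=
        hto.eventually (Iio_mem_nhds (by norm_num : (0 : ℝ) < 1 / 2)) |>.mono fun _ h => le_of_lt h
      obtain ⟨B, hB⟩ := eventually_atTop.1 hev
      by_cases hne : (Finset.range (B + 1)).Nonempty
      · obtain ⟨b0, _, hb0⟩ := Finset.exists_max_image (Finset.range (B + 1))
          (fun b => ‖f (b + N)‖) hne
        refine ⟨b0, fun b => ?_⟩
        by_cases hbB : b ≤ B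
        · exact Or.inl (hb0 b (Finset.mem_range.2 (Nat.lt_succ_of_le hbB)))
        · exact Or.inr (hB b (by omega))
      · exact absurd ⟨0, by simp⟩ hne
    set c := max ‖f (b0 + N)‖ (1 / 2) with hc
    have hc1 : c < 1 := max_lt (hle b0) (by norm_num)
    have hcb : ∀ b, ‖f (b + N)‖ ≤ c := fun b => by
      rcases hb0 b with h | h
      · exact le_max_of_le_left h
      · exact le_max_of_le_right h
    have hfin : ∀ s : Finset ℕ, ‖∑ b ∈ s, f (b + N)‖ ≤ c := by
      intro s
      by_cases hs : s.Nonempty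
      · obtain ⟨b1, hb1, hb1'⟩ := IsUltrametricDist.exists_norm_finsetSum_le_of_nonempty hs
          (fun b => f (b + N))
        exact hb1'.trans (hcb b1)
      · rw [Finset.not_nonempty_iff_eq_empty] at hs
        simp only [hs, Finset.sum_empty, norm_zero]
        exact le_max_of_le_right (by norm_num)
    have hlim : ‖∑' b, f (b + N)‖ ≤ c := by
      have h1 := hsum'.hasSum.norm
      exact le_of_tendsto h1 (Eventually.of_forall hfin)
    exact lt_of_le_of_lt hlim hc1
  show ‖∑' b, f b‖ = 1
  rw [hsplit, hmain]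
  have hne : ‖(M : K)‖ ≠ ‖∑' b, f (b + N)‖ := by
    rw [hMnorm]
    exact ne_of_gt htail
  rw [IsUltrametricDist.norm_add_eq_max_of_norm_ne_norm hne, hMnorm]
  exact max_eq_left htail.le

end Crest.Agent.LT
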