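import Mathlib

/-!
# Restricted power series over a complete ultrametric field (row 227, blueprint section C)

Notation: `rpow r e = ∏ r_i ^ e_i`, `gn r T = sup_e ‖coeff e T‖ r^e` (Mathlib's `gaussNorm`),
`MvPowerSeries.IsRestricted r T`: `‖coeff e T‖ r^e → 0` on the cofinite filter.

Main results: `gn_add_le`, `gn_mul_le`, `gn_le`, `le_gn`, `exists_max`, `finite_E`,
`comp T s` (substitution, the arguments may have nonzero constant term), `eval x T`.
-/

set_option linter.unusedSectionVars false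

open MvPowerSeries Filter Topology
open scoped Topology

namespace Crest.Agent.LT

variable {K : Type*} [NormedField K] [IsUltrametricDist K]
variable {σ τ υ : Type*}

/-- `r^e = ∏ r_i ^ e_i`. -/
noncomputable def rpow (r : σ → ℝ) (e : σ →₀ ℕ) : ℝ := e.prod (r · ^ ·)

@[simp] lemma rpow_zero (r : σ → ℝ) : rpow r 0 = 1 := by simp [rpow]

lemma rpow_add (r : σ → ℝ) (e e' : σ →₀ ℕ) : rpow r (e + e') = rpow r e * rpow r e' := by
  classical
  unfold rpow
  exact Finsupp.prod_add_index' (by simp) (by simp [pow_add])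

lemma rpow_single (r : σ → ℝ) (i : σ) (k : ℕ) : rpow r (Finsupp.single i k) = r i ^ k := by
  unfold rpow
  simp

lemma rpow_pos {r : σ → ℝ} (hr : ∀ i, 0 < r i) (e : σ →₀ ℕ) : 0 < rpow r e := by
  unfold rpow Finsupp.prod
  exact Finset.prod_pos fun i _ => pow_pos (hr i) _

lemma rpow_nonneg {r : σ → ℝ} (hr : ∀ i, 0 ≤ r i) (e : σ →₀ ℕ) : 0 ≤ rpow r e := by
  unfold rpow Finsupp.prod
  exact Finset.prod_nonneg fun i _ => pow_nonneg (hr i) _

lemma rpow_mono {r r' : σ → ℝ} (hr : ∀ i, 0 ≤ r i) (h : ∀ i, r i ≤ r' i) (e : σ →₀ ℕ) :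
    rpow r e ≤ rpow r' e := by
  unfold rpow Finsupp.prod
  exact Finset.prod_le_prod (fun i _ => pow_nonneg (hr i) _)
    (fun i _ => pow_le_pow_left₀ (hr i) (h i) _)

/-- The Gauss norm `‖T‖_r`. -/
noncomputable def gn (r : σ → ℝ) (T : MvPowerSeries σ K) : ℝ :=
  MvPowerSeries.gaussNorm (fun a : K => ‖a‖) r T

lemma hasGaussNorm {r : σ → ℝ} {T : MvPowerSeries σ K} (h : IsRestricted r T) :
    MvPowerSeries.HasGaussNorm (fun a : K => ‖a‖) r T := by
  exact Filter.Tendsto.bddAbove_range_of_cofinite h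

lemma le_gn {r : σ → ℝ} {T : MvPowerSeries σ K} (h : IsRestricted r T) (e : σ →₀ ℕ) :
    ‖coeff e T‖ * rpow r e ≤ gn r T :=
  MvPowerSeries.le_gaussNorm _ r T (hasGaussNorm h) e

lemma gn_nonneg (r : σ → ℝ) (T : MvPowerSeries σ K) : 0 ≤ gn r T :=
  MvPowerSeries.gaussNorm_nonneg _ r T (fun _ => norm_nonneg _)

lemma gn_le {r : σ → ℝ} {T : MvPowerSeries σ K} {C : ℝ} (hC : 0 ≤ C)
    (h : ∀ e, ‖coeff e T‖ * rpow r e ≤ C) : gn r T ≤ C :=
  Real.iSup_le h hC

@[simp] lemma gn_zero (r : σ → ℝ) : gn r (0 : MvPowerSeries σ K) = 0 := by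
  unfold gn
  exact MvPowerSeries.gaussNorm_zero _ r (by simp)

lemma gn_eq_zero {r : σ → ℝ} (hr : ∀ i, 0 < r i) {T : MvPowerSeries σ K} (h : IsRestricted r T)
    (h0 : gn r T = 0) : T = 0 := by
  ext e
  have := le_gn h e
  rw [h0] at this
  have hp := rpow_pos hr e
  have h2 : ‖coeff e T‖ ≤ 0 := by
    by_contra hc
    push Not at hc
    nlinarith [mul_pos hc hp]
  simpa using norm_le_zero_iff.1 h2

lemma gn_pos {r : σ → ℝ} (hr : ∀ i, 0 < r i) {T : MvPowerSeries σ K} (h : IsRestricted r T)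
    (h0 : T ≠ 0) : 0 < gn r T :=
  lt_of_le_of_ne (gn_nonneg r T) (fun e => h0 (gn_eq_zero hr h e.symm))

/-- A bound on the coefficient. -/
lemma norm_coeff_le {r : σ → ℝ} (hr : ∀ i, 0 < r i) {T : MvPowerSeries σ K} (h : IsRestricted r T)
    (e : σ →₀ ℕ) : ‖coeff e T‖ ≤ gn r T / rpow r e := by
  rw [le_div_iff₀ (rpow_pos hr e)]
  exact le_gn h e

lemma isRestricted_iff {r : σ → ℝ} {T : MvPowerSeries σ K} :
    IsRestricted r T ↔ Tendsto (fun e => ‖coeff e T‖ * rpow r e) cofinite (𝓝 0) := Iff.rfl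

lemma restr_finite_ge {r : σ → ℝ} {T : MvPowerSeries σ K} (h : IsRestricted r T) {ε : ℝ}
    (hε : 0 < ε) : {e | ε ≤ ‖coeff e T‖ * rpow r e}.Finite := by
  have := (isRestricted_iff.1 h).eventually (gt_mem_nhds hε)
  rw [Filter.eventually_cofinite] at this
  refine this.subset fun e he => ?_
  simpa using he

lemma isRestricted_of_finite_ge {r : σ → ℝ} (hr : ∀ i, 0 ≤ r i) {T : MvPowerSeries σ K}
    (h : ∀ ε : ℝ, 0 < ε → {e | ε ≤ ‖coeff e T‖ * rpow r e}.Finite) : IsRestricted r T := by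
  rw [isRestricted_iff, Metric.tendsto_nhds]
  intro ε hε
  rw [Filter.eventually_cofinite]
  refine (h ε hε).subset fun e he => ?_
  simp only [Set.mem_ofPred_eq, Real.dist_eq, sub_zero, not_lt] at he ⊢
  rwa [abs_of_nonneg (mul_nonneg (norm_nonneg _) (rpow_nonneg hr e))] at he

/-- Ultrametric inequality for `gn`. -/
lemma gn_add_le {r : σ → ℝ} (hr : ∀ i, 0 ≤ r i) {T T' : MvPowerSeries σ K} (h : IsRestricted r T)
    (h' : IsRestricted r T') : gn r (T + T') ≤ max (gn r T) (gn r T') := by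
  refine gn_le (le_max_of_le_left (gn_nonneg r T)) fun e => ?_
  have hp := rpow_nonneg hr e
  have h1 : ‖coeff e (T + T')‖ ≤ max ‖coeff e T‖ ‖coeff e T'‖ := by
    rw [map_add]; exact IsUltrametricDist.norm_add_le_max _ _
  calc ‖coeff e (T + T')‖ * rpow r e ≤ max ‖coeff e T‖ ‖coeff e T'‖ * rpow r e :=
        mul_le_mul_of_nonneg_right h1 hp
    _ = max (‖coeff e T‖ * rpow r e) (‖coeff e T'‖ * rpow r e) := max_mul_of_nonneg _ _ hp
    _ ≤ _ := max_le_max (le_gn h e) (le_gn h' e)

@[simp] lemma gn_neg (r : σ → ℝ) (T : MvPowerSeries σ K) : gn r (-T) = gn r T := by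
  unfold gn
  exact MvPowerSeries.gaussNorm_neg _ r (by simp) T

lemma restr_neg {r : σ → ℝ} {T : MvPowerSeries σ K} (h : IsRestricted r T) :
    IsRestricted r (-T) := isRestricted.neg r h

lemma restr_add {r : σ → ℝ} {T T' : MvPowerSeries σ K} (h : IsRestricted r T)
    (h' : IsRestricted r T') : IsRestricted r (T + T') := isRestricted.add r h h'

lemma restr_sub {r : σ → ℝ} {T T' : MvPowerSeries σ K} (h : IsRestricted r T)
    (h' : IsRestricted r T') : IsRestricted r (T - T') := by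
  rw [sub_eq_add_neg]; exact restr_add h (restr_neg h')

lemma restr_mul {r : σ → ℝ} {T T' : MvPowerSeries σ K} (h : IsRestricted r T)
    (h' : IsRestricted r T') : IsRestricted r (T * T') := isRestricted.mul r h h'

lemma gn_sub_le {r : σ → ℝ} (hr : ∀ i, 0 ≤ r i) {T T' : MvPowerSeries σ K} (h : IsRestricted r T)
    (h' : IsRestricted r T') : gn r (T - T') ≤ max (gn r T) (gn r T') := by
  rw [sub_eq_add_neg]
  simpa using gn_add_le hr h (restr_neg h')

lemma gn_mul_le {r : σ → ℝ} (hr : ∀ i, 0 ≤ r i) {T T' : MvPowerSeries σ K} (h : IsRestricted r T)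
    (h' : IsRestricted r T') : gn r (T * T') ≤ gn r T * gn r T' := by
  classical
  refine gn_le (mul_nonneg (gn_nonneg r T) (gn_nonneg r T')) fun e => ?_
  have hp := rpow_nonneg hr e
  rw [coeff_mul]
  by_cases hpz : rpow r e = 0
  · rw [hpz, mul_zero]; exact mul_nonneg (gn_nonneg r T) (gn_nonneg r T')
  have hpp : 0 < rpow r e := lt_of_le_of_ne hp (Ne.symm hpz)
  rw [← le_div_iff₀ hpp]
  refine IsUltrametricDist.norm_sum_le_of_forall_le_of_nonneg
    (div_nonneg (mul_nonneg (gn_nonneg r T) (gn_nonneg r T')) hp) fun x hx => ?_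
  rw [le_div_iff₀ hpp, norm_mul]
  have hx' : x.1 + x.2 = e := by simpa using hx
  rw [← hx', rpow_add]
  calc ‖coeff x.1 T‖ * ‖coeff x.2 T'‖ * (rpow r x.1 * rpow r x.2)
      = (‖coeff x.1 T‖ * rpow r x.1) * (‖coeff x.2 T'‖ * rpow r x.2) := by ring
    _ ≤ _ := mul_le_mul (le_gn h _) (le_gn h' _)
        (mul_nonneg (norm_nonneg _) (rpow_nonneg hr _)) (gn_nonneg r T)

lemma isRestricted_C (r : σ → ℝ) (a : K) : IsRestricted r (C a : MvPowerSeries σ K) :=
  MvPowerSeries.isRestricted_C r a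

lemma isRestricted_X (r : σ → ℝ) (i : σ) : IsRestricted r (X i : MvPowerSeries σ K) :=
  MvPowerSeries.isRestricted_monomial r _ _

lemma isRestricted_monomial' (r : σ → ℝ) (e : σ →₀ ℕ) (a : K) :
    IsRestricted r (monomial e a : MvPowerSeries σ K) :=
  MvPowerSeries.isRestricted_monomial r e a

lemma gn_monomial {r : σ → ℝ} (hr : ∀ i, 0 ≤ r i) (e : σ →₀ ℕ) (a : K) :
    gn r (monomial e a : MvPowerSeries σ K) = ‖a‖ * rpow r e := by
  classical
  apply le_antisymm
  · refine gn_le (mul_nonneg (norm_nonneg _) (rpow_nonneg hr _)) fun e' => ?_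
    rw [coeff_monomial]
    split_ifs with h
    · rw [h]
    · simpa using mul_nonneg (norm_nonneg _) (rpow_nonneg hr _)
  · simpa using le_gn (isRestricted_monomial' (K := K) r e a) e

lemma gn_C (r : σ → ℝ) (a : K) : gn r (C a : MvPowerSeries σ K) = ‖a‖ := by
  have hbd : ∀ e : σ →₀ ℕ, ‖coeff e (C a : MvPowerSeries σ K)‖ * rpow r e ≤ ‖a‖ := by
    intro e
    classical
    rw [coeff_C]
    split_ifs with h
    · simp [h]
    · simp
  apply le_antisymm
  · exact gn_le (norm_nonneg _) hbd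
  · have := le_gn (isRestricted_C (K := K) r a) 0
    simpa using this

lemma gn_one [NormOneClass K] (r : σ → ℝ) : gn r (1 : MvPowerSeries σ K) = 1 := by
  have := gn_C (K := K) r 1
  simpa using this

lemma gn_X {r : σ → ℝ} (hr : ∀ i, 0 ≤ r i) (i : σ) :
    gn r (X i : MvPowerSeries σ K) = r i := by
  have := gn_monomial (K := K) hr (Finsupp.single i 1) 1
  rw [X_def, this, rpow_single]
  simp

/-- The set `E(T,r)` of exponents attaining the Gauss norm. -/
def E (r : σ → ℝ) (T : MvPowerSeries σ K) : Set (σ →₀ ℕ) :=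
  {e | ‖coeff e T‖ * rpow r e = gn r T}

lemma finite_E {r : σ → ℝ} (hr : ∀ i, 0 < r i) {T : MvPowerSeries σ K} (h : IsRestricted r T)
    (h0 : T ≠ 0) : (E r T).Finite :=
  (restr_finite_ge h (gn_pos hr h h0)).subset fun e he => le_of_eq (Eq.symm he)

/-- The Gauss norm of a nonzero restricted series is attained. -/
lemma exists_max {r : σ → ℝ} (hr : ∀ i, 0 < r i) {T : MvPowerSeries σ K} (h : IsRestricted r T)
    (h0 : T ≠ 0) : (E r T).Nonempty := by
  obtain ⟨e0, he0⟩ := (MvPowerSeries.ne_zero_iff_exists_coeff_ne_zero T).1 h0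
  have hpos : 0 < ‖coeff e0 T‖ * rpow r e0 := mul_pos (norm_pos_iff.2 he0) (rpow_pos hr e0)
  have hfin := restr_finite_ge h hpos
  have hne : hfin.toFinset.Nonempty := ⟨e0, by simp⟩
  obtain ⟨e1, he1, hmax⟩ := hfin.toFinset.exists_max_image (fun e => ‖coeff e T‖ * rpow r e) hne
  refine ⟨e1, le_antisymm (le_gn h e1) (gn_le (mul_nonneg (norm_nonneg _) (rpow_pos hr e1).le) ?_)⟩
  intro e
  by_cases he : ‖coeff e0 T‖ * rpow r e0 ≤ ‖coeff e T‖ * rpow r e
  · exact hmax e (by simpa using he)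
  · push Not at he
    have h1 : ‖coeff e0 T‖ * rpow r e0 ≤ ‖coeff e1 T‖ * rpow r e1 := by
      simpa using (hfin.mem_toFinset.1 he1)
    linarith

/-- `gn` is monotone in the radii. -/
lemma gn_mono {r r' : σ → ℝ} (hr : ∀ i, 0 ≤ r i) (h : ∀ i, r i ≤ r' i) {T : MvPowerSeries σ K}
    (hT : IsRestricted r' T) : gn r T ≤ gn r' T := by
  refine gn_le (gn_nonneg _ _) fun e => ?_
  exact (mul_le_mul_of_nonneg_left (rpow_mono hr h e) (norm_nonneg _)).trans (le_gn hT e)

/-- Restricted series stay restricted for smaller radii. -/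
lemma restr_mono {r r' : σ → ℝ} (hr : ∀ i, 0 ≤ r i) (h : ∀ i, r i ≤ r' i)
    {T : MvPowerSeries σ K} (hT : IsRestricted r' T) : IsRestricted r T := by
  refine isRestricted_of_finite_ge hr fun ε hε => (restr_finite_ge hT hε).subset fun e he => ?_
  exact le_trans he (mul_le_mul_of_nonneg_left (rpow_mono hr h e) (norm_nonneg _))

/-! ### Monomials in a commutative ring -/

section Mono

variable {B : Type*}

/-- The monomial `b^e`. -/
noncomputable def monoB [CommMonoid B] (b : σ → B) (e : σ →₀ ℕ) : B := e.prod (fun i k => b i ^ k)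

@[simp] lemma monoB_zero [CommMonoid B] (b : σ → B) : monoB b 0 = 1 := by simp [monoB]

lemma monoB_add [CommMonoid B] (b : σ → B) (e e' : σ →₀ ℕ) :
    monoB b (e + e') = monoB b e * monoB b e' := by
  classical
  unfold monoB
  exact Finsupp.prod_add_index' (by simp) (by simp [pow_add])

lemma monoB_single [CommMonoid B] (b : σ → B) (i : σ) (k : ℕ) :
    monoB b (Finsupp.single i k) = b i ^ k := by
  unfold monoB
  simp

lemma norm_monoB_le [NormedCommRing B] [NormOneClass B] {r : σ → ℝ} {b : σ → B}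
    (hb : ∀ i, ‖b i‖ ≤ r i) (e : σ →₀ ℕ) : ‖monoB b e‖ ≤ rpow r e := by
  classical
  unfold monoB rpow Finsupp.prod
  refine (Finset.norm_prod_le _ _).trans (Finset.prod_le_prod (fun _ _ => norm_nonneg _) fun i _ => ?_)
  exact (norm_pow_le _ _).trans (pow_le_pow_left₀ (norm_nonneg _) (hb i) _)

lemma map_monoB {B' : Type*} [CommMonoid B] [CommMonoid B'] (f : B →* B') (b : σ → B) (e : σ →₀ ℕ) :
    f (monoB b e) = monoB (fun i => f (b i)) e := by
  unfold monoB
  rw [map_finsuppProd]
  simp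

end Mono

/-! ### The Banach algebra of restricted series -/

section Banach

variable (K) in
/-- The Tate algebra as a type. -/
def Tt (r : σ → ℝ) : Type _ := ↥(MvPowerSeries.IsRestricted.subring (R := K) r)

variable {r : σ → ℝ}

noncomputable instance : CommRing (Tt K r) :=
  inferInstanceAs (CommRing ↥(MvPowerSeries.IsRestricted.subring (R := K) r))

/-- The underlying series. -/
def Tt.val (T : Tt K r) : MvPowerSeries σ K := T.1

/-- Make an element from a series. -/
def Tt.mk (T : MvPowerSeries σ K) (h : IsRestricted r T) : Tt K r := ⟨T, h⟩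

@[simp] lemma Tt.val_mk (T : MvPowerSeries σ K) (h : IsRestricted r T) :
    (Tt.mk T h).val = T := rfl

lemma Tt.restricted (T : Tt K r) : IsRestricted r T.val := T.2

@[ext] lemma Tt.ext {T T' : Tt K r} (h : T.val = T'.val) : T = T' := Subtype.ext h

@[simp] lemma Tt.val_zero : (0 : Tt K r).val = 0 := rfl
@[simp] lemma Tt.val_one : (1 : Tt K r).val = 1 := rfl
@[simp] lemma Tt.val_add (T T' : Tt K r) : (T + T').val = T.val + T'.val := rfl
@[simp] lemma Tt.val_neg (T : Tt K r) : (-T).val = -T.val := rfl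
@[simp] lemma Tt.val_sub (T T' : Tt K r) : (T - T').val = T.val - T'.val := rfl
@[simp] lemma Tt.val_mul (T T' : Tt K r) : (T * T').val = T.val * T'.val := rfl
@[simp] lemma Tt.val_pow (T : Tt K r) (k : ℕ) : (T ^ k).val = T.val ^ k := rfl

/-- `val` as a ring hom. -/
def Tt.valHom : Tt K r →+* MvPowerSeries σ K where
  toFun := Tt.val
  map_one' := rfl
  map_mul' _ _ := rfl
  map_zero' := rfl
  map_add' _ _ := rfl

variable [hr : Fact (∀ i, 0 < r i)]

lemma Tt.hr0 : ∀ i, 0 ≤ r i := fun i => (hr.out i).le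

/-- The Gauss norm as an additive group norm. -/
noncomputable def ttNorm : AddGroupNorm (Tt K r) where
  toFun T := gn r T.val
  map_zero' := by simp
  add_le' a b := (gn_add_le Tt.hr0 a.restricted b.restricted).trans
    (max_le_add_of_nonneg (gn_nonneg _ _) (gn_nonneg _ _))
  neg' a := by simp
  eq_zero_of_map_eq_zero' a h := Tt.ext (by simpa using gn_eq_zero hr.out a.restricted h)

noncomputable instance : NormedAddCommGroup (Tt K r) := (ttNorm (K := K) (r := r)).toNormedAddCommGroup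

lemma Tt.norm_def (T : Tt K r) : ‖T‖ = gn r T.val := rfl

noncomputable instance : NormedCommRing (Tt K r) where
  dist_eq := fun a b => by rw [dist_eq_norm, ← norm_neg, neg_sub, sub_eq_neg_add]
  norm_mul_le a b := by
    rw [Tt.norm_def, Tt.norm_def, Tt.norm_def]
    exact gn_mul_le Tt.hr0 a.restricted b.restricted
  mul_comm := mul_comm

instance : IsUltrametricDist (Tt K r) :=
  IsUltrametricDist.isUltrametricDist_of_forall_norm_add_le_max_norm fun a b => by
    rw [Tt.norm_def, Tt.norm_def, Tt.norm_def]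
    exact gn_add_le Tt.hr0 a.restricted b.restricted

instance : NormOneClass (Tt K r) where
  norm_one := by rw [Tt.norm_def, Tt.val_one]; exact gn_one r

/-- Constants. -/
noncomputable def Tt.C : K →+* Tt K r where
  toFun a := Tt.mk (MvPowerSeries.C a) (isRestricted_C r a)
  map_one' := by ext1; simp
  map_mul' a b := by ext1; simp
  map_zero' := by ext1; simp
  map_add' a b := by ext1; simp

noncomputable instance : Algebra K (Tt K r) := Tt.C.toAlgebra

lemma Tt.val_smul (a : K) (T : Tt K r) : (a • T).val = MvPowerSeries.C a * T.val := rfl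

lemma Tt.val_algebraMap (a : K) : (algebraMap K (Tt K r) a).val = MvPowerSeries.C a := rfl

noncomputable instance : NormedAlgebra K (Tt K r) where
  norm_smul_le a T := by
    rw [Tt.norm_def, Tt.norm_def, Tt.val_smul]
    calc gn r (MvPowerSeries.C a * T.val) ≤ gn r (MvPowerSeries.C a) * gn r T.val :=
          gn_mul_le Tt.hr0 (isRestricted_C r a) T.restricted
      _ = _ := by rw [gn_C]

lemma Tt.coeff_smul (a : K) (T : Tt K r) (e : σ →₀ ℕ) :
    coeff e (a • T).val = a * coeff e T.val := by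
  rw [Tt.val_smul, coeff_C_mul]

/-- Coefficients are continuous. -/
noncomputable def Tt.coeffL (e : σ →₀ ℕ) : Tt K r →L[K] K :=
  LinearMap.mkContinuous
    { toFun := fun T => coeff e T.val
      map_add' := fun a b => by simp
      map_smul' := fun a T => by simp [Tt.coeff_smul] }
    (rpow r e)⁻¹
    (fun T => by
      have := norm_coeff_le hr.out T.restricted e
      simp only [LinearMap.coe_mk, AddHom.coe_mk]
      rw [Tt.norm_def, mul_comm, ← div_eq_mul_inv]
      exact this)

@[simp] lemma Tt.coeffL_apply (e : σ →₀ ℕ) (T : Tt K r) : Tt.coeffL e T = coeff e T.val := rfl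

lemma Tt.norm_sub_lt_coeff (e : σ →₀ ℕ) (T T' : Tt K r) :
    ‖coeff e T.val - coeff e T'.val‖ * rpow r e ≤ ‖T - T'‖ := by
  have := le_gn (T - T').restricted e
  rw [Tt.norm_def]
  simpa using this

variable [CompleteSpace K]

instance : CompleteSpace (Tt K r) := by
  refine Metric.complete_of_cauchySeq_tendsto fun u hu => ?_
  -- the coefficient sequences are Cauchy
  have hc : ∀ e, CauchySeq fun n => coeff e (u n).val := fun e =>
    (Tt.coeffL (K := K) (r := r) e).uniformContinuous.comp_cauchySeq hu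
  choose a ha using fun e => cauchySeq_tendsto_of_complete (hc e)
  -- uniform estimate
  have hest : ∀ ε > 0, ∀ N, (∀ m ≥ N, ∀ n ≥ N, ‖u m - u n‖ ≤ ε) → ∀ n ≥ N, ∀ e,
      ‖a e - coeff e (u n).val‖ * rpow r e ≤ ε := by
    intro ε _ N hN n hn e
    have hlim : Tendsto (fun m => ‖coeff e (u m).val - coeff e (u n).val‖ * rpow r e) atTop
        (𝓝 (‖a e - coeff e (u n).val‖ * rpow r e)) :=
      ((ha e).sub_const _).norm.mul_const _
    refine le_of_tendsto hlim ?_
    filter_upwards [eventually_ge_atTop N] with m hm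
    exact (Tt.norm_sub_lt_coeff e (u m) (u n)).trans (hN m hm n hn)
  have hres : IsRestricted r (a : MvPowerSeries σ K) := by
    refine isRestricted_of_finite_ge Tt.hr0 fun ε hε => ?_
    obtain ⟨N, hN⟩ := Metric.cauchySeq_iff.1 hu (ε / 2) (half_pos hε)
    have hN' : ∀ m ≥ N, ∀ n ≥ N, ‖u m - u n‖ ≤ ε / 2 := fun m hm n hn => by
      rw [← dist_eq_norm]; exact (hN m hm n hn).le
    have h1 := hest (ε / 2) (half_pos hε) N hN' N le_rfl
    refine (restr_finite_ge (u N).restricted (half_pos hε)).subset fun e he => ?_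
    by_contra hcon
    have h2 : ‖coeff e (u N).val‖ * rpow r e < ε / 2 := not_le.1 hcon
    have h3 : ‖a e‖ ≤ max ‖a e - coeff e (u N).val‖ ‖coeff e (u N).val‖ := by
      have := IsUltrametricDist.norm_add_le_max (a e - coeff e (u N).val) (coeff e (u N).val)
      simpa using this
    have hp := rpow_pos hr.out e
    have h4 : ‖a e‖ * rpow r e ≤ ε / 2 := by
      calc ‖a e‖ * rpow r e ≤ max ‖a e - coeff e (u N).val‖ ‖coeff e (u N).val‖ * rpow r e :=
            mul_le_mul_of_nonneg_right h3 hp.le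
        _ = max (‖a e - coeff e (u N).val‖ * rpow r e) (‖coeff e (u N).val‖ * rpow r e) :=
            max_mul_of_nonneg _ _ hp.le
        _ ≤ ε / 2 := max_le (h1 e) h2.le
    have he' : ε ≤ ‖a e‖ * rpow r e := he
    linarith
  refine ⟨Tt.mk a hres, ?_⟩
  rw [Metric.tendsto_atTop]
  intro ε hε
  obtain ⟨N, hN⟩ := Metric.cauchySeq_iff.1 hu (ε / 2) (half_pos hε)
  have hN' : ∀ m ≥ N, ∀ n ≥ N, ‖u m - u n‖ ≤ ε / 2 := fun m hm n hn => by
    rw [← dist_eq_norm]; exact (hN m hm n hn).le
  refine ⟨N, fun n hn => ?_⟩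
  rw [dist_comm, dist_eq_norm]
  have : ‖Tt.mk a hres - u n‖ ≤ ε / 2 := by
    rw [Tt.norm_def]
    refine gn_le (half_pos hε).le fun e => ?_
    have := hest (ε / 2) (half_pos hε) N hN' n hn e
    rw [Tt.val_sub, map_sub]
    exact this
  linarith

/-! ### Evaluation into a Banach algebra -/

section Aev

variable {B : Type*} [NormedCommRing B] [NormedAlgebra K B] [NormOneClass B] [CompleteSpace B]
  [IsUltrametricDist B]

/-- Evaluation of a series at a tuple in `B`. -/
noncomputable def aev (b : σ → B) (T : MvPowerSeries σ K) : B := ∑' e, coeff e T • monoB b e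

omit [hr : Fact (∀ i, 0 < r i)] in
lemma aev_summable {b : σ → B} (hb : ∀ i, ‖b i‖ ≤ r i) {T : MvPowerSeries σ K}
    (hT : IsRestricted r T) : Summable fun e => coeff e T • monoB b e := by
  apply NonarchimedeanAddGroup.summable_of_tendsto_cofinite_zero
  rw [tendsto_zero_iff_norm_tendsto_zero]
  refine squeeze_zero (fun _ => norm_nonneg _) (fun e => ?_) (isRestricted_iff.1 hT)
  rw [norm_smul]
  exact mul_le_mul_of_nonneg_left (norm_monoB_le hb e) (norm_nonneg _)

omit [hr : Fact (∀ i, 0 < r i)] in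
lemma norm_aev_le {b : σ → B} (hb : ∀ i, ‖b i‖ ≤ r i) {T : MvPowerSeries σ K}
    (hT : IsRestricted r T) : ‖aev b T‖ ≤ gn r T := by
  refine IsUltrametricDist.norm_tsum_le_of_forall_le_of_nonneg (gn_nonneg _ _) fun e => ?_
  rw [norm_smul]
  exact (mul_le_mul_of_nonneg_left (norm_monoB_le hb e) (norm_nonneg _)).trans (le_gn hT e)

omit [hr : Fact (∀ i, 0 < r i)] in
lemma aev_add {b : σ → B} (hb : ∀ i, ‖b i‖ ≤ r i) {T T' : MvPowerSeries σ K}
    (hT : IsRestricted r T) (hT' : IsRestricted r T') :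
    aev b (T + T') = aev b T + aev b T' := by
  unfold aev
  rw [← (aev_summable hb hT).tsum_add (aev_summable hb hT')]
  exact tsum_congr fun e => by simp [add_smul]

omit [hr : Fact (∀ i, 0 < r i)] [CompleteSpace K] [IsUltrametricDist K] in
lemma aev_monomial (b : σ → B) (e : σ →₀ ℕ) (a : K) :
    aev b (monomial e a : MvPowerSeries σ K) = a • monoB b e := by
  classical
  unfold aev
  rw [tsum_eq_single e]
  · simp
  · intro e' he'
    rw [coeff_monomial_ne he']
    simp

omit [hr : Fact (∀ i, 0 < r i)] [CompleteSpace K] [IsUltrametricDist K] in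
lemma aev_C (b : σ → B) (a : K) : aev b (MvPowerSeries.C a : MvPowerSeries σ K) = algebraMap K B a := by
  have : (MvPowerSeries.C a : MvPowerSeries σ K) = monomial 0 a := (monomial_zero_eq_C_apply a).symm
  rw [this, aev_monomial]
  simp [Algebra.algebraMap_eq_smul_one]

omit [hr : Fact (∀ i, 0 < r i)] [CompleteSpace K] [IsUltrametricDist K] in
lemma aev_X (b : σ → B) (i : σ) : aev b (X i : MvPowerSeries σ K) = b i := by
  rw [X_def, aev_monomial, monoB_single]
  simp

omit [hr : Fact (∀ i, 0 < r i)] in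
lemma aev_mul {b : σ → B} (hb : ∀ i, ‖b i‖ ≤ r i) {T T' : MvPowerSeries σ K}
    (hT : IsRestricted r T) (hT' : IsRestricted r T') :
    aev b (T * T') = aev b T * aev b T' := by
  classical
  haveI : NonarchimedeanRing B := { is_nonarchimedean := NonarchimedeanAddGroup.is_nonarchimedean }
  have h1 := aev_summable hb hT
  have h2 := aev_summable hb hT'
  have h3 := Summable.mul_of_nonarchimedean h1 h2
  unfold aev
  rw [h1.tsum_mul_tsum_eq_tsum_sum_antidiagonal h2 h3]
  refine tsum_congr fun e => ?_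
  rw [coeff_mul, Finset.sum_smul]
  refine Finset.sum_congr rfl fun x hx => ?_
  have hx' : x.1 + x.2 = e := by simpa using hx
  rw [← hx', monoB_add]
  exact (smul_mul_smul_comm _ _ _ _).symm

/-- Evaluation as an algebra homomorphism on `Tt K r`. -/
noncomputable def aevHom (b : σ → B) (hb : ∀ i, ‖b i‖ ≤ r i) : Tt K r →ₐ[K] B where
  toFun T := aev b T.val
  map_one' := by
    rw [Tt.val_one]
    have := aev_C (K := K) b (1 : K)
    simpa using this
  map_mul' a c := aev_mul hb a.restricted c.restricted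
  map_zero' := by simp [aev]
  map_add' a c := aev_add hb a.restricted c.restricted
  commutes' a := aev_C b a

@[simp] lemma aevHom_apply (b : σ → B) (hb : ∀ i, ‖b i‖ ≤ r i) (T : Tt K r) :
    aevHom b hb T = aev b T.val := rfl

lemma norm_aevHom_le (b : σ → B) (hb : ∀ i, ‖b i‖ ≤ r i) (T : Tt K r) :
    ‖aevHom b hb T‖ ≤ ‖T‖ := norm_aev_le hb T.restricted

lemma aevHom_continuous (b : σ → B) (hb : ∀ i, ‖b i‖ ≤ r i) : Continuous (aevHom (K := K) b hb) := by
  refine AddMonoidHomClass.continuous_of_bound (aevHom (K := K) b hb) 1 fun T => ?_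
  simpa using norm_aevHom_le b hb T

/-- The variable in `Tt`. -/
noncomputable def Tt.X (i : σ) : Tt K r := Tt.mk (MvPowerSeries.X i) (isRestricted_X r i)

/-- The monomial in `Tt`. -/
noncomputable def Tt.mon (e : σ →₀ ℕ) (a : K) : Tt K r :=
  Tt.mk (monomial e a) (isRestricted_monomial' r e a)

omit [CompleteSpace K] in
lemma Tt.mon_one (e : σ →₀ ℕ) : Tt.mon e (1 : K) = monoB (Tt.X (K := K) (r := r)) e := by
  induction e using Finsupp.induction_linear with
  | zero =>
    rw [monoB_zero]; ext1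
    simp [Tt.mon]
  | add e e' h h' =>
    rw [monoB_add, ← h, ← h']; ext1
    simp [Tt.mon, monomial_mul_monomial]
  | single i k =>
    rw [monoB_single]; ext1
    simp [Tt.mon, Tt.X, MvPowerSeries.X_pow_eq]

omit [CompleteSpace K] in
lemma Tt.mon_eq (e : σ →₀ ℕ) (a : K) : Tt.mon e a = a • monoB (Tt.X (K := K) (r := r)) e := by
  rw [← Tt.mon_one]; ext1
  rw [Tt.val_smul]
  simp only [Tt.mon, Tt.val_mk]
  rw [← monomial_zero_eq_C_apply, monomial_mul_monomial]
  simp

omit [CompleteSpace K] in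
/-- Every restricted series is the sum of its monomials. -/
lemma Tt.hasSum_mon (T : Tt K r) : HasSum (fun e => Tt.mon e (coeff e T.val)) T := by
  classical
  rw [HasSum, SummationFilter.unconditional_filter, Metric.tendsto_atTop]
  intro ε hε
  have hfin := restr_finite_ge T.restricted (half_pos hε)
  refine ⟨hfin.toFinset, fun S hS => ?_⟩
  rw [dist_comm, dist_eq_norm, Tt.norm_def]
  refine lt_of_le_of_lt (gn_le (half_pos hε).le fun e => ?_) (half_lt_self hε)
  have hval : (∑ e' ∈ S, (Tt.mon e' (coeff e' T.val) : Tt K r)).val =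
      ∑ e' ∈ S, monomial e' (coeff e' T.val) := by
    exact map_sum (Tt.valHom (K := K) (r := r)) _ _
  rw [Tt.val_sub, hval, map_sub, map_sum]
  by_cases he : e ∈ S
  · rw [Finset.sum_eq_single e]
    · simp [coeff_monomial, (half_pos hε).le]
    · intro b _ hb
      rw [coeff_monomial_ne (Ne.symm hb)]
    · intro h; exact absurd he h
  · rw [Finset.sum_eq_zero]
    · rw [sub_zero]
      by_contra hcon
      push Not at hcon
      exact he (hS (hfin.mem_toFinset.2 hcon.le))
    · intro b hb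
      rw [coeff_monomial_ne]
      rintro rfl
      exact he hb

/-- Uniqueness: a continuous algebra homomorphism is determined by the images of the variables. -/
theorem aev_unique {b : σ → B} (φ : Tt K r →ₐ[K] B) (hφ : Continuous φ)
    (hX : ∀ i, φ (Tt.X i) = b i) (T : Tt K r) : φ T = aev b T.val := by
  have h := (Tt.hasSum_mon T).map φ.toRingHom.toAddMonoidHom hφ
  have h2 : ∀ e, φ (Tt.mon e (coeff e T.val)) = coeff e T.val • monoB b e := by
    intro e
    rw [Tt.mon_eq, map_smul]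
    congr 1
    have := map_monoB φ.toRingHom.toMonoidHom (Tt.X (K := K) (r := r)) e
    simpa [hX] using this
  have e1 : (⇑φ.toRingHom.toAddMonoidHom ∘ fun e => Tt.mon e (coeff e T.val)) =
      fun e => coeff e T.val • monoB b e := by
    ext1 e
    exact h2 e
  rw [e1] at h
  exact h.tsum_eq.symm

end Aev

end Banach

/-! ### Substitution -/

section Comp

variable [CompleteSpace K]

/-- `s^e` for a tuple of series. -/
noncomputable abbrev monoS (s : σ → MvPowerSeries τ K) (e : σ →₀ ℕ) : MvPowerSeries τ K := monoB s e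

/-- Substitution `T ∘ s`. The arguments `s i` are allowed to have nonzero constant coefficients. -/
noncomputable def comp (T : MvPowerSeries σ K) (s : σ → MvPowerSeries τ K) : MvPowerSeries τ K :=
  fun e' => ∑' e, coeff e T * coeff e' (monoS s e)

lemma coeff_comp (T : MvPowerSeries σ K) (s : σ → MvPowerSeries τ K) (e' : τ →₀ ℕ) :
    coeff e' (comp T s) = ∑' e, coeff e T * coeff e' (monoS s e) := rfl

/-- Evaluation at a point (the value of a series at `x`, `‖x i‖ ≤ r i`). -/
noncomputable def eval (x : σ → K) (T : MvPowerSeries σ K) : K := aev x T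

lemma eval_def (x : σ → K) (T : MvPowerSeries σ K) : eval x T = ∑' e, coeff e T * monoB x e := rfl

variable {r : σ → ℝ} {r' : τ → ℝ} {r'' : υ → ℝ}

/-- The hypothesis package for a substitution `s` from radii `r` to radii `r'`. -/
structure IsSubst (r : σ → ℝ) (r' : τ → ℝ) (s : σ → MvPowerSeries τ K) : Prop where
  restr : ∀ i, IsRestricted r' (s i)
  bound : ∀ i, gn r' (s i) ≤ r i

/-- The tuple in `Tt`. -/
def IsSubst.tup {r : σ → ℝ} {r' : τ → ℝ} {s : σ → MvPowerSeries τ K} (h : IsSubst r r' s) (i : σ) :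
    Tt K r' := Tt.mk (s i) (h.restr i)

lemma IsSubst.norm_tup [hr' : Fact (∀ i, 0 < r' i)] {s : σ → MvPowerSeries τ K}
    (h : IsSubst r r' s) (i : σ) : ‖h.tup i‖ ≤ r i := h.bound i

lemma IsSubst.val_mono {s : σ → MvPowerSeries τ K} (h : IsSubst r r' s) (e : σ →₀ ℕ) :
    (monoB h.tup e).val = monoS s e :=
  map_monoB (Tt.valHom (K := K) (r := r')).toMonoidHom h.tup e

lemma IsSubst.val_aev [hr' : Fact (∀ i, 0 < r' i)] {s : σ → MvPowerSeries τ K}
    (h : IsSubst r r' s) {T : MvPowerSeries σ K} (hT : IsRestricted r T) :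
    (aev h.tup T).val = comp T s := by
  ext e'
  have hsum := aev_summable (K := K) (B := Tt K r') h.norm_tup hT
  have := (Tt.coeffL (K := K) (r := r') e').map_tsum hsum
  rw [coeff_comp]
  refine Eq.trans this (tsum_congr fun e => ?_)
  rw [map_smul, Tt.coeffL_apply, h.val_mono, smul_eq_mul]

/-- `comp T s` is restricted at `r'`. -/
theorem comp_restricted (hr' : ∀ i, 0 < r' i) {s : σ → MvPowerSeries τ K} (h : IsSubst r r' s)
    {T : MvPowerSeries σ K} (hT : IsRestricted r T) : IsRestricted r' (comp T s) := by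
  haveI : Fact (∀ i, 0 < r' i) := ⟨hr'⟩
  rw [← h.val_aev hT]
  exact (aev h.tup T).restricted

/-- (C3) -/
theorem gn_comp_le (hr' : ∀ i, 0 < r' i) {s : σ → MvPowerSeries τ K} (h : IsSubst r r' s)
    {T : MvPowerSeries σ K} (hT : IsRestricted r T) : gn r' (comp T s) ≤ gn r T := by
  haveI : Fact (∀ i, 0 < r' i) := ⟨hr'⟩
  rw [← h.val_aev hT]
  exact norm_aev_le h.norm_tup hT

/-- (C2) -/
theorem comp_add (hr' : ∀ i, 0 < r' i) {s : σ → MvPowerSeries τ K} (h : IsSubst r r' s)
    {T T' : MvPowerSeries σ K} (hT : IsRestricted r T) (hT' : IsRestricted r T') :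
    comp (T + T') s = comp T s + comp T' s := by
  haveI : Fact (∀ i, 0 < r' i) := ⟨hr'⟩
  rw [← h.val_aev hT, ← h.val_aev hT', ← h.val_aev (restr_add hT hT'), aev_add h.norm_tup hT hT']
  rfl

/-- (C2) -/
theorem comp_mul (hr' : ∀ i, 0 < r' i) {s : σ → MvPowerSeries τ K} (h : IsSubst r r' s)
    {T T' : MvPowerSeries σ K} (hT : IsRestricted r T) (hT' : IsRestricted r T') :
    comp (T * T') s = comp T s * comp T' s := by
  haveI : Fact (∀ i, 0 < r' i) := ⟨hr'⟩
  rw [← h.val_aev hT, ← h.val_aev hT', ← h.val_aev (restr_mul hT hT'), aev_mul h.norm_tup hT hT']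
  rfl

/-- (C2) -/
theorem comp_C (hr' : ∀ i, 0 < r' i) {s : σ → MvPowerSeries τ K} (h : IsSubst r r' s) (a : K) :
    comp (MvPowerSeries.C a) s = MvPowerSeries.C a := by
  haveI : Fact (∀ i, 0 < r' i) := ⟨hr'⟩
  rw [← h.val_aev (isRestricted_C r a), aev_C]
  rfl

/-- (C2) -/
theorem comp_X (hr' : ∀ i, 0 < r' i) {s : σ → MvPowerSeries τ K} (h : IsSubst r r' s) (i : σ) :
    comp (MvPowerSeries.X i) s = s i := by
  haveI : Fact (∀ i, 0 < r' i) := ⟨hr'⟩
  rw [← h.val_aev (isRestricted_X r i), aev_X]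
  rfl

theorem comp_monomial (hr' : ∀ i, 0 < r' i) {s : σ → MvPowerSeries τ K} (h : IsSubst r r' s)
    (e : σ →₀ ℕ) (a : K) :
    comp (monomial e a) s = MvPowerSeries.C a * monoS s e := by
  haveI : Fact (∀ i, 0 < r' i) := ⟨hr'⟩
  rw [← h.val_aev (isRestricted_monomial' r e a), aev_monomial, Tt.val_smul, h.val_mono]

theorem comp_one (hr' : ∀ i, 0 < r' i) {s : σ → MvPowerSeries τ K} (h : IsSubst r r' s) :
    comp (1 : MvPowerSeries σ K) s = 1 := by
  simpa using comp_C hr' h (1 : K)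

theorem comp_zero (hr' : ∀ i, 0 < r' i) {s : σ → MvPowerSeries τ K} (h : IsSubst r r' s) :
    comp (0 : MvPowerSeries σ K) s = 0 := by
  simpa using comp_C hr' h (0 : K)

theorem comp_neg (hr' : ∀ i, 0 < r' i) {s : σ → MvPowerSeries τ K} (h : IsSubst r r' s)
    {T : MvPowerSeries σ K} (hT : IsRestricted r T) : comp (-T) s = - comp T s := by
  have := comp_add hr' h hT (restr_neg hT)
  rw [add_neg_cancel, comp_zero hr' h] at this
  exact (eq_neg_of_add_eq_zero_right this.symm)

theorem comp_sub (hr' : ∀ i, 0 < r' i) {s : σ → MvPowerSeries τ K} (h : IsSubst r r' s)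
    {T T' : MvPowerSeries σ K} (hT : IsRestricted r T) (hT' : IsRestricted r T') :
    comp (T - T') s = comp T s - comp T' s := by
  rw [sub_eq_add_neg, comp_add hr' h hT (restr_neg hT'), comp_neg hr' h hT', sub_eq_add_neg]

lemma restr_pow {r : σ → ℝ} {T : MvPowerSeries σ K} (hT : IsRestricted r T) (k : ℕ) :
    IsRestricted r (T ^ k) := by
  induction k with
  | zero => simpa using isRestricted_one r
  | succ k ih => rw [pow_succ]; exact restr_mul ih hT

theorem comp_pow (hr' : ∀ i, 0 < r' i) {s : σ → MvPowerSeries τ K} (h : IsSubst r r' s)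
    {T : MvPowerSeries σ K} (hT : IsRestricted r T) (k : ℕ) : comp (T ^ k) s = comp T s ^ k := by
  induction k with
  | zero => simpa using comp_one hr' h
  | succ k ih => rw [pow_succ, comp_mul hr' h (restr_pow hT k) hT, ih, pow_succ]

/-- `T` as a value of the identity substitution. -/
theorem comp_X_right (hr : ∀ i, 0 < r i) (T : MvPowerSeries σ K) (hT : IsRestricted r T) :
    comp T (MvPowerSeries.X : σ → MvPowerSeries σ K) = T := by
  haveI : Fact (∀ i, 0 < r i) := ⟨hr⟩
  have hs : IsSubst r r (MvPowerSeries.X : σ → MvPowerSeries σ K) :=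
    ⟨isRestricted_X r, fun i => le_of_eq (gn_X (fun i => (hr i).le) i)⟩
  rw [← hs.val_aev hT]
  have := aev_unique (K := K) (B := Tt K r) (b := hs.tup) (AlgHom.id K (Tt K r)) continuous_id
    (fun i => rfl) (Tt.mk T hT)
  exact (congrArg Tt.val this).symm

/-- (C4) Associativity of substitution. -/
theorem comp_comp (hr : ∀ i, 0 < r i) (hr' : ∀ i, 0 < r' i) (hr'' : ∀ i, 0 < r'' i)
    {s : σ → MvPowerSeries τ K} {u : τ → MvPowerSeries υ K} (hs : IsSubst r r' s)
    (hu : IsSubst r' r'' u) {T : MvPowerSeries σ K} (hT : IsRestricted r T) :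
    comp (comp T s) u = comp T (fun i => comp (s i) u) := by
  haveI : Fact (∀ i, 0 < r i) := ⟨hr⟩
  haveI : Fact (∀ i, 0 < r' i) := ⟨hr'⟩
  haveI : Fact (∀ i, 0 < r'' i) := ⟨hr''⟩
  have hsu : IsSubst r r'' (fun i => comp (s i) u) :=
    ⟨fun i => comp_restricted hr'' hu (hs.restr i),
      fun i => (gn_comp_le hr'' hu (hs.restr i)).trans (hs.bound i)⟩
  have hc := comp_restricted hr' hs hT
  rw [← hu.val_aev hc, ← hsu.val_aev hT]
  let φ : Tt K r →ₐ[K] Tt K r'' := (aevHom hu.tup hu.norm_tup).comp (aevHom hs.tup hs.norm_tup)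
  have hφ : Continuous φ :=
    (aevHom_continuous hu.tup hu.norm_tup).comp (aevHom_continuous hs.tup hs.norm_tup)
  have hX : ∀ i, φ (Tt.X i) = hsu.tup i := by
    intro i
    apply Tt.ext
    show (aev hu.tup (aev hs.tup (MvPowerSeries.X i : MvPowerSeries σ K)).val).val = comp (s i) u
    rw [aev_X]
    exact hu.val_aev (hs.restr i)
  have := aev_unique φ hφ hX (Tt.mk T hT)
  rw [Tt.val_mk] at this
  rw [← this]
  show (aev hu.tup (comp T s)).val = (aev hu.tup (aev hs.tup T).val).val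
  rw [hs.val_aev hT]

/-- Ultrametric Lipschitz estimate for monomials. -/
lemma norm_monoB_sub_le [Fact (∀ i, 0 < r' i)] {t t' : σ → Tt K r'} {δ : ℝ} (hδ : 0 ≤ δ)
    (hr0 : ∀ i, 0 ≤ r i) (ht : ∀ i, ‖t i‖ ≤ r i) (ht' : ∀ i, ‖t' i‖ ≤ r i)
    (h : ∀ i, ‖t i - t' i‖ ≤ δ * r i) (e : σ →₀ ℕ) :
    ‖monoB t e - monoB t' e‖ ≤ δ * rpow r e := by
  have hadd : ∀ e₁ e₂ : σ →₀ ℕ, ‖monoB t e₁ - monoB t' e₁‖ ≤ δ * rpow r e₁ →
      ‖monoB t e₂ - monoB t' e₂‖ ≤ δ * rpow r e₂ →
      ‖monoB t (e₁ + e₂) - monoB t' (e₁ + e₂)‖ ≤ δ * rpow r (e₁ + e₂) := by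
    intro e₁ e₂ h₁ h₂
    have hid : monoB t (e₁ + e₂) - monoB t' (e₁ + e₂) =
        monoB t e₁ * (monoB t e₂ - monoB t' e₂) + (monoB t e₁ - monoB t' e₁) * monoB t' e₂ := by
      rw [monoB_add, monoB_add]; ring
    rw [hid, rpow_add]
    refine (IsUltrametricDist.norm_add_le_max _ _).trans (max_le ?_ ?_)
    · refine (norm_mul_le _ _).trans ?_
      calc ‖monoB t e₁‖ * ‖monoB t e₂ - monoB t' e₂‖ ≤ rpow r e₁ * (δ * rpow r e₂) :=
            mul_le_mul (norm_monoB_le ht e₁) h₂ (norm_nonneg _) (rpow_nonneg hr0 _)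
        _ = _ := by ring
    · refine (norm_mul_le _ _).trans ?_
      calc ‖monoB t e₁ - monoB t' e₁‖ * ‖monoB t' e₂‖ ≤ (δ * rpow r e₁) * rpow r e₂ :=
            mul_le_mul h₁ (norm_monoB_le ht' e₂) (norm_nonneg _)
              (mul_nonneg hδ (rpow_nonneg hr0 _))
        _ = _ := by ring
  induction e using Finsupp.induction_linear with
  | zero => simpa using hδ
  | add e₁ e₂ h₁ h₂ => exact hadd _ _ h₁ h₂
  | single i k =>
    induction k with
    | zero => simpa using hδ
    | succ k ih =>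
      have := hadd _ _ ih (by
        rw [monoB_single, monoB_single, rpow_single]
        simpa using h i : ‖monoB t (Finsupp.single i 1) - monoB t' (Finsupp.single i 1)‖ ≤
          δ * rpow r (Finsupp.single i 1))
      rwa [← Finsupp.single_add] at this

/-- (C5) -/
theorem gn_comp_sub_le (hr0 : ∀ i, 0 ≤ r i) (hr' : ∀ i, 0 < r' i) {s s' : σ → MvPowerSeries τ K}
    (hs : IsSubst r r' s) (hs' : IsSubst r r' s') {δ : ℝ} (hδ : 0 ≤ δ)
    (hd : ∀ i, gn r' (s i - s' i) ≤ δ * r i) {T : MvPowerSeries σ K} (hT : IsRestricted r T) :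
    gn r' (comp T s - comp T s') ≤ δ * gn r T := by
  haveI : Fact (∀ i, 0 < r' i) := ⟨hr'⟩
  rw [← hs.val_aev hT, ← hs'.val_aev hT]
  show ‖aev hs.tup T - aev hs'.tup T‖ ≤ _
  have h1 := aev_summable (K := K) (B := Tt K r') hs.norm_tup hT
  have h2 := aev_summable (K := K) (B := Tt K r') hs'.norm_tup hT
  unfold aev
  rw [← h1.tsum_sub h2]
  refine IsUltrametricDist.norm_tsum_le_of_forall_le_of_nonneg
    (mul_nonneg hδ (gn_nonneg _ _)) fun e => ?_
  rw [← smul_sub, norm_smul]
  have h3 := norm_monoB_sub_le hδ hr0 hs.norm_tup hs'.norm_tup (fun i => hd i) e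
  calc ‖coeff e T‖ * ‖monoB hs.tup e - monoB hs'.tup e‖ ≤ ‖coeff e T‖ * (δ * rpow r e) :=
        mul_le_mul_of_nonneg_left h3 (norm_nonneg _)
    _ = δ * (‖coeff e T‖ * rpow r e) := by ring
    _ ≤ _ := mul_le_mul_of_nonneg_left (le_gn hT e) hδ

/-- (C7) -/
theorem gn_comp_eq (hr : ∀ i, 0 < r i) (hr' : ∀ i, 0 < r' i) {s : σ → MvPowerSeries τ K}
    {s' : τ → MvPowerSeries σ K} (hs : IsSubst r r' s) (hs' : IsSubst r' r s')
    (hinv : ∀ i, comp (s i) s' = MvPowerSeries.X i) {T : MvPowerSeries σ K}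
    (hT : IsRestricted r T) : gn r' (comp T s) = gn r T := by
  apply le_antisymm (gn_comp_le hr' hs hT)
  have h1 := gn_comp_le hr hs' (comp_restricted hr' hs hT)
  rw [comp_comp hr hr' hr hs hs' hT] at h1
  have : (fun i => comp (s i) s') = MvPowerSeries.X := funext hinv
  rw [this, comp_X_right hr T hT] at h1
  exact h1

/-- The additive shift `X_i + δ_i` is a substitution if `‖δ_i‖ ≤ r_i`. -/
theorem isSubst_shift (hr : ∀ i, 0 < r i) {δ : σ → K} (hδ : ∀ i, ‖δ i‖ ≤ r i) :
    IsSubst r r (fun i => MvPowerSeries.X i + MvPowerSeries.C (δ i)) := by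
  refine ⟨fun i => restr_add (isRestricted_X r i) (isRestricted_C r _), fun i => ?_⟩
  refine (gn_add_le (fun i => (hr i).le) (isRestricted_X r i) (isRestricted_C r _)).trans ?_
  rw [gn_X (fun i => (hr i).le), gn_C]
  exact max_le le_rfl (hδ i)

/-- The additive shift does not change the Gauss norm. -/
theorem gn_comp_shift (hr : ∀ i, 0 < r i) {δ : σ → K} (hδ : ∀ i, ‖δ i‖ ≤ r i)
    {T : MvPowerSeries σ K} (hT : IsRestricted r T) :
    gn r (comp T fun i => MvPowerSeries.X i + MvPowerSeries.C (δ i)) = gn r T := by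
  have h1 := isSubst_shift hr hδ
  have h2 := isSubst_shift (δ := fun i => - δ i) hr (fun i => by simpa using hδ i)
  refine gn_comp_eq hr hr h1 h2 (fun i => ?_) hT
  rw [comp_add hr h2 (isRestricted_X r i) (isRestricted_C r _), comp_X hr h2, comp_C hr h2]
  simp

/-! ### Evaluation -/

lemma isSubst_eval_bound {x : σ → K} (hx : ∀ i, ‖x i‖ ≤ r i) {T : MvPowerSeries σ K}
    (hT : IsRestricted r T) : ‖eval x T‖ ≤ gn r T := norm_aev_le hx hT

lemma eval_add {x : σ → K} (hx : ∀ i, ‖x i‖ ≤ r i) {T T' : MvPowerSeries σ K}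
    (hT : IsRestricted r T) (hT' : IsRestricted r T') :
    eval x (T + T') = eval x T + eval x T' := aev_add hx hT hT'

lemma eval_mul {x : σ → K} (hx : ∀ i, ‖x i‖ ≤ r i) {T T' : MvPowerSeries σ K}
    (hT : IsRestricted r T) (hT' : IsRestricted r T') :
    eval x (T * T') = eval x T * eval x T' := aev_mul hx hT hT'

@[simp] lemma eval_C (x : σ → K) (a : K) : eval x (MvPowerSeries.C a) = a := by
  unfold eval; rw [aev_C]; rfl

@[simp] lemma eval_X (x : σ → K) (i : σ) : eval x (MvPowerSeries.X i) = x i := aev_X x i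

/-- (C6) -/
theorem eval_comp (hr : ∀ i, 0 < r i) (hr' : ∀ i, 0 < r' i) {s : σ → MvPowerSeries τ K}
    (hs : IsSubst r r' s) {x : τ → K} (hx : ∀ i, ‖x i‖ ≤ r' i) {T : MvPowerSeries σ K}
    (hT : IsRestricted r T) :
    eval x (comp T s) = eval (fun i => eval x (s i)) T := by
  haveI : Fact (∀ i, 0 < r i) := ⟨hr⟩
  haveI : Fact (∀ i, 0 < r' i) := ⟨hr'⟩
  let φ : Tt K r →ₐ[K] K := (aevHom (K := K) x hx).comp (aevHom hs.tup hs.norm_tup)
  have hφ : Continuous φ :=
    (aevHom_continuous x hx).comp (aevHom_continuous hs.tup hs.norm_tup)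
  have hX : ∀ i, φ (Tt.X i) = eval x (s i) := by
    intro i
    show aev x (aev hs.tup (MvPowerSeries.X i : MvPowerSeries σ K)).val = _
    rw [aev_X]
    rfl
  have := aev_unique φ hφ hX (Tt.mk T hT)
  rw [Tt.val_mk] at this
  rw [← hs.val_aev hT]
  exact this

/-- (C1) the coefficient series of a substitution is summable. -/
theorem comp_coeff_summable (hr' : ∀ i, 0 < r' i) {s : σ → MvPowerSeries τ K} (h : IsSubst r r' s)
    {T : MvPowerSeries σ K} (hT : IsRestricted r T) (e' : τ →₀ ℕ) :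
    Summable fun e => coeff e T * coeff e' (monoS s e) := by
  haveI : Fact (∀ i, 0 < r' i) := ⟨hr'⟩
  have hsum := aev_summable (K := K) (B := Tt K r') h.norm_tup hT
  have := (Tt.coeffL (K := K) (r := r') e').summable hsum
  refine this.congr fun e => ?_
  rw [map_smul, Tt.coeffL_apply, h.val_mono, smul_eq_mul]

lemma restr_sum {ι : Type*} (S : Finset ι) {r : σ → ℝ} {f : ι → MvPowerSeries σ K}
    (h : ∀ j ∈ S, IsRestricted r (f j)) : IsRestricted r (∑ j ∈ S, f j) := by
  classical
  induction S using Finset.induction_on with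
  | empty => simpa using isRestricted_zero r
  | insert a S ha ih =>
    rw [Finset.sum_insert ha]
    exact restr_add (h a (Finset.mem_insert_self _ _))
      (ih fun j hj => h j (Finset.mem_insert_of_mem hj))

lemma gn_sum_le {ι : Type*} (S : Finset ι) {r : σ → ℝ} (hr : ∀ i, 0 ≤ r i)
    {f : ι → MvPowerSeries σ K} (h : ∀ j ∈ S, IsRestricted r (f j)) {C : ℝ} (hC : 0 ≤ C)
    (hb : ∀ j ∈ S, gn r (f j) ≤ C) : gn r (∑ j ∈ S, f j) ≤ C := by
  classical
  induction S using Finset.induction_on with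
  | empty => simpa using hC
  | insert a S ha ih =>
    rw [Finset.sum_insert ha]
    have hS : IsRestricted r (∑ j ∈ S, f j) := restr_sum S fun j hj => h j (Finset.mem_insert_of_mem hj)
    refine (gn_add_le hr (h a (Finset.mem_insert_self _ _)) hS).trans (max_le ?_ ?_)
    · exact hb a (Finset.mem_insert_self _ _)
    · exact ih (fun j hj => h j (Finset.mem_insert_of_mem hj))
        fun j hj => hb j (Finset.mem_insert_of_mem hj)

theorem comp_sum {ι : Type*} (S : Finset ι) (hr' : ∀ i, 0 < r' i) {s : σ → MvPowerSeries τ K}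
    (h : IsSubst r r' s) {f : ι → MvPowerSeries σ K} (hf : ∀ j ∈ S, IsRestricted r (f j)) :
    comp (∑ j ∈ S, f j) s = ∑ j ∈ S, comp (f j) s := by
  classical
  induction S using Finset.induction_on with
  | empty => simpa using comp_zero hr' h
  | insert a S ha ih =>
    rw [Finset.sum_insert ha, Finset.sum_insert ha, comp_add hr' h (hf a (Finset.mem_insert_self _ _))
      (restr_sum S fun j hj => hf j (Finset.mem_insert_of_mem hj)),
      ih fun j hj => hf j (Finset.mem_insert_of_mem hj)]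

/-- A linear substitution `s_i = ∑_j A_{ij} X_j`. -/
theorem isSubst_linear [Fintype τ] (hr' : ∀ i, 0 < r' i) (hr : ∀ i, 0 ≤ r i) {A : σ → τ → K}
    (hA : ∀ i j, ‖A i j‖ * r' j ≤ r i) :
    IsSubst r r' (fun i => ∑ j, MvPowerSeries.C (A i j) * MvPowerSeries.X j) := by
  have hr0 : ∀ i, 0 ≤ r' i := fun i => (hr' i).le
  have hres : ∀ i j, IsRestricted r' (MvPowerSeries.C (A i j) * MvPowerSeries.X j :
      MvPowerSeries τ K) := fun i j => restr_mul (isRestricted_C r' _) (isRestricted_X r' j)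
  refine ⟨fun i => restr_sum _ fun j _ => hres i j, fun i => ?_⟩
  refine gn_sum_le _ hr0 (fun j _ => hres i j) (hr i) fun j _ => ?_
  refine (gn_mul_le hr0 (isRestricted_C r' _) (isRestricted_X r' j)).trans ?_
  rw [gn_C, gn_X hr0]
  exact hA i j

/-- If `gn r (P - R) < gn r R` then `P` and `R` have the same Gauss norm. -/
theorem gn_eq_of_sub_lt {r : σ → ℝ} (hr : ∀ i, 0 < r i) {P R : MvPowerSeries σ K}
    (hP : IsRestricted r P) (hR : IsRestricted r R) (h : gn r (P - R) < gn r R) :
    gn r P = gn r R := by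
  have hr0 : ∀ i, 0 ≤ r i := fun i => (hr i).le
  have hR0 : R ≠ 0 := by
    rintro rfl
    simp only [gn_zero] at h
    exact absurd h (not_lt.2 (gn_nonneg _ _))
  apply le_antisymm
  · have e1 : P = (P - R) + R := by abel
    rw [e1]
    refine (gn_add_le hr0 (restr_sub hP hR) hR).trans (max_le h.le le_rfl)
  · have e1 : R = P + (-(P - R)) := by abel
    have := gn_add_le hr0 hP (restr_neg (restr_sub hP hR))
    rw [← e1, gn_neg] at this
    refine this.trans (max_le le_rfl ?_)
    by_contra hc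
    push Not at hc
    have := this.trans_eq (max_eq_right hc.le)
    linarith

/-- If `gn r (P - R) < gn r R` then `P` and `R` attain the Gauss norm at the same exponents. -/
theorem E_eq_of_sub_lt {r : σ → ℝ} (hr : ∀ i, 0 < r i) {P R : MvPowerSeries σ K}
    (hP : IsRestricted r P) (hR : IsRestricted r R) (h : gn r (P - R) < gn r R) :
    E r P = E r R := by
  have hg := gn_eq_of_sub_lt hr hP hR h
  have hd : ∀ e, ‖coeff e (P - R)‖ * rpow r e < gn r R := fun e =>
    (le_gn (restr_sub hP hR) e).trans_lt h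
  ext e
  have hp := rpow_pos hr e
  have hd' : ‖coeff e (P - R)‖ * rpow r e < gn r R := hd e
  have aux : ∀ x y : K, ‖y‖ < ‖x‖ → ‖x + y‖ = ‖x‖ := by
    intro x y hxy
    rw [IsUltrametricDist.norm_add_eq_max_of_norm_ne_norm hxy.ne', max_eq_left hxy.le]
  have hE : ∀ {Q : MvPowerSeries σ K}, e ∈ E r Q ↔ ‖coeff e Q‖ * rpow r e = gn r Q := Iff.rfl
  rw [hE, hE, hg]
  have hdiff : coeff e (P - R) = coeff e P - coeff e R := map_sub _ _ _
  constructor
  · intro he
    have h1 : ‖coeff e (P - R)‖ < ‖coeff e P‖ := by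
      refine lt_of_mul_lt_mul_right ?_ hp.le
      rw [he]; exact hd'
    have h2 : coeff e R = coeff e P + -coeff e (P - R) := by rw [hdiff]; abel
    rw [h2, aux _ _ (by rw [norm_neg]; exact h1)]
    exact he
  · intro he
    have h1 : ‖coeff e (P - R)‖ < ‖coeff e R‖ := by
      refine lt_of_mul_lt_mul_right ?_ hp.le
      rw [he]; exact hd'
    have h2 : coeff e P = coeff e R + coeff e (P - R) := by rw [hdiff]; abel
    rw [h2, aux _ _ h1]
    exact he

/-! ### Shift along one variable: binomial formula -/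

section Shift1

variable [DecidableEq σ]

/-- The shift of the single variable `i0` by `δ`, i.e. `X_{i0} ↦ X_{i0} + δ`, others fixed. -/
noncomputable def shift1 (i0 : σ) (δ : K) : σ → MvPowerSeries σ K :=
  fun i => MvPowerSeries.X i + MvPowerSeries.C (if i = i0 then δ else 0)

lemma isSubst_shift1 {r : σ → ℝ} (hr : ∀ i, 0 < r i) {i0 : σ} {δ : K} (hδ : ‖δ‖ ≤ r i0) :
    IsSubst r r (shift1 i0 δ) := by
  refine isSubst_shift hr (fun i => ?_)
  split_ifs with h
  · rwa [h]
  · simpa using (hr i).le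

/-- Shifting one variable does not change the Gauss norm. -/
theorem gn_comp_shift1 {r : σ → ℝ} (hr : ∀ i, 0 < r i) {i0 : σ} {δ : K} (hδ : ‖δ‖ ≤ r i0)
    {T : MvPowerSeries σ K} (hT : IsRestricted r T) : gn r (comp T (shift1 i0 δ)) = gn r T := by
  refine gn_comp_shift hr (fun i => ?_) hT
  split_ifs with h
  · rwa [h]
  · simpa using (hr i).le

lemma monoB_X (e : σ →₀ ℕ) :
    monoB (MvPowerSeries.X : σ → MvPowerSeries σ K) e = monomial e 1 := by
  induction e using Finsupp.induction_linear with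
  | zero => simp [monomial_zero_eq_C_apply]
  | add e e' h h' => rw [monoB_add, h, h', monomial_mul_monomial, one_mul]
  | single i k => rw [monoB_single, MvPowerSeries.X_pow_eq]

lemma monoB_shift1 (i0 : σ) (δ : K) (e : σ →₀ ℕ) :
    monoB (shift1 i0 δ) e = monomial (e.erase i0) (1 : K) *
      (MvPowerSeries.X i0 + MvPowerSeries.C δ) ^ e i0 := by
  have he : e = e.erase i0 + Finsupp.single i0 (e i0) := by
    rw [add_comm, Finsupp.single_add_erase]
  conv_lhs => rw [he]
  rw [monoB_add, monoB_single, ← monoB_X]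
  congr 1
  · unfold monoB
    refine Finsupp.prod_congr fun i hi => ?_
    have hne : i ≠ i0 := by
      intro h; subst h; simp at hi
    simp [shift1, hne]
  · simp [shift1]

/-- The coefficient of `(X_{i0} + δ)^k · X^{e0}` when `e0 i0 = 0`. -/
lemma coeff_monoB_shift1 (i0 : σ) (δ : K) (e e' : σ →₀ ℕ) :
    coeff e' (monoB (shift1 i0 δ) e) =
      if e'.erase i0 = e.erase i0 ∧ e' i0 ≤ e i0 then
        ((e i0).choose (e' i0) : K) * δ ^ (e i0 - e' i0) else 0 := by
  rw [monoB_shift1, add_pow, Finset.mul_sum, map_sum]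
  have hterm : ∀ c ∈ Finset.range (e i0 + 1),
      coeff e' (monomial (e.erase i0) (1 : K) *
        ((MvPowerSeries.X i0) ^ c * (MvPowerSeries.C δ) ^ (e i0 - c) * ((e i0).choose c : MvPowerSeries σ K))) =
      if e' = e.erase i0 + Finsupp.single i0 c then
        ((e i0).choose c : K) * δ ^ (e i0 - c) else 0 := by
    intro c _
    have h1 : monomial (e.erase i0) (1 : K) *
        ((MvPowerSeries.X i0) ^ c * (MvPowerSeries.C δ) ^ (e i0 - c) * ((e i0).choose c : MvPowerSeries σ K)) =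
        monomial (e.erase i0 + Finsupp.single i0 c) (((e i0).choose c : K) * δ ^ (e i0 - c)) := by
      have h2 : ((e i0).choose c : MvPowerSeries σ K) = MvPowerSeries.C ((e i0).choose c : K) := by simp
      rw [h2, MvPowerSeries.X_pow_eq, ← map_pow, mul_assoc, ← map_mul, ← monomial_zero_eq_C_apply,
        monomial_mul_monomial, monomial_mul_monomial]
      simp [mul_comm]
    rw [h1, coeff_monomial]
  rw [Finset.sum_congr rfl hterm]
  have herase : (e.erase i0) i0 = 0 := by simp
  by_cases hcase : e'.erase i0 = e.erase i0 ∧ e' i0 ≤ e i0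
  · rw [if_pos hcase]
    rw [Finset.sum_eq_single (e' i0)]
    · rw [if_pos]
      rw [← hcase.1, add_comm, Finsupp.single_add_erase]
    · intro c _ hc
      rw [if_neg]
      intro h
      apply hc
      have := DFunLike.congr_fun h i0
      simpa using this.symm
    · intro h
      exfalso
      apply h
      simp only [Finset.mem_range]
      exact Nat.lt_succ_of_le hcase.2
  · rw [if_neg hcase]
    refine Finset.sum_eq_zero fun c hc => ?_
    rw [if_neg]
    intro h
    apply hcase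
    subst h
    have h3 : (e.erase i0 + Finsupp.single i0 c).erase i0 = e.erase i0 := by
      ext i
      by_cases hi : i = i0
      · subst hi; simp
      · simp [Finsupp.erase_ne hi, Finsupp.single_apply, Ne.symm hi]
    refine ⟨h3, ?_⟩
    simp only [Finsupp.add_apply, Finsupp.single_eq_same, Finsupp.erase_same, zero_add]
    exact Nat.lt_succ_iff.1 (Finset.mem_range.1 hc)

/-- The binomial formula for the coefficients of a one-variable shift
(valid for all series, the sums being `tsum`s). -/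
theorem coeff_comp_shift1 (i0 : σ) (δ : K) (T : MvPowerSeries σ K) (e' : σ →₀ ℕ) :
    coeff e' (comp T (shift1 i0 δ)) =
      ∑' b : ℕ, coeff (e' + Finsupp.single i0 b) T * (((e' i0 + b).choose b : K) * δ ^ b) := by
  rw [coeff_comp]
  have hinj : Function.Injective fun b : ℕ => e' + Finsupp.single i0 b := by
    intro b b' h
    have := DFunLike.congr_fun h i0
    simpa using this
  rw [← hinj.tsum_eq]
  · refine tsum_congr fun b => ?_
    show coeff (e' + Finsupp.single i0 b) T * coeff e' (monoB (shift1 i0 δ) (e' + Finsupp.single i0 b)) = _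
    rw [coeff_monoB_shift1, if_pos]
    · simp only [Finsupp.add_apply, Finsupp.single_eq_same, add_tsub_cancel_left]
      rw [Nat.choose_symm_add]
    · refine ⟨?_, by simp⟩
      ext i
      by_cases hi : i = i0
      · subst hi; simp
      · simp [Finsupp.erase_ne hi, Finsupp.single_apply, Ne.symm hi]
  · intro e he
    have h2 : coeff e' (monoB (shift1 i0 δ) e) ≠ 0 := right_ne_zero_of_mul he
    rw [coeff_monoB_shift1] at h2
    by_cases hc : e'.erase i0 = e.erase i0 ∧ e' i0 ≤ e i0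
    · refine ⟨e i0 - e' i0, ?_⟩
      ext i
      by_cases hi : i = i0
      · subst hi
        simp only [Finsupp.add_apply, Finsupp.single_eq_same]
        omega
      · have := DFunLike.congr_fun hc.1 i
        simp only [Finsupp.erase_ne hi] at this
        simp [Finsupp.single_apply, Ne.symm hi, this]
    · rw [if_neg hc] at h2
      exact absurd rfl h2

end Shift1

end Comp

/-! ### Newton lemmas -/

section Newton

variable {r : σ → ℝ}

/-- `w·e = ∑ w_i e_i`. -/
noncomputable def wdot (w : σ → ℝ) (e : σ →₀ ℕ) : ℝ := e.sum (fun i k => (k : ℝ) * w i)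

@[simp] lemma wdot_zero (w : σ → ℝ) : wdot w 0 = 0 := by simp [wdot]

lemma wdot_add (w : σ → ℝ) (e e' : σ →₀ ℕ) : wdot w (e + e') = wdot w e + wdot w e' := by
  classical
  unfold wdot
  exact Finsupp.sum_add_index' (by simp) (by intros; push_cast; ring)

lemma wdot_single (w : σ → ℝ) (i : σ) (k : ℕ) : wdot w (Finsupp.single i k) = k * w i := by
  unfold wdot
  simp

lemma wdot_nonneg {w : σ → ℝ} (hw : ∀ i, 0 ≤ w i) (e : σ →₀ ℕ) : 0 ≤ wdot w e := by
  unfold wdot Finsupp.sum
  exact Finset.sum_nonneg fun i _ => mul_nonneg (Nat.cast_nonneg _) (hw i)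

/-- The shrunk radii `r exp(-s w)`. -/
noncomputable def rs (r : σ → ℝ) (w : σ → ℝ) (s : ℝ) : σ → ℝ := fun i => r i * Real.exp (-(s * w i))

lemma rs_pos (hr : ∀ i, 0 < r i) (w : σ → ℝ) (s : ℝ) : ∀ i, 0 < rs r w s i :=
  fun i => mul_pos (hr i) (Real.exp_pos _)

lemma rs_le (hr : ∀ i, 0 < r i) {w : σ → ℝ} (hw : ∀ i, 0 ≤ w i) {s : ℝ} (hs : 0 ≤ s) :
    ∀ i, rs r w s i ≤ r i := fun i => by
  unfold rs
  have : Real.exp (-(s * w i)) ≤ 1 := Real.exp_le_one_iff.2 (by
    have := mul_nonneg hs (hw i); linarith)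
  nlinarith [hr i]

lemma rpow_rs (r w : σ → ℝ) (s : ℝ) (e : σ →₀ ℕ) :
    rpow (rs r w s) e = rpow r e * Real.exp (-(s * wdot w e)) := by
  induction e using Finsupp.induction_linear with
  | zero => simp
  | add e e' h h' =>
    rw [rpow_add, rpow_add, wdot_add, h, h', mul_add, neg_add, Real.exp_add]
    ring
  | single i k =>
    rw [rpow_single, rpow_single, wdot_single]
    unfold rs
    rw [mul_pow, ← Real.exp_nat_mul]
    congr 2
    ring

lemma restr_rs (hr : ∀ i, 0 < r i) {w : σ → ℝ} (hw : ∀ i, 0 ≤ w i) {s : ℝ} (hs : 0 ≤ s)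
    {T : MvPowerSeries σ K} (hT : IsRestricted r T) : IsRestricted (rs r w s) T :=
  restr_mono (fun i => (rs_pos hr w s i).le) (rs_le hr hw hs) hT

/-- `Z(r) = -log ‖T‖_r`. -/
noncomputable def Zv (r : σ → ℝ) (T : MvPowerSeries σ K) : ℝ := - Real.log (gn r T)

/-- (C8) `Z(r^s) ≤ Z(r) + s w·e*` for `e* ∈ E(T,r)`. -/
theorem newton_Z (hr : ∀ i, 0 < r i) {w : σ → ℝ} (hw : ∀ i, 0 ≤ w i) {s : ℝ} (hs : 0 ≤ s)
    {T : MvPowerSeries σ K} (hT : IsRestricted r T) (h0 : T ≠ 0) {e : σ →₀ ℕ} (he : e ∈ E r T) :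
    Zv (rs r w s) T ≤ Zv r T + s * wdot w e := by
  have hT' := restr_rs hr hw hs hT
  have hg := gn_pos hr hT h0
  have h1 : gn r T * Real.exp (-(s * wdot w e)) ≤ gn (rs r w s) T := by
    have := le_gn hT' e
    rw [rpow_rs, ← mul_assoc] at this
    rwa [show ‖coeff e T‖ * rpow r e = gn r T from he] at this
  have hlog := Real.log_le_log (mul_pos hg (Real.exp_pos _)) h1
  rw [Real.log_mul hg.ne' (Real.exp_pos _).ne', Real.log_exp] at hlog
  unfold Zv
  linarith

/-- (C8) each `e ∈ E(T,r^s)` has `w·e ≤ w·e*` (`s > 0`). -/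
theorem newton_E (hr : ∀ i, 0 < r i) {w : σ → ℝ} (hw : ∀ i, 0 ≤ w i) {s : ℝ} (hs : 0 < s)
    {T : MvPowerSeries σ K} (hT : IsRestricted r T) (h0 : T ≠ 0) {e e' : σ →₀ ℕ} (he : e ∈ E r T)
    (he' : e' ∈ E (rs r w s) T) : wdot w e' ≤ wdot w e := by
  have hT' := restr_rs hr hw hs.le hT
  have hg := gn_pos hr hT h0
  have hg' := gn_pos (rs_pos hr w s) hT' h0
  have h1 : gn r T * Real.exp (-(s * wdot w e)) ≤ gn (rs r w s) T := by
    have := le_gn hT' e
    rw [rpow_rs, ← mul_assoc] at this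
    rwa [show ‖coeff e T‖ * rpow r e = gn r T from he] at this
  have h2 : gn (rs r w s) T = ‖coeff e' T‖ * rpow r e' * Real.exp (-(s * wdot w e')) := by
    have : ‖coeff e' T‖ * rpow (rs r w s) e' = gn (rs r w s) T := he'
    rw [← this, rpow_rs, mul_assoc]
  have h3 : ‖coeff e' T‖ * rpow r e' ≤ gn r T := le_gn hT e'
  have h4 : 0 < ‖coeff e' T‖ * rpow r e' := by
    by_contra hc
    have hz : ‖coeff e' T‖ * rpow r e' ≤ 0 := not_lt.1 hc
    have := mul_nonpos_of_nonpos_of_nonneg hz (Real.exp_pos (-(s * wdot w e'))).le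
    rw [h2] at hg'
    linarith
  by_contra hlt
  push Not at hlt
  have h5 : Real.exp (-(s * wdot w e')) < Real.exp (-(s * wdot w e)) := by
    apply Real.exp_lt_exp.2
    nlinarith
  have h6 : gn (rs r w s) T < gn r T * Real.exp (-(s * wdot w e)) := by
    rw [h2]
    calc ‖coeff e' T‖ * rpow r e' * Real.exp (-(s * wdot w e'))
        < ‖coeff e' T‖ * rpow r e' * Real.exp (-(s * wdot w e)) :=
          mul_lt_mul_of_pos_left h5 h4
      _ ≤ _ := mul_le_mul_of_nonneg_right h3 (Real.exp_pos _).le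
  linarith

/-- (C8) if `‖T‖_{r0} ≤ 1` and `e ∈ E(T, r0 exp(-s w))` then `s w·e ≤ Z(r0 exp(-s w))`. -/
theorem newton_top {r0 : σ → ℝ} (hr : ∀ i, 0 < r0 i) {w : σ → ℝ} (hw : ∀ i, 0 ≤ w i) {s : ℝ}
    (hs : 0 ≤ s) {T : MvPowerSeries σ K} (hT : IsRestricted r0 T) (h0 : T ≠ 0)
    (h1 : gn r0 T ≤ 1) {e : σ →₀ ℕ} (he : e ∈ E (rs r0 w s) T) :
    s * wdot w e ≤ Zv (rs r0 w s) T := by
  have hT' := restr_rs hr hw hs hT
  have hg' := gn_pos (rs_pos hr w s) hT' h0
  have h2 : gn (rs r0 w s) T ≤ Real.exp (-(s * wdot w e)) := by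
    have : ‖coeff e T‖ * rpow (rs r0 w s) e = gn (rs r0 w s) T := he
    rw [← this, rpow_rs, ← mul_assoc]
    have h3 := (le_gn hT e).trans h1
    calc ‖coeff e T‖ * rpow r0 e * Real.exp (-(s * wdot w e)) ≤ 1 * Real.exp (-(s * wdot w e)) :=
          mul_le_mul_of_nonneg_right h3 (Real.exp_pos _).le
      _ = _ := one_mul _
  have hlog := Real.log_le_log hg' h2
  rw [Real.log_exp] at hlog
  unfold Zv
  linarith

end Newton

/-! ### Integral series -/

section Integral

variable {r : σ → ℝ}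

lemma rpow_le_one (hr : ∀ i, 0 ≤ r i) (hr1 : ∀ i, r i ≤ 1) (e : σ →₀ ℕ) : rpow r e ≤ 1 := by
  unfold rpow Finsupp.prod
  exact Finset.prod_le_one (fun i _ => pow_nonneg (hr i) _) (fun i _ => pow_le_one₀ (hr i) (hr1 i))

/-- An integral series has Gauss norm at most `1` for radii at most `1`. -/
lemma gn_le_one_of_integral (hr : ∀ i, 0 ≤ r i) (hr1 : ∀ i, r i ≤ 1) {T : MvPowerSeries σ K}
    (hT : ∀ e, ‖coeff e T‖ ≤ 1) : gn r T ≤ 1 := by
  refine gn_le zero_le_one fun e => ?_
  calc ‖coeff e T‖ * rpow r e ≤ 1 * 1 :=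
        mul_le_mul (hT e) (rpow_le_one hr hr1 e) (rpow_nonneg hr e) zero_le_one
    _ = 1 := one_mul 1

/-- A series with bounded coefficients is restricted for radii `< 1` (finitely many variables). -/
lemma restr_of_bounded [Finite σ] (hr : ∀ i, 0 < r i) (hr1 : ∀ i, r i < 1) {T : MvPowerSeries σ K}
    {C : ℝ} (hT : ∀ e, ‖coeff e T‖ ≤ C) : IsRestricted r T := by
  classical
  cases nonempty_fintype σ
  rcases isEmpty_or_nonempty σ with hempty | hne
  · -- no variables: the index type is a singleton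
    refine isRestricted_of_finite_ge (fun i => (hr i).le) fun ε _ => Set.toFinite _
  obtain ⟨i0, -, hi0⟩ := Finset.exists_max_image Finset.univ r ⟨Classical.arbitrary σ, Finset.mem_univ _⟩
  set ρ := r i0 with hρ
  have hρ0 : 0 < ρ := hr i0
  have hρ1 : ρ < 1 := hr1 i0
  have hC : 0 ≤ C := (norm_nonneg _).trans (hT 0)
  have hbd : ∀ e : σ →₀ ℕ, rpow r e ≤ ρ ^ (e.sum fun _ k => k) := by
    intro e
    unfold rpow Finsupp.prod Finsupp.sum
    rw [← Finset.prod_pow_eq_pow_sum]
    exact Finset.prod_le_prod (fun i _ => pow_nonneg (hr i).le _)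
      (fun i _ => pow_le_pow_left₀ (hr i).le (hi0 i (Finset.mem_univ _)) _)
  refine isRestricted_of_finite_ge (fun i => (hr i).le) fun ε hε => ?_
  obtain ⟨M, hM⟩ := exists_pow_lt_of_lt_one (div_pos hε (by positivity : 0 < C + 1)) hρ1
  have hfin : {e : σ →₀ ℕ | (e.sum fun _ k => k) ≤ M}.Finite := by
    have := Finsupp.finite_of_degree_le (σ := σ) M
    refine this.subset fun e he => ?_
    exact he
  refine hfin.subset fun e he => ?_
  by_contra hcon
  have hlt : M < (e.sum fun _ k => k) := not_le.1 hcon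
  have h1 : ‖coeff e T‖ * rpow r e ≤ C * ρ ^ M := by
    refine mul_le_mul (hT e) ((hbd e).trans ?_) (rpow_pos hr e).le hC
    exact pow_le_pow_of_le_one hρ0.le hρ1.le hlt.le
  have h2 : C * ρ ^ M < ε := by
    rw [lt_div_iff₀ (by positivity)] at hM
    nlinarith [pow_pos hρ0 M]
  have he' : ε ≤ ‖coeff e T‖ * rpow r e := he
  linarith

end Integral



end Crest.Agent.LT
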