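/-
S0351 (row 227), module E-c-Step: generic lemmas for one step of the chain (blueprint E5).
Nothing here knows about the Data of the chain: linear substitutions, the shear, the slice
argument, the carry.
-/
import Crest.Agent.Lib.LubinTate.Tate
import Crest.Agent.Lib.LubinTate.ChainStepSlice

set_option autoImplicit false
set_option linter.unusedSectionVars false

namespace Crest.Agent.LT

open MvPowerSeries Filter Topology

noncomputable section

variable {K : Type*} [NontriviallyNormedField K] [IsUltrametricDist K] [CompleteSpace K]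
variable {σ τ : Type*}

/-- There is a gap below the Gauss norm. -/
lemma exists_gap {r : σ → ℝ} (hr : ∀ i, 0 < r i) {P : MvPowerSeries σ K} (hP : IsRestricted r P)
    (h0 : P ≠ 0) :
    ∃ C, 0 ≤ C ∧ C < gn r P ∧ ∀ e, e ∉ E r P → ‖coeff e P‖ * rpow r e ≤ C := by
  classical
  have hM := gn_pos hr hP h0
  set M := gn r P with hMdef
  have hfin := restr_finite_ge hP (half_pos hM)
  set F : Finset (σ →₀ ℕ) := hfin.toFinset.filter (fun e => e ∉ E r P) with hF
  have hlt : ∀ e ∉ E r P, ‖coeff e P‖ * rpow r e < M := fun e he =>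
    lt_of_le_of_ne (le_gn hP e) he
  rcases F.eq_empty_or_nonempty with hemp | hne
  · refine ⟨M / 2, by positivity, half_lt_self hM, fun e he => ?_⟩
    by_contra hc
    have : e ∈ F := by
      rw [hF, Finset.mem_filter]
      exact ⟨hfin.mem_toFinset.2 (le_of_not_ge hc), he⟩
    simp [hemp] at this
  · obtain ⟨e1, he1, hmax⟩ := F.exists_max_image (fun e => ‖coeff e P‖ * rpow r e) hne
    have he1' : e1 ∉ E r P := (Finset.mem_filter.1 he1).2
    refine ⟨max (M / 2) (‖coeff e1 P‖ * rpow r e1), le_max_of_le_left (by positivity),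
      max_lt (half_lt_self hM) (hlt e1 he1'), fun e he => ?_⟩
    by_cases hc : M / 2 ≤ ‖coeff e P‖ * rpow r e
    · refine le_max_of_le_right (hmax e ?_)
      rw [hF, Finset.mem_filter]
      exact ⟨hfin.mem_toFinset.2 hc, he⟩
    · exact le_max_of_le_left (not_le.1 hc).le

/-- A coefficient bound for the monomials of a substitution. -/
lemma IsSubst.coeff_mono_le {r : σ → ℝ} {r' : τ → ℝ} (hr' : ∀ i, 0 < r' i)
    {s : σ → MvPowerSeries τ K} (h : IsSubst r r' s) (e : σ →₀ ℕ) (e' : τ →₀ ℕ) :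
    ‖coeff e' (monoS s e)‖ * rpow r' e' ≤ rpow r e := by
  have : Fact (∀ i, 0 < r' i) := ⟨hr'⟩
  have h1 : ‖monoB h.tup e‖ ≤ rpow r e := norm_monoB_le h.norm_tup e
  rw [← h.val_mono e]
  exact (le_gn (monoB h.tup e).restricted e').trans h1

/-! ### Linear substitutions -/

/-- The linear forms with matrix `M`. -/
def linS [Fintype τ] (M : σ → τ → K) : σ → MvPowerSeries τ K :=
  fun i => ∑ j, MvPowerSeries.C (M i j) * MvPowerSeries.X j

lemma coeff_linS [Fintype τ] [DecidableEq τ] (M : σ → τ → K) (i : σ) (e : τ →₀ ℕ) :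
    coeff e (linS M i) = ∑ j, if e = Finsupp.single j 1 then M i j else 0 := by
  classical
  simp only [linS, map_sum, coeff_C_mul, coeff_X]
  refine Finset.sum_congr rfl fun j _ => ?_
  split_ifs <;> simp

/-- Composition of a linear form with an arbitrary substitution. -/
lemma comp_linS [Fintype σ] {r : σ → ℝ} {r' : τ → ℝ} (hr' : ∀ i, 0 < r' i)
    {s : σ → MvPowerSeries τ K} (h : IsSubst r r' s) (a : σ → K) :
    comp (∑ v, MvPowerSeries.C (a v) * MvPowerSeries.X v) s
      = ∑ v, MvPowerSeries.C (a v) * s v := by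
  rw [comp_sum _ hr' h (fun v _ => restr_mul (isRestricted_C r _) (isRestricted_X r v))]
  refine Finset.sum_congr rfl fun v _ => ?_
  rw [comp_mul hr' h (isRestricted_C r _) (isRestricted_X r v), comp_C hr' h, comp_X hr' h]

/-! ### The top part in one variable -/

section Top

variable [DecidableEq σ]

/-- The part of `S` of top degree in `X_{i0}` is `a X^{e0}`. -/
def TopIs (i0 : σ) (S : MvPowerSeries σ K) (e0 : σ →₀ ℕ) (a : K) : Prop :=
  ∀ e', (e0 i0 < e' i0 → coeff e' S = 0) ∧ (e' i0 = e0 i0 → coeff e' S = if e' = e0 then a else 0)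

lemma TopIs.mul {i0 : σ} {S S' : MvPowerSeries σ K} {e0 e1 : σ →₀ ℕ} {a a' : K}
    (h : TopIs i0 S e0 a) (h' : TopIs i0 S' e1 a') :
    TopIs i0 (S * S') (e0 + e1) (a * a') := by
  classical
  intro e'
  have hsum : ∀ x ∈ Finset.HasAntidiagonal.antidiagonal e', x.1 i0 + x.2 i0 = e' i0 := by
    intro x hx
    have := Finset.HasAntidiagonal.mem_antidiagonal.1 hx
    rw [← this]
    rfl
  constructor
  · intro hlt
    rw [coeff_mul]
    refine Finset.sum_eq_zero fun x hx => ?_
    have h1 := hsum x hx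
    simp only [Finsupp.add_apply] at hlt
    by_cases h2 : e0 i0 < x.1 i0
    · rw [(h x.1).1 h2, zero_mul]
    · have h3 : e1 i0 < x.2 i0 := by omega
      rw [(h' x.2).1 h3, mul_zero]
  · intro heq
    rw [coeff_mul]
    simp only [Finsupp.add_apply] at heq
    have hterm : ∀ x ∈ Finset.HasAntidiagonal.antidiagonal e', coeff x.1 S * coeff x.2 S'
        = if x = (e0, e1) then a * a' else 0 := by
      intro x hx
      have h1 := hsum x hx
      by_cases h2 : e0 i0 < x.1 i0
      · rw [(h x.1).1 h2, zero_mul, if_neg]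
        rintro rfl
        exact lt_irrefl _ h2
      by_cases h3 : e1 i0 < x.2 i0
      · rw [(h' x.2).1 h3, mul_zero, if_neg]
        rintro rfl
        exact lt_irrefl _ h3
      have h4 : x.1 i0 = e0 i0 := by omega
      have h5 : x.2 i0 = e1 i0 := by omega
      rw [(h x.1).2 h4, (h' x.2).2 h5]
      by_cases h6 : x.1 = e0
      · by_cases h7 : x.2 = e1
        · rw [if_pos h6, if_pos h7, if_pos (Prod.ext h6 h7)]
        · rw [if_neg h7, mul_zero, if_neg]
          rintro rfl
          exact h7 rfl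
      · rw [if_neg h6, zero_mul, if_neg]
        rintro rfl
        exact h6 rfl
    rw [Finset.sum_congr rfl hterm, Finset.sum_ite_eq']
    simp only [Finset.HasAntidiagonal.mem_antidiagonal]
    by_cases h8 : e' = e0 + e1
    · rw [if_pos h8.symm, if_pos h8]
    · rw [if_neg (fun h => h8 h.symm), if_neg h8]

lemma TopIs.one (i0 : σ) : TopIs i0 (1 : MvPowerSeries σ K) 0 1 := by
  classical
  intro e'
  constructor
  · intro hlt
    rw [coeff_one, if_neg]
    rintro rfl
    simp at hlt
  · intro _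
    rw [coeff_one]

variable [Fintype σ]

/-- The matrix of the shear. -/
def shearMat (i0 : σ) (α : K) (β : σ → K) : σ → σ → K := fun u v =>
  if u = i0 then (if v = i0 then α else β v) else (if v = u then 1 else 0)

/-- The shear: `X_{i0} ↦ α X_{i0} + ∑_{v ≠ i0} β_v X_v`, others fixed. -/
def shearS (i0 : σ) (α : K) (β : σ → K) : σ → MvPowerSeries σ K := linS (shearMat i0 α β)

lemma topIs_shearS (i0 : σ) (α : K) (β : σ → K) (i : σ) :
    TopIs i0 (shearS i0 α β i) (Finsupp.single i 1) (α ^ (Finsupp.single i 1 : σ →₀ ℕ) i0) := by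
  classical
  intro e'
  have hcoeff := coeff_linS (shearMat i0 α β) i e'
  have hc : coeff e' (shearS i0 α β i) = ∑ j, if e' = Finsupp.single j 1 then shearMat i0 α β i j else 0 :=
    hcoeff
  rw [hc]
  by_cases hi : i = i0
  · subst hi
    simp only [Finsupp.single_eq_same, pow_one]
    constructor
    · intro hlt
      refine Finset.sum_eq_zero fun j _ => ?_
      rw [if_neg]
      rintro rfl
      rw [Finsupp.single_apply] at hlt
      split_ifs at hlt <;> omega
    · intro heq
      rw [Finset.sum_eq_single i]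
      · simp [shearMat]
      · intro j _ hj
        rw [if_neg]
        rintro rfl
        rw [Finsupp.single_apply, if_neg hj] at heq
        omega
      · simp
  · have hne : (Finsupp.single i 1 : σ →₀ ℕ) i0 = 0 := by
      rw [Finsupp.single_apply, if_neg hi]
    rw [hne, pow_zero]
    have hsum : (∑ j, if e' = Finsupp.single j 1 then shearMat i0 α β i j else 0)
        = if e' = Finsupp.single i 1 then 1 else 0 := by
      rw [Finset.sum_eq_single i]
      · simp [shearMat, hi]
      · intro j _ hj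
        simp [shearMat, hi, hj]
      · simp
    rw [hsum]
    constructor
    · intro hlt
      rw [if_neg]
      rintro rfl
      omega
    · intro _
      rfl

lemma topIs_monoS (i0 : σ) (α : K) (β : σ → K) (e : σ →₀ ℕ) :
    TopIs i0 (monoS (shearS i0 α β) e) e (α ^ e i0) := by
  classical
  have hadd : ∀ e e' : σ →₀ ℕ, TopIs i0 (monoS (shearS i0 α β) e) e (α ^ e i0) →
      TopIs i0 (monoS (shearS i0 α β) e') e' (α ^ e' i0) →
      TopIs i0 (monoS (shearS i0 α β) (e + e')) (e + e') (α ^ (e + e') i0) := by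
    intro e e' h h'
    have := h.mul h'
    rw [← pow_add] at this
    rw [monoS, monoB_add]
    exact this
  induction e using Finsupp.induction_linear with
  | zero => simpa using TopIs.one (K := K) i0
  | add e e' h h' => exact hadd _ _ h h'
  | single i k =>
    induction k with
    | zero => simpa using TopIs.one (K := K) i0
    | succ k ih =>
      have h1 : TopIs i0 (monoS (shearS i0 α β) (Finsupp.single i 1)) (Finsupp.single i 1)
          (α ^ (Finsupp.single i 1 : σ →₀ ℕ) i0) := by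
        rw [monoS, monoB_single, pow_one]
        exact topIs_shearS i0 α β i
      have := hadd _ _ ih h1
      rwa [← Finsupp.single_add] at this

/-- Hypotheses of the shear. -/
structure ShearHyp (r r' : σ → ℝ) (i0 : σ) (α : K) (β : σ → K) : Prop where
  pos : ∀ i, 0 < r i
  pos' : ∀ i, 0 < r' i
  eq_ne : ∀ u, u ≠ i0 → r' u = r u
  alpha : ‖α‖ * r' i0 = r i0
  beta : ∀ v, v ≠ i0 → ‖β v‖ * r' v ≤ r i0

variable {r r' : σ → ℝ} {i0 : σ} {α : K} {β : σ → K}

lemma ShearHyp.isSubst (h : ShearHyp r r' i0 α β) : IsSubst r r' (shearS i0 α β) := by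
  refine isSubst_linear h.pos' (fun i => (h.pos i).le) fun i j => ?_
  unfold shearMat
  by_cases hi : i = i0
  · subst hi
    by_cases hj : j = i
    · subst hj
      simp [h.alpha]
    · simp only [if_true, if_neg hj]
      exact h.beta j hj
  · by_cases hj : j = i
    · subst hj
      simp [hi, h.eq_ne j hi]
    · simp [hi, hj, (h.pos i).le]

lemma ShearHyp.rpow_eq (h : ShearHyp r r' i0 α β) (e : σ →₀ ℕ) :
    ‖α‖ ^ e i0 * rpow r' e = rpow r e := by
  classical
  induction e using Finsupp.induction_linear with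
  | zero => simp
  | add e e' he he' =>
    rw [rpow_add, rpow_add, ← he, ← he', Finsupp.add_apply, pow_add]
    ring
  | single i k =>
    rw [rpow_single, rpow_single]
    by_cases hi : i = i0
    · subst hi
      rw [Finsupp.single_eq_same, ← mul_pow, h.alpha]
    · rw [Finsupp.single_apply, if_neg hi, pow_zero, one_mul, h.eq_ne i hi]

/-- `(a)` of the shear lemma: above the top degree the coefficients drop. -/
lemma ShearHyp.coeff_lt (h : ShearHyp r r' i0 α β) {P : MvPowerSeries σ K} (hP : IsRestricted r P)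
    (h0 : P ≠ 0) {b : ℕ} (hb : ∀ e ∈ E r P, e i0 ≤ b) {e' : σ →₀ ℕ} (he' : b < e' i0) :
    ‖coeff e' (comp P (shearS i0 α β))‖ * rpow r' e' < gn r P := by
  obtain ⟨C, hC0, hC, hgap⟩ := exists_gap h.pos hP h0
  refine lt_of_le_of_lt ?_ hC
  have hrp := rpow_pos h.pos' e'
  rw [← le_div_iff₀ hrp, coeff_comp]
  refine IsUltrametricDist.norm_tsum_le_of_forall_le_of_nonneg (by positivity) fun e => ?_
  rw [le_div_iff₀ hrp, norm_mul]
  by_cases hlt : e i0 < e' i0
  · rw [((topIs_monoS i0 α β e) e').1 hlt]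
    simpa using hC0
  · have heE : e ∉ E r P := fun hc => by
      have := hb e hc
      omega
    have h1 := h.isSubst.coeff_mono_le h.pos' e e'
    calc ‖coeff e P‖ * ‖coeff e' (monoS (shearS i0 α β) e)‖ * rpow r' e'
        = ‖coeff e P‖ * (‖coeff e' (monoS (shearS i0 α β) e)‖ * rpow r' e') := by ring
      _ ≤ ‖coeff e P‖ * rpow r e := mul_le_mul_of_nonneg_left h1 (norm_nonneg _)
      _ ≤ C := hgap e heE

/-- `(b)` of the shear lemma: the top coefficient keeps its exact size. -/
lemma ShearHyp.coeff_eq (h : ShearHyp r r' i0 α β) {P : MvPowerSeries σ K} (hP : IsRestricted r P)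
    (h0 : P ≠ 0) {b : ℕ} (hb : ∀ e ∈ E r P, e i0 ≤ b) {e' : σ →₀ ℕ} (he' : e' ∈ E r P)
    (hbe : e' i0 = b) :
    ‖coeff e' (comp P (shearS i0 α β))‖ * rpow r' e' = gn r P := by
  classical
  obtain ⟨C, hC0, hC, hgap⟩ := exists_gap h.pos hP h0
  have hrp := rpow_pos h.pos' e'
  have hsummable := comp_coeff_summable h.pos' h.isSubst hP e'
  have htop : coeff e' (monoS (shearS i0 α β) e') = α ^ e' i0 := by
    rw [((topIs_monoS i0 α β e') e').2 rfl, if_pos rfl]
  rw [coeff_comp, hsummable.tsum_eq_add_tsum_ite e', htop]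
  set Rest := ∑' x, if x = e' then 0 else coeff x P * coeff e' (monoS (shearS i0 α β) x) with hRest
  have hR : ‖Rest‖ ≤ C / rpow r' e' := by
    refine IsUltrametricDist.norm_tsum_le_of_forall_le_of_nonneg (by positivity) fun e => ?_
    split_ifs with hee
    · rw [norm_zero]; positivity
    rw [le_div_iff₀ hrp, norm_mul]
    by_cases hlt : e i0 < e' i0
    · rw [((topIs_monoS i0 α β e) e').1 hlt]
      simpa using hC0
    by_cases heq : e i0 = e' i0
    · rw [((topIs_monoS i0 α β e) e').2 heq.symm, if_neg (fun h' => hee h'.symm)]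
      simpa using hC0
    · have heE : e ∉ E r P := fun hc => by
        have := hb e hc
        omega
      have h1 := h.isSubst.coeff_mono_le h.pos' e e'
      calc ‖coeff e P‖ * ‖coeff e' (monoS (shearS i0 α β) e)‖ * rpow r' e'
          = ‖coeff e P‖ * (‖coeff e' (monoS (shearS i0 α β) e)‖ * rpow r' e') := by ring
        _ ≤ ‖coeff e P‖ * rpow r e := mul_le_mul_of_nonneg_left h1 (norm_nonneg _)
        _ ≤ C := hgap e heE
  have hmain : ‖coeff e' P * α ^ e' i0‖ * rpow r' e' = gn r P := by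
    rw [norm_mul, norm_pow, mul_assoc, h.rpow_eq e']
    exact he'
  have hlt : ‖Rest‖ < ‖coeff e' P * α ^ e' i0‖ := by
    have h1 : ‖Rest‖ * rpow r' e' ≤ C := by
      rwa [le_div_iff₀ hrp] at hR
    refine lt_of_mul_lt_mul_right ?_ hrp.le
    rw [hmain]
    linarith
  rw [IsUltrametricDist.norm_add_eq_max_of_norm_ne_norm hlt.ne', max_eq_left hlt.le]
  exact hmain

/-- The shear keeps the Gauss norm, as soon as the top exponent is in `E`. -/
lemma ShearHyp.gn_eq (h : ShearHyp r r' i0 α β) {P : MvPowerSeries σ K} (hP : IsRestricted r P)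
    (h0 : P ≠ 0) {b : ℕ} (hb : ∀ e ∈ E r P, e i0 ≤ b) {e' : σ →₀ ℕ} (he' : e' ∈ E r P)
    (hbe : e' i0 = b) : gn r' (comp P (shearS i0 α β)) = gn r P := by
  apply le_antisymm (gn_comp_le h.pos' h.isSubst hP)
  rw [← h.coeff_eq hP h0 hb he' hbe]
  exact le_gn (comp_restricted h.pos' h.isSubst hP) e'

end Top

/-! ### The slice -/

section Slice

variable [DecidableEq σ]

/-- The exponent `(b, rest of e)`. -/
def sliceExp (i0 : σ) (e : σ →₀ ℕ) (b : ℕ) : σ →₀ ℕ := e.erase i0 + Finsupp.single i0 b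

@[simp] lemma sliceExp_apply_self (i0 : σ) (e : σ →₀ ℕ) (b : ℕ) : sliceExp i0 e b i0 = b := by
  simp [sliceExp]

lemma sliceExp_self (i0 : σ) (e : σ →₀ ℕ) : sliceExp i0 e (e i0) = e := by
  rw [sliceExp, add_comm, Finsupp.single_add_erase]

lemma sliceExp_add (i0 : σ) (e : σ →₀ ℕ) (κ b : ℕ) :
    sliceExp i0 e κ + Finsupp.single i0 b = sliceExp i0 e (b + κ) := by
  rw [sliceExp, sliceExp, add_assoc, ← Finsupp.single_add, add_comm κ b]

lemma rpow_sliceExp (r : σ → ℝ) (i0 : σ) (e : σ →₀ ℕ) (b : ℕ) :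
    rpow r (sliceExp i0 e b) = rpow r (e.erase i0) * r i0 ^ b := by
  rw [sliceExp, rpow_add, rpow_single]

lemma wdot_sliceExp (w : σ → ℝ) (i0 : σ) (e : σ →₀ ℕ) (b : ℕ) :
    wdot w (sliceExp i0 e b) = wdot w (e.erase i0) + b * w i0 := by
  rw [sliceExp, wdot_add, wdot_single]

lemma sliceExp_injective (i0 : σ) (e : σ →₀ ℕ) : Function.Injective (sliceExp i0 e) := by
  intro b b' h
  have := DFunLike.congr_fun h i0
  simpa using this

/-- The slice argument (Steps 2, 3 of E5). -/
theorem slice_step {r : σ → ℝ} (hr : ∀ i, 0 < r i) {i0 : σ} {Q : MvPowerSeries σ K}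
    (hQ : IsRestricted r Q) {e : σ →₀ ℕ} (he : ‖coeff e Q‖ * rpow r e = gn r Q)
    (hgn : 0 < gn r Q)
    (hlt : ∀ e' : σ →₀ ℕ, e i0 < e' i0 → ‖coeff e' Q‖ * rpow r e' < gn r Q)
    {δ0 : K} (hδ : ‖δ0‖ = r i0) (A : Finset K) (hA0 : A.Nonempty) (hA1 : ∀ a ∈ A, ‖a‖ ≤ 1)
    (hA2 : ∀ a ∈ A, ∀ a' ∈ A, a ≠ a' → ‖a - a'‖ = 1) :
    ∃ a ∈ A, ∃ κ : ℕ, A.card * κ ≤ e i0 ∧
      ‖coeff (sliceExp i0 e κ) (comp Q (shift1 i0 (a * δ0)))‖ * rpow r (sliceExp i0 e κ)
        = gn r Q := by
  set M := gn r Q with hM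
  set bs := e i0 with hbs
  set ρ := rpow r (e.erase i0) with hρ
  have hρ0 : 0 < ρ := rpow_pos hr _
  set v : ℕ → K := fun b => coeff (sliceExp i0 e b) Q * δ0 ^ b with hv
  have hvn : ∀ b, ‖v b‖ * ρ = ‖coeff (sliceExp i0 e b) Q‖ * rpow r (sliceExp i0 e b) := by
    intro b
    simp only [hv, norm_mul, norm_pow, hδ, rpow_sliceExp]
    ring
  have hπ : ‖v bs‖ * ρ = M := by
    rw [hvn, hbs, sliceExp_self, he]
  have hπ0 : 0 < ‖v bs‖ := by
    by_contra hc
    have h0 : ‖v bs‖ = 0 := le_antisymm (not_lt.1 hc) (norm_nonneg _)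
    rw [h0, zero_mul] at hπ
    linarith
  have hπne : v bs ≠ 0 := norm_pos_iff.1 hπ0
  set G : ℕ → K := fun b => v b / v bs with hG
  have hGn : ∀ b, ‖G b‖ * M = ‖coeff (sliceExp i0 e b) Q‖ * rpow r (sliceExp i0 e b) := by
    intro b
    rw [← hvn, ← hπ]
    simp only [hG, norm_div]
    field_simp
  have hM0 : 0 < M := hgn
  have hG1 : ∀ b, ‖G b‖ ≤ 1 := by
    intro b
    have h1 := le_gn hQ (sliceExp i0 e b)
    rw [← hGn] at h1
    nlinarith
  have hG0 : Tendsto G atTop (𝓝 0) := by
    rw [tendsto_zero_iff_norm_tendsto_zero]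
    have h1 : Tendsto (fun b => ‖coeff (sliceExp i0 e b) Q‖ * rpow r (sliceExp i0 e b)) atTop
        (𝓝 0) := by
      have := (isRestricted_iff.1 hQ).comp (sliceExp_injective i0 e).tendsto_cofinite
      rwa [Nat.cofinite_eq_atTop] at this
    have h2 : (fun b => ‖G b‖) = fun b =>
        (‖coeff (sliceExp i0 e b) Q‖ * rpow r (sliceExp i0 e b)) / M := by
      funext b
      rw [← hGn, mul_div_assoc, div_self hM0.ne', mul_one]
    rw [h2]
    simpa using h1.div_const M
  have hbsn : ‖G bs‖ = 1 := by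
    simp only [hG, norm_div]
    exact div_self hπ0.ne'
  have hbs' : ∀ b, bs < b → ‖G b‖ < 1 := by
    intro b hb
    have h1 := hlt (sliceExp i0 e b) (by simpa using hb)
    rw [← hGn] at h1
    nlinarith
  obtain ⟨a, ha, κ, hκ, hsum⟩ := slice_pigeonhole G hG1 hG0 bs hbsn hbs' A hA0 hA1 hA2
  refine ⟨a, ha, κ, hκ, ?_⟩
  have hcoef : coeff (sliceExp i0 e κ) (comp Q (shift1 i0 (a * δ0)))
      = ∑' b : ℕ, coeff (sliceExp i0 e (b + κ)) Q * ((((b + κ).choose κ : ℕ) : K) * (a * δ0) ^ b) := by
    rw [coeff_comp_shift1]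
    refine tsum_congr fun b => ?_
    rw [sliceExp_add, sliceExp_apply_self, add_comm κ b, Nat.choose_symm_add]
  have hterm : ∀ b : ℕ, G (b + κ) * (((b + κ).choose κ : ℕ) : K) * a ^ b
      = (δ0 ^ κ / v bs) *
        (coeff (sliceExp i0 e (b + κ)) Q * ((((b + κ).choose κ : ℕ) : K) * (a * δ0) ^ b)) := by
    intro b
    simp only [hG, hv, mul_pow, pow_add]
    field_simp
  have h1 : (δ0 ^ κ / v bs) * coeff (sliceExp i0 e κ) (comp Q (shift1 i0 (a * δ0)))
      = ∑' b : ℕ, G (b + κ) * (((b + κ).choose κ : ℕ) : K) * a ^ b := by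
    rw [hcoef, ← tsum_mul_left]
    exact tsum_congr fun b => (hterm b).symm
  have h2 := congrArg norm h1
  rw [hsum, norm_mul, norm_div, norm_pow, hδ] at h2
  rw [rpow_sliceExp]
  have h3 : ‖coeff (sliceExp i0 e κ) (comp Q (shift1 i0 (a * δ0)))‖ * r i0 ^ κ = ‖v bs‖ := by
    field_simp at h2
    linarith
  calc _ = (‖coeff (sliceExp i0 e κ) (comp Q (shift1 i0 (a * δ0)))‖ * r i0 ^ κ) * ρ := by ring
    _ = M := by rw [h3, hπ]

end Slice

/-! ### Small tools for the carry -/

/-- A maximum below a strict bound. -/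
lemma exists_bound_lt [Finite σ] (f : σ → ℝ) {c : ℝ} (hc : 0 < c) (h : ∀ i, f i < c) :
    ∃ m, 0 ≤ m ∧ m < c ∧ ∀ i, f i ≤ m := by
  classical
  cases nonempty_fintype σ
  rcases isEmpty_or_nonempty σ with hemp | hne
  · exact ⟨0, le_rfl, hc, fun i => (hemp.false i).elim⟩
  · obtain ⟨i1, -, hi1⟩ := Finset.exists_max_image Finset.univ f
      ⟨Classical.arbitrary σ, Finset.mem_univ _⟩
    exact ⟨max 0 (f i1), le_max_left _ _, max_lt hc (h i1),
      fun i => le_max_of_le_right (hi1 i (Finset.mem_univ _))⟩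

lemma rpow_const_two (ρ : ℝ) (e : Fin 2 →₀ ℕ) : rpow (fun _ : Fin 2 => ρ) e = ρ ^ (e 0 + e 1) := by
  unfold rpow
  rw [Finsupp.prod_fintype _ _ (by simp), Fin.prod_univ_two, pow_add]

/-- The Gauss norm at a constant radius of an integral series of order at least `m`. -/
lemma gn_const_le {H : MvPowerSeries (Fin 2) K} (hH : ∀ e, ‖coeff e H‖ ≤ 1) {ρ : ℝ} (h0 : 0 < ρ)
    (h1 : ρ ≤ 1) {m : ℕ} (hm : ∀ e : Fin 2 →₀ ℕ, e 0 + e 1 < m → coeff e H = 0) :
    gn (fun _ => ρ) H ≤ ρ ^ m := by
  refine gn_le (by positivity) fun e => ?_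
  rw [rpow_const_two]
  by_cases he : e 0 + e 1 < m
  · rw [hm e he]
    simpa using (by positivity : 0 ≤ ρ ^ m)
  · calc ‖coeff e H‖ * ρ ^ (e 0 + e 1) ≤ 1 * ρ ^ (e 0 + e 1) :=
          mul_le_mul_of_nonneg_right (hH e) (by positivity)
      _ ≤ ρ ^ m := by
          rw [one_mul]
          exact pow_le_pow_of_le_one h0.le h1 (not_lt.1 he)

/-! ### The carry -/

section Carry

variable [Fintype σ] [DecidableEq σ]

/-- Composition of `(linear form) + constant` with `X + ε`. -/
lemma comp_lin_add {r' : σ → ℝ} (hr' : ∀ i, 0 < r' i) (B : σ → K) (A : K)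
    {u : σ → MvPowerSeries σ K} (hu : IsSubst r' r' u) :
    comp ((∑ v, MvPowerSeries.C (B v) * MvPowerSeries.X v) + MvPowerSeries.C A) u
      = (∑ v, MvPowerSeries.C (B v) * u v) + MvPowerSeries.C A := by
  have hres : IsRestricted r' (∑ v, MvPowerSeries.C (B v) * MvPowerSeries.X v : MvPowerSeries σ K) :=
    restr_sum _ fun v _ => restr_mul (isRestricted_C r' _) (isRestricted_X r' v)
  rw [comp_add hr' hu hres (isRestricted_C r' A), comp_C hr' hu, comp_linS hr' hu]

/-- The substitution `X + ε`. -/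
lemma isSubst_X_add {r' : σ → ℝ} (hr' : ∀ i, 0 < r' i) {ε : σ → MvPowerSeries σ K}
    (hres : ∀ u, IsRestricted r' (ε u)) (hε : ∀ u, gn r' (ε u) ≤ r' u) :
    IsSubst r' r' (fun u => MvPowerSeries.X u + ε u) := by
  refine ⟨fun u => restr_add (isRestricted_X r' u) (hres u), fun u => ?_⟩
  refine (gn_add_le (fun i => (hr' i).le) (isRestricted_X r' u) (hres u)).trans (max_le ?_ (hε u))
  rw [gn_X (fun i => (hr' i).le)]

/-- The identity and the estimate of Step 4 of E5, abstractly: `s` is the affine substitution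
`L + A`, `B` its matrix, `W` a right inverse of `B`; `Cs` the perturbation in the `x`-coordinates,
`ε = W Cs` in the `ξ`-coordinates.  -/
theorem carry_close {ρ r' : σ → ℝ} (hρ : ∀ i, 0 < ρ i) (hr' : ∀ i, 0 < r' i) (B : σ → σ → K)
    (A : σ → K) (W : σ → σ → K) (hBW : ∀ i i', ∑ u, B i u * W u i' = if i = i' then 1 else 0)
    (hs : IsSubst ρ r' (fun i => linS B i + MvPowerSeries.C (A i)))
    (Cs : σ → MvPowerSeries σ K) (hCr : ∀ i, IsRestricted r' (Cs i))
    (hε : ∀ u, gn r' (∑ i, MvPowerSeries.C (W u i) * Cs i) < r' u)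
    {T : MvPowerSeries σ K} (hT : IsRestricted ρ T)
    (hR : comp T (fun i => linS B i + MvPowerSeries.C (A i)) ≠ 0) :
    gn r' (comp T (fun i => linS B i + MvPowerSeries.C (A i) + Cs i)
      - comp T (fun i => linS B i + MvPowerSeries.C (A i)))
      < gn r' (comp T (fun i => linS B i + MvPowerSeries.C (A i))) := by
  classical
  set s : σ → MvPowerSeries σ K := fun i => linS B i + MvPowerSeries.C (A i) with hsdef
  set ε : σ → MvPowerSeries σ K := fun u => ∑ i, MvPowerSeries.C (W u i) * Cs i with hεdef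
  have hεr : ∀ u, IsRestricted r' (ε u) := fun u =>
    restr_sum _ fun i _ => restr_mul (isRestricted_C r' _) (hCr i)
  have hu : IsSubst r' r' (fun u => MvPowerSeries.X u + ε u) :=
    isSubst_X_add hr' hεr fun u => (hε u).le
  set R := comp T s with hRdef
  have hRr : IsRestricted r' R := comp_restricted hr' hs hT
  -- the identity
  have hid : comp T (fun i => s i + Cs i) = comp R (fun u => MvPowerSeries.X u + ε u) := by
    rw [hRdef, comp_comp hρ hr' hr' hs hu hT]
    congr 1
    funext i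
    rw [hsdef]
    show _ = comp ((∑ v, MvPowerSeries.C (B i v) * MvPowerSeries.X v) + MvPowerSeries.C (A i))
      (fun u => MvPowerSeries.X u + ε u)
    rw [comp_lin_add hr' _ _ hu]
    have hsum : ∑ v, MvPowerSeries.C (B i v) * (MvPowerSeries.X v + ε v)
        = linS B i + Cs i := by
      have h1 : ∑ v, MvPowerSeries.C (B i v) * ε v = Cs i := by
        simp only [hεdef, Finset.mul_sum]
        rw [Finset.sum_comm]
        have : ∀ i' , ∑ v, MvPowerSeries.C (B i v) * (MvPowerSeries.C (W v i') * Cs i')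
            = MvPowerSeries.C (if i = i' then 1 else 0) * Cs i' := by
          intro i'
          rw [← hBW i i', map_sum, Finset.sum_mul]
          refine Finset.sum_congr rfl fun v _ => ?_
          rw [map_mul, mul_assoc]
        simp only [this]
        rw [Finset.sum_eq_single i]
        · simp
        · intro i' _ hi'
          simp [Ne.symm hi']
        · simp
      simp only [mul_add, Finset.sum_add_distrib]
      rw [h1]
      rfl
    rw [hsum]
    ring
  -- the estimate
  obtain ⟨δ, hδ0, hδ1, hδ⟩ := exists_bound_lt (fun u => gn r' (ε u) / r' u) one_pos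
    (fun u => (div_lt_one (hr' u)).2 (hε u))
  have hX : IsSubst r' r' (MvPowerSeries.X : σ → MvPowerSeries σ K) :=
    ⟨isRestricted_X r', fun i => le_of_eq (gn_X (fun i => (hr' i).le) i)⟩
  have hd : ∀ u, gn r' ((MvPowerSeries.X u + ε u) - MvPowerSeries.X u) ≤ δ * r' u := by
    intro u
    rw [add_sub_cancel_left]
    have := hδ u
    rwa [div_le_iff₀ (hr' u)] at this
  have hest := gn_comp_sub_le (fun i => (hr' i).le) hr' hu hX hδ0 hd hRr
  rw [comp_X_right hr' R hRr] at hest
  have hgn := gn_pos hr' hRr hR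
  rw [show (fun i => linS B i + MvPowerSeries.C (A i) + Cs i) = (fun i => s i + Cs i) from rfl, hid]
  calc _ ≤ δ * gn r' R := hest
    _ < gn r' R := by nlinarith

end Carry

end

end Crest.Agent.LT
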