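import Mathlib

/-!
# S0351 blueprint, sections D1 and D2: the estimates and the map `q_t`

This is the abstract layer: the series `W_t(Y) = Σ w_l(t) Y^l` enter only through the coefficient
functions `w l t` and the Prop-structure `WFamily`; the group laws `+_Γ`, `+_{H_t}` enter only
through the functions `add0`, `addH` and the Prop-structure `LawFamily`.  Norms replace valuations:
`v(a) ≥ c·v(b)` is written `‖a‖ ≤ ‖b‖ ^ c`, and `eps(t) = min_j v(t_j)` is the sup norm `‖t‖`.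

Names: `wEval c Y = Σ' c_l Y^l`, `pMap w p h t A = W_t(A^(p^h))`, `qroot p n x = x^(1/p^n)`,
`uSeq`, `qmap w p h n t x = lim_k [p]_t^[k] (x^(1/q^k))`.
-/

set_option autoImplicit false

namespace Crest.Agent.LT

open Filter Topology

section Tools

variable {K : Type*} [NormedField K] [IsUltrametricDist K]

theorem norm_sub_le_max_of_le {E : Type*} [SeminormedAddCommGroup E] [IsUltrametricDist E]
    {a b : E} {C : ℝ} (ha : ‖a‖ ≤ C) (hb : ‖b‖ ≤ C) : ‖a - b‖ ≤ C := by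
  rw [sub_eq_add_neg]
  refine (IsUltrametricDist.norm_add_le_max a (-b)).trans (max_le ha ?_)
  rwa [norm_neg]

theorem norm_add_le_of_le {a b : K} {C : ℝ} (ha : ‖a‖ ≤ C) (hb : ‖b‖ ≤ C) : ‖a + b‖ ≤ C :=
  (IsUltrametricDist.norm_add_le_max a b).trans (max_le ha hb)

/-- `‖x^l − y^l‖ ≤ ‖x − y‖` on the closed unit ball. -/
theorem norm_pow_sub_pow_le {x y : K} (hx : ‖x‖ ≤ 1) (hy : ‖y‖ ≤ 1) (l : ℕ) :
    ‖x ^ l - y ^ l‖ ≤ ‖x - y‖ := by
  induction l with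
  | zero => simp
  | succ l ih =>
    have e : x ^ (l + 1) - y ^ (l + 1) = x ^ l * (x - y) + (x ^ l - y ^ l) * y := by ring
    rw [e]
    refine norm_add_le_of_le ?_ ?_
    · rw [norm_mul, norm_pow]
      exact mul_le_of_le_one_left (norm_nonneg _) (pow_le_one₀ (norm_nonneg _) hx)
    · rw [norm_mul]
      exact (mul_le_of_le_one_right (norm_nonneg _) hy).trans ih

variable [CompleteSpace K]

/-- Coefficients bounded by `1` and `‖Y‖ < 1` give a summable family. -/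
theorem summable_coeff_mul_pow {c : ℕ → K} (hc : ∀ l, ‖c l‖ ≤ 1) {Y : K} (hY : ‖Y‖ < 1) :
    Summable (fun l => c l * Y ^ l) := by
  apply NonarchimedeanAddGroup.summable_of_tendsto_cofinite_zero
  rw [Nat.cofinite_eq_atTop]
  refine squeeze_zero_norm (a := fun l => ‖Y‖ ^ l) (fun l => ?_)
    (tendsto_pow_atTop_nhds_zero_of_lt_one (norm_nonneg _) hY)
  rw [norm_mul, norm_pow]
  exact mul_le_of_le_one_left (by positivity) (hc l)

/-- Evaluation of a one-variable series with coefficient sequence `c`. -/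
noncomputable def wEval (c : ℕ → K) (Y : K) : K := ∑' l, c l * Y ^ l

theorem norm_wEval_le {c : ℕ → K} {Y : K} {C : ℝ} (hC : 0 ≤ C) (h : ∀ l, ‖c l * Y ^ l‖ ≤ C) :
    ‖wEval c Y‖ ≤ C :=
  IsUltrametricDist.norm_tsum_le_of_forall_le_of_nonneg hC h

/-- The series is 1-Lipschitz on the open unit ball. -/
theorem wEval_sub_wEval_le {c : ℕ → K} (hc : ∀ l, ‖c l‖ ≤ 1) {Y Y' : K} (hY : ‖Y‖ < 1)
    (hY' : ‖Y'‖ < 1) : ‖wEval c Y - wEval c Y'‖ ≤ ‖Y - Y'‖ := by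
  unfold wEval
  rw [← (summable_coeff_mul_pow hc hY).tsum_sub (summable_coeff_mul_pow hc hY')]
  refine IsUltrametricDist.norm_tsum_le_of_forall_le_of_nonneg (norm_nonneg _) (fun l => ?_)
  rw [← mul_sub, norm_mul]
  exact (mul_le_of_le_one_left (norm_nonneg _) (hc l)).trans
    (norm_pow_sub_pow_le hY.le hY'.le l)

/-- Two series with coefficients at distance `≤ B`. -/
theorem wEval_sub_wEval_coeff_le {c c' : ℕ → K} (hc : ∀ l, ‖c l‖ ≤ 1) (hc' : ∀ l, ‖c' l‖ ≤ 1)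
    {Y : K} (hY : ‖Y‖ < 1) {B : ℝ} (hB : 0 ≤ B) (h : ∀ l, ‖c l - c' l‖ ≤ B) :
    ‖wEval c Y - wEval c' Y‖ ≤ B := by
  unfold wEval
  rw [← (summable_coeff_mul_pow hc hY).tsum_sub (summable_coeff_mul_pow hc' hY)]
  refine IsUltrametricDist.norm_tsum_le_of_forall_le_of_nonneg hB (fun l => ?_)
  rw [← sub_mul, norm_mul, norm_pow]
  exact (mul_le_of_le_one_right (norm_nonneg _) (pow_le_one₀ (norm_nonneg _) hY.le)).trans (h l)

end Tools

/-- The abstract input of D1: the coefficient functions `w l t = w_l(t)` of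
`W_t(Y) = Σ_l w_l(t) Y^l`, with `d = p^N`.  (From A3.5: `w_l ∈ (t)` for `l ≠ d`, `w_d ≡ 1` mod `(t)`,
and all `w_l` are power series in `t` with integral coefficients.) -/
structure WFamily (K : Type*) [NormedField K] (N d : ℕ) (w : ℕ → (Fin N → K) → K) : Prop where
  zero : ∀ t : Fin N → K, ‖t‖ < 1 → w 0 t = 0
  small : ∀ t : Fin N → K, ‖t‖ < 1 → ∀ l, l ≠ d → ‖w l t‖ ≤ ‖t‖
  lead : ∀ t : Fin N → K, ‖t‖ < 1 → ‖w d t - 1‖ ≤ ‖t‖
  lip : ∀ t t' : Fin N → K, ‖t‖ < 1 → ‖t'‖ < 1 → ∀ l, ‖w l t - w l t'‖ ≤ ‖t - t'‖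

section D1

variable {K : Type*} [NormedField K] [IsUltrametricDist K]
variable {N d : ℕ} {w : ℕ → (Fin N → K) → K}

theorem WFamily.norm_le_one (hw : WFamily K N d w) {t : Fin N → K} (ht : ‖t‖ < 1) (l : ℕ) :
    ‖w l t‖ ≤ 1 := by
  by_cases hl : l = d
  · subst hl
    have h1 := hw.lead t ht
    have : w l t = (w l t - 1) + 1 := by ring
    rw [this]
    exact norm_add_le_of_le (h1.trans ht.le) (by simp)
  · exact (hw.small t ht l hl).trans ht.le

variable [CompleteSpace K]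

/-- `W_t(Y)`. -/
noncomputable def wSeries (w : ℕ → (Fin N → K) → K) (t : Fin N → K) (Y : K) : K :=
  wEval (fun l => w l t) Y

/-- `[p]_t(A) = W_t(A^(p^h))`. -/
noncomputable def pMap (w : ℕ → (Fin N → K) → K) (p h : ℕ) (t : Fin N → K) (A : K) : K :=
  wSeries w t (A ^ p ^ h)

theorem WFamily.summable (hw : WFamily K N d w) {t : Fin N → K} (ht : ‖t‖ < 1) {Y : K}
    (hY : ‖Y‖ < 1) : Summable (fun l => w l t * Y ^ l) :=
  summable_coeff_mul_pow (hw.norm_le_one ht) hY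

/-- 1-Lipschitz in `Y`. -/
theorem WFamily.wSeries_sub_le (hw : WFamily K N d w) {t : Fin N → K} (ht : ‖t‖ < 1) {Y Y' : K}
    (hY : ‖Y‖ < 1) (hY' : ‖Y'‖ < 1) : ‖wSeries w t Y - wSeries w t Y'‖ ≤ ‖Y - Y'‖ :=
  wEval_sub_wEval_le (hw.norm_le_one ht) hY hY'

/-- D1(d) at the level of `W`. -/
theorem WFamily.wSeries_sub_t_le (hw : WFamily K N d w) {t t' : Fin N → K} (ht : ‖t‖ < 1)
    (ht' : ‖t'‖ < 1) {Y : K} (hY : ‖Y‖ < 1) : ‖wSeries w t Y - wSeries w t' Y‖ ≤ ‖t - t'‖ :=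
  wEval_sub_wEval_coeff_le (hw.norm_le_one ht) (hw.norm_le_one ht') hY (norm_nonneg _)
    (fun l => hw.lip t t' ht ht' l)

/-- D1(b) at the level of `W`. -/
theorem WFamily.wSeries_sub_pow_le (hw : WFamily K N d w) {t : Fin N → K} (ht : ‖t‖ < 1) {Y : K}
    (hY : ‖Y‖ < 1) : ‖wSeries w t Y - Y ^ d‖ ≤ ‖t‖ := by
  have hs := hw.summable ht hY
  have hY1 : Summable (fun l => (if l = d then (1 : K) else 0) * Y ^ l) := by
    apply summable_coeff_mul_pow _ hY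
    intro l
    split_ifs <;> simp
  have e : Y ^ d = ∑' l, (if l = d then (1 : K) else 0) * Y ^ l := by
    rw [tsum_eq_single d]
    · simp
    · intro l hl
      simp [hl]
  unfold wSeries wEval
  rw [e, ← hs.tsum_sub hY1]
  refine IsUltrametricDist.norm_tsum_le_of_forall_le_of_nonneg (norm_nonneg _) (fun l => ?_)
  rw [← sub_mul, norm_mul, norm_pow]
  refine (mul_le_of_le_one_right (norm_nonneg _) (pow_le_one₀ (norm_nonneg _) hY.le)).trans ?_
  by_cases hl : l = d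
  · subst hl
    simpa using hw.lead t ht
  · simpa [hl] using hw.small t ht l hl

/-- D1(c) at the level of `W`. -/
theorem WFamily.norm_wSeries_le (hw : WFamily K N d w) {t : Fin N → K} (ht : ‖t‖ < 1) {Y : K}
    (hY : ‖Y‖ < 1) : ‖wSeries w t Y‖ ≤ max (‖Y‖ ^ d) (‖t‖ * ‖Y‖) := by
  unfold wSeries
  refine norm_wEval_le (by positivity) (fun l => ?_)
  rw [norm_mul, norm_pow]
  by_cases hl : l = d
  · subst hl
    exact le_max_of_le_left (mul_le_of_le_one_left (by positivity) (hw.norm_le_one ht _))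
  · refine le_max_of_le_right ?_
    rcases Nat.eq_zero_or_pos l with h0 | h0
    · subst h0
      rw [hw.zero t ht]
      simp
      positivity
    · refine mul_le_mul (hw.small t ht l hl) ?_ (by positivity) (norm_nonneg _)
      exact pow_le_of_le_one (norm_nonneg _) hY.le h0.ne'

variable (p h : ℕ) [Fact p.Prime] [CharP K p]

theorem pow_p_pow_sub (A B : K) : ‖A ^ p ^ h - B ^ p ^ h‖ = ‖A - B‖ ^ p ^ h := by
  rw [← sub_pow_char_pow, norm_pow]

theorem norm_pow_lt_one {A : K} (hA : ‖A‖ < 1) : ‖A ^ p ^ h‖ < 1 := by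
  rw [norm_pow]
  exact pow_lt_one₀ (norm_nonneg _) hA (by have := (Fact.out : p.Prime).pos; positivity)

omit [IsUltrametricDist K] [CompleteSpace K] [CharP K p] in
theorem two_le_pow {h : ℕ} (hh : 1 ≤ h) : 2 ≤ p ^ h := by
  have hp := (Fact.out : p.Prime).two_le
  calc 2 ≤ p := hp
    _ = p ^ 1 := (pow_one p).symm
    _ ≤ p ^ h := Nat.pow_le_pow_right (by omega) hh

variable {p h}

/-- D1(a): `v([p]_t A − [p]_t B) ≥ p^h v(A − B)`. -/
theorem WFamily.pMap_sub_le (hw : WFamily K N d w) {t : Fin N → K} (ht : ‖t‖ < 1) {A B : K}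
    (hA : ‖A‖ < 1) (hB : ‖B‖ < 1) : ‖pMap w p h t A - pMap w p h t B‖ ≤ ‖A - B‖ ^ p ^ h := by
  unfold pMap
  refine (hw.wSeries_sub_le ht (norm_pow_lt_one p h hA) (norm_pow_lt_one p h hB)).trans ?_
  rw [pow_p_pow_sub]

/-- D1(b): `v([p]_t A − A^q) ≥ eps`, where `q = p^h * d`. -/
theorem WFamily.pMap_sub_pow_le (hw : WFamily K N d w) {t : Fin N → K} (ht : ‖t‖ < 1) {A : K}
    (hA : ‖A‖ < 1) : ‖pMap w p h t A - A ^ (p ^ h * d)‖ ≤ ‖t‖ := by
  unfold pMap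
  rw [pow_mul]
  exact hw.wSeries_sub_pow_le ht (norm_pow_lt_one p h hA)

/-- D1(c): `v([p]_t A) ≥ min(q v(A), eps + p^h v(A))`. -/
theorem WFamily.norm_pMap_le (hw : WFamily K N d w) {t : Fin N → K} (ht : ‖t‖ < 1) {A : K}
    (hA : ‖A‖ < 1) : ‖pMap w p h t A‖ ≤ max (‖A‖ ^ (p ^ h * d)) (‖t‖ * ‖A‖ ^ p ^ h) := by
  unfold pMap
  refine (hw.norm_wSeries_le ht (norm_pow_lt_one p h hA)).trans ?_
  rw [norm_pow, pow_mul]

/-- D1(d): `v([p]_t A − [p]_{t'} A) ≥ v(t − t')`. -/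
theorem WFamily.pMap_sub_t_le (hw : WFamily K N d w) {t t' : Fin N → K} (ht : ‖t‖ < 1)
    (ht' : ‖t'‖ < 1) {A : K} (hA : ‖A‖ < 1) : ‖pMap w p h t A - pMap w p h t' A‖ ≤ ‖t - t'‖ :=
  hw.wSeries_sub_t_le ht ht' (norm_pow_lt_one p h hA)

/-- `[p]_t` preserves the open unit ball (needs `d ≥ 1`). -/
theorem WFamily.norm_pMap_lt (hw : WFamily K N d w) (hd : 0 < d) {t : Fin N → K} (ht : ‖t‖ < 1)
    {A : K} (hA : ‖A‖ < 1) : ‖pMap w p h t A‖ < 1 := by
  refine (hw.norm_pMap_le ht hA).trans_lt (max_lt ?_ ?_)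
  · refine pow_lt_one₀ (norm_nonneg _) hA ?_
    have := (Fact.out : p.Prime).pos
    positivity
  · have h1 : ‖A‖ ^ p ^ h ≤ 1 := pow_le_one₀ (norm_nonneg _) hA.le
    nlinarith [norm_nonneg t]

theorem WFamily.pMap_zero (hw : WFamily K N d w) {t : Fin N → K} (ht : ‖t‖ < 1) :
    pMap w p h t 0 = 0 := by
  have hpos : 0 < p ^ h := pow_pos (Fact.out : p.Prime).pos _
  unfold pMap wSeries wEval
  rw [zero_pow hpos.ne', tsum_eq_single 0]
  · simp [hw.zero t ht]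
  · intro l hl
    simp [hl]

/-- Iterated D1(a). -/
theorem WFamily.iterate_sub_le (hw : WFamily K N d w) (hd : 0 < d) {t : Fin N → K} (ht : ‖t‖ < 1)
    (k : ℕ) {A B : K} (hA : ‖A‖ < 1) (hB : ‖B‖ < 1) :
    ‖(pMap w p h t)^[k] A - (pMap w p h t)^[k] B‖ ≤ ‖A - B‖ ^ (p ^ h) ^ k := by
  induction k generalizing A B with
  | zero => simp
  | succ k ih =>
    simp only [Function.iterate_succ_apply]
    refine (ih (hw.norm_pMap_lt hd ht hA) (hw.norm_pMap_lt hd ht hB)).trans ?_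
    rw [pow_succ', pow_mul]
    exact pow_le_pow_left₀ (norm_nonneg _) (hw.pMap_sub_le ht hA hB) _

/-- Iterates stay in the ball. -/
theorem WFamily.norm_iterate_lt (hw : WFamily K N d w) (hd : 0 < d) {t : Fin N → K} (ht : ‖t‖ < 1)
    (k : ℕ) {A : K} (hA : ‖A‖ < 1) : ‖(pMap w p h t)^[k] A‖ < 1 := by
  induction k generalizing A with
  | zero => simpa using hA
  | succ k ih =>
    simp only [Function.iterate_succ_apply]
    exact ih (hw.norm_pMap_lt hd ht hA)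

end D1

section D2

variable {K : Type*} [NormedField K] [IsUltrametricDist K] [CompleteSpace K]
variable (p : ℕ) [Fact p.Prime] [CharP K p] [PerfectRing K p]

/-- The `p^n`-th root `x^(1/q)`. -/
noncomputable def qroot (n : ℕ) (x : K) : K := (iterateFrobeniusEquiv K p n).symm x

variable {p}

@[simp] theorem qroot_pow (n : ℕ) (x : K) : qroot p n x ^ p ^ n = x := by
  have := (iterateFrobeniusEquiv K p n).apply_symm_apply x
  rwa [iterateFrobeniusEquiv_def] at this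

@[simp] theorem qroot_of_pow (n : ℕ) (x : K) : qroot p n (x ^ p ^ n) = x := by
  have := (iterateFrobeniusEquiv K p n).symm_apply_apply x
  rwa [iterateFrobeniusEquiv_def] at this

theorem qroot_eq_of_pow_eq {n : ℕ} {x y : K} (h : y ^ p ^ n = x) : qroot p n x = y := by
  rw [← h, qroot_of_pow]

theorem norm_qroot_lt (n : ℕ) {x : K} (hx : ‖x‖ < 1) : ‖qroot p n x‖ < 1 := by
  have h := qroot_pow (p := p) n x
  have hpos : p ^ n ≠ 0 := pow_ne_zero _ (Fact.out : p.Prime).ne_zero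
  have : ‖qroot p n x‖ ^ p ^ n < 1 := by rw [← norm_pow, h]; exact hx
  exact (pow_lt_one_iff_of_nonneg (norm_nonneg _) hpos).1 this

theorem norm_iterate_qroot_lt (n : ℕ) (k : ℕ) {x : K} (hx : ‖x‖ < 1) :
    ‖(qroot p n)^[k] x‖ < 1 := by
  induction k generalizing x with
  | zero => simpa using hx
  | succ k ih =>
    simp only [Function.iterate_succ_apply]
    exact ih (norm_qroot_lt n hx)

theorem iterate_qroot_pow (n k : ℕ) (x : K) : ((qroot p n)^[k + 1] x) ^ p ^ n = (qroot p n)^[k] x := by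
  rw [Function.iterate_succ_apply', qroot_pow]

variable {N : ℕ} {w : ℕ → (Fin N → K) → K} {h n : ℕ}

theorem p_mul_of_le (p : ℕ) {h n : ℕ} (hhn : h ≤ n) : p ^ h * p ^ (n - h) = p ^ n := by
  rw [← pow_add]; congr 1; omega

/-- `u_k(t,x) = [p]_t^[k] (x^(1/q^k))`. -/
noncomputable def uSeq (w : ℕ → (Fin N → K) → K) (p h n : ℕ) [Fact p.Prime] [CharP K p]
    [PerfectRing K p] (t : Fin N → K) (x : K) (k : ℕ) : K :=
  (pMap w p h t)^[k] ((qroot p n)^[k] x)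

theorem uSeq_zero (t : Fin N → K) (x : K) : uSeq w p h n t x 0 = x := rfl

theorem norm_uSeq_lt (hw : WFamily K N (p ^ (n - h)) w) {t : Fin N → K} (ht : ‖t‖ < 1) {x : K}
    (hx : ‖x‖ < 1) (k : ℕ) : ‖uSeq w p h n t x k‖ < 1 :=
  hw.norm_iterate_lt (pow_pos (Fact.out : p.Prime).pos _) ht k (norm_iterate_qroot_lt n k hx)

/-- Cauchy estimate: `v(u_{k+1} − u_k) ≥ p^{hk} eps`. -/
theorem uSeq_succ_sub_le (hw : WFamily K N (p ^ (n - h)) w) (hhn : h ≤ n) {t : Fin N → K}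
    (ht : ‖t‖ < 1) {x : K} (hx : ‖x‖ < 1) (k : ℕ) :
    ‖uSeq w p h n t x (k + 1) - uSeq w p h n t x k‖ ≤ ‖t‖ ^ (p ^ h) ^ k := by
  have hd : 0 < p ^ (n - h) := pow_pos (Fact.out : p.Prime).pos _
  have ha : ‖(qroot p n)^[k + 1] x‖ < 1 := norm_iterate_qroot_lt n (k + 1) hx
  unfold uSeq
  rw [← iterate_qroot_pow (p := p) n k x, Function.iterate_succ_apply]
  have hq : ‖((qroot p n)^[k + 1] x) ^ p ^ n‖ < 1 := by
    rw [iterate_qroot_pow]; exact norm_iterate_qroot_lt n k hx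
  refine (hw.iterate_sub_le hd ht k (hw.norm_pMap_lt hd ht ha) hq).trans ?_
  refine pow_le_pow_left₀ (norm_nonneg _) ?_ _
  have := hw.pMap_sub_pow_le (p := p) (h := h) ht ha
  rwa [p_mul_of_le p hhn] at this

/-- The bound `‖u_k‖ ≤ ρ`, when `‖x‖, ‖t‖ ≤ ρ`. -/
theorem norm_uSeq_le (hw : WFamily K N (p ^ (n - h)) w) (hhn : h ≤ n) {t : Fin N → K}
    (ht : ‖t‖ < 1) {x : K} (hx : ‖x‖ < 1) {ρ : ℝ} (hxρ : ‖x‖ ≤ ρ) (htρ : ‖t‖ ≤ ρ) (k : ℕ) :
    ‖uSeq w p h n t x k‖ ≤ ρ := by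
  induction k with
  | zero => simpa [uSeq_zero] using hxρ
  | succ k ih =>
    have e : uSeq w p h n t x (k + 1) =
        (uSeq w p h n t x (k + 1) - uSeq w p h n t x k) + uSeq w p h n t x k := by ring
    rw [e]
    refine norm_add_le_of_le ?_ ih
    refine (uSeq_succ_sub_le hw hhn ht hx k).trans ?_
    refine le_trans ?_ htρ
    have hpos : (p ^ h) ^ k ≠ 0 := pow_ne_zero _ (pow_ne_zero _ (Fact.out : p.Prime).ne_zero)
    exact pow_le_of_le_one (norm_nonneg _) ht.le hpos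

theorem tendsto_pow_pow_zero {r : ℝ} (hr0 : 0 ≤ r) (hr : r < 1) {e : ℕ} (he : 2 ≤ e) :
    Tendsto (fun k : ℕ => r ^ e ^ k) atTop (𝓝 0) := by
  have h1 : Tendsto (fun k : ℕ => e ^ k) atTop atTop :=
    tendsto_pow_atTop_atTop_of_one_lt (by omega)
  exact (tendsto_pow_atTop_nhds_zero_of_lt_one hr0 hr).comp h1

/-- A sequence whose consecutive differences tend to `0` is Cauchy, in an ultrametric field. -/
theorem cauchySeq_of_succ_sub {u : ℕ → K} (hu : Tendsto (fun k => u (k + 1) - u k) atTop (𝓝 0)) :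
    CauchySeq u :=
  NonarchimedeanAddGroup.cauchySeq_of_tendsto_sub_nhds_zero hu

theorem cauchySeq_uSeq (hw : WFamily K N (p ^ (n - h)) w) (h1 : 1 ≤ h) (hhn : h ≤ n)
    {t : Fin N → K} (ht : ‖t‖ < 1) {x : K} (hx : ‖x‖ < 1) :
    CauchySeq (uSeq w p h n t x) := by
  apply cauchySeq_of_succ_sub
  refine squeeze_zero_norm (fun k => uSeq_succ_sub_le hw hhn ht hx k) ?_
  exact tendsto_pow_pow_zero (norm_nonneg _) ht (two_le_pow p h1)

/-- `q_t(x) = lim_k [p]_t^[k] (x^(1/q^k))`. -/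
noncomputable def qmap (w : ℕ → (Fin N → K) → K) (p h n : ℕ) [Fact p.Prime] [CharP K p]
    [PerfectRing K p] (t : Fin N → K) (x : K) : K :=
  limUnder atTop (uSeq w p h n t x)

theorem tendsto_uSeq (hw : WFamily K N (p ^ (n - h)) w) (h1 : 1 ≤ h) (hhn : h ≤ n)
    {t : Fin N → K} (ht : ‖t‖ < 1) {x : K} (hx : ‖x‖ < 1) :
    Tendsto (uSeq w p h n t x) atTop (𝓝 (qmap w p h n t x)) :=
  (cauchySeq_uSeq hw h1 hhn ht hx).tendsto_limUnder

/-- D2(d): if `‖x‖, ‖t‖ ≤ ρ` then `‖q_t x‖ ≤ ρ`. -/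
theorem norm_qmap_le (hw : WFamily K N (p ^ (n - h)) w) (h1 : 1 ≤ h) (hhn : h ≤ n)
    {t : Fin N → K} (ht : ‖t‖ < 1) {x : K} (hx : ‖x‖ < 1) {ρ : ℝ} (hxρ : ‖x‖ ≤ ρ)
    (htρ : ‖t‖ ≤ ρ) : ‖qmap w p h n t x‖ ≤ ρ :=
  le_of_tendsto' (tendsto_uSeq hw h1 hhn ht hx).norm (norm_uSeq_le hw hhn ht hx hxρ htρ)

theorem norm_qmap_lt (hw : WFamily K N (p ^ (n - h)) w) (h1 : 1 ≤ h) (hhn : h ≤ n)
    {t : Fin N → K} (ht : ‖t‖ < 1) {x : K} (hx : ‖x‖ < 1) : ‖qmap w p h n t x‖ < 1 :=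
  (norm_qmap_le hw h1 hhn ht hx (le_max_left ‖x‖ ‖t‖) (le_max_right ‖x‖ ‖t‖)).trans_lt
    (max_lt hx ht)

/-- Iterated D1(d). -/
theorem iterate_sub_t_le (hw : WFamily K N (p ^ (n - h)) w) {t t' : Fin N → K} (ht : ‖t‖ < 1)
    (ht' : ‖t'‖ < 1) (k : ℕ) {A : K} (hA : ‖A‖ < 1) :
    ‖(pMap w p h t)^[k] A - (pMap w p h t')^[k] A‖ ≤ ‖t - t'‖ := by
  have hd : 0 < p ^ (n - h) := pow_pos (Fact.out : p.Prime).pos _
  have htt' : ‖t - t'‖ ≤ 1 := by
    exact norm_sub_le_max_of_le ht.le ht'.le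
  induction k with
  | zero => simp
  | succ k ih =>
    simp only [Function.iterate_succ_apply']
    have e : pMap w p h t ((pMap w p h t)^[k] A) - pMap w p h t' ((pMap w p h t')^[k] A) =
        (pMap w p h t ((pMap w p h t)^[k] A) - pMap w p h t ((pMap w p h t')^[k] A)) +
        (pMap w p h t ((pMap w p h t')^[k] A) - pMap w p h t' ((pMap w p h t')^[k] A)) := by ring
    rw [e]
    have ha := hw.norm_iterate_lt (h := h) hd ht k hA
    have hb := hw.norm_iterate_lt (h := h) hd ht' k hA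
    refine norm_add_le_of_le ?_ (hw.pMap_sub_t_le ht ht' hb)
    refine (hw.pMap_sub_le ht ha hb).trans ?_
    have hle1 : ‖(pMap w p h t)^[k] A - (pMap w p h t')^[k] A‖ ≤ 1 := ih.trans htt'
    have hpos : p ^ h ≠ 0 := pow_ne_zero _ (Fact.out : p.Prime).ne_zero
    exact (pow_le_of_le_one (norm_nonneg _) hle1 hpos).trans ih

/-- D2(a): `v(q_t x − q_{t'} x) ≥ v(t − t')`. -/
theorem qmap_sub_t_le (hw : WFamily K N (p ^ (n - h)) w) (h1 : 1 ≤ h) (hhn : h ≤ n)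
    {t t' : Fin N → K} (ht : ‖t‖ < 1) (ht' : ‖t'‖ < 1) {x : K} (hx : ‖x‖ < 1) :
    ‖qmap w p h n t x - qmap w p h n t' x‖ ≤ ‖t - t'‖ := by
  refine le_of_tendsto'
    ((tendsto_uSeq hw h1 hhn ht hx).sub (tendsto_uSeq hw h1 hhn ht' hx)).norm (fun k => ?_)
  exact iterate_sub_t_le hw ht ht' k (norm_iterate_qroot_lt n k hx)

/-- Continuity of `[p]_t` along a sequence. -/
theorem tendsto_pMap (hw : WFamily K N (p ^ (n - h)) w) (h1 : 1 ≤ h) {t : Fin N → K} (ht : ‖t‖ < 1)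
    {a : ℕ → K} {b : K} (ha : ∀ k, ‖a k‖ < 1) (hb : ‖b‖ < 1) (hab : Tendsto a atTop (𝓝 b)) :
    Tendsto (fun k => pMap w p h t (a k)) atTop (𝓝 (pMap w p h t b)) := by
  have hpos : p ^ h ≠ 0 := pow_ne_zero _ (Fact.out : p.Prime).ne_zero
  rw [tendsto_iff_norm_sub_tendsto_zero] at hab ⊢
  refine squeeze_zero (fun _ => norm_nonneg _) (fun k => (hw.pMap_sub_le ht (ha k) hb)) ?_
  have := hab.pow (p ^ h)
  rwa [zero_pow hpos] at this

/-- D2(c): `[p]_t q_t(x^(1/q)) = q_t(x)`. -/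
theorem pMap_qmap_qroot (hw : WFamily K N (p ^ (n - h)) w) (h1 : 1 ≤ h) (hhn : h ≤ n)
    {t : Fin N → K} (ht : ‖t‖ < 1) {x : K} (hx : ‖x‖ < 1) :
    pMap w p h t (qmap w p h n t (qroot p n x)) = qmap w p h n t x := by
  have hx' := norm_qroot_lt (p := p) n hx
  have h2 := tendsto_pMap hw h1 ht (fun k => norm_uSeq_lt hw ht hx' k) (norm_qmap_lt hw h1 hhn ht hx')
    (tendsto_uSeq hw h1 hhn ht hx')
  have h3 : (fun k => pMap w p h t (uSeq w p h n t (qroot p n x) k)) =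
      fun k => uSeq w p h n t x (k + 1) := by
    funext k
    unfold uSeq
    rw [← Function.iterate_succ_apply' (pMap w p h t), Function.iterate_succ_apply (qroot p n)]
  rw [h3] at h2
  exact tendsto_nhds_unique h2 ((tendsto_add_atTop_iff_nat 1).2 (tendsto_uSeq hw h1 hhn ht hx))

/-- D2(c'): `[p]_t q_t(x) = q_t(x^q)`. -/
theorem pMap_qmap (hw : WFamily K N (p ^ (n - h)) w) (h1 : 1 ≤ h) (hhn : h ≤ n)
    {t : Fin N → K} (ht : ‖t‖ < 1) {x : K} (hx : ‖x‖ < 1) :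
    pMap w p h t (qmap w p h n t x) = qmap w p h n t (x ^ p ^ n) := by
  have hpos : p ^ n ≠ 0 := pow_ne_zero _ (Fact.out : p.Prime).ne_zero
  have hx' : ‖x ^ p ^ n‖ < 1 := by
    rw [norm_pow]; exact pow_lt_one₀ (norm_nonneg _) hx hpos
  have := pMap_qmap_qroot hw h1 hhn ht hx'
  rwa [qroot_of_pow] at this

/-- `q_t(0) = 0`. -/
theorem qmap_zero (hw : WFamily K N (p ^ (n - h)) w) (h1 : 1 ≤ h) (hhn : h ≤ n)
    {t : Fin N → K} (ht : ‖t‖ < 1) : qmap w p h n t 0 = 0 := by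
  have hr : qroot p n (0 : K) = 0 := by
    apply qroot_eq_of_pow_eq
    rw [zero_pow (pow_ne_zero _ (Fact.out : p.Prime).ne_zero)]
  have hu : ∀ k, uSeq w p h n t (0 : K) k = 0 := by
    intro k
    unfold uSeq
    rw [Function.iterate_fixed hr k, Function.iterate_fixed (hw.pMap_zero ht) k]
  have := tendsto_uSeq hw h1 hhn ht (x := (0 : K)) (by simp)
  simp only [funext hu] at this
  exact tendsto_nhds_unique this tendsto_const_nhds

/-- The abstract input of D2(b): the laws `+_Γ` (`add0`) and `+_{H_t}` (`addH t`) on the open ball.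
`frob`: `(a +_Γ b)^q = a^q +_Γ b^q` (coefficients of `Γ₀` in `𝔽_p`, G2);
`close`: `H_t ≡ Γ₀` modulo `(t)`;
`hom`: `[p]_t` is an endomorphism of `H_t`.  -/
structure LawFamily (w : ℕ → (Fin N → K) → K) (p h n : ℕ) [Fact p.Prime] [CharP K p]
    [PerfectRing K p] (add0 : K → K → K) (addH : (Fin N → K) → K → K → K) : Prop where
  add0_mem : ∀ a b : K, ‖a‖ < 1 → ‖b‖ < 1 → ‖add0 a b‖ < 1
  frob : ∀ a b : K, ‖a‖ < 1 → ‖b‖ < 1 → (add0 a b) ^ p ^ n = add0 (a ^ p ^ n) (b ^ p ^ n)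
  addH_mem : ∀ t : Fin N → K, ‖t‖ < 1 → ∀ a b : K, ‖a‖ < 1 → ‖b‖ < 1 → ‖addH t a b‖ < 1
  addH_lip : ∀ t : Fin N → K, ‖t‖ < 1 → ∀ a a' b b' : K, ‖a‖ < 1 → ‖a'‖ < 1 → ‖b‖ < 1 → ‖b'‖ < 1 →
    ‖addH t a b - addH t a' b'‖ ≤ max ‖a - a'‖ ‖b - b'‖
  close : ∀ t : Fin N → K, ‖t‖ < 1 → ∀ a b : K, ‖a‖ < 1 → ‖b‖ < 1 → ‖addH t a b - add0 a b‖ ≤ ‖t‖
  hom : ∀ t : Fin N → K, ‖t‖ < 1 → ∀ a b : K, ‖a‖ < 1 → ‖b‖ < 1 →
    pMap w p h t (addH t a b) = addH t (pMap w p h t a) (pMap w p h t b)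

variable {add0 : K → K → K} {addH : (Fin N → K) → K → K → K}

theorem LawFamily.qroot_add0 (hL : LawFamily w p h n add0 addH) {a b : K} (ha : ‖a‖ < 1)
    (hb : ‖b‖ < 1) : qroot p n (add0 a b) = add0 (qroot p n a) (qroot p n b) := by
  apply qroot_eq_of_pow_eq
  rw [hL.frob _ _ (norm_qroot_lt n ha) (norm_qroot_lt n hb), qroot_pow, qroot_pow]

theorem LawFamily.iterate_qroot_add0 (hL : LawFamily w p h n add0 addH) (k : ℕ) {a b : K}
    (ha : ‖a‖ < 1) (hb : ‖b‖ < 1) :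
    (qroot p n)^[k] (add0 a b) = add0 ((qroot p n)^[k] a) ((qroot p n)^[k] b) := by
  induction k with
  | zero => rfl
  | succ k ih =>
    rw [Function.iterate_succ_apply', ih, Function.iterate_succ_apply', Function.iterate_succ_apply',
      hL.qroot_add0 (norm_iterate_qroot_lt n k ha) (norm_iterate_qroot_lt n k hb)]

theorem LawFamily.iterate_hom (hL : LawFamily w p h n add0 addH)
    (hw : WFamily K N (p ^ (n - h)) w) {t : Fin N → K} (ht : ‖t‖ < 1) (k : ℕ) {a b : K}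
    (ha : ‖a‖ < 1) (hb : ‖b‖ < 1) :
    (pMap w p h t)^[k] (addH t a b) = addH t ((pMap w p h t)^[k] a) ((pMap w p h t)^[k] b) := by
  have hd : 0 < p ^ (n - h) := pow_pos (Fact.out : p.Prime).pos _
  induction k with
  | zero => rfl
  | succ k ih =>
    rw [Function.iterate_succ_apply', ih, Function.iterate_succ_apply', Function.iterate_succ_apply',
      hL.hom t ht _ _ (hw.norm_iterate_lt hd ht k ha) (hw.norm_iterate_lt hd ht k hb)]

/-- D2(b): `q_t(x +_Γ x') = q_t x +_{H_t} q_t x'`. -/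
theorem qmap_add0 (hL : LawFamily w p h n add0 addH) (hw : WFamily K N (p ^ (n - h)) w)
    (h1 : 1 ≤ h) (hhn : h ≤ n) {t : Fin N → K} (ht : ‖t‖ < 1) {x x' : K} (hx : ‖x‖ < 1)
    (hx' : ‖x'‖ < 1) :
    qmap w p h n t (add0 x x') = addH t (qmap w p h n t x) (qmap w p h n t x') := by
  have hd : 0 < p ^ (n - h) := pow_pos (Fact.out : p.Prime).pos _
  have hs := hL.add0_mem x x' hx hx'
  have h2 : Tendsto (fun k => addH t (uSeq w p h n t x k) (uSeq w p h n t x' k)) atTop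
      (𝓝 (addH t (qmap w p h n t x) (qmap w p h n t x'))) := by
    rw [tendsto_iff_norm_sub_tendsto_zero]
    have h3 := (tendsto_iff_norm_sub_tendsto_zero.1 (tendsto_uSeq hw h1 hhn ht hx))
    have h4 := (tendsto_iff_norm_sub_tendsto_zero.1 (tendsto_uSeq hw h1 hhn ht hx'))
    refine squeeze_zero (fun _ => norm_nonneg _)
      (fun k => hL.addH_lip t ht _ _ _ _ (norm_uSeq_lt hw ht hx k) (norm_qmap_lt hw h1 hhn ht hx)
        (norm_uSeq_lt hw ht hx' k) (norm_qmap_lt hw h1 hhn ht hx')) ?_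
    simpa using h3.max h4
  have h5 : Tendsto (fun k => uSeq w p h n t (add0 x x') k -
      addH t (uSeq w p h n t x k) (uSeq w p h n t x' k)) atTop (𝓝 0) := by
    refine squeeze_zero_norm (a := fun k => ‖t‖ ^ (p ^ h) ^ k) (fun k => ?_)
      (tendsto_pow_pow_zero (norm_nonneg _) ht (two_le_pow p h1))
    have ha := norm_iterate_qroot_lt (p := p) n k hx
    have hb := norm_iterate_qroot_lt (p := p) n k hx'
    unfold uSeq
    rw [hL.iterate_qroot_add0 k hx hx', ← hL.iterate_hom hw ht k ha hb]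
    refine (hw.iterate_sub_le hd ht k (hL.add0_mem _ _ ha hb) (hL.addH_mem t ht _ _ ha hb)).trans ?_
    refine pow_le_pow_left₀ (norm_nonneg _) ?_ _
    rw [norm_sub_rev]
    exact hL.close t ht _ _ ha hb
  have h6 := h5.add h2
  simp only [sub_add_cancel, zero_add] at h6
  exact tendsto_nhds_unique (tendsto_uSeq hw h1 hhn ht hs) h6

/-- D2(e): a hom `θ : H_{t'} → H_t` uniformly close to an automorphism `g` of `Γ₀` intertwines the
`q`-maps: `θ(q_{t'} x) = q_t(g x)`. Here `θ`, `g` are given as functions on the open ball.  -/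
theorem qmap_intertwine (hw : WFamily K N (p ^ (n - h)) w) (h1 : 1 ≤ h) (hhn : h ≤ n)
    {t t' : Fin N → K} (ht : ‖t‖ < 1) (ht' : ‖t'‖ < 1) {θ g : K → K}
    (hθ_mem : ∀ a : K, ‖a‖ < 1 → ‖θ a‖ < 1)
    (hθ_lip : ∀ a b : K, ‖a‖ < 1 → ‖b‖ < 1 → ‖θ a - θ b‖ ≤ ‖a - b‖)
    (hθ_comm : ∀ a : K, ‖a‖ < 1 → θ (pMap w p h t' a) = pMap w p h t (θ a))
    (hg_mem : ∀ a : K, ‖a‖ < 1 → ‖g a‖ < 1)
    (hg_root : ∀ a : K, ‖a‖ < 1 → g (qroot p n a) = qroot p n (g a))
    {v0 : ℝ} (hv0 : v0 < 1) (hclose : ∀ a : K, ‖a‖ < 1 → ‖θ a - g a‖ ≤ v0)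
    {x : K} (hx : ‖x‖ < 1) :
    θ (qmap w p h n t' x) = qmap w p h n t (g x) := by
  have hd : 0 < p ^ (n - h) := pow_pos (Fact.out : p.Prime).pos _
  have hgx := hg_mem x hx
  have hv00 : 0 ≤ v0 := (norm_nonneg _).trans (hclose 0 (by simp))
  -- commutation with iterates
  have hθ_iter : ∀ k (a : K), ‖a‖ < 1 →
      θ ((pMap w p h t')^[k] a) = (pMap w p h t)^[k] (θ a) := by
    intro k a ha
    induction k generalizing a with
    | zero => rfl
    | succ k ih =>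
      rw [Function.iterate_succ_apply, ih _ (hw.norm_pMap_lt hd ht' ha), hθ_comm a ha,
        Function.iterate_succ_apply]
  have hg_iter : ∀ k (a : K), ‖a‖ < 1 → g ((qroot p n)^[k] a) = (qroot p n)^[k] (g a) := by
    intro k a ha
    induction k with
    | zero => rfl
    | succ k ih =>
      rw [Function.iterate_succ_apply', hg_root _ (norm_iterate_qroot_lt n k ha), ih,
        Function.iterate_succ_apply']
  have h2 : Tendsto (fun k => θ (uSeq w p h n t' x k)) atTop (𝓝 (θ (qmap w p h n t' x))) := by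
    rw [tendsto_iff_norm_sub_tendsto_zero]
    refine squeeze_zero (fun _ => norm_nonneg _)
      (fun k => hθ_lip _ _ (norm_uSeq_lt hw ht' hx k) (norm_qmap_lt hw h1 hhn ht' hx)) ?_
    exact tendsto_iff_norm_sub_tendsto_zero.1 (tendsto_uSeq hw h1 hhn ht' hx)
  have h3 : Tendsto (fun k => θ (uSeq w p h n t' x k) - uSeq w p h n t (g x) k) atTop (𝓝 0) := by
    refine squeeze_zero_norm (a := fun k => v0 ^ (p ^ h) ^ k) (fun k => ?_)
      (tendsto_pow_pow_zero hv00 hv0 (two_le_pow p h1))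
    have ha := norm_iterate_qroot_lt (p := p) n k hx
    unfold uSeq
    rw [hθ_iter k _ ha, ← hg_iter k x hx]
    refine (hw.iterate_sub_le hd ht k (hθ_mem _ ha) (hg_mem _ ha)).trans ?_
    exact pow_le_pow_left₀ (norm_nonneg _) (hclose _ ha) _
  have h4 := h2.sub h3
  simp only [sub_sub_cancel, sub_zero] at h4
  exact tendsto_nhds_unique h4 (tendsto_uSeq hw h1 hhn ht hgx)

/-- Tower lemma (used in D6(b)): given a tower `y k` in the ball with `[p]_t y (k+1) = y k`,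
the sequence `(y k)^(q^k)` is Cauchy with limit `b` and `q_t(b^(1/q^j)) = y j`. -/
theorem tower_cauchy (hw : WFamily K N (p ^ (n - h)) w) (hhn : h ≤ n) {t : Fin N → K}
    (ht : ‖t‖ < 1) {y : ℕ → K} (hy : ∀ k, ‖y k‖ < 1) (hyy : ∀ k, pMap w p h t (y (k + 1)) = y k)
    (hn : 1 ≤ n) : CauchySeq (fun k => y k ^ (p ^ n) ^ k) := by
  have hq2 : 2 ≤ p ^ n := two_le_pow p hn
  apply cauchySeq_of_succ_sub
  refine squeeze_zero_norm (a := fun k => ‖t‖ ^ (p ^ n) ^ k) (fun k => ?_)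
    (tendsto_pow_pow_zero (norm_nonneg _) ht hq2)
  have e : y (k + 1) ^ (p ^ n) ^ (k + 1) - y k ^ (p ^ n) ^ k =
      (y (k + 1) ^ p ^ n - y k) ^ (p ^ n) ^ k := by
    have h1 : (p ^ n) ^ (k + 1) = p ^ n * (p ^ n) ^ k := pow_succ' _ _
    have h2 : (p ^ n) ^ k = p ^ (n * k) := (pow_mul _ _ _).symm
    rw [h1, pow_mul, h2, sub_pow_char_pow]
  rw [e, norm_pow]
  refine pow_le_pow_left₀ (norm_nonneg _) ?_ _
  rw [← hyy k, norm_sub_rev]
  have := hw.pMap_sub_pow_le (p := p) (h := h) ht (hy (k + 1))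
  rwa [p_mul_of_le p hhn] at this

/-- Existence of the limit and the bound `‖b − (y m)^(q^m)‖ ≤ ‖t‖^(q^m)`. -/
theorem tower_limit_bound (hw : WFamily K N (p ^ (n - h)) w) (hhn : h ≤ n) {t : Fin N → K}
    (ht : ‖t‖ < 1) {y : ℕ → K} (hy : ∀ k, ‖y k‖ < 1) (hyy : ∀ k, pMap w p h t (y (k + 1)) = y k)
    (hn : 1 ≤ n) {b : K} (hb : Tendsto (fun k => y k ^ (p ^ n) ^ k) atTop (𝓝 b)) (m : ℕ) :
    ‖b - y m ^ (p ^ n) ^ m‖ ≤ ‖t‖ ^ (p ^ n) ^ m := by
  have hq2 : 2 ≤ p ^ n := two_le_pow p hn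
  have key : ∀ l, ‖y (m + l) ^ (p ^ n) ^ (m + l) - y m ^ (p ^ n) ^ m‖ ≤ ‖t‖ ^ (p ^ n) ^ m := by
    intro l
    induction l with
    | zero => simp
    | succ l ih =>
      have e : y (m + (l + 1)) ^ (p ^ n) ^ (m + (l + 1)) - y m ^ (p ^ n) ^ m =
          (y (m + l + 1) ^ (p ^ n) ^ (m + l + 1) - y (m + l) ^ (p ^ n) ^ (m + l)) +
          (y (m + l) ^ (p ^ n) ^ (m + l) - y m ^ (p ^ n) ^ m) := by
        rw [← add_assoc]; ring
      rw [e]
      refine norm_add_le_of_le ?_ ih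
      have e2 : y (m + l + 1) ^ (p ^ n) ^ (m + l + 1) - y (m + l) ^ (p ^ n) ^ (m + l) =
          (y (m + l + 1) ^ p ^ n - y (m + l)) ^ (p ^ n) ^ (m + l) := by
        have h1 : (p ^ n) ^ (m + l + 1) = p ^ n * (p ^ n) ^ (m + l) := pow_succ' _ _
        have h2 : (p ^ n) ^ (m + l) = p ^ (n * (m + l)) := (pow_mul _ _ _).symm
        rw [h1, pow_mul, h2, sub_pow_char_pow]
      rw [e2, norm_pow]
      have h3 : ‖y (m + l + 1) ^ p ^ n - y (m + l)‖ ≤ ‖t‖ := by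
        rw [← hyy (m + l), norm_sub_rev]
        have := hw.pMap_sub_pow_le (p := p) (h := h) ht (hy (m + l + 1))
        rwa [p_mul_of_le p hhn] at this
      refine (pow_le_pow_left₀ (norm_nonneg _) h3 _).trans ?_
      refine pow_le_pow_of_le_one (norm_nonneg _) ht.le ?_
      exact Nat.pow_le_pow_right (by omega) (by omega)
  have h4 : Tendsto (fun l => y (m + l) ^ (p ^ n) ^ (m + l) - y m ^ (p ^ n) ^ m) atTop
      (𝓝 (b - y m ^ (p ^ n) ^ m)) := by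
    refine Tendsto.sub ?_ tendsto_const_nhds
    have := hb.comp (tendsto_add_atTop_nat m)
    simpa [Function.comp_def, add_comm] using this
  exact le_of_tendsto' h4.norm key

/-- D6(b): the tower limit `b` satisfies `q_t(b^(1/q^j)) = y j`. -/
theorem tower_qmap (hw : WFamily K N (p ^ (n - h)) w) (h1 : 1 ≤ h) (hhn : h ≤ n) {t : Fin N → K}
    (ht : ‖t‖ < 1) {y : ℕ → K} (hy : ∀ k, ‖y k‖ < 1) (hyy : ∀ k, pMap w p h t (y (k + 1)) = y k)
    (hn : 1 ≤ n) {b : K} (hb : Tendsto (fun k => y k ^ (p ^ n) ^ k) atTop (𝓝 b)) (hb1 : ‖b‖ < 1)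
    (j : ℕ) : qmap w p h n t ((qroot p n)^[j] b) = y j := by
  have hd : 0 < p ^ (n - h) := pow_pos (Fact.out : p.Prime).pos _
  have hpn : p ^ n ≠ 0 := pow_ne_zero _ (Fact.out : p.Prime).ne_zero
  -- root of the bound
  have hroot : ∀ m, ‖(qroot p n)^[m] b - y m‖ ≤ ‖t‖ := by
    intro m
    have h2 := tower_limit_bound hw hhn ht hy hyy hn hb m
    have hpow : ((qroot p n)^[m] b) ^ (p ^ n) ^ m = b := by
      clear h2
      induction m with
      | zero => simp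
      | succ m ih =>
        rw [pow_succ', pow_mul, iterate_qroot_pow, ih]
    have e : b - y m ^ (p ^ n) ^ m = ((qroot p n)^[m] b - y m) ^ (p ^ n) ^ m := by
      have h3 : (p ^ n) ^ m = p ^ (n * m) := (pow_mul _ _ _).symm
      rw [h3, sub_pow_char_pow, ← h3, hpow]
    rw [e, norm_pow] at h2
    exact (pow_le_pow_iff_left₀ (norm_nonneg _) (norm_nonneg _)
      (pow_ne_zero _ hpn)).1 h2
  have hP : ∀ k m, (pMap w p h t)^[k] (y (m + k)) = y m := by
    intro k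
    induction k with
    | zero => intro m; rfl
    | succ k ih =>
      intro m
      rw [Function.iterate_succ_apply', show m + (k + 1) = (m + 1) + k by ring, ih (m + 1), hyy]
  have hxj : ‖(qroot p n)^[j] b‖ < 1 := norm_iterate_qroot_lt n j hb1
  have h5 : Tendsto (uSeq w p h n t ((qroot p n)^[j] b)) atTop (𝓝 (y j)) := by
    rw [tendsto_iff_norm_sub_tendsto_zero]
    refine squeeze_zero (fun _ => norm_nonneg _) (g := fun k => ‖t‖ ^ (p ^ h) ^ k) (fun k => ?_)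
      (tendsto_pow_pow_zero (norm_nonneg _) ht (two_le_pow p h1))
    unfold uSeq
    rw [← Function.iterate_add_apply, ← hP k j, add_comm k j]
    have ha : ‖(qroot p n)^[j + k] b‖ < 1 := norm_iterate_qroot_lt n (j + k) hb1
    refine (hw.iterate_sub_le hd ht k ha (hy _)).trans ?_
    exact pow_le_pow_left₀ (norm_nonneg _) (hroot _) _
  exact tendsto_nhds_unique (tendsto_uSeq hw h1 hhn ht hxj) h5

/-- `‖(y k)^(q^k)‖ ≤ max(‖y 0‖, ‖t‖)` so the tower limit is in the ball. -/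
theorem norm_tower_limit_lt (hw : WFamily K N (p ^ (n - h)) w) (hhn : h ≤ n) {t : Fin N → K}
    (ht : ‖t‖ < 1) {y : ℕ → K} (hy : ∀ k, ‖y k‖ < 1) (hyy : ∀ k, pMap w p h t (y (k + 1)) = y k)
    (hn : 1 ≤ n) {b : K} (hb : Tendsto (fun k => y k ^ (p ^ n) ^ k) atTop (𝓝 b)) : ‖b‖ < 1 := by
  have h0 := tower_limit_bound hw hhn ht hy hyy hn hb 0
  simp only [pow_zero, pow_one] at h0
  have e : b = (b - y 0) + y 0 := by ring
  rw [e]
  exact (IsUltrametricDist.norm_add_le_max _ _).trans_lt (max_lt (h0.trans_lt ht) (hy 0))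

end D2

end Crest.Agent.LT
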