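/-
S0351 (row 227), section D: the concrete instance of the abstract layer `LatQMap`.

Part I (general): integral series evaluated at points of the open unit polydisc; `evFun`, `evHom`
(the ring map `R⟦σ⟧ → K`), Lipschitz bounds, `eval ∘ subst`.
Part II: the point map `A → K` of a point `t ∈ m_K^N`, `wFun`, `WFamily`.
Part III: the laws `add0`, `addH`, `LawFamily`.
-/
import Crest.Agent.Lib.LubinTate.Tate
import Crest.Agent.Lib.LubinTate.HazAPI
import Crest.Agent.Lib.LubinTate.FGBasic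
import Crest.Agent.Lib.LubinTate.LatQMap
import Crest.Agent.Lib.LubinTate.FGNeg

set_option autoImplicit false
set_option linter.unusedSectionVars false

namespace Crest.Agent.LT

open Crest.LubinTate MvPowerSeries Filter Topology

noncomputable section

section Integral

variable {K : Type*} [NormedField K] [IsUltrametricDist K]
variable {σ τ : Type*}

/-- A series with coefficients in the closed unit ball. -/
def IsIntS (T : MvPowerSeries σ K) : Prop := ∀ e, ‖coeff e T‖ ≤ 1

theorem IsIntS.one : IsIntS (1 : MvPowerSeries σ K) := by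
  classical
  intro e
  rw [coeff_one]
  split_ifs <;> simp

theorem IsIntS.zero : IsIntS (0 : MvPowerSeries σ K) := by
  intro e; simp

theorem IsIntS.X (i : σ) : IsIntS (MvPowerSeries.X i : MvPowerSeries σ K) := by
  classical
  intro e
  rw [coeff_X]
  split_ifs <;> simp

theorem IsIntS.mul {T T' : MvPowerSeries σ K} (hT : IsIntS T) (hT' : IsIntS T') :
    IsIntS (T * T') := by
  classical
  intro e
  rw [coeff_mul]
  refine IsUltrametricDist.norm_sum_le_of_forall_le_of_nonneg zero_le_one (fun i _ => ?_)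
  rw [norm_mul]
  exact mul_le_one₀ (hT _) (norm_nonneg _) (hT' _)

theorem IsIntS.pow {T : MvPowerSeries σ K} (hT : IsIntS T) (k : ℕ) : IsIntS (T ^ k) := by
  induction k with
  | zero => simpa using IsIntS.one
  | succ k ih => rw [pow_succ]; exact ih.mul hT

theorem IsIntS.monoB {s : σ → MvPowerSeries τ K} (hs : ∀ i, IsIntS (s i)) (e : σ →₀ ℕ) :
    IsIntS (Crest.Agent.LT.monoB s e) := by
  classical
  induction e using Finsupp.induction_linear with
  | zero => simpa using IsIntS.one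
  | add e e' he he' => rw [monoB_add]; exact he.mul he'
  | single i k => rw [monoB_single]; exact (hs i).pow k

theorem norm_monoB_le_one {x : σ → K} (hx : ∀ i, ‖x i‖ ≤ 1) (e : σ →₀ ℕ) :
    ‖Crest.Agent.LT.monoB x e‖ ≤ 1 := by
  classical
  induction e using Finsupp.induction_linear with
  | zero => simp
  | add e e' he he' => rw [monoB_add, norm_mul]; exact mul_le_one₀ he (norm_nonneg _) he'
  | single i k => rw [monoB_single, norm_pow]; exact pow_le_one₀ (norm_nonneg _) (hx i)

/-- A nonconstant monomial is bounded by any common bound `ρ ≤ 1` of the coordinates. -/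
theorem norm_monoB_le_of_ne {x : σ → K} {ρ : ℝ} (hρ : ρ ≤ 1) (hx : ∀ i, ‖x i‖ ≤ ρ) {e : σ →₀ ℕ}
    (he : e ≠ 0) : ‖Crest.Agent.LT.monoB x e‖ ≤ ρ := by
  classical
  have h1 : ∀ i, ‖x i‖ ≤ 1 := fun i => (hx i).trans hρ
  induction e using Finsupp.induction_linear with
  | zero => exact absurd rfl he
  | add e e' ih ih' =>
    rw [monoB_add, norm_mul]
    by_cases h0 : e = 0
    · subst h0
      have := ih' (by simpa using he)
      simpa using this
    · exact (mul_le_of_le_one_right (norm_nonneg _) (norm_monoB_le_one h1 e')).trans (ih h0)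
  | single i k =>
    rw [monoB_single, norm_pow]
    have hk : k ≠ 0 := by
      rintro rfl
      simp at he
    exact (pow_le_of_le_one (norm_nonneg _) (h1 i) hk).trans (hx i)

theorem norm_monoB_sub_monoB_le [Fintype σ] {x y : σ → K} (hx : ∀ i, ‖x i‖ ≤ 1)
    (hy : ∀ i, ‖y i‖ ≤ 1) (e : σ →₀ ℕ) :
    ‖Crest.Agent.LT.monoB x e - Crest.Agent.LT.monoB y e‖ ≤ ‖x - y‖ := by
  classical
  induction e using Finsupp.induction_linear with
  | zero => simp
  | add e e' ih ih' =>
    rw [monoB_add, monoB_add]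
    have h : monoB x e * monoB x e' - monoB y e * monoB y e' =
        (monoB x e - monoB y e) * monoB x e' + monoB y e * (monoB x e' - monoB y e') := by ring
    rw [h]
    refine (IsUltrametricDist.norm_add_le_max _ _).trans (max_le ?_ ?_)
    · rw [norm_mul]
      exact (mul_le_of_le_one_right (norm_nonneg _) (norm_monoB_le_one hx e')).trans ih
    · rw [norm_mul]
      exact (mul_le_of_le_one_left (norm_nonneg _) (norm_monoB_le_one hy e)).trans ih'
  | single i k =>
    rw [monoB_single, monoB_single]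
    exact (norm_pow_sub_pow_le (hx i) (hy i) k).trans
      (by simpa using norm_le_pi_norm (x - y) i)

variable [Fintype σ] [Fintype τ]

/-- A common radius `ρ ∈ (0,1)` of a point of the open polydisc. -/
theorem exists_radius {x : σ → K} (hx : ‖x‖ < 1) : ∃ ρ : ℝ, 0 < ρ ∧ ρ < 1 ∧ ∀ i, ‖x i‖ ≤ ρ :=
  ⟨max (1 / 2) ‖x‖, by positivity, max_lt (by norm_num) hx,
    fun i => le_max_of_le_right (norm_le_pi_norm x i)⟩

theorem IsIntS.restricted {T : MvPowerSeries σ K} (hT : IsIntS T) {ρ : ℝ} (h0 : 0 < ρ) (h1 : ρ < 1) :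
    IsRestricted (fun _ => ρ) T :=
  restr_of_bounded (fun _ => h0) (fun _ => h1) hT

variable [CompleteSpace K]

theorem eval_summable {T : MvPowerSeries σ K} (hT : IsIntS T) {x : σ → K} (hx : ‖x‖ < 1) :
    Summable (fun e => coeff e T * Crest.Agent.LT.monoB x e) := by
  obtain ⟨ρ, h0, h1, hρ⟩ := exists_radius hx
  exact aev_summable (K := K) (B := K) (r := fun _ => ρ) hρ (hT.restricted h0 h1)

/-- The value of an integral series in the open polydisc is integral. -/
theorem norm_eval_le_one {T : MvPowerSeries σ K} (hT : IsIntS T) {x : σ → K} (hx : ‖x‖ < 1) :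
    ‖Crest.Agent.LT.eval x T‖ ≤ 1 := by
  rw [eval_def]
  refine IsUltrametricDist.norm_tsum_le_of_forall_le_of_nonneg zero_le_one (fun e => ?_)
  rw [norm_mul]
  refine mul_le_one₀ (hT e) (norm_nonneg _) (norm_monoB_le_one (fun i => ?_) e)
  exact (norm_le_pi_norm x i).trans hx.le

/-- The value of an integral series with zero constant term is bounded by the radius. -/
theorem norm_eval_le_of_cc {T : MvPowerSeries σ K} (hT : IsIntS T)
    (h0 : MvPowerSeries.constantCoeff T = 0) {x : σ → K} (hx : ‖x‖ < 1) :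
    ‖Crest.Agent.LT.eval x T‖ ≤ ‖x‖ := by
  rw [eval_def]
  refine IsUltrametricDist.norm_tsum_le_of_forall_le_of_nonneg (norm_nonneg _) (fun e => ?_)
  by_cases he : e = 0
  · subst he
    rw [coeff_zero_eq_constantCoeff_apply, h0]
    simp
  · rw [norm_mul]
    exact (mul_le_of_le_one_left (norm_nonneg _) (hT e)).trans
      (norm_monoB_le_of_ne hx.le (fun i => norm_le_pi_norm x i) he)

theorem eval_sub_eval_le {T : MvPowerSeries σ K} (hT : IsIntS T) {x y : σ → K} (hx : ‖x‖ < 1)
    (hy : ‖y‖ < 1) : ‖Crest.Agent.LT.eval x T - Crest.Agent.LT.eval y T‖ ≤ ‖x - y‖ := by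
  rw [eval_def, eval_def, ← (eval_summable hT hx).tsum_sub (eval_summable hT hy)]
  refine IsUltrametricDist.norm_tsum_le_of_forall_le_of_nonneg (norm_nonneg _) (fun e => ?_)
  rw [← mul_sub, norm_mul]
  exact (mul_le_of_le_one_left (norm_nonneg _) (hT e)).trans
    (norm_monoB_sub_monoB_le (fun i => (norm_le_pi_norm x i).trans hx.le)
      (fun i => (norm_le_pi_norm y i).trans hy.le) e)

theorem eval_sub_eval_coeff_le {T T' : MvPowerSeries σ K} (hT : IsIntS T) (hT' : IsIntS T')
    {x : σ → K} (hx : ‖x‖ < 1) {B : ℝ} (hB : 0 ≤ B) (h : ∀ e, ‖coeff e T - coeff e T'‖ ≤ B) :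
    ‖Crest.Agent.LT.eval x T - Crest.Agent.LT.eval x T'‖ ≤ B := by
  rw [eval_def, eval_def, ← (eval_summable hT hx).tsum_sub (eval_summable hT' hx)]
  refine IsUltrametricDist.norm_tsum_le_of_forall_le_of_nonneg hB (fun e => ?_)
  rw [← sub_mul, norm_mul]
  exact (mul_le_of_le_one_right (norm_nonneg _) (norm_monoB_le_one
    (fun i => (norm_le_pi_norm x i).trans hx.le) e)).trans (h e)

theorem eval_add_int {T T' : MvPowerSeries σ K} (hT : IsIntS T) (hT' : IsIntS T') {x : σ → K}
    (hx : ‖x‖ < 1) : Crest.Agent.LT.eval x (T + T') =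
      Crest.Agent.LT.eval x T + Crest.Agent.LT.eval x T' := by
  obtain ⟨ρ, h0, h1, hρ⟩ := exists_radius hx
  exact Crest.Agent.LT.eval_add (r := fun _ => ρ) hρ (hT.restricted h0 h1) (hT'.restricted h0 h1)

theorem eval_mul_int {T T' : MvPowerSeries σ K} (hT : IsIntS T) (hT' : IsIntS T') {x : σ → K}
    (hx : ‖x‖ < 1) : Crest.Agent.LT.eval x (T * T') =
      Crest.Agent.LT.eval x T * Crest.Agent.LT.eval x T' := by
  obtain ⟨ρ, h0, h1, hρ⟩ := exists_radius hx
  exact Crest.Agent.LT.eval_mul (r := fun _ => ρ) hρ (hT.restricted h0 h1) (hT'.restricted h0 h1)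

/-- Bridge from Mathlib's substitution to `comp`. -/
theorem comp_eq_subst {a : σ → MvPowerSeries τ K} (ha : MvPowerSeries.HasSubst a)
    (T : MvPowerSeries σ K) : Crest.Agent.LT.comp T a = MvPowerSeries.subst a T := by
  ext e
  rw [coeff_comp, MvPowerSeries.coeff_subst ha]
  have hfin := MvPowerSeries.coeff_subst_finite ha T e
  have h2 := tsum_eq_finsum (L := SummationFilter.unconditional _) hfin
  rw [← h2]
  rfl

theorem IsIntS.subst {a : σ → MvPowerSeries τ K} (ha : MvPowerSeries.HasSubst a)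
    (hai : ∀ i, IsIntS (a i)) {T : MvPowerSeries σ K} (hT : IsIntS T) :
    IsIntS (MvPowerSeries.subst a T) := by
  intro e
  rw [← comp_eq_subst ha, coeff_comp]
  refine IsUltrametricDist.norm_tsum_le_of_forall_le_of_nonneg zero_le_one (fun d => ?_)
  rw [norm_mul]
  exact mul_le_one₀ (hT d) (norm_nonneg _) (IsIntS.monoB hai d e)

/-- The chain rule for values: `(T ∘ s)(x) = T(s(x))`, for integral series, `s` without constant
terms, `x` in the open polydisc. -/
theorem eval_subst {s : σ → MvPowerSeries τ K} (hs0 : ∀ i, MvPowerSeries.constantCoeff (s i) = 0)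
    (hsi : ∀ i, IsIntS (s i)) {T : MvPowerSeries σ K} (hT : IsIntS T) {x : τ → K} (hx : ‖x‖ < 1) :
    Crest.Agent.LT.eval x (MvPowerSeries.subst s T) =
      Crest.Agent.LT.eval (fun i => Crest.Agent.LT.eval x (s i)) T := by
  have ha : MvPowerSeries.HasSubst s := MvPowerSeries.hasSubst_of_constantCoeff_zero hs0
  obtain ⟨ρ, h0, h1, hρ⟩ := exists_radius hx
  rw [← comp_eq_subst ha]
  have hS : IsSubst (fun _ : σ => ρ) (fun _ : τ => ρ) s := by
    refine ⟨fun i => (hsi i).restricted h0 h1, fun i => gn_le h0.le (fun e => ?_)⟩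
    by_cases he : e = 0
    · subst he
      rw [coeff_zero_eq_constantCoeff_apply, hs0]
      simp [h0.le]
    · have hr : rpow (fun _ : τ => ρ) e ≤ ρ := by
        classical
        induction e using Finsupp.induction_linear with
        | zero => exact absurd rfl he
        | add e e' ih ih' =>
          rw [rpow_add]
          by_cases h00 : e = 0
          · subst h00
            have := ih' (by simpa using he)
            simpa using this
          · exact (mul_le_of_le_one_right (rpow_nonneg (fun _ => h0.le) e)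
              (rpow_le_one (fun _ => h0.le) (fun _ => h1.le) e')).trans (ih h00)
        | single j k =>
          rw [rpow_single]
          have hk : k ≠ 0 := by
            rintro rfl
            simp at he
          exact pow_le_of_le_one h0.le h1.le hk
      exact (mul_le_of_le_one_left (rpow_nonneg (fun _ => h0.le) e) (hsi i e)).trans hr
  exact eval_comp (r := fun _ => ρ) (r' := fun _ => ρ) (fun _ => h0) (fun _ => h0) hS hρ
    (hT.restricted h0 h1)

end Integral

section EvHom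

variable {K : Type*} [NormedField K] [IsUltrametricDist K] [CompleteSpace K]
variable {R : Type*} [CommRing R] {σ : Type*} [Fintype σ]

/-- `a ↦ a(τ)`, coefficients through `ι`. -/
def evFun (ι : R →+* K) (τ : σ → K) (a : MvPowerSeries σ R) : K :=
  Crest.Agent.LT.eval τ (MvPowerSeries.map ι a)

theorem isIntS_map {ι : R →+* K} (hι : ∀ r, ‖ι r‖ ≤ 1) (a : MvPowerSeries σ R) :
    IsIntS (MvPowerSeries.map ι a) := fun e => by
  rw [coeff_map]; exact hι _

/-- The ring map `R⟦σ⟧ → K` of a point of the open polydisc. -/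
def evHom (ι : R →+* K) (hι : ∀ r, ‖ι r‖ ≤ 1) (τ : σ → K) (hτ : ‖τ‖ < 1) :
    MvPowerSeries σ R →+* K where
  toFun := evFun ι τ
  map_one' := by
    unfold evFun
    rw [map_one, ← map_one (MvPowerSeries.C (R := K)), eval_C]
  map_mul' a b := by
    unfold evFun
    rw [map_mul, eval_mul_int (isIntS_map hι a) (isIntS_map hι b) hτ]
  map_zero' := by
    unfold evFun
    rw [map_zero, ← map_zero (MvPowerSeries.C (R := K)), eval_C]
  map_add' a b := by
    unfold evFun
    rw [map_add, eval_add_int (isIntS_map hι a) (isIntS_map hι b) hτ]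

@[simp] theorem evHom_apply (ι : R →+* K) (hι : ∀ r, ‖ι r‖ ≤ 1) (τ : σ → K) (hτ : ‖τ‖ < 1)
    (a : MvPowerSeries σ R) : evHom ι hι τ hτ a = evFun ι τ a := rfl

theorem evFun_C (ι : R →+* K) (τ : σ → K) (r : R) : evFun ι τ (MvPowerSeries.C r) = ι r := by
  unfold evFun
  rw [MvPowerSeries.map_C, eval_C]

theorem evFun_X (ι : R →+* K) (τ : σ → K) (i : σ) : evFun ι τ (MvPowerSeries.X i) = τ i := by
  unfold evFun
  rw [MvPowerSeries.map_X, eval_X]

theorem norm_evFun_le {ι : R →+* K} (hι : ∀ r, ‖ι r‖ ≤ 1) {τ : σ → K} (hτ : ‖τ‖ < 1)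
    (a : MvPowerSeries σ R) : ‖evFun ι τ a‖ ≤ 1 :=
  norm_eval_le_one (isIntS_map hι a) hτ

theorem evFun_sub_le {ι : R →+* K} (hι : ∀ r, ‖ι r‖ ≤ 1) {τ τ' : σ → K} (hτ : ‖τ‖ < 1)
    (hτ' : ‖τ'‖ < 1) (a : MvPowerSeries σ R) : ‖evFun ι τ a - evFun ι τ' a‖ ≤ ‖τ - τ'‖ :=
  eval_sub_eval_le (isIntS_map hι a) hτ hτ'

theorem evFun_zero (ι : R →+* K) (a : MvPowerSeries σ R) :
    evFun ι (0 : σ → K) a = ι (MvPowerSeries.constantCoeff a) := by
  classical
  unfold evFun
  rw [eval_def, tsum_eq_single 0]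
  · simp [coeff_zero_eq_constantCoeff_apply]
  · intro e he
    obtain ⟨i, hi⟩ := Finsupp.ne_iff.1 he
    have hi' : e i ≠ 0 := by simpa using hi
    have h0 : Crest.Agent.LT.monoB (0 : σ → K) e = 0 := by
      unfold Crest.Agent.LT.monoB Finsupp.prod
      refine Finset.prod_eq_zero (i := i) (Finsupp.mem_support_iff.2 hi') ?_
      simp [hi']
    rw [h0, mul_zero]

end EvHom

/-! ### One-variable evaluation -/

section OneVar

variable {K : Type*} [NormedField K] [IsUltrametricDist K] [CompleteSpace K]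

/-- The value of a one-variable series. -/
def evalP (f : PowerSeries K) (A : K) : K := Crest.Agent.LT.eval (fun _ : Unit => A) f

theorem evalP_eq_tsum (f : PowerSeries K) (A : K) :
    evalP f A = ∑' m : ℕ, PowerSeries.coeff m f * A ^ m := by
  classical
  unfold evalP
  rw [eval_def]
  let E : ℕ ≃ (Unit →₀ ℕ) := (Finsupp.uniqueEquiv (α := Unit) (M := ℕ) ()).symm
  rw [← E.tsum_eq]
  refine tsum_congr fun m => ?_
  have hE : E m = Finsupp.single () m := rfl
  rw [hE, monoB_single]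
  rfl

theorem norm_singleton_eq (A : K) : ‖(fun _ : Unit => A)‖ = ‖A‖ := by
  rw [show (fun _ : Unit => A) = Function.const Unit A from rfl]
  exact pi_norm_const A

end OneVar

/-! ### The point map of `t ∈ m_K^N` -/

section Concrete

variable (p : ℕ) [Fact p.Prime] (n : ℕ) [NeZero n]
variable {K : Type*} [NormedField K] [IsUltrametricDist K] [CompleteSpace K] [CharP K p]

omit [CompleteSpace K] [IsUltrametricDist K] [CharP K p] in
/-- Every element of the finite field `k` has norm `≤ 1` in `K`. -/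
theorem norm_iotaK_le (ιk : kk p n →+* K) (a : kk p n) : ‖ιk a‖ ≤ 1 := by
  by_contra hcon
  have h1 : 1 < ‖ιk a‖ := not_le.1 hcon
  have hn : n ≠ 0 := NeZero.ne n
  have hcard : Nat.card (GaloisField p n) = p ^ n := GaloisField.card p n hn
  have h2 : a ^ (p ^ n) = a := by
    haveI : Finite (GaloisField p n) := Nat.finite_of_card_ne_zero (by
      rw [hcard]; exact pow_ne_zero _ (Fact.out : p.Prime).ne_zero)
    haveI := Fintype.ofFinite (GaloisField p n)
    have := FiniteField.pow_card a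
    rwa [← Nat.card_eq_fintype_card, hcard] at this
  have h3 : ‖ιk a‖ ^ (p ^ n) = ‖ιk a‖ := by
    rw [← norm_pow, ← map_pow, h2]
  have h4 : 1 < p ^ n := Nat.one_lt_pow hn (Fact.out : p.Prime).one_lt
  have h5 := pow_lt_pow_right₀ h1 h4
  rw [h3, pow_one] at h5
  exact lt_irrefl _ h5

/-- `W → k → K`. -/
def iotaW (ιk : kk p n →+* K) : WW p n →+* K := ιk.comp WittVector.constantCoeff

omit [CompleteSpace K] [IsUltrametricDist K] [CharP K p] in
theorem norm_iotaW_le (ιk : kk p n →+* K) (a : WW p n) : ‖iotaW p n ιk a‖ ≤ 1 :=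
  norm_iotaK_le p n ιk _

variable {p n}

/-- Coordinates of the point of `Spf A` attached to `t ∈ K^N`, `N = n - h`:
`t_i ↦ 0` for `i < h`, `t_{h+j} ↦ t_j`. -/
def tauOf (h : ℕ) (t : Fin (n - h) → K) : Fin (n - 1) → K := fun i =>
  if hi : h ≤ i.val + 1 then t ⟨i.val + 1 - h, by have := i.isLt; omega⟩ else 0

omit [CompleteSpace K] [IsUltrametricDist K] [CharP K p] in
theorem norm_tauOf_le (h : ℕ) (t : Fin (n - h) → K) : ‖tauOf h t‖ ≤ ‖t‖ := by
  refine (pi_norm_le_iff_of_nonneg (norm_nonneg _)).2 (fun i => ?_)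
  unfold tauOf
  split_ifs
  · exact norm_le_pi_norm t _
  · simp

omit [CompleteSpace K] [IsUltrametricDist K] [CharP K p] in
theorem norm_tauOf_sub_le (h : ℕ) (t t' : Fin (n - h) → K) :
    ‖tauOf h t - tauOf h t'‖ ≤ ‖t - t'‖ := by
  refine (pi_norm_le_iff_of_nonneg (norm_nonneg _)).2 (fun i => ?_)
  simp only [tauOf, Pi.sub_apply]
  split_ifs
  · exact norm_le_pi_norm (t - t') _
  · simp

variable (p n)

/-- The ring map `ev_t : A → K` as a total function of `t`. -/
def evT (ιk : kk p n →+* K) (h : ℕ) (t : Fin (n - h) → K) (a : AA p n) : K :=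
  evFun (iotaW p n ιk) (tauOf h t) a

/-- `ev_t` as a ring map, for `t` in the open polydisc. -/
def evTHom (ιk : kk p n →+* K) (h : ℕ) (t : Fin (n - h) → K) (ht : ‖t‖ < 1) : AA p n →+* K :=
  evHom (iotaW p n ιk) (norm_iotaW_le p n ιk) (tauOf h t) ((norm_tauOf_le h t).trans_lt ht)

variable {p n}

@[simp] theorem evTHom_apply (ιk : kk p n →+* K) (h : ℕ) (t : Fin (n - h) → K) (ht : ‖t‖ < 1)
    (a : AA p n) : evTHom p n ιk h t ht a = evT p n ιk h t a := rfl

theorem norm_evT_le (ιk : kk p n →+* K) (h : ℕ) {t : Fin (n - h) → K} (ht : ‖t‖ < 1)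
    (a : AA p n) : ‖evT p n ιk h t a‖ ≤ 1 :=
  norm_evFun_le (norm_iotaW_le p n ιk) ((norm_tauOf_le h t).trans_lt ht) a

/-- D1: `v(f(t) − f(t')) ≥ v(t − t')`. -/
theorem evT_sub_le (ιk : kk p n →+* K) (h : ℕ) {t t' : Fin (n - h) → K} (ht : ‖t‖ < 1)
    (ht' : ‖t'‖ < 1) (a : AA p n) : ‖evT p n ιk h t a - evT p n ιk h t' a‖ ≤ ‖t - t'‖ :=
  (evFun_sub_le (norm_iotaW_le p n ιk) ((norm_tauOf_le h t).trans_lt ht)
    ((norm_tauOf_le h t').trans_lt ht') a).trans (norm_tauOf_sub_le h t t')

theorem evT_tt (ιk : kk p n →+* K) (h : ℕ) (t : Fin (n - h) → K) (i : Fin (n - 1)) :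
    evT p n ιk h t (tt p n i) = tauOf h t i := evFun_X _ _ _

/-- `ev_t` kills `I_h`. -/
theorem evT_of_mem_II (ιk : kk p n →+* K) {h : ℕ} (h1 : 1 ≤ h) {t : Fin (n - h) → K} (ht : ‖t‖ < 1)
    {a : AA p n} (ha : a ∈ II p n h) : evT p n ιk h t a = 0 := by
  have hh : h ≠ 0 := by omega
  rw [II, if_neg hh] at ha
  have hle : Ideal.span (({(p : AA p n)} : Set (AA p n)) ∪
      {x | ∃ i : Fin (n - 1), i.val + 1 < h ∧ x = tt p n i}) ≤
      RingHom.ker (evTHom p n ιk h t ht) := by
    refine Ideal.span_le.2 (fun x hx => ?_)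
    rcases hx with rfl | ⟨i, hi, rfl⟩
    · show evTHom p n ιk h t ht (p : AA p n) = 0
      rw [map_natCast, CharP.cast_eq_zero]
    · show evTHom p n ιk h t ht (tt p n i) = 0
      rw [evTHom_apply, evT_tt]
      unfold tauOf
      rw [dif_neg (by omega)]
  exact hle ha

/-- On `T_h`, `‖ev_t‖ ≤ ‖t‖`. -/
theorem norm_evT_of_mem_TT (ιk : kk p n →+* K) {h : ℕ} {t : Fin (n - h) → K} (ht : ‖t‖ < 1)
    {a : AA p n} (ha : a ∈ TT p n h) : ‖evT p n ιk h t a‖ ≤ ‖t‖ := by
  unfold TT at ha
  induction ha using Submodule.span_induction with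
  | mem x hx =>
    obtain ⟨i, -, rfl⟩ := hx
    rw [evT_tt]
    exact (norm_le_pi_norm _ i).trans (norm_tauOf_le h t)
  | zero =>
    have := (evTHom p n ιk h t ht).map_zero
    rw [evTHom_apply] at this
    rw [this, norm_zero]
    exact norm_nonneg _
  | add x y _ _ hx hy =>
    have := (evTHom p n ιk h t ht).map_add x y
    simp only [evTHom_apply] at this
    rw [this]
    exact norm_add_le_of_le hx hy
  | smul b x _ hx =>
    have := (evTHom p n ιk h t ht).map_mul b x
    simp only [evTHom_apply] at this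
    rw [smul_eq_mul, this, norm_mul]
    exact (mul_le_of_le_one_left (norm_nonneg _) (norm_evT_le ιk h ht b)).trans hx

/-- On `I_h + T_h`, `‖ev_t‖ ≤ ‖t‖`. -/
theorem norm_evT_of_mem_sup (ιk : kk p n →+* K) {h : ℕ} (h1 : 1 ≤ h) {t : Fin (n - h) → K}
    (ht : ‖t‖ < 1) {a : AA p n} (ha : a ∈ II p n h ⊔ TT p n h) : ‖evT p n ιk h t a‖ ≤ ‖t‖ := by
  obtain ⟨x, hx, y, hy, rfl⟩ := Submodule.mem_sup.1 ha
  have := (evTHom p n ιk h t ht).map_add x y
  simp only [evTHom_apply] at this
  rw [this, evT_of_mem_II ιk h1 ht hx, zero_add]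
  exact norm_evT_of_mem_TT ιk ht hy

/-- D1: on `I_h + T_h^2`, `v(f(t) − f(t')) ≥ v(t − t') + min(eps, eps')`, i.e.
`‖f(t) − f(t')‖ ≤ ‖t − t'‖ * max ‖t‖ ‖t'‖`; also `‖f(t)‖ ≤ ‖t‖²`. -/
theorem evT_sub_of_mem_sq (ιk : kk p n →+* K) {h : ℕ} (h1 : 1 ≤ h) {t t' : Fin (n - h) → K}
    (ht : ‖t‖ < 1) (ht' : ‖t'‖ < 1) {a : AA p n} (ha : a ∈ II p n h ⊔ TT p n h ^ 2) :
    ‖evT p n ιk h t a - evT p n ιk h t' a‖ ≤ ‖t - t'‖ * max ‖t‖ ‖t'‖ := by
  have hM : 0 ≤ ‖t - t'‖ * max ‖t‖ ‖t'‖ := by positivity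
  have hadd := (evTHom p n ιk h t ht).map_add
  have hadd' := (evTHom p n ιk h t' ht').map_add
  have hmul := (evTHom p n ιk h t ht).map_mul
  have hmul' := (evTHom p n ιk h t' ht').map_mul
  simp only [evTHom_apply] at hadd hadd' hmul hmul'
  obtain ⟨x, hx, y, hy, rfl⟩ := Submodule.mem_sup.1 ha
  rw [hadd, hadd', evT_of_mem_II ιk h1 ht hx, evT_of_mem_II ιk h1 ht' hx, zero_add, zero_add]
  rw [pow_two] at hy
  clear ha
  induction hy using Submodule.mul_induction_on' with
  | mem_mul_mem b hb c hc =>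
    rw [hmul, hmul']
    have e : evT p n ιk h t b * evT p n ιk h t c - evT p n ιk h t' b * evT p n ιk h t' c =
        (evT p n ιk h t b - evT p n ιk h t' b) * evT p n ιk h t c +
        evT p n ιk h t' b * (evT p n ιk h t c - evT p n ιk h t' c) := by ring
    rw [e]
    refine norm_add_le_of_le ?_ ?_
    · rw [norm_mul]
      exact mul_le_mul (evT_sub_le ιk h ht ht' b)
        ((norm_evT_of_mem_TT ιk ht hc).trans (le_max_left _ _)) (norm_nonneg _) (norm_nonneg _)
    · rw [norm_mul, mul_comm]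
      exact mul_le_mul (evT_sub_le ιk h ht ht' c)
        ((norm_evT_of_mem_TT ιk ht' hb).trans (le_max_right _ _)) (norm_nonneg _) (norm_nonneg _)
  | add b _ c _ hb hc =>
    rw [hadd, hadd']
    have e : evT p n ιk h t b + evT p n ιk h t c - (evT p n ιk h t' b + evT p n ιk h t' c) =
        (evT p n ιk h t b - evT p n ιk h t' b) + (evT p n ιk h t c - evT p n ιk h t' c) := by ring
    rw [e]
    exact norm_add_le_of_le hb hc

/-- `w_l(t)`, as a total function of `t`. -/
def wFun (ιk : kk p n →+* K) (h l : ℕ) (t : Fin (n - h) → K) : K :=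
  evT p n ιk h t (wwCoeff p n h l)

/-- The input of D1 for the Hazewinkel law. -/
theorem wFamily (ιk : kk p n →+* K) {h : ℕ} (h1 : 1 ≤ h) (hh : h < n) :
    WFamily K (n - h) (p ^ (n - h)) (wFun ιk h) where
  zero t ht := by
    have h0 : wwCoeff p n h 0 = 0 := by
      unfold wwCoeff
      rw [zero_mul, PowerSeries.coeff_zero_eq_constantCoeff_apply]
      exact constantCoeff_mulSeries _ _
    unfold wFun
    rw [h0, ← evTHom_apply ιk h t ht, map_zero]
  small t ht l hl := norm_evT_of_mem_sup ιk h1 ht (wwCoeff_mem p n h l h1 hh hl)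
  lead t ht := by
    have hsub := (evTHom p n ιk h t ht).map_sub (wwCoeff p n h (p ^ (n - h))) 1
    rw [map_one] at hsub
    simp only [evTHom_apply] at hsub
    unfold wFun
    rw [← hsub]
    exact norm_evT_of_mem_sup ιk h1 ht (wwCoeff_top_sub_one_mem p n h h1 hh)
  lip t t' ht ht' l := evT_sub_le ιk h ht ht' _

end Concrete

/-! ### Formal group laws on the open unit ball -/

section BallFG

variable {K : Type*} [NormedField K] [IsUltrametricDist K] [CompleteSpace K]

/-- `a +_G b`. -/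
def gAdd (G : FormalGroup K) (a b : K) : K := Crest.Agent.LT.eval ![a, b] G.toPowerSeries

omit [CompleteSpace K] in
theorem norm_pair (a b : K) : ‖(![a, b] : Fin 2 → K)‖ = max ‖a‖ ‖b‖ := by
  refine le_antisymm ((pi_norm_le_iff_of_nonneg (by positivity)).2 (fun i => ?_))
    (max_le (norm_le_pi_norm ![a, b] 0) (norm_le_pi_norm ![a, b] 1))
  fin_cases i
  · exact le_max_left _ _
  · exact le_max_right _ _

omit [CompleteSpace K] in
theorem norm_pair_lt {a b : K} (ha : ‖a‖ < 1) (hb : ‖b‖ < 1) : ‖(![a, b] : Fin 2 → K)‖ < 1 := by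
  rw [norm_pair]; exact max_lt ha hb

omit [CompleteSpace K] in
theorem pair_sub (a b a' b' : K) : (![a, b] : Fin 2 → K) - ![a', b'] = ![a - a', b - b'] := by
  ext i; fin_cases i <;> rfl

omit [IsUltrametricDist K] [CompleteSpace K] in
theorem psubst_eq (a : MvPowerSeries (Fin 2) K) (f : PowerSeries K) :
    PowerSeries.subst a f = MvPowerSeries.subst (fun _ : Unit => a) f :=
  PowerSeries.subst_def a f

section
variable {G G' : FormalGroup K} {θ ψ : PowerSeries K}

theorem norm_gAdd_le (hG : IsIntS G.toPowerSeries) {a b : K} (ha : ‖a‖ < 1) (hb : ‖b‖ < 1) :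
    ‖gAdd G a b‖ ≤ max ‖a‖ ‖b‖ := by
  rw [← norm_pair]
  exact norm_eval_le_of_cc hG G.zero_constantCoeff (norm_pair_lt ha hb)

theorem norm_gAdd_lt (hG : IsIntS G.toPowerSeries) {a b : K} (ha : ‖a‖ < 1) (hb : ‖b‖ < 1) :
    ‖gAdd G a b‖ < 1 :=
  (norm_gAdd_le hG ha hb).trans_lt (max_lt ha hb)

theorem gAdd_sub_le (hG : IsIntS G.toPowerSeries) {a a' b b' : K} (ha : ‖a‖ < 1) (ha' : ‖a'‖ < 1)
    (hb : ‖b‖ < 1) (hb' : ‖b'‖ < 1) : ‖gAdd G a b - gAdd G a' b'‖ ≤ max ‖a - a'‖ ‖b - b'‖ := by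
  rw [← norm_pair, ← pair_sub]
  exact eval_sub_eval_le hG (norm_pair_lt ha hb) (norm_pair_lt ha' hb')

/-- Evaluating `G(s0, s1)` at a point. -/
theorem eval_fgSubst {τ : Type*} [Fintype τ] (hG : IsIntS G.toPowerSeries)
    {s : Fin 2 → MvPowerSeries τ K} (h0 : ∀ i, MvPowerSeries.constantCoeff (s i) = 0)
    (hi : ∀ i, IsIntS (s i)) {x : τ → K} (hx : ‖x‖ < 1) :
    Crest.Agent.LT.eval x (MvPowerSeries.subst s G.toPowerSeries) =
      gAdd G (Crest.Agent.LT.eval x (s 0)) (Crest.Agent.LT.eval x (s 1)) := by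
  rw [eval_subst h0 hi hG hx]
  unfold gAdd
  congr 1
  ext i
  fin_cases i <;> rfl

theorem isIntS_psubst {τ : Type*} [Fintype τ] {u : MvPowerSeries τ K} (hu0 : MvPowerSeries.constantCoeff u = 0)
    (hu : IsIntS u) (hθ : IsIntS θ) : IsIntS (PowerSeries.subst u θ) := by
  rw [PowerSeries.subst_def]
  exact IsIntS.subst (MvPowerSeries.hasSubst_of_constantCoeff_zero (fun _ => hu0)) (fun _ => hu) hθ

/-- Evaluating `θ(u)` at a point. -/
theorem eval_psubst {τ : Type*} [Fintype τ] {u : MvPowerSeries τ K}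
    (hu0 : MvPowerSeries.constantCoeff u = 0) (hu : IsIntS u) (hθ : IsIntS θ) {x : τ → K}
    (hx : ‖x‖ < 1) :
    Crest.Agent.LT.eval x (PowerSeries.subst u θ) = evalP θ (Crest.Agent.LT.eval x u) := by
  rw [PowerSeries.subst_def, eval_subst (fun _ => hu0) (fun _ => hu) hθ hx]
  rfl

/-- `θ ∘ ψ` on values. -/
theorem evalP_comp (hψ0 : PowerSeries.constantCoeff ψ = 0) (hψ : IsIntS ψ) (hθ : IsIntS θ) {a : K}
    (ha : ‖a‖ < 1) : evalP (PowerSeries.subst ψ θ) a = evalP θ (evalP ψ a) :=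
  eval_psubst hψ0 hψ hθ (by rw [norm_singleton_eq]; exact ha)

theorem norm_evalP_le_one (hθ : IsIntS θ) {a : K} (ha : ‖a‖ < 1) : ‖evalP θ a‖ ≤ 1 :=
  norm_eval_le_one hθ (by rw [norm_singleton_eq]; exact ha)

theorem norm_evalP_le (hθ0 : PowerSeries.constantCoeff θ = 0) (hθ : IsIntS θ) {a : K}
    (ha : ‖a‖ < 1) : ‖evalP θ a‖ ≤ ‖a‖ := by
  have := norm_eval_le_of_cc hθ hθ0 (x := fun _ : Unit => a) (by rw [norm_singleton_eq]; exact ha)
  rwa [norm_singleton_eq] at this

theorem norm_evalP_lt (hθ0 : PowerSeries.constantCoeff θ = 0) (hθ : IsIntS θ) {a : K}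
    (ha : ‖a‖ < 1) : ‖evalP θ a‖ < 1 := (norm_evalP_le hθ0 hθ ha).trans_lt ha

theorem evalP_sub_le (hθ : IsIntS θ) {a b : K} (ha : ‖a‖ < 1) (hb : ‖b‖ < 1) :
    ‖evalP θ a - evalP θ b‖ ≤ ‖a - b‖ := by
  have := eval_sub_eval_le hθ (x := fun _ : Unit => a) (y := fun _ : Unit => b)
    (by rw [norm_singleton_eq]; exact ha) (by rw [norm_singleton_eq]; exact hb)
  have e : (fun _ : Unit => a) - (fun _ : Unit => b) = fun _ : Unit => a - b := rfl
  rwa [e, norm_singleton_eq] at this

theorem evalP_X (a : K) : evalP (PowerSeries.X : PowerSeries K) a = a :=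
  eval_X (σ := Unit) (fun _ : Unit => a) ()

theorem eval_X0 (a b : K) :
    Crest.Agent.LT.eval ![a, b] (MvPowerSeries.X 0 : MvPowerSeries (Fin 2) K) = a :=
  eval_X _ 0

theorem eval_X1 (a b : K) :
    Crest.Agent.LT.eval ![a, b] (MvPowerSeries.X 1 : MvPowerSeries (Fin 2) K) = b :=
  eval_X _ 1

/-- A homomorphism of laws is a homomorphism of the ball. -/
theorem evalP_hom (hG : IsIntS G.toPowerSeries) (hG' : IsIntS G'.toPowerSeries) (hθ : IsIntS θ)
    (hhom : IsFGHom G G' θ) {a b : K} (ha : ‖a‖ < 1) (hb : ‖b‖ < 1) :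
    evalP θ (gAdd G a b) = gAdd G' (evalP θ a) (evalP θ b) := by
  have hx := norm_pair_lt ha hb
  have hX : ∀ i : Fin 2, MvPowerSeries.constantCoeff (MvPowerSeries.X i : MvPowerSeries (Fin 2) K) = 0 :=
    fun i => MvPowerSeries.constantCoeff_X i
  have h1 := congrArg (Crest.Agent.LT.eval ![a, b]) hhom.2
  rw [eval_psubst G.zero_constantCoeff hG hθ hx] at h1
  have hs0 : ∀ i : Fin 2, MvPowerSeries.constantCoeff
      ((![PowerSeries.subst (MvPowerSeries.X 0 : MvPowerSeries (Fin 2) K) θ,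
        PowerSeries.subst (MvPowerSeries.X 1 : MvPowerSeries (Fin 2) K) θ] : Fin 2 → _) i) = 0 := by
    intro i
    fin_cases i
    · exact PowerSeries.constantCoeff_subst_eq_zero (hX 0) θ hhom.1
    · exact PowerSeries.constantCoeff_subst_eq_zero (hX 1) θ hhom.1
  have hsi : ∀ i : Fin 2, IsIntS
      ((![PowerSeries.subst (MvPowerSeries.X 0 : MvPowerSeries (Fin 2) K) θ,
        PowerSeries.subst (MvPowerSeries.X 1 : MvPowerSeries (Fin 2) K) θ] : Fin 2 → _) i) := by
    intro i
    fin_cases i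
    · exact isIntS_psubst (hX 0) (IsIntS.X 0) hθ
    · exact isIntS_psubst (hX 1) (IsIntS.X 1) hθ
  rw [eval_fgSubst hG' hs0 hsi hx] at h1
  have h2 : Crest.Agent.LT.eval ![a, b] (PowerSeries.subst (MvPowerSeries.X 0 : MvPowerSeries (Fin 2) K) θ) = evalP θ a := by
    rw [eval_psubst (hX 0) (IsIntS.X 0) hθ hx, eval_X0]
  have h3 : Crest.Agent.LT.eval ![a, b] (PowerSeries.subst (MvPowerSeries.X 1 : MvPowerSeries (Fin 2) K) θ) = evalP θ b := by
    rw [eval_psubst (hX 1) (IsIntS.X 1) hθ hx, eval_X1]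
  simp only [Matrix.cons_val_zero, Matrix.cons_val_one] at h1
  rw [h2, h3] at h1
  exact h1

/-- Associativity on the ball. -/
theorem gAdd_assoc (hG : IsIntS G.toPowerSeries) {a b c : K} (ha : ‖a‖ < 1) (hb : ‖b‖ < 1)
    (hc : ‖c‖ < 1) : gAdd G (gAdd G a b) c = gAdd G a (gAdd G b c) := by
  have hH : ∀ i : Fin 3, PowerSeries.HasSubst (MvPowerSeries.X i : MvPowerSeries (Fin 3) K) :=
    fun i => PowerSeries.HasSubst.X i
  have hX : ∀ i : Fin 3, MvPowerSeries.constantCoeff (MvPowerSeries.X i : MvPowerSeries (Fin 3) K) = 0 :=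
    fun i => MvPowerSeries.constantCoeff_X i
  have h := G.assoc' (hH 0) (hH 1) (hH 2)
  set x : Fin 3 → K := ![a, b, c] with hxdef
  have hx : ‖x‖ < 1 := by
    rw [pi_norm_lt_iff one_pos]
    intro i
    fin_cases i
    · exact ha
    · exact hb
    · exact hc
  have hX0 : Crest.Agent.LT.eval x (MvPowerSeries.X 0 : MvPowerSeries (Fin 3) K) = a := eval_X _ 0
  have hX1 : Crest.Agent.LT.eval x (MvPowerSeries.X 1 : MvPowerSeries (Fin 3) K) = b := eval_X _ 1
  have hX2 : Crest.Agent.LT.eval x (MvPowerSeries.X 2 : MvPowerSeries (Fin 3) K) = c := eval_X _ 2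
  have hpair : ∀ i j : Fin 3, MvPowerSeries.subst ![(MvPowerSeries.X i : MvPowerSeries (Fin 3) K),
      MvPowerSeries.X j] G.toPowerSeries = MvPowerSeries.subst ![(MvPowerSeries.X i : MvPowerSeries (Fin 3) K),
      MvPowerSeries.X j] G.toPowerSeries := fun _ _ => rfl
  have hS : ∀ i j : Fin 3, MvPowerSeries.constantCoeff (MvPowerSeries.subst
      ![(MvPowerSeries.X i : MvPowerSeries (Fin 3) K), MvPowerSeries.X j] G.toPowerSeries) = 0 := by
    intro i j
    refine MvPowerSeries.constantCoeff_subst_eq_zero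
      (MvPowerSeries.hasSubst_of_constantCoeff_zero ?_) ?_ G.zero_constantCoeff
    all_goals
      intro s
      fin_cases s
      · exact hX i
      · exact hX j
  have hSi : ∀ i j : Fin 3, IsIntS (MvPowerSeries.subst
      ![(MvPowerSeries.X i : MvPowerSeries (Fin 3) K), MvPowerSeries.X j] G.toPowerSeries) := by
    intro i j
    refine IsIntS.subst (MvPowerSeries.hasSubst_of_constantCoeff_zero ?_) ?_ hG
    · intro s
      fin_cases s
      · exact hX i
      · exact hX j
    · intro s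
      fin_cases s
      · exact IsIntS.X i
      · exact IsIntS.X j
  have hval : ∀ i j : Fin 3, Crest.Agent.LT.eval x (MvPowerSeries.subst
      ![(MvPowerSeries.X i : MvPowerSeries (Fin 3) K), MvPowerSeries.X j] G.toPowerSeries) =
      gAdd G (x i) (x j) := by
    intro i j
    rw [eval_fgSubst hG (s := ![(MvPowerSeries.X i : MvPowerSeries (Fin 3) K), MvPowerSeries.X j])
      ?_ ?_ hx]
    · simp only [Matrix.cons_val_zero, Matrix.cons_val_one, eval_X]
    · intro s
      fin_cases s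
      · exact hX i
      · exact hX j
    · intro s
      fin_cases s
      · exact IsIntS.X i
      · exact IsIntS.X j
  have h1 := congrArg (Crest.Agent.LT.eval x) h
  rw [eval_fgSubst hG (s := ![MvPowerSeries.subst ![(MvPowerSeries.X 0 : MvPowerSeries (Fin 3) K), MvPowerSeries.X 1] G.toPowerSeries, MvPowerSeries.X 2])
      ?_ ?_ hx,
    eval_fgSubst hG (s := ![(MvPowerSeries.X 0 : MvPowerSeries (Fin 3) K), MvPowerSeries.subst ![(MvPowerSeries.X 1 : MvPowerSeries (Fin 3) K), MvPowerSeries.X 2] G.toPowerSeries])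
      ?_ ?_ hx] at h1
  · simp only [Matrix.cons_val_zero, Matrix.cons_val_one] at h1
    rw [hval, hX2, hval, hX0] at h1
    exact h1
  · intro s
    fin_cases s
    · exact hX 0
    · exact hS 1 2
  · intro s
    fin_cases s
    · exact IsIntS.X 0
    · exact hSi 1 2
  · intro s
    fin_cases s
    · exact hS 0 1
    · exact hX 2
  · intro s
    fin_cases s
    · exact hSi 0 1
    · exact IsIntS.X 2

/-- Commutativity on the ball. -/
theorem gAdd_comm [G.IsComm] (hG : IsIntS G.toPowerSeries) {a b : K} (ha : ‖a‖ < 1)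
    (hb : ‖b‖ < 1) : gAdd G a b = gAdd G b a := by
  have hH : ∀ i : Fin 2, PowerSeries.HasSubst (MvPowerSeries.X i : MvPowerSeries (Fin 2) K) :=
    fun i => PowerSeries.HasSubst.X i
  have hX : ∀ i : Fin 2, MvPowerSeries.constantCoeff (MvPowerSeries.X i : MvPowerSeries (Fin 2) K) = 0 :=
    fun i => MvPowerSeries.constantCoeff_X i
  have h := G.comm' (hH 0) (hH 1)
  have hx := norm_pair_lt ha hb
  have h1 := congrArg (Crest.Agent.LT.eval ![a, b]) h
  rw [eval_fgSubst hG (s := ![(MvPowerSeries.X 0 : MvPowerSeries (Fin 2) K), MvPowerSeries.X 1])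
      ?_ ?_ hx,
    eval_fgSubst hG (s := ![(MvPowerSeries.X 1 : MvPowerSeries (Fin 2) K), MvPowerSeries.X 0])
      ?_ ?_ hx] at h1
  · simpa only [Matrix.cons_val_zero, Matrix.cons_val_one, eval_X0, eval_X1] using h1
  · intro s
    fin_cases s
    · exact hX 1
    · exact hX 0
  · intro s
    fin_cases s
    · exact IsIntS.X 1
    · exact IsIntS.X 0
  · intro s
    fin_cases s
    · exact hX 0
    · exact hX 1
  · intro s
    fin_cases s
    · exact IsIntS.X 0
    · exact IsIntS.X 1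

/-- `a +_G 0 = a`. -/
theorem gAdd_zero (hG : IsIntS G.toPowerSeries) {a : K} (ha : ‖a‖ < 1) : gAdd G a 0 = a := by
  have hXU : MvPowerSeries.constantCoeff (PowerSeries.X : PowerSeries K) = 0 :=
    MvPowerSeries.constantCoeff_X ()
  have h := FormalGroup.add_zero G (f := (PowerSeries.X : PowerSeries K)) PowerSeries.HasSubst.X'
  have hx : ‖(fun _ : Unit => a)‖ < 1 := by rw [norm_singleton_eq]; exact ha
  have h1 := congrArg (Crest.Agent.LT.eval (fun _ : Unit => a)) h
  rw [eval_fgSubst hG (s := ![(PowerSeries.X : PowerSeries K), 0]) ?_ ?_ hx] at h1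
  · have h2 : Crest.Agent.LT.eval (fun _ : Unit => a) (PowerSeries.X : PowerSeries K) = a :=
      evalP_X a
    have h3 : Crest.Agent.LT.eval (fun _ : Unit => a) (0 : PowerSeries K) = 0 := by
      rw [← map_zero (MvPowerSeries.C (R := K)), eval_C]
    simpa only [Matrix.cons_val_zero, Matrix.cons_val_one, h2, h3] using h1
  · intro s
    fin_cases s
    · exact hXU
    · simp
  · intro s
    fin_cases s
    · exact IsIntS.X ()
    · exact IsIntS.zero

/-- `0 +_G a = a`. -/
theorem zero_gAdd (hG : IsIntS G.toPowerSeries) {a : K} (ha : ‖a‖ < 1) : gAdd G 0 a = a := by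
  have hXU : MvPowerSeries.constantCoeff (PowerSeries.X : PowerSeries K) = 0 :=
    MvPowerSeries.constantCoeff_X ()
  have h := FormalGroup.zero_add G (f := (PowerSeries.X : PowerSeries K)) PowerSeries.HasSubst.X'
  have hx : ‖(fun _ : Unit => a)‖ < 1 := by rw [norm_singleton_eq]; exact ha
  have h1 := congrArg (Crest.Agent.LT.eval (fun _ : Unit => a)) h
  rw [eval_fgSubst hG (s := ![0, (PowerSeries.X : PowerSeries K)]) ?_ ?_ hx] at h1
  · have h2 : Crest.Agent.LT.eval (fun _ : Unit => a) (PowerSeries.X : PowerSeries K) = a :=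
      evalP_X a
    have h3 : Crest.Agent.LT.eval (fun _ : Unit => a) (0 : PowerSeries K) = 0 := by
      rw [← map_zero (MvPowerSeries.C (R := K)), eval_C]
    simpa only [Matrix.cons_val_zero, Matrix.cons_val_one, h2, h3] using h1
  · intro s
    fin_cases s
    · simp
    · exact hXU
  · intro s
    fin_cases s
    · exact IsIntS.zero
    · exact IsIntS.X ()

/-- `a +_G (-_G a) = 0`, with `-_G` the value of the formal inverse. -/
theorem gAdd_neg (hG : IsIntS G.toPowerSeries)
    (hneg : IsIntS (Crest.Agent.LubinTate.fgNeg G)) {a : K} (ha : ‖a‖ < 1) :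
    gAdd G a (evalP (Crest.Agent.LubinTate.fgNeg G) a) = 0 := by
  have hXU : MvPowerSeries.constantCoeff (PowerSeries.X : PowerSeries K) = 0 :=
    MvPowerSeries.constantCoeff_X ()
  have h := Crest.Agent.LubinTate.fgAdd_X_fgNeg G
  have hx : ‖(fun _ : Unit => a)‖ < 1 := by rw [norm_singleton_eq]; exact ha
  have h1 := congrArg (Crest.Agent.LT.eval (fun _ : Unit => a)) h
  unfold Crest.Agent.LubinTate.fgAdd at h1
  rw [eval_fgSubst hG (s := ![(PowerSeries.X : PowerSeries K), Crest.Agent.LubinTate.fgNeg G])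
    ?_ ?_ hx] at h1
  · have h2 : Crest.Agent.LT.eval (fun _ : Unit => a) (PowerSeries.X : PowerSeries K) = a :=
      evalP_X a
    have h3 : Crest.Agent.LT.eval (fun _ : Unit => a) (0 : PowerSeries K) = 0 := by
      rw [← map_zero (MvPowerSeries.C (R := K)), eval_C]
    simp only [Matrix.cons_val_zero, Matrix.cons_val_one, h2, h3] at h1
    exact h1
  · intro s
    fin_cases s
    · exact hXU
    · exact Crest.Agent.LubinTate.constantCoeff_fgNeg G
  · intro s
    fin_cases s
    · exact IsIntS.X ()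
    · exact hneg

end

end BallFG

/-! ### The laws of the Hazewinkel family -/

section Laws

variable (p : ℕ) [Fact p.Prime] (n : ℕ) [NeZero n]
variable {K : Type*} [NormedField K] [IsUltrametricDist K] [CompleteSpace K] [CharP K p]
variable [PerfectRing K p]

variable {p n}

/-- The law `H_t` over `K` (a total function of `t`). -/
def lawH (ιk : kk p n →+* K) (h : ℕ) (t : Fin (n - h) → K) : MvPowerSeries (Fin 2) K :=
  fun e => evT p n ιk h t (coeff e (hazF p n).toPowerSeries)

/-- `H_t` as a formal group law over `K`. -/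
def HtK (ιk : kk p n →+* K) (h : ℕ) (t : Fin (n - h) → K) (ht : ‖t‖ < 1) : FormalGroup K :=
  (hazF p n).map (evTHom p n ιk h t ht)

theorem HtK_toPowerSeries (ιk : kk p n →+* K) (h : ℕ) (t : Fin (n - h) → K) (ht : ‖t‖ < 1) :
    (HtK ιk h t ht).toPowerSeries = lawH ιk h t := by
  ext e
  show coeff e (MvPowerSeries.map (evTHom p n ιk h t ht) (hazF p n).toPowerSeries) = _
  rw [coeff_map]
  rfl

theorem coeff_lawH (ιk : kk p n →+* K) (h : ℕ) (t : Fin (n - h) → K) (e : Fin 2 →₀ ℕ) :
    coeff e (lawH ιk h t) = evT p n ιk h t (coeff e (hazF p n).toPowerSeries) := rfl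

theorem isIntS_lawH (ιk : kk p n →+* K) (h : ℕ) {t : Fin (n - h) → K} (ht : ‖t‖ < 1) :
    IsIntS (lawH ιk h t) := fun e => by
  rw [coeff_lawH]
  exact norm_evT_le ιk h ht _

/-- `Γ₀` over `K`. -/
def G0K (ιk : kk p n →+* K) : FormalGroup K := (Gamma0 p n).map ιk

theorem isIntS_G0K (ιk : kk p n →+* K) : IsIntS (G0K ιk).toPowerSeries := fun e => by
  show ‖coeff e (MvPowerSeries.map ιk (Gamma0 p n).toPowerSeries)‖ ≤ 1
  rw [coeff_map]
  exact norm_iotaK_le p n ιk _

/-- `a +_{H_t} b` (total function of `t`). -/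
def addHt (ιk : kk p n →+* K) (h : ℕ) (t : Fin (n - h) → K) (a b : K) : K :=
  Crest.Agent.LT.eval ![a, b] (lawH ιk h t)

theorem addHt_eq (ιk : kk p n →+* K) (h : ℕ) (t : Fin (n - h) → K) (ht : ‖t‖ < 1) (a b : K) :
    addHt ιk h t a b = gAdd (HtK ιk h t ht) a b := by
  unfold addHt gAdd
  rw [HtK_toPowerSeries]

/-- `a +_{Γ₀} b`. -/
def add0K (ιk : kk p n →+* K) (a b : K) : K := gAdd (G0K ιk) a b

/-- `[p]_t` is the value of the `p`-series of `H_t`. -/
theorem pMap_eq_evalP (ιk : kk p n →+* K) {h : ℕ} (h1 : 1 ≤ h) (hh : h < n) {t : Fin (n - h) → K}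
    (ht : ‖t‖ < 1) (A : K) :
    pMap (wFun ιk h) p h t A = evalP (mulSeries (HtK ιk h t ht) p) A := by
  have hinj : Function.Injective (fun l : ℕ => l * p ^ h) := by
    intro a b hab
    exact Nat.eq_of_mul_eq_mul_right (pow_pos (Fact.out : p.Prime).pos h) hab
  rw [evalP_eq_tsum]
  unfold pMap wSeries wEval
  have hsupp : Function.support (fun m : ℕ => PowerSeries.coeff m (mulSeries (HtK ιk h t ht) p) * A ^ m)
      ⊆ Set.range (fun l : ℕ => l * p ^ h) := by
    intro m hm
    by_contra hcon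
    have hnd : ¬ p ^ h ∣ m := by
      rintro ⟨l, rfl⟩
      exact hcon ⟨l, mul_comm _ _⟩
    apply hm
    show PowerSeries.coeff m (mulSeries (HtK ιk h t ht) p) * A ^ m = 0
    unfold HtK
    rw [← map_mulSeries, PowerSeries.coeff_map, evTHom_apply,
      evT_of_mem_II ιk h1 ht (coeff_pSeries_mem_II p n h m hh.le hnd), zero_mul]
  have e := hinj.tsum_eq hsupp
  rw [← e]
  refine tsum_congr fun l => ?_
  show _ = PowerSeries.coeff (l * p ^ h) (mulSeries (HtK ιk h t ht) p) * A ^ (l * p ^ h)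
  unfold HtK
  rw [← map_mulSeries, PowerSeries.coeff_map, pow_mul']
  rfl

theorem isIntS_mulSeriesHt (ιk : kk p n →+* K) {h : ℕ} {t : Fin (n - h) → K} (ht : ‖t‖ < 1)
    (m : ℕ) : IsIntS (mulSeries (HtK ιk h t ht) m) := by
  have e : mulSeries (HtK ιk h t ht) m =
      MvPowerSeries.map (evTHom p n ιk h t ht) (mulSeries (hazF p n) m) :=
    (map_mulSeries _ _ m).symm
  rw [e]
  exact isIntS_map (fun a => norm_evT_le ιk h ht a) _

theorem isFGHom_pHt (ιk : kk p n →+* K) {h : ℕ} {t : Fin (n - h) → K} (ht : ‖t‖ < 1) :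
    IsFGHom (HtK ιk h t ht) (HtK ιk h t ht) (mulSeries (HtK ιk h t ht) p) := by
  haveI : (HtK ιk h t ht).IsComm := isComm_map _ _
  exact isFGHom_mulSeries _ p

omit [Fact p.Prime] [NeZero n] in
theorem pow_pow_of_pow_eq {R : Type*} [Monoid R] {x : R} {p : ℕ} (h : x ^ p = x) (m : ℕ) :
    x ^ p ^ m = x := by
  induction m with
  | zero => simp
  | succ m ih => rw [pow_succ', pow_mul, h, ih]

/-- The input of D2(b) for the Hazewinkel law. -/
theorem lawFamily (ιk : kk p n →+* K) {h : ℕ} (h1 : 1 ≤ h) (hh : h < n) :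
    LawFamily (wFun ιk h) p h n (add0K ιk) (addHt ιk h) where
  add0_mem a b ha hb := norm_gAdd_lt (isIntS_G0K ιk) ha hb
  frob a b ha hb := by
    unfold add0K gAdd
    have hI := isIntS_G0K ιk
    have hx := norm_pair_lt ha hb
    rw [eval_def, eval_def]
    have hc : Continuous (iterateFrobenius K p n) := by
      have : (iterateFrobenius K p n : K → K) = fun x => x ^ p ^ n := by
        funext x
        exact iterateFrobenius_def p n x
      rw [this]
      exact continuous_pow _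
    have h2 := (eval_summable hI hx).map_tsum (iterateFrobenius K p n) hc
    rw [iterateFrobenius_def] at h2
    rw [h2]
    refine tsum_congr fun e => ?_
    rw [iterateFrobenius_def, mul_pow]
    congr 1
    · show (coeff e (MvPowerSeries.map ιk (Gamma0 p n).toPowerSeries)) ^ p ^ n =
        coeff e (MvPowerSeries.map ιk (Gamma0 p n).toPowerSeries)
      rw [coeff_map, ← map_pow]
      congr 1
      exact pow_pow_of_pow_eq (Gamma0_coeff_frob p n e) n
    · have h3 := map_monoB (powMonoidHom (α := K) (p ^ n)) ![a, b] e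
      simp only [powMonoidHom_apply] at h3
      rw [h3]
      congr 1
      funext i
      fin_cases i <;> rfl
  addH_mem t ht a b ha hb := by
    rw [addHt_eq ιk h t ht]
    exact norm_gAdd_lt (by rw [HtK_toPowerSeries]; exact isIntS_lawH ιk h ht) ha hb
  addH_lip t ht a a' b b' ha ha' hb hb' := by
    rw [addHt_eq ιk h t ht, addHt_eq ιk h t ht]
    exact gAdd_sub_le (by rw [HtK_toPowerSeries]; exact isIntS_lawH ιk h ht) ha ha' hb hb'
  close t ht a b ha hb := by
    unfold addHt add0K gAdd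
    refine eval_sub_eval_coeff_le (isIntS_lawH ιk h ht) (isIntS_G0K ιk) (norm_pair_lt ha hb)
      (norm_nonneg _) (fun e => ?_)
    have h0 : coeff e (G0K ιk).toPowerSeries =
        evFun (iotaW p n ιk) (0 : Fin (n - 1) → K) (coeff e (hazF p n).toPowerSeries) := by
      rw [evFun_zero]
      show coeff e (MvPowerSeries.map ιk (MvPowerSeries.map (LTRing.residue p n)
        (hazF p n).toPowerSeries)) = _
      rw [coeff_map, coeff_map]
      rfl
    rw [h0, coeff_lawH]
    have h2 := evFun_sub_le (norm_iotaW_le p n ιk) (τ := tauOf h t) (τ' := 0)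
      ((norm_tauOf_le h t).trans_lt ht) (by simp) (coeff e (hazF p n).toPowerSeries)
    rw [sub_zero] at h2
    exact h2.trans (norm_tauOf_le h t)
  hom t ht a b ha hb := by
    rw [addHt_eq ιk h t ht, addHt_eq ιk h t ht, pMap_eq_evalP ιk h1 hh ht, pMap_eq_evalP ιk h1 hh ht,
      pMap_eq_evalP ιk h1 hh ht]
    have hI : IsIntS (HtK ιk h t ht).toPowerSeries := by
      rw [HtK_toPowerSeries]; exact isIntS_lawH ιk h ht
    exact evalP_hom hI hI (isIntS_mulSeriesHt ιk ht p) (isFGHom_pHt ιk ht) ha hb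

instance G0K_isComm (ιk : kk p n →+* K) : (G0K ιk).IsComm := isComm_map _ _

instance HtK_isComm (ιk : kk p n →+* K) (h : ℕ) (t : Fin (n - h) → K) (ht : ‖t‖ < 1) :
    (HtK ιk h t ht).IsComm := isComm_map _ _

theorem isIntS_HtK (ιk : kk p n →+* K) {h : ℕ} {t : Fin (n - h) → K} (ht : ‖t‖ < 1) :
    IsIntS (HtK ιk h t ht).toPowerSeries := by
  rw [HtK_toPowerSeries]; exact isIntS_lawH ιk h ht

theorem isIntS_fgNeg_G0K (ιk : kk p n →+* K) :
    IsIntS (Crest.Agent.LubinTate.fgNeg (G0K ιk)) := by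
  unfold G0K
  rw [← Crest.Agent.LubinTate.map_fgNeg]
  exact isIntS_map (norm_iotaK_le p n ιk) _

theorem isIntS_fgNeg_HtK (ιk : kk p n →+* K) {h : ℕ} {t : Fin (n - h) → K} (ht : ‖t‖ < 1) :
    IsIntS (Crest.Agent.LubinTate.fgNeg (HtK ιk h t ht)) := by
  unfold HtK
  rw [← Crest.Agent.LubinTate.map_fgNeg]
  exact isIntS_map (fun a => norm_evT_le ιk h ht a) _

/-- `[p]_t` on values preserves `+_{H_t}` (restatement). `pMap_addHt`. -/
theorem pMap_addHt (ιk : kk p n →+* K) {h : ℕ} (h1 : 1 ≤ h) (hh : h < n) {t : Fin (n - h) → K}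
    (ht : ‖t‖ < 1) {a b : K} (ha : ‖a‖ < 1) (hb : ‖b‖ < 1) :
    pMap (wFun ιk h) p h t (addHt ιk h t a b) =
      addHt ιk h t (pMap (wFun ιk h) p h t a) (pMap (wFun ιk h) p h t b) :=
  (lawFamily ιk h1 hh).hom t ht a b ha hb

end Laws

end

end Crest.Agent.LT
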