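/-
S0351 (row 227), module E-c-Step: one step of the chain (blueprint E5).
The definitions of the stage objects; `chain_step`.
-/
import Crest.Agent.Lib.LubinTate.Tate
import Crest.Agent.Lib.LubinTate.ChainGeom
import Crest.Agent.Lib.LubinTate.HazAPI
import Crest.Agent.Lib.LubinTate.ChainStepGen
import Crest.Agent.Lib.LubinTate.LatEval

set_option autoImplicit false
set_option linter.unusedSectionVars false

namespace Crest.Agent.LT

open MvPowerSeries Crest.LubinTate

noncomputable section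

variable {p n N : ℕ} {K : Type*} [NontriviallyNormedField K] [IsUltrametricDist K]
  [CompleteSpace K]

/-- Integral series (same as `IsIntS`). -/
abbrev Integral (T : MvPowerSeries (Fin N) K) : Prop := IsIntS T

/-- The linear forms `L_j : ξ ↦ ∑_u ξ_u x_{sl j u, j}`. -/
def stageL (D : Geom.Data p n N K) (j : ℕ) : Fin N → MvPowerSeries (Fin N) K :=
  fun i => ∑ u, MvPowerSeries.C (D.x (Geom.sl N j u) j i) * MvPowerSeries.X u

/-- The radii `r_j`. -/
def stageR (D : Geom.Data p n N K) (j : ℕ) : Fin N → ℝ :=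
  fun u => Real.exp (D.tau (Geom.sl N j u) j)

/-- The weights at stage `j`. -/
def stageW (D : Geom.Data p n N K) (j : ℕ) : Fin N → ℝ :=
  fun u => D.w (Geom.sl N j u)

/-- `P_j = T ∘ L_j`. -/
def stageP (D : Geom.Data p n N K) (j : ℕ) (T : MvPowerSeries (Fin N) K) :
    MvPowerSeries (Fin N) K := comp T (stageL D j)

/-- `Z_j = -log ‖P_j‖_{r_j}`. -/
def ZZ (D : Geom.Data p n N K) (j : ℕ) (T : MvPowerSeries (Fin N) K) : ℝ :=
  Zv (stageR D j) (stageP D j T)

/-- `L_j^pot = max {w·e : e ∈ E(P_j, r_j)}` (the `sSup` of a finite set if `P_j ≠ 0`). -/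
def Lpot (D : Geom.Data p n N K) (j : ℕ) (T : MvPowerSeries (Fin N) K) : ℝ :=
  sSup (wdot (stageW D j) '' E (stageR D j) (stageP D j T))

/-- The radii of the `x`-coordinates. -/
def boxR (D : Geom.Data p n N K) (j : ℕ) : Fin N → ℝ :=
  fun i => Real.exp (-((p : ℝ) ^ j * D.ρ i))

/-- The radii `r'`: coordinates of stage `j+1`, radii of stage `j`. -/
def stageR' (D : Geom.Data p n N K) (j : ℕ) : Fin N → ℝ :=
  fun u => Real.exp (D.tau (Geom.sl N (j + 1) u) j)

lemma stageR_pos (D : Geom.Data p n N K) (j : ℕ) : ∀ u, 0 < stageR D j u := fun _ => Real.exp_pos _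

lemma stageR'_pos (D : Geom.Data p n N K) (j : ℕ) : ∀ u, 0 < stageR' D j u :=
  fun _ => Real.exp_pos _

lemma boxR_pos (D : Geom.Data p n N K) (j : ℕ) : ∀ u, 0 < boxR D j u := fun _ => Real.exp_pos _

variable [Fact p.Prime] [NeZero n]

lemma boxR_lt_one (D : Geom.Data p n N K) (j : ℕ) (i : Fin N) : boxR D j i < 1 := by
  have hp : (0 : ℝ) < (p : ℝ) := by exact_mod_cast (Fact.out : p.Prime).pos
  have := D.ρ_pos i
  unfold boxR
  rw [Real.exp_lt_one_iff]
  have : 0 < (p : ℝ) ^ j * D.ρ i := by positivity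
  linarith

lemma w_nonneg (D : Geom.Data p n N K) (s : ℕ) : 0 ≤ D.w s := by
  have hp1 : (1 : ℝ) ≤ (p : ℝ) := by exact_mod_cast (Fact.out : p.Prime).one_lt.le
  have hθ := D.θ_pos
  have h1 := D.one_sub_θN_pos
  have h2 : 0 ≤ Geom.AA p D.ρ := Geom.AA_nonneg D.ρ_pos
  have h3 : 0 < 1 - D.θ := by linarith [D.θ_lt]
  unfold Geom.Data.w Geom.Data.kappa
  have h4 : 0 ≤ (p : ℝ) - 1 := by linarith
  positivity

lemma stageW_nonneg (D : Geom.Data p n N K) (j : ℕ) : ∀ u, 0 ≤ stageW D j u := fun _ => w_nonneg D _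

lemma S_pos (D : Geom.Data p n N K) (j : ℕ) : 0 < D.S j := pow_pos D.θ_pos _

lemma sigma_nonneg (D : Geom.Data p n N K) (j : ℕ) : 0 ≤ D.sigma j := by
  have h3 : 0 < 1 - D.θ := by linarith [D.θ_lt]
  have := D.θ_pos
  unfold Geom.Data.sigma
  positivity

/-- `T_{j+1} = T_j[a d_j] : x ↦ T_j (a d_j +_Γ x)`. -/
def shiftBy (D : Geom.Data p n N K) (ι : kk p n →+* K) (a : kk p n) (j : ℕ)
    (T : MvPowerSeries (Fin N) K) : MvPowerSeries (Fin N) K :=
  comp T fun i => comp ((Gamma0 p n).map ι).toPowerSeries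
    ![MvPowerSeries.C (ι a * D.d j i), MvPowerSeries.X i]

variable [CharP K p]

lemma isSubst_stageL (D : Geom.Data p n N K) {j : ℕ} (hj : N ≤ j) :
    IsSubst (boxR D j) (stageR D j) (stageL D j) := by
  refine isSubst_linear (stageR_pos D j) (fun i => (boxR_pos D j i).le) fun i u => ?_
  obtain ⟨h1, h2⟩ := Geom.sl_window hj u
  have h3 := D.box h1 h2 i
  unfold stageR boxR
  calc ‖D.x (Geom.sl N j u) j i‖ * Real.exp (D.tau (Geom.sl N j u) j)
      ≤ Real.exp (-(D.tau (Geom.sl N j u) j + (p : ℝ) ^ j * D.ρ i))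
          * Real.exp (D.tau (Geom.sl N j u) j) := by gcongr
    _ = _ := by rw [← Real.exp_add]; congr 1; ring

lemma isSubst_stageL' (D : Geom.Data p n N K) {j : ℕ} (hj : N ≤ j) :
    IsSubst (boxR D j) (stageR' D j) (stageL D (j + 1)) := by
  refine isSubst_linear (stageR'_pos D j) (fun i => (boxR_pos D j i).le) fun i u => ?_
  obtain ⟨h1, h2⟩ := Geom.sl_window (by omega : N ≤ j + 1) u
  have h3 := D.box' (s := Geom.sl N (j + 1) u) (j := j) (by omega) (by omega) i
  unfold stageR' boxR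
  calc ‖D.x (Geom.sl N (j + 1) u) (j + 1) i‖ * Real.exp (D.tau (Geom.sl N (j + 1) u) j)
      ≤ Real.exp (-(D.tau (Geom.sl N (j + 1) u) j + (p : ℝ) ^ j * D.ρ i))
          * Real.exp (D.tau (Geom.sl N (j + 1) u) j) := by gcongr
    _ = _ := by rw [← Real.exp_add]; congr 1; ring

lemma restr_boxR (D : Geom.Data p n N K) (j : ℕ) {T : MvPowerSeries (Fin N) K} (hT : Integral T) :
    IsRestricted (boxR D j) T :=
  restr_of_bounded (boxR_pos D j) (boxR_lt_one D j) hT

theorem stageP_restricted (D : Geom.Data p n N K) {j : ℕ} (hj : N ≤ j)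
    {T : MvPowerSeries (Fin N) K} (hT : Integral T) : IsRestricted (stageR D j) (stageP D j T) :=
  comp_restricted (stageR_pos D j) (isSubst_stageL D hj) (restr_boxR D j hT)

theorem stageP_restricted' (D : Geom.Data p n N K) {j : ℕ} (hj : N ≤ j)
    {T : MvPowerSeries (Fin N) K} (hT : Integral T) :
    IsRestricted (stageR' D j) (stageP D (j + 1) T) :=
  comp_restricted (stageR'_pos D j) (isSubst_stageL' D hj) (restr_boxR D j hT)

theorem le_Lpot (D : Geom.Data p n N K) {j : ℕ} (hj : N ≤ j)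
    {T : MvPowerSeries (Fin N) K} (hT : Integral T) (hP : stageP D j T ≠ 0) {e : Fin N →₀ ℕ}
    (he : e ∈ E (stageR D j) (stageP D j T)) : wdot (stageW D j) e ≤ Lpot D j T := by
  have hfin := finite_E (stageR_pos D j) (stageP_restricted D hj hT) hP
  exact le_csSup (hfin.image _).bddAbove ⟨e, he, rfl⟩

theorem Lpot_le (D : Geom.Data p n N K) {j : ℕ} (hj : N ≤ j)
    {T : MvPowerSeries (Fin N) K} (hT : Integral T) (hP : stageP D j T ≠ 0) {B : ℝ}
    (hB : ∀ e ∈ E (stageR D j) (stageP D j T), wdot (stageW D j) e ≤ B) : Lpot D j T ≤ B := by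
  have hne := exists_max (stageR_pos D j) (stageP_restricted D hj hT) hP
  refine csSup_le (hne.image _) ?_
  rintro _ ⟨e, he, rfl⟩
  exact hB e he

theorem Lpot_nonneg (D : Geom.Data p n N K) (j : ℕ) (T : MvPowerSeries (Fin N) K) :
    0 ≤ Lpot D j T := by
  refine Real.sSup_nonneg ?_
  rintro _ ⟨e, _, rfl⟩
  exact wdot_nonneg (stageW_nonneg D j) e

/-! ### The shear -/

/-- The coefficient `α`. -/
def shA (D : Geom.Data p n N K) (j : ℕ) : K := D.c 0 ^ p ^ j

/-- The coefficients `β`. -/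
def shB (D : Geom.Data p n N K) (j : ℕ) : Fin N → K :=
  fun v => D.c (j - Geom.sl N j v) ^ p ^ (Geom.sl N j v)

lemma shearHyp (D : Geom.Data p n N K) {j : ℕ} (hj : N ≤ j) :
    ShearHyp (stageR D j) (stageR' D j) (D.i0 j) (shA D j) (shB D j) := by
  have h1 : Geom.sl N j (D.i0 j) = j - N := Geom.sl_slotOf D.hN hj
  have h2 : Geom.sl N (j + 1) (D.i0 j) = j := Geom.sl_succ_slotOf D.hN hj
  have h3 : stageR D j (D.i0 j) = 1 := by
    unfold stageR
    rw [h1]
    have := D.tau_top (j - N)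
    rw [Nat.sub_add_cancel hj] at this
    rw [this, Real.exp_zero]
  refine ⟨stageR_pos D j, stageR'_pos D j, fun u hu => ?_, ?_, fun v hv => ?_⟩
  · unfold stageR stageR'
    rw [Geom.sl_succ_of_ne D.hN hj hu]
  · rw [h3]
    unfold stageR' shA
    rw [h2, D.norm_c0_pow, ← Real.exp_add]
    simp
  · rw [h3]
    have hv' : v ≠ Geom.slotOf D.hN j := hv
    have h4 := Geom.sl_succ_of_ne D.hN hj hv'
    obtain ⟨h5, h6⟩ := Geom.sl_window hj v
    have h7 : Geom.sl N j v ≠ j - N := by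
      intro hc
      apply hv
      rw [← h1] at hc
      exact Geom.sl_injective hc
    have h8 := Geom.sl_lb j v
    have h9 := D.shear (s := Geom.sl N j v) (j := j) h5 (by omega)
    unfold stageR' shB
    rw [h4]
    calc _ ≤ Real.exp (-D.tau (Geom.sl N j v) j) * Real.exp (D.tau (Geom.sl N j v) j) := by
          gcongr
      _ = 1 := by rw [← Real.exp_add]; simp

lemma shearMap_single (D : Geom.Data p n N K) (j : ℕ) (u w : Fin N) :
    D.shearMap j (Pi.single w 1) u = shearMat (D.i0 j) (shA D j) (shB D j) u w := by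
  classical
  unfold Geom.Data.shearMap shearMat
  by_cases hu : u = D.i0 j
  · subst hu
    simp only [if_true]
    by_cases hw : w = D.i0 j
    · subst hw
      rw [Finset.sum_eq_zero]
      · simp [shA]
      · intro v hv
        rw [Pi.single_eq_of_ne (Finset.ne_of_mem_erase hv), mul_zero]
    · rw [Pi.single_eq_of_ne (Ne.symm hw), mul_zero, zero_add, Finset.sum_eq_single w]
      · simp [hw, shB]
      · intro v hv hvw
        rw [Pi.single_eq_of_ne hvw, mul_zero]
      · intro h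
        exact absurd (Finset.mem_erase.2 ⟨hw, Finset.mem_univ _⟩) h
  · simp only [if_neg hu]
    by_cases hw : w = u
    · subst hw
      simp
    · simp [hw]

/-- The matrix identity behind the shear. -/
lemma shear_matrix (D : Geom.Data p n N K) {j : ℕ} (hj : N ≤ j) (i w : Fin N) :
    ∑ v, D.x (Geom.sl N j v) j i * shearMat (D.i0 j) (shA D j) (shB D j) v w
      = D.x (Geom.sl N (j + 1) w) (j + 1) i := by
  classical
  have h := congrFun (D.LL_shearMap hj (Pi.single w 1)) i
  simp only [Geom.Data.LL] at h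
  have h2 : ∑ u, (Pi.single w 1 : Fin N → K) u * D.x (Geom.sl N (j + 1) u) (j + 1) i
      = D.x (Geom.sl N (j + 1) w) (j + 1) i := by
    rw [Finset.sum_eq_single w]
    · simp
    · intro v _ hv
      rw [Pi.single_eq_of_ne hv, zero_mul]
    · simp
  rw [← h2, ← h]
  refine Finset.sum_congr rfl fun v _ => ?_
  rw [shearMap_single, mul_comm]

/-- `T ∘ L_{j+1} = (T ∘ L_j) ∘ shear`. -/
lemma stageP_succ (D : Geom.Data p n N K) {j : ℕ} (hj : N ≤ j) {T : MvPowerSeries (Fin N) K}
    (hT : Integral T) :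
    stageP D (j + 1) T = comp (stageP D j T) (shearS (D.i0 j) (shA D j) (shB D j)) := by
  classical
  have hh := shearHyp D hj
  unfold stageP
  rw [comp_comp (boxR_pos D j) (stageR_pos D j) (stageR'_pos D j) (isSubst_stageL D hj) hh.isSubst
    (restr_boxR D j hT)]
  congr 1
  funext i
  show _ = comp (∑ v, MvPowerSeries.C (D.x (Geom.sl N j v) j i) * MvPowerSeries.X v) _
  rw [comp_linS (stageR'_pos D j) hh.isSubst]
  unfold stageL shearS linS
  simp only [Finset.mul_sum]
  rw [Finset.sum_comm]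
  refine Finset.sum_congr rfl fun w _ => ?_
  rw [← shear_matrix D hj i w, map_sum, Finset.sum_mul]
  refine Finset.sum_congr rfl fun v _ => ?_
  rw [map_mul, mul_assoc]

/-! ### Integrality -/

omit [Fact p.Prime] [NeZero n] [CharP K p] in
lemma isInt_comp {σ τ : Type*} {T : MvPowerSeries σ K} {s : σ → MvPowerSeries τ K} (hT : IsIntS T)
    (hs : ∀ i, IsIntS (s i)) : IsIntS (comp T s) := by
  intro e'
  rw [coeff_comp]
  refine IsUltrametricDist.norm_tsum_le_of_forall_le_of_nonneg zero_le_one fun e => ?_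
  rw [norm_mul]
  exact mul_le_one₀ (hT e) (norm_nonneg _) ((IsIntS.monoB hs e) e')

omit [Fact p.Prime] [NeZero n] [CharP K p] in
lemma isInt_C {σ : Type*} {a : K} (ha : ‖a‖ ≤ 1) : IsIntS (MvPowerSeries.C a : MvPowerSeries σ K) := by
  classical
  intro e
  rw [coeff_C]
  split_ifs
  · exact ha
  · simp

omit [CharP K p] in
lemma isInt_gam (ι : kk p n →+* K) : IsIntS ((Gamma0 p n).map ι).toPowerSeries := by
  intro e
  simp only [FormalGroup.map_toPowerSeries, MvPowerSeries.coeff_map]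
  exact norm_iotaK_le p n ι _

/-- `Γ - X - Y`. -/
def gamH (ι : kk p n →+* K) : MvPowerSeries (Fin 2) K :=
  ((Gamma0 p n).map ι).toPowerSeries - MvPowerSeries.X 0 - MvPowerSeries.X 1

omit [CharP K p] in
lemma isInt_gamH (ι : kk p n →+* K) : IsIntS (gamH ι) := by
  intro e
  rw [gamH, map_sub, map_sub]
  exact norm_sub_le_max_of_le (norm_sub_le_max_of_le (isInt_gam ι e) (IsIntS.X 0 e)) (IsIntS.X 1 e)

omit [CharP K p] in
lemma coeff_gamH_low (ι : kk p n →+* K) (e : Fin 2 →₀ ℕ) (he : e 0 + e 1 < p ^ n) :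
    coeff e (gamH ι) = 0 := by
  classical
  have hG : ∀ e, coeff e ((Gamma0 p n).map ι).toPowerSeries = ι (coeff e (Gamma0 p n).toPowerSeries) := by
    intro e
    simp only [FormalGroup.map_toPowerSeries, MvPowerSeries.coeff_map]
  rw [gamH, map_sub, map_sub, coeff_X, coeff_X]
  by_cases h2 : 2 ≤ e 0 + e 1
  · have h3 : e ≠ Finsupp.single 0 1 := by
      rintro rfl
      simp at h2
    have h4 : e ≠ Finsupp.single 1 1 := by
      rintro rfl
      simp at h2
    rw [hG, Gamma0_coeff_low p n e h2 he, if_neg h3, if_neg h4]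
    simp
  · have h5 : (e 0 = 0 ∧ e 1 = 0) ∨ (e 0 = 1 ∧ e 1 = 0) ∨ (e 0 = 0 ∧ e 1 = 1) := by omega
    rcases h5 with ⟨h6, h7⟩ | ⟨h6, h7⟩ | ⟨h6, h7⟩
    · have h8 : e = 0 := by
        ext i; fin_cases i <;> simp [h6, h7]
      subst h8
      have := ((Gamma0 p n).map ι).zero_constantCoeff
      rw [coeff_zero_eq_constantCoeff_apply, this,
        if_neg (Finsupp.single_ne_zero.2 one_ne_zero).symm,
        if_neg (Finsupp.single_ne_zero.2 one_ne_zero).symm]
      simp
    · have h8 : e = Finsupp.single 0 1 := by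
        ext i; fin_cases i <;> simp [h6, h7]
      subst h8
      rw [((Gamma0 p n).map ι).lin_coeff_X]
      simp [Finsupp.single_left_inj]
    · have h8 : e = Finsupp.single 1 1 := by
        ext i; fin_cases i <;> simp [h6, h7]
      subst h8
      rw [((Gamma0 p n).map ι).lin_coeff_Y]
      simp [Finsupp.single_left_inj]

omit [CharP K p] in
lemma coeff_gam_low (ι : kk p n →+* K) (e : Fin 2 →₀ ℕ) (he : e 0 + e 1 < 1) :
    coeff e ((Gamma0 p n).map ι).toPowerSeries = 0 := by
  have h8 : e = 0 := by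
    ext i; fin_cases i <;> simp <;> omega
  subst h8
  rw [coeff_zero_eq_constantCoeff_apply]
  exact ((Gamma0 p n).map ι).zero_constantCoeff

omit [Fact p.Prime] [NeZero n] [CharP K p] in
/-- The pair substitution. -/
lemma isSubst_pair {σ : Type*} {r' : σ → ℝ} {ρ : ℝ} {a : K} (ha : ‖a‖ ≤ ρ)
    {y : MvPowerSeries σ K} (hy : IsRestricted r' y) (hy' : gn r' y ≤ ρ) :
    IsSubst (fun _ : Fin 2 => ρ) r' ![MvPowerSeries.C a, y] := by
  refine ⟨fun k => ?_, fun k => ?_⟩
  · fin_cases k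
    · exact isRestricted_C r' a
    · exact hy
  · fin_cases k
    · show gn r' (MvPowerSeries.C a) ≤ ρ
      rw [gn_C]
      exact ha
    · exact hy'

omit [Fact p.Prime] [NeZero n] [CharP K p] in
lemma restr_const2 {H : MvPowerSeries (Fin 2) K} (hH : IsIntS H) {ρ : ℝ} (h0 : 0 < ρ) (h1 : ρ < 1) :
    IsRestricted (fun _ : Fin 2 => ρ) H :=
  restr_of_bounded (fun _ => h0) (fun _ => h1) hH

/-- The constants `A_i = ι a d_{j,i}`. -/
def shC (D : Geom.Data p n N K) (ι : kk p n →+* K) (a : kk p n) (j : ℕ) : Fin N → K :=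
  fun i => ι a * D.d j i

omit [CharP K p] in
lemma norm_shC_le (D : Geom.Data p n N K) (ι : kk p n →+* K) (a : kk p n) (j : ℕ) (i : Fin N) :
    ‖shC D ι a j i‖ ≤ boxR D j i := by
  unfold shC boxR
  rw [norm_mul, D.d_norm_le]
  exact mul_le_of_le_one_left (Real.exp_pos _).le (norm_iotaK_le p n ι a)

omit [CharP K p] in
/-- The inner series of `shiftBy` are a substitution. -/
lemma isSubst_inner (D : Geom.Data p n N K) (ι : kk p n →+* K) (a : kk p n) (j : ℕ) :
    IsSubst (boxR D j) (boxR D j) (fun i => comp ((Gamma0 p n).map ι).toPowerSeries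
      ![MvPowerSeries.C (ι a * D.d j i), MvPowerSeries.X i]) := by
  have hs : ∀ i, IsSubst (fun _ : Fin 2 => boxR D j i) (boxR D j)
      ![MvPowerSeries.C (ι a * D.d j i), (MvPowerSeries.X i : MvPowerSeries (Fin N) K)] := fun i =>
    isSubst_pair (norm_shC_le D ι a j i) (isRestricted_X _ i)
      (le_of_eq (gn_X (fun i => (boxR_pos D j i).le) i))
  have hG : ∀ i, IsRestricted (fun _ : Fin 2 => boxR D j i) ((Gamma0 p n).map ι).toPowerSeries :=
    fun i => restr_const2 (isInt_gam ι) (boxR_pos D j i) (boxR_lt_one D j i)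
  refine ⟨fun i => comp_restricted (boxR_pos D j) (hs i) (hG i), fun i => ?_⟩
  refine (gn_comp_le (boxR_pos D j) (hs i) (hG i)).trans ?_
  have := gn_const_le (isInt_gam ι) (boxR_pos D j i) (boxR_lt_one D j i).le (m := 1)
    (coeff_gam_low ι)
  simpa using this

omit [CharP K p] in
theorem shiftBy_integral (D : Geom.Data p n N K) (ι : kk p n →+* K) (a : kk p n) (j : ℕ)
    {T : MvPowerSeries (Fin N) K} (hT : Integral T) : Integral (shiftBy D ι a j T) := by
  refine isInt_comp hT fun i => isInt_comp (isInt_gam ι) fun k => ?_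
  have h1 : ‖ι a * D.d j i‖ ≤ 1 :=
    (norm_shC_le D ι a j i).trans (boxR_lt_one D j i).le
  fin_cases k
  · exact isInt_C h1
  · exact IsIntS.X i

omit [CharP K p] in
/-- Evaluation of the shifted series. -/
theorem eval_shiftBy (D : Geom.Data p n N K) (ι : kk p n →+* K) (a : kk p n) {j : ℕ} (_hj : N ≤ j)
    {T : MvPowerSeries (Fin N) K} (hT : Integral T) {x : Fin N → K} (hx : ‖x‖ < 1) :
    eval x (shiftBy D ι a j T)
      = eval (fun i => gAdd ((Gamma0 p n).map ι) (ι a * D.d j i) (x i)) T := by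
  classical
  -- a common radius
  obtain ⟨m, hm0, hm1, hm⟩ := exists_bound_lt (fun i => ‖ι a * D.d j i‖) one_pos
    (fun i => (norm_shC_le D ι a j i).trans_lt (boxR_lt_one D j i))
  set R : ℝ := max (1 / 2) (max m ‖x‖) with hR
  have hR0 : 0 < R := lt_of_lt_of_le (by norm_num) (le_max_left _ _)
  have hR1 : R < 1 := max_lt (by norm_num) (max_lt hm1 hx)
  have hxR : ∀ i, ‖x i‖ ≤ R := fun i =>
    (norm_le_pi_norm x i).trans ((le_max_right _ _).trans (le_max_right _ _))
  have hAR : ∀ i, ‖ι a * D.d j i‖ ≤ R := fun i =>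
    (hm i).trans ((le_max_left _ _).trans (le_max_right _ _))
  have hrad : ∀ i : Fin N, 0 < (fun _ : Fin N => R) i := fun _ => hR0
  have hs : ∀ i, IsSubst (fun _ : Fin 2 => R) (fun _ : Fin N => R)
      ![MvPowerSeries.C (ι a * D.d j i), (MvPowerSeries.X i : MvPowerSeries (Fin N) K)] := fun i =>
    isSubst_pair (hAR i) (isRestricted_X _ i) (le_of_eq (gn_X (fun _ => hR0.le) i))
  have hG : IsRestricted (fun _ : Fin 2 => R) ((Gamma0 p n).map ι).toPowerSeries :=
    restr_const2 (isInt_gam ι) hR0 hR1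
  have hs0 : IsSubst (fun _ : Fin N => R) (fun _ : Fin N => R)
      (fun i => comp ((Gamma0 p n).map ι).toPowerSeries
        ![MvPowerSeries.C (ι a * D.d j i), MvPowerSeries.X i]) := by
    refine ⟨fun i => comp_restricted hrad (hs i) hG, fun i => ?_⟩
    refine (gn_comp_le hrad (hs i) hG).trans ?_
    have := gn_const_le (isInt_gam ι) hR0 hR1.le (m := 1) (coeff_gam_low ι)
    simpa using this
  have hTr : IsRestricted (fun _ : Fin N => R) T := restr_of_bounded hrad (fun _ => hR1) hT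
  rw [shiftBy, eval_comp hrad hrad hs0 hxR hTr]
  congr 1
  funext i
  rw [eval_comp (fun _ => hR0) hrad (hs i) hxR hG, gAdd]
  congr 1
  funext k
  fin_cases k
  · exact eval_C x _
  · exact eval_X x i

/-! ### The carry -/

/-- The perturbation `C_i` in the coordinates of stage `j+1`. -/
def shCs (D : Geom.Data p n N K) (ι : kk p n →+* K) (a : kk p n) (j : ℕ) :
    Fin N → MvPowerSeries (Fin N) K :=
  fun i => comp (gamH ι) ![MvPowerSeries.C (shC D ι a j i), stageL D (j + 1) i]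

lemma isSubst_pair_L (D : Geom.Data p n N K) (ι : kk p n →+* K) (a : kk p n) {j : ℕ} (hj : N ≤ j)
    (i : Fin N) : IsSubst (fun _ : Fin 2 => boxR D j i) (stageR' D j)
      ![MvPowerSeries.C (shC D ι a j i), stageL D (j + 1) i] :=
  isSubst_pair (norm_shC_le D ι a j i) ((isSubst_stageL' D hj).restr i)
    ((isSubst_stageL' D hj).bound i)

lemma restr_shCs (D : Geom.Data p n N K) (ι : kk p n →+* K) (a : kk p n) {j : ℕ} (hj : N ≤ j)
    (i : Fin N) : IsRestricted (stageR' D j) (shCs D ι a j i) :=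
  comp_restricted (stageR'_pos D j) (isSubst_pair_L D ι a hj i)
    (restr_const2 (isInt_gamH ι) (boxR_pos D j i) (boxR_lt_one D j i))

lemma gn_shCs_le (D : Geom.Data p n N K) (ι : kk p n →+* K) (a : kk p n) {j : ℕ} (hj : N ≤ j)
    (i : Fin N) : gn (stageR' D j) (shCs D ι a j i)
      ≤ Real.exp (-((p : ℝ) ^ n * (p : ℝ) ^ j * D.ρ i)) := by
  refine (gn_comp_le (stageR'_pos D j) (isSubst_pair_L D ι a hj i)
    (restr_const2 (isInt_gamH ι) (boxR_pos D j i) (boxR_lt_one D j i))).trans ?_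
  refine (gn_const_le (isInt_gamH ι) (boxR_pos D j i) (boxR_lt_one D j i).le (m := p ^ n)
    (coeff_gamH_low ι)).trans (le_of_eq ?_)
  unfold boxR
  rw [← Real.exp_nat_mul]
  congr 1
  push_cast
  ring

/-- The estimate of `ε`. -/
lemma gn_eps_lt (D : Geom.Data p n N K) (ι : kk p n →+* K) (a : kk p n) {j : ℕ} (hj : N ≤ j)
    (u : Fin N) :
    gn (stageR' D j) (∑ i, MvPowerSeries.C (D.xiCoef (Geom.sl N (j + 1) u) i) * shCs D ι a j i)
      < stageR' D j u := by
  have hr0 : ∀ i, 0 ≤ stageR' D j i := fun i => (stageR'_pos D j i).le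
  obtain ⟨h1, h2⟩ := Geom.sl_window (by omega : N ≤ j + 1) u
  have hlt : ∀ i, ‖D.xiCoef (Geom.sl N (j + 1) u) i‖ * gn (stageR' D j) (shCs D ι a j i)
      < stageR' D j u := by
    intro i
    refine lt_of_le_of_lt ?_ (D.carry_coef_tau (s := Geom.sl N (j + 1) u) (j := j) (by omega)
      (by omega) i)
    exact mul_le_mul_of_nonneg_left (gn_shCs_le D ι a hj i) (norm_nonneg _)
  obtain ⟨m, hm0, hm1, hm⟩ := exists_bound_lt _ (stageR'_pos D j u) hlt
  refine lt_of_le_of_lt ?_ hm1
  refine gn_sum_le _ hr0 (fun i _ => restr_mul (isRestricted_C _ _) (restr_shCs D ι a hj i)) hm0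
    fun i _ => ?_
  refine (gn_mul_le hr0 (isRestricted_C _ _) (restr_shCs D ι a hj i)).trans ?_
  rw [gn_C]
  exact hm i

/-- `T_{j+1} ∘ L_{j+1} = T ∘ (L_{j+1} + A + C)`. -/
lemma stageP_shiftBy (D : Geom.Data p n N K) (ι : kk p n →+* K) (a : kk p n) {j : ℕ} (hj : N ≤ j)
    {T : MvPowerSeries (Fin N) K} (hT : Integral T) :
    stageP D (j + 1) (shiftBy D ι a j T)
      = comp T (fun i => stageL D (j + 1) i + MvPowerSeries.C (shC D ι a j i) + shCs D ι a j i) := by
  have hL := isSubst_stageL' D hj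
  unfold stageP shiftBy
  rw [comp_comp (boxR_pos D j) (boxR_pos D j) (stageR'_pos D j) (isSubst_inner D ι a j) hL
    (restr_boxR D j hT)]
  congr 1
  funext i
  have hs : IsSubst (fun _ : Fin 2 => boxR D j i) (boxR D j)
      ![MvPowerSeries.C (ι a * D.d j i), (MvPowerSeries.X i : MvPowerSeries (Fin N) K)] :=
    isSubst_pair (norm_shC_le D ι a j i) (isRestricted_X _ i)
      (le_of_eq (gn_X (fun i => (boxR_pos D j i).le) i))
  have hG : IsRestricted (fun _ : Fin 2 => boxR D j i) ((Gamma0 p n).map ι).toPowerSeries :=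
    restr_const2 (isInt_gam ι) (boxR_pos D j i) (boxR_lt_one D j i)
  rw [comp_comp (fun _ => boxR_pos D j i) (boxR_pos D j) (stageR'_pos D j) hs hL hG]
  have hpair : (fun k : Fin 2 => comp ((![MvPowerSeries.C (ι a * D.d j i),
        (MvPowerSeries.X i : MvPowerSeries (Fin N) K)] : Fin 2 → _) k) (stageL D (j + 1)))
      = ![MvPowerSeries.C (shC D ι a j i), stageL D (j + 1) i] := by
    funext k
    fin_cases k
    · exact comp_C (stageR'_pos D j) hL _
    · exact comp_X (stageR'_pos D j) hL _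
  rw [hpair]
  have hsp := isSubst_pair_L D ι a hj i
  have hdec : ((Gamma0 p n).map ι).toPowerSeries
      = gamH ι + MvPowerSeries.X 0 + MvPowerSeries.X 1 := by
    unfold gamH; ring
  have hrH : IsRestricted (fun _ : Fin 2 => boxR D j i) (gamH ι) :=
    restr_const2 (isInt_gamH ι) (boxR_pos D j i) (boxR_lt_one D j i)
  rw [hdec, comp_add (stageR'_pos D j) hsp (restr_add hrH (isRestricted_X _ 0)) (isRestricted_X _ 1),
    comp_add (stageR'_pos D j) hsp hrH (isRestricted_X _ 0), comp_X (stageR'_pos D j) hsp,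
    comp_X (stageR'_pos D j) hsp]
  show comp (gamH ι) _ + MvPowerSeries.C (shC D ι a j i) + stageL D (j + 1) i = _
  unfold shCs
  ring

/-- `(T ∘ L_{j+1})` shifted along the slot `i0` by `ι a / c_0^{p^j}`. -/
lemma shift_stageP (D : Geom.Data p n N K) (ι : kk p n →+* K) (a : kk p n) {j : ℕ} (hj : N ≤ j)
    {T : MvPowerSeries (Fin N) K} (hT : Integral T) (hδ : ‖ι a * (shA D j)⁻¹‖ ≤ stageR' D j (D.i0 j)) :
    comp (stageP D (j + 1) T) (shift1 (D.i0 j) (ι a * (shA D j)⁻¹))
      = comp T (fun i => stageL D (j + 1) i + MvPowerSeries.C (shC D ι a j i)) := by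
  classical
  have hL := isSubst_stageL' D hj
  have hsh := isSubst_shift1 (stageR'_pos D j) hδ
  unfold stageP
  rw [comp_comp (boxR_pos D j) (stageR'_pos D j) (stageR'_pos D j) hL hsh (restr_boxR D j hT)]
  congr 1
  funext i
  show comp (∑ v, MvPowerSeries.C (D.x (Geom.sl N (j + 1) v) (j + 1) i) * MvPowerSeries.X v) _ = _
  rw [comp_linS (stageR'_pos D j) hsh]
  simp only [shift1, mul_add, Finset.sum_add_distrib]
  congr 1
  rw [Finset.sum_eq_single (D.i0 j)]
  · rw [if_pos rfl, ← map_mul]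
    congr 1
    have h2 : Geom.sl N (j + 1) (D.i0 j) = j := Geom.sl_succ_slotOf D.hN hj
    rw [h2, D.x_succ_self]
    unfold shC shA
    have hc : D.c 0 ^ p ^ j ≠ 0 := pow_ne_zero _ D.c0_ne
    field_simp
  · intro v _ hv
    rw [if_neg hv]
    simp
  · simp

/-- Step 4 of E5. -/
theorem carry_step (D : Geom.Data p n N K) (ι : kk p n →+* K) (a : kk p n) {j : ℕ} (hj : N ≤ j)
    {T : MvPowerSeries (Fin N) K} (hT : Integral T) (hδ : ‖ι a * (shA D j)⁻¹‖ ≤ stageR' D j (D.i0 j))
    (hR : comp (stageP D (j + 1) T) (shift1 (D.i0 j) (ι a * (shA D j)⁻¹)) ≠ 0) :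
    gn (stageR' D j) (stageP D (j + 1) (shiftBy D ι a j T)
        - comp (stageP D (j + 1) T) (shift1 (D.i0 j) (ι a * (shA D j)⁻¹)))
      < gn (stageR' D j) (comp (stageP D (j + 1) T) (shift1 (D.i0 j) (ι a * (shA D j)⁻¹))) := by
  classical
  rw [shift_stageP D ι a hj hT hδ] at hR ⊢
  rw [stageP_shiftBy D ι a hj hT]
  have hL := isSubst_stageL' D hj
  have hBW : ∀ i i', ∑ u, D.x (Geom.sl N (j + 1) u) (j + 1) i * D.xiCoef (Geom.sl N (j + 1) u) i'
      = if i = i' then 1 else 0 := by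
    intro i i'
    have := congrFun (congrFun (D.baseMat_mul_dualMat (by omega : N ≤ j + 1)) i) i'
    simp only [Matrix.mul_apply, Geom.Data.baseMat, Geom.Data.dualMat, Matrix.of_apply,
      Matrix.one_apply] at this
    exact this
  have hs : IsSubst (boxR D j) (stageR' D j)
      (fun i => stageL D (j + 1) i + MvPowerSeries.C (shC D ι a j i)) := by
    refine ⟨fun i => restr_add (hL.restr i) (isRestricted_C _ _), fun i => ?_⟩
    refine (gn_add_le (fun i => (stageR'_pos D j i).le) (hL.restr i) (isRestricted_C _ _)).trans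
      (max_le (hL.bound i) ?_)
    rw [gn_C]
    exact norm_shC_le D ι a j i
  exact carry_close (boxR_pos D j) (stageR'_pos D j)
    (fun i u => D.x (Geom.sl N (j + 1) u) (j + 1) i) (shC D ι a j)
    (fun u i => D.xiCoef (Geom.sl N (j + 1) u) i) hBW hs (shCs D ι a j) (restr_shCs D ι a hj)
    (gn_eps_lt D ι a hj) (restr_boxR D j hT) hR

/-! ### Shrinking -/

omit [CharP K p] [IsUltrametricDist K] [CompleteSpace K] [NeZero n] [Fact p.Prime] in
lemma stageR_succ (D : Geom.Data p n N K) {j : ℕ} (hj : N ≤ j) :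
    stageR D (j + 1) = rs (stageR' D j) (stageW D (j + 1)) (D.S j) := by
  funext u
  obtain ⟨h1, h2⟩ := Geom.sl_window (by omega : N ≤ j + 1) u
  unfold stageR rs stageR' stageW
  rw [D.tau_succ (by omega : Geom.sl N (j + 1) u ≤ j), sub_eq_add_neg, Real.exp_add]

/-- Step 5 of E5. -/
theorem shrink_step (D : Geom.Data p n N K) {j : ℕ} (hj : N ≤ j) {T' : MvPowerSeries (Fin N) K}
    (hT' : Integral T') (hP : stageP D (j + 1) T' ≠ 0) {e : Fin N →₀ ℕ}
    (he : e ∈ E (stageR' D j) (stageP D (j + 1) T')) :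
    ZZ D (j + 1) T' ≤ Zv (stageR' D j) (stageP D (j + 1) T') + D.S j * wdot (stageW D (j + 1)) e ∧
      Lpot D (j + 1) T' ≤ wdot (stageW D (j + 1)) e := by
  have hr := stageP_restricted' D hj hT'
  have hw := stageW_nonneg D (j + 1)
  constructor
  · unfold ZZ
    rw [stageR_succ D hj]
    exact newton_Z (stageR'_pos D j) hw (S_pos D j).le hr hP he
  · refine Lpot_le D (by omega) hT' hP fun e' he' => ?_
    rw [stageR_succ D hj] at he'
    exact newton_E (stageR'_pos D j) hw (S_pos D j) hr hP he he'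

omit [CharP K p] in
/-- The arithmetic of the weights. -/
lemma wdot_slice_le (D : Geom.Data p n N K) {j : ℕ} (hj : N ≤ j) (e0 : Fin N →₀ ℕ) {κ : ℕ}
    (hκ : p ^ n * κ ≤ e0 (D.i0 j)) :
    wdot (stageW D (j + 1)) (sliceExp (D.i0 j) e0 κ) ≤ wdot (stageW D j) e0 := by
  classical
  have h1 : Geom.sl N j (D.i0 j) = j - N := Geom.sl_slotOf D.hN hj
  have h2 : Geom.sl N (j + 1) (D.i0 j) = j := Geom.sl_succ_slotOf D.hN hj
  have h3 : wdot (stageW D (j + 1)) (e0.erase (D.i0 j)) = wdot (stageW D j) (e0.erase (D.i0 j)) := by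
    unfold wdot
    refine Finsupp.sum_congr fun i hi => ?_
    have hne : i ≠ D.i0 j := by
      rintro rfl
      simp at hi
    unfold stageW
    rw [Geom.sl_succ_of_ne D.hN hj (u := i) hne]
  have h4 : wdot (stageW D j) e0
      = wdot (stageW D j) (e0.erase (D.i0 j)) + (e0 (D.i0 j) : ℝ) * stageW D j (D.i0 j) := by
    conv_lhs => rw [← sliceExp_self (D.i0 j) e0]
    rw [wdot_sliceExp]
  have h5 : stageW D (j + 1) (D.i0 j) = (p : ℝ) ^ n * stageW D j (D.i0 j) := by
    unfold stageW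
    rw [h1, h2, ← D.w_add_N, Nat.sub_add_cancel hj]
  rw [wdot_sliceExp, h3, h4, h5]
  have h6 : ((p : ℝ) ^ n * κ) ≤ e0 (D.i0 j) := by exact_mod_cast hκ
  have h7 : 0 ≤ stageW D j (D.i0 j) := stageW_nonneg D j _
  nlinarith

/-- One step of the chain (blueprint E5). -/
theorem chain_step (D : Geom.Data p n N K) (ι : kk p n →+* K) (j : ℕ) (hj : N + 1 ≤ j)
    (T : MvPowerSeries (Fin N) K) (hT : Integral T) (hP : stageP D j T ≠ 0) :
    ∃ a : kk p n, Integral (shiftBy D ι a j T) ∧ stageP D (j + 1) (shiftBy D ι a j T) ≠ 0 ∧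
      ZZ D (j + 1) (shiftBy D ι a j T) + D.sigma (j + 1) * Lpot D (j + 1) (shiftBy D ι a j T)
        ≤ ZZ D j T + D.sigma j * Lpot D j T := by
  classical
  have hj' : N ≤ j := by omega
  have hh := shearHyp D hj'
  have hPr := stageP_restricted D hj' hT
  obtain ⟨e0, he0, hmax⟩ := Set.exists_max_image (E (stageR D j) (stageP D j T))
    (fun e => e (D.i0 j)) (finite_E (stageR_pos D j) hPr hP) (exists_max (stageR_pos D j) hPr hP)
  have hmax' : ∀ e ∈ E (stageR D j) (stageP D j T), e (D.i0 j) ≤ e0 (D.i0 j) := hmax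
  have hQ := stageP_succ D hj' hT
  have hQr := stageP_restricted' D hj' hT
  have hgnQ : gn (stageR' D j) (stageP D (j + 1) T) = gn (stageR D j) (stageP D j T) := by
    rw [hQ]
    exact hh.gn_eq hPr hP hmax' he0 rfl
  have hgnP := gn_pos (stageR_pos D j) hPr hP
  have hetop : ‖coeff e0 (stageP D (j + 1) T)‖ * rpow (stageR' D j) e0
      = gn (stageR' D j) (stageP D (j + 1) T) := by
    rw [hgnQ, hQ]
    exact hh.coeff_eq hPr hP hmax' he0 rfl
  have hlt : ∀ e' : Fin N →₀ ℕ, e0 (D.i0 j) < e' (D.i0 j) →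
      ‖coeff e' (stageP D (j + 1) T)‖ * rpow (stageR' D j) e'
        < gn (stageR' D j) (stageP D (j + 1) T) := by
    intro e' he'
    rw [hgnQ, hQ]
    exact hh.coeff_lt hPr hP hmax' he'
  have hδ : ‖(shA D j)⁻¹‖ = stageR' D j (D.i0 j) := by
    have h2 : Geom.sl N (j + 1) (D.i0 j) = j := Geom.sl_succ_slotOf D.hN hj'
    unfold stageR' shA
    rw [h2, norm_inv, D.norm_c0_pow, Real.exp_neg, inv_inv]
  -- the finite set of digits
  have : Fintype (kk p n) := Fintype.ofFinite _
  have hq : 1 ≤ p ^ n := Nat.one_le_pow _ _ (Fact.out : p.Prime).pos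
  have hι1 : ∀ b : kk p n, b ≠ 0 → ‖ι b‖ = 1 := by
    intro b hb
    have h1 : (ι b) ^ (Fintype.card (kk p n) - 1) = 1 := by
      rw [← map_pow, FiniteField.pow_card_sub_one_eq_one b hb, map_one]
    have hm : Fintype.card (kk p n) - 1 ≠ 0 := by
      have := Fintype.one_lt_card (α := kk p n)
      omega
    have h2 := congrArg norm h1
    rw [norm_pow, norm_one] at h2
    exact (pow_eq_one_iff_of_nonneg (norm_nonneg _) hm).1 h2
  have hcard : (Finset.univ.image ι).card = p ^ n := by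
    rw [Finset.card_image_of_injective _ ι.injective, Finset.card_univ, ← Nat.card_eq_fintype_card,
      GaloisField.card p n (NeZero.ne n)]
  obtain ⟨aK, haK, κ, hκ, hcoef⟩ := slice_step (stageR'_pos D j) hQr hetop (by rw [hgnQ]; exact hgnP)
    hlt hδ (Finset.univ.image ι) ⟨ι 0, Finset.mem_image_of_mem _ (Finset.mem_univ _)⟩
    (by
      intro a ha
      obtain ⟨b, -, rfl⟩ := Finset.mem_image.1 ha
      exact norm_iotaK_le p n ι b)
    (by
      intro a ha a' ha' hne
      obtain ⟨b, -, rfl⟩ := Finset.mem_image.1 ha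
      obtain ⟨b', -, rfl⟩ := Finset.mem_image.1 ha'
      rw [← map_sub]
      refine hι1 _ (sub_ne_zero.2 fun h => hne (by rw [h])))
  obtain ⟨a, -, rfl⟩ := Finset.mem_image.1 haK
  rw [hcard] at hκ
  have hδ' : ‖ι a * (shA D j)⁻¹‖ ≤ stageR' D j (D.i0 j) := by
    rw [norm_mul, hδ]
    exact mul_le_of_le_one_left (stageR'_pos D j _).le (norm_iotaK_le p n ι a)
  have hgnR : gn (stageR' D j) (comp (stageP D (j + 1) T) (shift1 (D.i0 j) (ι a * (shA D j)⁻¹)))
      = gn (stageR' D j) (stageP D (j + 1) T) := gn_comp_shift1 (stageR'_pos D j) hδ' hQr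
  have hRr : IsRestricted (stageR' D j)
      (comp (stageP D (j + 1) T) (shift1 (D.i0 j) (ι a * (shA D j)⁻¹))) :=
    comp_restricted (stageR'_pos D j) (isSubst_shift1 (stageR'_pos D j) hδ') hQr
  have hgnR0 : 0 < gn (stageR' D j) (comp (stageP D (j + 1) T) (shift1 (D.i0 j) (ι a * (shA D j)⁻¹))) := by
    rw [hgnR, hgnQ]
    exact hgnP
  have hR0 : comp (stageP D (j + 1) T) (shift1 (D.i0 j) (ι a * (shA D j)⁻¹)) ≠ 0 := by
    intro h0
    rw [h0, gn_zero] at hgnR0
    exact lt_irrefl _ hgnR0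
  have hclose := carry_step D ι a hj' hT hδ' hR0
  have hT' := shiftBy_integral D ι a j hT
  have hP''r := stageP_restricted' D hj' hT'
  have hgnP'' := gn_eq_of_sub_lt (stageR'_pos D j) hP''r hRr hclose
  have hE := E_eq_of_sub_lt (stageR'_pos D j) hP''r hRr hclose
  have hP''0 : stageP D (j + 1) (shiftBy D ι a j T) ≠ 0 := by
    intro h0
    rw [h0, gn_zero] at hgnP''
    rw [← hgnP''] at hgnR0
    exact lt_irrefl _ hgnR0
  have he'' : sliceExp (D.i0 j) e0 κ
      ∈ E (stageR' D j) (stageP D (j + 1) (shiftBy D ι a j T)) := by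
    rw [hE]
    show _ * _ = _
    rw [hgnR]
    exact hcoef
  obtain ⟨hZ, hL⟩ := shrink_step D hj' hT' hP''0 he''
  refine ⟨a, hT', hP''0, ?_⟩
  have hZ0 : Zv (stageR' D j) (stageP D (j + 1) (shiftBy D ι a j T)) = ZZ D j T := by
    unfold ZZ Zv
    rw [hgnP'', hgnR, hgnQ]
  rw [hZ0] at hZ
  have hℓ := (wdot_slice_le D hj' e0 hκ).trans (le_Lpot D hj' hT hP he0)
  have hσ := D.sigma_succ j
  calc _ ≤ (ZZ D j T + D.S j * wdot (stageW D (j + 1)) (sliceExp (D.i0 j) e0 κ))
        + D.sigma (j + 1) * wdot (stageW D (j + 1)) (sliceExp (D.i0 j) e0 κ) :=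
        add_le_add hZ (mul_le_mul_of_nonneg_left hL (sigma_nonneg D _))
    _ = ZZ D j T + D.sigma j * wdot (stageW D (j + 1)) (sliceExp (D.i0 j) e0 κ) := by
        rw [hσ]; ring
    _ ≤ _ := add_le_add_right (mul_le_mul_of_nonneg_left hℓ (sigma_nonneg D _)) _

end

end Crest.Agent.LT
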