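/-
S0351 (row 227), module E-d-Main: BLUEPRINT E6, E7, E8, E9.
-/
import Crest.Agent.Lib.LubinTate.ChainStep

set_option autoImplicit false
set_option linter.unusedSectionVars false

namespace Crest.Agent.LT

open MvPowerSeries Geom

variable {p n N : ℕ} [hp : Fact p.Prime] [NeZero n] {K : Type*} [NontriviallyNormedField K] [IsUltrametricDist K]
  [CompleteSpace K] [CharP K p]

namespace Chain

variable (D : Geom.Data p n N K)

lemma p_one_lt : (1 : ℝ) < (p : ℝ) := by exact_mod_cast hp.out.one_lt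

omit [NeZero n] [IsUltrametricDist K] [CompleteSpace K] [CharP K p] in
lemma AA_pos : 0 < Geom.AA p D.ρ := by
  rw [Geom.AA_eq_sum]
  refine Finset.sum_pos (fun i _ => mul_pos (pow_pos (by linarith [p_one_lt (p := p)]) _) (D.ρ_pos i)) ?_
  exact ⟨⟨0, D.hN⟩, Finset.mem_univ _⟩

omit [NeZero n] [IsUltrametricDist K] [CompleteSpace K] [CharP K p] in
lemma kappa_nonneg : 0 ≤ D.kappa := by
  unfold Geom.Data.kappa
  refine div_nonneg (mul_nonneg (mul_nonneg ?_ (AA_pos D).le) ?_) D.one_sub_θN_pos.le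
  · linarith [p_one_lt (p := p)]
  · linarith [D.θ_lt]

omit [NeZero n] [IsUltrametricDist K] [CompleteSpace K] [CharP K p] in
lemma w_nonneg (s : ℕ) : 0 ≤ D.w s := by
  unfold Geom.Data.w
  refine mul_nonneg (kappa_nonneg D) (pow_nonneg (div_nonneg ?_ D.θ_pos.le) _)
  linarith [p_one_lt (p := p)]

omit [NeZero n] [IsUltrametricDist K] [CompleteSpace K] [CharP K p] in
lemma S_pos (j : ℕ) : 0 < D.S j := pow_pos D.θ_pos j

omit [NeZero n] [IsUltrametricDist K] [CompleteSpace K] [CharP K p] in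
lemma sigma_nonneg (j : ℕ) : 0 ≤ D.sigma j := by
  unfold Geom.Data.sigma
  exact div_nonneg (pow_pos D.θ_pos j).le (by linarith [D.θ_lt])

lemma stageR_pos (j : ℕ) : ∀ u, 0 < stageR D j u := fun _ => Real.exp_pos _

lemma stageW_nonneg (j : ℕ) : ∀ u, 0 ≤ stageW D j u := fun _ => w_nonneg D _

/-- The round radii of the box at stage `j`. -/
noncomputable def boxR (j : ℕ) : Fin N → ℝ := fun i => Real.exp (-((p : ℝ) ^ j * D.ρ i))

omit [NeZero n] [IsUltrametricDist K] [CompleteSpace K] [CharP K p] in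
lemma boxR_pos (j : ℕ) : ∀ i, 0 < boxR D j i := fun _ => Real.exp_pos _

omit [NeZero n] [IsUltrametricDist K] [CompleteSpace K] [CharP K p] in
lemma boxR_lt_one (j : ℕ) : ∀ i, boxR D j i < 1 := fun i => by
  unfold boxR
  rw [Real.exp_lt_one_iff]
  have := mul_pos (pow_pos (by linarith [p_one_lt (p := p)] : (0:ℝ) < p) j) (D.ρ_pos i)
  linarith

/-- The linear forms of stage `j` map the polydisc `stageR j` into the box of stage `j`. -/
lemma isSubst_stageL {j : ℕ} (hj : N ≤ j) : IsSubst (boxR D j) (stageR D j) (stageL D j) := by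
  refine isSubst_linear (stageR_pos D j) (fun i => (boxR_pos D j i).le) fun i u => ?_
  have hw := sl_window hj u
  have h := D.box hw.1 hw.2 i
  calc ‖D.x (sl N j u) j i‖ * stageR D j u
      ≤ Real.exp (-(D.tau (sl N j u) j + (p : ℝ) ^ j * D.ρ i)) * stageR D j u :=
        mul_le_mul_of_nonneg_right h (stageR_pos D j u).le
    _ = boxR D j i := by
        unfold stageR boxR
        rw [← Real.exp_add]
        congr 1
        ring

/-- Radii of stage `j+1` before the shrinking. -/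
noncomputable def preR (j : ℕ) : Fin N → ℝ := fun u => Real.exp (D.tau (sl N (j + 1) u) j)

lemma preR_pos (j : ℕ) : ∀ u, 0 < preR D j u := fun _ => Real.exp_pos _

/-- The linear forms of stage `j+1` map the polydisc `preR j` into the box of stage `j`. -/
lemma isSubst_stageL_pre {j : ℕ} (hj : N ≤ j) : IsSubst (boxR D j) (preR D j) (stageL D (j + 1)) := by
  refine isSubst_linear (preR_pos D j) (fun i => (boxR_pos D j i).le) fun i u => ?_
  have hw := sl_window (Nat.le_succ_of_le hj) u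
  have h1 : sl N (j + 1) u ≤ j := Nat.lt_succ_iff.mp hw.1
  have h2 : j < sl N (j + 1) u + N := hw.2
  have h := D.box' h1 h2 i
  calc ‖D.x (sl N (j + 1) u) (j + 1) i‖ * preR D j u
      ≤ Real.exp (-(D.tau (sl N (j + 1) u) j + (p : ℝ) ^ j * D.ρ i)) * preR D j u :=
        mul_le_mul_of_nonneg_right h (preR_pos D j u).le
    _ = boxR D j i := by
        unfold preR boxR
        rw [← Real.exp_add]
        congr 1
        ring

/-- `stageR (j+1) = preR j · exp(-S_j w)`. -/
lemma stageR_succ {j : ℕ} (hj : N ≤ j) :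
    stageR D (j + 1) = rs (preR D j) (stageW D (j + 1)) (D.S j) := by
  funext u
  have hw := sl_window (Nat.le_succ_of_le hj) u
  have h1 : sl N (j + 1) u ≤ j := Nat.lt_succ_iff.mp hw.1
  unfold stageR rs preR stageW
  rw [D.tau_succ h1, ← Real.exp_add]
  congr 1

lemma integral_restricted {r : Fin N → ℝ} (h0 : ∀ i, 0 < r i) (h1 : ∀ i, r i < 1)
    {T : MvPowerSeries (Fin N) K} (hT : Integral T) : IsRestricted r T :=
  restr_of_bounded h0 h1 hT

/-- The potential at the start is controlled (E6). -/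
theorem S_mul_wdot_le {T : MvPowerSeries (Fin N) K} (hT : Integral T) (j : ℕ) (hj : N ≤ j)
    (hP : stageP D (j + 1) T ≠ 0) {e : Fin N →₀ ℕ} (he : e ∈ E (stageR D (j + 1)) (stageP D (j + 1) T)) :
    D.S j * wdot (stageW D (j + 1)) e ≤ ZZ D (j + 1) T := by
  have hb := isSubst_stageL_pre D hj
  have hTr := integral_restricted (boxR_pos D j) (boxR_lt_one D j) hT
  have hPr : IsRestricted (preR D j) (stageP D (j + 1) T) :=
    comp_restricted (preR_pos D j) hb hTr
  have hgn : gn (preR D j) (stageP D (j + 1) T) ≤ 1 :=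
    (gn_comp_le (preR_pos D j) hb hTr).trans
      (gn_le_one_of_integral (fun i => (boxR_pos D j i).le) (fun i => (boxR_lt_one D j i).le) hT)
  unfold ZZ
  rw [stageR_succ D hj] at he ⊢
  exact newton_top (preR_pos D j) (stageW_nonneg D (j + 1)) (S_pos D j).le hPr hP hgn he

/-- The last (smallest) `ρ`. -/
def rhoLast : ℝ := D.ρ ⟨N - 1, Nat.sub_lt D.hN one_pos⟩

omit [NeZero n] [IsUltrametricDist K] [CompleteSpace K] [CharP K p] in
lemma rhoLast_le (i : Fin N) : rhoLast D ≤ D.ρ i := by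
  apply D.ρ_anti
  rw [Fin.le_def]
  have := i.2
  show i.val ≤ N - 1
  omega

omit [NeZero n] [IsUltrametricDist K] [CompleteSpace K] [CharP K p] in
lemma rhoLast_pos : 0 < rhoLast D := D.ρ_pos _

omit [IsUltrametricDist K] [NeZero n] [CompleteSpace K] [CharP K p] in
lemma rpow_le_of_ne {σ : Type*} {r : σ → ℝ} {ε : ℝ} (h0 : ∀ i, 0 ≤ r i) (h1 : ∀ i, r i ≤ ε) (hε : ε ≤ 1)
    {e : σ →₀ ℕ} (he : e ≠ 0) : rpow r e ≤ ε := by
  classical
  obtain ⟨i, hi⟩ := Finsupp.ne_iff.mp he
  have hi' : e i ≠ 0 := by simpa using hi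
  have hmem : i ∈ e.support := Finsupp.mem_support_iff.mpr hi'
  unfold rpow Finsupp.prod
  rw [← Finset.mul_prod_erase _ _ hmem]
  have hrle : r i ≤ 1 := (h1 i).trans hε
  have h2 : ∏ x ∈ e.support.erase i, r x ^ e x ≤ 1 :=
    Finset.prod_le_one (fun j _ => pow_nonneg (h0 j) _)
      (fun j _ => pow_le_one₀ (h0 j) ((h1 j).trans hε))
  have h3 : r i ^ e i ≤ r i := by
    calc r i ^ e i ≤ r i ^ 1 := pow_le_pow_of_le_one (h0 i) hrle (Nat.one_le_iff_ne_zero.mpr hi')
      _ = r i := pow_one _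
  calc r i ^ e i * ∏ x ∈ e.support.erase i, r x ^ e x ≤ r i * 1 :=
        mul_le_mul h3 h2 (Finset.prod_nonneg fun j _ => pow_nonneg (h0 j) _) (h0 i)
    _ = r i := mul_one _
    _ ≤ ε := h1 i

/-- An integral series without constant term has small Gauss norm on small polydiscs. -/
lemma gn_le_of_cc {σ : Type*} {r : σ → ℝ} {ε : ℝ} (h0 : ∀ i, 0 ≤ r i) (h1 : ∀ i, r i ≤ ε) (hε0 : 0 ≤ ε)
    (hε : ε ≤ 1) {S : MvPowerSeries σ K} (hS : ∀ e, ‖coeff e S‖ ≤ 1) (hc : coeff 0 S = 0) :
    gn r S ≤ ε := by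
  refine gn_le hε0 fun e => ?_
  by_cases he : e = 0
  · subst he
    rw [hc, norm_zero, zero_mul]
    exact hε0
  · calc ‖coeff e S‖ * rpow r e ≤ 1 * ε :=
          mul_le_mul (hS e) (rpow_le_of_ne h0 h1 hε he) (rpow_nonneg h0 e) zero_le_one
      _ = ε := one_mul ε

/-- (E7) When the stage `J` norm beats the box, the value at `0` realises the norm. -/
theorem norm_coeff_zero_eq {T : MvPowerSeries (Fin N) K} (hT : Integral T) {J : ℕ} (hJ : N ≤ J)
    (hlarge : Real.exp (-((p : ℝ) ^ J * rhoLast D)) < gn (stageR D J) (stageP D J T)) :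
    ‖coeff 0 T‖ = gn (stageR D J) (stageP D J T) := by
  have hb := isSubst_stageL D hJ
  have hTr := integral_restricted (boxR_pos D J) (boxR_lt_one D J) hT
  set S : MvPowerSeries (Fin N) K := T - C (coeff 0 T) with hSdef
  have hSi : ∀ e, ‖coeff e S‖ ≤ 1 := by
    intro e
    rw [hSdef, map_sub, coeff_C, sub_eq_add_neg]
    refine (IsUltrametricDist.norm_add_le_max _ _).trans (max_le (hT e) ?_)
    rw [norm_neg]
    split_ifs
    · exact hT 0
    · simp
  have hSc : coeff 0 S = 0 := by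
    rw [hSdef, map_sub, coeff_C, if_pos rfl, sub_self]
  have hSr : IsRestricted (boxR D J) S := restr_sub hTr (isRestricted_C _ _)
  have hcomp : stageP D J T - C (coeff 0 T) = comp S (stageL D J) := by
    unfold stageP
    rw [hSdef, comp_sub (stageR_pos D J) hb hTr (isRestricted_C _ _), comp_C (stageR_pos D J) hb]
  have hsmall : gn (stageR D J) (stageP D J T - C (coeff 0 T)) ≤ Real.exp (-((p : ℝ) ^ J * rhoLast D)) := by
    rw [hcomp]
    refine (gn_comp_le (stageR_pos D J) hb hSr).trans ?_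
    refine gn_le_of_cc (fun i => (boxR_pos D J i).le) (fun i => ?_) (Real.exp_pos _).le ?_ hSi hSc
    · unfold boxR
      apply Real.exp_le_exp.2
      have hpJ : 0 < (p : ℝ) ^ J := pow_pos (by linarith [p_one_lt (p := p)]) J
      have := mul_le_mul_of_nonneg_left (rhoLast_le D i) hpJ.le
      linarith
    · rw [Real.exp_le_one_iff]
      have hpJ : 0 < (p : ℝ) ^ J := pow_pos (by linarith [p_one_lt (p := p)]) J
      have := mul_pos hpJ (rhoLast_pos D)
      linarith
  have hPr : IsRestricted (stageR D J) (stageP D J T) := comp_restricted (stageR_pos D J) hb hTr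
  have hCr : IsRestricted (stageR D J) (C (coeff 0 T) : MvPowerSeries (Fin N) K) := isRestricted_C _ _
  have h1 : gn (stageR D J) ((C (coeff 0 T) : MvPowerSeries (Fin N) K) - stageP D J T)
      < gn (stageR D J) (stageP D J T) := by
    have : (C (coeff 0 T) : MvPowerSeries (Fin N) K) - stageP D J T
        = -(stageP D J T - C (coeff 0 T)) := by abel
    rw [this, gn_neg]
    exact hsmall.trans_lt hlarge
  have := gn_eq_of_sub_lt (stageR_pos D J) hCr hPr h1
  rwa [gn_C] at this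

/-- The inverse linear forms at stage `j`. -/
noncomputable def stageInv (j : ℕ) : Fin N → MvPowerSeries (Fin N) K :=
  fun u => ∑ i, C (D.xiCoef (sl N j u) i) * X i

/-- `‖xiCoef‖` is small against the round box `r2 = p^(j) AA`. -/
lemma isSubst_stageInv {j : ℕ} (hj : N ≤ j) (r2 : ℝ) (hr2 : (p : ℝ) ^ j * Geom.AA p D.ρ ≤ r2) :
    IsSubst (stageR D j) (fun _ : Fin N => Real.exp (-r2)) (stageInv D j) := by
  refine isSubst_linear (fun _ => Real.exp_pos _) (fun u => (stageR_pos D j u).le) fun u i => ?_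
  have hw := sl_window hj u
  have h1 := D.xiCoef_norm_le' (sl N j u) i
  have h2 : 0 ≤ D.tau (sl N j u) j := D.tau_nonneg hw.1.le hw.2
  have h3 : (p : ℝ) ^ (sl N j u + 1) ≤ (p : ℝ) ^ j :=
    pow_le_pow_right₀ (p_one_lt (p := p)).le (Nat.succ_le_of_lt hw.1)
  have hA := (AA_pos D).le
  calc ‖D.xiCoef (sl N j u) i‖ * Real.exp (-r2)
      ≤ Real.exp ((p : ℝ) ^ (sl N j u + 1) * Geom.AA p D.ρ) * Real.exp (-r2) := by gcongr
    _ = Real.exp ((p : ℝ) ^ (sl N j u + 1) * Geom.AA p D.ρ + -r2) := by rw [Real.exp_add]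
    _ ≤ Real.exp (D.tau (sl N j u) j) := by
        apply Real.exp_le_exp.2
        have := mul_le_mul_of_nonneg_right h3 hA
        linarith

/-- `L ∘ L⁻¹ = id`. -/
lemma comp_stageL_stageInv {j : ℕ} (hj : N ≤ j) (r2 : ℝ) (hr2 : (p : ℝ) ^ j * Geom.AA p D.ρ ≤ r2)
    (i : Fin N) : comp (stageL D j i) (stageInv D j) = X i := by
  have hs := isSubst_stageInv D hj r2 hr2
  have hpos : ∀ _ : Fin N, (0 : ℝ) < Real.exp (-r2) := fun _ => Real.exp_pos _
  have hres : ∀ u, IsRestricted (stageR D j) (C (D.x (sl N j u) j i) * X u : MvPowerSeries (Fin N) K) :=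
    fun u => restr_mul (isRestricted_C _ _) (isRestricted_X _ _)
  unfold stageL
  rw [comp_sum _ hpos hs (fun u _ => hres u)]
  have h1 : ∀ u, comp (C (D.x (sl N j u) j i) * X u : MvPowerSeries (Fin N) K) (stageInv D j)
      = C (D.x (sl N j u) j i) * stageInv D j u := by
    intro u
    rw [comp_mul hpos hs (isRestricted_C _ _) (isRestricted_X _ _), comp_C hpos hs, comp_X hpos hs]
  simp only [h1]
  unfold stageInv
  simp only [Finset.mul_sum]
  rw [Finset.sum_comm]
  have h2 : ∀ i' : Fin N, ∑ u, (C (D.x (sl N j u) j i) * (C (D.xiCoef (sl N j u) i') * X i') :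
      MvPowerSeries (Fin N) K) = if i' = i then X i else 0 := by
    intro i'
    have h3 := congrFun (congrFun (D.baseMat_mul_dualMat hj) i) i'
    simp only [Matrix.mul_apply, Geom.Data.dualMat, Geom.Data.baseMat, Matrix.of_apply,
      Matrix.one_apply] at h3
    have h4 : ∑ u, (C (D.x (sl N j u) j i) * (C (D.xiCoef (sl N j u) i') * X i') :
        MvPowerSeries (Fin N) K) = C (∑ u, D.x (sl N j u) j i * D.xiCoef (sl N j u) i') * X i' := by
      rw [map_sum, Finset.sum_mul]
      refine Finset.sum_congr rfl fun u _ => ?_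
      rw [map_mul, mul_assoc]
    rw [h4, h3]
    by_cases hii : i' = i
    · subst hii; simp
    · have : ¬ i = i' := fun h => hii h.symm
      simp [hii, this]
  simp only [h2]
  simp

/-- `T` is recovered from `P = T ∘ L`. -/
lemma comp_stageP_stageInv {T : MvPowerSeries (Fin N) K} (hT : Integral T) {j : ℕ} (hj : N ≤ j)
    (r2 : ℝ) (hr2 : (p : ℝ) ^ j * Geom.AA p D.ρ ≤ r2) :
    comp (stageP D j T) (stageInv D j) = T := by
  have hb := isSubst_stageL D hj
  have hs := isSubst_stageInv D hj r2 hr2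
  have hTr := integral_restricted (boxR_pos D j) (boxR_lt_one D j) hT
  have hpos : ∀ _ : Fin N, (0 : ℝ) < Real.exp (-r2) := fun _ => Real.exp_pos _
  unfold stageP
  rw [comp_comp (boxR_pos D j) (stageR_pos D j) hpos hb hs hTr]
  have : (fun i => comp (stageL D j i) (stageInv D j)) = (X : Fin N → MvPowerSeries (Fin N) K) :=
    funext fun i => comp_stageL_stageInv D hj r2 hr2 i
  rw [this]
  exact comp_X_right (boxR_pos D j) T hTr

/-- `stageP` does not vanish when `T` does not. -/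
lemma stageP_ne_zero {T : MvPowerSeries (Fin N) K} (hT : Integral T) {j : ℕ} (hj : N ≤ j)
    (h0 : T ≠ 0) : stageP D j T ≠ 0 := by
  intro h
  apply h0
  have hpos : ∀ _ : Fin N, (0 : ℝ) < Real.exp (-((p : ℝ) ^ j * Geom.AA p D.ρ)) := fun _ => Real.exp_pos _
  have hs := isSubst_stageInv D hj _ le_rfl
  rw [← comp_stageP_stageInv D hT hj _ le_rfl, h]
  exact comp_zero hpos hs

/-- The round Gauss norm is at most the stage norm. -/
lemma gn_round_le {T : MvPowerSeries (Fin N) K} (hT : Integral T) {j : ℕ} (hj : N ≤ j) (r2 : ℝ)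
    (hr2 : (p : ℝ) ^ j * Geom.AA p D.ρ ≤ r2) :
    gn (fun _ : Fin N => Real.exp (-r2)) T ≤ gn (stageR D j) (stageP D j T) := by
  have hb := isSubst_stageL D hj
  have hs := isSubst_stageInv D hj r2 hr2
  have hTr := integral_restricted (boxR_pos D j) (boxR_lt_one D j) hT
  have hpos : ∀ _ : Fin N, (0 : ℝ) < Real.exp (-r2) := fun _ => Real.exp_pos _
  conv_lhs => rw [← comp_stageP_stageInv D hT hj r2 hr2]
  exact gn_comp_le hpos hs (comp_restricted (stageR_pos D j) hb hTr)

/-- (E9, real part) Concavity of the round valuation for integral series: with `0 < r ≤ r2`,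
`‖T‖_{r}^{r2/r} ≤ ‖T‖_{r2}`. -/
lemma gn_round_rpow_le {T : MvPowerSeries (Fin N) K} (hT : Integral T) (h0 : T ≠ 0) {r r2 : ℝ} (hr : 0 < r)
    (hrr : r ≤ r2) :
    gn (fun _ : Fin N => Real.exp (-r)) T ^ (r2 / r) ≤ gn (fun _ : Fin N => Real.exp (-r2)) T := by
  have hR : ∀ (s : ℝ), 0 < s → IsRestricted (fun _ : Fin N => Real.exp (-s)) T := fun s hs =>
    integral_restricted (fun _ => Real.exp_pos _)
      (fun _ => by rw [Real.exp_lt_one_iff]; linarith) hT
  obtain ⟨e, he⟩ := exists_max (r := fun _ : Fin N => Real.exp (-r)) (fun _ => Real.exp_pos _) (hR r hr) h0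
  have hE : ‖coeff e T‖ * rpow (fun _ : Fin N => Real.exp (-r)) e
      = gn (fun _ : Fin N => Real.exp (-r)) T := he
  rw [← hE]
  have hq : 1 ≤ r2 / r := by rwa [one_le_div hr]
  have hrp : ∀ s : ℝ, rpow (fun _ : Fin N => Real.exp (-s)) e =
      Real.exp (-s * ((e.sum fun _ k => k : ℕ) : ℝ)) := by
    intro s
    unfold rpow Finsupp.prod Finsupp.sum
    simp only [← Real.exp_nat_mul]
    rw [← Real.exp_sum]
    congr 1
    push_cast
    rw [Finset.mul_sum]
    refine Finset.sum_congr rfl fun i _ => ?_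
    ring
  refine le_trans ?_ (le_gn (hR r2 (hr.trans_le hrr)) e)
  rw [Real.mul_rpow (norm_nonneg _) (rpow_nonneg (fun _ => (Real.exp_pos _).le) _)]
  refine mul_le_mul ?_ ?_ (Real.rpow_nonneg (rpow_nonneg (fun _ => (Real.exp_pos _).le) _) _) (norm_nonneg _)
  · calc ‖coeff e T‖ ^ (r2 / r) ≤ ‖coeff e T‖ ^ (1 : ℝ) :=
          Real.rpow_le_rpow_of_exponent_ge' (norm_nonneg _) (hT e) zero_le_one hq
      _ = ‖coeff e T‖ := Real.rpow_one _
  · rw [hrp, hrp, ← Real.exp_mul]
    apply Real.exp_le_exp.2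
    apply le_of_eq
    field_simp

/-- (E9) -/
theorem ZZ_le {T : MvPowerSeries (Fin N) K} (hT : Integral T) {j : ℕ} (hj : N ≤ j) {x0 : Fin N → K} {r : ℝ}
    (hr : 0 < r) (hrr : r ≤ (p : ℝ) ^ j * Geom.AA p D.ρ) (hx : ∀ i, ‖x0 i‖ ≤ Real.exp (-r))
    (hne : eval x0 T ≠ 0) :
    ZZ D j T ≤ ((p : ℝ) ^ j * Geom.AA p D.ρ / r) * (- Real.log ‖eval x0 T‖) := by
  set r2 := (p : ℝ) ^ j * Geom.AA p D.ρ with hr2def
  have h0 : T ≠ 0 := by
    rintro rfl
    apply hne
    simp [eval_def]
  have hRr : IsRestricted (fun _ : Fin N => Real.exp (-r)) T :=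
    integral_restricted (fun _ => Real.exp_pos _)
      (fun _ => by rw [Real.exp_lt_one_iff]; linarith) hT
  have hRr2 : IsRestricted (fun _ : Fin N => Real.exp (-r2)) T :=
    integral_restricted (fun _ => Real.exp_pos _)
      (fun _ => by rw [Real.exp_lt_one_iff]; linarith [hr.trans_le hrr]) hT
  have h1 : ‖eval x0 T‖ ≤ gn (fun _ : Fin N => Real.exp (-r)) T := isSubst_eval_bound hx hRr
  have h2 := gn_round_rpow_le hT h0 hr hrr
  have h3 := gn_round_le D hT hj r2 le_rfl
  have hpos : 0 < ‖eval x0 T‖ := norm_pos_iff.mpr hne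
  have hq : 0 ≤ r2 / r := div_nonneg (hr.le.trans hrr) hr.le
  have h4 : ‖eval x0 T‖ ^ (r2 / r) ≤ gn (stageR D j) (stageP D j T) :=
    (Real.rpow_le_rpow hpos.le h1 hq).trans (h2.trans h3)
  have h5 := Real.log_le_log (Real.rpow_pos_of_pos hpos _) h4
  rw [Real.log_rpow hpos] at h5
  unfold ZZ Zv
  linarith

/-! ### E6, E8: the potential along the chain -/

/-- The potential `Φ_j`. -/
noncomputable def Pot (j : ℕ) (T : MvPowerSeries (Fin N) K) : ℝ :=
  ZZ D j T + D.sigma j * Lpot D j T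

/-- (E6) -/
theorem pot_start {T : MvPowerSeries (Fin N) K} (hT : Integral T) (hP : stageP D (N + 1) T ≠ 0) :
    Pot D (N + 1) T ≤ ZZ D (N + 1) T / (1 - D.θ) := by
  have h1θ : 0 < 1 - D.θ := by linarith [D.θ_lt]
  have hS := S_pos D N
  have hL : Lpot D (N + 1) T ≤ ZZ D (N + 1) T / D.S N := by
    refine Lpot_le D (Nat.le_succ N) hT hP fun e he => ?_
    rw [le_div_iff₀ hS, mul_comm]
    exact S_mul_wdot_le D hT N le_rfl hP he
  have hσ := sigma_nonneg D (N + 1)
  have hs : D.sigma (N + 1) = D.S N * (D.θ / (1 - D.θ)) := by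
    unfold Geom.Data.sigma Geom.Data.S
    rw [pow_succ]
    field_simp
  have h2 : D.sigma (N + 1) * Lpot D (N + 1) T ≤ ZZ D (N + 1) T * (D.θ / (1 - D.θ)) := by
    calc D.sigma (N + 1) * Lpot D (N + 1) T ≤ D.sigma (N + 1) * (ZZ D (N + 1) T / D.S N) :=
          mul_le_mul_of_nonneg_left hL hσ
      _ = ZZ D (N + 1) T * (D.θ / (1 - D.θ)) := by
          rw [hs]
          field_simp
  unfold Pot
  have h3 : ZZ D (N + 1) T / (1 - D.θ) = ZZ D (N + 1) T + ZZ D (N + 1) T * (D.θ / (1 - D.θ)) := by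
    field_simp
    ring
  rw [h3]
  linarith

/-- `Z ≤ Φ`. -/
lemma ZZ_le_pot (j : ℕ) (T : MvPowerSeries (Fin N) K) : ZZ D j T ≤ Pot D j T := by
  unfold Pot
  have := mul_nonneg (sigma_nonneg D j) (Lpot_nonneg D j T)
  linarith

variable (ι : kk p n →+* K)

/-- The chain of series: `T_{N+1+l}`. -/
noncomputable def chainT (T : MvPowerSeries (Fin N) K) (a : ℕ → kk p n) : ℕ → MvPowerSeries (Fin N) K
  | 0 => T
  | l + 1 => shiftBy D ι (a l) (N + 1 + l) (chainT T a l)

lemma chainT_congr (T : MvPowerSeries (Fin N) K) {a a' : ℕ → kk p n} (l : ℕ)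
    (h : ∀ i < l, a i = a' i) : chainT D ι T a l = chainT D ι T a' l := by
  induction l with
  | zero => rfl
  | succ l ih =>
    simp only [chainT]
    rw [ih (fun i hi => h i (Nat.lt_succ_of_lt hi)), h l (Nat.lt_succ_self l)]

/-- (E8, iteration) -/
theorem exists_chain {T : MvPowerSeries (Fin N) K} (hT : Integral T) (hP : stageP D (N + 1) T ≠ 0)
    (l : ℕ) : ∃ a : ℕ → kk p n, Integral (chainT D ι T a l) ∧
      stageP D (N + 1 + l) (chainT D ι T a l) ≠ 0 ∧
      Pot D (N + 1 + l) (chainT D ι T a l) ≤ Pot D (N + 1) T := by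
  induction l with
  | zero => exact ⟨fun _ => 0, hT, hP, le_rfl⟩
  | succ l ih =>
    obtain ⟨a, h1, h2, h3⟩ := ih
    obtain ⟨b, hb1, hb2, hb3⟩ := chain_step D ι (N + 1 + l) (by omega) (chainT D ι T a l) h1 h2
    refine ⟨Function.update a l b, ?_⟩
    have hc : chainT D ι T (Function.update a l b) l = chainT D ι T a l :=
      chainT_congr D ι T l fun i hi => Function.update_of_ne hi.ne _ _
    have he : chainT D ι T (Function.update a l b) (l + 1)
        = shiftBy D ι b (N + 1 + l) (chainT D ι T a l) := by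
      simp only [chainT]
      rw [hc, Function.update_self]
    rw [he]
    refine ⟨hb1, hb2, ?_⟩
    exact le_trans hb3 h3

/-- (E8) For every integral `T`, the value at the end of the chain is bounded below. -/
theorem chain_lower {T : MvPowerSeries (Fin N) K} (hT : Integral T) (hP : stageP D (N + 1) T ≠ 0)
    (l : ℕ) (hl : ZZ D (N + 1) T / (1 - D.θ) < (p : ℝ) ^ (N + 1 + l) * rhoLast D) :
    ∃ a : ℕ → kk p n, Real.exp (-(ZZ D (N + 1) T / (1 - D.θ))) ≤ ‖coeff 0 (chainT D ι T a l)‖ := by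
  obtain ⟨a, h1, h2, h3⟩ := exists_chain D ι hT hP l
  refine ⟨a, ?_⟩
  have hJ : N ≤ N + 1 + l := by omega
  have hb := isSubst_stageL D hJ
  have hTr := integral_restricted (boxR_pos D (N + 1 + l)) (boxR_lt_one D (N + 1 + l)) h1
  have hPr : IsRestricted (stageR D (N + 1 + l)) (stageP D (N + 1 + l) (chainT D ι T a l)) :=
    comp_restricted (stageR_pos D _) hb hTr
  have hg := gn_pos (stageR_pos D _) hPr h2
  have hZ : ZZ D (N + 1 + l) (chainT D ι T a l) ≤ ZZ D (N + 1) T / (1 - D.θ) :=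
    (ZZ_le_pot D _ _).trans (h3.trans (pot_start D hT hP))
  have hgn : gn (stageR D (N + 1 + l)) (stageP D (N + 1 + l) (chainT D ι T a l))
      = Real.exp (-ZZ D (N + 1 + l) (chainT D ι T a l)) := by
    unfold ZZ Zv
    rw [neg_neg, Real.exp_log hg]
  have hlarge : Real.exp (-((p : ℝ) ^ (N + 1 + l) * rhoLast D))
      < gn (stageR D (N + 1 + l)) (stageP D (N + 1 + l) (chainT D ι T a l)) := by
    rw [hgn]
    apply Real.exp_lt_exp.2
    linarith
  rw [norm_coeff_zero_eq D h1 hJ hlarge, hgn]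
  apply Real.exp_le_exp.2
  linarith

end Chain

end Crest.Agent.LT
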