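/-
S0351 (row 227), BLUEPRINT section D5: the class `Apx` of functions on `m_K^N` that are
approximated, to arbitrary relative order in `ρ(x) = min v(x_i)`, by polynomials over `k` in the
`p^m`-th roots of the coordinates.

All statements are written multiplicatively: `v(y) ≥ c ρ(x)` is `‖y‖ ≤ tupleRad x ^ c`, with
`tupleRad x = max ‖x_i‖ = exp(-ρ(x))`.
-/
import Mathlib

set_option autoImplicit false
set_option linter.unusedSectionVars false

namespace Crest.Agent.LT

open MvPolynomial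

section Apx

variable {p : ℕ} [hp : Fact p.Prime]
variable {k : Type*} [Field k] [CharP k p] [PerfectRing k p]
variable {K : Type*} [NormedField K] [IsUltrametricDist K] [CharP K p] [PerfectRing K p]
variable {τ σ : Type*} [Fintype τ] [Fintype σ]

/-- `x ∈ m_K^τ`. -/
def InMK (x : τ → K) : Prop := ∀ i, ‖x i‖ < 1

/-- `tupleRad x = max_i ‖x_i‖ = exp(-ρ(x))` (`0` for the empty tuple). -/
noncomputable def tupleRad (x : τ → K) : ℝ := ((Finset.univ.sup fun i => ‖x i‖₊ : NNReal) : ℝ)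

lemma tupleRad_nonneg (x : τ → K) : 0 ≤ tupleRad x := NNReal.coe_nonneg _

lemma norm_le_tupleRad (x : τ → K) (i : τ) : ‖x i‖ ≤ tupleRad x := by
  have : ‖x i‖₊ ≤ Finset.univ.sup fun i => ‖x i‖₊ :=
    Finset.le_sup (f := fun i => ‖x i‖₊) (Finset.mem_univ i)
  exact_mod_cast this

lemma tupleRad_le {x : τ → K} {r : ℝ} (hr : 0 ≤ r) (h : ∀ i, ‖x i‖ ≤ r) : tupleRad x ≤ r := by
  have : (Finset.univ.sup fun i => ‖x i‖₊) ≤ (⟨r, hr⟩ : NNReal) := by
    refine Finset.sup_le fun i _ => ?_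
    exact_mod_cast h i
  exact_mod_cast this

lemma tupleRad_lt_one {x : τ → K} (h : InMK x) : tupleRad x < 1 := by
  have : (Finset.univ.sup fun i => ‖x i‖₊) < (1 : NNReal) := by
    rw [Finset.sup_lt_iff (by simp)]
    intro i _
    exact_mod_cast h i
  exact_mod_cast this

lemma rpow_tupleRad_mono {x : τ → K} (h : InMK x) {c c' : ℝ} (hc' : 0 ≤ c') (hcc : c' ≤ c) :
    tupleRad x ^ c ≤ tupleRad x ^ c' :=
  Real.rpow_le_rpow_of_exponent_ge' (tupleRad_nonneg x) (tupleRad_lt_one h).le hc' hcc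

/-- The `p^m`-th root. -/
noncomputable def pRt (p : ℕ) [Fact p.Prime] {K : Type*} [Field K] [CharP K p] [PerfectRing K p]
    (m : ℕ) (y : K) : K := (iterateFrobeniusEquiv K p m).symm y

omit [NormedField K] [IsUltrametricDist K] [CharP K p] [PerfectRing K p] in
lemma pRt_pow {K : Type*} [Field K] [CharP K p] [PerfectRing K p] (m : ℕ) (y : K) :
    pRt p m y ^ p ^ m = y := by
  have := (iterateFrobeniusEquiv K p m).apply_symm_apply y
  rwa [iterateFrobeniusEquiv_def] at this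

omit [NormedField K] [IsUltrametricDist K] [CharP K p] [PerfectRing K p] in
lemma pRt_pow_eq {K : Type*} [Field K] [CharP K p] [PerfectRing K p] (m : ℕ) (y : K) :
    pRt p m (y ^ p ^ m) = y := by
  have := (iterateFrobeniusEquiv K p m).symm_apply_apply y
  rwa [iterateFrobeniusEquiv_def] at this

omit [NormedField K] [IsUltrametricDist K] [CharP K p] [PerfectRing K p] in
lemma pRt_zero {K : Type*} [Field K] [CharP K p] [PerfectRing K p] (y : K) : pRt p 0 y = y := by
  have := pRt_pow (p := p) 0 y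
  simpa using this

omit [NormedField K] [IsUltrametricDist K] [CharP K p] [PerfectRing K p] in
lemma pRt_add_pow {K : Type*} [Field K] [CharP K p] [PerfectRing K p] (m j : ℕ) (y : K) :
    pRt p (m + j) y ^ p ^ j = pRt p m y := by
  apply (iterateFrobeniusEquiv K p m).injective
  rw [iterateFrobeniusEquiv_def, iterateFrobeniusEquiv_def, ← pow_mul, ← pow_add, add_comm j m,
    pRt_pow, pRt_pow]

omit [IsUltrametricDist K] [CharP K p] [PerfectRing K p] in
lemma norm_pRt_pow [CharP K p] [PerfectRing K p] (m : ℕ) (y : K) : ‖pRt p m y‖ ^ p ^ m = ‖y‖ := by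
  rw [← norm_pow, pRt_pow]

omit [IsUltrametricDist K] [CharP K p] [PerfectRing K p] in
lemma norm_pRt_lt_one [CharP K p] [PerfectRing K p] (m : ℕ) {y : K} (h : ‖y‖ < 1) :
    ‖pRt p m y‖ < 1 := by
  by_contra hc
  push Not at hc
  have := one_le_pow₀ (n := p ^ m) hc
  rw [norm_pRt_pow] at this
  linarith

omit [IsUltrametricDist K] [CharP K p] [PerfectRing K p] in
lemma norm_pRt_le_one [CharP K p] [PerfectRing K p] (m : ℕ) {y : K} (h : ‖y‖ ≤ 1) :
    ‖pRt p m y‖ ≤ 1 := by
  by_contra hc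
  push Not at hc
  have := one_lt_pow₀ hc (n := p ^ m) (pow_ne_zero _ hp.out.ne_zero)
  rw [norm_pRt_pow] at this
  linarith

/-- The tuple of `p^m`-th roots. -/
noncomputable def pRtT (p : ℕ) [Fact p.Prime] {K : Type*} [Field K] [CharP K p] [PerfectRing K p]
    {τ : Type*} (m : ℕ) (x : τ → K) : τ → K := fun i => pRt p m (x i)

omit [IsUltrametricDist K] [Fintype τ] in
lemma inMK_pRtT {x : τ → K} (h : InMK x) (m : ℕ) : InMK (pRtT p m x) :=
  fun i => norm_pRt_lt_one m (h i)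

/-- The value `G(y)` for a polynomial `G` over `k` at a point of `K`. -/
lemma norm_eval₂_le_one {ι : k →+* K} (hι : ∀ a, ‖ι a‖ ≤ 1) {y : τ → K} (hy : ∀ i, ‖y i‖ ≤ 1)
    (G : MvPolynomial τ k) : ‖eval₂ ι y G‖ ≤ 1 := by
  induction G using MvPolynomial.induction_on with
  | C a => simpa using hι a
  | add f g hf hg =>
    rw [eval₂_add]
    exact (IsUltrametricDist.norm_add_le_max _ _).trans (max_le hf hg)
  | mul_X f i hf =>
    rw [eval₂_mul, eval₂_X, norm_mul]
    exact mul_le_one₀ hf (norm_nonneg _) (hy i)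

/-- Expansion: `G(y^{p^j}) = (expand G)(y)`. -/
lemma eval₂_pow_eq_expand (ι : k →+* K) (y : τ → K) (q : ℕ) (G : MvPolynomial τ k) :
    eval₂ ι (fun i => y i ^ q) G = eval₂ ι y (expand q G) := by
  induction G using MvPolynomial.induction_on with
  | C a => simp
  | add f g hf hg => simp [hf, hg]
  | mul_X f i hf => simp [hf]

/-- Substitution of variables by monomials. -/
lemma eval₂_bind₁' (ι : k →+* K) (y : σ → K) (g : τ → MvPolynomial σ k) (G : MvPolynomial τ k) :
    eval₂ ι (fun i => eval₂ ι y (g i)) G = eval₂ ι y (bind₁ g G) := by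
  induction G using MvPolynomial.induction_on with
  | C a => simp
  | add f g hf hg => simp [hf, hg]
  | mul_X f i hf => simp [hf]

/-- Aligning root levels: `G(x^{1/p^m}) = (expand G)(x^{1/p^{m+j}})`. -/
lemma eval₂_rtT_align (ι : k →+* K) (x : τ → K) (m j : ℕ) (G : MvPolynomial τ k) :
    eval₂ ι (pRtT p m x) G = eval₂ ι (pRtT p (m + j) x) (expand (p ^ j) G) := by
  rw [← eval₂_pow_eq_expand]
  congr 1
  funext i
  exact (pRt_add_pow m j (x i)).symm

/-- The Frobenius root of a polynomial: `(G^{[1/p]}(y))^p = G(y^p)`. -/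
lemma eval₂_frob_root (ι : k →+* K) (y : τ → K) (G : MvPolynomial τ k) :
    (eval₂ ι y (map (frobeniusEquiv k p).symm.toRingHom G)) ^ p
      = eval₂ ι (fun i => y i ^ p) G := by
  induction G using MvPolynomial.induction_on with
  | C a =>
    have h : (frobeniusEquiv k p).symm a ^ p = a := by
      have := (frobeniusEquiv k p).apply_symm_apply a
      rwa [frobeniusEquiv_def] at this
    simp only [map_C, eval₂_C, RingEquiv.toRingHom_eq_coe, RingHom.coe_coe]
    rw [← map_pow, h]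
  | add f g hf hg =>
    simp only [map_add, eval₂_add]
    rw [add_pow_char, hf, hg]
  | mul_X f i hf =>
    simp only [map_mul, map_X, eval₂_mul, eval₂_X]
    rw [mul_pow, hf]

/-- **The class `Apx`.** `F` is bounded by `1` on `m_K^τ` and for every `c > 0` it is approximated
with error `v ≥ c ρ(x)` by a polynomial over `k` in the `p^m`-th roots of the coordinates. -/
def IsApx (p : ℕ) [Fact p.Prime] {k K τ : Type*} [Field k] [NormedField K] [CharP K p]
    [PerfectRing K p] [Fintype τ] (ι : k →+* K) (F : (τ → K) → K) : Prop :=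
  (∀ x, InMK x → ‖F x‖ ≤ 1) ∧
    ∀ c : ℝ, 0 < c → ∃ (m : ℕ) (G : MvPolynomial τ k), ∀ x, InMK x →
      ‖F x - eval₂ ι (pRtT p m x) G‖ ≤ tupleRad x ^ c

namespace IsApx

variable {ι : k →+* K} {F F' : (τ → K) → K}

/-- Congruence on the ball. -/
lemma congr (h : IsApx p ι F) (he : ∀ x, InMK x → F' x = F x) : IsApx p ι F' := by
  refine ⟨fun x hx => by rw [he x hx]; exact h.1 x hx, fun c hc => ?_⟩
  obtain ⟨m, G, hG⟩ := h.2 c hc
  exact ⟨m, G, fun x hx => by rw [he x hx]; exact hG x hx⟩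

/-- Constants from `k`. -/
lemma const (hι : ∀ a, ‖ι a‖ ≤ 1) (a : k) : IsApx p ι (fun _ : τ → K => ι a) := by
  refine ⟨fun _ _ => hι a, fun c hc => ⟨0, C a, fun x _ => ?_⟩⟩
  simp only [eval₂_C, sub_self, norm_zero]
  exact Real.rpow_nonneg (tupleRad_nonneg x) c

/-- Coordinates. -/
lemma coord (i : τ) : IsApx p ι (fun x : τ → K => x i) := by
  refine ⟨fun x hx => (hx i).le, fun c hc => ⟨0, X i, fun x _ => ?_⟩⟩
  simp only [eval₂_X, pRtT, pRt_zero, sub_self, norm_zero]
  exact Real.rpow_nonneg (tupleRad_nonneg x) c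

/-- Limits: `F` is uniformly approximated by members of `Apx` with errors `v ≥ c ρ(x)`, `c → ∞`. -/
lemma of_approx (h1 : ∀ x, InMK x → ‖F x‖ ≤ 1)
    (h : ∀ c : ℝ, 0 < c → ∃ F' : (τ → K) → K, IsApx p ι F' ∧
      ∀ x, InMK x → ‖F x - F' x‖ ≤ tupleRad x ^ c) : IsApx p ι F := by
  refine ⟨h1, fun c hc => ?_⟩
  obtain ⟨F', hF', hd⟩ := h c hc
  obtain ⟨m, G, hG⟩ := hF'.2 c hc
  refine ⟨m, G, fun x hx => ?_⟩
  have : F x - eval₂ ι (pRtT p m x) G = (F x - F' x) + (F' x - eval₂ ι (pRtT p m x) G) := by ring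
  rw [this]
  exact (IsUltrametricDist.norm_add_le_max _ _).trans (max_le (hd x hx) (hG x hx))

/-- Sums. -/
lemma add (h : IsApx p ι F) (h' : IsApx p ι F') : IsApx p ι (fun x => F x + F' x) := by
  refine ⟨fun x hx => (IsUltrametricDist.norm_add_le_max _ _).trans
    (max_le (h.1 x hx) (h'.1 x hx)), fun c hc => ?_⟩
  obtain ⟨m, G, hG⟩ := h.2 c hc
  obtain ⟨m', G', hG'⟩ := h'.2 c hc
  refine ⟨m + m', expand (p ^ m') G + expand (p ^ m) G', fun x hx => ?_⟩
  rw [eval₂_add, ← eval₂_rtT_align, add_comm m m', ← eval₂_rtT_align]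
  have : F x + F' x - (eval₂ ι (pRtT p m x) G + eval₂ ι (pRtT p m' x) G')
      = (F x - eval₂ ι (pRtT p m x) G) + (F' x - eval₂ ι (pRtT p m' x) G') := by ring
  rw [this]
  exact (IsUltrametricDist.norm_add_le_max _ _).trans (max_le (hG x hx) (hG' x hx))

/-- Negation. -/
lemma neg (h : IsApx p ι F) : IsApx p ι (fun x => -F x) := by
  refine ⟨fun x hx => by simpa using h.1 x hx, fun c hc => ?_⟩
  obtain ⟨m, G, hG⟩ := h.2 c hc
  refine ⟨m, -G, fun x hx => ?_⟩
  have : -F x - eval₂ ι (pRtT p m x) (-G) = -(F x - eval₂ ι (pRtT p m x) G) := by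
    have : eval₂ ι (pRtT p m x) (-G) = - eval₂ ι (pRtT p m x) G := by
      simp [eval₂_neg]
    rw [this]; ring
  rw [this, norm_neg]
  exact hG x hx

/-- Differences. -/
lemma sub (h : IsApx p ι F) (h' : IsApx p ι F') : IsApx p ι (fun x => F x - F' x) := by
  have := h.add h'.neg
  simpa [sub_eq_add_neg] using this

/-- Products. -/
lemma mul (hι : ∀ a, ‖ι a‖ ≤ 1) (h : IsApx p ι F) (h' : IsApx p ι F') :
    IsApx p ι (fun x => F x * F' x) := by
  refine ⟨fun x hx => ?_, fun c hc => ?_⟩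
  · rw [norm_mul]; exact mul_le_one₀ (h.1 x hx) (norm_nonneg _) (h'.1 x hx)
  obtain ⟨m, G, hG⟩ := h.2 c hc
  obtain ⟨m', G', hG'⟩ := h'.2 c hc
  refine ⟨m + m', expand (p ^ m') G * expand (p ^ m) G', fun x hx => ?_⟩
  rw [eval₂_mul, ← eval₂_rtT_align, add_comm m m', ← eval₂_rtT_align]
  have hGb : ‖eval₂ ι (pRtT p m' x) G'‖ ≤ 1 :=
    norm_eval₂_le_one hι (fun i => (inMK_pRtT hx m' i).le) G'
  have : F x * F' x - (eval₂ ι (pRtT p m x) G * eval₂ ι (pRtT p m' x) G')
      = F x * (F' x - eval₂ ι (pRtT p m' x) G')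
        + (F x - eval₂ ι (pRtT p m x) G) * eval₂ ι (pRtT p m' x) G' := by ring
  rw [this]
  refine (IsUltrametricDist.norm_add_le_max _ _).trans (max_le ?_ ?_)
  · rw [norm_mul]
    calc ‖F x‖ * ‖F' x - eval₂ ι (pRtT p m' x) G'‖ ≤ 1 * tupleRad x ^ c :=
          mul_le_mul (h.1 x hx) (hG' x hx) (norm_nonneg _) zero_le_one
      _ = tupleRad x ^ c := one_mul _
  · rw [norm_mul]
    calc ‖F x - eval₂ ι (pRtT p m x) G‖ * ‖eval₂ ι (pRtT p m' x) G'‖ ≤ tupleRad x ^ c * 1 :=
          mul_le_mul (hG x hx) hGb (norm_nonneg _) (Real.rpow_nonneg (tupleRad_nonneg x) c)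
      _ = tupleRad x ^ c := mul_one _

/-- Powers. -/
lemma pow (hι : ∀ a, ‖ι a‖ ≤ 1) (h : IsApx p ι F) (e : ℕ) : IsApx p ι (fun x => F x ^ e) := by
  induction e with
  | zero =>
    have := const (p := p) (τ := τ) hι (1 : k) (ι := ι)
    simpa using this
  | succ e ih =>
    have := ih.mul hι h
    simpa [pow_succ] using this

/-- Finite sums. -/
lemma sum (hι : ∀ a, ‖ι a‖ ≤ 1) {α : Type*} (s : Finset α) {f : α → (τ → K) → K}
    (h : ∀ a ∈ s, IsApx p ι (f a)) : IsApx p ι (fun x => ∑ a ∈ s, f a x) := by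
  classical
  induction s using Finset.induction_on with
  | empty =>
    have := const (p := p) (τ := τ) hι (0 : k) (ι := ι)
    simpa using this
  | insert a s ha ih =>
    have h1 := h a (Finset.mem_insert_self a s)
    have h2 := ih (fun b hb => h b (Finset.mem_insert_of_mem hb))
    have := h1.add h2
    simpa [Finset.sum_insert ha] using this

/-- Finite products. -/
lemma prod (hι : ∀ a, ‖ι a‖ ≤ 1) {α : Type*} (s : Finset α) {f : α → (τ → K) → K}
    (h : ∀ a ∈ s, IsApx p ι (f a)) : IsApx p ι (fun x => ∏ a ∈ s, f a x) := by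
  classical
  induction s using Finset.induction_on with
  | empty =>
    have := const (p := p) (τ := τ) hι (1 : k) (ι := ι)
    simpa using this
  | insert a s ha ih =>
    have h1 := h a (Finset.mem_insert_self a s)
    have h2 := ih (fun b hb => h b (Finset.mem_insert_of_mem hb))
    have := h1.mul hι h2
    simpa [Finset.prod_insert ha] using this

/-- Polynomial composition: if the `F j` are in `Apx` then so is `P(F_j(x))`. -/
lemma poly_comp (hι : ∀ a, ‖ι a‖ ≤ 1) {F : σ → (τ → K) → K} (h : ∀ j, IsApx p ι (F j))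
    (P : MvPolynomial σ k) : IsApx p ι (fun x => eval₂ ι (fun j => F j x) P) := by
  induction P using MvPolynomial.induction_on with
  | C a => simpa using const (p := p) (τ := τ) hι a (ι := ι)
  | add f g hf hg => simpa [eval₂_add] using hf.add hg
  | mul_X f i hf => simpa [eval₂_mul] using hf.mul hι (h i)

omit [IsUltrametricDist K] in
private lemma norm_frob_root (y : K) (e : ℝ) (r : ℝ) (hr : 0 ≤ r)
    (h : ‖y‖ ≤ r ^ (e * p)) : ‖pRt p 1 y‖ ≤ r ^ e := by
  have hp0 : 0 < p := hp.out.pos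
  have h1 : ‖pRt p 1 y‖ ^ p = ‖y‖ := by simpa using norm_pRt_pow (p := p) 1 y
  by_contra hc
  push Not at hc
  have h2 : (r ^ e) ^ p < ‖pRt p 1 y‖ ^ p :=
    pow_lt_pow_left₀ hc (Real.rpow_nonneg hr e) hp0.ne'
  rw [h1, ← Real.rpow_natCast, ← Real.rpow_mul hr] at h2
  linarith

/-- `p`-th roots. -/
lemma frobRoot (h : IsApx p ι F) : IsApx p ι (fun x => pRt p 1 (F x)) := by
  have hp0 : (0 : ℝ) < p := by exact_mod_cast hp.out.pos
  refine ⟨fun x hx => norm_pRt_le_one 1 (h.1 x hx), fun c hc => ?_⟩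
  obtain ⟨m, G, hG⟩ := h.2 (c * p) (mul_pos hc hp0)
  refine ⟨m + 1, map (frobeniusEquiv k p).symm.toRingHom G, fun x hx => ?_⟩
  -- the `p`-th power of the polynomial value is `G(x^{1/p^m})`
  have hv : (eval₂ ι (pRtT p (m + 1) x) (map (frobeniusEquiv k p).symm.toRingHom G)) ^ p
      = eval₂ ι (pRtT p m x) G := by
    rw [eval₂_frob_root]
    congr 1
    funext i
    have := pRt_add_pow (p := p) m 1 (x i)
    simpa [pRtT] using this
  have hroot : eval₂ ι (pRtT p (m + 1) x) (map (frobeniusEquiv k p).symm.toRingHom G)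
      = pRt p 1 (eval₂ ι (pRtT p m x) G) := by
    rw [← hv]
    have := pRt_pow_eq (p := p) 1 (eval₂ ι (pRtT p (m + 1) x)
      (map (frobeniusEquiv k p).symm.toRingHom G))
    simpa using this.symm
  rw [hroot]
  -- `rt` is additive
  have hadd : pRt p 1 (F x) - pRt p 1 (eval₂ ι (pRtT p m x) G)
      = pRt p 1 (F x - eval₂ ι (pRtT p m x) G) := by
    simp only [pRt, map_sub]
  rw [hadd]
  exact norm_frob_root _ c _ (tupleRad_nonneg x) (hG x hx)

/-- Iterated roots. -/
lemma rootIter (h : IsApx p ι F) (m : ℕ) : IsApx p ι (fun x => pRt p m (F x)) := by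
  induction m with
  | zero => simpa [pRt_zero] using h
  | succ m ih =>
    refine (ih.frobRoot).congr fun x _ => ?_
    -- `rt (m+1) y = rt 1 (rt m y)`
    have h1 : pRt p 1 (pRt p m (F x)) ^ p ^ (m + 1) = F x := by
      have e : pRt p 1 (pRt p m (F x)) ^ p = pRt p m (F x) := by
        simpa using pRt_pow (p := p) 1 (pRt p m (F x))
      rw [pow_succ, pow_mul', e, pRt_pow]
    have := pRt_pow_eq (p := p) (m + 1) (pRt p 1 (pRt p m (F x)))
    rw [h1] at this
    exact this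

/-- **Composition**: `F ∈ Apx` on `m_K^σ`, `H_j ∈ Apx` on `m_K^τ` with `v(H_j) ≥ c₀ ρ(x)`.
Then `F ∘ H ∈ Apx`. -/
lemma comp (hι : ∀ a, ‖ι a‖ ≤ 1) {F : (σ → K) → K} (hF : IsApx p ι F)
    {H : σ → (τ → K) → K} (hH : ∀ j, IsApx p ι (H j)) {c₀ : ℝ} (hc₀ : 0 < c₀)
    (hs : ∀ j x, InMK x → ‖H j x‖ ≤ tupleRad x ^ c₀) :
    IsApx p ι (fun x => F (fun j => H j x)) := by
  have hball : ∀ x : τ → K, InMK x → InMK (fun j => H j x) := fun x hx j =>
    lt_of_le_of_lt (hs j x hx) (Real.rpow_lt_one (tupleRad_nonneg x) (tupleRad_lt_one hx) hc₀)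
  refine ⟨fun x hx => hF.1 _ (hball x hx), fun c hc => ?_⟩
  obtain ⟨m, G, hG⟩ := hF.2 (c / c₀) (div_pos hc hc₀)
  have hP : IsApx p ι (fun x => eval₂ ι (fun j => pRt p m (H j x)) G) :=
    poly_comp hι (fun j => (hH j).rootIter m) G
  obtain ⟨m', G', hG'⟩ := hP.2 c hc
  refine ⟨m', G', fun x hx => ?_⟩
  have h1 : ‖F (fun j => H j x) - eval₂ ι (fun j => pRt p m (H j x)) G‖ ≤ tupleRad x ^ c := by
    have h2 := hG (fun j => H j x) (hball x hx)
    have h3 : tupleRad (fun j => H j x) ≤ tupleRad x ^ c₀ :=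
      tupleRad_le (Real.rpow_nonneg (tupleRad_nonneg x) _) (fun j => hs j x hx)
    have h4 : tupleRad (fun j => H j x) ^ (c / c₀) ≤ (tupleRad x ^ c₀) ^ (c / c₀) :=
      Real.rpow_le_rpow (tupleRad_nonneg _) h3 (div_pos hc hc₀).le
    rw [← Real.rpow_mul (tupleRad_nonneg x), mul_div_cancel₀ _ hc₀.ne'] at h4
    exact h2.trans h4
  have : F (fun j => H j x) - eval₂ ι (pRtT p m' x) G'
      = (F (fun j => H j x) - eval₂ ι (fun j => pRt p m (H j x)) G)
        + (eval₂ ι (fun j => pRt p m (H j x)) G - eval₂ ι (pRtT p m' x) G') := by ring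
  rw [this]
  exact (IsUltrametricDist.norm_add_le_max _ _).trans (max_le h1 (hG' x hx))

/-- A function approximated by polynomials in the coordinates with errors `v ≥ D·ρ(y)`
(e.g. the value of a power series over `k`, with the truncations as `P`) is in `Apx`. -/
lemma of_poly_approx (h1 : ∀ y, InMK y → ‖F y‖ ≤ 1)
    (h : ∀ D : ℝ, 0 < D → ∃ P : MvPolynomial τ k, ∀ y, InMK y →
      ‖F y - eval₂ ι y P‖ ≤ tupleRad y ^ D) : IsApx p ι F := by
  refine ⟨h1, fun c hc => ?_⟩
  obtain ⟨P, hP⟩ := h c hc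
  refine ⟨0, P, fun x hx => ?_⟩
  have : pRtT p 0 x = x := by funext i; simp [pRtT, pRt_zero]
  rw [this]
  exact hP x hx

/-- Precomposition with `x ↦ (x_{π i}^{p^{a i}})_i`. This is the form in which tuples are permuted
and raised to `q`-powers in E11. -/
lemma precomp_pow {F : (σ → K) → K} (hF : IsApx p ι F) (π : σ → τ) (a : σ → ℕ) :
    IsApx p ι (fun x : τ → K => F (fun i => x (π i) ^ p ^ a i)) := by
  have hnorm : ∀ (x : τ → K), InMK x → ∀ i, ‖x (π i) ^ p ^ a i‖ ≤ ‖x (π i)‖ := by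
    intro x hx i
    rw [norm_pow]
    exact pow_le_of_le_one (norm_nonneg _) (hx _).le (pow_ne_zero _ hp.out.ne_zero)
  have hball : ∀ x : τ → K, InMK x → InMK (fun i => x (π i) ^ p ^ a i) := fun x hx i =>
    lt_of_le_of_lt (hnorm x hx i) (hx _)
  refine ⟨fun x hx => hF.1 _ (hball x hx), fun c hc => ?_⟩
  obtain ⟨m, G, hG⟩ := hF.2 c hc
  refine ⟨m, bind₁ (fun i => (X (π i) : MvPolynomial τ k) ^ p ^ a i) G, fun x hx => ?_⟩
  have h2 := hG _ (hball x hx)
  have h3 : tupleRad (fun i => x (π i) ^ p ^ a i) ≤ tupleRad x :=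
    tupleRad_le (tupleRad_nonneg x) (fun i => (hnorm x hx i).trans (norm_le_tupleRad x _))
  have h4 : tupleRad (fun i => x (π i) ^ p ^ a i) ^ c ≤ tupleRad x ^ c :=
    Real.rpow_le_rpow (tupleRad_nonneg _) h3 hc.le
  have h5 : eval₂ ι (pRtT p m fun i => x (π i) ^ p ^ a i) G
      = eval₂ ι (pRtT p m x) (bind₁ (fun i => (X (π i) : MvPolynomial τ k) ^ p ^ a i) G) := by
    rw [← eval₂_bind₁']
    congr 1
    funext i
    simp only [pRtT, eval₂_pow, eval₂_X]
    -- `(x^{p^a})^{1/p^m} = (x^{1/p^m})^{p^a}`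
    apply (iterateFrobeniusEquiv K p m).injective
    rw [iterateFrobeniusEquiv_def, iterateFrobeniusEquiv_def, pRt_pow, ← pow_mul, mul_comm,
      pow_mul, pRt_pow]
  rw [← h5]
  exact h2.trans h4

end IsApx

end Apx

end Crest.Agent.LT
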