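import Crest.Prelude.Def_LubinTate

/-!
# Section A5 of the S0351 blueprint: commutative algebra of the Lubin-Tate ring

Generic part: for a local ring `W`, `A = W[[X_1..X_N]]`; the coefficient filtration `filt I k`
(`coeff e h ∈ I ^ (k - deg e)`) is the `k`-th power of the maximal ideal, and `A` is adically
complete as soon as `W` is.

Specialisation: `LTRing p n`: residue map, maximal ideal, adic completeness, and
Lemma A5.1: a `W`-algebra endomorphism `φ` with `φ(m) A = m` is bijective.
-/

set_option autoImplicit false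

namespace Crest.Agent.LT

open Crest.LubinTate MvPowerSeries

section Generic

variable {N : ℕ} {W : Type*} [CommRing W]

/-- The coefficient filtration of `W[[X_1..X_N]]` attached to an ideal `I` of `W`. -/
def filt (I : Ideal W) (k : ℕ) : Ideal (MvPowerSeries (Fin N) W) where
  carrier := {h | ∀ e : Fin N →₀ ℕ, coeff e h ∈ I ^ (k - e.degree)}
  add_mem' := by
    intro a b ha hb e
    rw [map_add]
    exact Ideal.add_mem _ (ha e) (hb e)
  zero_mem' := by
    intro e
    simp
  smul_mem' := by
    intro c h hh e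
    classical
    rw [smul_eq_mul, coeff_mul]
    refine Ideal.sum_mem _ fun x hx => ?_
    refine Ideal.mul_mem_left _ _ (Ideal.pow_le_pow_right ?_ (hh x.2))
    have hx' : x.1 + x.2 = e := Finset.HasAntidiagonal.mem_antidiagonal.mp hx
    have : e.degree = x.1.degree + x.2.degree := by rw [← hx', map_add]
    omega

theorem mem_filt {I : Ideal W} {k : ℕ} {h : MvPowerSeries (Fin N) W} :
    h ∈ filt I k ↔ ∀ e : Fin N →₀ ℕ, coeff e h ∈ I ^ (k - e.degree) := Iff.rfl

theorem filt_mul_mem {I : Ideal W} {k l : ℕ} {a b : MvPowerSeries (Fin N) W}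
    (ha : a ∈ filt I k) (hb : b ∈ filt I l) : a * b ∈ filt I (k + l) := by
  intro e
  classical
  rw [coeff_mul]
  refine Ideal.sum_mem _ fun x hx => ?_
  have h1 := Ideal.mul_mem_mul (ha x.1) (hb x.2)
  rw [← pow_add] at h1
  refine Ideal.pow_le_pow_right ?_ h1
  have hx' : x.1 + x.2 = e := Finset.HasAntidiagonal.mem_antidiagonal.mp hx
  have : e.degree = x.1.degree + x.2.degree := by rw [← hx', map_add]
  omega

theorem filt_zero (I : Ideal W) : filt (N := N) I 0 = ⊤ := by
  ext h
  simp [mem_filt]

theorem filt_anti (I : Ideal W) {k l : ℕ} (hkl : k ≤ l) :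
    filt (N := N) I l ≤ filt I k := by
  intro h hh e
  exact Ideal.pow_le_pow_right (by omega) (hh e)

theorem mem_filt_one {I : Ideal W} {h : MvPowerSeries (Fin N) W} :
    h ∈ filt I 1 ↔ constantCoeff h ∈ I := by
  constructor
  · intro hh
    have := hh 0
    simpa using this
  · intro hh e
    by_cases he : e = 0
    · subst he
      simpa using hh
    · have : e.degree ≠ 0 := by
        intro h0
        exact he ((Finsupp.degree_eq_zero_iff e).mp h0)
      have h2 : 1 - e.degree = 0 := by omega
      rw [h2]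
      simp

theorem C_mem_filt {I : Ideal W} {k : ℕ} {c : W} (hc : c ∈ I ^ k) :
    C c ∈ filt (N := N) I k := by
  classical
  intro e
  rw [coeff_C]
  split_ifs with he
  · subst he
    simpa using hc
  · exact Ideal.zero_mem _

theorem X_mem_filt_one (I : Ideal W) (i : Fin N) : X i ∈ filt (N := N) I 1 := by
  rw [mem_filt_one]
  simp

/-- "Divide by `X_i`" the monomials whose smallest variable is `X_i`. -/
noncomputable def divPart (h : MvPowerSeries (Fin N) W) (i : Fin N) : MvPowerSeries (Fin N) W :=
  open Classical in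
  fun e => if (∀ j, j < i → e j = 0) then coeff (e + Finsupp.single i 1) h else 0

theorem coeff_divPart (h : MvPowerSeries (Fin N) W) (i : Fin N) (e : Fin N →₀ ℕ) :
    coeff e (divPart h i) =
      open Classical in if (∀ j, j < i → e j = 0) then coeff (e + Finsupp.single i 1) h else 0 :=
  rfl

theorem coeff_X_mul' (i : Fin N) (f : MvPowerSeries (Fin N) W) (e : Fin N →₀ ℕ) :
    coeff e (X i * f) =
      if 0 < e i then coeff (e - Finsupp.single i 1) f else 0 := by
  classical
  rw [X_mul, X]
  split_ifs with h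
  · have : e = (e - Finsupp.single i 1) + Finsupp.single i 1 := by
      ext j
      by_cases hj : j = i
      · subst hj; simp; omega
      · simp [Ne.symm hj]
    conv_lhs => rw [this]
    have h2 := coeff_add_mul_monomial (e - Finsupp.single i 1) (Finsupp.single i 1) f (1 : W)
    rw [h2, mul_one]
  · have h0 : e i = 0 := by omega
    rw [coeff_mul]
    refine Finset.sum_eq_zero fun x hx => ?_
    have hx' : x.1 + x.2 = e := Finset.HasAntidiagonal.mem_antidiagonal.mp hx
    have hi : x.2 i = 0 := by
      have := congrArg (fun g => g i) hx'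
      simp only [Finsupp.add_apply] at this
      omega
    have : x.2 ≠ Finsupp.single i 1 := by
      intro h3
      rw [h3] at hi
      simp at hi
    rw [coeff_monomial, if_neg this, mul_zero]

/-- The decomposition `h = C h_0 + ∑ X_i h_i`. -/
theorem eq_C_add_sum_X_mul_divPart (h : MvPowerSeries (Fin N) W) :
    h = C (constantCoeff h) + ∑ i, X i * divPart h i := by
  classical
  ext e
  rw [map_add, map_sum]
  simp only [coeff_X_mul', coeff_divPart]
  by_cases he : e = 0
  · subst he
    simp [coeff_C]
  · rw [coeff_C, if_neg he, zero_add]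
    -- the smallest index of the support
    have hne : e.support.Nonempty := Finsupp.support_nonempty_iff.mpr he
    set i0 := e.support.min' hne with hi0
    have hi0mem : i0 ∈ e.support := Finset.min'_mem _ _
    have hi0pos : 0 < e i0 := Nat.pos_of_ne_zero (Finsupp.mem_support_iff.mp hi0mem)
    have hlt : ∀ j, j < i0 → e j = 0 := by
      intro j hj
      by_contra hne'
      have : j ∈ e.support := Finsupp.mem_support_iff.mpr hne'
      exact absurd (Finset.min'_le _ _ this) (not_le.mpr hj)
    rw [Finset.sum_eq_single i0]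
    · rw [if_pos hi0pos, if_pos]
      · congr 2
        ext j
        by_cases hj : j = i0
        · subst hj; simp; omega
        · simp [Ne.symm hj]
      · intro j hj
        have : (Finsupp.single i0 1 : Fin N →₀ ℕ) j = 0 := by
          simp [hj.ne']
        simp [hlt j hj]
    · intro i _ hne2
      split_ifs with h1 h2
      · exfalso
        -- `i0 ≤ i` since `i ∈ support`, and `i ≠ i0` so `i0 < i`.
        have hi : i ∈ e.support := Finsupp.mem_support_iff.mpr (by omega)
        have hle : i0 ≤ i := Finset.min'_le _ _ hi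
        have hlt' : i0 < i := lt_of_le_of_ne hle (Ne.symm hne2)
        have := h2 i0 hlt'
        have h3 : (Finsupp.single i (1 : ℕ) : Fin N →₀ ℕ) i0 = 0 := by
          simp [hlt'.ne]
        simp [h3] at this
        omega
      · rfl
      · rfl
    · intro h0
      exact absurd (Finset.mem_univ i0) h0

theorem divPart_mem_filt {I : Ideal W} {k : ℕ} {h : MvPowerSeries (Fin N) W}
    (hh : h ∈ filt I (k + 1)) (i : Fin N) : divPart h i ∈ filt I k := by
  classical
  intro e
  rw [coeff_divPart]
  split_ifs
  · have := hh (e + Finsupp.single i 1)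
    have hd : (e + Finsupp.single i 1).degree = e.degree + 1 := by
      rw [map_add]; simp
    rw [hd] at this
    have h2 : k + 1 - (e.degree + 1) = k - e.degree := by omega
    rwa [h2] at this
  · exact Ideal.zero_mem _

theorem constantCoeff_mem_of_mem_filt {I : Ideal W} {k : ℕ} {h : MvPowerSeries (Fin N) W}
    (hh : h ∈ filt I k) : constantCoeff h ∈ I ^ k := by
  have := hh 0
  simpa using this

/-- `filt I k` is the `k`-th power of `filt I 1`. -/
theorem filt_eq_pow (I : Ideal W) (k : ℕ) : filt (N := N) I k = (filt (N := N) I 1) ^ k := by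
  induction k with
  | zero =>
    rw [filt_zero, pow_zero, Ideal.one_eq_top]
  | succ k ih =>
    apply le_antisymm
    · intro h hh
      rw [eq_C_add_sum_X_mul_divPart h]
      refine Ideal.add_mem _ ?_ (Ideal.sum_mem _ fun i _ => ?_)
      · -- the constant part: induct on membership in the ideal power
        have hc := constantCoeff_mem_of_mem_filt hh
        have key : ∀ m : ℕ, ∀ c : W, c ∈ I ^ m → C c ∈ (filt (N := N) I 1) ^ m := by
          intro m
          induction m with
          | zero => intro c _; simp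
          | succ m ihm =>
            intro c hc
            rw [pow_succ] at hc ⊢
            refine Submodule.mul_induction_on hc ?_ ?_
            · intro a ha b hb
              rw [map_mul]
              exact Ideal.mul_mem_mul (ihm a ha) (mem_filt_one.mpr (by simpa using hb))
            · intro a b ha hb
              rw [map_add]
              exact Ideal.add_mem _ ha hb
        exact key _ _ hc
      · rw [pow_succ, mul_comm]
        refine Ideal.mul_mem_mul (X_mem_filt_one I i) ?_
        rw [← ih]
        exact divPart_mem_filt hh i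
    · rw [pow_succ, ← ih]
      rw [Ideal.mul_le]
      intro a ha b hb
      exact filt_mul_mem ha hb

theorem maximalIdeal_eq_filt [IsLocalRing W] :
    IsLocalRing.maximalIdeal (MvPowerSeries (Fin N) W) = filt (IsLocalRing.maximalIdeal W) 1 := by
  ext h
  rw [mem_filt_one, IsLocalRing.mem_maximalIdeal, IsLocalRing.mem_maximalIdeal, mem_nonunits_iff,
    mem_nonunits_iff, isUnit_iff_constantCoeff]

/-- The `k`-th power of the maximal ideal of `W[[X]]`, in terms of coefficients. -/
theorem mem_maximalIdeal_pow_iff [IsLocalRing W] {k : ℕ} {h : MvPowerSeries (Fin N) W} :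
    h ∈ (IsLocalRing.maximalIdeal (MvPowerSeries (Fin N) W)) ^ k ↔
      ∀ e : Fin N →₀ ℕ, coeff e h ∈ (IsLocalRing.maximalIdeal W) ^ (k - e.degree) := by
  rw [maximalIdeal_eq_filt, ← filt_eq_pow, mem_filt]

theorem isHausdorff_filt (I : Ideal W) (hW : IsHausdorff I W) :
    IsHausdorff (filt (N := N) I 1) (MvPowerSeries (Fin N) W) := by
  refine ⟨fun x hx => ?_⟩
  ext e
  rw [map_zero]
  refine hW.haus' _ fun m => ?_
  have := hx (m + e.degree)
  rw [SModEq.zero] at this ⊢
  simp only [smul_eq_mul, Ideal.mul_top] at this ⊢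
  rw [← filt_eq_pow] at this
  have h2 := this e
  have h3 : m + e.degree - e.degree = m := by omega
  rwa [h3] at h2

theorem isPrecomplete_filt (I : Ideal W) (hW : IsPrecomplete I W) :
    IsPrecomplete (filt (N := N) I 1) (MvPowerSeries (Fin N) W) := by
  refine ⟨fun f hf => ?_⟩
  simp only [smul_eq_mul, Ideal.mul_top, SModEq.sub_mem, ← filt_eq_pow] at hf
  have key : ∀ e : Fin N →₀ ℕ, ∃ L : W, ∀ n : ℕ,
      coeff e (f (n + e.degree)) - L ∈ I ^ n := by
    intro e
    obtain ⟨L, hL⟩ := hW.prec' (fun n => coeff e (f (n + e.degree))) (by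
      intro m n hmn
      rw [SModEq.sub_mem]
      simp only [smul_eq_mul, Ideal.mul_top]
      have := hf (m := m + e.degree) (n := n + e.degree) (by omega) e
      rw [map_sub] at this
      have h3 : m + e.degree - e.degree = m := by omega
      rwa [h3] at this)
    refine ⟨L, fun n => ?_⟩
    have := hL n
    rw [SModEq.sub_mem] at this
    simpa only [smul_eq_mul, Ideal.mul_top] using this
  choose L hL using key
  let L' : MvPowerSeries (Fin N) W := L
  refine ⟨L', fun n => ?_⟩
  rw [SModEq.sub_mem]
  simp only [smul_eq_mul, Ideal.mul_top, ← filt_eq_pow]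
  intro e
  rw [map_sub]
  have hcoeff : coeff e L' = L e := rfl
  rw [hcoeff]
  by_cases hd : e.degree ≤ n
  · have h1 := hL e (n - e.degree)
    have h2 : n - e.degree + e.degree = n := by omega
    rwa [h2] at h1
  · have h2 : n - e.degree = 0 := by omega
    rw [h2, pow_zero, Ideal.one_eq_top]
    exact Submodule.mem_top

/-- `W[[X_1..X_N]]` is complete for its maximal ideal when `W` is. -/
theorem isAdicComplete_mvPowerSeries [IsLocalRing W]
    (hW : IsAdicComplete (IsLocalRing.maximalIdeal W) W) :
    IsAdicComplete (IsLocalRing.maximalIdeal (MvPowerSeries (Fin N) W))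
      (MvPowerSeries (Fin N) W) := by
  rw [maximalIdeal_eq_filt]
  exact { toIsHausdorff := isHausdorff_filt _ hW.toIsHausdorff
          toIsPrecomplete := isPrecomplete_filt _ hW.toIsPrecomplete }

/-- Generators of the maximal ideal of `W[[X_1..X_N]]`. -/
theorem maximalIdeal_eq_map_sup_span [IsLocalRing W] :
    IsLocalRing.maximalIdeal (MvPowerSeries (Fin N) W) =
      (IsLocalRing.maximalIdeal W).map (C : W →+* MvPowerSeries (Fin N) W) ⊔
        Ideal.span (Set.range (X : Fin N → MvPowerSeries (Fin N) W)) := by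
  apply le_antisymm
  · intro h hh
    rw [maximalIdeal_eq_filt, mem_filt_one] at hh
    rw [eq_C_add_sum_X_mul_divPart h]
    refine Ideal.add_mem _ (Ideal.mem_sup_left (Ideal.mem_map_of_mem _ hh)) ?_
    refine Ideal.sum_mem _ fun i _ => Ideal.mem_sup_right ?_
    rw [mul_comm]
    exact Ideal.mul_mem_left _ _ (Ideal.subset_span ⟨i, rfl⟩)
  · rw [maximalIdeal_eq_filt]
    refine sup_le ?_ ?_
    · rw [Ideal.map_le_iff_le_comap]
      intro c hc
      rw [Ideal.mem_comap, mem_filt_one]
      simpa using hc
    · rw [Ideal.span_le]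
      rintro _ ⟨i, rfl⟩
      exact X_mem_filt_one _ i

end Generic

section Abstract

variable {A : Type*} [CommRing A]

/-- Successive approximation step for an endomorphism with `φ(m) A = m`. -/
theorem approx_step (m : Ideal A) (φ : A →+* A) (h0 : ∀ a, ∃ c, a - φ c ∈ m)
    (h1 : m.map φ = m) (k : ℕ) {x : A} (hx : x ∈ m ^ k) :
    ∃ c ∈ m ^ k, x - φ c ∈ m ^ (k + 1) := by
  have hφm : ∀ d ∈ m, φ d ∈ m := fun d hd => by
    rw [← h1]; exact Ideal.mem_map_of_mem _ hd
  have hφpow : ∀ (j : ℕ) (d : A), d ∈ m ^ j → φ d ∈ m ^ j := by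
    intro j d hd
    have : (m ^ j).map φ ≤ m ^ j := by
      rw [Ideal.map_pow, h1]
    exact this (Ideal.mem_map_of_mem _ hd)
  -- the case `k = 1`
  have one : ∀ v ∈ m, ∃ d ∈ m, v - φ d ∈ m ^ 2 := by
    intro v hv
    rw [← h1] at hv
    refine Submodule.span_induction ?_ ?_ ?_ ?_ hv
    · rintro _ ⟨d, hd, rfl⟩
      exact ⟨d, hd, by simp⟩
    · exact ⟨0, m.zero_mem, by simp⟩
    · rintro a b _ _ ⟨d, hd, hd'⟩ ⟨d2, hd2, hd2'⟩
      refine ⟨d + d2, m.add_mem hd hd2, ?_⟩
      have : a + b - φ (d + d2) = (a - φ d) + (b - φ d2) := by rw [map_add]; ring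
      rw [this]
      exact Ideal.add_mem _ hd' hd2'
    · rintro a b hb ⟨d, hd, hd'⟩
      obtain ⟨w, hw⟩ := h0 a
      refine ⟨w * d, m.mul_mem_left _ hd, ?_⟩
      have : a • b - φ (w * d) =
          (a - φ w) * (b - φ d) + (a - φ w) * φ d + φ w * (b - φ d) := by
        rw [smul_eq_mul, map_mul]; ring
      rw [this]
      refine Ideal.add_mem _ (Ideal.add_mem _ ?_ ?_) (Ideal.mul_mem_left _ _ hd')
      · rw [pow_two] at hd' ⊢
        exact Ideal.mul_mem_mul hw (Ideal.mul_le_left hd')
      · rw [pow_two]
        exact Ideal.mul_mem_mul hw (hφm d hd)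
  induction k generalizing x with
  | zero =>
    obtain ⟨c, hc⟩ := h0 x
    exact ⟨c, by simp, by simpa using hc⟩
  | succ k ih =>
    rw [pow_succ] at hx
    refine Submodule.mul_induction_on hx ?_ ?_
    · intro u hu v hv
      obtain ⟨c, hc, hc'⟩ := ih hu
      obtain ⟨d, hd, hd'⟩ := one v hv
      refine ⟨c * d, ?_, ?_⟩
      · rw [pow_succ]
        exact Ideal.mul_mem_mul hc hd
      · have : u * v - φ (c * d) = (u - φ c) * v + φ c * (v - φ d) := by
          rw [map_mul]; ring
        rw [this]
        refine Ideal.add_mem _ ?_ ?_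
        · rw [pow_succ (m) (k + 1)]
          exact Ideal.mul_mem_mul hc' hv
        · have : k + 1 + 1 = k + 2 := rfl
          rw [this, pow_add]
          exact Ideal.mul_mem_mul (hφpow k c hc) hd'
    · rintro a b ⟨c, hc, hc'⟩ ⟨c2, hc2, hc2'⟩
      refine ⟨c + c2, Ideal.add_mem _ hc hc2, ?_⟩
      have : a + b - φ (c + c2) = (a - φ c) + (b - φ c2) := by rw [map_add]; ring
      rw [this]
      exact Ideal.add_mem _ hc' hc2'

/-- An endomorphism with `φ(m) A = m` and surjective on the residue ring is surjective. -/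
theorem surjective_of_map_eq (m : Ideal A) (hA : IsAdicComplete m A) (φ : A →+* A)
    (h0 : ∀ a, ∃ c, a - φ c ∈ m) (h1 : m.map φ = m) : Function.Surjective φ := by
  intro a
  have hφpow : ∀ (j : ℕ) (d : A), d ∈ m ^ j → φ d ∈ m ^ j := by
    intro j d hd
    have : (m ^ j).map φ ≤ m ^ j := by
      rw [Ideal.map_pow, h1]
    exact this (Ideal.mem_map_of_mem _ hd)
  -- the sequence of partial sums with its invariant
  have step : ∀ (k : ℕ) (C : A), a - φ C ∈ m ^ k →
      ∃ C' : A, C' - C ∈ m ^ k ∧ a - φ C' ∈ m ^ (k + 1) := by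
    intro k C hC
    obtain ⟨c, hc, hc'⟩ := approx_step m φ h0 h1 k hC
    refine ⟨C + c, by simpa using hc, ?_⟩
    have : a - φ (C + c) = a - φ C - φ c := by rw [map_add]; ring
    rwa [this]
  let S : (k : ℕ) → {C : A // a - φ C ∈ m ^ k} := fun k => Nat.rec
    ⟨0, by simp⟩ (fun k C => ⟨(step k C.1 C.2).choose, (step k C.1 C.2).choose_spec.2⟩) k
  have hS : ∀ k, (S (k + 1)).1 - (S k).1 ∈ m ^ k := fun k =>
    (step k (S k).1 (S k).2).choose_spec.1
  have hS2 : ∀ {k l : ℕ}, k ≤ l → (S l).1 - (S k).1 ∈ m ^ k := by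
    intro k l hkl
    induction l, hkl using Nat.le_induction with
    | base => simp
    | succ l hl ih =>
      have : (S (l + 1)).1 - (S k).1 = ((S (l + 1)).1 - (S l).1) + ((S l).1 - (S k).1) := by ring
      rw [this]
      exact Ideal.add_mem _ (Ideal.pow_le_pow_right hl (hS l)) ih
  obtain ⟨L, hL⟩ := hA.toIsPrecomplete.prec' (fun k => (S k).1) (by
    intro k l hkl
    rw [SModEq.sub_mem]
    simp only [smul_eq_mul, Ideal.mul_top]
    have := Ideal.neg_mem_iff _ |>.mpr (hS2 hkl)
    rwa [neg_sub] at this)
  refine ⟨L, ?_⟩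
  have : a - φ L = 0 := by
    refine hA.toIsHausdorff.haus' _ fun k => ?_
    rw [SModEq.zero]
    simp only [smul_eq_mul, Ideal.mul_top]
    have h1' := hL k
    rw [SModEq.sub_mem] at h1'
    simp only [smul_eq_mul, Ideal.mul_top] at h1'
    have : a - φ L = (a - φ (S k).1) + φ ((S k).1 - L) := by rw [map_sub]; ring
    rw [this]
    exact Ideal.add_mem _ (S k).2 (hφpow k _ h1')
  exact (sub_eq_zero.mp this).symm

/-- A surjective ring endomorphism of a Noetherian ring is injective. -/
theorem injective_of_surjective_noetherian [IsNoetherianRing A] (φ : A →+* A)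
    (hφ : Function.Surjective φ) : Function.Injective φ := by
  have hker : Monotone (fun k : ℕ => RingHom.ker (φ ^ k)) := by
    refine monotone_nat_of_le_succ fun k x hx => ?_
    rw [RingHom.mem_ker] at hx ⊢
    rw [pow_succ', RingHom.mul_def, RingHom.comp_apply, hx, map_zero]
  obtain ⟨K, hK⟩ := monotone_stabilizes_iff_noetherian.mpr
    (inferInstance : IsNoetherian A A)
    ⟨fun k : ℕ => RingHom.ker (φ ^ k), hker⟩
  rw [injective_iff_map_eq_zero]
  intro x hx
  have hsurj : ∀ j : ℕ, Function.Surjective (φ ^ j) := by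
    intro j
    induction j with
    | zero => exact fun y => ⟨y, rfl⟩
    | succ j ih =>
      rw [pow_succ, RingHom.mul_def, RingHom.coe_comp]
      exact ih.comp hφ
  obtain ⟨y, rfl⟩ := hsurj K x
  have h1 : y ∈ RingHom.ker (φ ^ (K + 1)) := by
    rw [RingHom.mem_ker, pow_succ', RingHom.mul_def, RingHom.comp_apply, hx]
  have h2 : RingHom.ker (φ ^ K) = RingHom.ker (φ ^ (K + 1)) := hK (K + 1) (Nat.le_succ K)
  rw [← h2, RingHom.mem_ker] at h1
  exact h1

/-- Bijectivity of endomorphisms with `φ(m) A = m`. -/
theorem bijective_of_map_eq [IsNoetherianRing A] (m : Ideal A) (hA : IsAdicComplete m A)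
    (φ : A →+* A) (h0 : ∀ a, ∃ c, a - φ c ∈ m) (h1 : m.map φ = m) : Function.Bijective φ :=
  have hs := surjective_of_map_eq m hA φ h0 h1
  ⟨injective_of_surjective_noetherian φ hs, hs⟩

end Abstract

section LTRing

variable (p : ℕ) [hp : Fact p.Prime] (n : ℕ)

local notation "𝕎k" => WittVector p (GaloisField p n)
local notation "𝔸" => LTRing p n

theorem witt_mem_maximalIdeal_iff (x : 𝕎k) :
    x ∈ IsLocalRing.maximalIdeal 𝕎k ↔ WittVector.constantCoeff x = 0 := by
  rw [IsLocalRing.mem_maximalIdeal, mem_nonunits_iff]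
  constructor
  · intro h
    by_contra h0
    exact h (WittVector.isUnit_of_coeff_zero_ne_zero x h0)
  · intro h hu
    have : IsUnit (WittVector.constantCoeff x) := hu.map _
    rw [h] at this
    exact not_isUnit_zero this

theorem witt_maximalIdeal_eq : IsLocalRing.maximalIdeal 𝕎k = Ideal.span {(p : 𝕎k)} := by
  ext x
  rw [witt_mem_maximalIdeal_iff, WittVector.mem_span_p_iff_coeff_zero_eq_zero]
  rfl

/-- Witt vectors over `F_q` are complete for the maximal ideal. -/
theorem witt_isAdicComplete : IsAdicComplete (IsLocalRing.maximalIdeal 𝕎k) 𝕎k := by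
  rw [witt_maximalIdeal_eq]
  exact WittVector.isAdicCompleteIdealSpanP

/-- The Lubin-Tate ring is adically complete. -/
theorem ltRing_isAdicComplete : IsAdicComplete (IsLocalRing.maximalIdeal 𝔸) 𝔸 :=
  isAdicComplete_mvPowerSeries (witt_isAdicComplete p n)

theorem witt_constantCoeff_surjective :
    Function.Surjective (WittVector.constantCoeff : 𝕎k →+* GaloisField p n) := by
  intro a
  refine ⟨WittVector.teichmuller p a, ?_⟩
  exact WittVector.teichmuller_coeff_zero p a

theorem residue_surjective : Function.Surjective (LTRing.residue p n) := by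
  intro a
  obtain ⟨w, rfl⟩ := witt_constantCoeff_surjective p n a
  refine ⟨C w, ?_⟩
  simp [LTRing.residue]

theorem residue_algebraMap :
    (LTRing.residue p n).comp (algebraMap 𝕎k 𝔸) = WittVector.constantCoeff := by
  ext x
  have : (algebraMap 𝕎k 𝔸) x = C x := rfl
  simp [LTRing.residue, this]

theorem residue_C (w : 𝕎k) :
    LTRing.residue p n (C w : 𝔸) = WittVector.constantCoeff w := by
  simp [LTRing.residue]

/-- The residue map has kernel the maximal ideal. -/
theorem ker_residue : RingHom.ker (LTRing.residue p n) = IsLocalRing.maximalIdeal 𝔸 := by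
  ext a
  rw [RingHom.mem_ker, maximalIdeal_eq_filt, mem_filt_one, witt_mem_maximalIdeal_iff]
  rfl

theorem mem_maximalIdeal_iff_residue {a : 𝔸} :
    a ∈ IsLocalRing.maximalIdeal 𝔸 ↔ LTRing.residue p n a = 0 := by
  rw [← ker_residue, RingHom.mem_ker]

/-- Generators of the maximal ideal `m = (p, t_1, ..., t_{n-1})`. -/
theorem ltRing_maximalIdeal_eq :
    IsLocalRing.maximalIdeal 𝔸 =
      Ideal.span {(p : 𝔸)} ⊔ Ideal.span (Set.range (X : Fin (n - 1) → 𝔸)) := by
  rw [maximalIdeal_eq_map_sup_span, witt_maximalIdeal_eq, Ideal.map_span, Set.image_singleton]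
  simp

/-- Lemma A5.1. A `W`-algebra endomorphism `φ` of `LTRing` with `φ(m) A = m` is bijective. -/
theorem ltRing_bijective_of_map_eq (φ : 𝔸 →ₐ[𝕎k] 𝔸)
    (hφ : (IsLocalRing.maximalIdeal 𝔸).map φ.toRingHom = IsLocalRing.maximalIdeal 𝔸) :
    Function.Bijective φ := by
  refine bijective_of_map_eq (IsLocalRing.maximalIdeal 𝔸) (ltRing_isAdicComplete p n) φ.toRingHom
    ?_ hφ
  intro a
  obtain ⟨w, hw⟩ := witt_constantCoeff_surjective p n (LTRing.residue p n a)
  refine ⟨algebraMap 𝕎k 𝔸 w, ?_⟩
  rw [mem_maximalIdeal_iff_residue, map_sub, sub_eq_zero]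
  have : φ.toRingHom (algebraMap 𝕎k 𝔸 w) = algebraMap 𝕎k 𝔸 w := φ.commutes w
  rw [this, ← hw]
  exact (congrFun (congrArg DFunLike.coe (residue_algebraMap p n)) w).symm

end LTRing

end Crest.Agent.LT
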