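import Mathlib
import Crest.Agent.Lib.LubinTate.LatQMap

/-!
# Group laws on the open unit ball, given as functions `K → K → K`

`BallLaw add` : `add` is a commutative group law on the open unit ball with
`‖add a b - a - b‖ ≤ ‖a‖ ‖b‖` (true for the evaluation of any commutative formal group law over
`O_K`).  `lawNsmul`, `lawSum`: integer multiples and finite sums under the law, and `xiV`, the map
`ξ_v(x) = Σ^{add0}_i [v_i] x_i^{1/q}` of blueprint D4.
-/

set_option autoImplicit false
set_option linter.style.haveILetI false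

namespace Crest.Agent.LT

section Law

variable {K : Type*} [NormedField K]

/-- `m`-fold multiple under the law `add`: `[0] x = 0`, `[m+1] x = add ([m] x) x`
(the evaluation of `mulSeries F m`). -/
noncomputable def lawNsmul (add : K → K → K) : ℕ → K → K
  | 0, _ => 0
  | m + 1, x => add (lawNsmul add m x) x

/-- Finite sum under the law `add`: `f 0 +_add (f 1 +_add ( ... +_add 0))`. -/
noncomputable def lawSum (add : K → K → K) {N : ℕ} (f : Fin N → K) : K :=
  ((List.finRange N).map f).foldr add 0

@[simp] lemma lawNsmul_zero (add : K → K → K) (x : K) : lawNsmul add 0 x = 0 := rfl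
lemma lawNsmul_succ (add : K → K → K) (m : ℕ) (x : K) :
    lawNsmul add (m + 1) x = add (lawNsmul add m x) x := rfl

/-- A commutative group law on the open unit ball. -/
structure BallLaw (add : K → K → K) : Prop where
  mem : ∀ a b : K, ‖a‖ < 1 → ‖b‖ < 1 → ‖add a b‖ < 1
  comm : ∀ a b : K, ‖a‖ < 1 → ‖b‖ < 1 → add a b = add b a
  assoc : ∀ a b c : K, ‖a‖ < 1 → ‖b‖ < 1 → ‖c‖ < 1 → add (add a b) c = add a (add b c)
  zero : ∀ a : K, ‖a‖ < 1 → add a 0 = a
  neg : ∀ a : K, ‖a‖ < 1 → ∃ b : K, ‖b‖ < 1 ∧ add a b = 0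
  close : ∀ a b : K, ‖a‖ < 1 → ‖b‖ < 1 → ‖add a b - a - b‖ ≤ ‖a‖ * ‖b‖

/-- The open ball, remembering the law (type synonym). -/
def BallOf (_add : K → K → K) : Type _ := {x : K // ‖x‖ < 1}

/-- The value in `K`. -/
def BallOf.val {add : K → K → K} (x : BallOf add) : K := Subtype.val x

lemma BallOf.val_lt {add : K → K → K} (x : BallOf add) : ‖x.val‖ < 1 := x.2

lemma BallOf.val_inj {add : K → K → K} {x y : BallOf add} (h : x.val = y.val) : x = y :=
  Subtype.ext h

/-- Build a point. -/
def BallOf.mk {add : K → K → K} (a : K) (ha : ‖a‖ < 1) : BallOf add := ⟨a, ha⟩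

@[simp] lemma BallOf.val_mk {add : K → K → K} (a : K) (ha : ‖a‖ < 1) :
    (BallOf.mk a ha : BallOf add).val = a := rfl

/-- The group structure. -/
@[instance_reducible] noncomputable def BallLaw.addCommGroup {add : K → K → K} (h : BallLaw add) :
    AddCommGroup (BallOf add) :=
  letI inst₀ : Zero (BallOf add) := ⟨⟨0, by simp⟩⟩
  letI inst₁ : Add (BallOf add) := ⟨fun x y => ⟨add x.1 y.1, h.mem _ _ x.2 y.2⟩⟩
  letI inst₂ : Neg (BallOf add) := ⟨fun x => ⟨Classical.choose (h.neg x.1 x.2),
    (Classical.choose_spec (h.neg x.1 x.2)).1⟩⟩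
  letI G : AddGroup (BallOf add) := AddGroup.ofLeftAxioms
    (fun a b c => BallOf.val_inj (h.assoc _ _ _ a.2 b.2 c.2))
    (fun a => BallOf.val_inj (by
      change add 0 a.1 = a.1
      rw [h.comm _ _ (by simp) a.2, h.zero _ a.2]))
    (fun a => BallOf.val_inj (by
      change add (Classical.choose (h.neg a.1 a.2)) a.1 = 0
      rw [h.comm _ _ (Classical.choose_spec (h.neg a.1 a.2)).1 a.2]
      exact (Classical.choose_spec (h.neg a.1 a.2)).2))
  { G with
    add_comm := fun a b => BallOf.val_inj (h.comm _ _ a.2 b.2) }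

section Group

variable {add : K → K → K} (h : BallLaw add)

include h

lemma BallLaw.val_zero : letI := h.addCommGroup; (0 : BallOf add).val = 0 := rfl

lemma BallLaw.val_add (x y : BallOf add) :
    letI := h.addCommGroup; (x + y).val = add x.val y.val := rfl

lemma BallLaw.val_nsmul (m : ℕ) (x : BallOf add) :
    letI := h.addCommGroup; (m • x).val = lawNsmul add m x.val := by
  letI := h.addCommGroup
  induction m with
  | zero => simp [h.val_zero]
  | succ m ih =>
    rw [succ_nsmul, h.val_add, ih, lawNsmul_succ]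

lemma BallLaw.val_sum {N : ℕ} (f : Fin N → BallOf add) :
    letI := h.addCommGroup; (∑ i, f i).val = lawSum add (fun i => (f i).val) := by
  letI := h.addCommGroup
  rw [Fin.sum_univ_def, lawSum]
  generalize List.finRange N = l
  induction l with
  | nil => simp [h.val_zero]
  | cons a l ih =>
    simp only [List.map_cons, List.sum_cons, List.foldr_cons]
    rw [h.val_add, ih]

/-- membership in the ball of multiples -/
lemma BallLaw.lawNsmul_mem (m : ℕ) {x : K} (hx : ‖x‖ < 1) : ‖lawNsmul add m x‖ < 1 := by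
  induction m with
  | zero => simp
  | succ m ih => exact h.mem _ _ ih hx

lemma BallLaw.lawSum_mem {N : ℕ} {f : Fin N → K} (hf : ∀ i, ‖f i‖ < 1) : ‖lawSum add f‖ < 1 := by
  letI := h.addCommGroup
  have := h.val_sum (fun i => (BallOf.mk (f i) (hf i) : BallOf add))
  simp only [BallOf.val_mk] at this
  rw [← this]
  exact BallOf.val_lt _

/-- consequences of `close`: the ultrametric inequality for the law -/
lemma BallLaw.norm_add_le [IsUltrametricDist K] {a b : K} (ha : ‖a‖ < 1) (hb : ‖b‖ < 1) :
    ‖add a b‖ ≤ max ‖a‖ ‖b‖ := by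
  have e : add a b = (add a b - a - b) + (a + b) := by ring
  rw [e]
  refine (IsUltrametricDist.norm_add_le_max _ _).trans (max_le ?_ (IsUltrametricDist.norm_add_le_max _ _))
  refine (h.close a b ha hb).trans ?_
  refine le_max_of_le_left ?_
  exact mul_le_of_le_one_right (norm_nonneg _) hb.le

lemma BallLaw.norm_neg_eq [IsUltrametricDist K] {a b : K} (ha : ‖a‖ < 1) (hb : ‖b‖ < 1)
    (hab : add a b = 0) : ‖a‖ = ‖b‖ := by
  have hc := h.close a b ha hb
  rw [hab, zero_sub] at hc
  have e1 : ‖-a - b‖ = ‖a + b‖ := by rw [← norm_neg]; ring_nf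
  rw [e1] at hc
  by_contra hne
  have h2 := IsUltrametricDist.norm_add_eq_max_of_norm_ne_norm hne
  rw [h2] at hc
  rcases le_total ‖a‖ ‖b‖ with hl | hl
  · rw [max_eq_right hl] at hc
    have hbpos : 0 < ‖b‖ := lt_of_le_of_ne (norm_nonneg _) (fun e => hne (by
      have : ‖a‖ = 0 := le_antisymm (by rw [← e] at hl; exact hl) (norm_nonneg _)
      rw [this, ← e]))
    nlinarith [norm_nonneg a]
  · rw [max_eq_left hl] at hc
    have hapos : 0 < ‖a‖ := lt_of_le_of_ne (norm_nonneg _) (fun e => hne (by
      have : ‖b‖ = 0 := le_antisymm (by rw [← e] at hl; exact hl) (norm_nonneg _)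
      rw [this, ← e]))
    nlinarith [norm_nonneg b]

end Group

end Law

section Xi

variable {K : Type*} [NormedField K] [IsUltrametricDist K] [CompleteSpace K]
variable {p : ℕ} [Fact p.Prime] [CharP K p] [PerfectRing K p]

/-- `ξ_v(x) = Σ^{add0}_i [v_i]_{add0} x_i^{1/q}` (blueprint D4), `q = p^n`. -/
noncomputable def xiV (add0 : K → K → K) (p n : ℕ) [Fact p.Prime] [CharP K p] [PerfectRing K p]
    {N : ℕ} (v : Fin N → Fin p) (x : Fin N → K) : K :=
  lawSum add0 fun i => lawNsmul add0 (v i : ℕ) (qroot p n (x i))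

end Xi

end Crest.Agent.LT
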