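/-
S0351 (row 227), section D: `BallLaw` instances of helper44's `LatLaw` for the laws of `LatEval`,
integer multiples, and the identification of a point `z : A → K` with `evT` of its coordinates.
-/
import Crest.Agent.Lib.LubinTate.LatEval
import Crest.Agent.Lib.LubinTate.LatLaw
import Crest.Agent.Lib.LubinTate.LTRingAlg

set_option autoImplicit false
set_option linter.unusedSectionVars false

namespace Crest.Agent.LT

open Crest.LubinTate MvPowerSeries

noncomputable section

section General

variable {K : Type*} [NormedField K] [IsUltrametricDist K] [CompleteSpace K]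
variable {G : FormalGroup K}

omit [IsUltrametricDist K] [CompleteSpace K] in
theorem monoB_pair (a b : K) (e : Fin 2 →₀ ℕ) :
    Crest.Agent.LT.monoB ![a, b] e = a ^ e 0 * b ^ e 1 := by
  unfold Crest.Agent.LT.monoB
  rw [Finsupp.prod_fintype _ _ (by simp), Fin.prod_univ_two]
  rfl

/-- The coefficient of `X^m` in `G(X, Y)` is `δ_{m,1}` (from `G(X,0) = X`). -/
theorem coeff_ball_single_zero (G : FormalGroup K) (m : ℕ) :
    coeff (Finsupp.single (0 : Fin 2) m) G.toPowerSeries = if m = 1 then 1 else 0 := by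
  classical
  have h := FormalGroup.add_zero G (f := (PowerSeries.X : PowerSeries K)) PowerSeries.HasSubst.X'
  have hs : MvPowerSeries.HasSubst (![(PowerSeries.X : PowerSeries K), 0]) := by
    refine MvPowerSeries.hasSubst_of_constantCoeff_zero ?_
    intro s
    fin_cases s
    · exact MvPowerSeries.constantCoeff_X ()
    · simp
  have h1 := congrArg (PowerSeries.coeff m) h
  rw [PowerSeries.coeff_X] at h1
  rw [← h1]
  show _ = coeff (Finsupp.single () m) (MvPowerSeries.subst _ G.toPowerSeries)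
  rw [MvPowerSeries.coeff_subst hs, finsum_eq_single _ (Finsupp.single (0 : Fin 2) m)]
  · simp only [smul_eq_mul]
    have hp : ((Finsupp.single (0 : Fin 2) m).prod fun s e =>
        (![(PowerSeries.X : PowerSeries K), 0] s) ^ e) = PowerSeries.X ^ m := by
      rw [Finsupp.prod_single_index (by simp)]
      rfl
    rw [hp]
    have : coeff (Finsupp.single () m) ((PowerSeries.X : PowerSeries K) ^ m) = 1 := by
      show PowerSeries.coeff m ((PowerSeries.X : PowerSeries K) ^ m) = 1
      simp [PowerSeries.coeff_X_pow]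
    rw [this, mul_one]
  · intro d hd
    have hp : (d.prod fun s e => (![(PowerSeries.X : PowerSeries K), 0] s) ^ e) =
        PowerSeries.X ^ (d 0) * (0 : PowerSeries K) ^ (d 1) := by
      rw [Finsupp.prod_fintype _ _ (by simp), Fin.prod_univ_two]
      rfl
    simp only [smul_eq_mul]
    rw [hp]
    by_cases h10 : d 1 = 0
    · have : coeff (Finsupp.single () m)
          ((PowerSeries.X : PowerSeries K) ^ (d 0) * (0 : PowerSeries K) ^ (d 1)) = 0 := by
        rw [h10, pow_zero, mul_one]
        show PowerSeries.coeff m ((PowerSeries.X : PowerSeries K) ^ (d 0)) = 0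
        rw [PowerSeries.coeff_X_pow, if_neg]
        intro hm
        apply hd
        ext i
        fin_cases i
        · simp [hm]
        · simpa using h10
      rw [this, mul_zero]
    · rw [zero_pow h10, mul_zero, map_zero, mul_zero]

theorem coeff_ball_single_one (G : FormalGroup K) (m : ℕ) :
    coeff (Finsupp.single (1 : Fin 2) m) G.toPowerSeries = if m = 1 then 1 else 0 := by
  classical
  have h := FormalGroup.zero_add G (f := (PowerSeries.X : PowerSeries K)) PowerSeries.HasSubst.X'
  have hs : MvPowerSeries.HasSubst (![0, (PowerSeries.X : PowerSeries K)]) := by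
    refine MvPowerSeries.hasSubst_of_constantCoeff_zero ?_
    intro s
    fin_cases s
    · simp
    · exact MvPowerSeries.constantCoeff_X ()
  have h1 := congrArg (PowerSeries.coeff m) h
  rw [PowerSeries.coeff_X] at h1
  rw [← h1]
  show _ = coeff (Finsupp.single () m) (MvPowerSeries.subst _ G.toPowerSeries)
  rw [MvPowerSeries.coeff_subst hs, finsum_eq_single _ (Finsupp.single (1 : Fin 2) m)]
  · simp only [smul_eq_mul]
    have hp : ((Finsupp.single (1 : Fin 2) m).prod fun s e =>
        (![0, (PowerSeries.X : PowerSeries K)] s) ^ e) = PowerSeries.X ^ m := by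
      rw [Finsupp.prod_single_index (by simp)]
      rfl
    rw [hp]
    have : coeff (Finsupp.single () m) ((PowerSeries.X : PowerSeries K) ^ m) = 1 := by
      show PowerSeries.coeff m ((PowerSeries.X : PowerSeries K) ^ m) = 1
      simp [PowerSeries.coeff_X_pow]
    rw [this, mul_one]
  · intro d hd
    have hp : (d.prod fun s e => (![0, (PowerSeries.X : PowerSeries K)] s) ^ e) =
        (0 : PowerSeries K) ^ (d 0) * PowerSeries.X ^ (d 1) := by
      rw [Finsupp.prod_fintype _ _ (by simp), Fin.prod_univ_two]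
      rfl
    simp only [smul_eq_mul]
    rw [hp]
    by_cases h10 : d 0 = 0
    · have : coeff (Finsupp.single () m)
          ((0 : PowerSeries K) ^ (d 0) * (PowerSeries.X : PowerSeries K) ^ (d 1)) = 0 := by
        rw [h10, pow_zero, one_mul]
        show PowerSeries.coeff m ((PowerSeries.X : PowerSeries K) ^ (d 1)) = 0
        rw [PowerSeries.coeff_X_pow, if_neg]
        intro hm
        apply hd
        ext i
        fin_cases i
        · simpa using h10
        · simp [hm]
      rw [this, mul_zero]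
    · rw [zero_pow h10, zero_mul, map_zero, mul_zero]

/-- `‖a +_G b − a − b‖ ≤ ‖a‖ ‖b‖`. -/
theorem gAdd_close (hG : IsIntS G.toPowerSeries) {a b : K} (ha : ‖a‖ < 1) (hb : ‖b‖ < 1) :
    ‖gAdd G a b - a - b‖ ≤ ‖a‖ * ‖b‖ := by
  classical
  have hx := norm_pair_lt ha hb
  set T : MvPowerSeries (Fin 2) K := G.toPowerSeries - MvPowerSeries.X 0 - MvPowerSeries.X 1 with hT
  have hnegX : ∀ i : Fin 2, IsIntS (- MvPowerSeries.X i : MvPowerSeries (Fin 2) K) := by
    intro i e
    rw [map_neg, norm_neg]
    exact IsIntS.X i e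
  have hTint : IsIntS T := by
    intro e
    rw [hT, map_sub, map_sub]
    refine norm_sub_le_max_of_le (norm_sub_le_max_of_le (hG e) (IsIntS.X 0 e)) (IsIntS.X 1 e)
  have hval : Crest.Agent.LT.eval ![a, b] T = gAdd G a b - a - b := by
    have h1 : G.toPowerSeries = T + MvPowerSeries.X 0 + MvPowerSeries.X 1 := by rw [hT]; ring
    have hT0 : IsIntS (T + MvPowerSeries.X 0) := by
      intro e
      rw [map_add]
      exact norm_add_le_of_le (hTint e) (IsIntS.X 0 e)
    have h2 : gAdd G a b = Crest.Agent.LT.eval ![a, b] T + a + b := by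
      unfold gAdd
      rw [h1, eval_add_int hT0 (IsIntS.X 1) hx, eval_add_int hTint (IsIntS.X 0) hx, eval_X0, eval_X1]
    rw [h2]; ring
  have key1 : ∀ m, coeff (Finsupp.single (1 : Fin 2) m) T = 0 := by
    intro m
    rw [hT, map_sub, map_sub, coeff_ball_single_one, coeff_X, coeff_X]
    by_cases hm : m = 1
    · simp [hm, Finsupp.single_eq_single_iff]
    · simp [hm, Finsupp.single_eq_single_iff]
  have key0 : ∀ m, coeff (Finsupp.single (0 : Fin 2) m) T = 0 := by
    intro m
    rw [hT, map_sub, map_sub, coeff_ball_single_zero, coeff_X, coeff_X]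
    by_cases hm : m = 1
    · simp [hm, Finsupp.single_eq_single_iff]
    · simp [hm, Finsupp.single_eq_single_iff]
  rw [← hval, eval_def]
  refine IsUltrametricDist.norm_tsum_le_of_forall_le_of_nonneg (by positivity) (fun e => ?_)
  rw [monoB_pair, norm_mul, norm_mul, norm_pow, norm_pow]
  by_cases h0 : e 0 = 0
  · -- then `e = single 1 m`
    have he : e = Finsupp.single (1 : Fin 2) (e 1) := by
      ext i
      fin_cases i
      · simpa using h0
      · simp
    have hc : coeff e T = 0 := by
      rw [he]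
      exact key1 _
    rw [hc]
    simp
    positivity
  by_cases h1 : e 1 = 0
  · have he : e = Finsupp.single (0 : Fin 2) (e 0) := by
      ext i
      fin_cases i
      · simp
      · simpa using h1
    have hc : coeff e T = 0 := by
      rw [he]
      exact key0 _
    rw [hc]
    simp
    positivity
  · have h3 : ‖a‖ ^ e 0 ≤ ‖a‖ := pow_le_of_le_one (norm_nonneg _) ha.le h0
    have h4 : ‖b‖ ^ e 1 ≤ ‖b‖ := pow_le_of_le_one (norm_nonneg _) hb.le h1
    calc ‖coeff e T‖ * (‖a‖ ^ e 0 * ‖b‖ ^ e 1) ≤ 1 * (‖a‖ * ‖b‖) :=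
          mul_le_mul (hTint e) (mul_le_mul h3 h4 (by positivity) (norm_nonneg _)) (by positivity)
            zero_le_one
      _ = ‖a‖ * ‖b‖ := one_mul _

/-- The `BallLaw` of an integral commutative formal group law. -/
theorem ballLaw_gAdd [G.IsComm] (hG : IsIntS G.toPowerSeries)
    (hneg : IsIntS (Crest.Agent.LubinTate.fgNeg G)) : BallLaw (gAdd G) where
  mem a b ha hb := norm_gAdd_lt hG ha hb
  comm a b ha hb := gAdd_comm hG ha hb
  assoc a b c ha hb hc := gAdd_assoc hG ha hb hc
  zero a ha := gAdd_zero hG ha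
  neg a ha := ⟨evalP (Crest.Agent.LubinTate.fgNeg G) a,
    norm_evalP_lt (Crest.Agent.LubinTate.constantCoeff_fgNeg G) hneg ha, gAdd_neg hG hneg ha⟩
  close a b ha hb := gAdd_close hG ha hb

theorem isIntS_mulSeries (hG : IsIntS G.toPowerSeries) (m : ℕ) : IsIntS (mulSeries G m) := by
  induction m with
  | zero => exact IsIntS.zero
  | succ m ih =>
    rw [mulSeries_succ]
    refine IsIntS.subst (MvPowerSeries.hasSubst_of_constantCoeff_zero ?_) ?_ hG
    · intro s
      fin_cases s
      · exact constantCoeff_mulSeries G m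
      · exact MvPowerSeries.constantCoeff_X ()
    · intro s
      fin_cases s
      · exact ih
      · exact IsIntS.X ()

/-- Integer multiples under `gAdd G` are the values of the `m`-series. -/
theorem lawNsmul_gAdd (hG : IsIntS G.toPowerSeries) (m : ℕ) {A : K} (hA : ‖A‖ < 1) :
    lawNsmul (gAdd G) m A = evalP (mulSeries G m) A := by
  have hx : ‖(fun _ : Unit => A)‖ < 1 := by rw [norm_singleton_eq]; exact hA
  induction m with
  | zero =>
    simp only [lawNsmul_zero, mulSeries_zero]
    show _ = Crest.Agent.LT.eval (fun _ : Unit => A) (0 : PowerSeries K)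
    rw [← map_zero (MvPowerSeries.C (R := K)), eval_C]
  | succ m ih =>
    rw [lawNsmul_succ, mulSeries_succ, ih]
    show _ = Crest.Agent.LT.eval (fun _ : Unit => A) (MvPowerSeries.subst
      ![mulSeries G m, PowerSeries.X] G.toPowerSeries)
    rw [eval_fgSubst hG (s := ![mulSeries G m, (PowerSeries.X : PowerSeries K)]) ?_ ?_ hx]
    · simp only [Matrix.cons_val_zero, Matrix.cons_val_one]
      have h2 : Crest.Agent.LT.eval (fun _ : Unit => A) (PowerSeries.X : PowerSeries K) = A :=
        evalP_X A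
      rw [h2]
      rfl
    · intro s
      fin_cases s
      · exact constantCoeff_mulSeries G m
      · exact MvPowerSeries.constantCoeff_X ()
    · intro s
      fin_cases s
      · exact isIntS_mulSeries hG m
      · exact IsIntS.X ()

theorem evalP_X_pow (A : K) (q : ℕ) : evalP ((PowerSeries.X : PowerSeries K) ^ q) A = A ^ q := by
  classical
  rw [evalP_eq_tsum, tsum_eq_single q]
  · simp [PowerSeries.coeff_X_pow]
  · intro m hm
    rw [PowerSeries.coeff_X_pow, if_neg hm, zero_mul]

end General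

section Concrete

variable {p n : ℕ} [Fact p.Prime] [NeZero n]
variable {K : Type*} [NormedField K] [IsUltrametricDist K] [CompleteSpace K] [CharP K p]
variable [PerfectRing K p]

theorem ballLaw_add0K (ιk : kk p n →+* K) : BallLaw (add0K ιk) :=
  ballLaw_gAdd (isIntS_G0K ιk) (isIntS_fgNeg_G0K ιk)

theorem ballLaw_addHt (ιk : kk p n →+* K) {h : ℕ} {t : Fin (n - h) → K} (ht : ‖t‖ < 1) :
    BallLaw (addHt ιk h t) := by
  have e : addHt ιk h t = gAdd (HtK ιk h t ht) := by
    funext a b
    exact addHt_eq ιk h t ht a b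
  rw [e]
  exact ballLaw_gAdd (isIntS_HtK ιk ht) (isIntS_fgNeg_HtK ιk ht)

/-- `[p]_{Γ₀}(A) = A^q` on values. -/
theorem lawNsmul_add0K_p (ιk : kk p n →+* K) {A : K} (hA : ‖A‖ < 1) :
    lawNsmul (add0K ιk) p A = A ^ p ^ n := by
  have e : add0K ιk = gAdd (G0K ιk) := rfl
  rw [e, lawNsmul_gAdd (isIntS_G0K ιk) p hA]
  have h2 : mulSeries (G0K ιk) p = (PowerSeries.X : PowerSeries K) ^ p ^ n := by
    unfold G0K
    rw [← map_mulSeries, mulSeries_Gamma0, map_pow, PowerSeries.map_X]
  rw [h2, evalP_X_pow]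

/-- `[p]_{H_t}(A) = pMap` on values. -/
theorem lawNsmul_addHt_p (ιk : kk p n →+* K) {h : ℕ} (h1 : 1 ≤ h) (hh : h < n)
    {t : Fin (n - h) → K} (ht : ‖t‖ < 1) {A : K} (hA : ‖A‖ < 1) :
    lawNsmul (addHt ιk h t) p A = pMap (wFun ιk h) p h t A := by
  have e : addHt ιk h t = gAdd (HtK ιk h t ht) := by
    funext a b
    exact addHt_eq ιk h t ht a b
  rw [e, lawNsmul_gAdd (isIntS_HtK ιk ht) p hA, pMap_eq_evalP ιk h1 hh ht]

end Concrete

section PointIdentification

variable {p n : ℕ} [Fact p.Prime] [NeZero n]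
variable {K : Type*} [NormedField K] [IsUltrametricDist K]

omit [IsUltrametricDist K] [NeZero n] in
/-- The embedding `k → K` attached to a point `z` with `z p = 0`. -/
theorem exists_iotaK (z : AA p n →+* K) (hp : z (p : AA p n) = 0) :
    ∃ ιk : kk p n →+* K, ∀ w : WW p n, ιk (WittVector.constantCoeff w) = z (MvPowerSeries.C w) := by
  have hsurj := witt_constantCoeff_surjective p n
  let g : WW p n →+* K := z.comp MvPowerSeries.C
  have hker : RingHom.ker (WittVector.constantCoeff : WW p n →+* kk p n) ≤ RingHom.ker g := by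
    intro x hx
    rw [RingHom.mem_ker] at hx ⊢
    have hx2 : x ∈ IsLocalRing.maximalIdeal (WW p n) := (witt_mem_maximalIdeal_iff p n x).2 hx
    rw [witt_maximalIdeal_eq, Ideal.mem_span_singleton'] at hx2
    obtain ⟨y, rfl⟩ := hx2
    have hgp : g (p : WW p n) = 0 := by
      show z (MvPowerSeries.C (p : WW p n)) = 0
      rw [map_natCast, hp]
    rw [map_mul, hgp, mul_zero]
  refine ⟨(RingHom.liftOfSurjective _ hsurj) ⟨g, hker⟩, fun w => ?_⟩
  exact RingHom.liftOfRightInverse_comp_apply _ _ _ ⟨g, hker⟩ w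

/-- A ring map `ψ : A → K` with `‖ψ‖ ≤ 1`, `ψ p = 0` and `‖ψ X_i‖ ≤ r` maps `m^k` into the ball of
radius `r^k`. -/
theorem norm_le_pow_of_mem_pow (ψ : AA p n →+* K) (hψ1 : ∀ a, ‖ψ a‖ ≤ 1)
    (hψp : ψ (p : AA p n) = 0) {r : ℝ} (hr : 0 ≤ r) (hψX : ∀ i, ‖ψ (tt p n i)‖ ≤ r) (k : ℕ)
    {a : AA p n} (ha : a ∈ (IsLocalRing.maximalIdeal (AA p n)) ^ k) : ‖ψ a‖ ≤ r ^ k := by
  let I : ℕ → Ideal (AA p n) := fun j =>
    { carrier := {x | ‖ψ x‖ ≤ r ^ j}
      add_mem' := by
        intro x y hx hy
        simp only [Set.mem_setOf_eq] at hx hy ⊢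
        rw [map_add]
        exact norm_add_le_of_le hx hy
      zero_mem' := by
        simp only [Set.mem_setOf_eq, map_zero, norm_zero]
        positivity
      smul_mem' := by
        intro c x hx
        simp only [Set.mem_setOf_eq, smul_eq_mul] at hx ⊢
        rw [map_mul, norm_mul]
        exact (mul_le_of_le_one_left (norm_nonneg _) (hψ1 c)).trans hx }
  have hI : ∀ j x, x ∈ I j ↔ ‖ψ x‖ ≤ r ^ j := fun _ _ => Iff.rfl
  have hm : IsLocalRing.maximalIdeal (AA p n) ≤ I 1 := by
    rw [ltRing_maximalIdeal_eq, sup_le_iff]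
    constructor
    · rw [Ideal.span_le]
      rintro x rfl
      show ‖ψ (p : AA p n)‖ ≤ r ^ 1
      rw [hψp, norm_zero]
      positivity
    · rw [Ideal.span_le]
      rintro x ⟨i, rfl⟩
      show ‖ψ (MvPowerSeries.X i)‖ ≤ r ^ 1
      rw [pow_one]
      exact hψX i
  have key : ∀ j, (IsLocalRing.maximalIdeal (AA p n)) ^ j ≤ I j := by
    intro j
    induction j with
    | zero =>
      intro x _
      rw [hI, pow_zero]
      exact hψ1 x
    | succ j ih =>
      rw [pow_succ, Ideal.mul_le]
      intro x hx y hy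
      rw [hI, map_mul, norm_mul, pow_succ]
      have h2 : ‖ψ y‖ ≤ r ^ 1 := (hI 1 y).1 (hm hy)
      rw [pow_one] at h2
      exact mul_le_mul ((hI j x).1 (ih hx)) h2 (norm_nonneg _) (pow_nonneg hr j)
  exact (hI k a).1 (key k ha)

omit [IsUltrametricDist K] [NeZero n] in
/-- Two ring maps agreeing on constants and variables agree on monomials. -/
theorem eq_on_monomial (ψ ψ' : AA p n →+* K)
    (hC : ∀ w : WW p n, ψ (MvPowerSeries.C w) = ψ' (MvPowerSeries.C w))
    (hX : ∀ i, ψ (tt p n i) = ψ' (tt p n i)) (e : Fin (n - 1) →₀ ℕ) (c : WW p n) :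
    ψ (MvPowerSeries.monomial e c) = ψ' (MvPowerSeries.monomial e c) := by
  classical
  induction e using Finsupp.induction_linear generalizing c with
  | zero => exact hC c
  | add e e' he he' =>
    have h2 : MvPowerSeries.monomial (e + e') c =
        MvPowerSeries.monomial e c * MvPowerSeries.monomial e' (1 : WW p n) := by
      rw [MvPowerSeries.monomial_mul_monomial, mul_one]
    rw [h2, map_mul, map_mul, he, he']
  | single i k =>
    have h2 : MvPowerSeries.monomial (Finsupp.single i k) c =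
        MvPowerSeries.C c * (tt p n i) ^ k := by
      unfold tt
      rw [MvPowerSeries.X_pow_eq, ← MvPowerSeries.monomial_zero_eq_C_apply,
        MvPowerSeries.monomial_mul_monomial, zero_add, mul_one]
    rw [h2, map_mul, map_mul, map_pow, map_pow, hC, hX]

omit [IsUltrametricDist K] [NeZero n] in
/-- Two ring maps `A → K` agreeing on constants and variables, with the same decay on `m^k`, agree
everywhere. -/
theorem eq_of_eq_on_gens (ψ ψ' : AA p n →+* K)
    (hC : ∀ w : WW p n, ψ (MvPowerSeries.C w) = ψ' (MvPowerSeries.C w))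
    (hX : ∀ i, ψ (tt p n i) = ψ' (tt p n i)) {r : ℝ} (hr0 : 0 ≤ r) (hr1 : r < 1)
    (h : ∀ (k : ℕ) (a : AA p n), a ∈ (IsLocalRing.maximalIdeal (AA p n)) ^ k →
      ‖ψ a - ψ' a‖ ≤ r ^ k) (a : AA p n) : ψ a = ψ' a := by
  classical
  have key : ∀ k : ℕ, ‖ψ a - ψ' a‖ ≤ r ^ k := by
    intro k
    let s : Finset (Fin (n - 1) →₀ ℕ) := (Finsupp.finite_of_degree_lt (σ := Fin (n - 1)) k).toFinset
    let S : AA p n := ∑ e ∈ s, MvPowerSeries.monomial e (coeff e a)
    have hS : ψ S = ψ' S := by
      simp only [S, map_sum]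
      exact Finset.sum_congr rfl (fun e _ => eq_on_monomial ψ ψ' hC hX e _)
    have hmem : a - S ∈ (IsLocalRing.maximalIdeal (AA p n)) ^ k := by
      rw [mem_maximalIdeal_pow_iff]
      intro e
      have hc : coeff e S = if e ∈ s then coeff e a else 0 := by
        simp only [S, map_sum, coeff_monomial]
        rw [Finset.sum_ite_eq]
      rw [map_sub, hc]
      by_cases he : e ∈ s
      · rw [if_pos he, sub_self]
        exact Ideal.zero_mem _
      · rw [if_neg he, sub_zero]
        have hdeg : ¬ Finsupp.degree e < k := fun hh => he (by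
          simpa [s] using hh)
        have h0 : k - Finsupp.degree e = 0 := by omega
        rw [h0, pow_zero, Ideal.one_eq_top]
        exact Submodule.mem_top
    have h2 := h k _ hmem
    rw [map_sub, map_sub] at h2
    have e2 : ψ a - ψ S - (ψ' a - ψ' S) = ψ a - ψ' a := by rw [hS]; ring
    rwa [e2] at h2
  have hlim := tendsto_pow_atTop_nhds_zero_of_lt_one hr0 hr1
  have h0 : ‖ψ a - ψ' a‖ ≤ 0 := ge_of_tendsto' hlim key
  exact sub_eq_zero.1 (norm_le_zero_iff.1 h0)

/-- The coordinates of a point `z` on the stratum: `t_j = z(t_{h+j})`. -/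
def tOf (z : AA p n →+* K) (h : ℕ) : Fin (n - h) → K := fun j =>
  if hi : h + j.val - 1 < n - 1 then z (tt p n ⟨h + j.val - 1, hi⟩) else 0

omit [IsUltrametricDist K] [NeZero n] in
theorem norm_tOf_lt (z : AA p n →+* K)
    (hzm : ∀ a ∈ IsLocalRing.maximalIdeal (AA p n), ‖z a‖ < 1) (h : ℕ) : ‖tOf z h‖ < 1 := by
  rw [pi_norm_lt_iff one_pos]
  intro j
  unfold tOf
  split_ifs with hi
  · apply hzm
    rw [ltRing_maximalIdeal_eq]
    exact Ideal.mem_sup_right (Ideal.subset_span ⟨_, rfl⟩)
  · simp

omit [IsUltrametricDist K] [NeZero n] in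
theorem mem_II_of_lt {h : ℕ} (h1 : 1 ≤ h) {i : Fin (n - 1)} (hi : i.val + 1 < h) :
    tt p n i ∈ II p n h := by
  rw [II, if_neg (by omega)]
  exact Ideal.subset_span (Or.inr ⟨i, hi, rfl⟩)

omit [IsUltrametricDist K] [NeZero n] in
theorem tauOf_tOf (z : AA p n →+* K) {h : ℕ} (h1 : 1 ≤ h)
    (hzI : ∀ a ∈ II p n h, z a = 0) (i : Fin (n - 1)) : tauOf h (tOf z h) i = z (tt p n i) := by
  unfold tauOf
  split_ifs with hi
  · unfold tOf
    have hbound : h + (i.val + 1 - h) - 1 < n - 1 := by have := i.isLt; omega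
    rw [dif_pos hbound]
    congr 2
    apply Fin.ext
    show h + (i.val + 1 - h) - 1 = i.val
    omega
  · rw [hzI _ (mem_II_of_lt h1 (by omega))]

/-- In char `p` we have `(p : K) = 0` exactly for `CharP K p`. -/
theorem charP_of_cast_eq_zero {F : Type*} [Field F] {p : ℕ} [hp : Fact p.Prime]
    (h : (p : F) = 0) : CharP F p := by
  have h2 : ringChar F ∣ p := (ringChar.spec F p).1 h
  rcases (Nat.dvd_prime hp.out).1 h2 with h3 | h3
  · exact absurd h3 (CharP.ringChar_ne_one)
  · exact ringChar.of_eq h3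

variable [CompleteSpace K] [CharP K p]

/-- A point `z : A → K` with the hypotheses of `charP_main` is `evT` of its coordinates. -/
theorem eq_evT (z : AA p n →+* K) (hz1 : ∀ a, ‖z a‖ ≤ 1)
    (hzm : ∀ a ∈ IsLocalRing.maximalIdeal (AA p n), ‖z a‖ < 1) {h : ℕ} (h1 : 1 ≤ h)
    (hzI : ∀ a ∈ II p n h, z a = 0) {ιk : kk p n →+* K}
    (hιk : ∀ w : WW p n, ιk (WittVector.constantCoeff w) = z (MvPowerSeries.C w)) (a : AA p n) :
    z a = evT p n ιk h (tOf z h) a := by
  have ht := norm_tOf_lt z hzm h
  have hφ : ∀ a, evTHom p n ιk h (tOf z h) ht a = evT p n ιk h (tOf z h) a := fun _ => rfl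
  rw [← hφ]
  set φ := evTHom p n ιk h (tOf z h) ht with hφdef
  set τ := tauOf h (tOf z h) with hτ
  have hτlt : ‖τ‖ < 1 := (norm_tauOf_le h _).trans_lt ht
  have hφX : ∀ i, φ (tt p n i) = τ i := fun i => by
    rw [hφ, evT_tt]
  have hzX : ∀ i, z (tt p n i) = τ i := fun i => (tauOf_tOf z h1 hzI i).symm
  have hφp : φ (p : AA p n) = 0 := by
    rw [map_natCast, CharP.cast_eq_zero]
  have hzp : z (p : AA p n) = 0 := hzI _ (p_mem_II (by omega))
  have hτi : ∀ i, ‖τ i‖ ≤ ‖τ‖ := fun i => norm_le_pi_norm τ i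
  refine eq_of_eq_on_gens z φ (fun w => ?_) (fun i => ?_) (r := ‖τ‖) (norm_nonneg _) hτlt
    (fun k x hx => ?_) a
  · rw [hφ, ← hιk]
    exact (evFun_C (iotaW p n ιk) τ w).symm
  · rw [hzX, hφX]
  · refine norm_sub_le_max_of_le ?_ ?_
    · exact norm_le_pow_of_mem_pow z hz1 hzp (norm_nonneg _) (fun i => by rw [hzX]; exact hτi i) k hx
    · exact norm_le_pow_of_mem_pow φ (fun a => norm_evT_le ιk h ht a) hφp (norm_nonneg _)
        (fun i => by rw [hφX]; exact hτi i) k hx

end PointIdentification

end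

end Crest.Agent.LT
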