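import Mathlib

/-!
# Orthogonal generators of a "lattice" in an ultrametric abelian group (blueprint D6(d))

Abstract group-theoretic core.  `G` is an abelian group with an ultrametric function `nm`, in which
multiplication by `p` raises `nm` to the power `Q`, `q : G →+ H` is a homomorphism, and
`C = {y | p • y = 0}` is a finite elementary abelian `p`-group of order `p ^ N`, all of whose elements
come from `G`.  Then there are `x : Fin N → G` whose images form a basis of `C` and which are
orthogonal for all integer combinations.  No `ℤ_p`-action or compactness is needed.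
-/

set_option autoImplicit false
set_option linter.style.haveILetI false

namespace Crest.Agent.LT

section MinBasis

variable {V : Type*} [AddCommGroup V] [Finite V]

/-- Minimal family for an arbitrary weight function: among all `𝔽_p`-bases of `V`, a basis minimising
`Σ n(e_i)` satisfies `n(e_i) ≤ n(Σ a_j e_j)` whenever `a_i ≠ 0`. -/
theorem exists_min_family (p : ℕ) [Fact p.Prime] (N : ℕ) [Module (ZMod p) V]
    (hcard : Nat.card V = p ^ N) (n : V → ℝ) :
    ∃ e : Fin N → V, LinearIndependent (ZMod p) e ∧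
      ∀ (a : Fin N → ZMod p) (i : Fin N), a i ≠ 0 → n (e i) ≤ n (∑ j, a j • e j) := by
  classical
  haveI : Fintype V := Fintype.ofFinite V
  have hpr : p.Prime := Fact.out
  -- a basis exists
  haveI : Module.Finite (ZMod p) V := Module.Finite.of_finite
  have hfr : Module.finrank (ZMod p) V = N := by
    have h1 := Module.card_eq_pow_finrank (K := ZMod p) (V := V)
    rw [Nat.card_eq_fintype_card] at hcard
    rw [hcard, ZMod.card] at h1
    exact (Nat.pow_right_injective hpr.two_le h1).symm
  let B : Module.Basis (Fin N) (ZMod p) V := (Module.finBasis (ZMod p) V).reindex (finCongr hfr)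
  let S : Set (Fin N → V) := {e | LinearIndependent (ZMod p) e}
  have hS : S.Nonempty := ⟨B, B.linearIndependent⟩
  obtain ⟨e, he, hmin⟩ := Set.exists_min_image S (fun e => ∑ i, n (e i)) (Set.toFinite S) hS
  refine ⟨e, he, fun a i hai => ?_⟩
  -- the replaced family
  let c : V := ∑ j, a j • e j
  let e' : Fin N → V := Function.update e i c
  have he' : LinearIndependent (ZMod p) e' := by
    have he2 : LinearIndependent (ZMod p) e := he
    rw [Fintype.linearIndependent_iff] at he2 ⊢
    intro g hg k
    have hsum : ∑ j, (g j * (if j = i then 0 else 1) + g i * a j) • e j = 0 := by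
      have h1 : ∑ j, g j • e' j = ∑ j, (if j = i then 0 else g j) • e j + g i • c := by
        rw [← Finset.add_sum_erase _ _ (Finset.mem_univ i), ← Finset.add_sum_erase (a := i) Finset.univ
          (fun j => (if j = i then 0 else g j) • e j) (Finset.mem_univ i)]
        simp only [e', Function.update_self, if_true, zero_smul, zero_add]
        rw [add_comm]
        congr 1
        refine Finset.sum_congr rfl fun j hj => ?_
        have hji : j ≠ i := (Finset.mem_erase.mp hj).1
        rw [Function.update_of_ne hji, if_neg hji]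
      rw [h1] at hg
      rw [← hg]
      simp only [c, Finset.smul_sum, add_smul, Finset.sum_add_distrib, smul_smul]
      congr 1
      refine Finset.sum_congr rfl fun j _ => ?_
      by_cases hji : j = i <;> simp [hji]
    have hcoef := he2 _ hsum
    have hgi : g i = 0 := by
      have := hcoef i
      simp only [if_true, mul_zero, zero_add] at this
      exact (mul_eq_zero.mp this).resolve_right hai
    by_cases hk : k = i
    · rw [hk]; exact hgi
    · have := hcoef k
      simpa [hk, hgi] using this
  have hle := hmin e' he'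
  -- compare the sums
  have h1 : ∑ j, n (e j) = n (e i) + ∑ j ∈ Finset.univ.erase i, n (e j) :=
    (Finset.add_sum_erase _ _ (Finset.mem_univ i)).symm
  have h2 : ∑ j, n (e' j) = n c + ∑ j ∈ Finset.univ.erase i, n (e j) := by
    rw [← Finset.add_sum_erase _ _ (Finset.mem_univ i)]
    simp only [e', Function.update_self]
    congr 1
    refine Finset.sum_congr rfl fun j hj => ?_
    rw [Function.update_of_ne (Finset.mem_erase.mp hj).1]
  rw [h1, h2] at hle
  linarith

end MinBasis

section Orth

variable {G H : Type*} [AddCommGroup G] [AddCommGroup H]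

/-- An ultrametric function on `G` with `nm (p • x) = (nm x) ^ Q`. -/
structure IsLatNorm (nm : G → ℝ) (p Q : ℕ) : Prop where
  nonneg : ∀ x, 0 ≤ nm x
  zero : nm 0 = 0
  add_le : ∀ x y, nm (x + y) ≤ max (nm x) (nm y)
  neg : ∀ x, nm (-x) = nm x
  smul : ∀ x, nm (p • x) = nm x ^ Q

variable {nm : G → ℝ} {p Q : ℕ}

namespace IsLatNorm

lemma sub_le (h : IsLatNorm nm p Q) (x y : G) : nm (x - y) ≤ max (nm x) (nm y) := by
  rw [sub_eq_add_neg]
  refine (h.add_le _ _).trans ?_
  rw [h.neg]

lemma nsmul_le (h : IsLatNorm nm p Q) (m : ℕ) (x : G) : nm (m • x) ≤ nm x := by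
  induction m with
  | zero => simpa [h.zero] using h.nonneg x
  | succ m ih =>
    rw [succ_nsmul]
    exact (h.add_le _ _).trans (max_le ih le_rfl)

lemma sum_le (h : IsLatNorm nm p Q) {ι : Type*} (s : Finset ι) (f : ι → G) {r : ℝ} (hr : 0 ≤ r)
    (hf : ∀ i ∈ s, nm (f i) ≤ r) : nm (∑ i ∈ s, f i) ≤ r := by
  classical
  induction s using Finset.induction_on with
  | empty => simpa [h.zero] using hr
  | insert a s ha ih =>
    rw [Finset.sum_insert ha]
    refine (h.add_le _ _).trans (max_le ?_ ?_)
    · exact hf a (Finset.mem_insert_self a s)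
    · exact ih fun i hi => hf i (Finset.mem_insert_of_mem hi)

lemma pow_smul (h : IsLatNorm nm p Q) (k : ℕ) (x : G) : nm ((p ^ k) • x) = nm x ^ (Q ^ k) := by
  induction k generalizing x with
  | zero => simp
  | succ k ih =>
    rw [pow_succ', mul_nsmul, ih, h.smul, pow_succ', ← pow_mul]

/-- strict domination -/
lemma eq_of_lt (h : IsLatNorm nm p Q) {x z : G} (hz : nm z < nm x) : nm (x - z) = nm x := by
  refine le_antisymm ((h.sub_le x z).trans (max_le le_rfl hz.le)) ?_
  have e : x = (x - z) + z := by abel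
  have h1 : nm x ≤ max (nm (x - z)) (nm z) := by
    conv_lhs => rw [e]
    exact h.add_le _ _
  rcases le_max_iff.mp h1 with h2 | h2
  · exact h2
  · exact absurd hz (not_lt.mpr h2)

end IsLatNorm

variable (q : G →+ H)

/-- The digit expansion: every `x` with `p • q x = 0` is, up to `p ^ k • x'`, in a finite set. -/
lemma exists_digit_set [Finite {y : H // p • y = 0}]
    (hsurj : ∀ y : H, p • y = 0 → ∃ x, q x = y)
    (hdiv : ∀ x : G, ∃ x', p • x' = x) (k : ℕ) :
    ∃ W : Set G, W.Finite ∧ ∀ x : G, p • q x = 0 →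
      ∃ w ∈ W, ∃ x' : G, p • q x' = 0 ∧ x = w + (p ^ k) • x' := by
  classical
  induction k with
  | zero => exact ⟨{0}, Set.finite_singleton _, fun x hx => ⟨0, rfl, x, hx, by simp⟩⟩
  | succ k ih =>
    obtain ⟨W, hW, hkey⟩ := ih
    choose r hr using fun y : {y : H // p • y = 0} => hsurj y.1 y.2
    let f : G × {y : H // p • y = 0} → G := fun a => a.1 + (p ^ k) • r a.2
    refine ⟨f '' (W ×ˢ Set.univ), (hW.prod Set.finite_univ).image f, fun x hx => ?_⟩
    obtain ⟨w, hw, x', hx', rfl⟩ := hkey x hx
    let y : {y : H // p • y = 0} := ⟨q x', hx'⟩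
    obtain ⟨x'', hx''⟩ := hdiv (x' - r y)
    have h1 : p • q x'' = 0 := by
      rw [← map_nsmul, hx'', map_sub, hr y, sub_self]
    refine ⟨f (w, y), ⟨(w, y), ⟨hw, Set.mem_univ _⟩, rfl⟩, x'', h1, ?_⟩
    simp only [f]
    have h2 : x' = r y + p • x'' := by rw [hx'']; abel
    conv_lhs => rw [h2]
    rw [smul_add, pow_succ, mul_nsmul, add_assoc]
    rw [smul_comm (p ^ k) p x'']

variable {q}

/-- The norm takes finitely many values on a coset avoiding `0`, so it attains a minimum. -/
lemma exists_min_on_coset [Finite {y : H // p • y = 0}] (hnm : IsLatNorm nm p Q) (hQ : 2 ≤ Q)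
    (hsurj : ∀ y : H, p • y = 0 → ∃ x, q x = y)
    (hdiv : ∀ x : G, ∃ x', p • x' = x)
    {κ : ℝ} (hκ : κ < 1) (hbd : ∀ x, p • q x = 0 → nm x ^ Q ≤ κ)
    (c : H) (hc : p • c = 0)
    {s : ℝ} (hs : 0 < s) (hlow : ∀ x, q x = c → s ≤ nm x) :
    ∃ x, q x = c ∧ ∀ x', q x' = c → nm x ≤ nm x' := by
  classical
  have hκ0 : 0 ≤ κ := by
    have := hbd 0 (by simp)
    rw [hnm.zero, zero_pow (by omega)] at this
    exact this
  -- choose `k` with `κ ^ (Q ^ k) < s`
  have htend : Filter.Tendsto (fun k : ℕ => κ ^ (Q ^ k)) Filter.atTop (nhds 0) :=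
    (tendsto_pow_atTop_nhds_zero_of_lt_one hκ0 hκ).comp
      (tendsto_pow_atTop_atTop_of_one_lt (by omega : 1 < Q))
  obtain ⟨k, hk⟩ := (htend.eventually (gt_mem_nhds hs)).exists
  obtain ⟨W, hW, hkey⟩ := exists_digit_set (p := p) q hsurj hdiv (k + 1)
  -- the values of the norm on the coset are values on `W`
  have hsub : (nm '' {x | q x = c}) ⊆ nm '' W := by
    rintro _ ⟨x, hx, rfl⟩
    have hx' : p • q x = 0 := by
      have hx2 : q x = c := hx
      rw [hx2, hc]
    obtain ⟨w, hw, x', hx'', e⟩ := hkey x hx'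
    refine ⟨w, hw, ?_⟩
    have hsmall : nm ((p ^ (k + 1)) • x') < nm x := by
      rw [hnm.pow_smul, pow_succ', pow_mul]
      refine lt_of_le_of_lt ?_ (lt_of_lt_of_le hk (hlow x hx))
      exact pow_le_pow_left₀ (pow_nonneg (hnm.nonneg _) _) (hbd x' hx'') _
    have e2 : w = x - (p ^ (k + 1)) • x' := by rw [e]; abel
    rw [e2]
    exact hnm.eq_of_lt hsmall
  have hfin : (nm '' {x | q x = c}).Finite := (hW.image nm).subset hsub
  obtain ⟨x0, hx0⟩ := hsurj c hc
  have hne : (nm '' {x | q x = c}).Nonempty := ⟨nm x0, x0, hx0, rfl⟩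
  obtain ⟨a, ⟨x, hx, rfl⟩, hmin⟩ := Set.exists_min_image _ id hfin hne
  exact ⟨x, hx, fun x' hx' => hmin _ ⟨x', hx', rfl⟩⟩

/-- **Orthogonal generators.** -/
theorem exists_orth_generators (N : ℕ) [Fact p.Prime] [Finite {y : H // p • y = 0}]
    (hnm : IsLatNorm nm p Q) (hQ : 2 ≤ Q)
    (hcard : Nat.card {y : H // p • y = 0} = p ^ N)
    (hsurj : ∀ y : H, p • y = 0 → ∃ x, q x = y)
    (hdiv : ∀ x : G, ∃ x', p • x' = x)
    {κ : ℝ} (hκ : κ < 1) (hbd : ∀ x, p • q x = 0 → nm x ^ Q ≤ κ)
    (hlow : ∀ c : H, p • c = 0 → c ≠ 0 → ∃ s : ℝ, 0 < s ∧ ∀ x, q x = c → s ≤ nm x) :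
    ∃ x : Fin N → G, (∀ i, p • q (x i) = 0) ∧
      (∀ m : Fin N → ℕ, ∀ i, nm (m i • x i) ≤ nm (∑ j, m j • x j)) ∧
      (∀ v v' : Fin N → Fin p, ∑ i, (v i : ℕ) • q (x i) = ∑ i, (v' i : ℕ) • q (x i) → v = v') ∧
      (∀ y : H, p • y = 0 → ∃ v : Fin N → Fin p, ∑ i, (v i : ℕ) • q (x i) = y) := by
  classical
  have hpr : p.Prime := Fact.out
  -- the subgroup `C`
  let C : AddSubgroup H := (nsmulAddMonoidHom (α := H) p).ker
  have hmemC : ∀ y : H, y ∈ C ↔ p • y = 0 := fun y => by
    simp [C, AddMonoidHom.mem_ker]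
  let eC : {y : H // p • y = 0} ≃ C := Equiv.subtypeEquivRight fun y => (hmemC y).symm
  haveI : Finite C := Finite.of_equiv _ eC
  have hcardC : Nat.card C = p ^ N := by rw [← hcard]; exact (Nat.card_congr eC).symm
  have hpC : ∀ v : C, p • v = 0 := fun v => Subtype.ext (by
    have := (hmemC v.1).mp v.2
    simp [this])
  -- the minimal section
  have hsec : ∀ c : C, ∃ x : G, q x = c.1 ∧ ∀ x', q x' = c.1 → nm x ≤ nm x' := by
    intro c
    by_cases hc0 : c.1 = 0
    · exact ⟨0, by rw [hc0, map_zero], fun x' _ => by rw [hnm.zero]; exact hnm.nonneg x'⟩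
    · have hc := (hmemC c.1).mp c.2
      obtain ⟨s, hs, hsl⟩ := hlow c.1 hc hc0
      exact exists_min_on_coset hnm hQ hsurj hdiv hκ hbd c.1 hc hs hsl
  choose r hr hrmin using hsec
  letI := AddCommGroup.zmodModule hpC
  obtain ⟨e, he, hemin⟩ := exists_min_family p N hcardC (fun c => nm (r c))
  have hqx : ∀ i, q (r (e i)) = (e i).1 := fun i => hr _
  -- orthogonality
  have key : ∀ S : ℕ, ∀ m : Fin N → ℕ, ∑ j, m j = S →
      ∀ i, nm (m i • r (e i)) ≤ nm (∑ j, m j • r (e j)) := by
    intro S
    induction S using Nat.strong_induction_on with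
    | _ S ih =>
      intro m hmS i
      by_cases hm0 : ∀ j, m j = 0
      · simp [hm0, hnm.zero]
      push Not at hm0
      obtain ⟨j0, hj0⟩ := hm0
      let mp : Fin N → ℕ := fun j => if p ∣ m j then m j / p else 0
      let ms : Fin N → ℕ := fun j => if p ∣ m j then 0 else m j
      have hm : ∀ j, m j = ms j + p * mp j := by
        intro j
        by_cases hj : p ∣ m j
        · simp only [ms, mp, hj, if_true, zero_add]
          exact (Nat.mul_div_cancel' hj).symm
        · simp [ms, mp, hj]
      have hlt : ∑ j, mp j < S := by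
        rw [← hmS]
        refine Finset.sum_lt_sum (fun j _ => ?_) ⟨j0, Finset.mem_univ _, ?_⟩
        · by_cases hj : p ∣ m j
          · simp only [mp, hj, if_true]
            exact Nat.div_le_self _ _
          · simp [mp, hj]
        · by_cases hj : p ∣ m j0
          · simp only [mp, hj, if_true]
            exact Nat.div_lt_self (Nat.pos_of_ne_zero hj0) hpr.one_lt
          · simp only [mp, hj, if_false]
            exact Nat.pos_of_ne_zero hj0
      set y : G := ∑ j, m j • r (e j) with hy
      let z : G := ∑ j, mp j • r (e j)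
      let yS : G := ∑ j, ms j • r (e j)
      have hsplit : y = yS + p • z := by
        simp only [hy, yS, z, Finset.smul_sum, ← Finset.sum_add_distrib]
        refine Finset.sum_congr rfl fun j _ => ?_
        conv_lhs => rw [hm j]
        rw [add_smul, mul_nsmul, smul_comm (mp j) p]
      -- the class of `y`
      let c : C := ∑ j, m j • e j
      have hqy : q y = c.1 := by
        simp only [hy, c, map_sum, map_nsmul, hqx, AddSubgroup.val_finsetSum,
          AddSubgroup.coe_nsmul]
      have hcz : c = ∑ j, ((m j : ℕ) : ZMod p) • e j := by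
        refine Finset.sum_congr rfl fun j _ => ?_
        exact (Nat.cast_smul_eq_nsmul (ZMod p) (m j) (e j)).symm
      have hunits : ∀ j, ¬ p ∣ m j → nm (r (e j)) ≤ nm y := by
        intro j hj
        have ha : ((m j : ℕ) : ZMod p) ≠ 0 := by
          rwa [Ne, ZMod.natCast_eq_zero_iff]
        have h1 := hemin (fun j => ((m j : ℕ) : ZMod p)) j ha
        rw [← hcz] at h1
        exact h1.trans (hrmin c y hqy)
      have hyS : nm yS ≤ nm y := by
        refine hnm.sum_le _ _ (hnm.nonneg _) fun j _ => ?_
        by_cases hj : p ∣ m j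
        · simp [ms, hj, hnm.zero, hnm.nonneg y]
        · simp only [ms, hj, if_false]
          exact (hnm.nsmul_le _ _).trans (hunits j hj)
      have hpz : nm (p • z) ≤ nm y := by
        have e1 : p • z = y - yS := by rw [hsplit]; abel
        rw [e1]
        exact (hnm.sub_le _ _).trans (max_le le_rfl hyS)
      by_cases hi : p ∣ m i
      · have h1 := ih (∑ j, mp j) hlt mp rfl i
        have e2 : m i • r (e i) = p • (mp i • r (e i)) := by
          rw [← mul_nsmul']
          congr 1
          simp only [mp, hi, if_true]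
          exact (Nat.mul_div_cancel' hi).symm
        rw [e2, hnm.smul]
        refine le_trans ?_ hpz
        rw [hnm.smul]
        exact pow_le_pow_left₀ (hnm.nonneg _) h1 _
      · exact (hnm.nsmul_le _ _).trans (hunits i hi)
  -- injectivity and surjectivity
  let f : (Fin N → Fin p) → C := fun v => ∑ i, (v i : ℕ) • e i
  have hfval : ∀ v, (f v).1 = ∑ i, (v i : ℕ) • q (r (e i)) := by
    intro v
    simp only [f, hqx, AddSubgroup.val_finsetSum, AddSubgroup.coe_nsmul]
  have hfinj : Function.Injective f := by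
    intro v v' hvv
    rw [Fintype.linearIndependent_iff] at he
    have h1 : ∑ i, (((v i : ℕ) : ZMod p) - ((v' i : ℕ) : ZMod p)) • e i = 0 := by
      simp only [sub_smul, Finset.sum_sub_distrib, Nat.cast_smul_eq_nsmul]
      exact sub_eq_zero.mpr hvv
    funext i
    have h2 := he _ h1 i
    rw [sub_eq_zero, ZMod.natCast_eq_natCast_iff', Nat.mod_eq_of_lt (v i).2,
      Nat.mod_eq_of_lt (v' i).2] at h2
    exact Fin.ext h2
  have hfbij : Function.Bijective f := by
    refine hfinj.bijective_of_nat_card_le ?_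
    rw [hcardC]
    simp
  refine ⟨fun i => r (e i), fun i => ?_, fun m i => key _ m rfl i, fun v v' hvv => ?_, fun y hy => ?_⟩
  · rw [hqx]
    exact (hmemC _).mp (e i).2
  · apply hfinj
    apply Subtype.ext
    rw [hfval, hfval]
    exact hvv
  · obtain ⟨v, hv⟩ := hfbij.2 ⟨y, (hmemC y).mpr hy⟩
    refine ⟨v, ?_⟩
    rw [← hfval, hv]

end Orth

end Crest.Agent.LT
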