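import Mathlib

/-!
# Weierstrass preparation over the valuation ring of a complete ultrametric field

Own lemma for the Lubin-Tate lattice chart (BLUEPRINT D6(a)).  `O_K` is not adically complete for
its maximal ideal in general, so Mathlib's preparation theorem does not apply; we argue with the
sup norm of coefficients.
-/

set_option linter.unusedSectionVars false

namespace Crest.Agent.LT

open PowerSeries

variable {K : Type*} [NormedField K]

/-- Coefficients of norm at most one. -/
def PBdd (f : PowerSeries K) : Prop := ∀ l, ‖coeff l f‖ ≤ 1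

/-- Value at `x` of a power series (meaningful for bounded coefficients and `‖x‖ < 1`). -/
noncomputable def pEval (f : PowerSeries K) (x : K) : K := ∑' l, coeff l f * x ^ l

section Basic

variable [IsUltrametricDist K]

lemma norm_sum_le_of_le {ι : Type*} (s : Finset ι) (g : ι → K) {r : ℝ} (hr : 0 ≤ r)
    (h : ∀ i ∈ s, ‖g i‖ ≤ r) : ‖∑ i ∈ s, g i‖ ≤ r := by
  classical
  induction s using Finset.induction_on with
  | empty => simpa using hr
  | insert a s ha ih =>
    rw [Finset.sum_insert ha]
    refine (IsUltrametricDist.norm_add_le_max _ _).trans (max_le ?_ ?_)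
    · exact h a (Finset.mem_insert_self a s)
    · exact ih fun i hi => h i (Finset.mem_insert_of_mem hi)

/-- Coefficient bound for products. -/
lemma coeff_mul_norm_le {f g : PowerSeries K} {a b : ℝ} (ha : 0 ≤ a) (hb : 0 ≤ b)
    (hf : ∀ l, ‖coeff l f‖ ≤ a) (hg : ∀ l, ‖coeff l g‖ ≤ b) (l : ℕ) :
    ‖coeff l (f * g)‖ ≤ a * b := by
  rw [coeff_mul]
  refine norm_sum_le_of_le _ _ (mul_nonneg ha hb) fun i _ => ?_
  rw [norm_mul]
  exact mul_le_mul (hf _) (hg _) (norm_nonneg _) ha

lemma PBdd.mul {f g : PowerSeries K} (hf : PBdd f) (hg : PBdd g) : PBdd (f * g) := fun l => by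
  simpa using coeff_mul_norm_le zero_le_one zero_le_one hf hg l

lemma PBdd.one : PBdd (1 : PowerSeries K) := fun l => by
  rw [coeff_one]
  split_ifs <;> simp

lemma PBdd.add {f g : PowerSeries K} (hf : PBdd f) (hg : PBdd g) : PBdd (f + g) := fun l => by
  rw [map_add]
  exact (IsUltrametricDist.norm_add_le_max _ _).trans (max_le (hf l) (hg l))

lemma PBdd.neg {f : PowerSeries K} (hf : PBdd f) : PBdd (-f) := fun l => by
  rw [map_neg, norm_neg]
  exact hf l

lemma PBdd.sub {f g : PowerSeries K} (hf : PBdd f) (hg : PBdd g) : PBdd (f - g) := by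
  rw [sub_eq_add_neg]
  exact hf.add hg.neg

/-- A bounded series with unit constant term has a bounded inverse. -/
lemma PBdd.inv {f : PowerSeries K} (hf : PBdd f) (h0 : ‖constantCoeff f‖ = 1) : PBdd f⁻¹ := by
  intro l
  induction l using Nat.strong_induction_on with
  | _ l ih =>
    rw [coeff_inv]
    split_ifs with hl
    · simp [h0]
    · rw [norm_mul, norm_neg, norm_inv, h0, inv_one, one_mul]
      refine norm_sum_le_of_le _ _ zero_le_one fun x hx => ?_
      split_ifs with hx2
      · rw [norm_mul]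
        exact mul_le_one₀ (hf _) (norm_nonneg _) (ih _ hx2)
      · simp

variable [CompleteSpace K]

lemma pEval_summable_norm {f : PowerSeries K} (hf : PBdd f) {x : K} (hx : ‖x‖ < 1) :
    Summable fun l => ‖coeff l f * x ^ l‖ := by
  refine Summable.of_nonneg_of_le (fun _ => norm_nonneg _) (fun l => ?_)
    (summable_geometric_of_lt_one (norm_nonneg x) hx)
  rw [norm_mul, norm_pow]
  exact mul_le_of_le_one_left (pow_nonneg (norm_nonneg _) _) (hf l)

lemma pEval_summable {f : PowerSeries K} (hf : PBdd f) {x : K} (hx : ‖x‖ < 1) :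
    Summable fun l => coeff l f * x ^ l :=
  (pEval_summable_norm hf hx).of_norm

lemma pEval_mul {f g : PowerSeries K} (hf : PBdd f) (hg : PBdd g) {x : K} (hx : ‖x‖ < 1) :
    pEval (f * g) x = pEval f x * pEval g x := by
  unfold pEval
  rw [tsum_mul_tsum_eq_tsum_sum_antidiagonal_of_summable_norm (pEval_summable_norm hf hx)
    (pEval_summable_norm hg hx)]
  refine tsum_congr fun l => ?_
  rw [coeff_mul, Finset.sum_mul]
  refine Finset.sum_congr rfl fun i hi => ?_
  have := Finset.HasAntidiagonal.mem_antidiagonal.mp hi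
  rw [← this, pow_add]
  ring

lemma pEval_coe (P : Polynomial K) (x : K) : pEval (P : PowerSeries K) x = P.eval x := by
  unfold pEval
  rw [Polynomial.eval_eq_sum_range, tsum_eq_sum (s := Finset.range (P.natDegree + 1))]
  · refine Finset.sum_congr rfl fun i _ => ?_
    rw [Polynomial.coeff_coe]
  · intro l hl
    rw [Polynomial.coeff_coe, Polynomial.coeff_eq_zero_of_natDegree_lt, zero_mul]
    simpa [Nat.lt_succ_iff] using hl

lemma pEval_add {f g : PowerSeries K} (hf : PBdd f) (hg : PBdd g) {x : K} (hx : ‖x‖ < 1) :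
    pEval (f + g) x = pEval f x + pEval g x := by
  unfold pEval
  rw [← (pEval_summable hf hx).tsum_add (pEval_summable hg hx)]
  refine tsum_congr fun l => ?_
  rw [map_add, add_mul]

lemma tsum_norm_le_of_le {g : ℕ → K} {r : ℝ} (hr : 0 ≤ r) (hs : Summable g)
    (h : ∀ i, ‖g i‖ ≤ r) : ‖∑' i, g i‖ ≤ r := by
  have hlim := hs.hasSum.tendsto_sum_nat
  refine le_of_tendsto hlim.norm (Filter.Eventually.of_forall fun n => ?_)
  exact norm_sum_le_of_le _ _ hr fun i _ => h i

lemma pEval_norm_le {f : PowerSeries K} (hf : PBdd f) {x : K} (hx : ‖x‖ < 1) :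
    ‖pEval f x‖ ≤ 1 :=
  tsum_norm_le_of_le zero_le_one (pEval_summable hf hx) fun l => by
    rw [norm_mul, norm_pow]
    exact mul_le_one₀ (hf l) (pow_nonneg (norm_nonneg _) _) (pow_le_one₀ (norm_nonneg _) hx.le)

/-- The value differs from the constant term by at most `‖x‖`. -/
lemma pEval_sub_const_norm_le {f : PowerSeries K} (hf : PBdd f) {x : K} (hx : ‖x‖ < 1) :
    ‖pEval f x - constantCoeff f‖ ≤ ‖x‖ := by
  have hs := pEval_summable hf hx
  unfold pEval
  rw [hs.tsum_eq_zero_add]
  simp only [coeff_zero_eq_constantCoeff_apply, pow_zero, mul_one, add_sub_cancel_left]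
  refine tsum_norm_le_of_le (norm_nonneg _) ((summable_nat_add_iff 1).mpr hs) fun l => ?_
  rw [norm_mul, norm_pow, pow_succ]
  calc ‖coeff (l + 1) f‖ * (‖x‖ ^ l * ‖x‖) ≤ 1 * (1 * ‖x‖) := by
        refine mul_le_mul (hf _) ?_ (by positivity) zero_le_one
        exact mul_le_mul_of_nonneg_right (pow_le_one₀ (norm_nonneg _) hx.le) (norm_nonneg _)
    _ = ‖x‖ := by ring

lemma pEval_unit {f : PowerSeries K} (hf : PBdd f) (h0 : ‖constantCoeff f‖ = 1) {x : K}
    (hx : ‖x‖ < 1) : ‖pEval f x‖ = 1 := by
  have h := pEval_sub_const_norm_le hf hx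
  have h1 : ‖pEval f x - constantCoeff f‖ < ‖constantCoeff f‖ := by rw [h0]; exact h.trans_lt hx
  have h2 := IsUltrametricDist.norm_add_eq_max_of_norm_ne_norm (x := pEval f x - constantCoeff f)
    (y := constantCoeff f) h1.ne
  rw [sub_add_cancel, max_eq_right h1.le, h0] at h2
  exact h2

end Basic

/-! ### Weierstrass preparation -/

section Weierstrass

variable [IsUltrametricDist K] [CompleteSpace K]

/-- Shift down by `d`. -/
noncomputable def shiftD (d : ℕ) (f : PowerSeries K) : PowerSeries K :=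
  PowerSeries.mk fun l => coeff (l + d) f

@[simp] lemma coeff_shiftD (d l : ℕ) (f : PowerSeries K) : coeff l (shiftD d f) = coeff (l + d) f := by
  simp [shiftD]

lemma shiftD_X_pow_mul (d : ℕ) (f : PowerSeries K) : shiftD d (X ^ d * f) = f := by
  ext l
  rw [coeff_shiftD, coeff_X_pow_mul]

lemma shiftD_add (d : ℕ) (f g : PowerSeries K) : shiftD d (f + g) = shiftD d f + shiftD d g := by
  ext l
  simp

lemma exists_lt_one_bound (f : ℕ → ℝ) (d : ℕ) (h : ∀ l < d, f l < 1) :
    ∃ r : ℝ, 0 ≤ r ∧ r < 1 ∧ ∀ l < d, f l ≤ r := by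
  induction d with
  | zero => exact ⟨0, le_rfl, zero_lt_one, fun l hl => absurd hl (Nat.not_lt_zero l)⟩
  | succ d ih =>
    obtain ⟨r, h0, h1, hr⟩ := ih fun l hl => h l (by omega)
    refine ⟨max r (f d), le_max_of_le_left h0, max_lt h1 (h d (by omega)), fun l hl => ?_⟩
    rcases Nat.lt_succ_iff_lt_or_eq.mp hl with hl | rfl
    · exact (hr l hl).trans (le_max_left _ _)
    · exact le_max_right _ _

/-- The contraction step: solve `V = 1 - τ (V * E)` when all coefficients of `E` have norm `≤ r < 1`. -/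
lemma exists_fixed {E : PowerSeries K} {r : ℝ} (hr0 : 0 ≤ r) (hr1 : r < 1)
    (hE : ∀ l, ‖coeff l E‖ ≤ r) (d : ℕ) :
    ∃ V : PowerSeries K, PBdd V ∧ (∀ l, ‖coeff l (V - 1)‖ ≤ r) ∧
      V = 1 - shiftD d (V * E) := by
  -- iterates
  let T : PowerSeries K → PowerSeries K := fun V => 1 - shiftD d (V * E)
  let Vs : ℕ → PowerSeries K := fun k => T^[k] 1
  have hsucc : ∀ k, Vs (k + 1) = 1 - shiftD d (Vs k * E) := fun k =>
    Function.iterate_succ_apply' T k 1
  have hE' : PBdd E := fun l => (hE l).trans hr1.le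
  -- all iterates are close to one
  have hclose : ∀ k l, ‖coeff l (Vs k - 1)‖ ≤ r := by
    intro k
    induction k with
    | zero => intro l; simp [Vs, hr0]
    | succ k ih =>
      intro l
      have hbd : PBdd (Vs k) := by
        have : Vs k = (Vs k - 1) + 1 := by ring
        rw [this]
        exact PBdd.add (fun l => (ih l).trans hr1.le) PBdd.one
      have := coeff_mul_norm_le zero_le_one hr0 hbd hE (l + d)
      rw [hsucc, sub_sub_cancel_left, map_neg, norm_neg, coeff_shiftD]
      simpa using this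
  have hbd : ∀ k, PBdd (Vs k) := fun k => by
    have : Vs k = (Vs k - 1) + 1 := by ring
    rw [this]
    exact PBdd.add (fun l => (hclose k l).trans hr1.le) PBdd.one
  -- differences
  have hdiff : ∀ k l, ‖coeff l (Vs (k + 1) - Vs k)‖ ≤ r ^ (k + 1) := by
    intro k
    induction k with
    | zero =>
      intro l
      simpa [Vs, T] using hclose 1 l
    | succ k ih =>
      intro l
      have h1 : Vs (k + 1 + 1) - Vs (k + 1) = - shiftD d ((Vs (k + 1) - Vs k) * E) := by
        rw [hsucc (k + 1), hsucc k]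
        ext m
        simp only [map_sub, map_neg, coeff_shiftD, sub_mul]
        ring
      rw [h1, map_neg, norm_neg, coeff_shiftD, pow_succ]
      exact coeff_mul_norm_le (pow_nonneg hr0 _) hr0 ih hE _
  -- Cauchy coefficientwise
  have hcauchy : ∀ l, CauchySeq fun k => coeff l (Vs k) := by
    intro l
    refine cauchySeq_of_le_geometric r 1 hr1 fun k => ?_
    rw [dist_eq_norm, ← norm_neg, neg_sub, ← map_sub]
    calc _ ≤ r ^ (k + 1) := hdiff k l
      _ ≤ 1 * r ^ k := by rw [pow_succ, one_mul]; exact mul_le_of_le_one_right (pow_nonneg hr0 _) hr1.le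
  choose v hv using fun l => cauchySeq_tendsto_of_complete (hcauchy l)
  let V : PowerSeries K := PowerSeries.mk v
  have hVc : ∀ l, Filter.Tendsto (fun k => coeff l (Vs k)) Filter.atTop (nhds (coeff l V)) := by
    intro l
    simpa [V] using hv l
  refine ⟨V, ?_, ?_, ?_⟩
  · intro l
    exact le_of_tendsto (hVc l).norm (Filter.Eventually.of_forall fun k => hbd k l)
  · intro l
    have : Filter.Tendsto (fun k => coeff l (Vs k - 1)) Filter.atTop (nhds (coeff l (V - 1))) := by
      simp only [map_sub]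
      exact (hVc l).sub_const _
    exact le_of_tendsto this.norm (Filter.Eventually.of_forall fun k => hclose k l)
  · ext l
    have h1 : Filter.Tendsto (fun k => coeff l (Vs (k + 1))) Filter.atTop (nhds (coeff l V)) :=
      (hVc l).comp (Filter.tendsto_add_atTop_nat 1)
    have h2 : Filter.Tendsto (fun k => coeff l (1 - shiftD d (Vs k * E))) Filter.atTop
        (nhds (coeff l (1 - shiftD d (V * E)))) := by
      simp only [map_sub, coeff_shiftD, coeff_mul]
      refine Filter.Tendsto.sub tendsto_const_nhds (tendsto_finsetSum _ fun i _ => ?_)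
      exact (hVc _).mul_const _
    refine tendsto_nhds_unique h1 (h2.congr fun k => ?_)
    rw [hsucc]

/-- **Weierstrass preparation over `O_K`.** -/
theorem weierstrass_prep {Φ : PowerSeries K} {d : ℕ} (hΦ : PBdd Φ)
    (hlow : ∀ l < d, ‖coeff l Φ‖ < 1) (hd : ‖coeff d Φ‖ = 1) :
    ∃ (U : PowerSeries K) (P : Polynomial K), PBdd U ∧ ‖constantCoeff U‖ = 1 ∧ P.Monic ∧
      P.natDegree = d ∧ (∀ l < d, ‖P.coeff l‖ < 1) ∧ Φ = U * (P : PowerSeries K) := by
  classical
  obtain ⟨r, hr0, hr1, hr⟩ := exists_lt_one_bound (fun l => ‖coeff l Φ‖) d hlow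
  -- the splitting `Φ = A + X^d B`
  let B : PowerSeries K := shiftD d Φ
  let A : PowerSeries K := PowerSeries.mk fun l => if l < d then coeff l Φ else 0
  have hsplit : Φ = A + X ^ d * B := by
    ext l
    rw [map_add, coeff_X_pow_mul']
    by_cases hl : l < d
    · simp [A, hl, not_le.mpr hl]
    · have : d ≤ l := not_lt.mp hl
      simp [A, hl, this, B, Nat.sub_add_cancel this]
  have hB0 : ‖constantCoeff B‖ = 1 := by
    rw [← coeff_zero_eq_constantCoeff_apply]
    simp [B, hd]
  have hB : PBdd B := fun l => by simpa [B] using hΦ (l + d)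
  have hA : ∀ l, ‖coeff l A‖ ≤ r := fun l => by
    by_cases hl : l < d
    · simpa [A, hl] using hr l hl
    · simpa [A, hl] using hr0
  have hBinv : PBdd B⁻¹ := hB.inv hB0
  have hB0' : constantCoeff B ≠ 0 := by
    intro h
    rw [h, norm_zero] at hB0
    exact zero_ne_one hB0
  let E : PowerSeries K := B⁻¹ * A
  have hE : ∀ l, ‖coeff l E‖ ≤ r := fun l => by
    simpa using coeff_mul_norm_le zero_le_one hr0 hBinv hA l
  have hΦ₁ : B⁻¹ * Φ = X ^ d + E := by
    rw [hsplit]
    have : B⁻¹ * (A + X ^ d * B) = X ^ d * (B⁻¹ * B) + B⁻¹ * A := by ring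
    rw [this, PowerSeries.inv_mul_cancel _ hB0', mul_one]
  obtain ⟨V, hV, hV1, hVeq⟩ := exists_fixed hr0 hr1 hE d
  -- the polynomial
  let P₀ : PowerSeries K := V * (X ^ d + E)
  have hshift : shiftD d P₀ = 1 := by
    have : P₀ = X ^ d * V + V * E := by simp only [P₀]; ring
    rw [this, shiftD_add, shiftD_X_pow_mul]
    nth_rewrite 1 [hVeq]
    ring
  have hhigh : ∀ l, d < l → coeff l P₀ = 0 := by
    intro l hl
    have h := congrArg (coeff (l - d)) hshift
    rw [coeff_shiftD, Nat.sub_add_cancel hl.le, coeff_one, if_neg (by omega)] at h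
    exact h
  have htop : coeff d P₀ = 1 := by
    have h := congrArg (coeff 0) hshift
    rw [coeff_shiftD, zero_add, coeff_one, if_pos rfl] at h
    exact h
  have hlowP : ∀ l < d, ‖coeff l P₀‖ ≤ r := by
    intro l hl
    have : P₀ = X ^ d * V + V * E := by simp only [P₀]; ring
    rw [this, map_add, coeff_X_pow_mul', if_neg (not_le.mpr hl), zero_add]
    simpa using coeff_mul_norm_le zero_le_one hr0 hV hE l
  let P : Polynomial K := trunc (d + 1) P₀
  have hPcoe : (P : PowerSeries K) = P₀ := by
    ext l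
    rw [Polynomial.coeff_coe, coeff_trunc]
    split_ifs with h
    · rfl
    · exact (hhigh l (by omega)).symm
  have hPdeg : P.natDegree ≤ d := by
    rw [Polynomial.natDegree_le_iff_coeff_eq_zero]
    intro N hN
    rw [coeff_trunc, if_neg (by omega)]
  have hPtop : P.coeff d = 1 := by
    rw [coeff_trunc, if_pos (by omega), htop]
  have hPmonic : P.Monic := Polynomial.monic_of_natDegree_le_of_coeff_eq_one d hPdeg hPtop
  have hPnd : P.natDegree = d := by
    refine le_antisymm hPdeg ?_
    exact Polynomial.le_natDegree_of_ne_zero (by rw [hPtop]; exact one_ne_zero)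
  -- `V` is a unit
  have hV0 : ‖constantCoeff V‖ = 1 := by
    have h := hV1 0
    rw [map_sub, coeff_zero_eq_constantCoeff_apply, coeff_zero_one] at h
    have h1 : ‖constantCoeff V - 1‖ < ‖(1 : K)‖ := by rw [norm_one]; exact h.trans_lt hr1
    have h2 := IsUltrametricDist.norm_add_eq_max_of_norm_ne_norm
      (x := constantCoeff V - 1) (y := (1 : K)) h1.ne
    rw [sub_add_cancel, max_eq_right h1.le, norm_one] at h2
    exact h2
  have hV0' : constantCoeff V ≠ 0 := by
    intro h
    rw [h, norm_zero] at hV0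
    exact zero_ne_one hV0
  refine ⟨B * V⁻¹, P, hB.mul (hV.inv hV0), ?_, hPmonic, hPnd, ?_, ?_⟩
  · rw [map_mul, norm_mul, hB0, constantCoeff_inv, norm_inv, hV0, inv_one, one_mul]
  · intro l hl
    rw [coeff_trunc, if_pos (by omega)]
    exact (hlowP l hl).trans_lt hr1
  · rw [hPcoe]
    have : B * V⁻¹ * P₀ = B * (V⁻¹ * V) * (B⁻¹ * Φ) := by
      simp only [P₀, hΦ₁]; ring
    rw [this, PowerSeries.inv_mul_cancel _ hV0', mul_one, ← mul_assoc,
      PowerSeries.mul_inv_cancel _ hB0', one_mul]

end Weierstrass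

/-! ### Zeros -/

section Zeros

variable [IsUltrametricDist K] [CompleteSpace K]

/-- A root of a monic polynomial with lower coefficients of norm `< 1` lies in the open ball. -/
lemma norm_root_lt_one {P : Polynomial K} (hP : P.Monic) (hlow : ∀ l < P.natDegree, ‖P.coeff l‖ < 1)
    {x : K} (hx : P.eval x = 0) (hd : 1 ≤ P.natDegree) : ‖x‖ < 1 := by
  by_contra hge
  push Not at hge
  have hx0 : x ≠ 0 := by
    rintro rfl
    rw [norm_zero] at hge
    linarith
  -- `x^d = -Σ_{l<d} a_l x^l`
  have hsum : x ^ P.natDegree = - ∑ l ∈ Finset.range P.natDegree, P.coeff l * x ^ l := by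
    have h := hx
    rw [Polynomial.eval_eq_sum_range, Finset.sum_range_succ, hP.coeff_natDegree, one_mul] at h
    exact eq_neg_of_add_eq_zero_right h
  have hnd : P.natDegree ≠ 0 := by omega
  obtain ⟨r, hr0, hr1, hr⟩ := exists_lt_one_bound (fun l => ‖P.coeff l‖) P.natDegree hlow
  have hle : ‖x ^ P.natDegree‖ ≤ r * ‖x‖ ^ P.natDegree := by
    rw [hsum, norm_neg]
    refine norm_sum_le_of_le _ _ (mul_nonneg hr0 (pow_nonneg (norm_nonneg _) _)) fun l hl => ?_
    rw [norm_mul, norm_pow]
    refine mul_le_mul (hr l (Finset.mem_range.mp hl)) ?_ (pow_nonneg (norm_nonneg _) _) hr0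
    exact pow_le_pow_right₀ hge (Finset.mem_range.mp hl).le
  rw [norm_pow] at hle
  have hpos : 0 < ‖x‖ ^ P.natDegree := by positivity
  nlinarith

variable [IsAlgClosed K]

/-- Everything we need to know about the zeros of a Weierstrass series over an algebraically closed
field: it is a unit multiple of `∏ (Y - r)`, `r` running over a multiset of `d` points of the ball. -/
theorem exists_roots_multiset {Φ : PowerSeries K} {d : ℕ} (hΦ : PBdd Φ)
    (hlow : ∀ l < d, ‖coeff l Φ‖ < 1) (hd : ‖coeff d Φ‖ = 1) (hd1 : 1 ≤ d) :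
    ∃ (U : PowerSeries K) (S : Multiset K), PBdd U ∧ ‖constantCoeff U‖ = 1 ∧ S.card = d ∧
      (∀ r ∈ S, ‖r‖ < 1) ∧
      ∀ x : K, ‖x‖ < 1 → pEval Φ x = pEval U x * (S.map fun r => x - r).prod := by
  obtain ⟨U, P, hU, hU0, hmon, hnd, hlowP, hfac⟩ := weierstrass_prep hΦ hlow hd
  have hsplit : P.Splits := IsAlgClosed.splits P
  refine ⟨U, P.roots, hU, hU0, ?_, ?_, ?_⟩
  · rw [← hnd]
    exact (Polynomial.splits_iff_card_roots.mp hsplit)
  · intro r hr
    refine norm_root_lt_one hmon (by rw [hnd]; exact hlowP) (Polynomial.isRoot_of_mem_roots hr) ?_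
    rw [hnd]; exact hd1
  · intro x hx
    have hPbd : PBdd (P : PowerSeries K) := by
      intro l
      rw [Polynomial.coeff_coe]
      by_cases hl : l < d
      · exact (hlowP l hl).le
      · by_cases hl2 : l = d
        · subst hl2
          rw [← hnd, hmon.coeff_natDegree, norm_one]
        · rw [Polynomial.coeff_eq_zero_of_natDegree_lt (by omega), norm_zero]
          exact zero_le_one
    rw [hfac, pEval_mul hU hPbd hx, pEval_coe]
    congr 1
    have h := Polynomial.Splits.eq_prod_roots_of_monic hsplit hmon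
    conv_lhs => rw [h]
    rw [Polynomial.eval_multiset_prod, Multiset.map_map]
    simp

end Zeros

end Crest.Agent.LT
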