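import Mathlib
import Crest.Agent.Lib.LubinTate.LatQMap
import Crest.Agent.Lib.LubinTate.LatWeierstrass
import Crest.Agent.Lib.LubinTate.LatLaw
import Crest.Agent.Lib.LubinTate.LatOrth

/-!
# S0351 blueprint, section D6: the lattice of a point

For `t ∈ m_K^N` with `t_0 ≠ 0` (concretely: `w_1(t) ≠ 0`), the kernel of `[p]_t` on the open ball has
exactly `p ^ N` elements, and there is `b : Fin N → m_K` with
(i) `b` orthogonal (for integer combinations under `Γ₀`);
(ii) `q_t (b i) = 0`;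
(iii) `v ↦ q_t (ξ_v b)` is a bijection from `{0..p-1}^N` to the kernel of `[p]_t`.

Stated in the conventions of `LatQMap.lean` (`WFamily`, `LawFamily`, `pMap`, `qmap`) and `LatLaw.lean`
(`BallLaw`, `lawNsmul`, `lawSum`, `xiV`).
-/

set_option autoImplicit false
set_option linter.style.haveILetI false
set_option linter.unusedSectionVars false

namespace Crest.Agent.LT

open PowerSeries Filter Topology

variable {K : Type*} [NontriviallyNormedField K] [IsUltrametricDist K] [CompleteSpace K]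
  [IsAlgClosed K]
variable {p : ℕ} [Fact p.Prime] [CharP K p] [PerfectRing K p]
variable {N h n : ℕ} {w : ℕ → (Fin N → K) → K}

/-- The series `W_t`. -/
noncomputable def wSer (w : ℕ → (Fin N → K) → K) (t : Fin N → K) : PowerSeries K :=
  PowerSeries.mk fun l => w l t

@[simp] lemma coeff_wSer (w : ℕ → (Fin N → K) → K) (t : Fin N → K) (l : ℕ) :
    coeff l (wSer w t) = w l t := by simp [wSer]

lemma pEval_wSer (w : ℕ → (Fin N → K) → K) (t : Fin N → K) (Y : K) :
    pEval (wSer w t) Y = wSeries w t Y := by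
  simp [pEval, wSeries, wEval]

lemma pMap_eq_pEval (w : ℕ → (Fin N → K) → K) (t : Fin N → K) (A : K) :
    pMap w p h t A = pEval (wSer w t) (A ^ p ^ h) := by
  rw [pEval_wSer]; rfl

section Series

variable {d : ℕ} (hw : WFamily K N d w) {t : Fin N → K} (ht : ‖t‖ < 1)
include hw ht

lemma wSer_bdd : PBdd (wSer w t) := fun l => by
  rw [coeff_wSer]; exact hw.norm_le_one ht l

lemma wSer_low {l : ℕ} (hl : l < d) : ‖coeff l (wSer w t)‖ < 1 := by
  rw [coeff_wSer]
  exact (hw.small t ht l hl.ne).trans_lt ht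

lemma wSer_top : ‖coeff d (wSer w t)‖ = 1 := by
  rw [coeff_wSer]
  have h1 : ‖w d t - 1‖ < ‖(1 : K)‖ := by
    rw [norm_one]
    exact (hw.lead t ht).trans_lt ht
  have h2 := IsUltrametricDist.norm_add_eq_max_of_norm_ne_norm h1.ne
  rw [sub_add_cancel, max_eq_right h1.le, norm_one] at h2
  exact h2

/-- `W_t(Y) = c` is solvable in the ball. -/
lemma exists_wSer_eq (hd : 1 ≤ d) {c : K} (hc : ‖c‖ < 1) :
    ∃ Y : K, ‖Y‖ < 1 ∧ pEval (wSer w t) Y = c := by
  -- `Φ - c`
  let Φ : PowerSeries K := wSer w t + PowerSeries.C (-c)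
  have hC : PBdd (PowerSeries.C (-c) : PowerSeries K) := by
    intro l
    rw [PowerSeries.coeff_C]
    split_ifs
    · rw [norm_neg]; exact hc.le
    · simp
  have hΦ : PBdd Φ := (wSer_bdd hw ht).add hC
  have hcoef : ∀ l, coeff l Φ = w l t + (if l = 0 then -c else 0) := by
    intro l
    simp only [Φ, map_add, coeff_wSer, PowerSeries.coeff_C]
  have hlow : ∀ l < d, ‖coeff l Φ‖ < 1 := by
    intro l hl
    rw [hcoef]
    refine (IsUltrametricDist.norm_add_le_max _ _).trans_lt (max_lt ?_ ?_)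
    · exact (hw.small t ht l hl.ne).trans_lt ht
    · split_ifs
      · rw [norm_neg]; exact hc
      · simp
  have htop : ‖coeff d Φ‖ = 1 := by
    rw [hcoef, if_neg (by omega), add_zero]
    simpa using wSer_top hw ht
  obtain ⟨U, S, hU, hU0, hcard, hS, hfac⟩ := exists_roots_multiset hΦ hlow htop hd
  have hne : S ≠ 0 := by
    intro h0
    rw [h0] at hcard
    simp at hcard
    omega
  obtain ⟨r, hr⟩ := Multiset.exists_mem_of_ne_zero hne
  refine ⟨r, hS r hr, ?_⟩
  have h1 := hfac r (hS r hr)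
  have hprod : (S.map fun a => r - a).prod = 0 := by
    apply Multiset.prod_eq_zero
    exact Multiset.mem_map.mpr ⟨r, hr, sub_self r⟩
  rw [hprod, mul_zero] at h1
  have hadd : pEval Φ r = pEval (wSer w t) r + pEval (PowerSeries.C (-c)) r :=
    pEval_add (wSer_bdd hw ht) hC (hS r hr)
  have hconst : pEval (PowerSeries.C (-c) : PowerSeries K) r = -c := by
    have := pEval_coe (Polynomial.C (-c)) r
    rwa [Polynomial.coe_C, Polynomial.eval_C] at this
  rw [h1, hconst] at hadd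
  linear_combination -hadd

/-- Lower bound near zero: `‖W_t(Y)‖ = ‖w_1‖ ‖Y‖` for small `Y`. -/
lemma norm_pEval_small (h00 : w 0 t = 0) {Y : K} (hY : ‖Y‖ < 1) (hY0 : Y ≠ 0) (hY1 : ‖Y‖ < ‖w 1 t‖) :
    ‖pEval (wSer w t) Y‖ = ‖w 1 t‖ * ‖Y‖ := by
  have hs := pEval_summable (wSer_bdd hw ht) hY
  unfold pEval
  rw [← hs.sum_add_tsum_nat_add 2]
  simp only [Finset.sum_range_succ, Finset.sum_range_zero, coeff_wSer, h00, zero_mul, zero_add,
    pow_one]
  have hR : ‖∑' l, w (l + 2) t * Y ^ (l + 2)‖ ≤ ‖Y‖ ^ 2 := by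
    refine IsUltrametricDist.norm_tsum_le_of_forall_le_of_nonneg (by positivity) fun l => ?_
    rw [norm_mul, norm_pow]
    calc ‖w (l + 2) t‖ * ‖Y‖ ^ (l + 2) ≤ 1 * ‖Y‖ ^ (l + 2) :=
          mul_le_mul_of_nonneg_right (hw.norm_le_one ht _) (by positivity)
      _ ≤ ‖Y‖ ^ 2 := by
          rw [one_mul]
          exact pow_le_pow_of_le_one (norm_nonneg _) hY.le (by omega)
  have hYpos : 0 < ‖Y‖ := norm_pos_iff.mpr hY0
  have hlt : ‖∑' l, w (l + 2) t * Y ^ (l + 2)‖ < ‖w 1 t * Y‖ := by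
    rw [norm_mul]
    refine hR.trans_lt ?_
    nlinarith
  have h2 := IsUltrametricDist.norm_add_eq_max_of_norm_ne_norm hlt.ne'
  rw [h2, max_eq_left hlt.le, norm_mul]

end Series

/-- Elementary facts on a product of small factors. -/
lemma norm_multiset_prod_le_one {S : Multiset K} (hS : ∀ r ∈ S, ‖r‖ < 1) {x : K} (hx : ‖x‖ < 1) :
    ‖(S.map fun r => x - r).prod‖ ≤ 1 := by
  induction S using Multiset.induction_on with
  | empty => simp
  | cons a S ih =>
    rw [Multiset.map_cons, Multiset.prod_cons, norm_mul]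
    have h1 : ‖x - a‖ ≤ 1 :=
      norm_sub_le_max_of_le hx.le (hS a (Multiset.mem_cons_self a S)).le
    exact mul_le_one₀ h1 (norm_nonneg _)
      (ih fun r hr => hS r (Multiset.mem_cons_of_mem hr))

lemma norm_eq_of_norm_sub_lt {a b : K} (hab : ‖a - b‖ < ‖b‖) : ‖a‖ = ‖b‖ := by
  have h2 := IsUltrametricDist.norm_add_eq_max_of_norm_ne_norm hab.ne
  rw [sub_add_cancel, max_eq_right hab.le] at h2
  exact h2

section Main

variable {add0 : K → K → K} {addH : (Fin N → K) → K → K → K}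

lemma iterate_qroot_pow_pow (n k : ℕ) (x : K) : ((qroot p n)^[k] x) ^ (p ^ n) ^ k = x := by
  induction k with
  | zero => simp
  | succ k ih => rw [pow_succ', pow_mul, iterate_qroot_pow, ih]

/-- Closeness of `q_t` to the identity. -/
lemma qmap_sub_self_le (hw : WFamily K N (p ^ (n - h)) w) (h1 : 1 ≤ h) (hhn : h ≤ n)
    {t : Fin N → K} (ht : ‖t‖ < 1) {x : K} (hx : ‖x‖ < 1) :
    ‖qmap w p h n t x - x‖ ≤ ‖t‖ := by
  have hu : ∀ k, ‖uSeq w p h n t x k - x‖ ≤ ‖t‖ := by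
    intro k
    induction k with
    | zero => simp [uSeq_zero]
    | succ k ih =>
      have e : uSeq w p h n t x (k + 1) - x =
          (uSeq w p h n t x (k + 1) - uSeq w p h n t x k) + (uSeq w p h n t x k - x) := by ring
      rw [e]
      refine norm_add_le_of_le ?_ ih
      refine (uSeq_succ_sub_le hw hhn ht hx k).trans ?_
      have hpos : (p ^ h) ^ k ≠ 0 := pow_ne_zero _ (pow_ne_zero _ (Fact.out : p.Prime).ne_zero)
      exact pow_le_of_le_one (norm_nonneg _) ht.le hpos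
  exact le_of_tendsto' ((tendsto_uSeq hw h1 hhn ht hx).sub_const x).norm hu

/-- Iterated `[p]_t` shrinks. -/
lemma norm_iterate_pMap_le (hw : WFamily K N (p ^ (n - h)) w) {t : Fin N → K} (ht : ‖t‖ < 1)
    (k : ℕ) {A : K} (hA : ‖A‖ < 1) : ‖(pMap w p h t)^[k] A‖ ≤ ‖A‖ ^ (p ^ h) ^ k := by
  have hd : 0 < p ^ (n - h) := pow_pos (Fact.out : p.Prime).pos _
  have h0 : (pMap w p h t)^[k] (0 : K) = 0 := Function.iterate_fixed (hw.pMap_zero ht) k
  have := hw.iterate_sub_le (p := p) (h := h) hd ht k hA (B := 0) (by simp)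
  rwa [h0, sub_zero, sub_zero] at this

/-- `[p]_t^[k] q_t(x^(1/q^k)) = q_t x`. -/
lemma iterate_pMap_qmap (hw : WFamily K N (p ^ (n - h)) w) (h1 : 1 ≤ h) (hhn : h ≤ n)
    {t : Fin N → K} (ht : ‖t‖ < 1) (k : ℕ) {x : K} (hx : ‖x‖ < 1) :
    (pMap w p h t)^[k] (qmap w p h n t ((qroot p n)^[k] x)) = qmap w p h n t x := by
  induction k generalizing x with
  | zero => rfl
  | succ k ih =>
    rw [Function.iterate_succ_apply (pMap w p h t), Function.iterate_succ_apply' (qroot p n),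
      pMap_qmap_qroot hw h1 hhn ht (norm_iterate_qroot_lt n k hx), ih hx]

/-- Lower bound on a nonzero fibre of `q_t`. -/
lemma exists_lower_bound (hw : WFamily K N (p ^ (n - h)) w) (h1 : 1 ≤ h) (hhn : h ≤ n)
    {t : Fin N → K} (ht : ‖t‖ < 1) {c : K} (hc0 : c ≠ 0) :
    ∃ s : ℝ, 0 < s ∧ ∀ x : K, ‖x‖ < 1 → qmap w p h n t x = c → s ≤ ‖x‖ := by
  have hp2 : 2 ≤ p ^ h := two_le_pow p h1
  let s0 : ℝ := 1 / 2
  let B : ℝ := max s0 ‖t‖
  have hB0 : 0 ≤ B := le_max_of_le_left (by norm_num)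
  have hB1 : B < 1 := max_lt (by norm_num) ht
  have hcpos : 0 < ‖c‖ := norm_pos_iff.mpr hc0
  obtain ⟨k, hk⟩ := ((tendsto_pow_pow_zero hB0 hB1 hp2).eventually (gt_mem_nhds hcpos)).exists
  have hQ : (p ^ n) ^ k ≠ 0 := pow_ne_zero _ (pow_ne_zero _ (Fact.out : p.Prime).ne_zero)
  refine ⟨s0 ^ (p ^ n) ^ k, by positivity, fun x hx hqx => ?_⟩
  by_contra hlt
  push Not at hlt
  -- the root
  let z := (qroot p n)^[k] x
  have hz : ‖z‖ < 1 := norm_iterate_qroot_lt n k hx
  have hpow : z ^ (p ^ n) ^ k = x := iterate_qroot_pow_pow n k x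
  have hzs : ‖z‖ ≤ s0 := by
    have : ‖z‖ ^ (p ^ n) ^ k ≤ s0 ^ (p ^ n) ^ k := by
      rw [← norm_pow, hpow]; exact hlt.le
    exact (pow_le_pow_iff_left₀ (norm_nonneg _) (by norm_num) hQ).1 this
  have hq : ‖qmap w p h n t z‖ ≤ B :=
    norm_qmap_le hw h1 hhn ht hz (hzs.trans (le_max_left _ _)) (le_max_right _ _)
  have hqlt : ‖qmap w p h n t z‖ < 1 := norm_qmap_lt hw h1 hhn ht hz
  have h2 := norm_iterate_pMap_le hw ht k hqlt
  rw [iterate_pMap_qmap hw h1 hhn ht k hx, hqx] at h2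
  have h3 : ‖qmap w p h n t z‖ ^ (p ^ h) ^ k ≤ B ^ (p ^ h) ^ k :=
    pow_le_pow_left₀ (norm_nonneg _) hq _
  exact absurd (h2.trans h3) (not_le.mpr hk)

/-- Solvability of `[p]_t y = c` in the ball. -/
lemma exists_pMap_eq (hw : WFamily K N (p ^ (n - h)) w) {t : Fin N → K} (ht : ‖t‖ < 1)
    {c : K} (hc : ‖c‖ < 1) : ∃ y : K, ‖y‖ < 1 ∧ pMap w p h t y = c := by
  have hd : 1 ≤ p ^ (n - h) := pow_pos (Fact.out : p.Prime).pos _
  obtain ⟨Y, hY, hYc⟩ := exists_wSer_eq hw ht hd hc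
  refine ⟨qroot p h Y, norm_qroot_lt h hY, ?_⟩
  rw [pMap_eq_pEval, qroot_pow, hYc]

/-- `q_t` is surjective. -/
lemma exists_qmap_eq (hw : WFamily K N (p ^ (n - h)) w) (h1 : 1 ≤ h) (hhn : h ≤ n) (hn : 1 ≤ n)
    {t : Fin N → K} (ht : ‖t‖ < 1) {y0 : K} (hy0 : ‖y0‖ < 1) :
    ∃ x : K, ‖x‖ < 1 ∧ qmap w p h n t x = y0 := by
  classical
  -- the tower
  have hstep : ∀ c : {c : K // ‖c‖ < 1}, ∃ y : {c : K // ‖c‖ < 1}, pMap w p h t y.1 = c.1 :=
    fun c => by
      obtain ⟨y, hy, e⟩ := exists_pMap_eq hw ht c.2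
      exact ⟨⟨y, hy⟩, e⟩
  choose g hg using hstep
  let Y : ℕ → {c : K // ‖c‖ < 1} := fun k => g^[k] ⟨y0, hy0⟩
  have hY : ∀ k, Y (k + 1) = g (Y k) := fun k => Function.iterate_succ_apply' g k _
  let y : ℕ → K := fun k => (Y k).1
  have hy : ∀ k, ‖y k‖ < 1 := fun k => (Y k).2
  have hyy : ∀ k, pMap w p h t (y (k + 1)) = y k := fun k => by
    simp only [y, hY]
    exact hg _
  have hc := tower_cauchy hw hhn ht hy hyy hn
  obtain ⟨b, hb⟩ := cauchySeq_tendsto_of_complete hc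
  have hb1 := norm_tower_limit_lt hw hhn ht hy hyy hn hb
  refine ⟨b, hb1, ?_⟩
  exact tower_qmap hw h1 hhn ht hy hyy hn hb hb1 0

/-- **D6(a).** `W_t` has exactly `p ^ (n - h)` simple zeros in the ball. -/
theorem exists_torsion_roots (hw : WFamily K N (p ^ (n - h)) w)
    {t : Fin N → K} (ht : ‖t‖ < 1) (ht0 : w 1 t ≠ 0) (hH : BallLaw (addH t))
    (hpH : ∀ A : K, ‖A‖ < 1 → lawNsmul (addH t) p A = pMap w p h t A) :
    ∃ S : Multiset K, S.Nodup ∧ S.card = p ^ (n - h) ∧ (∀ a ∈ S, ‖a‖ < 1) ∧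
      ∀ a : K, ‖a‖ < 1 → (pEval (wSer w t) a = 0 ↔ a ∈ S) := by
  classical
  have hd : 1 ≤ p ^ (n - h) := pow_pos (Fact.out : p.Prime).pos _
  obtain ⟨U, S, hU, hU0, hcard, hS, hfac⟩ := exists_roots_multiset (wSer_bdd hw ht)
    (fun l hl => wSer_low hw ht hl) (wSer_top hw ht) hd
  have hUne : ∀ x : K, ‖x‖ < 1 → pEval U x ≠ 0 := fun x hx e => by
    have := pEval_unit hU hU0 hx
    rw [e, norm_zero] at this
    exact zero_ne_one this
  have hzero : ∀ a : K, ‖a‖ < 1 → (pEval (wSer w t) a = 0 ↔ a ∈ S) := by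
    intro a ha
    rw [hfac a ha, mul_eq_zero, or_iff_right (hUne a ha), Multiset.prod_eq_zero_iff,
      Multiset.mem_map]
    constructor
    · rintro ⟨r, hr, e⟩
      rwa [sub_eq_zero.mp e]
    · intro h
      exact ⟨a, h, sub_self a⟩
  refine ⟨S, ?_, hcard, hS, hzero⟩
  -- simplicity
  rw [Multiset.nodup_iff_count_le_one]
  intro c
  by_contra hc
  push Not at hc
  have hrep : Multiset.replicate 2 c ≤ S := Multiset.le_count_iff_replicate_le.mp hc
  obtain ⟨S', rfl⟩ := Multiset.le_iff_exists_add.mp hrep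
  have hcS : c ∈ Multiset.replicate 2 c + S' :=
    Multiset.mem_add.mpr (Or.inl (Multiset.mem_replicate.mpr ⟨by omega, rfl⟩))
  have hc1 : ‖c‖ < 1 := hS c hcS
  have hS' : ∀ r ∈ S', ‖r‖ < 1 := fun r hr => hS r (Multiset.mem_add.mpr (Or.inr hr))
  -- the bound `‖W(x)‖ ≤ ‖x - c‖²`
  have hsq : ∀ x : K, ‖x‖ < 1 → ‖pEval (wSer w t) x‖ ≤ ‖x - c‖ ^ 2 := by
    intro x hx
    rw [hfac x hx, Multiset.map_add, Multiset.prod_add, Multiset.map_replicate,
      Multiset.prod_replicate, norm_mul, norm_mul, norm_pow]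
    have h1 := pEval_norm_le hU hx
    have h2 := norm_multiset_prod_le_one hS' hx
    have hnn : 0 ≤ ‖x - c‖ ^ 2 := by positivity
    calc ‖pEval U x‖ * (‖x - c‖ ^ 2 * ‖(S'.map fun r => x - r).prod‖)
        ≤ 1 * (‖x - c‖ ^ 2 * 1) := by
          refine mul_le_mul h1 ?_ (by positivity) zero_le_one
          exact mul_le_mul_of_nonneg_left h2 hnn
      _ = ‖x - c‖ ^ 2 := by ring
  -- the translation
  letI := hH.addCommGroup
  have hvalp : ∀ z : BallOf (addH t), (p • z).val = pMap w p h t z.val := fun z => by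
    rw [hH.val_nsmul, hpH _ (BallOf.val_lt z)]
  let y0 : BallOf (addH t) := BallOf.mk (qroot p h c) (norm_qroot_lt h hc1)
  have hy0 : p • y0 = 0 := by
    apply BallOf.val_inj
    rw [hvalp, pMap_eq_pEval, BallOf.val_mk, qroot_pow, hH.val_zero]
    exact (hzero c hc1).mpr hcS
  have hw1pos : 0 < ‖w 1 t‖ := norm_pos_iff.mpr ht0
  obtain ⟨ε, hε0, hε⟩ := NormedField.exists_norm_lt K (lt_min one_pos hw1pos)
  have hε1 : ‖ε‖ < 1 := hε.trans_le (min_le_left _ _)
  have hεw : ‖ε‖ < ‖w 1 t‖ := hε.trans_le (min_le_right _ _)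
  let y : BallOf (addH t) := BallOf.mk ε hε1
  have hpy : p • (y0 + y) = p • y := by rw [smul_add, hy0, zero_add]
  have hpv : pMap w p h t (y0 + y).val = pMap w p h t ε := by
    rw [← hvalp, hpy, hvalp]; rfl
  -- sizes
  have hhp : p ^ h ≠ 0 := pow_ne_zero _ (Fact.out : p.Prime).ne_zero
  set Y : K := ε ^ p ^ h with hYdef
  have hY0 : Y ≠ 0 := pow_ne_zero _ (norm_pos_iff.mp hε0)
  have hY1 : ‖Y‖ < 1 := by
    rw [hYdef, norm_pow]
    exact pow_lt_one₀ (norm_nonneg _) hε1 hhp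
  have hYw : ‖Y‖ < ‖w 1 t‖ := by
    rw [hYdef, norm_pow]
    exact (pow_le_of_le_one (norm_nonneg _) hε1.le hhp).trans_lt hεw
  have hlow := norm_pEval_small hw ht (hw.zero t ht) hY1 hY0 hYw
  have hdiff : ‖(y0 + y).val - y0.val‖ = ‖ε‖ := by
    apply norm_eq_of_norm_sub_lt
    have hcl := hH.close y0.val ε y0.2 hε1
    have e : (y0 + y).val = addH t y0.val ε := rfl
    rw [e]
    refine hcl.trans_lt ?_
    have hy0lt : ‖y0.val‖ < 1 := y0.2
    nlinarith
  have hup : ‖pEval (wSer w t) ((y0 + y).val ^ p ^ h)‖ ≤ ‖Y‖ ^ 2 := by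
    have hval1 : ‖(y0 + y).val ^ p ^ h‖ < 1 := norm_pow_lt_one p h (y0 + y).2
    refine (hsq _ hval1).trans ?_
    have e : (y0 + y).val ^ p ^ h - c = (y0 + y).val ^ p ^ h - y0.val ^ p ^ h := by
      simp only [y0, BallOf.val_mk, qroot_pow]
    rw [e, pow_p_pow_sub, hdiff, hYdef, norm_pow]
  have hsame : pEval (wSer w t) ((y0 + y).val ^ p ^ h) = pEval (wSer w t) Y := by
    rw [← pMap_eq_pEval, hpv, pMap_eq_pEval]
  rw [hsame, hlow] at hup
  have hYpos : 0 < ‖Y‖ := norm_pos_iff.mpr hY0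
  nlinarith

/-- **D6: the lattice of a point.** -/
theorem exists_lattice (hw : WFamily K N (p ^ (n - h)) w) (hL : LawFamily w p h n add0 addH)
    (h1 : 1 ≤ h) (hhn : h < n) (hN : n - h = N)
    {t : Fin N → K} (ht : ‖t‖ < 1) (ht0 : w 1 t ≠ 0)
    (h0 : BallLaw add0) (hH : BallLaw (addH t))
    (hp0 : ∀ A : K, ‖A‖ < 1 → lawNsmul add0 p A = A ^ p ^ n)
    (hpH : ∀ A : K, ‖A‖ < 1 → lawNsmul (addH t) p A = pMap w p h t A) :
    ∃ b : Fin N → K, (∀ i, ‖b i‖ < 1) ∧ (∀ i, b i ≠ 0) ∧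
      -- (ii)
      (∀ i, qmap w p h n t (b i) = 0) ∧
      -- (i) orthogonality for integer combinations
      (∀ (m : Fin N → ℕ) (i : Fin N), ‖lawNsmul add0 (m i) (b i)‖ ≤
        ‖lawSum add0 (fun j => lawNsmul add0 (m j) (b j))‖) ∧
      -- (iii) `v ↦ q_t (ξ_v b)` is a bijection onto the kernel of `[p]_t`
      (∀ v : Fin N → Fin p, ‖qmap w p h n t (xiV add0 p n v b)‖ < 1 ∧
        pMap w p h t (qmap w p h n t (xiV add0 p n v b)) = 0) ∧
      (∀ v v' : Fin N → Fin p,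
        qmap w p h n t (xiV add0 p n v b) = qmap w p h n t (xiV add0 p n v' b) → v = v') ∧
      (∀ y : K, ‖y‖ < 1 → pMap w p h t y = 0 → ∃ v : Fin N → Fin p,
        qmap w p h n t (xiV add0 p n v b) = y) := by
  classical
  have hpr : p.Prime := Fact.out
  have hn1 : 1 ≤ n := by omega
  have hhn' : h ≤ n := hhn.le
  have hQ2 : 2 ≤ p ^ n := two_le_pow p hn1
  letI iG := h0.addCommGroup
  letI iH := hH.addCommGroup
  -- the homomorphism `q`
  let q : BallOf add0 →+ BallOf (addH t) := AddMonoidHom.mk'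
    (fun x => BallOf.mk (qmap w p h n t x.val) (norm_qmap_lt hw h1 hhn' ht (BallOf.val_lt x)))
    (fun x y => BallOf.val_inj (by
      simp only [BallOf.val_mk, h0.val_add, hH.val_add]
      exact qmap_add0 hL hw h1 hhn' ht (BallOf.val_lt x) (BallOf.val_lt y)))
  have hq : ∀ x : BallOf add0, (q x).val = qmap w p h n t x.val := fun _ => rfl
  have hvalG : ∀ z : BallOf add0, (p • z).val = z.val ^ p ^ n := fun z => by
    rw [h0.val_nsmul, hp0 _ (BallOf.val_lt z)]
  have hvalH : ∀ z : BallOf (addH t), (p • z).val = pMap w p h t z.val := fun z => by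
    rw [hH.val_nsmul, hpH _ (BallOf.val_lt z)]
  -- the norm
  let nm : BallOf add0 → ℝ := fun x => ‖x.val‖
  have hnm : IsLatNorm nm p (p ^ n) :=
    { nonneg := fun x => norm_nonneg _
      zero := by simp [nm, h0.val_zero]
      add_le := fun x y => by
        simp only [nm, h0.val_add]
        exact h0.norm_add_le (BallOf.val_lt x) (BallOf.val_lt y)
      neg := fun x => by
        simp only [nm]
        refine (h0.norm_neg_eq (BallOf.val_lt (-x)) (BallOf.val_lt x) ?_)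
        rw [← h0.val_add, neg_add_cancel, h0.val_zero]
      smul := fun x => by
        simp only [nm]
        rw [hvalG, norm_pow] }
  -- finiteness and order of the torsion
  obtain ⟨S, hSnd, hScard, hS, hzero⟩ := exists_torsion_roots hw ht ht0 hH hpH
  have hpow_inj : ∀ a a' : K, a ^ p ^ h = a' ^ p ^ h → a = a' := fun a a' e => by
    rw [← qroot_of_pow (p := p) h a, e, qroot_of_pow]
  let φ : {y : BallOf (addH t) // p • y = 0} → {a : K // a ∈ S.toFinset} := fun y =>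
    ⟨y.1.val ^ p ^ h, by
      rw [Multiset.mem_toFinset, ← hzero _ (norm_pow_lt_one p h (BallOf.val_lt y.1)),
        ← pMap_eq_pEval, ← hvalH, y.2, hH.val_zero]⟩
  have hφinj : Function.Injective φ := fun y y' e => by
    apply Subtype.ext
    apply BallOf.val_inj
    exact hpow_inj _ _ (congrArg Subtype.val e)
  have hφsurj : Function.Surjective φ := by
    rintro ⟨a, ha⟩
    have ha' : a ∈ S := Multiset.mem_toFinset.mp ha
    have ha1 := hS a ha'
    refine ⟨⟨BallOf.mk (qroot p h a) (norm_qroot_lt h ha1), ?_⟩, ?_⟩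
    · apply BallOf.val_inj
      rw [hvalH, pMap_eq_pEval, BallOf.val_mk, qroot_pow, hH.val_zero]
      exact (hzero a ha1).mpr ha'
    · apply Subtype.ext
      simp only [φ, BallOf.val_mk, qroot_pow]
  haveI hfin : Finite {y : BallOf (addH t) // p • y = 0} := Finite.of_injective φ hφinj
  have hcard : Nat.card {y : BallOf (addH t) // p • y = 0} = p ^ N := by
    rw [Nat.card_eq_of_bijective φ ⟨hφinj, hφsurj⟩, ← hN, ← hScard]
    rw [Nat.card_eq_fintype_card, Fintype.card_coe, Multiset.toFinset_card_of_nodup hSnd]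
  have hsurj : ∀ y : BallOf (addH t), p • y = 0 → ∃ x, q x = y := fun y _ => by
    obtain ⟨x, hx, e⟩ := exists_qmap_eq hw h1 hhn' hn1 ht (BallOf.val_lt y)
    exact ⟨BallOf.mk x hx, BallOf.val_inj e⟩
  have hdiv : ∀ x : BallOf add0, ∃ x', p • x' = x := fun x => by
    refine ⟨BallOf.mk (qroot p n x.val) (norm_qroot_lt n (BallOf.val_lt x)), ?_⟩
    apply BallOf.val_inj
    rw [hvalG, BallOf.val_mk, qroot_pow]
  have hbd : ∀ x : BallOf add0, p • q x = 0 → nm x ^ p ^ n ≤ ‖t‖ := by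
    intro x hx
    have h2 : q (p • x) = 0 := by rw [map_nsmul, hx]
    have h3 : qmap w p h n t (p • x).val = 0 := by
      rw [← hq, h2, hH.val_zero]
    have h4 := qmap_sub_self_le hw h1 hhn' ht (BallOf.val_lt (p • x))
    rw [h3, zero_sub, norm_neg, hvalG, norm_pow] at h4
    exact h4
  have hlow : ∀ c : BallOf (addH t), p • c = 0 → c ≠ 0 →
      ∃ s : ℝ, 0 < s ∧ ∀ x, q x = c → s ≤ nm x := by
    intro c _ hc0
    have hc0' : c.val ≠ 0 := fun e => hc0 (BallOf.val_inj (by rw [e, hH.val_zero]))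
    obtain ⟨s, hs, hsl⟩ := exists_lower_bound hw h1 hhn' ht hc0'
    refine ⟨s, hs, fun x hx => hsl x.val (BallOf.val_lt x) ?_⟩
    rw [← hq, hx]
  obtain ⟨x, hxp, horth, hinj, hsur⟩ := exists_orth_generators (q := q) N hnm hQ2 hcard hsurj hdiv
    ht hbd hlow
  -- translating back
  have hqroot : ∀ i, qroot p n (p • x i).val = (x i).val := fun i => by
    rw [hvalG, qroot_of_pow]
  have hxi : ∀ v : Fin N → Fin p, xiV add0 p n v (fun i => (p • x i).val) =
      (∑ i, (v i : ℕ) • x i).val := by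
    intro v
    rw [h0.val_sum]
    unfold xiV
    congr 1
    funext i
    rw [hqroot, h0.val_nsmul]
  have hqxi : ∀ v : Fin N → Fin p, qmap w p h n t (xiV add0 p n v (fun i => (p • x i).val)) =
      (∑ i, (v i : ℕ) • q (x i)).val := by
    intro v
    rw [hxi, ← hq, map_sum]
    simp only [map_nsmul]
  refine ⟨fun i => (p • x i).val, fun i => BallOf.val_lt _, fun i => ?_, fun i => ?_, ?_, ?_, ?_, ?_⟩
  · -- nonzero
    intro e
    have hx0 : x i = 0 := by
      apply BallOf.val_inj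
      simp only [hvalG] at e
      rw [h0.val_zero]
      exact pow_eq_zero_iff (pow_ne_zero _ hpr.ne_zero) |>.mp e
    have h2 : (1 : ℕ) < p := hpr.one_lt
    let v : Fin N → Fin p := fun j => if j = i then ⟨1, h2⟩ else ⟨0, hpr.pos⟩
    let v' : Fin N → Fin p := fun _ => ⟨0, hpr.pos⟩
    have hvv : v = v' := by
      apply hinj
      refine Finset.sum_congr rfl fun j _ => ?_
      by_cases hj : j = i
      · simp [v, v', hj, hx0]
      · simp [v, v', hj]
    have := congrFun hvv i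
    simp [v, v'] at this
  · -- (ii)
    rw [← hq, map_nsmul, hxp i, hH.val_zero]
  · -- (i)
    intro m i
    have e1 : lawNsmul add0 (m i) (p • x i).val = (p • (m i • x i)).val := by
      rw [← h0.val_nsmul, smul_comm]
    have e2 : lawSum add0 (fun j => lawNsmul add0 (m j) (p • x j).val) =
        (p • ∑ j, m j • x j).val := by
      rw [Finset.smul_sum, h0.val_sum]
      congr 1
      funext j
      rw [← h0.val_nsmul, smul_comm]
    rw [e1, e2, hvalG, hvalG, norm_pow, norm_pow]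
    exact pow_le_pow_left₀ (norm_nonneg _) (horth m i) _
  · -- membership
    intro v
    rw [hqxi]
    refine ⟨BallOf.val_lt _, ?_⟩
    rw [← hvalH, Finset.smul_sum, ← hH.val_zero]
    congr 1
    refine Finset.sum_eq_zero fun i _ => ?_
    rw [smul_comm, hxp i, smul_zero]
  · -- injective
    intro v v' e
    rw [hqxi, hqxi] at e
    exact hinj v v' (BallOf.val_inj e)
  · -- surjective
    intro y hy hpy
    have hy0 : p • (BallOf.mk y hy : BallOf (addH t)) = 0 := by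
      apply BallOf.val_inj
      rw [hvalH, BallOf.val_mk, hpy, hH.val_zero]
    obtain ⟨v, hv⟩ := hsur _ hy0
    refine ⟨v, ?_⟩
    rw [hqxi, hv, BallOf.val_mk]

end Main

end Crest.Agent.LT
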