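/-
S0351 (row 227), blueprint D9: a nonzero power series over a finite field has a nonzero value at a
point of the open polydisc with all coordinates nonzero.  Self-contained (Mathlib only).
-/
import Mathlib

set_option autoImplicit false
set_option linter.unusedSectionVars false
set_option linter.deprecated false

namespace Crest.Agent.LT

section Digits

/-- Base `B` digits are unique. -/
lemma digits_sum_inj (B : ℕ) (hB : 0 < B) : ∀ (d : ℕ) (e e' : Fin d → ℕ), (∀ i, e i < B) →
    (∀ i, e' i < B) → ∑ i : Fin d, B ^ (i : ℕ) * e i = ∑ i : Fin d, B ^ (i : ℕ) * e' i → e = e' := by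
  intro d
  induction d with
  | zero => intro e e' _ _ _; exact Subsingleton.elim _ _
  | succ d ih =>
    intro e e' he he' hs
    rw [Fin.sum_univ_succ, Fin.sum_univ_succ] at hs
    simp only [Fin.val_zero, pow_zero, one_mul, Fin.val_succ, pow_succ'] at hs
    have h1 : ∀ f : Fin (d + 1) → ℕ,
        ∑ i : Fin d, B * B ^ (i : ℕ) * f i.succ = B * ∑ i : Fin d, B ^ (i : ℕ) * f i.succ := by
      intro f
      rw [Finset.mul_sum]
      exact Finset.sum_congr rfl fun i _ => by ring
    rw [h1 e, h1 e'] at hs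
    have h0 : e 0 = e' 0 := by
      have h2 := congrArg (· % B) hs
      simp only [Nat.add_mul_mod_self_left] at h2
      rwa [Nat.mod_eq_of_lt (he 0), Nat.mod_eq_of_lt (he' 0)] at h2
    have h3 : ∑ i : Fin d, B ^ (i : ℕ) * e i.succ = ∑ i : Fin d, B ^ (i : ℕ) * e' i.succ := by
      rw [h0] at hs
      exact Nat.eq_of_mul_eq_mul_left hB (Nat.add_left_cancel hs)
    have h4 := ih (fun i => e i.succ) (fun i => e' i.succ) (fun i => he _) (fun i => he' _) h3
    funext i
    refine Fin.cases h0 (fun j => ?_) i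
    exact congrFun h4 j

/-- A finite set of exponent vectors is separated by some positive integer weight. -/
lemma exists_weight_injOn {σ : Type*} [Fintype σ] (M : Set (σ →₀ ℕ)) (hM : M.Finite) :
    ∃ w : σ → ℕ, (∀ i, 1 ≤ w i) ∧ Set.InjOn (fun e : σ →₀ ℕ => ∑ i, w i * e i) M := by
  classical
  obtain ⟨F, rfl⟩ : ∃ F : Finset (σ →₀ ℕ), (F : Set (σ →₀ ℕ)) = M := ⟨hM.toFinset, by simp⟩
  let B : ℕ := 1 + F.sup fun e => Finset.univ.sup fun i => e i
  have hB : 0 < B := by omega
  have hlt : ∀ e ∈ F, ∀ i, e i < B := by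
    intro e he i
    have h1 : e i ≤ Finset.univ.sup fun i => e i :=
      Finset.le_sup (f := fun i => e i) (Finset.mem_univ i)
    have h2 : (Finset.univ.sup fun i => e i) ≤ F.sup fun e => Finset.univ.sup fun i => e i :=
      Finset.le_sup (f := fun e : σ →₀ ℕ => Finset.univ.sup fun i => e i) he
    simp only [B]
    omega
  let φ := Fintype.equivFin σ
  refine ⟨fun i => B ^ (φ i : ℕ), fun i => Nat.one_le_pow _ _ hB, ?_⟩
  intro e he e' he' h
  have hs : ∑ i : Fin (Fintype.card σ), B ^ (i : ℕ) * e (φ.symm i)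
      = ∑ i : Fin (Fintype.card σ), B ^ (i : ℕ) * e' (φ.symm i) := by
    have h' : ∑ i, B ^ (φ i : ℕ) * e i = ∑ i, B ^ (φ i : ℕ) * e' i := h
    have := Fintype.sum_equiv φ.symm (fun i : Fin (Fintype.card σ) => B ^ (i : ℕ) * e (φ.symm i))
      (fun i : σ => B ^ (φ i : ℕ) * e i) (fun i => by simp)
    rw [this]
    have := Fintype.sum_equiv φ.symm (fun i : Fin (Fintype.card σ) => B ^ (i : ℕ) * e' (φ.symm i))
      (fun i : σ => B ^ (φ i : ℕ) * e' i) (fun i => by simp)
    rw [this]
    exact h'
  have h5 := digits_sum_inj B hB _ (fun i => e (φ.symm i)) (fun i => e' (φ.symm i))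
    (fun i => hlt e he _) (fun i => hlt e' he' _) hs
  ext i
  have := congrFun h5 (φ i)
  simpa using this

end Digits

section Nonvanish

variable {K : Type*} [NontriviallyNormedField K] [IsUltrametricDist K] [CompleteSpace K]
variable {k : Type*} [Field k] [Finite k]
variable {σ : Type*} [Fintype σ]

/-- Elements of a finite field have norm one in any normed field they map to. -/
lemma norm_map_finite_field (ι : k →+* K) (a : k) (ha : a ≠ 0) : ‖ι a‖ = 1 := by
  have hfin := Fintype.ofFinite k
  have h := FiniteField.pow_card_sub_one_eq_one a ha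
  have h2 : ‖ι a‖ ^ (Fintype.card k - 1) = 1 := by
    rw [← norm_pow, ← map_pow, h, map_one, norm_one]
  have h3 : Fintype.card k - 1 ≠ 0 := by
    have := Fintype.one_lt_card (α := k)
    omega
  exact (pow_eq_one_iff_of_nonneg (norm_nonneg _) h3).1 h2

/-- Summability of a series over a finite field at a point of the open polydisc. -/
lemma summable_eval_finite (ι : k →+* K) (g : MvPowerSeries σ k) (t : σ → K)
    (ht : ∀ i, ‖t i‖ < 1) :
    Summable fun e : σ →₀ ℕ => ι (MvPowerSeries.coeff e g) * ∏ i, t i ^ e i := by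
  classical
  by_cases hσ : Nonempty σ
  · -- the maximum of the `‖t i‖`
    obtain ⟨i₀, hi₀⟩ := Finite.exists_max (fun i => ‖t i‖)
    set r := ‖t i₀‖ with hr
    have hr1 : r < 1 := ht i₀
    have hr0 : 0 ≤ r := norm_nonneg _
    have hbound : ∀ e : σ →₀ ℕ, ‖ι (MvPowerSeries.coeff e g) * ∏ i, t i ^ e i‖
        ≤ r ^ (∑ i, e i) := by
      intro e
      rw [norm_mul, norm_prod]
      have h1 : ‖ι (MvPowerSeries.coeff e g)‖ ≤ 1 := by
        by_cases h : MvPowerSeries.coeff e g = 0
        · simp [h]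
        · exact (norm_map_finite_field ι _ h).le
      have h2 : ∏ i, ‖t i ^ e i‖ ≤ r ^ (∑ i, e i) := by
        rw [← Finset.prod_pow_eq_pow_sum]
        refine Finset.prod_le_prod (fun i _ => norm_nonneg _) (fun i _ => ?_)
        rw [norm_pow]
        exact pow_le_pow_left₀ (norm_nonneg _) (hi₀ i) _
      calc _ ≤ 1 * r ^ (∑ i, e i) :=
            mul_le_mul h1 h2 (Finset.prod_nonneg fun _ _ => norm_nonneg _) zero_le_one
        _ = _ := one_mul _
    refine NonarchimedeanAddGroup.summable_of_tendsto_cofinite_zero ?_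
    rw [tendsto_zero_iff_norm_tendsto_zero]
    rw [Metric.tendsto_nhds]
    intro ε hε
    obtain ⟨L, hL⟩ := exists_pow_lt_of_lt_one hε hr1
    have hfin : {e : σ →₀ ℕ | (∑ i, e i) ≤ L}.Finite := by
      refine (Finsupp.finite_of_degree_le (σ := σ) L).subset ?_
      intro e he
      simp only [Set.mem_setOf_eq] at he ⊢
      rwa [Finsupp.degree_eq_sum]
    filter_upwards [hfin.compl_mem_cofinite] with e he
    simp only [Set.mem_compl_iff, Set.mem_setOf_eq, not_le] at he
    rw [Real.dist_eq, sub_zero, abs_of_nonneg (norm_nonneg _)]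
    calc _ ≤ r ^ (∑ i, e i) := hbound e
      _ ≤ r ^ L := pow_le_pow_of_le_one hr0 hr1.le he.le
      _ < ε := hL
  · -- no variables: only one exponent
    have hσ' : IsEmpty σ := not_nonempty_iff.1 hσ
    exact (hasSum_fintype _).summable

/-- D9, the analytic part: a nonzero series over a finite field has a nonzero value at some point
of the open polydisc all of whose coordinates are nonzero. -/
theorem exists_point_tsum_ne_zero (ι : k →+* K) (g : MvPowerSeries σ k) (hg : g ≠ 0) :
    ∃ t : σ → K, (∀ i, t i ≠ 0 ∧ ‖t i‖ < 1) ∧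
      ∑' e : σ →₀ ℕ, ι (MvPowerSeries.coeff e g) * ∏ i, t i ^ e i ≠ 0 := by
  classical
  -- the support and its minimal elements
  set S : Set (σ →₀ ℕ) := {e | MvPowerSeries.coeff e g ≠ 0} with hS
  have hSne : S.Nonempty := by
    by_contra h
    rw [Set.not_nonempty_iff_eq_empty] at h
    apply hg
    ext e
    have : e ∉ S := by simp [h]
    simpa [hS] using this
  set M : Set (σ →₀ ℕ) := {e | Minimal (· ∈ S) e} with hM
  have hMfin : M.Finite :=
    WellQuasiOrderedLE.finite_of_isAntichain (setOfPred_minimal_antichain (· ∈ S))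
  have hbelow : ∀ e ∈ S, ∃ m ∈ M, m ≤ e := by
    intro e he
    obtain ⟨m, hm, hme⟩ := exists_minimal_le_of_wellFoundedLT (· ∈ S) e he
    exact ⟨m, hme, hm⟩
  obtain ⟨w, hw1, hwinj⟩ := exists_weight_injOn M hMfin
  -- the weight and the point
  set val : (σ →₀ ℕ) → ℕ := fun e => ∑ i, w i * e i with hval
  have hMne : M.Nonempty := by
    obtain ⟨e, he⟩ := hSne
    obtain ⟨m, hm, -⟩ := hbelow e he
    exact ⟨m, hm⟩
  obtain ⟨es, hes, hmin⟩ := Set.exists_min_image M val hMfin hMne
  have hesS : es ∈ S := hes.1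
  have hval_mono : ∀ a b : σ →₀ ℕ, a ≤ b → val a ≤ val b := by
    intro a b hab
    exact Finset.sum_le_sum fun i _ => Nat.mul_le_mul_left _ (hab i)
  have hval_strict : ∀ a b : σ →₀ ℕ, a ≤ b → a ≠ b → val a < val b := by
    intro a b hab hne
    obtain ⟨i, hi⟩ : ∃ i, a i ≠ b i := by
      by_contra h
      push Not at h
      exact hne (Finsupp.ext h)
    refine Finset.sum_lt_sum (fun i _ => Nat.mul_le_mul_left _ (hab i)) ⟨i, Finset.mem_univ i, ?_⟩
    have h1 : a i < b i := lt_of_le_of_ne (hab i) hi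
    exact Nat.mul_lt_mul_of_pos_left h1 (hw1 i)
  have hunique : ∀ e ∈ S, e ≠ es → val es + 1 ≤ val e := by
    intro e he hne
    obtain ⟨m, hm, hme⟩ := hbelow e he
    by_cases hmes : m = es
    · subst hmes
      exact hval_strict _ _ hme (Ne.symm hne)
    · have h1 : val es ≤ val m := hmin m hm
      have h2 : val es ≠ val m := fun h => hmes (hwinj hm hes h.symm)
      have h3 : val m ≤ val e := hval_mono _ _ hme
      omega
  obtain ⟨π, hπ0, hπ1⟩ := NormedField.exists_norm_lt_one K
  have hπne : π ≠ 0 := norm_pos_iff.1 hπ0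
  refine ⟨fun i => π ^ w i, fun i => ⟨pow_ne_zero _ hπne, ?_⟩, ?_⟩
  · rw [norm_pow]
    exact pow_lt_one₀ hπ0.le hπ1 (by have := hw1 i; omega)
  · have hprod : ∀ e : σ →₀ ℕ, ∏ i, (π ^ w i) ^ e i = π ^ val e := by
      intro e
      simp only [hval, ← pow_mul, Finset.prod_pow_eq_pow_sum]
    have hsum := summable_eval_finite ι g (fun i => π ^ w i) (fun i => by
      rw [norm_pow]
      exact pow_lt_one₀ hπ0.le hπ1 (by have := hw1 i; omega))
    set f : (σ →₀ ℕ) → K := fun e => ι (MvPowerSeries.coeff e g) * ∏ i, (π ^ w i) ^ e i with hf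
    rw [hsum.tsum_eq_add_tsum_ite es]
    have hfes : ‖f es‖ = ‖π‖ ^ val es := by
      simp only [hf, hprod, norm_mul, norm_pow]
      rw [norm_map_finite_field ι _ hesS, one_mul]
    have hterm : ∀ e : σ →₀ ℕ, ‖if e = es then (0 : K) else f e‖ ≤ ‖π‖ ^ (val es + 1) := by
      intro e
      split_ifs with h
      · simp only [norm_zero]; positivity
      · simp only [hf, hprod, norm_mul, norm_pow]
        by_cases hc : MvPowerSeries.coeff e g = 0
        · simp only [hc, map_zero, norm_zero, zero_mul]; positivity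
        · rw [norm_map_finite_field ι _ hc, one_mul]
          exact pow_le_pow_of_le_one hπ0.le hπ1.le (hunique e hc h)
    have hrest : ‖∑' e : σ →₀ ℕ, if e = es then (0 : K) else f e‖ ≤ ‖π‖ ^ (val es + 1) := by
      exact IsUltrametricDist.norm_tsum_le_of_forall_le hterm
    intro h0
    have h1 : f es = - ∑' e : σ →₀ ℕ, if e = es then (0 : K) else f e :=
      eq_neg_of_add_eq_zero_left h0
    have h2 : ‖f es‖ ≤ ‖π‖ ^ (val es + 1) := by
      rw [h1, norm_neg]; exact hrest
    rw [hfes, pow_succ] at h2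
    have h3 : 0 < ‖π‖ ^ val es := pow_pos hπ0 _
    nlinarith

end Nonvanish

end Crest.Agent.LT
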