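/-
Row 227 (S0351), blueprint section A2 (helper67): char `p` factorisation of homomorphisms and the
general height ideals `hI`: invariance under homomorphisms with unit linear coefficient, base change.
-/
import Crest.Agent.Lib.LubinTate.FGBasic

set_option autoImplicit false

namespace Crest.Agent.LT

open Crest.LubinTate

section Chain

variable {σ R : Type*} [CommRing R]

open PowerSeries in
/-- the coefficients of the powers of a substitutable series eventually vanish -/
theorem exists_coeff_pow_eq_zero {a : MvPowerSeries σ R} (ha : PowerSeries.HasSubst a)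
    (s : Finset (σ →₀ ℕ)) : ∃ N : ℕ, ∀ d ≥ N, ∀ e ∈ s, MvPowerSeries.coeff e (a ^ d) = 0 := by
  classical
  have key : ∀ e : σ →₀ ℕ, ∃ N : ℕ, ∀ d ≥ N, MvPowerSeries.coeff e (a ^ d) = 0 := by
    intro e
    have hfin := PowerSeries.coeff_subst_finite ha (PowerSeries.mk fun _ => (1 : R)) e
    obtain ⟨N, hN⟩ := hfin.bddAbove
    refine ⟨N + 1, fun d hd => ?_⟩
    by_contra hne
    have : d ∈ Function.support (fun d => PowerSeries.coeff d (PowerSeries.mk fun _ => (1 : R)) •
        MvPowerSeries.coeff e (a ^ d)) := by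
      simpa using hne
    have := hN this
    omega
  choose N hN using key
  refine ⟨s.sup N, fun d hd e he => hN e d (le_trans (Finset.le_sup he) hd)⟩

/-- The chain rule for the partial derivative of a one-variable series substituted with a
multivariable series. -/
theorem pderiv_subst {a : MvPowerSeries σ R} (ha : PowerSeries.HasSubst a) (i : σ)
    (f : PowerSeries R) :
    MvPowerSeries.pderiv R i (f.subst a) =
      (PowerSeries.derivative R f).subst a * MvPowerSeries.pderiv R i a := by
  classical
  ext n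
  -- choose the truncation level
  obtain ⟨N, hN⟩ := exists_coeff_pow_eq_zero ha
    (Finset.image (fun x => x.1) (Finset.HasAntidiagonal.antidiagonal n))
  have hNa : ∀ d ≥ N, ∀ w : MvPowerSeries σ R, MvPowerSeries.coeff n (a ^ d * w) = 0 := by
    intro d hd w
    classical
    rw [MvPowerSeries.coeff_mul]
    refine Finset.sum_eq_zero fun x hx => ?_
    rw [hN d hd x.1 ?_, zero_mul]
    exact Finset.mem_image.2 ⟨x, hx, rfl⟩
  -- split `f`
  set M := N + 1 with hM
  obtain ⟨h, hh⟩ : ∃ h : PowerSeries R,
      f = ((PowerSeries.trunc M f : Polynomial R) : PowerSeries R) + PowerSeries.X ^ M * h := by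
    refine ⟨PowerSeries.mk fun k => PowerSeries.coeff (k + M) f, ?_⟩
    ext k
    rw [map_add, Polynomial.coeff_coe, PowerSeries.coeff_trunc, PowerSeries.coeff_X_pow_mul']
    by_cases hk : k < M
    · simp [hk, show ¬ M ≤ k by omega]
    · simp [hk, show M ≤ k by omega, Nat.sub_add_cancel (show M ≤ k by omega)]
  set P := PowerSeries.trunc M f with hP
  have hpoly : MvPowerSeries.pderiv R i (((P : Polynomial R) : PowerSeries R).subst a) =
      (PowerSeries.derivative R (P : PowerSeries R)).subst a * MvPowerSeries.pderiv R i a := by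
    rw [PowerSeries.subst_coe ha, PowerSeries.derivative_coe, PowerSeries.subst_coe ha]
    rw [Derivation.comp_aeval_eq (a := a) (MvPowerSeries.pderiv R i) P, smul_eq_mul]
  have hXa : PowerSeries.subst a (PowerSeries.X : PowerSeries R) = a := PowerSeries.subst_X ha
  -- derivative of the tail
  have hsub : f.subst a = ((P : Polynomial R) : PowerSeries R).subst a +
      a ^ M * h.subst a := by
    conv_lhs => rw [hh]
    rw [PowerSeries.subst_add ha, PowerSeries.subst_mul ha, PowerSeries.subst_pow ha, hXa]
  have hder : PowerSeries.derivative R f = PowerSeries.derivative R (P : PowerSeries R) +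
      ((M : PowerSeries R) * PowerSeries.X ^ (M - 1) * h +
        PowerSeries.X ^ M * PowerSeries.derivative R h) := by
    conv_lhs => rw [hh]
    rw [map_add, Derivation.leibniz, PowerSeries.derivative_pow, PowerSeries.derivative_X]
    simp only [smul_eq_mul]
    ring
  have hdersub : (PowerSeries.derivative R f).subst a =
      (PowerSeries.derivative R (P : PowerSeries R)).subst a +
        ((M : MvPowerSeries σ R) * a ^ (M - 1) * h.subst a +
          a ^ M * (PowerSeries.derivative R h).subst a) := by
    rw [hder, PowerSeries.subst_add ha, PowerSeries.subst_add ha, PowerSeries.subst_mul ha,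
      PowerSeries.subst_mul ha, PowerSeries.subst_mul ha, PowerSeries.subst_pow ha,
      PowerSeries.subst_pow ha, hXa]
    congr 3
    have : (M : PowerSeries R) = PowerSeries.C (M : R) := by simp
    rw [this, PowerSeries.subst_C]
    simp
  rw [hsub, map_add, hpoly, hdersub, map_add, add_mul, map_add, add_mul, map_add]
  congr 1
  -- the tail terms vanish
  rw [Derivation.leibniz, Derivation.leibniz_pow, map_add]
  simp only [smul_eq_mul, nsmul_eq_mul]
  have e1 : MvPowerSeries.coeff n (a ^ M * (MvPowerSeries.pderiv R i) (h.subst a)) = 0 :=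
    hNa M (by omega) _
  have hM' : M - 1 = N := by omega
  have e2 : MvPowerSeries.coeff n (h.subst a *
      ((M : MvPowerSeries σ R) * (a ^ (M - 1) * (MvPowerSeries.pderiv R i) a))) = 0 := by
    have : h.subst a * ((M : MvPowerSeries σ R) * (a ^ (M - 1) * (MvPowerSeries.pderiv R i) a)) =
        a ^ (M - 1) * (h.subst a * (M : MvPowerSeries σ R) * (MvPowerSeries.pderiv R i) a) := by
      ring
    rw [this]
    exact hNa _ (by omega) _
  rw [e1, e2]
  have e3 : ((M : MvPowerSeries σ R) * a ^ (M - 1) * h.subst a) * (MvPowerSeries.pderiv R i) a =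
      a ^ (M - 1) * ((M : MvPowerSeries σ R) * h.subst a * (MvPowerSeries.pderiv R i) a) := by
    ring
  have e4 : (a ^ M * (PowerSeries.derivative R h).subst a) * (MvPowerSeries.pderiv R i) a =
      a ^ M * ((PowerSeries.derivative R h).subst a * (MvPowerSeries.pderiv R i) a) := by
    ring
  rw [e3, e4, hNa _ (by omega), hNa _ (by omega)]

end Chain

section Frob

variable {R : Type*} [CommRing R]

theorem coeff_single_zero (G : FormalGroup R) (m : ℕ) :
    MvPowerSeries.coeff (Finsupp.single (0 : Fin 2) m) G.toPowerSeries =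
      PowerSeries.coeff m (PowerSeries.X : PowerSeries R) := by
  classical
  rw [← G.Xzero_eq_X]
  show _ = MvPowerSeries.coeff _ (MvPowerSeries.subst _ _)
  have hs : MvPowerSeries.HasSubst ![(PowerSeries.X : PowerSeries R), 0] :=
    MvPowerSeries.HasSubst.X_zero
  rw [MvPowerSeries.coeff_subst hs,
    finsum_eq_single _ (Finsupp.single (0 : Fin 2) m)]
  · rw [Finsupp.prod_single_index (by simp)]
    simp only [Matrix.cons_val_zero, smul_eq_mul]
    have : (MvPowerSeries.coeff (Finsupp.single () m)) ((PowerSeries.X : PowerSeries R) ^ m) = 1 := by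
      have := PowerSeries.coeff_X_pow_self (R := R) m
      simpa [PowerSeries.coeff] using this
    rw [this, mul_one]
  · intro d hd
    by_cases hd1 : d 1 = 0
    · have hd0 : d 0 ≠ m := by
        intro h
        apply hd
        ext i
        fin_cases i <;> simp [h, hd1]
      have : (d.prod fun s e => (![PowerSeries.X, 0] s : PowerSeries R) ^ e) =
          (PowerSeries.X : PowerSeries R) ^ d 0 := by
        rw [Finsupp.prod_fintype _ _ (by simp)]
        simp [Fin.prod_univ_two, hd1]
      rw [this]
      have h2 := PowerSeries.coeff_X_pow (R := R) m (d 0)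
      rw [if_neg (Ne.symm hd0)] at h2
      have : (MvPowerSeries.coeff (Finsupp.single () m)) ((PowerSeries.X : PowerSeries R) ^ d 0) = 0 := by
        simpa [PowerSeries.coeff] using h2
      rw [this, smul_zero]
    · have : (d.prod fun s e => (![PowerSeries.X, 0] s : PowerSeries R) ^ e) = 0 := by
        rw [Finsupp.prod_fintype _ _ (by simp)]
        simp [Fin.prod_univ_two, hd1]
      rw [this]
      simp

/-- The law modulo `X₁`: `G(X₀,X₁) = X₀ + X₁ T`. -/
theorem exists_eq_X_add_mul (G : FormalGroup R) : ∃ T : MvPowerSeries (Fin 2) R,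
    G.toPowerSeries = MvPowerSeries.X 0 + MvPowerSeries.X 1 * T := by
  classical
  let T : MvPowerSeries (Fin 2) R :=
    fun d => MvPowerSeries.coeff (d + Finsupp.single 1 1) G.toPowerSeries
  have hT : ∀ d, MvPowerSeries.coeff d T =
      MvPowerSeries.coeff (d + Finsupp.single 1 1) G.toPowerSeries := fun d => rfl
  refine ⟨T, ?_⟩
  ext d
  rw [map_add, MvPowerSeries.X_def 1, MvPowerSeries.coeff_monomial_mul]
  by_cases hd : d 1 = 0
  · have h0 : d = Finsupp.single 0 (d 0) := by
      ext i; fin_cases i <;> simp [hd]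
    have hns : ¬ Finsupp.single (1 : Fin 2) 1 ≤ d := by
      intro h
      have := h 1
      simp [hd] at this
    rw [if_neg hns, add_zero, h0, coeff_single_zero, MvPowerSeries.X_def,
      MvPowerSeries.coeff_monomial, PowerSeries.coeff_X]
    by_cases h : d 0 = 1
    · simp [h]
    · rw [if_neg h, if_neg]
      intro h'
      apply h
      simpa using DFunLike.congr_fun h' 0
  · have hs : Finsupp.single (1 : Fin 2) 1 ≤ d := by
      intro i
      fin_cases i
      · simp
      · simpa using Nat.one_le_iff_ne_zero.2 hd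
    have hne : d ≠ Finsupp.single (0 : Fin 2) 1 := by
      intro h
      apply hd
      simp [h]
    rw [if_pos hs, MvPowerSeries.X_def, MvPowerSeries.coeff_monomial, if_neg hne, zero_add, one_mul,
      hT, tsub_add_cancel_of_le hs]


theorem hasSubst_evalY0 : MvPowerSeries.HasSubst ![(PowerSeries.X : PowerSeries R), 0] :=
  MvPowerSeries.HasSubst.X_zero

/-- evaluation at `X₁ = 0`. -/
noncomputable abbrev evalY0 : MvPowerSeries (Fin 2) R →ₐ[R] PowerSeries R :=
  MvPowerSeries.substAlgHom hasSubst_evalY0

theorem evalY0_X0 : evalY0 (MvPowerSeries.X 0) = (PowerSeries.X : PowerSeries R) := by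
  rw [evalY0, MvPowerSeries.substAlgHom_X]; rfl

theorem evalY0_X1 : evalY0 (MvPowerSeries.X 1) = (0 : PowerSeries R) := by
  rw [evalY0, MvPowerSeries.substAlgHom_X]; rfl

theorem evalY0_subst {a : MvPowerSeries (Fin 2) R} (ha : PowerSeries.HasSubst a) (f : PowerSeries R) :
    evalY0 (f.subst a) = f.subst (evalY0 a) := by
  rw [evalY0, MvPowerSeries.substAlgHom_apply, MvPowerSeries.substAlgHom_apply, PowerSeries.subst,
    PowerSeries.subst, MvPowerSeries.subst_comp_subst_apply ha.const hasSubst_evalY0]

theorem constantCoeff_evalY0 (w : MvPowerSeries (Fin 2) R) :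
    PowerSeries.constantCoeff (evalY0 w) = MvPowerSeries.constantCoeff w := by
  classical
  rw [evalY0, MvPowerSeries.substAlgHom_apply]
  show MvPowerSeries.constantCoeff _ = _
  rw [MvPowerSeries.constantCoeff_subst hasSubst_evalY0, finsum_eq_single _ (0 : Fin 2 →₀ ℕ)]
  · simp
  · intro d hd
    have : MvPowerSeries.constantCoeff
        (d.prod fun s e => (![(PowerSeries.X : PowerSeries R), 0] s) ^ e) = 0 := by
      rw [Finsupp.prod_fintype _ _ (by simp), map_prod]
      obtain ⟨i, hi⟩ : ∃ i, d i ≠ 0 := by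
        by_contra hcon
        push Not at hcon
        exact hd (Finsupp.ext hcon)
      refine Finset.prod_eq_zero (Finset.mem_univ i) ?_
      rw [map_pow]
      fin_cases i
      · have hi' : d 0 ≠ 0 := hi
        show MvPowerSeries.constantCoeff (PowerSeries.X : PowerSeries R) ^ d 0 = 0
        rw [show MvPowerSeries.constantCoeff (PowerSeries.X : PowerSeries R) = 0 from
          PowerSeries.constantCoeff_X, zero_pow hi']
      · have hi' : d 1 ≠ 0 := hi
        show (0 : R) ^ d 1 = 0
        rw [zero_pow hi']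
    rw [this, smul_zero]

/-- A homomorphism of formal group laws with vanishing linear term has vanishing derivative. -/
theorem derivative_eq_zero_of_hom {F G : FormalGroup R} {f : PowerSeries R} (hf : IsFGHom F G f)
    (h1 : PowerSeries.coeff 1 f = 0) : PowerSeries.derivative R f = 0 := by
  classical
  obtain ⟨h0, hsub⟩ := hf
  obtain ⟨T, hT⟩ := exists_eq_X_add_mul G
  set g0 := PowerSeries.subst (MvPowerSeries.X 0 : MvPowerSeries (Fin 2) R) f with hg0
  set g1 := PowerSeries.subst (MvPowerSeries.X 1 : MvPowerSeries (Fin 2) R) f with hg1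
  have hX0 : PowerSeries.HasSubst (MvPowerSeries.X 0 : MvPowerSeries (Fin 2) R) :=
    PowerSeries.HasSubst.X 0
  have hX1 : PowerSeries.HasSubst (MvPowerSeries.X 1 : MvPowerSeries (Fin 2) R) :=
    PowerSeries.HasSubst.X 1
  have hc0 : MvPowerSeries.constantCoeff g0 = 0 :=
    PowerSeries.constantCoeff_subst_eq_zero (by simp) _ h0
  have hc1 : MvPowerSeries.constantCoeff g1 = 0 :=
    PowerSeries.constantCoeff_subst_eq_zero (by simp) _ h0
  have hs : MvPowerSeries.HasSubst ![g0, g1] :=
    MvPowerSeries.hasSubst_of_constantCoeff_zero (by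
      intro i; fin_cases i
      · simpa using hc0
      · simpa using hc1)
  have hrhs : G.toPowerSeries.subst ![g0, g1] = g0 + g1 * T.subst ![g0, g1] := by
    rw [hT, MvPowerSeries.subst_add hs, MvPowerSeries.subst_mul hs, MvPowerSeries.subst_X hs,
      MvPowerSeries.subst_X hs]
    rfl
  have hF : PowerSeries.HasSubst F.toPowerSeries :=
    PowerSeries.HasSubst.of_constantCoeff_zero F.zero_constantCoeff
  -- differentiate in `X₁`
  have hd := congrArg (MvPowerSeries.pderiv R (1 : Fin 2)) (hsub.trans hrhs)
  rw [pderiv_subst hF, map_add, Derivation.leibniz, hg0, pderiv_subst hX0,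
    MvPowerSeries.pderiv_X_of_ne (by decide), mul_zero, zero_add, ← hg0, hg1, pderiv_subst hX1,
    MvPowerSeries.pderiv_X_self, mul_one, ← hg1] at hd
  have hev := congrArg evalY0 hd
  have hFe : evalY0 F.toPowerSeries = (PowerSeries.X : PowerSeries R) := by
    rw [evalY0, MvPowerSeries.substAlgHom_apply]
    exact F.Xzero_eq_X
  have h00 : evalY0 g1 = 0 := by
    rw [hg1, evalY0_subst hX1, evalY0_X1]
    have : (0 : PowerSeries R) = (0 : MvPowerSeries Unit R) := rfl
    rw [this]
    rw [PowerSeries.subst_zero_of_constantCoeff_zero h0]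
  have h01 : evalY0 (PowerSeries.subst (MvPowerSeries.X 1 : MvPowerSeries (Fin 2) R)
      (PowerSeries.derivative R f)) = 0 := by
    rw [evalY0_subst hX1, evalY0_X1]
    have : (0 : PowerSeries R) = (0 : MvPowerSeries Unit R) := rfl
    rw [this]
    rw [PowerSeries.subst_zero_eq_C_constantCoeff]
    have : PowerSeries.constantCoeff (PowerSeries.derivative R f) = 0 := by
      rw [← PowerSeries.coeff_zero_eq_constantCoeff_apply, PowerSeries.coeff_derivative]
      simpa using h1
    rw [this]; simp
  simp only [map_add, map_mul, smul_eq_mul, h00, h01, zero_mul, mul_zero, add_zero,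
    evalY0_subst hF, hFe, PowerSeries.X_subst] at hev
  have hunit : IsUnit (evalY0 (MvPowerSeries.pderiv R (1 : Fin 2) F.toPowerSeries)) := by
    rw [PowerSeries.isUnit_iff_constantCoeff, constantCoeff_evalY0,
      ← MvPowerSeries.coeff_zero_eq_constantCoeff_apply, MvPowerSeries.coeff_pderiv]
    simp [F.lin_coeff_Y]
  exact (hunit.mul_left_eq_zero).1 hev


/-- In characteristic `p` the derivative vanishing forces `f` to be a series in `X ^ p`. -/
theorem coeff_eq_zero_of_derivative_eq_zero {p : ℕ} (hp : p.Prime) (hpR : (p : R) = 0)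
    {f : PowerSeries R} (hf : PowerSeries.derivative R f = 0) {m : ℕ} (hm : ¬ p ∣ m) :
    PowerSeries.coeff m f = 0 := by
  obtain _ | k := m
  · simp at hm
  have h := congrArg (PowerSeries.coeff k) hf
  rw [PowerSeries.coeff_derivative, map_zero] at h
  have hcop : IsCoprime (((k + 1 : ℕ) : ℤ)) (p : ℤ) :=
    Nat.isCoprime_iff_coprime.2 (((Nat.Prime.coprime_iff_not_dvd hp).2 hm).symm)
  obtain ⟨a, b, hab⟩ := hcop
  have hab' := congrArg (Int.castRingHom R) hab
  simp only [map_add, map_mul, map_natCast, map_one, hpR, mul_zero, add_zero, eq_intCast] at hab'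
  calc PowerSeries.coeff (k + 1) f
      = PowerSeries.coeff (k + 1) f * (((a : R)) * ((k + 1 : ℕ) : R)) := by rw [hab', mul_one]
    _ = (a : R) * (PowerSeries.coeff (k + 1) f * ((k : R) + 1)) := by push_cast; ring
    _ = 0 := by rw [h, mul_zero]

/-- Lemma A2.1, first half. -/
theorem exists_expand_of_hom {p : ℕ} (hp : p.Prime) (hpR : (p : R) = 0)
    {F G : FormalGroup R} {f : PowerSeries R} (hf : IsFGHom F G f)
    (h1 : PowerSeries.coeff 1 f = 0) :
    f = PowerSeries.expand p hp.ne_zero (PowerSeries.mk fun m => PowerSeries.coeff (p * m) f) := by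
  ext m
  rw [PowerSeries.coeff_expand]
  split_ifs with h
  · obtain ⟨q, rfl⟩ := h
    simp [Nat.mul_div_cancel_left _ hp.pos]
  · exact coeff_eq_zero_of_derivative_eq_zero hp hpR (derivative_eq_zero_of_hom hf h1) h

/-- Frobenius twist of a formal group law in char `p`. -/
noncomputable abbrev frobTwist (p : ℕ) [ExpChar R p] (F : FormalGroup R) : FormalGroup R :=
  F.map (frobenius R p)

theorem expand_injective {σ : Type*} {p : ℕ} (hp : p ≠ 0) :
    Function.Injective (MvPowerSeries.expand (σ := σ) (R := R) p hp) := by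
  intro a b hab
  ext m
  rw [← MvPowerSeries.coeff_expand_smul p hp a, ← MvPowerSeries.coeff_expand_smul p hp b, hab]

/-- Lemma A2.1. -/
theorem IsFGHom.expand_twist {p : ℕ} [Fact p.Prime] [ExpChar R p]
    {F G : FormalGroup R} {f g : PowerSeries R} (hf : IsFGHom F G f)
    (hg : f = PowerSeries.expand p (Fact.out : p.Prime).ne_zero g) :
    IsFGHom (frobTwist p F) G g := by
  have hp : p ≠ 0 := (Fact.out : p.Prime).ne_zero
  obtain ⟨h0, hsub⟩ := hf
  have hg0 : PowerSeries.constantCoeff g = 0 := by
    rw [hg, PowerSeries.constantCoeff_expand] at h0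
    exact h0
  refine ⟨hg0, ?_⟩
  have hgX : PowerSeries.HasSubst (PowerSeries.X ^ p : PowerSeries R) := PowerSeries.HasSubst.X_pow hp
  have hF : PowerSeries.HasSubst F.toPowerSeries :=
    PowerSeries.HasSubst.of_constantCoeff_zero F.zero_constantCoeff
  have hF' : PowerSeries.HasSubst (frobTwist p F).toPowerSeries :=
    PowerSeries.HasSubst.of_constantCoeff_zero (frobTwist p F).zero_constantCoeff
  apply expand_injective (p := p) hp
  -- left-hand side
  have hL : MvPowerSeries.expand p hp (PowerSeries.subst (frobTwist p F).toPowerSeries g) =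
      PowerSeries.subst F.toPowerSeries f := by
    rw [PowerSeries.expand_subst p hp hF']
    have h2 : MvPowerSeries.expand p hp (frobTwist p F).toPowerSeries = F.toPowerSeries ^ p := by
      show MvPowerSeries.expand p hp (MvPowerSeries.map (frobenius R p) F.toPowerSeries) = _
      rw [← MvPowerSeries.map_expand, MvPowerSeries.map_frobenius_expand]
    rw [h2, hg, PowerSeries.expand_apply, PowerSeries.subst_comp_subst_apply hgX hF,
      PowerSeries.subst_pow hF, PowerSeries.subst_X hF]
  have hR : MvPowerSeries.expand p hp ((FormalGroup.toPowerSeries G).subst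
      ![PowerSeries.subst (MvPowerSeries.X 0 : MvPowerSeries (Fin 2) R) g,
        PowerSeries.subst (MvPowerSeries.X 1 : MvPowerSeries (Fin 2) R) g]) =
      G.toPowerSeries.subst ![PowerSeries.subst (MvPowerSeries.X 0 : MvPowerSeries (Fin 2) R) f,
        PowerSeries.subst (MvPowerSeries.X 1 : MvPowerSeries (Fin 2) R) f] := by
    have hX : ∀ i : Fin 2, PowerSeries.HasSubst (MvPowerSeries.X i : MvPowerSeries (Fin 2) R) :=
      fun i => PowerSeries.HasSubst.X i
    have key : ∀ i : Fin 2, MvPowerSeries.expand p hp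
        (PowerSeries.subst (MvPowerSeries.X i : MvPowerSeries (Fin 2) R) g) =
        PowerSeries.subst (MvPowerSeries.X i : MvPowerSeries (Fin 2) R) f := by
      intro i
      rw [PowerSeries.expand_subst p hp (hX i), hg, PowerSeries.expand_apply,
        PowerSeries.subst_comp_subst_apply hgX (hX i), PowerSeries.subst_pow (hX i),
        PowerSeries.subst_X (hX i), MvPowerSeries.expand_X]
    have hs : MvPowerSeries.HasSubst ![PowerSeries.subst (MvPowerSeries.X 0 : MvPowerSeries (Fin 2) R) g,
        PowerSeries.subst (MvPowerSeries.X 1 : MvPowerSeries (Fin 2) R) g] :=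
      MvPowerSeries.hasSubst_of_constantCoeff_zero (by
        intro i; fin_cases i
        · simpa using PowerSeries.constantCoeff_subst_eq_zero (by simp) _ hg0
        · simpa using PowerSeries.constantCoeff_subst_eq_zero (by simp) _ hg0)
    rw [MvPowerSeries.expand_subst p hp hs]
    congr 1
    funext i
    fin_cases i
    · exact key 0
    · exact key 1
  rw [hL, hR, hsub]

end Frob

section HeightIdeals

variable {R S : Type*} [CommRing R] [CommRing S]

/-- The height ideals of a formal group law over any commutative ring. -/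
noncomputable def hI (p : ℕ) (F : FormalGroup R) : ℕ → Ideal R
  | 0 => ⊥
  | h + 1 => hI p F h ⊔ Ideal.span {PowerSeries.coeff (p ^ h) (mulSeries F p)}

@[simp] theorem hI_zero (p : ℕ) (F : FormalGroup R) : hI p F 0 = ⊥ := rfl

theorem hI_succ (p : ℕ) (F : FormalGroup R) (h : ℕ) :
    hI p F (h + 1) = hI p F h ⊔ Ideal.span {PowerSeries.coeff (p ^ h) (mulSeries F p)} := rfl

theorem heightIdeal_eq_hI (p : ℕ) [Fact p.Prime] (n : ℕ) (H : FormalGroup (LTRing p n)) (h : ℕ) :
    heightIdeal p n H h = hI p H h := by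
  induction h with
  | zero => rfl
  | succ h ih => rw [heightIdeal, hI_succ, ih]

theorem hI_mono (p : ℕ) (F : FormalGroup R) {h h' : ℕ} (hh : h ≤ h') : hI p F h ≤ hI p F h' := by
  induction hh with
  | refl => exact le_rfl
  | step _ ih => exact ih.trans le_sup_left

theorem coeff_mem_hI_succ (p : ℕ) (F : FormalGroup R) (h : ℕ) :
    PowerSeries.coeff (p ^ h) (mulSeries F p) ∈ hI p F (h + 1) :=
  Ideal.mem_sup_right (Ideal.mem_span_singleton_self _)

/-- `p ∈ I_h` for `h ≥ 1`. -/
theorem natCast_mem_hI (p : ℕ) (F : FormalGroup R) {h : ℕ} (hh : 1 ≤ h) : (p : R) ∈ hI p F h := by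
  have h1 := coeff_mem_hI_succ p F 0
  rw [pow_zero, coeff_one_mulSeries] at h1
  exact hI_mono p F hh h1

/-- Lemma A2.4: base change. -/
theorem hI_map (p : ℕ) (φ : R →+* S) (F : FormalGroup R) (h : ℕ) :
    hI p (F.map φ) h = (hI p F h).map φ := by
  induction h with
  | zero => simp
  | succ h ih =>
    rw [hI_succ, hI_succ, ih, Ideal.map_sup, Ideal.map_span, Set.image_singleton, ← map_mulSeries,
      PowerSeries.coeff_map]

/-- Iterated Frobenius twist. -/
noncomputable abbrev iterTwist (p : ℕ) [ExpChar S p] (F : FormalGroup S) (h : ℕ) : FormalGroup S :=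
  F.map (iterateFrobenius S p h)

theorem frobTwist_iterTwist (p : ℕ) [ExpChar S p] (F : FormalGroup S) (h : ℕ) :
    frobTwist p (iterTwist p F h) = iterTwist p F (h + 1) := by
  ext e
  simp only [frobTwist, iterTwist, FormalGroup.map_toPowerSeries, MvPowerSeries.coeff_map,
    iterateFrobenius_def, frobenius_def]
  rw [pow_succ, pow_mul]

/-- Lemma A2.2. If `π : R → S` kills `I_h(F)`, `S` of char `p`, the push-forward of the `p`-series
is a series `g(X^{p^h})`, and `g` is a homomorphism from the `h`-fold twist. -/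
theorem exists_pSeries_factor (p : ℕ) [Fact p.Prime] [CharP S p] (F : FormalGroup R) [F.IsComm]
    (π : R →+* S) (h : ℕ) (hπ : ∀ x ∈ hI p F h, π x = 0) :
    ∃ g : PowerSeries S,
      PowerSeries.map π (mulSeries F p) =
        PowerSeries.expand (p ^ h) (pow_ne_zero h (Fact.out : p.Prime).ne_zero) g ∧
      IsFGHom (iterTwist p (F.map π) h) (F.map π) g := by
  have hp : p.Prime := Fact.out
  have hp0 : p ≠ 0 := hp.ne_zero
  have hpS : (p : S) = 0 := CharP.cast_eq_zero S p
  induction h with
  | zero =>
    refine ⟨PowerSeries.map π (mulSeries F p), ?_, ?_⟩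
    · simp
    · have h1 := (isFGHom_mulSeries F p).map π
      have : iterTwist p (F.map π) 0 = F.map π := by
        ext e
        simp [iterTwist]
      rw [this]
      exact h1
  | succ h ih =>
    obtain ⟨g, hg, hhom⟩ := ih (fun x hx => hπ x (hI_mono p F (Nat.le_succ h) hx))
    have h1 : PowerSeries.coeff 1 g = 0 := by
      have := congrArg (PowerSeries.coeff (p ^ h * 1)) hg
      rw [PowerSeries.coeff_map, PowerSeries.coeff_expand_mul, mul_one] at this
      rw [← this]
      exact hπ _ (coeff_mem_hI_succ p F h)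
    have h2 := exists_expand_of_hom hp hpS hhom h1
    refine ⟨PowerSeries.mk fun m => PowerSeries.coeff (p * m) g, ?_, ?_⟩
    · rw [hg]
      conv_lhs => rw [h2]
      have := PowerSeries.expand_mul (p ^ h) (pow_ne_zero h hp0) p hp0
        (PowerSeries.mk fun m => PowerSeries.coeff (p * m) g)
      rw [← this]
      simp only [pow_succ]
    · rw [← frobTwist_iterTwist]
      exact IsFGHom.expand_twist hhom h2

/-- quotient by a proper ideal containing `p` has char `p`. -/
theorem charP_quotient (p : ℕ) [Fact p.Prime] (I : Ideal R) (hI1 : I ≠ ⊤) (hpI : (p : R) ∈ I) :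
    CharP (R ⧸ I) p := by
  have : Nontrivial (R ⧸ I) := Ideal.Quotient.nontrivial_iff.2 hI1
  rw [CharP.charP_iff_prime_eq_zero (Fact.out : p.Prime)]
  have := (Ideal.Quotient.eq_zero_iff_mem (I := I)).2 hpI
  simpa using this

/-- Modulo `I_h`, only exponents divisible by `p ^ h` occur in the `p`-series. -/
theorem coeff_mem_hI_of_not_dvd (p : ℕ) [Fact p.Prime] (F : FormalGroup R) [F.IsComm] (h m : ℕ)
    (hm : ¬ p ^ h ∣ m) : PowerSeries.coeff m (mulSeries F p) ∈ hI p F h := by
  have hh : 1 ≤ h := by
    by_contra hcon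
    have : h = 0 := by omega
    subst this
    simp at hm
  by_cases htop : hI p F h = ⊤
  · rw [htop]; trivial
  have := charP_quotient p (hI p F h) htop (natCast_mem_hI p F hh)
  obtain ⟨g, hg, -⟩ := exists_pSeries_factor p F (Ideal.Quotient.mk (hI p F h)) h
    (fun x hx => Ideal.Quotient.eq_zero_iff_mem.2 hx)
  have := congrArg (PowerSeries.coeff m) hg
  rw [PowerSeries.coeff_map, PowerSeries.coeff_expand_of_not_dvd _ _ _ hm] at this
  exact Ideal.Quotient.eq_zero_iff_mem.1 this

/-- All coefficients of index `< p ^ h` of the `p`-series lie in `I_h`. -/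
theorem coeff_mem_hI_of_lt (p : ℕ) [Fact p.Prime] (F : FormalGroup R) [F.IsComm] (h m : ℕ)
    (hm : m < p ^ h) : PowerSeries.coeff m (mulSeries F p) ∈ hI p F h := by
  by_cases hd : p ^ h ∣ m
  · have : m = 0 := Nat.eq_zero_of_dvd_of_lt hd hm
    subst this
    rw [PowerSeries.coeff_zero_eq_constantCoeff_apply, constantCoeff_mulSeries]
    exact Ideal.zero_mem _
  · exact coeff_mem_hI_of_not_dvd p F h m hd

/-- Leading coefficient of a substitution in a series of high order. -/
theorem coeff_subst_of_lowOrder {φ u : PowerSeries S} (hφ : PowerSeries.constantCoeff φ = 0)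
    {M : ℕ} (hM : 1 ≤ M) (hu : ∀ i < M, PowerSeries.coeff i u = 0) :
    PowerSeries.coeff M (φ.subst u) = PowerSeries.coeff 1 φ * PowerSeries.coeff M u := by
  have hu0 : PowerSeries.constantCoeff u = 0 := by
    rw [← PowerSeries.coeff_zero_eq_constantCoeff_apply]; exact hu 0 (by omega)
  have hus : PowerSeries.HasSubst u := PowerSeries.HasSubst.of_constantCoeff_zero' hu0
  obtain ⟨w, rfl⟩ : (PowerSeries.X : PowerSeries S) ^ M ∣ u := PowerSeries.X_pow_dvd_iff.2 hu
  obtain ⟨ψ, hψ⟩ : ∃ ψ : PowerSeries S, φ = PowerSeries.C (PowerSeries.coeff 1 φ) * PowerSeries.X +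
      PowerSeries.X ^ 2 * ψ := by
    refine ⟨PowerSeries.mk fun k => PowerSeries.coeff (k + 2) φ, ?_⟩
    ext k
    rw [map_add, PowerSeries.coeff_C_mul, PowerSeries.coeff_X, PowerSeries.coeff_X_pow_mul']
    obtain _ | _ | k := k
    · simpa using hφ
    · simp
    · simp
  have hs : φ.subst ((PowerSeries.X : PowerSeries S) ^ M * w) =
      PowerSeries.C (PowerSeries.coeff 1 φ) * ((PowerSeries.X : PowerSeries S) ^ M * w) +
        (PowerSeries.X ^ M * w) ^ 2 * ψ.subst ((PowerSeries.X : PowerSeries S) ^ M * w) := by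
    conv_lhs => rw [hψ]
    rw [PowerSeries.subst_add hus, PowerSeries.subst_mul hus, PowerSeries.subst_mul hus,
      PowerSeries.subst_pow hus, PowerSeries.subst_X hus, PowerSeries.subst_C]
    rfl
  rw [hs, map_add, PowerSeries.coeff_C_mul]
  have : ((PowerSeries.X : PowerSeries S) ^ M * w) ^ 2 *
      ψ.subst ((PowerSeries.X : PowerSeries S) ^ M * w) =
      PowerSeries.X ^ (2 * M) * (w ^ 2 * ψ.subst ((PowerSeries.X : PowerSeries S) ^ M * w)) := by
    ring
  have hz : PowerSeries.coeff M (PowerSeries.X ^ (2 * M) *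
      (w ^ 2 * ψ.subst ((PowerSeries.X : PowerSeries S) ^ M * w))) = 0 := by
    rw [PowerSeries.coeff_X_pow_mul', if_neg (by omega)]
  rw [this, hz, add_zero]

theorem coeff_pow_of_cc {θ : PowerSeries S} (hθ : PowerSeries.constantCoeff θ = 0) (M i : ℕ)
    (hi : i < M) : PowerSeries.coeff i (θ ^ M) = 0 := by
  obtain ⟨w, rfl⟩ := PowerSeries.X_dvd_iff.2 hθ
  rw [mul_pow, PowerSeries.coeff_X_pow_mul', if_neg (by omega)]

theorem coeff_pow_self_of_cc {θ : PowerSeries S} (hθ : PowerSeries.constantCoeff θ = 0) (M : ℕ) :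
    PowerSeries.coeff M (θ ^ M) = (PowerSeries.coeff 1 θ) ^ M := by
  obtain ⟨w, rfl⟩ := PowerSeries.X_dvd_iff.2 hθ
  rw [mul_pow, PowerSeries.coeff_X_pow_mul', if_pos le_rfl, Nat.sub_self,
    PowerSeries.coeff_zero_eq_constantCoeff_apply, map_pow]
  congr 1
  simpa using (PowerSeries.coeff_succ_X_mul 0 w).symm

/-- The key relation of Lemma A2.3: `θ₁ v_h(F) = v_h(G) θ₁^{p^h}` modulo `I_h`. -/
theorem coeff_relation (p : ℕ) [Fact p.Prime] {F G : FormalGroup R} [F.IsComm] [G.IsComm]
    {θ : PowerSeries R} (hθ : IsFGHom F G θ) (h : ℕ) (π : R →+* S) [CharP S p]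
    (hF : ∀ x ∈ hI p F h, π x = 0) (hG : ∀ x ∈ hI p G h, π x = 0) :
    π (PowerSeries.coeff 1 θ) * π (PowerSeries.coeff (p ^ h) (mulSeries F p)) =
      π (PowerSeries.coeff (p ^ h) (mulSeries G p)) * π (PowerSeries.coeff 1 θ) ^ (p ^ h) := by
  have hp : p.Prime := Fact.out
  have hpos : 1 ≤ p ^ h := Nat.one_le_pow _ _ hp.pos
  have hne : p ^ h ≠ 0 := pow_ne_zero h hp.ne_zero
  obtain ⟨gF, hgF, hhF⟩ := exists_pSeries_factor p F π h hF
  obtain ⟨gG, hgG, hhG⟩ := exists_pSeries_factor p G π h hG
  have hrel := congrArg (PowerSeries.map π) (hθ.subst_mulSeries p)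
  have hmapsub : ∀ {a b : PowerSeries R}, PowerSeries.constantCoeff b = 0 →
      PowerSeries.map π (a.subst b) = (PowerSeries.map π a).subst (PowerSeries.map π b) := by
    intro a b hb
    exact map_ps_subst π a (ps_hasSubst_of_cc hb)
  rw [hmapsub (constantCoeff_mulSeries F p), hmapsub hθ.1, hgF, hgG] at hrel
  set θ' := PowerSeries.map π θ with hθ'
  have hc : PowerSeries.constantCoeff θ' = 0 := by
    rw [hθ', ← PowerSeries.coeff_zero_eq_constantCoeff_apply, PowerSeries.coeff_map,
      PowerSeries.coeff_zero_eq_constantCoeff_apply, hθ.1, map_zero]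
  have hc1 : PowerSeries.coeff 1 θ' = π (PowerSeries.coeff 1 θ) := PowerSeries.coeff_map _ _ _
  -- the left-hand side
  have hlow : ∀ i < p ^ h, PowerSeries.coeff i (PowerSeries.expand (p ^ h) hne gF) = 0 := by
    intro i hi
    rw [PowerSeries.coeff_expand]
    split_ifs with hd
    · have : i = 0 := Nat.eq_zero_of_dvd_of_lt hd hi
      subst this
      simp
      exact hhF.1
    · rfl
  have hL := coeff_subst_of_lowOrder hc hpos hlow
  have hone : ∀ g : PowerSeries S, PowerSeries.coeff (p ^ h) (PowerSeries.expand (p ^ h) hne g) =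
      PowerSeries.coeff 1 g := by
    intro g
    have := PowerSeries.coeff_expand_mul (p ^ h) hne g 1
    rwa [mul_one] at this
  rw [hone gF] at hL
  -- the right-hand side
  have hsX : PowerSeries.HasSubst ((PowerSeries.X : PowerSeries S) ^ p ^ h) :=
    PowerSeries.HasSubst.X_pow hne
  have hθs : PowerSeries.HasSubst θ' := ps_hasSubst_of_cc hc
  have hR0 : (PowerSeries.expand (p ^ h) hne gG).subst θ' = gG.subst (θ' ^ p ^ h) := by
    rw [PowerSeries.expand_apply, PowerSeries.subst_comp_subst_apply hsX hθs,
      PowerSeries.subst_pow hθs, PowerSeries.subst_X hθs]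
  have hR := coeff_subst_of_lowOrder hhG.1 hpos (u := θ' ^ p ^ h)
    (fun i hi => coeff_pow_of_cc hc _ i hi)
  rw [coeff_pow_self_of_cc hc] at hR
  have h1 : PowerSeries.coeff (p ^ h) (PowerSeries.map π (mulSeries F p)) =
      π (PowerSeries.coeff (p ^ h) (mulSeries F p)) := PowerSeries.coeff_map _ _ _
  have h2 : PowerSeries.coeff (p ^ h) (PowerSeries.map π (mulSeries G p)) =
      π (PowerSeries.coeff (p ^ h) (mulSeries G p)) := PowerSeries.coeff_map _ _ _
  have e1 : PowerSeries.coeff 1 gF = π (PowerSeries.coeff (p ^ h) (mulSeries F p)) := by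
    rw [← h1, hgF, hone]
  have e2 : PowerSeries.coeff 1 gG = π (PowerSeries.coeff (p ^ h) (mulSeries G p)) := by
    rw [← h2, hgG, hone]
  have := congrArg (PowerSeries.coeff (p ^ h)) hrel
  rw [hR0, hL, hR, hc1, e1, e2] at this
  exact this

/-- Lemma A2.3: the height ideals are invariant under homomorphisms with unit linear coefficient. -/
theorem hI_eq_of_hom (p : ℕ) [Fact p.Prime] {F G : FormalGroup R} [F.IsComm] [G.IsComm]
    {θ : PowerSeries R} (hθ : IsFGHom F G θ) (hu : IsUnit (PowerSeries.coeff 1 θ)) (h : ℕ) :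
    hI p F h = hI p G h := by
  induction h with
  | zero => rfl
  | succ h ih =>
    rw [hI_succ, hI_succ, ← ih]
    obtain _ | h := h
    · simp only [pow_zero, coeff_one_mulSeries]
    set I := hI p F (h + 1) with hI_def
    by_cases htop : I = ⊤
    · rw [htop, top_sup_eq, top_sup_eq]
    have hpI : (p : R) ∈ I := natCast_mem_hI p F (by omega)
    have := charP_quotient p I htop hpI
    have hrel := coeff_relation p hθ (h + 1) (Ideal.Quotient.mk I)
      (fun x hx => Ideal.Quotient.eq_zero_iff_mem.2 hx)
      (fun x hx => Ideal.Quotient.eq_zero_iff_mem.2 (by rw [ih]; exact hx))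
    set a := PowerSeries.coeff 1 θ with ha
    set vF := PowerSeries.coeff (p ^ (h + 1)) (mulSeries F p) with hvF
    set vG := PowerSeries.coeff (p ^ (h + 1)) (mulSeries G p) with hvG
    have hmem : a * vF - vG * a ^ (p ^ (h + 1)) ∈ I := by
      rw [← Ideal.Quotient.eq_zero_iff_mem, map_sub, map_mul, map_mul, map_pow, hrel, sub_self]
    obtain ⟨b, hb⟩ := hu.exists_left_inv
    have hb' : ∀ k : ℕ, b ^ k * a ^ k = 1 := fun k => by rw [← mul_pow, hb, one_pow]
    apply le_antisymm
    · refine sup_le le_sup_left ?_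
      rw [Ideal.span_singleton_le_iff_mem]
      have : vF = b * (a * vF - vG * a ^ (p ^ (h + 1))) + (b * a ^ (p ^ (h + 1))) * vG := by
        have : b * a = 1 := hb
        linear_combination (-vF) * this
      rw [this]
      exact Ideal.add_mem _ (Ideal.mem_sup_left (Ideal.mul_mem_left _ _ hmem))
        (Ideal.mem_sup_right (Ideal.mul_mem_left _ _ (Ideal.mem_span_singleton_self _)))
    · refine sup_le le_sup_left ?_
      rw [Ideal.span_singleton_le_iff_mem]
      have : vG = -(b ^ (p ^ (h + 1))) * (a * vF - vG * a ^ (p ^ (h + 1))) +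
          (b ^ (p ^ (h + 1)) * a) * vF := by
        linear_combination (-vG) * hb' (p ^ (h + 1))
      rw [this]
      exact Ideal.add_mem _ (Ideal.mem_sup_left (Ideal.mul_mem_left _ _ hmem))
        (Ideal.mem_sup_right (Ideal.mul_mem_left _ _ (Ideal.mem_span_singleton_self _)))

/-- Combination of A2.3 and A2.4: a homomorphism `H.map φ → G` with unit linear coefficient. -/
theorem hI_map_eq_of_hom (p : ℕ) [Fact p.Prime] (φ : R →+* S) {H : FormalGroup R} [H.IsComm]
    {G : FormalGroup S} [G.IsComm] {θ : PowerSeries S} (hθ : IsFGHom (H.map φ) G θ)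
    (hu : IsUnit (PowerSeries.coeff 1 θ)) (h : ℕ) : (hI p H h).map φ = hI p G h := by
  rw [← hI_map]
  exact hI_eq_of_hom p hθ hu h

end HeightIdeals

end Crest.Agent.LT
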