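/-
S0351 (row 227): the explicit height ideals are prime.
-/
import Crest.Agent.Lib.LubinTate.Defs
import Crest.Agent.Lib.LubinTate.LTRingAlg

set_option autoImplicit false

namespace Crest.Agent.LT

open Crest.LubinTate MvPowerSeries

section Kill

variable {σ W K : Type*} [CommRing W] [CommRing K]

open Classical in
/-- Coefficientwise reduction along `r`, killing the variables in `S`. -/
noncomputable def killMap (r : W →+* K) (S : Set σ) : MvPowerSeries σ W →+* MvPowerSeries σ K where
  toFun f := fun e => if ∀ i ∈ S, e i = 0 then r (coeff e f) else 0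
  map_one' := by
    ext e
    change (if ∀ i ∈ S, e i = 0 then r (coeff e (1 : MvPowerSeries σ W)) else 0) = coeff e 1
    rw [coeff_one, coeff_one]
    by_cases he : e = 0
    · subst he
      simp
    · simp [he]
  map_zero' := by
    ext e
    change (if ∀ i ∈ S, e i = 0 then r (coeff e (0 : MvPowerSeries σ W)) else 0) = coeff e 0
    simp
  map_add' f g := by
    ext e
    change (if ∀ i ∈ S, e i = 0 then r (coeff e (f + g)) else 0) =
      (if ∀ i ∈ S, e i = 0 then r (coeff e f) else 0) +
      (if ∀ i ∈ S, e i = 0 then r (coeff e g) else 0)
    split_ifs <;> simp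
  map_mul' f g := by
    ext e
    change (if ∀ i ∈ S, e i = 0 then r (coeff e (f * g)) else 0) =
      coeff e ((show MvPowerSeries σ K from fun e =>
        if ∀ i ∈ S, e i = 0 then r (coeff e f) else 0) *
        (show MvPowerSeries σ K from fun e =>
        if ∀ i ∈ S, e i = 0 then r (coeff e g) else 0))
    rw [coeff_mul, coeff_mul]
    have hc : ∀ (u : MvPowerSeries σ W) (d : σ →₀ ℕ),
        coeff d (show MvPowerSeries σ K from fun e =>
          if ∀ i ∈ S, e i = 0 then r (coeff e u) else 0) =
        if ∀ i ∈ S, d i = 0 then r (coeff d u) else 0 := fun u d => rfl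
    simp only [hc]
    split_ifs with he
    · rw [map_sum]
      refine Finset.sum_congr rfl fun x hx => ?_
      have hx' : x.1 + x.2 = e := Finset.HasAntidiagonal.mem_antidiagonal.mp hx
      have h1 : ∀ i ∈ S, x.1 i = 0 := fun i hi => by
        have := congrArg (fun g => g i) hx'
        simp only [Finsupp.add_apply, he i hi] at this
        omega
      have h2 : ∀ i ∈ S, x.2 i = 0 := fun i hi => by
        have := congrArg (fun g => g i) hx'
        simp only [Finsupp.add_apply, he i hi] at this
        omega
      rw [if_pos h1, if_pos h2, map_mul]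
    · symm
      refine Finset.sum_eq_zero fun x hx => ?_
      have hx' : x.1 + x.2 = e := Finset.HasAntidiagonal.mem_antidiagonal.mp hx
      by_cases h1 : ∀ i ∈ S, x.1 i = 0
      · by_cases h2 : ∀ i ∈ S, x.2 i = 0
        · exfalso
          apply he
          intro i hi
          have := congrArg (fun g => g i) hx'
          simp only [Finsupp.add_apply, h1 i hi, h2 i hi] at this
          omega
        · rw [if_neg h2, mul_zero]
      · rw [if_neg h1, zero_mul]

theorem coeff_killMap (r : W →+* K) (S : Set σ) (f : MvPowerSeries σ W) (e : σ →₀ ℕ) :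
    coeff e (killMap r S f) = open Classical in if ∀ i ∈ S, e i = 0 then r (coeff e f) else 0 := rfl

end Kill

variable (p : ℕ) [Fact p.Prime] (n : ℕ)

/-- The variables killed modulo `I_h`. -/
def smallVars (h : ℕ) : Set (Fin (n - 1)) := {i | i.val + 1 < h}

/-- The kernel of the reduction is `I_h`. -/
theorem II_eq_ker (h : ℕ) (h1 : 1 ≤ h) :
    II p n h = RingHom.ker (killMap (WittVector.constantCoeff : WW p n →+* kk p n) (smallVars n h)) := by
  classical
  set ρ := killMap (WittVector.constantCoeff : WW p n →+* kk p n) (smallVars n h) with hρ
  have hne : h ≠ 0 := by omega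
  apply le_antisymm
  · rw [II, if_neg hne, Ideal.span_le]
    rintro x (hx | ⟨i, hi, rfl⟩)
    · rw [Set.mem_singleton_iff] at hx
      subst hx
      change ρ (p : AA p n) = 0
      rw [map_natCast]
      ext e
      have : ((p : ℕ) : MvPowerSeries (Fin (n - 1)) (kk p n))
          = C ((p : ℕ) : kk p n) := (map_natCast _ _).symm
      rw [this, CharP.cast_eq_zero (kk p n) p, map_zero]
    · change ρ (tt p n i) = 0
      ext e
      rw [hρ, coeff_killMap, map_zero]
      split_ifs with he
      · rw [tt, coeff_X, if_neg, map_zero]
        rintro rfl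
        have := he i hi
        simp at this
      · rfl
  · intro f hf
    rw [RingHom.mem_ker] at hf
    have hcoef : ∀ e : Fin (n - 1) →₀ ℕ, (∀ i ∈ smallVars n h, e i = 0) →
        WittVector.constantCoeff (coeff e f) = (0 : kk p n) := by
      intro e he
      have := congrArg (coeff e) hf
      rw [hρ, coeff_killMap, if_pos he, map_zero] at this
      exact this
    -- the decomposition
    set f₁ : AA p n := f - ∑ i ∈ Finset.univ.filter (fun i : Fin (n - 1) => i.val + 1 < h),
      X i * divPart f i with hf₁
    have hdec := eq_C_add_sum_X_mul_divPart f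
    have hf₁coef : ∀ e, coeff e f₁ ∈ Ideal.span {(p : WW p n)} := by
      intro e
      rw [← witt_maximalIdeal_eq, witt_mem_maximalIdeal_iff]
      by_cases he : ∀ i ∈ smallVars n h, e i = 0
      · have h2 : coeff e f₁ = coeff e f := by
          rw [hf₁, map_sub, map_sum]
          rw [Finset.sum_eq_zero, sub_zero]
          intro i hi
          rw [coeff_X_mul', if_neg]
          have := he i (Finset.mem_filter.1 hi).2
          omega
        rw [h2]
        exact hcoef e he
      · have h2 : coeff e f₁ = 0 := by
          push Not at he
          obtain ⟨i1, hi1, hi1e⟩ := he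
          -- the smallest support index
          have hne' : e.support.Nonempty := ⟨i1, Finsupp.mem_support_iff.mpr hi1e⟩
          set i0 := e.support.min' hne' with hi0
          have hi0le : i0 ≤ i1 := Finset.min'_le _ _ (Finsupp.mem_support_iff.mpr hi1e)
          have hi0small : i0.val + 1 < h := by
            have : i0.val ≤ i1.val := hi0le
            have h3 : i1.val + 1 < h := hi1
            omega
          have heC : coeff e (C (constantCoeff f) : AA p n) = 0 := by
            rw [coeff_C, if_neg]
            rintro rfl
            simp at hi1e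
          have hef := congrArg (coeff e) hdec
          rw [map_add, heC, zero_add, map_sum] at hef
          rw [hf₁, map_sub, map_sum, sub_eq_zero]
          conv_lhs => rw [hef]
          symm
          apply Finset.sum_subset (Finset.subset_univ _)
          intro i _ hi
          have hi' : ¬ i.val + 1 < h := by simpa using hi
          rw [coeff_X_mul', coeff_divPart]
          split_ifs with h4 h5
          · exfalso
            have hlt : i0 < i := by
              change i0.val < i.val
              omega
            have h6 := h5 i0 hlt
            have h7 : (Finsupp.single i (1 : ℕ) : Fin (n - 1) →₀ ℕ) i0 = 0 := by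
              simp [hlt.ne]
            simp only [Finsupp.coe_tsub, Pi.sub_apply, h7] at h6
            have h8 : i0 ∈ e.support := Finset.min'_mem _ _
            have h9 := Finsupp.mem_support_iff.mp h8
            omega
          · rfl
          · rfl
        rw [h2]
        simp
    -- division by `p`
    have hdiv : ∀ e, ∃ w : WW p n, coeff e f₁ = (p : WW p n) * w := by
      intro e
      exact Ideal.mem_span_singleton'.mp (hf₁coef e) |>.imp fun w hw => by rw [← hw, mul_comm]
    choose w hw using hdiv
    have hf₁p : f₁ = (p : AA p n) * (show AA p n from fun e => w e) := by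
      ext e
      have hcast : ((p : ℕ) : AA p n) = C ((p : ℕ) : WW p n) := (map_natCast _ _).symm
      rw [hcast, coeff_C_mul, hw e]
      rfl
    have hfeq : f = f₁ + ∑ i ∈ Finset.univ.filter (fun i : Fin (n - 1) => i.val + 1 < h),
        X i * divPart f i := by
      rw [hf₁, sub_add_cancel]
    rw [hfeq, II, if_neg hne]
    refine Ideal.add_mem _ ?_ (Ideal.sum_mem _ fun i hi => ?_)
    · rw [hf₁p]
      exact Ideal.mul_mem_right _ _ (Ideal.subset_span (Or.inl rfl))
    · exact Ideal.mul_mem_right _ _
        (Ideal.subset_span (Or.inr ⟨i, (Finset.mem_filter.1 hi).2, rfl⟩))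

/-- A5: `I_h` is prime. -/
theorem II_isPrime' (h : ℕ) : (II p n h).IsPrime := by
  by_cases h0 : h = 0
  · subst h0
    rw [II, if_pos rfl]
    exact Ideal.isPrime_bot
  · rw [II_eq_ker p n h (by omega)]
    haveI : IsDomain (MvPowerSeries (Fin (n - 1)) (GaloisField p n)) :=
      NoZeroDivisors.to_isDomain _
    exact RingHom.ker_isPrime _

/-- `I_n` is the maximal ideal. -/
theorem II_eq_maximalIdeal [NeZero n] : II p n n = IsLocalRing.maximalIdeal (AA p n) := by
  have hn : n ≠ 0 := NeZero.ne n
  rw [ltRing_maximalIdeal_eq, II, if_neg hn, Ideal.span_union]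
  congr 2
  ext x
  constructor
  · rintro ⟨i, -, rfl⟩
    exact ⟨i, rfl⟩
  · rintro ⟨i, rfl⟩
    exact ⟨i, by omega, rfl⟩

end Crest.Agent.LT
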