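/-
Section A4 of the S0351 blueprint: the Lubin-Tate lemma.
-/
import Crest.Agent.Lib.LubinTate.FGBasic

set_option autoImplicit false

namespace Crest.Agent.LT

open MvPowerSeries

section Tools

variable {R : Type*} [CommRing R] {τ : Type*}

/-- All coefficients of total degree `< d` vanish. -/
def OrdGe (d : ℕ) (f : MvPowerSeries τ R) : Prop :=
  ∀ e : τ →₀ ℕ, e.degree < d → coeff e f = 0

lemma OrdGe.mono {d d' : ℕ} {f : MvPowerSeries τ R} (h : OrdGe d f) (hd : d' ≤ d) : OrdGe d' f :=
  fun e he => h e (lt_of_lt_of_le he hd)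

lemma ordGe_iff_le_order {d : ℕ} {f : MvPowerSeries τ R} :
    OrdGe d f ↔ (d : ℕ∞) ≤ f.order := by
  constructor
  · intro h
    exact MvPowerSeries.nat_le_order h
  · intro h e he
    apply MvPowerSeries.coeff_of_lt_order
    exact lt_of_lt_of_le (by exact_mod_cast he) h

lemma OrdGe.add {d : ℕ} {f g : MvPowerSeries τ R} (hf : OrdGe d f) (hg : OrdGe d g) :
    OrdGe d (f + g) := fun e he => by simp [hf e he, hg e he]

lemma OrdGe.sub {d : ℕ} {f g : MvPowerSeries τ R} (hf : OrdGe d f) (hg : OrdGe d g) :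
    OrdGe d (f - g) := fun e he => by simp [hf e he, hg e he]

lemma OrdGe.neg {d : ℕ} {f : MvPowerSeries τ R} (hf : OrdGe d f) :
    OrdGe d (-f) := fun e he => by simp [hf e he]

lemma OrdGe.mul {d d' : ℕ} {f g : MvPowerSeries τ R} (hf : OrdGe d f) (hg : OrdGe d' g) :
    OrdGe (d + d') (f * g) := by
  rw [ordGe_iff_le_order] at *
  push_cast
  exact (add_le_add hf hg).trans MvPowerSeries.le_order_mul

lemma OrdGe.mul_left {d : ℕ} {f : MvPowerSeries τ R} (hf : OrdGe d f) (g : MvPowerSeries τ R) :
    OrdGe d (g * f) := by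
  have h0 : OrdGe 0 g := fun e he => absurd he (by omega)
  simpa using h0.mul hf

lemma OrdGe.mul_right {d : ℕ} {f : MvPowerSeries τ R} (hf : OrdGe d f) (g : MvPowerSeries τ R) :
    OrdGe d (f * g) := by
  rw [mul_comm]; exact hf.mul_left g

lemma ordGe_zero (f : MvPowerSeries τ R) : OrdGe 0 f := fun e he => absurd he (by omega)

lemma ordGe_one_of_constantCoeff {f : MvPowerSeries τ R} (hf : constantCoeff f = 0) :
    OrdGe 1 f := by
  intro e he
  have : e = 0 := by
    have h0 : e.degree = 0 := by omega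
    exact (Finsupp.degree_eq_zero_iff e).mp h0
  subst this
  simpa using hf

lemma OrdGe.pow {d : ℕ} {f : MvPowerSeries τ R} (hf : OrdGe d f) (n : ℕ) :
    OrdGe (n * d) (f ^ n) := by
  induction n with
  | zero => simpa using ordGe_zero _
  | succ n ih =>
    rw [pow_succ, Nat.succ_mul]
    exact ih.mul hf

lemma ordGe_zero_series (d : ℕ) : OrdGe d (0 : MvPowerSeries τ R) := fun e _ => by simp

lemma eq_zero_of_forall_ordGe {f : MvPowerSeries τ R} (h : ∀ d, OrdGe d f) : f = 0 := by
  ext e
  simpa using h (e.degree + 1) e (by omega)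

/-- Polynomial difference quotient in a commutative ring, through `aeval`. -/
lemma sub_dvd_aeval_sub {A : Type*} [CommRing A] [Algebra R A] (a b : A) (P : Polynomial R) :
    a - b ∣ Polynomial.aeval a P - Polynomial.aeval b P := by
  simp only [Polynomial.aeval_def, Polynomial.eval₂_eq_eval_map]
  exact Polynomial.sub_dvd_eval_sub a b _

/-- Substituting congruent series. -/
lemma subst_sub_ordGe {A B : MvPowerSeries τ R} (hA : constantCoeff A = 0)
    (hB : constantCoeff B = 0) {d : ℕ} (h : OrdGe d (A - B)) (v : PowerSeries R) :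
    OrdGe d (v.subst A - v.subst B) := by
  intro e he
  have hsA : PowerSeries.HasSubst A := PowerSeries.HasSubst.of_constantCoeff_zero hA
  have hsB : PowerSeries.HasSubst B := PowerSeries.HasSubst.of_constantCoeff_zero hB
  set N := e.degree + 1 with hN
  have hv := v.eq_X_pow_mul_shift_add_trunc N
  set w : PowerSeries R := PowerSeries.mk fun i => PowerSeries.coeff (i + N) v with hw
  set P : Polynomial R := v.trunc N with hP
  have h1 : v.subst A = A ^ N * w.subst A + Polynomial.aeval A P := by
    conv_lhs => rw [hv]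
    rw [PowerSeries.subst_add hsA, PowerSeries.subst_mul hsA, PowerSeries.subst_pow hsA,
      PowerSeries.subst_X hsA, PowerSeries.subst_coe hsA]
  have h2 : v.subst B = B ^ N * w.subst B + Polynomial.aeval B P := by
    conv_lhs => rw [hv]
    rw [PowerSeries.subst_add hsB, PowerSeries.subst_mul hsB, PowerSeries.subst_pow hsB,
      PowerSeries.subst_X hsB, PowerSeries.subst_coe hsB]
  rw [h1, h2]
  have hA1 := ordGe_one_of_constantCoeff hA
  have hB1 := ordGe_one_of_constantCoeff hB
  have t1 : OrdGe N (A ^ N * w.subst A) := by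
    have := (hA1.pow N).mul_right (w.subst A)
    simpa using this
  have t2 : OrdGe N (B ^ N * w.subst B) := by
    have := (hB1.pow N).mul_right (w.subst B)
    simpa using this
  obtain ⟨Q, hQ⟩ := sub_dvd_aeval_sub (R := R) A B P
  have t3 : OrdGe d (Polynomial.aeval A P - Polynomial.aeval B P) := by
    rw [hQ]; exact h.mul_right Q
  have e1 : (A ^ N * w.subst A + Polynomial.aeval A P) - (B ^ N * w.subst B + Polynomial.aeval B P)
      = (A ^ N * w.subst A - B ^ N * w.subst B) + (Polynomial.aeval A P - Polynomial.aeval B P) := by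
    ring
  rw [e1, map_add, (t1.sub t2) e (by omega), t3 e he, add_zero]

/-- First order expansion of `ψ(A) - ψ(B)`. -/
lemma subst_sub_lin {A B : MvPowerSeries τ R} (hA : constantCoeff A = 0)
    (hB : constantCoeff B = 0) {d : ℕ} (hd : 1 ≤ d) (h : OrdGe d (A - B)) (ψ : PowerSeries R)
    (hψ : PowerSeries.constantCoeff ψ = 0) :
    OrdGe (d + 1) (ψ.subst A - ψ.subst B - C (PowerSeries.coeff 1 ψ) * (A - B)) := by
  have hsA : PowerSeries.HasSubst A := PowerSeries.HasSubst.of_constantCoeff_zero hA
  have hsB : PowerSeries.HasSubst B := PowerSeries.HasSubst.of_constantCoeff_zero hB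
  -- ψ = c X + X^2 w
  set w : PowerSeries R := PowerSeries.mk fun i => PowerSeries.coeff (i + 2) ψ with hw
  have hv : ψ = PowerSeries.C (PowerSeries.coeff 1 ψ) * PowerSeries.X +
      PowerSeries.X ^ 2 * w := by
    ext m
    rcases m with _ | _ | m
    · simp [hψ, PowerSeries.coeff_X]
    · simp [PowerSeries.coeff_X, pow_two, mul_assoc, PowerSeries.coeff_succ_X_mul]
    · have : PowerSeries.coeff (m + 1 + 1) (PowerSeries.C (PowerSeries.coeff 1 ψ) * PowerSeries.X)
          = 0 := by
        simp [PowerSeries.coeff_X]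
      rw [map_add, this, zero_add, pow_two, mul_assoc, PowerSeries.coeff_succ_X_mul,
        PowerSeries.coeff_succ_X_mul, hw, PowerSeries.coeff_mk]
  have e1 : ∀ (S : MvPowerSeries τ R), PowerSeries.HasSubst S →
      ψ.subst S = C (PowerSeries.coeff 1 ψ) * S + S ^ 2 * w.subst S := by
    intro S hS
    conv_lhs => rw [hv]
    rw [PowerSeries.subst_add hS, PowerSeries.subst_mul hS, PowerSeries.subst_mul hS,
      PowerSeries.subst_pow hS, PowerSeries.subst_X hS, PowerSeries.subst_C]
  rw [e1 A hsA, e1 B hsB]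
  have e2 : C (PowerSeries.coeff 1 ψ) * A + A ^ 2 * w.subst A -
      (C (PowerSeries.coeff 1 ψ) * B + B ^ 2 * w.subst B) - C (PowerSeries.coeff 1 ψ) * (A - B)
      = (A - B) * ((A + B) * w.subst A) + B ^ 2 * (w.subst A - w.subst B) := by ring
  rw [e2]
  have hA1 := ordGe_one_of_constantCoeff hA
  have hB1 := ordGe_one_of_constantCoeff hB
  have t1 : OrdGe (d + 1) ((A - B) * ((A + B) * w.subst A)) :=
    h.mul ((hA1.add hB1).mul_right _)
  have t2 : OrdGe (d + 1) (B ^ 2 * (w.subst A - w.subst B)) := by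
    have := (hB1.pow 2).mul (subst_sub_ordGe hA hB h w)
    exact this.mono (by omega)
  exact t1.add t2


/-- coefficient of `A.subst a` at a monomial of the critical degree. -/
lemma coeff_subst_crit {σ : Type*} [Finite σ] {a g : σ → MvPowerSeries σ R} {p : R}
    (hag : ∀ i, a i = X i * g i) (hg : ∀ i, constantCoeff (g i) = p)
    {A : MvPowerSeries σ R} {d : ℕ} (hA : OrdGe d A) (e : σ →₀ ℕ) (he : e.degree = d) :
    coeff e (A.subst a) = p ^ d * coeff e A := by
  classical
  have hs : MvPowerSeries.HasSubst a := by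
    apply MvPowerSeries.hasSubst_of_constantCoeff_zero
    intro i
    simp [hag]
  haveI := Fintype.ofFinite σ
  rw [MvPowerSeries.coeff_subst hs]
  have hprod : ∀ e' : σ →₀ ℕ, (e'.prod fun s n => a s ^ n) =
      monomial e' (1 : R) * ∏ s, g s ^ e' s := by
    intro e'
    rw [Finsupp.prod_fintype _ _ (by simp)]
    have h1 : ∀ s, a s ^ e' s = (X s) ^ e' s * g s ^ e' s := fun s => by rw [hag, mul_pow]
    simp_rw [h1]
    rw [Finset.prod_mul_distrib]
    congr 1
    rw [MvPowerSeries.monomial_eq']
    simp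
  rw [finsum_eq_single _ e]
  · rw [hprod, smul_eq_mul, mul_comm]
    congr 1
    have : e = e + 0 := by simp
    rw [MvPowerSeries.coeff_monomial_mul, if_pos (le_refl e)]
    simp only [tsub_self, one_mul, coeff_zero_eq_constantCoeff]
    rw [map_prod]
    simp only [map_pow, hg]
    rw [Finset.prod_pow_eq_pow_sum, ← he, Finsupp.degree_eq_sum]
  · intro e' hne
    rcases lt_trichotomy e'.degree d with hlt | heq | hgt
    · rw [hA e' hlt]; simp
    · rw [hprod, MvPowerSeries.coeff_monomial_mul, if_neg, smul_zero]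
      intro hle
      apply hne
      -- `e' ≤ e` with the same degree
      have hdeg : (e - e').degree = 0 := by
        have h2 : (e - e' + e') = e := tsub_add_cancel_of_le hle
        have h3 := congrArg Finsupp.degree h2
        rw [map_add] at h3
        omega
      have h4 : e - e' = 0 := (Finsupp.degree_eq_zero_iff _).mp hdeg
      have h5 : e - e' + e' = e := tsub_add_cancel_of_le hle
      rw [h4, zero_add] at h5
      exact h5
    · have h1 : OrdGe e'.degree (e'.prod fun s n => a s ^ n) := by
        rw [hprod]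
        intro e2 he2
        rw [MvPowerSeries.coeff_monomial_mul, if_neg]
        intro hle
        have : e'.degree ≤ e2.degree := by
          have h2 : (e2 - e' + e') = e2 := tsub_add_cancel_of_le hle
          have h3 := congrArg Finsupp.degree h2
          rw [map_add] at h3
          omega
        omega
      rw [h1 e (by omega), smul_zero]

end Tools

section TwoVar

variable {R : Type*} [CommRing R]

/-- **Uniqueness** (two variable Lubin-Tate lemma, in the form used for homomorphisms):
two series `A, B` with the same linear part satisfying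
`A(φ X₀, φ X₁) = ψ(A)`, `B(φ X₀, φ X₁) = ψ(B)` coincide, where `φ, ψ` have linear coefficient `p`
and `p ^ d - p` is a non zero divisor for `d ≥ 2`. -/
theorem eq_of_subst_eq_subst {σ : Type*} [Finite σ] {a g : σ → MvPowerSeries σ R} {p : R}
    (hag : ∀ i, a i = X i * g i) (hg : ∀ i, constantCoeff (g i) = p)
    (ψ : PowerSeries R) (hψ0 : PowerSeries.constantCoeff ψ = 0) (hψ1 : PowerSeries.coeff 1 ψ = p)
    (hp : ∀ d : ℕ, 2 ≤ d → ∀ x : R, (p ^ d - p) * x = 0 → x = 0)
    {A B : MvPowerSeries σ R} (hA0 : constantCoeff A = 0) (hB0 : constantCoeff B = 0)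
    (hlin : OrdGe 2 (A - B))
    (hA : A.subst a = ψ.subst A) (hB : B.subst a = ψ.subst B) : A = B := by
  classical
  have hs : MvPowerSeries.HasSubst a := by
    apply MvPowerSeries.hasSubst_of_constantCoeff_zero
    intro i
    simp [hag]
  have key : ∀ d, 2 ≤ d → OrdGe d (A - B) := by
    intro d hd
    induction d, hd using Nat.le_induction with
    | base => exact hlin
    | succ d hd ih =>
      intro e he
      by_cases hlt : e.degree < d
      · exact ih e hlt
      have hed : e.degree = d := by omega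
      have h1 := subst_sub_lin hA0 hB0 (by omega : 1 ≤ d) ih ψ hψ0
      have h2 := coeff_subst_crit hag hg ih e hed
      have h3 : (A - B).subst a = ψ.subst A - ψ.subst B := by
        rw [MvPowerSeries.subst_sub hs, hA, hB]
      rw [h3] at h2
      have h4 := h1 e he
      rw [map_sub, h2, hψ1, MvPowerSeries.coeff_C_mul] at h4
      have h5 : (p ^ d - p) * coeff e (A - B) = 0 := by linear_combination h4
      exact hp d hd _ h5
  have : A - B = 0 := by
    apply eq_zero_of_forall_ordGe
    intro d
    exact (key (d + 2) (by omega)).mono (by omega)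
  exact sub_eq_zero.mp this

end TwoVar


section OneVar

variable {R : Type*} [CommRing R]

/-- bridge between `OrdGe` in one variable and `PowerSeries.coeff`. -/
lemma ordGe_unit_iff {d : ℕ} {f : PowerSeries R} :
    OrdGe (τ := Unit) d f ↔ ∀ i, i < d → PowerSeries.coeff i f = 0 := by
  constructor
  · intro h i hi
    have := h (Finsupp.single () i) (by simpa using hi)
    simpa [PowerSeries.coeff] using this
  · intro h e he
    have he' : e = Finsupp.single () (e ()) := by
      ext x
      simp
    have h1 := h (e ()) (by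
      rw [he', Finsupp.degree_single] at he
      simpa using he)
    rw [PowerSeries.coeff] at h1
    rw [← he'] at h1
    exact h1

/-- The error series. -/
noncomputable def ltErr (φ ψ g : PowerSeries R) : PowerSeries R :=
  PowerSeries.subst g ψ - PowerSeries.subst φ g

lemma ordGe_subst_of_ordGe {d : ℕ} {h φ : PowerSeries R} (hh : OrdGe (τ := Unit) d h)
    (hφ : PowerSeries.constantCoeff φ = 0) : OrdGe (τ := Unit) d (PowerSeries.subst φ h) := by
  rw [ordGe_iff_le_order] at hh ⊢
  rw [← PowerSeries.order_eq_order] at hh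
  exact hh.trans (PowerSeries.le_order_subst_left hφ)

/-- `φ^m ≡ p^m X^m` modulo order `m+1` when `φ = p X + ...`. -/
lemma ordGe_pow_sub {φ : PowerSeries R} {p : R} (hφ0 : PowerSeries.constantCoeff φ = 0)
    (hφ1 : PowerSeries.coeff 1 φ = p) (m : ℕ) :
    OrdGe (τ := Unit) (m + 1) (φ ^ m - PowerSeries.C (p ^ m) * PowerSeries.X ^ m) := by
  set h : PowerSeries R := PowerSeries.mk fun i => PowerSeries.coeff (i + 1) φ with hh
  have hφ : φ = PowerSeries.X * h := by
    ext i
    rcases i with _ | i
    · simp [hφ0]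
    · rw [PowerSeries.coeff_succ_X_mul, hh, PowerSeries.coeff_mk]
  have hh0 : PowerSeries.constantCoeff h = p := by
    rw [← PowerSeries.coeff_zero_eq_constantCoeff_apply, hh, PowerSeries.coeff_mk]
    simpa using hφ1
  have e1 : φ ^ m - PowerSeries.C (p ^ m) * PowerSeries.X ^ m =
      PowerSeries.X ^ m * (h ^ m - (PowerSeries.C p) ^ m) := by
    rw [hφ, map_pow]; ring
  rw [e1]
  obtain ⟨Q, hQ⟩ := sub_dvd_pow_sub_pow h (PowerSeries.C p) m
  rw [hQ]
  have hX : OrdGe (τ := Unit) 1 (PowerSeries.X : PowerSeries R) :=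
    ordGe_one_of_constantCoeff (by simp [PowerSeries.X])
  have h2 : OrdGe (τ := Unit) 1 (h - PowerSeries.C p) :=
    ordGe_one_of_constantCoeff (by
      show PowerSeries.constantCoeff (h - PowerSeries.C p) = 0
      simp [hh0])
  have := (hX.pow m).mul (h2.mul_right Q)
  simpa using this

/-- Reduction of the error series mod `p` vanishes. -/
lemma map_ltErr {k : Type*} [CommRing k] (π : R →+* k) (p n : ℕ) [ExpChar k p]
    (hfrob : ∀ x : k, x ^ (p ^ n) = x) {φ ψ : PowerSeries R}
    (hφ0 : PowerSeries.constantCoeff φ = 0) (hψ : PowerSeries.map π ψ = PowerSeries.X ^ (p ^ n))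
    (hφ : PowerSeries.map π φ = PowerSeries.X ^ (p ^ n))
    {g : PowerSeries R} (hg : PowerSeries.constantCoeff g = 0) :
    PowerSeries.map π (ltErr φ ψ g) = 0 := by
  have hp0 : p ≠ 0 := expChar_ne_zero k p
  have hq0 : p ^ n ≠ 0 := pow_ne_zero n hp0
  have hsg : PowerSeries.HasSubst g := PowerSeries.HasSubst.of_constantCoeff_zero hg
  have hsφ : PowerSeries.HasSubst φ := PowerSeries.HasSubst.of_constantCoeff_zero hφ0
  have hsg' : PowerSeries.HasSubst (PowerSeries.map π g) :=
    PowerSeries.HasSubst.of_constantCoeff_zero' (by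
      rw [← PowerSeries.coeff_zero_eq_constantCoeff_apply, PowerSeries.coeff_map,
        PowerSeries.coeff_zero_eq_constantCoeff_apply, hg, map_zero])
  have e1 : PowerSeries.map π (PowerSeries.subst g ψ) = (PowerSeries.map π g) ^ (p ^ n) := by
    have := PowerSeries.map_subst hsg (h := π) ψ
    change PowerSeries.map π (PowerSeries.subst g ψ) =
      PowerSeries.subst (PowerSeries.map π g) (PowerSeries.map π ψ) at this
    rw [this, hψ, PowerSeries.subst_pow hsg', PowerSeries.subst_X hsg']
  have e2 : PowerSeries.map π (PowerSeries.subst φ g) =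
      PowerSeries.expand (p ^ n) hq0 (PowerSeries.map π g) := by
    have := PowerSeries.map_subst hsφ (h := π) g
    change PowerSeries.map π (PowerSeries.subst φ g) =
      PowerSeries.subst (PowerSeries.map π φ) (PowerSeries.map π g) at this
    rw [this, hφ, PowerSeries.expand_apply]
  have e3 : (PowerSeries.map π g) ^ (p ^ n) =
      PowerSeries.expand (p ^ n) hq0 (PowerSeries.map π g) := by
    have := MvPowerSeries.map_iterateFrobenius_expand p hp0
      (R := k) (σ := Unit) (PowerSeries.map π g) n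
    have hid : iterateFrobenius k p n = RingHom.id k := by
      ext x
      rw [iterateFrobenius_def, hfrob]
      rfl
    rw [hid, MvPowerSeries.map_id] at this
    exact this.symm
  rw [ltErr, map_sub, e1, e2, e3, sub_self]

/-- One step of the degree induction. -/
lemma lt_step {k : Type*} [CommRing k] (π : R →+* k) (p n : ℕ) [ExpChar k p]
    (hfrob : ∀ x : k, x ^ (p ^ n) = x)
    (hker : ∀ x : R, π x = 0 → ∃ y, x = (p : R) * y)
    (hunit : ∀ d : ℕ, 1 ≤ d → IsUnit (1 - (p : R) ^ d))
    {φ ψ : PowerSeries R}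
    (hφ0 : PowerSeries.constantCoeff φ = 0) (hψ0 : PowerSeries.constantCoeff ψ = 0)
    (hφ1 : PowerSeries.coeff 1 φ = (p : R)) (hψ1 : PowerSeries.coeff 1 ψ = (p : R))
    (hψ : PowerSeries.map π ψ = PowerSeries.X ^ (p ^ n))
    (hφ : PowerSeries.map π φ = PowerSeries.X ^ (p ^ n))
    {g : PowerSeries R} (hg : PowerSeries.constantCoeff g = 0) {d : ℕ} (hd : 1 ≤ d)
    (herr : OrdGe (τ := Unit) (d + 1) (ltErr φ ψ g)) :
    ∃ g' : PowerSeries R, PowerSeries.constantCoeff g' = 0 ∧
      OrdGe (τ := Unit) (d + 1) (g' - g) ∧ OrdGe (τ := Unit) (d + 2) (ltErr φ ψ g') := by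
  have hsφ : PowerSeries.HasSubst φ := PowerSeries.HasSubst.of_constantCoeff_zero hφ0
  -- the coefficient to kill
  set E := PowerSeries.coeff (d + 1) (ltErr φ ψ g) with hE
  have hπE : π E = 0 := by
    have := congrArg (PowerSeries.coeff (d + 1)) (map_ltErr π p n hfrob hφ0 hψ hφ hg)
    simpa using this
  obtain ⟨b, hb⟩ := hker E hπE
  obtain ⟨u, hu⟩ := hunit d hd
  set c : R := -(b * (u⁻¹ : Rˣ)) with hc
  have huc : (1 - (p : R) ^ d) * (u⁻¹ : Rˣ) = 1 := by
    rw [← hu]; exact u.mul_inv
  set m := d + 1 with hm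
  set g' : PowerSeries R := g + PowerSeries.C c * PowerSeries.X ^ m with hg'
  have hg'0 : PowerSeries.constantCoeff g' = 0 := by
    simp [hg', hg, hm]
  have hdiff : g' - g = PowerSeries.C c * PowerSeries.X ^ m := by rw [hg']; ring
  have hXm : OrdGe (τ := Unit) m (PowerSeries.C c * PowerSeries.X ^ m : PowerSeries R) := by
    rw [ordGe_unit_iff]
    intro i hi
    rw [PowerSeries.coeff_C_mul, PowerSeries.coeff_X_pow, if_neg (by omega), mul_zero]
  have hdiffOrd : OrdGe (τ := Unit) m (g' - g) := by rw [hdiff]; exact hXm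
  refine ⟨g', hg'0, hdiffOrd, ?_⟩
  -- expansion
  have T1 := subst_sub_lin (τ := Unit) (A := g') (B := g) hg'0 hg (by omega : 1 ≤ m) hdiffOrd ψ hψ0
  have T2 := ordGe_pow_sub hφ0 hφ1 m
  have hsub : PowerSeries.subst φ g' = PowerSeries.subst φ g + PowerSeries.C c * φ ^ m := by
    rw [hg', PowerSeries.subst_add hsφ, PowerSeries.subst_mul hsφ, PowerSeries.subst_pow hsφ,
      PowerSeries.subst_X hsφ, PowerSeries.subst_C]
    rfl
  rw [hψ1] at T1
  have hexp : ltErr φ ψ g' = ltErr φ ψ g +
      (PowerSeries.subst g' ψ - PowerSeries.subst g ψ -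
        MvPowerSeries.C (p : R) * (g' - g)) -
      PowerSeries.C c * (φ ^ m - PowerSeries.C ((p : R) ^ m) * PowerSeries.X ^ m) +
      PowerSeries.C ((p : R) * c - c * (p : R) ^ m) * PowerSeries.X ^ m := by
    rw [ltErr, ltErr, hsub, hdiff]
    simp only [map_sub, map_mul, map_pow]
    have : (MvPowerSeries.C (p : R) : MvPowerSeries Unit R) = PowerSeries.C (p : R) := rfl
    rw [this]
    ring
  rw [ordGe_unit_iff]
  intro i hi
  have hT1 := (ordGe_unit_iff.mp T1) i
  have hT2 := (ordGe_unit_iff.mp T2) i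
  rw [hexp, map_add, map_sub, map_add, PowerSeries.coeff_C_mul, PowerSeries.coeff_C_mul,
    PowerSeries.coeff_X_pow, hT1 (by omega), hT2 (by omega)]
  by_cases him : i = m
  · subst him
    simp only [add_zero, mul_zero, sub_zero, if_true, mul_one]
    rw [← hE, hb, hc]
    have : (p : R) ^ m = (p : R) ^ d * p := by rw [hm, pow_succ]
    rw [this]
    linear_combination (-(p : R) * b) * huc
  · rw [if_neg him]
    have : PowerSeries.coeff i (ltErr φ ψ g) = 0 := by
      exact (ordGe_unit_iff.mp herr) i (by omega)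
    rw [this]
    simp

/-- **Lubin-Tate lemma, one variable**. `φ, ψ ≡ X^q` mod `p`, with linear coefficient `p`:
for every `a` there is `f = a X + ...` with `f ∘ φ = ψ ∘ f`. -/
theorem exists_lubinTate_series {k : Type*} [CommRing k] (π : R →+* k) (p n : ℕ) [ExpChar k p]
    (hfrob : ∀ x : k, x ^ (p ^ n) = x)
    (hker : ∀ x : R, π x = 0 → ∃ y, x = (p : R) * y)
    (hunit : ∀ d : ℕ, 1 ≤ d → IsUnit (1 - (p : R) ^ d))
    {φ ψ : PowerSeries R}
    (hφ0 : PowerSeries.constantCoeff φ = 0) (hψ0 : PowerSeries.constantCoeff ψ = 0)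
    (hφ1 : PowerSeries.coeff 1 φ = (p : R)) (hψ1 : PowerSeries.coeff 1 ψ = (p : R))
    (hψ : PowerSeries.map π ψ = PowerSeries.X ^ (p ^ n))
    (hφ : PowerSeries.map π φ = PowerSeries.X ^ (p ^ n)) (a : R) :
    ∃ f : PowerSeries R, PowerSeries.constantCoeff f = 0 ∧ PowerSeries.coeff 1 f = a ∧
      PowerSeries.subst φ f = PowerSeries.subst f ψ := by
  -- the state of the induction
  let P : ℕ → PowerSeries R → Prop := fun m g =>
    PowerSeries.constantCoeff g = 0 ∧ PowerSeries.coeff 1 g = a ∧
      OrdGe (τ := Unit) (m + 2) (ltErr φ ψ g)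
  have hsφ : PowerSeries.HasSubst φ := PowerSeries.HasSubst.of_constantCoeff_zero hφ0
  -- base
  have base : P 0 (PowerSeries.C a * PowerSeries.X) := by
    refine ⟨by simp, by simp [PowerSeries.coeff_X], ?_⟩
    have hA0 : PowerSeries.constantCoeff (PowerSeries.C a * PowerSeries.X : PowerSeries R) = 0 := by
      simp
    have hT := subst_sub_lin (τ := Unit) (A := PowerSeries.C a * PowerSeries.X) (B := 0) hA0
      (by simp) (d := 1) le_rfl
      (by
        have : OrdGe (τ := Unit) 1 (PowerSeries.C a * PowerSeries.X : PowerSeries R) :=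
          ordGe_one_of_constantCoeff hA0
        simpa using this) ψ hψ0
    rw [hψ1] at hT
    have h0 : PowerSeries.subst (0 : PowerSeries R) ψ = 0 := by
      exact PowerSeries.subst_zero_of_constantCoeff_zero hψ0
    rw [h0, sub_zero, sub_zero] at hT
    have hs1 : PowerSeries.subst φ (PowerSeries.C a * PowerSeries.X) = PowerSeries.C a * φ := by
      rw [PowerSeries.subst_mul hsφ, PowerSeries.subst_X hsφ, PowerSeries.subst_C]
      rfl
    rw [ordGe_unit_iff] at hT ⊢
    intro i hi
    have hTi := hT i hi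
    rw [ltErr, hs1, map_sub, PowerSeries.coeff_C_mul]
    rw [map_sub] at hTi
    have hC : (MvPowerSeries.C (p : R) : MvPowerSeries Unit R) = PowerSeries.C (p : R) := rfl
    rw [hC, PowerSeries.coeff_C_mul] at hTi
    rcases i with _ | i
    · simp [hA0, hφ0] at hTi ⊢
      simpa [hφ0, hA0] using hTi
    · have hi1 : i = 0 := by omega
      subst hi1
      have : PowerSeries.coeff (0 + 1) (PowerSeries.C a * PowerSeries.X : PowerSeries R) = a := by
        simp [PowerSeries.coeff_X]
      rw [this] at hTi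
      rw [show (0 + 1 : ℕ) = 1 from rfl, hφ1]
      rw [show (0 + 1 : ℕ) = 1 from rfl] at hTi
      linear_combination hTi
  -- step
  have step : ∀ m g, P m g → ∃ g', P (m + 1) g' ∧ OrdGe (τ := Unit) (m + 2) (g' - g) := by
    rintro m g ⟨h0, h1, h2⟩
    obtain ⟨g', h0', h3, h4⟩ := lt_step π p n hfrob hker hunit hφ0 hψ0 hφ1 hψ1 hψ hφ h0
      (d := m + 1) (by omega) h2
    refine ⟨g', ⟨h0', ?_, h4⟩, h3⟩
    have := (ordGe_unit_iff.mp h3) 1 (by omega)
    rw [map_sub] at this
    rw [sub_eq_zero.mp this, h1]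
  -- dependent choice
  let seq : (m : ℕ) → {g : PowerSeries R // P m g} := fun m =>
    Nat.rec ⟨_, base⟩ (fun m g => ⟨(step m g.1 g.2).choose, (step m g.1 g.2).choose_spec.1⟩) m
  have seq_step : ∀ m, OrdGe (τ := Unit) (m + 2) ((seq (m + 1)).1 - (seq m).1) := fun m =>
    (step m (seq m).1 (seq m).2).choose_spec.2
  -- stabilization of coefficients
  have stab : ∀ i m, i ≤ m → PowerSeries.coeff i (seq m).1 = PowerSeries.coeff i (seq i).1 := by
    intro i m him
    induction m, him using Nat.le_induction with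
    | base => rfl
    | succ m hm ih =>
      rw [← ih]
      have := (ordGe_unit_iff.mp (seq_step m)) i (by omega)
      rw [map_sub] at this
      exact sub_eq_zero.mp this
  let f : PowerSeries R := PowerSeries.mk fun i => PowerSeries.coeff i (seq i).1
  have hfm : ∀ m, OrdGe (τ := Unit) (m + 2) (f - (seq m).1) := by
    intro m
    rw [ordGe_unit_iff]
    intro i hi
    rw [map_sub, PowerSeries.coeff_mk, sub_eq_zero]
    by_cases h : i ≤ m
    · exact (stab i m h).symm
    · have hi' : i = m + 1 := by omega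
      subst hi'
      have := (ordGe_unit_iff.mp (seq_step m)) (m + 1) (by omega)
      rw [map_sub] at this
      exact sub_eq_zero.mp this
  have hf0 : PowerSeries.constantCoeff f = 0 := by
    have := (ordGe_unit_iff.mp (hfm 0)) 0 (by omega)
    rw [map_sub, PowerSeries.coeff_zero_eq_constantCoeff_apply,
      PowerSeries.coeff_zero_eq_constantCoeff_apply] at this
    rw [sub_eq_zero.mp this]
    exact (seq 0).2.1
  have hf1 : PowerSeries.coeff 1 f = a := by
    have := (ordGe_unit_iff.mp (hfm 0)) 1 (by omega)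
    rw [map_sub] at this
    rw [sub_eq_zero.mp this]
    exact (seq 0).2.2.1
  refine ⟨f, hf0, hf1, ?_⟩
  have herr : ltErr φ ψ f = 0 := by
    apply eq_zero_of_forall_ordGe (τ := Unit)
    intro d
    have hg0 := (seq d).2.1
    have h1 := subst_sub_ordGe (τ := Unit) hf0 hg0 (hfm d) ψ
    have h2 : OrdGe (τ := Unit) (d + 2)
        (PowerSeries.subst φ f - PowerSeries.subst φ (seq d).1) := by
      have := ordGe_subst_of_ordGe (hfm d) hφ0
      rwa [PowerSeries.subst_sub hsφ] at this
    have h3 := (seq d).2.2.2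
    have e : ltErr φ ψ f = ltErr φ ψ (seq d).1 +
        (PowerSeries.subst f ψ - PowerSeries.subst (seq d).1 ψ) -
        (PowerSeries.subst φ f - PowerSeries.subst φ (seq d).1) := by
      simp only [ltErr]; ring
    rw [e]
    exact ((h3.add h1).sub h2).mono (by omega)
  exact (sub_eq_zero.mp herr).symm

end OneVar


section FGL

open Crest.LubinTate

variable {R : Type*} [CommRing R]

lemma ordGe_subst_mv {σ τ : Type*} {d : ℕ} {f : MvPowerSeries σ R} (hf : OrdGe d f)
    {a : σ → MvPowerSeries τ R} (ha : MvPowerSeries.HasSubst a)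
    (ha0 : ∀ i, constantCoeff (a i) = 0) : OrdGe d (MvPowerSeries.subst a f) := by
  rw [ordGe_iff_le_order] at hf ⊢
  refine le_trans ?_ (MvPowerSeries.le_order_subst ha f)
  have h1 : (1 : ℕ∞) ≤ ⨅ i, (a i).order := by
    refine le_iInf fun i => ?_
    exact ordGe_iff_le_order.mp (by simpa using ordGe_one_of_constantCoeff (ha0 i))
  calc (d : ℕ∞) = 1 * (d : ℕ∞) := by simp
    _ ≤ _ := mul_le_mul' h1 hf

lemma psubst_mvsubst {σ τ : Type*} (θ : PowerSeries R) {F : MvPowerSeries σ R}
    (hF : constantCoeff F = 0) {a : σ → MvPowerSeries τ R} (ha : MvPowerSeries.HasSubst a) :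
    MvPowerSeries.subst a (PowerSeries.subst F θ) =
      PowerSeries.subst (MvPowerSeries.subst a F) θ := by
  have hs : MvPowerSeries.HasSubst (fun _ : Unit => F) :=
    PowerSeries.hasSubst_iff.mp (PowerSeries.HasSubst.of_constantCoeff_zero hF)
  rw [PowerSeries.subst_def, PowerSeries.subst_def,
    MvPowerSeries.subst_comp_subst_apply hs ha]

lemma lin_of_comp {τ : Type*} {θ : PowerSeries R} (hθ0 : PowerSeries.constantCoeff θ = 0)
    (hθ1 : PowerSeries.coeff 1 θ = 1) {S : MvPowerSeries τ R} (hS : constantCoeff S = 0) :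
    OrdGe 2 (PowerSeries.subst S θ - S) := by
  have h1 : OrdGe 1 (S - 0) := by simpa using ordGe_one_of_constantCoeff hS
  have := subst_sub_lin (τ := τ) (A := S) (B := 0) hS (by simp) le_rfl h1 θ hθ0
  rw [hθ1, PowerSeries.subst_zero_of_constantCoeff_zero hθ0] at this
  simpa using this

lemma fg_lin (F : FormalGroup R) :
    OrdGe 2 (F.toPowerSeries - (X 0 + X 1 : MvPowerSeries (Fin 2) R)) := by
  intro e he
  have hsum : e 0 + e 1 < 2 := by
    rw [Finsupp.degree_eq_sum, Fin.sum_univ_two] at he
    exact he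
  have h0 : e 0 = 0 ∨ e 0 = 1 := by omega
  have h1 : e 1 = 0 ∨ e 1 = 1 := by omega
  have hcases : e = 0 ∨ e = Finsupp.single 0 1 ∨ e = Finsupp.single 1 1 := by
    rcases h0 with h0 | h0 <;> rcases h1 with h1 | h1
    · left; ext i; fin_cases i <;> simp [h0, h1]
    · right; right; ext i; fin_cases i <;> simp [h0, h1]
    · right; left; ext i; fin_cases i <;> simp [h0, h1]
    · omega
  rcases hcases with rfl | rfl | rfl
  · have := F.zero_constantCoeff
    simp [this]
  · have := F.lin_coeff_X
    simp [this, MvPowerSeries.coeff_index_single_X]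
  · have := F.lin_coeff_Y
    simp [this, MvPowerSeries.coeff_index_single_X]

/-- Main consequence of the Lubin-Tate lemma: if `φ, ψ` are endomorphisms of `F, G`
with linear coefficient `p` and reductions `X^q`, there is a homomorphism `θ : F → G` with linear
coefficient `a`... here `a = 1`, which moreover intertwines `φ` and `ψ`. -/
theorem exists_fgHom_of_lubinTate {k : Type*} [CommRing k] (π : R →+* k) (p n : ℕ) [ExpChar k p]
    (hfrob : ∀ x : k, x ^ (p ^ n) = x)
    (hker : ∀ x : R, π x = 0 → ∃ y, x = (p : R) * y)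
    (hunit : ∀ d : ℕ, 1 ≤ d → IsUnit (1 - (p : R) ^ d))
    (hnzd : ∀ x : R, (p : R) * x = 0 → x = 0)
    (F G : FormalGroup R) {φ ψ : PowerSeries R}
    (hF : IsFGHom F F φ) (hG : IsFGHom G G ψ)
    (hφ1 : PowerSeries.coeff 1 φ = (p : R)) (hψ1 : PowerSeries.coeff 1 ψ = (p : R))
    (hψ : PowerSeries.map π ψ = PowerSeries.X ^ (p ^ n))
    (hφ : PowerSeries.map π φ = PowerSeries.X ^ (p ^ n)) :
    ∃ θ : PowerSeries R, IsFGHom F G θ ∧ PowerSeries.coeff 1 θ = 1 ∧
      PowerSeries.subst φ θ = PowerSeries.subst θ ψ := by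
  obtain ⟨hφ0, hFφ⟩ := hF
  obtain ⟨hψ0, hGψ⟩ := hG
  obtain ⟨θ, hθ0, hθ1, hθ⟩ := exists_lubinTate_series π p n hfrob hker hunit hφ0 hψ0 hφ1 hψ1 hψ hφ 1
  refine ⟨θ, ⟨hθ0, ?_⟩, hθ1, hθ⟩
  -- notations
  have hF0 : constantCoeff F.toPowerSeries = 0 := F.zero_constantCoeff
  have hG0 : constantCoeff G.toPowerSeries = 0 := G.zero_constantCoeff
  have hX0 : ∀ i : Fin 2, constantCoeff (X i : MvPowerSeries (Fin 2) R) = 0 := fun i => by simp
  have hpsub : ∀ {f : PowerSeries R}, PowerSeries.constantCoeff f = 0 → ∀ i : Fin 2,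
      constantCoeff (PowerSeries.subst (X i : MvPowerSeries (Fin 2) R) f) = 0 := by
    intro f hf i
    exact PowerSeries.constantCoeff_subst_eq_zero (hX0 i) f hf
  set U : MvPowerSeries (Fin 2) R := PowerSeries.subst (X 0) θ with hU
  set V : MvPowerSeries (Fin 2) R := PowerSeries.subst (X 1) θ with hV
  have hU0 : constantCoeff U = 0 := hpsub hθ0 0
  have hV0 : constantCoeff V = 0 := hpsub hθ0 1
  -- the vector `a`
  set a : Fin 2 → MvPowerSeries (Fin 2) R :=
    ![PowerSeries.subst (X 0) φ, PowerSeries.subst (X 1) φ] with ha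
  have ha0 : ∀ i, constantCoeff (a i) = 0 := by
    intro i; fin_cases i
    · exact hpsub hφ0 0
    · exact hpsub hφ0 1
  have hsa : MvPowerSeries.HasSubst a := MvPowerSeries.hasSubst_of_constantCoeff_zero ha0
  have hsUV : MvPowerSeries.HasSubst ![U, V] :=
    MvPowerSeries.hasSubst_of_constantCoeff_zero (by
      intro i; fin_cases i
      · exact hU0
      · exact hV0)
  have hsφ : PowerSeries.HasSubst φ := PowerSeries.HasSubst.of_constantCoeff_zero hφ0
  have hsθ : PowerSeries.HasSubst θ := PowerSeries.HasSubst.of_constantCoeff_zero hθ0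
  have hsX : ∀ i : Fin 2, PowerSeries.HasSubst (X i : MvPowerSeries (Fin 2) R) :=
    fun i => PowerSeries.HasSubst.of_constantCoeff_zero (hX0 i)
  have hsF : PowerSeries.HasSubst F.toPowerSeries := PowerSeries.HasSubst.of_constantCoeff_zero hF0
  -- write `φ = X h`
  set h : PowerSeries R := PowerSeries.mk fun i => PowerSeries.coeff (i + 1) φ with hh
  have hφh : φ = PowerSeries.X * h := by
    ext i
    rcases i with _ | i
    · simp [hφ0]
    · rw [PowerSeries.coeff_succ_X_mul, hh, PowerSeries.coeff_mk]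
  have hh0 : PowerSeries.constantCoeff h = (p : R) := by
    rw [← PowerSeries.coeff_zero_eq_constantCoeff_apply, hh, PowerSeries.coeff_mk]
    simpa using hφ1
  set h2 : PowerSeries R := PowerSeries.mk fun i => PowerSeries.coeff (i + 1) h with hh2
  have hhh2 : h = PowerSeries.C (p : R) + PowerSeries.X * h2 := by
    ext i
    rcases i with _ | i
    · simp [← hh0]
    · rw [map_add, PowerSeries.coeff_succ_X_mul, PowerSeries.coeff_succ_C, zero_add]
      simp only [hh2, hh, PowerSeries.coeff_mk]
  set g : Fin 2 → MvPowerSeries (Fin 2) R := fun i => PowerSeries.subst (X i) h with hg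
  have hag : ∀ i, a i = X i * g i := by
    intro i
    have e : PowerSeries.subst (X i : MvPowerSeries (Fin 2) R) φ = X i * g i := by
      conv_lhs => rw [hφh]
      rw [PowerSeries.subst_mul (hsX i), PowerSeries.subst_X (hsX i)]
    fin_cases i
    · exact e
    · exact e
  have hg0 : ∀ i, constantCoeff (g i) = (p : R) := by
    intro i
    show constantCoeff (PowerSeries.subst (X i : MvPowerSeries (Fin 2) R) h) = (p : R)
    rw [hhh2, PowerSeries.subst_add (hsX i), PowerSeries.subst_mul (hsX i),
      PowerSeries.subst_X (hsX i), PowerSeries.subst_C, map_add, map_mul]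
    simp
  -- the two sides
  have hA : MvPowerSeries.subst a (PowerSeries.subst F.toPowerSeries θ) =
      PowerSeries.subst (PowerSeries.subst F.toPowerSeries θ) ψ := by
    rw [psubst_mvsubst θ hF0 hsa]
    have e1 : MvPowerSeries.subst a F.toPowerSeries = PowerSeries.subst F.toPowerSeries φ :=
      hFφ.symm
    rw [e1, ← PowerSeries.subst_comp_subst_apply hsφ hsF, hθ,
      PowerSeries.subst_comp_subst_apply hsθ hsF]
  have hsubstU : ∀ i : Fin 2, MvPowerSeries.subst a
      (PowerSeries.subst (X i : MvPowerSeries (Fin 2) R) θ) =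
      PowerSeries.subst (PowerSeries.subst (X i : MvPowerSeries (Fin 2) R) θ) ψ := by
    intro i
    rw [psubst_mvsubst θ (hX0 i) hsa, MvPowerSeries.subst_X hsa]
    have : a i = PowerSeries.subst (X i : MvPowerSeries (Fin 2) R) φ := by
      fin_cases i <;> rfl
    rw [this, ← PowerSeries.subst_comp_subst_apply hsφ (hsX i), hθ,
      PowerSeries.subst_comp_subst_apply hsθ (hsX i)]
  have hB : MvPowerSeries.subst a (MvPowerSeries.subst ![U, V] G.toPowerSeries) =
      PowerSeries.subst (MvPowerSeries.subst ![U, V] G.toPowerSeries) ψ := by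
    rw [MvPowerSeries.subst_comp_subst_apply hsUV hsa]
    rw [← psubst_mvsubst ψ hG0 hsUV, hGψ,
      MvPowerSeries.subst_comp_subst_apply _ hsUV]
    · congr 1
      ext1 s
      fin_cases s
      · show MvPowerSeries.subst a (PowerSeries.subst (X 0 : MvPowerSeries (Fin 2) R) θ) =
          MvPowerSeries.subst ![U, V] (PowerSeries.subst (X 0 : MvPowerSeries (Fin 2) R) ψ)
        rw [hsubstU 0, psubst_mvsubst ψ (hX0 0) hsUV, MvPowerSeries.subst_X hsUV]
        rfl
      · show MvPowerSeries.subst a (PowerSeries.subst (X 1 : MvPowerSeries (Fin 2) R) θ) =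
          MvPowerSeries.subst ![U, V] (PowerSeries.subst (X 1 : MvPowerSeries (Fin 2) R) ψ)
        rw [hsubstU 1, psubst_mvsubst ψ (hX0 1) hsUV, MvPowerSeries.subst_X hsUV]
        rfl
    · apply MvPowerSeries.hasSubst_of_constantCoeff_zero
      intro i; fin_cases i
      · exact hpsub hψ0 0
      · exact hpsub hψ0 1
  -- the linear parts
  have hLinA : OrdGe 2 (PowerSeries.subst F.toPowerSeries θ -
      (X 0 + X 1 : MvPowerSeries (Fin 2) R)) := by
    have h1 := lin_of_comp hθ0 hθ1 hF0
    have h2 := fg_lin F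
    have e : PowerSeries.subst F.toPowerSeries θ - (X 0 + X 1 : MvPowerSeries (Fin 2) R) =
        (PowerSeries.subst F.toPowerSeries θ - F.toPowerSeries) +
          (F.toPowerSeries - (X 0 + X 1)) := by ring
    rw [e]
    exact h1.add h2
  have hLinB : OrdGe 2 (MvPowerSeries.subst ![U, V] G.toPowerSeries -
      (X 0 + X 1 : MvPowerSeries (Fin 2) R)) := by
    have h1 := ordGe_subst_mv (fg_lin G) hsUV (by
      intro i; fin_cases i
      · exact hU0
      · exact hV0)
    rw [MvPowerSeries.subst_sub hsUV, MvPowerSeries.subst_add hsUV, MvPowerSeries.subst_X hsUV,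
      MvPowerSeries.subst_X hsUV] at h1
    have h2 := lin_of_comp hθ0 hθ1 (hX0 0)
    have h3 := lin_of_comp hθ0 hθ1 (hX0 1)
    have e : MvPowerSeries.subst ![U, V] G.toPowerSeries - (X 0 + X 1 : MvPowerSeries (Fin 2) R) =
        (MvPowerSeries.subst ![U, V] G.toPowerSeries - (![U, V] 0 + ![U, V] 1)) +
          (U - X 0) + (V - X 1) := by
      simp only [Matrix.cons_val_zero, Matrix.cons_val_one, Matrix.cons_val_fin_one]
      ring
    rw [e]
    exact (h1.add h2).add h3
  have hlin : OrdGe 2 (PowerSeries.subst F.toPowerSeries θ -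
      MvPowerSeries.subst ![U, V] G.toPowerSeries) := by
    have e : PowerSeries.subst F.toPowerSeries θ - MvPowerSeries.subst ![U, V] G.toPowerSeries =
        (PowerSeries.subst F.toPowerSeries θ - (X 0 + X 1)) -
          (MvPowerSeries.subst ![U, V] G.toPowerSeries - (X 0 + X 1)) := by ring
    rw [e]
    exact hLinA.sub hLinB
  have hnz : ∀ d : ℕ, 2 ≤ d → ∀ x : R, ((p : R) ^ d - p) * x = 0 → x = 0 := by
    intro d hd x hx
    obtain ⟨d', rfl⟩ : ∃ d', d = d' + 2 := ⟨d - 2, by omega⟩
    have hu := hunit (d' + 1) (by omega)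
    have e : ((p : R) ^ (d' + 2) - p) * x = (p : R) * (-(1 - (p : R) ^ (d' + 1)) * x) := by ring
    rw [e] at hx
    have h1 := hnzd _ hx
    have h2 : (1 - (p : R) ^ (d' + 1)) * x = 0 := by linear_combination -h1
    exact (hu.mul_right_eq_zero).mp h2
  exact eq_of_subst_eq_subst hag hg0 ψ hψ0 hψ1 hnz
    (PowerSeries.constantCoeff_subst_eq_zero hF0 θ hθ0)
    (MvPowerSeries.constantCoeff_subst_eq_zero hsUV (by
      intro i; fin_cases i
      · exact hU0
      · exact hV0) hG0)
    hlin hA hB

end FGL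


section Witt

open Crest.LubinTate

variable (p : ℕ) [Fact p.Prime] (n : ℕ)

lemma galois_frob (hn : n ≠ 0) (x : GaloisField p n) : x ^ (p ^ n) = x := by
  haveI : Fintype (GaloisField p n) := Fintype.ofFinite _
  have h := FiniteField.pow_card x
  rwa [← Nat.card_eq_fintype_card, GaloisField.card p n hn] at h

lemma witt_ker (x : WittVector p (GaloisField p n))
    (hx : WittVector.constantCoeff x = 0) :
    ∃ y, x = (p : WittVector p (GaloisField p n)) * y := by
  by_cases h0 : x = 0
  · exact ⟨0, by simp [h0]⟩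
  obtain ⟨m, b, hb, hxb⟩ := WittVector.exists_eq_pow_p_mul x h0
  rcases m with _ | m
  · exfalso
    apply hb
    have : x = b := by simpa using hxb
    rw [← this]
    exact hx
  · exact ⟨(p : WittVector p (GaloisField p n)) ^ m * b, by rw [hxb]; ring⟩

lemma witt_cast_p :
    WittVector.constantCoeff (p : WittVector p (GaloisField p n)) = 0 := by
  rw [map_natCast]
  exact CharP.cast_eq_zero (GaloisField p n) p

lemma witt_unit (d : ℕ) (hd : 1 ≤ d) :
    IsUnit (1 - (p : WittVector p (GaloisField p n)) ^ d) := by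
  apply WittVector.isUnit_of_coeff_zero_ne_zero
  have : (1 - (p : WittVector p (GaloisField p n)) ^ d).coeff 0 =
      WittVector.constantCoeff (1 - (p : WittVector p (GaloisField p n)) ^ d) := rfl
  rw [this, map_sub, map_one, map_pow, witt_cast_p, zero_pow (by omega), sub_zero]
  exact one_ne_zero

lemma witt_nzd (x : WittVector p (GaloisField p n))
    (hx : (p : WittVector p (GaloisField p n)) * x = 0) : x = 0 := by
  rcases mul_eq_zero.mp hx with h | h
  · exact absurd h (WittVector.p_nonzero p (GaloisField p n))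
  · exact h

/-- **Corollary of the Lubin-Tate lemma over `W(𝔽_q)`.**  Two commutative formal group laws over
`W` whose reductions have `p`-series `X^q` are isomorphic over `W`, by a homomorphism with linear
coefficient `1`. -/
theorem exists_fgHom_witt (hn : n ≠ 0) (F G : FormalGroup (WittVector p (GaloisField p n)))
    [F.IsComm] [G.IsComm]
    (hF : mulSeries (F.map WittVector.constantCoeff) p = PowerSeries.X ^ (p ^ n))
    (hG : mulSeries (G.map WittVector.constantCoeff) p = PowerSeries.X ^ (p ^ n)) :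
    ∃ θ : PowerSeries (WittVector p (GaloisField p n)),
      IsFGHom F G θ ∧ PowerSeries.coeff 1 θ = 1 := by
  obtain ⟨θ, h1, h2, -⟩ := exists_fgHom_of_lubinTate
    (WittVector.constantCoeff : WittVector p (GaloisField p n) →+* GaloisField p n) p n
    (galois_frob p n hn) (witt_ker p n) (witt_unit p n) (witt_nzd p n) F G
    (isFGHom_mulSeries F p) (isFGHom_mulSeries G p)
    (coeff_one_mulSeries F p) (coeff_one_mulSeries G p)
    (by rw [map_mulSeries]; exact hG) (by rw [map_mulSeries]; exact hF)
  exact ⟨θ, h1, h2⟩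

/-- **Corollary A4.1.**  Commutative laws `Γ, Γ'` over `𝔽_q` with `p`-series `X^q`, both of which
lift to commutative laws over `W`, are isomorphic over `𝔽_q` by a homomorphism with linear
coefficient `1`. -/
theorem exists_fgHom_residue (hn : n ≠ 0) (Γ Γ' : FormalGroup (GaloisField p n))
    (F G : FormalGroup (WittVector p (GaloisField p n))) [F.IsComm] [G.IsComm]
    (hFΓ : F.map WittVector.constantCoeff = Γ) (hGΓ : G.map WittVector.constantCoeff = Γ')
    (hΓ : mulSeries Γ p = PowerSeries.X ^ (p ^ n))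
    (hΓ' : mulSeries Γ' p = PowerSeries.X ^ (p ^ n)) :
    ∃ θ₀ : PowerSeries (GaloisField p n), IsFGHom Γ Γ' θ₀ ∧ PowerSeries.coeff 1 θ₀ = 1 ∧
      ∃ θ : PowerSeries (WittVector p (GaloisField p n)),
        IsFGHom F G θ ∧ PowerSeries.coeff 1 θ = 1 ∧
          PowerSeries.map WittVector.constantCoeff θ = θ₀ := by
  subst hFΓ hGΓ
  obtain ⟨θ, h1, h2⟩ := exists_fgHom_witt p n hn F G hΓ hΓ'
  refine ⟨PowerSeries.map WittVector.constantCoeff θ, h1.map _, ?_, θ, h1, h2, rfl⟩
  rw [PowerSeries.coeff_map, h2, map_one]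

end Witt

end Crest.Agent.LT
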