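/-
S0351 (row 227).  Blueprint A6 (and statement of what A2/A4/A5 must give).
Transfer from an arbitrary (Γ, H) to the explicit (Γ₀, hazF).  Owner: module A6-Transfer.
-/
import Crest.Agent.Lib.LubinTate.HazAPI
import Crest.Agent.Lib.LubinTate.FGBasic
import Crest.Agent.Lib.LubinTate.LTRingAlg
import Crest.Agent.Lib.LubinTate.IIPrime
import Crest.Agent.Lib.LubinTate.HeightIdeal
import Crest.Agent.Lib.LubinTate.LubinTateLemma

set_option autoImplicit false
set_option linter.unusedSectionVars false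

namespace Crest.Agent.LT

open Crest.LubinTate

noncomputable section

variable (p : ℕ) [Fact p.Prime] (n : ℕ) [NeZero n]

/-- Stability in the core situation: every automorphism `g ≡ X mod X^M` of `Γ₀` has SOME stabilizer
map for `hazF` preserving `J`. -/
def CoreStable (M : ℕ) (J : Ideal (AA p n)) : Prop :=
  ∀ g : PowerSeries (kk p n), IsFGAut (Gamma0 p n) g →
    (∀ i : ℕ, i < M → PowerSeries.coeff i g = PowerSeries.coeff i PowerSeries.X) →
    ∃ ψ : AA p n →ₐ[WW p n] AA p n,
      IsStabilizerMap p n (hazF p n) g ψ ∧ Ideal.comap ψ.toRingHom J = J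

namespace Xfer

section Generic

variable {R S T : Type*} [CommRing R] [CommRing S] [CommRing T]

theorem eq_of_isFGHom_X {F G : FormalGroup R} (h : IsFGHom F G PowerSeries.X) : F = G := by
  ext1
  have h2 := h.2
  rw [PowerSeries.subst_X (hasSubst_of_cc F.zero_constantCoeff),
    PowerSeries.subst_X (PowerSeries.HasSubst.X 0), PowerSeries.subst_X (PowerSeries.HasSubst.X 1)]
    at h2
  rw [h2]
  exact fgAdd_X_X G

theorem map_map_FG (F : FormalGroup R) (f : R →+* S) (g : S →+* T) :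
    (F.map f).map g = F.map (g.comp f) := by
  ext1
  ext e
  simp [FormalGroup.map]

theorem map_map_series (θ : PowerSeries R) (f : R →+* S) (g : S →+* T) :
    PowerSeries.map g (PowerSeries.map f θ) = PowerSeries.map (g.comp f) θ := by
  ext e
  simp

/-- `θ⁻¹(D(θ X, θ Y))`. -/
def conjInv (θ : PowerSeries R) (hu : IsUnit (PowerSeries.coeff 1 θ)) (D : FormalGroup R) :
    FormalGroup R :=
  conj (compInv θ hu) (compInv_cc θ hu) (coeff_one_compInv_unit θ hu) D

instance isComm_conjInv (θ : PowerSeries R) (hu : IsUnit (PowerSeries.coeff 1 θ)) (D : FormalGroup R)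
    [D.IsComm] : (conjInv θ hu D).IsComm := by
  unfold conjInv
  infer_instance

theorem compInv_compInv (θ : PowerSeries R) (h0 : PowerSeries.constantCoeff θ = 0)
    (hu : IsUnit (PowerSeries.coeff 1 θ)) :
    compInv (compInv θ hu) (coeff_one_compInv_unit θ hu) = θ :=
  (eq_compInv (compInv_cc θ hu) (coeff_one_compInv_unit θ hu) h0
    (PowerSeries.subst_substInvOfIsUnit_left θ h0 hu)).symm

theorem isFGHom_conjInv (θ : PowerSeries R) (h0 : PowerSeries.constantCoeff θ = 0)
    (hu : IsUnit (PowerSeries.coeff 1 θ)) (D : FormalGroup R) :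
    IsFGHom (conjInv θ hu D) D θ := by
  have h1 := isFGHom_conj (compInv θ hu) (compInv_cc θ hu) (coeff_one_compInv_unit θ hu) D
  have h2 := h1.compInv (coeff_one_compInv_unit θ hu)
  rwa [compInv_compInv θ h0 hu] at h2

theorem map_conjInv (h : R →+* S) {θ : PowerSeries R} (h0 : PowerSeries.constantCoeff θ = 0)
    (hu : IsUnit (PowerSeries.coeff 1 θ)) (D : FormalGroup R) {Γ : FormalGroup S}
    (hΓ : IsFGHom Γ (D.map h) (PowerSeries.map h θ)) : (conjInv θ hu D).map h = Γ := by
  have hE := (isFGHom_conjInv θ h0 hu D).map h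
  have hu' : IsUnit (PowerSeries.coeff 1 (PowerSeries.map h θ)) := by
    rw [PowerSeries.coeff_map]
    exact hu.map h
  have h1 := (hE.compInv hu').comp hΓ
  rw [PowerSeries.subst_substInvOfIsUnit_left _ hΓ.1 hu'] at h1
  exact (eq_of_isFGHom_X h1).symm

theorem compInv_congr {θ θ' : PowerSeries R} (h : θ = θ') (hu : IsUnit (PowerSeries.coeff 1 θ))
    (hu' : IsUnit (PowerSeries.coeff 1 θ')) : compInv θ hu = compInv θ' hu' := by
  subst h
  rfl

/-- The push-forward of a composite. -/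
theorem map_subst_ps (h : R →+* S) (φ ψ : PowerSeries R) (hψ : PowerSeries.constantCoeff ψ = 0) :
    PowerSeries.map h (φ.subst ψ) = (PowerSeries.map h φ).subst (PowerSeries.map h ψ) :=
  map_ps_subst h φ (ps_hasSubst_of_cc hψ)

theorem conj_conj_eq (θ g : PowerSeries R) (h0 : PowerSeries.constantCoeff θ = 0)
    (hu : IsUnit (PowerSeries.coeff 1 θ)) (hg0 : PowerSeries.constantCoeff g = 0) :
    θ.subst (PowerSeries.subst (compInv θ hu) ((compInv θ hu).subst (g.subst θ))) = g := by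
  have hθ := ps_hasSubst_of_cc h0
  have hi := compInv_hasSubst θ hu
  have hgθ : PowerSeries.HasSubst (g.subst θ) :=
    ps_hasSubst_of_cc (constantCoeff_ps_subst hg0 h0)
  rw [PowerSeries.subst_comp_subst_apply hgθ hi, PowerSeries.subst_comp_subst_apply hθ hi,
    PowerSeries.subst_substInvOfIsUnit_right θ h0 hu, PowerSeries.X_subst]
  exact subst_compInv_subst h0 hu (ps_hasSubst_of_cc hg0)

/-- Substitution respects congruence modulo `X ^ M`. -/
theorem subst_congr (ψ : PowerSeries R) {a b : PowerSeries R} (ha : PowerSeries.constantCoeff a = 0)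
    (hb : PowerSeries.constantCoeff b = 0) {M : ℕ}
    (h : ∀ i, i < M → PowerSeries.coeff i a = PowerSeries.coeff i b) :
    ∀ i, i < M → PowerSeries.coeff i (ψ.subst a) = PowerSeries.coeff i (ψ.subst b) := by
  intro i hi
  rw [PowerSeries.coeff_subst' (ps_hasSubst_of_cc ha), PowerSeries.coeff_subst' (ps_hasSubst_of_cc hb)]
  refine finsum_congr fun d => ?_
  have h1 : (PowerSeries.X : PowerSeries R) ^ M ∣ a - b := by
    rw [PowerSeries.X_pow_dvd_iff]
    intro m hm
    rw [map_sub, h m hm, sub_self]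
  have h2 : (PowerSeries.X : PowerSeries R) ^ M ∣ a ^ d - b ^ d := h1.trans (sub_dvd_pow_sub_pow a b d)
  rw [PowerSeries.X_pow_dvd_iff] at h2
  have h3 := h2 i hi
  rw [map_sub, sub_eq_zero] at h3
  rw [h3]

/-- If `g ≡ X mod X ^ M`, then `g(a) ≡ a mod X ^ M`. -/
theorem subst_of_congr_X {g a : PowerSeries R} {M : ℕ}
    (hg : ∀ i, i < M → PowerSeries.coeff i g = PowerSeries.coeff i PowerSeries.X)
    (ha : PowerSeries.constantCoeff a = 0) :
    ∀ i, i < M → PowerSeries.coeff i (g.subst a) = PowerSeries.coeff i a := by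
  have h1 : (PowerSeries.X : PowerSeries R) ^ M ∣ g - PowerSeries.X := by
    rw [PowerSeries.X_pow_dvd_iff]
    intro m hm
    rw [map_sub, hg m hm, sub_self]
  obtain ⟨u, hu⟩ := h1
  have hg' : g = PowerSeries.X + PowerSeries.X ^ M * u := by rw [← hu]; ring
  have hs := ps_hasSubst_of_cc ha
  have h2 : g.subst a = a + a ^ M * u.subst a := by
    rw [hg', ← PowerSeries.coe_substAlgHom hs, map_add, map_mul, map_pow,
      PowerSeries.coe_substAlgHom hs, PowerSeries.subst_X hs]
  have h3 : (PowerSeries.X : PowerSeries R) ∣ a := by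
    rw [PowerSeries.X_dvd_iff]
    exact ha
  have h4 : (PowerSeries.X : PowerSeries R) ^ M ∣ a ^ M * u.subst a :=
    Dvd.dvd.mul_right (pow_dvd_pow_of_dvd h3 M) _
  rw [PowerSeries.X_pow_dvd_iff] at h4
  intro i hi
  rw [h2, map_add, h4 i hi, add_zero]

end Generic

theorem isUnit_of_isUnit_residue {a : AA p n} (h : IsUnit (LTRing.residue p n a)) : IsUnit a := by
  by_contra hna
  have h1 : a ∈ IsLocalRing.maximalIdeal (AA p n) := (IsLocalRing.mem_maximalIdeal a).2 hna
  rw [mem_maximalIdeal_iff_residue] at h1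
  rw [h1] at h
  exact not_isUnit_zero h

/-- Coefficientwise lifts. -/
theorem exists_lift (t : PowerSeries (kk p n)) (h0 : PowerSeries.constantCoeff t = 0)
    (hu : IsUnit (PowerSeries.coeff 1 t)) :
    ∃ θ : PowerSeries (AA p n), PowerSeries.constantCoeff θ = 0 ∧
      IsUnit (PowerSeries.coeff 1 θ) ∧ PowerSeries.map (LTRing.residue p n) θ = t := by
  classical
  choose s hs using residue_surjective p n
  have hmap : PowerSeries.map (LTRing.residue p n)
      (PowerSeries.mk fun i => if i = 0 then 0 else s (PowerSeries.coeff i t)) = t := by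
    ext i
    rw [PowerSeries.coeff_map, PowerSeries.coeff_mk]
    by_cases hi : i = 0
    · subst hi
      rw [if_pos rfl, map_zero, PowerSeries.coeff_zero_eq_constantCoeff_apply, h0]
    · rw [if_neg hi, hs]
  refine ⟨_, ?_, ?_, hmap⟩
  · rw [← PowerSeries.coeff_zero_eq_constantCoeff_apply, PowerSeries.coeff_mk, if_pos rfl]
  · apply isUnit_of_isUnit_residue
    rw [← PowerSeries.coeff_map, hmap]
    exact hu

/-- The universal property, existence part, over the Lubin-Tate ring itself. -/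
theorem exists_univ {Γ : FormalGroup (kk p n)} {H : FormalGroup (AA p n)}
    (hH : IsUniversalDeformation p n Γ H) (E : FormalGroup (AA p n))
    (hE : E.map (LTRing.residue p n) = Γ) :
    ∃ φ : AA p n →ₐ[WW p n] AA p n, (LTRing.residue p n).comp φ.toRingHom = LTRing.residue p n ∧
      ∃ θ : PowerSeries (AA p n), IsFGHom (H.map φ.toRingHom) E θ ∧
        PowerSeries.map (LTRing.residue p n) θ = PowerSeries.X := by
  obtain ⟨φ, ⟨h1, θ, h2, h3⟩, -⟩ := hH.2 (AA p n) (ltRing_isAdicComplete p n) (LTRing.residue p n)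
    (residue_surjective p n) (ker_residue p n) (residue_algebraMap p n) E hE
  exact ⟨φ, h1, θ, h2, h3⟩

theorem residue_apply_of_comp {φ : AA p n →ₐ[WW p n] AA p n}
    (h : (LTRing.residue p n).comp φ.toRingHom = LTRing.residue p n) (a : AA p n) :
    LTRing.residue p n (φ a) = LTRing.residue p n a :=
  congrFun (congrArg DFunLike.coe h) a

/-- `φ(m) A = m` from `I(H) A`: the core of the bijectivity statements. -/
theorem map_maximalIdeal_of {φ : AA p n →ₐ[WW p n] AA p n}
    (h : (LTRing.residue p n).comp φ.toRingHom = LTRing.residue p n) {I : Ideal (AA p n)}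
    (hI : I.map φ.toRingHom = IsLocalRing.maximalIdeal (AA p n)) :
    (IsLocalRing.maximalIdeal (AA p n)).map φ.toRingHom = IsLocalRing.maximalIdeal (AA p n) := by
  apply le_antisymm
  · rw [Ideal.map_le_iff_le_comap]
    intro a ha
    rw [Ideal.mem_comap, mem_maximalIdeal_iff_residue]
    rw [mem_maximalIdeal_iff_residue] at ha
    change LTRing.residue p n (φ a) = 0
    rw [residue_apply_of_comp p n h, ha]
  · have h1 : I ≤ IsLocalRing.maximalIdeal (AA p n) := by
      intro a ha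
      have h2 : φ.toRingHom a ∈ I.map φ.toRingHom := Ideal.mem_map_of_mem _ ha
      rw [hI, mem_maximalIdeal_iff_residue] at h2
      rw [mem_maximalIdeal_iff_residue]
      rw [← residue_apply_of_comp p n h]
      exact h2
    calc IsLocalRing.maximalIdeal (AA p n) = I.map φ.toRingHom := hI.symm
      _ ≤ _ := Ideal.map_mono h1

/-- A2.4 in the language of the Prelude. -/
theorem heightIdeal_map (F : FormalGroup (AA p n)) (φ : AA p n →+* AA p n) (h : ℕ) :
    heightIdeal p n (F.map φ) h = (heightIdeal p n F h).map φ := by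
  rw [heightIdeal_eq_hI, heightIdeal_eq_hI, hI_map]

/-- A2.3 in the language of the Prelude. -/
theorem heightIdeal_eq_of_hom {F G : FormalGroup (AA p n)} [F.IsComm] [G.IsComm]
    {θ : PowerSeries (AA p n)} (hθ : IsFGHom F G θ) (hu : IsUnit (PowerSeries.coeff 1 θ)) (h : ℕ) :
    heightIdeal p n F h = heightIdeal p n G h := by
  rw [heightIdeal_eq_hI, heightIdeal_eq_hI]
  exact hI_eq_of_hom p hθ hu h

/-- **Transfer**, given the isomorphism `θ₀`. -/
theorem transfer_core
    (Γ : FormalGroup (kk p n)) [Γ.IsComm] (H : FormalGroup (AA p n)) [H.IsComm]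
    (hH : IsUniversalDeformation p n Γ H)
    (θ₀ : PowerSeries (kk p n)) (hθ₀ : IsFGHom Γ (Gamma0 p n) θ₀)
    (hu₀ : IsUnit (PowerSeries.coeff 1 θ₀)) :
    ∃ Φ : AA p n ≃+* AA p n,
      (∀ h : ℕ, h ≤ n → (heightIdeal p n H h).map (Φ : AA p n →+* AA p n) = II p n h) ∧
      ∀ (M : ℕ) (J : Ideal (AA p n)), 1 ≤ M → IsStableIdeal p n Γ H M J →
        CoreStable p n M (J.map (Φ : AA p n →+* AA p n)) := by
  classical
  have hresE : ∀ {φ : AA p n →ₐ[WW p n] AA p n}, (LTRing.residue p n).comp φ.toRingHom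
      = LTRing.residue p n → ∀ a, LTRing.residue p n (φ a) = LTRing.residue p n a :=
    fun h a => residue_apply_of_comp p n h a
  -- step 1: the law `F^b` and the map `Φ₀`
  obtain ⟨Θ, hΘ0, hΘu, hΘr⟩ := exists_lift p n θ₀ hθ₀.1 hu₀
  have hFb : (conjInv Θ hΘu (hazF p n)).map (LTRing.residue p n) = Γ :=
    map_conjInv _ hΘ0 hΘu _ (by rw [hΘr]; exact hθ₀)
  obtain ⟨Φ₀, hΦr, θ₁, hθ₁, hθ₁r⟩ := exists_univ p n hH _ hFb
  have hT₀ : IsFGHom (H.map Φ₀.toRingHom) (hazF p n) (Θ.subst θ₁) :=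
    (isFGHom_conjInv Θ hΘ0 hΘu _).comp hθ₁
  have hT₀r : PowerSeries.map (LTRing.residue p n) (Θ.subst θ₁) = θ₀ := by
    rw [map_subst_ps _ _ _ hθ₁.1, hΘr, hθ₁r, PowerSeries.X_subst]
  have hT₀u : IsUnit (PowerSeries.coeff 1 (Θ.subst θ₁)) := by
    apply isUnit_of_isUnit_residue
    rw [← PowerSeries.coeff_map, hT₀r]
    exact hu₀
  -- height ideals
  have hI : ∀ h, h ≤ n → (heightIdeal p n H h).map Φ₀.toRingHom = II p n h := fun h hh => by
    rw [← heightIdeal_map, heightIdeal_eq_of_hom p n hT₀ hT₀u h, heightIdeal_hazF p n h hh]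
  have hm : (IsLocalRing.maximalIdeal (AA p n)).map Φ₀.toRingHom
      = IsLocalRing.maximalIdeal (AA p n) :=
    map_maximalIdeal_of p n hΦr ((hI n le_rfl).trans (II_eq_maximalIdeal p n))
  have hbij := ltRing_bijective_of_map_eq p n Φ₀ hm
  let ΦA : AA p n ≃ₐ[WW p n] AA p n := AlgEquiv.ofBijective Φ₀ hbij
  have hΦAapp : ∀ a, ΦA a = Φ₀ a := fun a => rfl
  have hΦAsymm : ∀ a, Φ₀ (ΦA.symm a) = a := fun a => ΦA.apply_symm_apply a
  refine ⟨ΦA.toRingEquiv, ?_, ?_⟩
  · intro h hh
    exact hI h hh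
  intro M J hM hJ g hg hgM
  -- the automorphism `gb` of `Γ`
  have hiθ := compInv_hasSubst θ₀ hu₀
  have hθi : IsFGHom (Gamma0 p n) Γ (compInv θ₀ hu₀) := hθ₀.compInv hu₀
  have hgbH : IsFGHom Γ Γ ((compInv θ₀ hu₀).subst (g.subst θ₀)) := hθi.comp (hg.1.comp hθ₀)
  have hgθ0 : PowerSeries.constantCoeff (g.subst θ₀) = 0 := constantCoeff_ps_subst hg.1.1 hθ₀.1
  have hgbu : IsUnit (PowerSeries.coeff 1 ((compInv θ₀ hu₀).subst (g.subst θ₀))) := by
    rw [coeff_one_subst _ _ hgθ0, coeff_one_subst _ _ hθ₀.1]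
    exact (coeff_one_compInv_unit θ₀ hu₀).mul (hg.2.mul hu₀)
  have hgbM : ∀ i, i < M → PowerSeries.coeff i ((compInv θ₀ hu₀).subst (g.subst θ₀))
      = PowerSeries.coeff i PowerSeries.X := by
    intro i hi
    rw [subst_congr (compInv θ₀ hu₀) hgθ0 hθ₀.1 (subst_of_congr_X hgM hθ₀.1) i hi,
      PowerSeries.subst_substInvOfIsUnit_left θ₀ hθ₀.1 hu₀]
  -- lift it, and apply universality
  obtain ⟨gt, hgt0, hgtu, hgtr⟩ := exists_lift p n _ hgbH.1 hgbu
  have hG : (conjInv gt hgtu H).map (LTRing.residue p n) = Γ :=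
    map_conjInv _ hgt0 hgtu H (by rw [hH.1, hgtr]; exact hgbH)
  obtain ⟨φ, hφr, θ₂, hθ₂, hθ₂r⟩ := exists_univ p n hH _ hG
  have hT₃ : IsFGHom (H.map φ.toRingHom) H (gt.subst θ₂) :=
    (isFGHom_conjInv gt hgt0 hgtu H).comp hθ₂
  have hT₃r : PowerSeries.map (LTRing.residue p n) (gt.subst θ₂)
      = (compInv θ₀ hu₀).subst (g.subst θ₀) := by
    rw [map_subst_ps _ _ _ hθ₂.1, hgtr, hθ₂r, PowerSeries.X_subst]
  have hstab : IsStabilizerMap p n H ((compInv θ₀ hu₀).subst (g.subst θ₀)) φ :=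
    ⟨hφr, _, hT₃, hT₃r⟩
  have hcomap : Ideal.comap φ.toRingHom J = J := hJ _ φ ⟨hgbH, hgbu⟩ hgbM hstab
  -- the stabilizer map of `g` for `hazF`
  let ψ : AA p n →ₐ[WW p n] AA p n := Φ₀.comp (φ.comp ΦA.symm.toAlgHom)
  have hψapp : ∀ a, ψ a = Φ₀ (φ (ΦA.symm a)) := fun a => rfl
  have hψr : (LTRing.residue p n).comp ψ.toRingHom = LTRing.residue p n := by
    ext1 a
    change LTRing.residue p n (ψ a) = LTRing.residue p n a
    rw [hψapp, hresE hΦr, hresE hφr, ← hresE hΦr (ΦA.symm a), hΦAsymm]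
  have hψΦ : ψ.toRingHom.comp Φ₀.toRingHom = Φ₀.toRingHom.comp φ.toRingHom := by
    ext1 a
    change ψ (Φ₀ a) = Φ₀ (φ a)
    rw [hψapp]
    congr 2
    exact ΦA.symm_apply_apply a
  refine ⟨ψ, ⟨hψr, ?_⟩, ?_⟩
  · -- the homomorphism
    have h1 := hT₀.map ψ.toRingHom
    have h2 := hT₃.map Φ₀.toRingHom
    rw [map_map_FG, hψΦ, ← map_map_FG] at h1
    have hcc : PowerSeries.constantCoeff
        (PowerSeries.map ψ.toRingHom (Θ.subst θ₁)) = 0 := h1.1
    have hr1 : PowerSeries.map (LTRing.residue p n) (PowerSeries.map ψ.toRingHom (Θ.subst θ₁)) = θ₀ := by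
      rw [map_map_series, hψr, hT₀r]
    have hu1 : IsUnit (PowerSeries.coeff 1 (PowerSeries.map ψ.toRingHom (Θ.subst θ₁))) := by
      apply isUnit_of_isUnit_residue
      rw [← PowerSeries.coeff_map, hr1]
      exact hu₀
    have h3 := h1.compInv hu1
    have h4 := hT₀.comp (h2.comp h3)
    refine ⟨_, h4, ?_⟩
    have hr3 : PowerSeries.map (LTRing.residue p n)
        (compInv (PowerSeries.map ψ.toRingHom (Θ.subst θ₁)) hu1) = compInv θ₀ hu₀ := by
      have hu2 : IsUnit (PowerSeries.coeff 1 (PowerSeries.map (LTRing.residue p n)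
          (PowerSeries.map ψ.toRingHom (Θ.subst θ₁)))) := by
        rw [hr1]
        exact hu₀
      rw [map_compInv _ hcc hu1 hu2]
      exact compInv_congr hr1 hu2 hu₀
    have hr2 : PowerSeries.map (LTRing.residue p n) (PowerSeries.map Φ₀.toRingHom (gt.subst θ₂))
        = (compInv θ₀ hu₀).subst (g.subst θ₀) := by
      rw [map_map_series, hΦr, hT₃r]
    rw [map_subst_ps _ _ _ (h2.comp h3).1, map_subst_ps _ _ _ h3.1, hT₀r, hr2, hr3]
    exact conj_conj_eq θ₀ g hθ₀.1 hu₀ hg.1.1
  · -- the ideal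
    have hmapJ : J.map ((ΦA.toRingEquiv : AA p n ≃+* AA p n) : AA p n →+* AA p n)
        = Ideal.comap ((ΦA.toRingEquiv.symm : AA p n ≃+* AA p n) : AA p n →+* AA p n) J :=
      Ideal.map_comap_of_equiv ΦA.toRingEquiv
    rw [hmapJ]
    ext a
    simp only [Ideal.mem_comap]
    have e1 : (ΦA.toRingEquiv.symm : AA p n →+* AA p n) (ψ.toRingHom a) = φ (ΦA.symm a) := by
      change ΦA.symm (ψ a) = φ (ΦA.symm a)
      rw [hψapp]
      exact ΦA.symm_apply_apply _
    rw [e1]
    conv_rhs => rw [← hcomap]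
    rfl

end Xfer

open Xfer

/-- A6.1: transfer to the core. -/
theorem exists_transfer (Γ : FormalGroup (kk p n)) [Γ.IsComm]
    (hΓ : mulSeries Γ p = PowerSeries.X ^ (p ^ n))
    (H : FormalGroup (AA p n)) [H.IsComm] (hH : IsUniversalDeformation p n Γ H) :
    ∃ Φ : AA p n ≃+* AA p n,
      (∀ h : ℕ, h ≤ n → (heightIdeal p n H h).map (Φ : AA p n →+* AA p n) = II p n h) ∧
      ∀ (M : ℕ) (J : Ideal (AA p n)), 1 ≤ M → IsStableIdeal p n Γ H M J →
        CoreStable p n M (J.map (Φ : AA p n →+* AA p n)) := by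
  have hFΓ : (H.map (MvPowerSeries.constantCoeff : AA p n →+* WW p n)).map
      (WittVector.constantCoeff : WW p n →+* kk p n) = Γ := by
    rw [map_map_FG]
    exact hH.1
  have hGΓ : ((hazF p n).map (MvPowerSeries.constantCoeff : AA p n →+* WW p n)).map
      (WittVector.constantCoeff : WW p n →+* kk p n) = Gamma0 p n := by
    rw [map_map_FG]
    rfl
  obtain ⟨θ₀, h1, h2, -⟩ := exists_fgHom_residue p n (NeZero.ne n) Γ (Gamma0 p n) _ _ hFΓ hGΓ hΓ
    (mulSeries_Gamma0 p n)
  exact transfer_core p n Γ H hH θ₀ h1 (by rw [h2]; exact isUnit_one)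

/-- The top height ideal of a universal deformation is the maximal ideal. -/
theorem heightIdeal_top (Γ : FormalGroup (kk p n)) [Γ.IsComm]
    (hΓ : mulSeries Γ p = PowerSeries.X ^ (p ^ n))
    (H : FormalGroup (AA p n)) [H.IsComm] (hH : IsUniversalDeformation p n Γ H) :
    heightIdeal p n H n = IsLocalRing.maximalIdeal (AA p n) := by
  obtain ⟨Φ, hΦ, -⟩ := exists_transfer p n Γ hΓ H hH
  have h1 := hΦ n le_rfl
  rw [II_eq_maximalIdeal] at h1
  have h2 : heightIdeal p n H n = Ideal.comap (Φ : AA p n →+* AA p n)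
      (IsLocalRing.maximalIdeal (AA p n)) := by
    rw [← h1]
    exact (Ideal.comap_map_of_bijective _ Φ.bijective).symm
  rw [h2]
  have h3 : (Ideal.comap (Φ : AA p n →+* AA p n) (IsLocalRing.maximalIdeal (AA p n))).IsMaximal :=
    Ideal.comap_isMaximal_of_surjective _ Φ.surjective
  exact IsLocalRing.eq_maximalIdeal h3

/-- A6.2: the height ideals of a universal deformation are stable. -/
theorem heightIdeal_isStable (Γ : FormalGroup (kk p n)) [Γ.IsComm]
    (hΓ : mulSeries Γ p = PowerSeries.X ^ (p ^ n))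
    (H : FormalGroup (AA p n)) [H.IsComm] (hH : IsUniversalDeformation p n Γ H)
    (M h : ℕ) (hh : h ≤ n) : IsStableIdeal p n Γ H M (heightIdeal p n H h) := by
  intro g φ hg _ hstab
  obtain ⟨hφr, θ, hθ, hθr⟩ := hstab
  have hu : IsUnit (PowerSeries.coeff 1 θ) := by
    apply isUnit_of_isUnit_residue
    rw [← PowerSeries.coeff_map, hθr]
    exact hg.2
  have hEq : ∀ h, (heightIdeal p n H h).map φ.toRingHom = heightIdeal p n H h := fun h => by
    rw [← heightIdeal_map, heightIdeal_eq_of_hom p n hθ hu h]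
  have hm : (IsLocalRing.maximalIdeal (AA p n)).map φ.toRingHom
      = IsLocalRing.maximalIdeal (AA p n) := by
    rw [← heightIdeal_top p n Γ hΓ H hH]
    exact hEq n
  have hb := ltRing_bijective_of_map_eq p n φ hm
  conv_lhs => rw [← hEq h]
  exact Ideal.comap_map_of_bijective _ hb

/-- A5: `I_h` is prime for `h ≤ n`. -/
theorem II_isPrime (h : ℕ) (hh : h ≤ n) : (II p n h).IsPrime :=
  II_isPrime' p n h

end

end Crest.Agent.LT
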