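/-
S0351 (row 227), blueprint D8, D9: the concrete instance of the orbit argument `LatOrbit`.

Part I: bounded ring maps on `A` are determined by their values on `W` and the variables; a point
`z` with `z(I_h) = 0` is `ev_t`.
Part II: `OrbitMaps` from an automorphism of `Γ₀` and a stabilizer map.
Part III: vanishing on the orbit; nonvanishing of elements outside `I_h`.
-/
import Crest.Agent.Lib.LubinTate.LatBall
import Crest.Agent.Lib.LubinTate.LatPoint
import Crest.Agent.Lib.LubinTate.LatOrbit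
import Crest.Agent.Lib.LubinTate.Transfer
import Crest.Agent.Lib.LubinTate.SeriesNonvanish

set_option autoImplicit false
set_option linter.unusedSectionVars false

namespace Crest.Agent.LT

open Crest.LubinTate MvPowerSeries Filter Topology

noncomputable section


section Point

variable {p : ℕ} [Fact p.Prime] {n : ℕ} [NeZero n]
variable {K : Type*} [NormedField K] [IsUltrametricDist K] [CompleteSpace K] [CharP K p]

/-- `‖f(t) − f(0)‖ ≤ ‖t‖`. -/
theorem evT_sub_residue_le (ιk : kk p n →+* K) (h : ℕ) {t : Fin (n - h) → K} (ht : ‖t‖ < 1)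
    (a : AA p n) : ‖evT p n ιk h t a - ιk (LTRing.residue p n a)‖ ≤ ‖t‖ := by
  have h0 : ιk (LTRing.residue p n a) = evFun (iotaW p n ιk) (0 : Fin (n - 1) → K) a := by
    rw [evFun_zero]
    rfl
  rw [h0]
  have h2 := evFun_sub_le (norm_iotaW_le p n ιk) (τ := tauOf h t) (τ' := 0)
    ((norm_tauOf_le h t).trans_lt ht) (by simp) a
  rw [sub_zero] at h2
  exact h2.trans (norm_tauOf_le h t)

theorem norm_evT_lt_of_mem (ιk : kk p n →+* K) (h : ℕ) {t : Fin (n - h) → K} (ht : ‖t‖ < 1)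
    {a : AA p n} (ha : a ∈ IsLocalRing.maximalIdeal (AA p n)) : ‖evT p n ιk h t a‖ < 1 := by
  have h1 := evT_sub_residue_le ιk h ht a
  rw [(mem_maximalIdeal_iff_residue p n).1 ha, map_zero, sub_zero] at h1
  exact h1.trans_lt ht

/-- A stabilizer map preserves `I_h`. -/
theorem stabilizer_mem_II {g : PowerSeries (kk p n)} {ψ : AA p n →ₐ[WW p n] AA p n}
    (hψ : IsStabilizerMap p n (hazF p n) g ψ) (hg : IsUnit (PowerSeries.coeff 1 g)) {h : ℕ}
    (hh : h ≤ n) {a : AA p n} (ha : a ∈ II p n h) : ψ a ∈ II p n h := by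
  obtain ⟨-, θ, hθ, hres⟩ := hψ
  have hu : IsUnit (PowerSeries.coeff 1 θ) := by
    apply Xfer.isUnit_of_isUnit_residue
    rw [← PowerSeries.coeff_map, hres]
    exact hg
  have h1 := Xfer.heightIdeal_eq_of_hom p n hθ hu h
  rw [Xfer.heightIdeal_map, heightIdeal_hazF p n h hh] at h1
  rw [← h1]
  exact Ideal.mem_map_of_mem _ ha

/-- A stabilizer map preserves the maximal ideal. -/
theorem stabilizer_mem_maximalIdeal {g : PowerSeries (kk p n)} {ψ : AA p n →ₐ[WW p n] AA p n}
    (hψ : IsStabilizerMap p n (hazF p n) g ψ) {a : AA p n}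
    (ha : a ∈ IsLocalRing.maximalIdeal (AA p n)) : ψ a ∈ IsLocalRing.maximalIdeal (AA p n) := by
  rw [mem_maximalIdeal_iff_residue] at ha ⊢
  have h1 := congrArg (fun f => f a) hψ.1
  simp only [RingHom.comp_apply] at h1
  rw [← ha]
  exact h1

/-- The coordinates `t'` of `z ∘ ψ`: `z ∘ ψ = ev_{t'}`. -/
theorem evT_stabilizer (ιk : kk p n →+* K) {h : ℕ} (h1 : 1 ≤ h) (hh : h ≤ n) {t : Fin (n - h) → K}
    (ht : ‖t‖ < 1) {g : PowerSeries (kk p n)} {ψ : AA p n →ₐ[WW p n] AA p n}
    (hψ : IsStabilizerMap p n (hazF p n) g ψ) (hg : IsUnit (PowerSeries.coeff 1 g)) :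
    ∃ ht' : ‖tOf ((evTHom p n ιk h t ht).comp (ψ : AA p n →+* AA p n)) h‖ < 1,
      (evTHom p n ιk h t ht).comp (ψ : AA p n →+* AA p n) =
        evTHom p n ιk h (tOf ((evTHom p n ιk h t ht).comp (ψ : AA p n →+* AA p n)) h) ht' := by
  set z := (evTHom p n ιk h t ht).comp (ψ : AA p n →+* AA p n) with hz
  have hzm : ∀ a ∈ IsLocalRing.maximalIdeal (AA p n), ‖z a‖ < 1 := fun a ha =>
    norm_evT_lt_of_mem ιk h ht (stabilizer_mem_maximalIdeal hψ ha)
  refine ⟨norm_tOf_lt z hzm h, RingHom.ext fun a => eq_evT z (fun a => norm_evT_le ιk h ht _) hzm h1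
    ?_ ?_ a⟩
  · intro a ha
    exact evT_of_mem_II ιk h1 ht (stabilizer_mem_II hψ hg hh ha)
  · intro c
    have : (ψ : AA p n →+* AA p n) (C c) = C c := ψ.commutes c
    show _ = evTHom p n ιk h t ht ((ψ : AA p n →+* AA p n) (C c))
    rw [this, evTHom_apply]
    exact (evFun_C (iotaW p n ιk) (tauOf h t) c).symm

end Point

section Orbit

variable {p : ℕ} [Fact p.Prime] {n : ℕ} [NeZero n]
variable {K : Type*} [NormedField K] [IsUltrametricDist K] [CompleteSpace K] [CharP K p]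

omit [Fact p.Prime] [NeZero n] [CharP K p] in
theorem isIntS_pmap {R : Type*} [CommRing R] {ι : R →+* K} (hι : ∀ r, ‖ι r‖ ≤ 1)
    (f : PowerSeries R) : IsIntS (PowerSeries.map ι f) :=
  isIntS_map hι f

omit [Fact p.Prime] [NeZero n] [IsUltrametricDist K] [CompleteSpace K] [CharP K p] in
theorem cc_pmap {R : Type*} [CommRing R] (ι : R →+* K) {f : PowerSeries R}
    (hf : PowerSeries.constantCoeff f = 0) : PowerSeries.constantCoeff (PowerSeries.map ι f) = 0 := by
  rw [← PowerSeries.coeff_zero_eq_constantCoeff_apply, PowerSeries.coeff_map,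
    PowerSeries.coeff_zero_eq_constantCoeff_apply, hf, map_zero]

/-- Elements of `k` are fixed by the `q`-power map. -/
theorem kk_pow_card (hn : n ≠ 0) (a : kk p n) : a ^ p ^ n = a := by
  have hcard : Nat.card (GaloisField p n) = p ^ n := GaloisField.card p n hn
  have : Finite (GaloisField p n) := Nat.finite_of_card_ne_zero (by
    rw [hcard]; exact pow_ne_zero _ (Fact.out : p.Prime).ne_zero)
  let _ := Fintype.ofFinite (GaloisField p n)
  have := FiniteField.pow_card a
  rwa [← Nat.card_eq_fintype_card, hcard] at this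

/-- A series over `k` commutes with the `q`-power map. -/
theorem evalP_frob (ιk : kk p n →+* K) (f : PowerSeries (kk p n)) {y : K} (hy : ‖y‖ < 1) :
    evalP (PowerSeries.map ιk f) y ^ p ^ n = evalP (PowerSeries.map ιk f) (y ^ p ^ n) := by
  have hn : n ≠ 0 := NeZero.ne n
  have hyq : ‖y ^ p ^ n‖ < 1 := by
    rw [norm_pow]
    exact pow_lt_one₀ (norm_nonneg _) hy (pow_ne_zero _ (Fact.out : p.Prime).ne_zero)
  rw [evalP_eq_tsum, evalP_eq_tsum]
  have hc : Continuous (iterateFrobenius K p n) := by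
    have : (iterateFrobenius K p n : K → K) = fun x => x ^ p ^ n := by
      funext x
      exact iterateFrobenius_def p n x
    rw [this]
    exact continuous_pow _
  have hs : Summable (fun m : ℕ => PowerSeries.coeff m (PowerSeries.map ιk f) * y ^ m) := by
    apply summable_coeff_mul_pow _ hy
    intro l
    rw [PowerSeries.coeff_map]
    exact norm_iotaK_le p n ιk _
  have h2 := hs.map_tsum (iterateFrobenius K p n) hc
  rw [iterateFrobenius_def] at h2
  rw [h2]
  refine tsum_congr fun m => ?_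
  rw [iterateFrobenius_def, mul_pow, PowerSeries.coeff_map, ← map_pow, kk_pow_card hn, ← pow_mul,
    ← pow_mul, mul_comm m]

/-- A series over `k` commutes with `q`-th roots. -/
theorem evalP_qroot [PerfectRing K p] (ιk : kk p n →+* K) (f : PowerSeries (kk p n)) {a : K}
    (ha : ‖a‖ < 1) :
    evalP (PowerSeries.map ιk f) (qroot p n a) = qroot p n (evalP (PowerSeries.map ιk f) a) := by
  symm
  apply qroot_eq_of_pow_eq
  rw [evalP_frob ιk f (norm_qroot_lt n ha), qroot_pow]

variable [PerfectRing K p]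

/-- D8: the maps of `OrbitMaps` from the series. `α₀` is an automorphism of `Γ₀`; `θ₀ : H^ψ → H` is
a homomorphism over `A` reducing to `α₀⁻¹`. -/
theorem orbitMaps_of_stabilizer (ιk : kk p n →+* K) {h : ℕ} (h1 : 1 ≤ h) (hh : h < n)
    {t t' : Fin (n - h) → K} (ht : ‖t‖ < 1) (ht' : ‖t'‖ < 1)
    (α₀ : PowerSeries (kk p n)) (hα : IsFGAut (Gamma0 p n) α₀)
    (ψ : AA p n →ₐ[WW p n] AA p n) (θ₀ : PowerSeries (AA p n))
    (hθ : IsFGHom ((hazF p n).map (ψ : AA p n →+* AA p n)) (hazF p n) θ₀)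
    (hres : PowerSeries.map (LTRing.residue p n) θ₀ = compInv α₀ hα.2)
    (hψt : (evTHom p n ιk h t ht).comp (ψ : AA p n →+* AA p n) = evTHom p n ιk h t' ht') :
    OrbitMaps (wFun ιk h) p h n (add0K ιk) t t'
      (evalP (PowerSeries.map (evTHom p n ιk h t ht) θ₀))
      (evalP (PowerSeries.map ιk (compInv α₀ hα.2)))
      (evalP (PowerSeries.map ιk α₀)) := by
  set z := evTHom p n ιk h t ht with hz
  have hzI : ∀ a, ‖z a‖ ≤ 1 := fun a => norm_evT_le ιk h ht a
  have hιI := norm_iotaK_le p n ιk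
  have hθc : PowerSeries.constantCoeff θ₀ = 0 := hθ.1
  have hαc : PowerSeries.constantCoeff α₀ = 0 := hα.1.1
  have hgc : PowerSeries.constantCoeff (compInv α₀ hα.2) = 0 := compInv_cc _ _
  -- the linear coefficient of `θ₀` is a unit
  have hθu : IsUnit (PowerSeries.coeff 1 θ₀) := by
    apply Xfer.isUnit_of_isUnit_residue
    rw [← PowerSeries.coeff_map, hres]
    exact coeff_one_compInv_unit _ _
  -- the homomorphism on the fibres
  have hθK : IsFGHom (HtK ιk h t' ht') (HtK ιk h t ht) (PowerSeries.map z θ₀) := by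
    have h2 := hθ.map z
    rw [Xfer.map_map_FG, hψt] at h2
    exact h2
  have hIθ : IsIntS (PowerSeries.map z θ₀) := isIntS_pmap hzI θ₀
  have hcθ : PowerSeries.constantCoeff (PowerSeries.map z θ₀) = 0 := cc_pmap z hθc
  -- the inverse of `θ` on the ball
  have hIinv : IsIntS (PowerSeries.map z (compInv θ₀ hθu)) := isIntS_pmap hzI _
  have hinv : PowerSeries.subst (PowerSeries.map z θ₀) (PowerSeries.map z (compInv θ₀ hθu)) =
      PowerSeries.X := by
    have h2 := map_ps_subst z (compInv θ₀ hθu) (ps_hasSubst_of_cc hθc)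
    rw [PowerSeries.subst_substInvOfIsUnit_left θ₀ hθc hθu] at h2
    refine h2.symm.trans ?_
    exact PowerSeries.map_X z
  have hgα : PowerSeries.subst (PowerSeries.map ιk α₀) (PowerSeries.map ιk (compInv α₀ hα.2)) =
      PowerSeries.X := by
    have h2 := map_ps_subst ιk (compInv α₀ hα.2) (ps_hasSubst_of_cc hαc)
    rw [PowerSeries.subst_substInvOfIsUnit_left α₀ hαc hα.2] at h2
    refine h2.symm.trans ?_
    exact PowerSeries.map_X ιk
  refine
    { θ_mem := fun a ha => norm_evalP_lt hcθ hIθ ha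
      θ_lip := fun a b ha hb => evalP_sub_le hIθ ha hb
      θ_comm := fun a ha => ?_
      θ_inj := fun a b ha hb hab => ?_
      θ_zero := ?_
      g_mem := fun a ha => norm_evalP_lt (cc_pmap ιk hgc) (isIntS_pmap hιI _) ha
      g_root := fun a ha => evalP_qroot ιk _ ha
      close := ⟨‖t‖, ht, fun a ha => ?_⟩
      α_mem := fun a ha => norm_evalP_lt (cc_pmap ιk hαc) (isIntS_pmap hιI _) ha
      α_root := fun a ha => evalP_qroot ιk _ ha
      α_add := fun a b ha hb => ?_
      α_zero := ?_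
      g_α := fun a ha => ?_ }
  · -- θ_comm
    rw [pMap_eq_evalP ιk h1 hh ht', pMap_eq_evalP ιk h1 hh ht,
      ← evalP_comp (constantCoeff_mulSeries _ p) (isIntS_mulSeriesHt ιk ht' p) hIθ ha,
      ← evalP_comp hcθ hIθ (isIntS_mulSeriesHt ιk ht p) ha, hθK.subst_mulSeries p]
  · -- θ_inj
    have hl : ∀ c : K, ‖c‖ < 1 → evalP (PowerSeries.map z (compInv θ₀ hθu))
        (evalP (PowerSeries.map z θ₀) c) = c := fun c hc => by
      rw [← evalP_comp hcθ hIθ hIinv hc, hinv, evalP_X]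
    rw [← hl a ha, ← hl b hb, hab]
  · -- θ_zero
    have := norm_evalP_le hcθ hIθ (a := 0) (by simp)
    simpa using this
  · -- close
    refine eval_sub_eval_coeff_le hIθ (isIntS_pmap hιI _) (by rw [norm_singleton_eq]; exact ha)
      (norm_nonneg _) (fun e => ?_)
    rw [← hres]
    show ‖MvPowerSeries.coeff e (MvPowerSeries.map z θ₀) -
      MvPowerSeries.coeff e (MvPowerSeries.map ιk (MvPowerSeries.map (LTRing.residue p n) θ₀))‖ ≤ ‖t‖
    rw [coeff_map, coeff_map, coeff_map]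
    exact evT_sub_residue_le ιk h ht _
  · -- α_add
    exact evalP_hom (isIntS_G0K ιk) (isIntS_G0K ιk) (isIntS_pmap hιI _) (hα.1.map ιk) ha hb
  · -- α_zero
    have := norm_evalP_le (cc_pmap ιk hαc) (isIntS_pmap hιI α₀) (a := 0) (by simp)
    simpa using this
  · -- g_α
    rw [← evalP_comp (cc_pmap ιk hαc) (isIntS_pmap hιI _) (isIntS_pmap hιI _) ha, hgα, evalP_X]

/-- D8 (concrete): `D(α b) = t'`, `t'` the coordinates of `z ∘ ψ`. -/
theorem Dmap_stabilizer (ιk : kk p n →+* K) {h : ℕ} (h1 : 1 ≤ h) (hh : h < n)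
    (hq : WQuad (wFun ιk h) p) {t : Fin (n - h) → K} (ht : ‖t‖ < 1)
    {b : Fin (n - h) → K} (hb : ∀ i, ‖b i‖ < 1)
    (hq0 : ∀ i, qmap (wFun ιk h) p h n t (b i) = 0)
    (hinj : Function.Injective
      (fun v : Fin (n - h) → Fin p => qmap (wFun ιk h) p h n t (xiV (add0K ιk) p n v b)))
    (α₀ : PowerSeries (kk p n)) (hα : IsFGAut (Gamma0 p n) α₀)
    (ψ : AA p n →ₐ[WW p n] AA p n)
    (hψ : IsStabilizerMap p n (hazF p n) (compInv α₀ hα.2) ψ) :
    Dmap p h n (wFun ιk h) (add0K ιk) (fun i => evalP (PowerSeries.map ιk α₀) (b i)) =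
      tOf ((evTHom p n ιk h t ht).comp (ψ : AA p n →+* AA p n)) h := by
  obtain ⟨ht', hψt⟩ := evT_stabilizer ιk h1 hh.le ht hψ (coeff_one_compInv_unit _ _)
  obtain ⟨-, θ₀, hθ, hres⟩ := hψ
  have hO := orbitMaps_of_stabilizer ιk h1 hh ht ht' α₀ hα ψ θ₀ hθ hres hψt
  have hL := lawFamily ιk h1 hh
  have hw := wFamily ιk h1 hh
  have hH00 : ∀ t : Fin (n - h) → K, ‖t‖ < 1 → addHt ιk h t 0 0 = 0 := by
    intro t ht
    rw [addHt_eq ιk h t ht]
    exact gAdd_zero (isIntS_HtK ιk ht) (by simp)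
  exact Dmap_orbit hO hL hw hq rfl h1 hh.le hH00 ht ht' hb hq0 hinj

end Orbit

section Final

variable {p : ℕ} [Fact p.Prime] {n : ℕ} [NeZero n]
variable {K : Type*} [NormedField K] [IsUltrametricDist K] [CompleteSpace K] [CharP K p]

/-- The coordinates: `ev_t (t_{h+j}) = t_j`. -/
theorem evT_vv (ιk : kk p n →+* K) {h : ℕ} (h1 : 1 ≤ h) (t : Fin (n - h) → K) (j : Fin (n - h)) :
    evT p n ιk h t (vv p n (h + j)) = t j := by
  have hj := j.isLt
  have hb : h + j.val - 1 < n - 1 := by omega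
  have e : vv p n (h + j) = tt p n ⟨h + j.val - 1, hb⟩ := by
    rw [vv, if_neg (by omega), dif_pos hb]
  rw [e, evT_tt]
  unfold tauOf
  have h2 : h ≤ (⟨h + j.val - 1, hb⟩ : Fin (n - 1)).val + 1 := by
    show h ≤ h + j.val - 1 + 1
    omega
  rw [dif_pos h2]
  congr 1
  ext
  show h + j.val - 1 + 1 - h = j.val
  omega

/-- The quadratic estimate `w_{p^j}(t) = t_j + O(t²)`. -/
theorem wQuad (ιk : kk p n →+* K) {h : ℕ} (h1 : 1 ≤ h) (hh : h < n) : WQuad (wFun ιk h) p where
  quad j t t' ht ht' := by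
    have hmem := wwCoeff_pow_sub_mem p n h j h1 hh j.isLt
    have h2 := evT_sub_of_mem_sq ιk h1 ht ht' hmem
    have hsub := (evTHom p n ιk h t ht).map_sub (wwCoeff p n h (p ^ (j : ℕ))) (vv p n (h + j))
    have hsub' := (evTHom p n ιk h t' ht').map_sub (wwCoeff p n h (p ^ (j : ℕ))) (vv p n (h + j))
    simp only [evTHom_apply] at hsub hsub'
    rw [hsub, hsub', evT_vv ιk h1, evT_vv ιk h1] at h2
    have e : (t j - wFun ιk h (p ^ (j : ℕ)) t) - (t' j - wFun ιk h (p ^ (j : ℕ)) t') =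
        -((wFun ιk h (p ^ (j : ℕ)) t - t j) - (wFun ιk h (p ^ (j : ℕ)) t' - t' j)) := by ring
    rw [e, norm_neg]
    exact h2

/-- `w_1(t) = t_0`. -/
theorem wFun_one (ιk : kk p n →+* K) {h : ℕ} (h1 : 1 ≤ h) (hh : h < n) {t : Fin (n - h) → K}
    (ht : ‖t‖ < 1) : wFun ιk h 1 t = t ⟨0, by omega⟩ := by
  have hmem := (hazF_isHazLaw p n).coeff_pow_sub_tt_mem h h1 hh
  have h2 := evT_of_mem_II ιk h1 ht hmem
  have hsub := (evTHom p n ιk h t ht).map_sub (PowerSeries.coeff (p ^ h) (mulSeries (hazF p n) p))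
    (tt p n ⟨h - 1, by omega⟩)
  simp only [evTHom_apply] at hsub
  rw [hsub, sub_eq_zero] at h2
  have h3 := evT_vv ιk h1 t ⟨0, by omega⟩
  have e : vv p n (h + (⟨0, by omega⟩ : Fin (n - h))) = tt p n ⟨h - 1, by omega⟩ := by
    show vv p n (h + 0) = _
    rw [add_zero, vv, if_neg (by omega), dif_pos (by omega)]
  rw [e] at h3
  unfold wFun wwCoeff
  rw [one_mul, h2, h3]

/-- The lattice of a point (D6), in the concrete setting. -/
theorem exists_lattice_point {K : Type*} [NontriviallyNormedField K] [IsUltrametricDist K]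
    [CompleteSpace K] [IsAlgClosed K] [CharP K p] [PerfectRing K p] (ιk : kk p n →+* K) {h : ℕ}
    (h1 : 1 ≤ h) (hh : h < n) {t : Fin (n - h) → K} (ht : ‖t‖ < 1)
    (ht0 : t ⟨0, by omega⟩ ≠ 0) :
    ∃ b : Fin (n - h) → K, (∀ i, ‖b i‖ < 1) ∧ (∀ i, b i ≠ 0) ∧
      (∀ i, qmap (wFun ιk h) p h n t (b i) = 0) ∧
      (∀ (m : Fin (n - h) → ℕ) (i : Fin (n - h)), ‖lawNsmul (add0K ιk) (m i) (b i)‖ ≤
        ‖lawSum (add0K ιk) (fun j => lawNsmul (add0K ιk) (m j) (b j))‖) ∧
      Function.Injective (fun v : Fin (n - h) → Fin p =>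
        qmap (wFun ιk h) p h n t (xiV (add0K ιk) p n v b)) := by
  obtain ⟨b, hb, hb0, hq, horth, -, hinj, -⟩ := exists_lattice (wFamily ιk h1 hh)
    (lawFamily ιk h1 hh) h1 hh rfl ht (by rw [wFun_one ιk h1 hh ht]; exact ht0)
    (ballLaw_add0K ιk) (ballLaw_addHt ιk ht) (fun A hA => lawNsmul_add0K_p ιk hA)
    (fun A hA => lawNsmul_addHt_p ιk h1 hh ht hA)
  exact ⟨b, hb, hb0, hq, horth, fun v v' hvv => hinj v v' hvv⟩

/-- The inverse of a series `≡ X mod X^M` is `≡ X mod X^M`. -/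
theorem coeff_compInv_low {R : Type*} [CommRing R] {α : PowerSeries R}
    (h0 : PowerSeries.constantCoeff α = 0) (hu : IsUnit (PowerSeries.coeff 1 α)) {M : ℕ}
    (hM : ∀ i, i < M → PowerSeries.coeff i α = PowerSeries.coeff i (PowerSeries.X : PowerSeries R)) :
    ∀ i, i < M → PowerSeries.coeff i (compInv α hu) =
      PowerSeries.coeff i (PowerSeries.X : PowerSeries R) := by
  set g := compInv α hu with hg
  have hg0 : PowerSeries.constantCoeff g = 0 := compInv_cc α hu
  have hgs : PowerSeries.HasSubst g := ps_hasSubst_of_cc hg0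
  obtain ⟨r', hr'⟩ : (PowerSeries.X : PowerSeries R) ^ M ∣ α - PowerSeries.X := by
    rw [PowerSeries.X_pow_dvd_iff]
    intro i hi
    rw [map_sub, hM i hi, sub_self]
  have hα : α = PowerSeries.X + PowerSeries.X ^ M * r' := by
    rw [← hr']
    ring
  have hr := PowerSeries.subst_substInvOfIsUnit_right α h0 hu
  have h1 : PowerSeries.subst g α = g + g ^ M * PowerSeries.subst g r' := by
    rw [hα, PowerSeries.subst_add hgs, PowerSeries.subst_mul hgs, PowerSeries.subst_pow hgs,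
      PowerSeries.subst_X hgs]
  have h2 : g - PowerSeries.X = -(g ^ M * PowerSeries.subst g r') := by
    have h3 : g + g ^ M * PowerSeries.subst g r' = PowerSeries.X := h1.symm.trans hr
    rw [← h3]
    ring
  have hXg : (PowerSeries.X : PowerSeries R) ∣ g := by
    rw [PowerSeries.X_dvd_iff]
    exact hg0
  have hdvd : (PowerSeries.X : PowerSeries R) ^ M ∣ g - PowerSeries.X := by
    rw [h2, dvd_neg]
    exact Dvd.dvd.mul_right (pow_dvd_pow_of_dvd hXg M) _
  rw [PowerSeries.X_pow_dvd_iff] at hdvd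
  intro i hi
  have := hdvd i hi
  rwa [map_sub, sub_eq_zero] at this

variable [PerfectRing K p]

/-- **Blueprint D8, D9, vanishing on the orbit.** `f ∈ J`, `J` core-stable, `J` killed by `ev_t`,
`b` a lattice of `t`; then `f` vanishes at `D(α b)` for every automorphism `α ≡ X mod X^M`. -/
theorem orbit_vanish (ιk : kk p n →+* K) {h : ℕ} (h1 : 1 ≤ h) (hh : h < n) {M : ℕ}
    {J : Ideal (AA p n)} (hs : CoreStable p n M J) {t : Fin (n - h) → K} (ht : ‖t‖ < 1)
    (hzJ : ∀ a ∈ J, evT p n ιk h t a = 0)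
    {b : Fin (n - h) → K} (hb : ∀ i, ‖b i‖ < 1)
    (hq0 : ∀ i, qmap (wFun ιk h) p h n t (b i) = 0)
    (hinj : Function.Injective
      (fun v : Fin (n - h) → Fin p => qmap (wFun ιk h) p h n t (xiV (add0K ιk) p n v b)))
    (α₀ : PowerSeries (kk p n)) (hα : IsFGAut (Gamma0 p n) α₀)
    (hαM : ∀ i, i < M → PowerSeries.coeff i α₀ = PowerSeries.coeff i PowerSeries.X)
    {f : AA p n} (hf : f ∈ J) :
    evT p n ιk h (Dmap p h n (wFun ιk h) (add0K ιk)
      (fun i => evalP (PowerSeries.map ιk α₀) (b i))) f = 0 := by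
  have hg : IsFGAut (Gamma0 p n) (compInv α₀ hα.2) :=
    ⟨hα.1.compInv hα.2, coeff_one_compInv_unit _ _⟩
  obtain ⟨ψ, hψ, hJ⟩ := hs _ hg (coeff_compInv_low hα.1.1 hα.2 hαM)
  rw [Dmap_stabilizer ιk h1 hh (wQuad ιk h1 hh) ht hb hq0 hinj α₀ hα ψ hψ]
  obtain ⟨ht', hψt⟩ := evT_stabilizer ιk h1 hh.le ht hψ hg.2
  have h2 := congrArg (fun φ : AA p n →+* K => φ f) hψt
  simp only [evTHom_apply, RingHom.comp_apply] at h2
  rw [← h2]
  apply hzJ
  have : f ∈ Ideal.comap ψ.toRingHom J := by rw [hJ]; exact hf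
  exact this

/-- `f ∉ I_h` has a nonzero value at a point with all coordinates nonzero. -/
theorem exists_evT_ne {K : Type*} [NontriviallyNormedField K] [IsUltrametricDist K]
    [CompleteSpace K] (ιk : kk p n →+* K) {h : ℕ} (h1 : 1 ≤ h) (hh : h < n) {f : AA p n}
    (hf : f ∉ II p n h) :
    ∃ t : Fin (n - h) → K, ‖t‖ < 1 ∧ (∀ j, t j ≠ 0) ∧ evT p n ιk h t f ≠ 0 := by
  classical
  have hk : Finite (kk p n) := Nat.finite_of_card_ne_zero (by
    rw [GaloisField.card p n (NeZero.ne n)]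
    exact pow_ne_zero _ (Fact.out : p.Prime).ne_zero)
  set g := killMap (WittVector.constantCoeff : WW p n →+* kk p n) (smallVars n h) f with hg
  have hg0 : g ≠ 0 := by
    intro h0
    apply hf
    rw [II_eq_ker p n h h1]
    exact h0
  obtain ⟨x, hx, hne⟩ := exists_point_tsum_ne_zero ιk g hg0
  have hidx : ∀ j : Fin (n - h), h + j.val - 1 < n - 1 := fun j => by have := j.isLt; omega
  set t : Fin (n - h) → K := fun j => x ⟨h + j.val - 1, hidx j⟩ with ht
  have htn : ‖t‖ < 1 := by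
    rw [pi_norm_lt_iff one_pos]
    exact fun j => (hx _).2
  refine ⟨t, htn, fun j => (hx _).1, ?_⟩
  have hτ : ∀ i : Fin (n - 1), h ≤ i.val + 1 → tauOf h t i = x i := by
    intro i hi
    unfold tauOf
    rw [dif_pos hi]
    show x _ = x i
    congr 1
    ext
    show h + (i.val + 1 - h) - 1 = i.val
    omega
  have hτ0 : ∀ i : Fin (n - 1), ¬ h ≤ i.val + 1 → tauOf h t i = 0 := by
    intro i hi
    unfold tauOf
    rw [dif_neg hi]
  have e : evT p n ιk h t f = ∑' e : Fin (n - 1) →₀ ℕ, ιk (MvPowerSeries.coeff e g) * ∏ i, x i ^ e i := by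
    unfold evT evFun
    rw [eval_def]
    refine tsum_congr fun e => ?_
    rw [coeff_map, hg, coeff_killMap]
    by_cases hs : ∀ i ∈ smallVars n h, e i = 0
    · rw [if_pos hs]
      congr 1
      rw [monoB, Finsupp.prod_fintype _ _ (fun i => pow_zero _)]
      refine Finset.prod_congr rfl fun i _ => ?_
      by_cases hi : h ≤ i.val + 1
      · rw [hτ i hi]
      · rw [hs i (by show i.val + 1 < h; omega)]
        simp
    · rw [if_neg hs, map_zero, zero_mul]
      push Not at hs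
      obtain ⟨i, hi, hei⟩ := hs
      have hi' : ¬ h ≤ i.val + 1 := by
        have : i.val + 1 < h := hi
        omega
      have : monoB (tauOf h t) e = 0 := by
        rw [monoB, Finsupp.prod_fintype _ _ (fun i => pow_zero _)]
        refine Finset.prod_eq_zero (Finset.mem_univ i) ?_
        rw [hτ0 i hi', zero_pow hei]
      rw [this, mul_zero]
  rw [e]
  exact hne

/-- **Blueprint D9, conclusion.** If `f ∘ D` vanishes on the whole polydisc, then `f ∈ I_h`. -/
theorem mem_II_of_forall_Dmap {K : Type*} [NontriviallyNormedField K] [IsUltrametricDist K]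
    [CompleteSpace K] [IsAlgClosed K] [CharP K p] [PerfectRing K p] (ιk : kk p n →+* K) {h : ℕ}
    (h1 : 1 ≤ h) (hh : h < n) {f : AA p n}
    (hD : ∀ x : Fin (n - h) → K, (∀ i, ‖x i‖ < 1) →
      evT p n ιk h (Dmap p h n (wFun ιk h) (add0K ιk) x) f = 0) : f ∈ II p n h := by
  by_contra hf
  obtain ⟨t, ht, ht0, hne⟩ := exists_evT_ne ιk h1 hh hf
  obtain ⟨b, hb, -, hq, -, hinj⟩ := exists_lattice_point ιk h1 hh ht (ht0 _)
  have hH00 : ∀ t : Fin (n - h) → K, ‖t‖ < 1 → addHt ιk h t 0 0 = 0 := by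
    intro t ht
    rw [addHt_eq ιk h t ht]
    exact gAdd_zero (isIntS_HtK ιk ht) (by simp)
  have hDb := Dmap_eq_of_lattice (lawFamily ιk h1 hh) (wFamily ιk h1 hh) (wQuad ιk h1 hh) rfl h1 hh.le
    hH00 ht hb hq hinj
  apply hne
  rw [← hDb]
  exact hD b hb

end Final

end

end Crest.Agent.LT
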