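/-
S0351 (row 227), module E-d-Main: BLUEPRINT E10, E11.
-/
import Crest.Agent.Lib.LubinTate.ChainMain
import Crest.Agent.Lib.LubinTate.ChainBridge
import Crest.Agent.Lib.LubinTate.ChainDigits
import Crest.Agent.Lib.LubinTate.LatEval
import Crest.Agent.Lib.LubinTate.LatBall
import Crest.Agent.Lib.LubinTate.LatApx
import Crest.Agent.Lib.LubinTate.LatOrbitConcrete

set_option autoImplicit false
set_option linter.unusedSectionVars false

namespace Crest.Agent.LT

open MvPowerSeries Geom Crest.LubinTate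

namespace Chain


section Scale

open Dickson

variable {p N : ℕ} [hp : Fact p.Prime] {K : Type*} [NormedField K] [IsUltrametricDist K] [CharP K p]
  {θ : ℝ} {ζ ζ' : Fin N → K} {ρ : Fin N → ℝ}

omit [IsUltrametricDist K] in
lemma cast_pow_pow (a : ZMod p) (m : ℕ) : (ZMod.cast a : K) ^ p ^ m = ZMod.cast a := by
  have h1 : (ZMod.castHom (dvd_refl p) K a) = (ZMod.cast a : K) := rfl
  have h2 : (ZMod.cast a : K) ^ p = ZMod.cast a := by
    rw [← h1, ← map_pow, ZMod.pow_card]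
  induction m with
  | zero => simp
  | succ m ih =>
    rw [pow_succ', pow_mul, h2, ih]

lemma norm_eq_of_pow_eq {x y : ℝ} (hx : 0 ≤ x) (hy : 0 ≤ y) {m : ℕ} (hm : m ≠ 0) (h : x ^ m = y ^ m) :
    x = y := (pow_left_inj₀ hx hy hm).mp h

/-- Rescaling a good tuple by powers of the Frobenius (in both directions). -/
theorem goodTuple_rescale (hG : GoodTuple p θ ζ ρ) (m M : ℕ) (h : ∀ i, ζ' i ^ p ^ m = ζ i ^ p ^ M) :
    GoodTuple p θ ζ' (fun i => (p : ℝ) ^ M * ρ i / (p : ℝ) ^ m) := by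
  have hp1 : (1 : ℝ) < p := by exact_mod_cast hp.out.one_lt
  have hp0 : (0 : ℝ) < p := by linarith
  have hpn : p ^ m ≠ 0 := pow_ne_zero _ hp.out.ne_zero
  have hpm : (0 : ℝ) < (p : ℝ) ^ m := pow_pos hp0 m
  have hpM : (0 : ℝ) < (p : ℝ) ^ M := pow_pos hp0 M
  have hnorm : ∀ i, ‖ζ' i‖ ^ p ^ m = ‖ζ i‖ ^ p ^ M := fun i => by
    rw [← norm_pow, h i, norm_pow]
  refine ⟨fun i => ?_, fun i => div_pos (mul_pos hpM (hG.rho_pos i)) hpm, fun i j hij => ?_, ?_, ?_⟩
  · refine norm_eq_of_pow_eq (norm_nonneg _) (Real.exp_pos _).le hpn ?_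
    rw [hnorm i, hG.norm_eq i, ← Real.exp_nat_mul, ← Real.exp_nat_mul]
    congr 1
    push_cast
    field_simp
  · exact div_le_div_of_nonneg_right (mul_le_mul_of_nonneg_left (hG.anti hij) hpM.le) hpm.le
  · intro a i hai ha
    refine norm_eq_of_pow_eq (norm_nonneg _) (norm_nonneg _) hpn ?_
    rw [← norm_pow, hnorm i, ← hG.orth a i hai ha, ← norm_pow]
    congr 1
    rw [sum_pow_char_pow, sum_pow_char_pow]
    refine Finset.sum_congr rfl fun j _ => ?_
    rw [mul_pow, mul_pow, cast_pow_pow, cast_pow_pow, h j]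
  · intro r hr hr'
    have h1 := hG.reg r hr hr'
    have hc : (0 : ℝ) < (p : ℝ) ^ M / (p : ℝ) ^ m := div_pos hpM hpm
    have e1 : Dickson.AA p (fun i => (p : ℝ) ^ M * ρ i / (p : ℝ) ^ m) = ((p : ℝ) ^ M / (p : ℝ) ^ m) * Dickson.AA p ρ := by
      unfold Dickson.AA
      rw [Finset.mul_sum]
      refine Finset.sum_congr rfl fun i _ => ?_
      field_simp
    have e2 : Dickson.tt p (fun i => (p : ℝ) ^ M * ρ i / (p : ℝ) ^ m) r = ((p : ℝ) ^ M / (p : ℝ) ^ m) * Dickson.tt p ρ r := by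
      unfold Dickson.tt
      rw [Finset.mul_sum]
      refine Finset.sum_congr rfl fun i _ => ?_
      split_ifs
      · field_simp
      · simp
    rw [e1, e2, mul_assoc]
    exact mul_le_mul_of_nonneg_left h1 hc.le

end Scale

section BallFrob

variable {p n N : ℕ} [hp : Fact p.Prime] [hn : NeZero n] {K : Type*} [NontriviallyNormedField K]
  [IsUltrametricDist K] [CompleteSpace K] [CharP K p] [PerfectRing K p] (ι : kk p n →+* K)

/-- The `p^m` Frobenius on the ball commutes with the law `Γ₀`. -/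
theorem gAdd_G0K_pow (m : ℕ) {a b : K} (ha : ‖a‖ < 1) (hb : ‖b‖ < 1) :
    gAdd (G0K ι) a b ^ p ^ m = gAdd (G0K ι) (a ^ p ^ m) (b ^ p ^ m) := by
  unfold gAdd
  have hI := isIntS_G0K ι
  have hx := norm_pair_lt ha hb
  rw [eval_def, eval_def]
  have hc : Continuous (iterateFrobenius K p m) := by
    have : (iterateFrobenius K p m : K → K) = fun x => x ^ p ^ m := by
      funext x
      exact iterateFrobenius_def p m x
    rw [this]
    exact continuous_pow _
  have h2 := (eval_summable hI hx).map_tsum (iterateFrobenius K p m) hc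
  rw [iterateFrobenius_def] at h2
  rw [h2]
  refine tsum_congr fun e => ?_
  rw [iterateFrobenius_def, mul_pow]
  congr 1
  · show (coeff e (MvPowerSeries.map ι (Gamma0 p n).toPowerSeries)) ^ p ^ m =
      coeff e (MvPowerSeries.map ι (Gamma0 p n).toPowerSeries)
    rw [coeff_map, ← map_pow]
    congr 1
    exact pow_pow_of_pow_eq (Gamma0_coeff_frob p n e) m
  · have h3 := map_monoB (powMonoidHom (α := K) (p ^ m)) ![a, b] e
    simp only [powMonoidHom_apply] at h3
    rw [h3]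
    congr 1
    funext i
    fin_cases i <;> rfl

/-- Roots commute with the law `Γ₀`. -/
theorem gAdd_G0K_pRt (m : ℕ) {a b : K} (ha : ‖a‖ < 1) (hb : ‖b‖ < 1) :
    gAdd (G0K ι) (pRt p m a) (pRt p m b) = pRt p m (gAdd (G0K ι) a b) := by
  have h := gAdd_G0K_pow ι m (norm_pRt_lt_one m ha) (norm_pRt_lt_one m hb)
  rw [pRt_pow, pRt_pow] at h
  rw [← h, pRt_pow_eq]

/-- Values of the digit series. -/
theorem evalP_map_mono (a : kk p n) (m : ℕ) (x : K) :
    evalP (PowerSeries.map ι (PowerSeries.C a * PowerSeries.X ^ m)) x = ι a * x ^ m := by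
  rw [evalP_eq_tsum, tsum_eq_single m]
  · simp [PowerSeries.coeff_C_mul, PowerSeries.coeff_X_pow]
  · intro b hb
    simp [PowerSeries.coeff_C_mul, PowerSeries.coeff_X_pow, hb]

theorem isIntS_map_series (f : PowerSeries (kk p n)) : IsIntS (PowerSeries.map ι f) :=
  isIntS_map (norm_iotaK_le p n ι) f

theorem evalP_digit_succ (a : ℕ → kk p n) (e : ℕ → ℕ) (l : ℕ) {x : K} (hx : ‖x‖ < 1) :
    evalP (PowerSeries.map ι (digitSeries p n a e (l + 1))) x
      = gAdd (G0K ι) (evalP (PowerSeries.map ι (digitSeries p n a e l)) x)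
          (ι (a l) * x ^ p ^ e l) := by
  have hf : PowerSeries.HasSubst (digitSeries p n a e l) :=
    PowerSeries.HasSubst.of_constantCoeff_zero (isFGHom_digitSeries p n a e l).1
  have hgc := (isFGHom_Gamma0_mono p n (a l) (e l)).1
  have hg : PowerSeries.HasSubst (PowerSeries.C (a l) * PowerSeries.X ^ p ^ e l :
      PowerSeries (kk p n)) := PowerSeries.HasSubst.of_constantCoeff_zero hgc
  have hm := Crest.Agent.LubinTate.map_fgAdd (Gamma0 p n) ι hf hg
  rw [digitSeries_succ]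
  have hcc : ∀ f : PowerSeries (kk p n), PowerSeries.constantCoeff f = 0 →
      MvPowerSeries.constantCoeff (PowerSeries.map ι f) = 0 := by
    intro f hf
    have h2 : PowerSeries.coeff 0 (PowerSeries.map ι f) = 0 := by
      rw [PowerSeries.coeff_map, PowerSeries.coeff_zero_eq_constantCoeff_apply, hf, map_zero]
    rwa [PowerSeries.coeff_zero_eq_constantCoeff_apply] at h2
  have hf0 : MvPowerSeries.constantCoeff (PowerSeries.map ι (digitSeries p n a e l)) = 0 :=
    hcc _ (isFGHom_digitSeries p n a e l).1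
  have hg0 : MvPowerSeries.constantCoeff (PowerSeries.map ι (PowerSeries.C (a l) * PowerSeries.X ^ p ^ e l)) = 0 :=
    hcc _ hgc
  have key : evalP (MvPowerSeries.map ι (Crest.Agent.LubinTate.fgAdd (Gamma0 p n) (digitSeries p n a e l)
      (PowerSeries.C (a l) * PowerSeries.X ^ p ^ e l))) x
      = gAdd (G0K ι) (evalP (PowerSeries.map ι (digitSeries p n a e l)) x)
        (evalP (PowerSeries.map ι (PowerSeries.C (a l) * PowerSeries.X ^ p ^ e l)) x) := by
    rw [hm]
    unfold evalP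
    refine eval_fgSubst (G := G0K ι) (isIntS_G0K ι)
      (s := ![PowerSeries.map ι (digitSeries p n a e l),
        PowerSeries.map ι (PowerSeries.C (a l) * PowerSeries.X ^ p ^ e l)]) ?_ ?_
      (by rw [norm_singleton_eq]; exact hx)
    · intro s; fin_cases s <;> assumption
    · intro s; fin_cases s <;> exact isIntS_map_series ι _
  have := key
  rw [evalP_map_mono] at this
  exact this

end BallFrob

section Shift

variable {p n N : ℕ} [hp : Fact p.Prime] [hn : NeZero n] {K : Type*} [NontriviallyNormedField K]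
  [IsUltrametricDist K] [CompleteSpace K] [CharP K p]

/-- The analytic substitution of integral series is integral. -/
theorem isIntS_comp {σ τ : Type*} {T : MvPowerSeries σ K} (hT : IsIntS T) {s : σ → MvPowerSeries τ K}
    (hs : ∀ i, IsIntS (s i)) : IsIntS (comp T s) := by
  intro e'
  rw [coeff_comp]
  refine IsUltrametricDist.norm_tsum_le_of_forall_le_of_nonneg zero_le_one fun d => ?_
  rw [norm_mul]
  exact mul_le_one₀ (hT d) (norm_nonneg _) (IsIntS.monoB hs d e')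

/-- The series `Γ(u, X_i)`. -/
noncomputable def gamS (G : FormalGroup K) (u : K) (i : Fin N) : MvPowerSeries (Fin N) K :=
  comp G.toPowerSeries ![MvPowerSeries.C u, MvPowerSeries.X i]

lemma isIntS_C {u : K} (hu : ‖u‖ ≤ 1) : IsIntS (MvPowerSeries.C u : MvPowerSeries (Fin N) K) := by
  classical
  intro e
  rw [coeff_C]
  split_ifs
  · exact hu
  · simp

theorem isIntS_gamS {G : FormalGroup K} (hG : IsIntS G.toPowerSeries) {u : K} (hu : ‖u‖ ≤ 1) (i : Fin N) :
    IsIntS (gamS G u i) := by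
  refine isIntS_comp hG fun s => ?_
  fin_cases s
  · exact isIntS_C hu
  · exact IsIntS.X i

/-- The package for `Γ(u, X_i)` on a polydisc of constant radius. -/
theorem isSubst_gamS {G : FormalGroup K} (hG : IsIntS G.toPowerSeries) {ρ : ℝ} (h0 : 0 < ρ) (h1 : ρ < 1)
    {u : Fin N → K} (hu : ∀ i, ‖u i‖ ≤ ρ) :
    IsSubst (fun _ : Fin N => ρ) (fun _ : Fin N => ρ) (fun i => gamS G (u i) i) := by
  have hpos : ∀ _ : Fin N, (0 : ℝ) < ρ := fun _ => h0
  have hS : ∀ i, IsSubst (fun _ : Fin 2 => ρ) (fun _ : Fin N => ρ)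
      (![MvPowerSeries.C (u i), MvPowerSeries.X i] : Fin 2 → MvPowerSeries (Fin N) K) := by
    intro i
    refine ⟨fun s => ?_, fun s => ?_⟩
    · fin_cases s
      · exact isRestricted_C _ _
      · exact isRestricted_X _ _
    · fin_cases s
      · show gn _ (MvPowerSeries.C (u i)) ≤ _
        rw [gn_C]; exact hu i
      · show gn _ (MvPowerSeries.X i) ≤ _
        rw [gn_X (fun _ => h0.le)]
  have hGr : IsRestricted (fun _ : Fin 2 => ρ) G.toPowerSeries := hG.restricted h0 h1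
  refine ⟨fun i => comp_restricted hpos (hS i) hGr, fun i => ?_⟩
  refine (gn_comp_le hpos (hS i) hGr).trans ?_
  refine gn_le h0.le fun e => ?_
  by_cases he : e = 0
  · subst he
    have : coeff (0 : Fin 2 →₀ ℕ) G.toPowerSeries = 0 := by
      rw [coeff_zero_eq_constantCoeff_apply]; exact G.zero_constantCoeff
    rw [this]; simpa using h0.le
  · calc ‖coeff e G.toPowerSeries‖ * rpow (fun _ : Fin 2 => ρ) e ≤ 1 * ρ :=
          mul_le_mul (hG e) (rpow_le_of_ne (fun _ => h0.le) (fun _ => le_rfl) h1.le he)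
            (rpow_nonneg (fun _ => h0.le) e) zero_le_one
      _ = ρ := one_mul ρ

/-- The value of `Γ(u, X_i)`. -/
theorem eval_gamS {G : FormalGroup K} (hG : IsIntS G.toPowerSeries) {u : K} (hu : ‖u‖ < 1) {x : Fin N → K}
    (hx : ‖x‖ < 1) (i : Fin N) : eval x (gamS G u i) = gAdd G u (x i) := by
  have hxi : ‖x i‖ < 1 := (norm_le_pi_norm x i).trans_lt hx
  obtain ⟨ρ, h0, h1, hρ⟩ : ∃ ρ : ℝ, 0 < ρ ∧ ρ < 1 ∧ ‖u‖ ≤ ρ ∧ ∀ j, ‖x j‖ ≤ ρ := by
    refine ⟨max (1 / 2) (max ‖u‖ ‖x‖), by positivity, max_lt (by norm_num) (max_lt hu hx), ?_, fun j => ?_⟩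
    · exact (le_max_left _ _).trans (le_max_right _ _)
    · exact (norm_le_pi_norm x j).trans ((le_max_right _ _).trans (le_max_right _ _))
  have hS : IsSubst (fun _ : Fin 2 => ρ) (fun _ : Fin N => ρ)
      (![MvPowerSeries.C u, MvPowerSeries.X i] : Fin 2 → MvPowerSeries (Fin N) K) := by
    refine ⟨fun s => ?_, fun s => ?_⟩
    · fin_cases s
      · exact isRestricted_C _ _
      · exact isRestricted_X _ _
    · fin_cases s
      · show gn _ (MvPowerSeries.C u) ≤ _
        rw [gn_C]; exact hρ.1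
      · show gn _ (MvPowerSeries.X i) ≤ _
        rw [gn_X (fun _ => h0.le)]
  have hGr : IsRestricted (fun _ : Fin 2 => ρ) G.toPowerSeries := hG.restricted h0 h1
  unfold gamS gAdd
  rw [eval_comp (fun _ => h0) (fun _ => h0) hS hρ.2 hGr]
  congr 1
  funext s
  fin_cases s
  · simp
  · simp

/-- The shift of a series by a vector `u` under the law. -/
noncomputable def shiftV (G : FormalGroup K) (u : Fin N → K) (T : MvPowerSeries (Fin N) K) :
    MvPowerSeries (Fin N) K :=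
  comp T fun i => gamS G (u i) i

theorem isIntS_shiftV {G : FormalGroup K} (hG : IsIntS G.toPowerSeries) {u : Fin N → K}
    (hu : ∀ i, ‖u i‖ ≤ 1) {T : MvPowerSeries (Fin N) K} (hT : IsIntS T) : IsIntS (shiftV G u T) :=
  isIntS_comp hT fun i => isIntS_gamS hG (hu i) i

theorem eval_shiftV (hN : 0 < N) {G : FormalGroup K} (hG : IsIntS G.toPowerSeries) {u : Fin N → K}
    (hu : ∀ i, ‖u i‖ < 1) {T : MvPowerSeries (Fin N) K} (hT : IsIntS T) {x : Fin N → K} (hx : ‖x‖ < 1) :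
    eval x (shiftV G u T) = eval (fun i => gAdd G (u i) (x i)) T := by
  have hxu : ∀ i, ‖x i‖ < 1 := fun i => (norm_le_pi_norm x i).trans_lt hx
  have hne : Nonempty (Fin N) := ⟨⟨0, hN⟩⟩
  obtain ⟨i0, -, hi0⟩ := Finset.exists_max_image Finset.univ (fun i => ‖u i‖)
    ⟨Classical.arbitrary (Fin N), Finset.mem_univ _⟩
  obtain ⟨ρ, h0, h1, hρu, hρx⟩ : ∃ ρ : ℝ, 0 < ρ ∧ ρ < 1 ∧ (∀ i, ‖u i‖ ≤ ρ) ∧ ∀ j, ‖x j‖ ≤ ρ := by
    refine ⟨max (1 / 2) (max ‖u i0‖ ‖x‖), by positivity, max_lt (by norm_num) (max_lt (hu i0) hx),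
      fun i => ?_, fun j => ?_⟩
    · exact (hi0 i (Finset.mem_univ _)).trans ((le_max_left _ _).trans (le_max_right _ _))
    · exact (norm_le_pi_norm x j).trans ((le_max_right _ _).trans (le_max_right _ _))
  have hS := isSubst_gamS hG h0 h1 hρu
  unfold shiftV
  rw [eval_comp (fun _ => h0) (fun _ => h0) hS hρx (hT.restricted h0 h1)]
  congr 1
  funext i
  exact eval_gamS hG (hu i) hx i

omit [CharP K p] in
/-- The value at `0` is the constant coefficient. -/
theorem eval_zero_eq (S : MvPowerSeries (Fin N) K) : eval (0 : Fin N → K) S = coeff 0 S := by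
  classical
  rw [eval_def, tsum_eq_single 0]
  · simp [monoB]
  · intro e he
    obtain ⟨i, hi⟩ := Finsupp.ne_iff.mp he
    have hi' : e i ≠ 0 := by simpa using hi
    have : monoB (0 : Fin N → K) e = 0 := by
      unfold monoB Finsupp.prod
      exact Finset.prod_eq_zero (Finsupp.mem_support_iff.mpr hi') (by simp [hi'])
    rw [this, mul_zero]

variable {ι₀ : Type*}

/-- The polynomial `Q` over `k` as a series over `K`. -/
noncomputable def serQ (ι : kk p n →+* K) (Q : MvPolynomial (Fin N) (kk p n)) : MvPowerSeries (Fin N) K :=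
  MvPowerSeries.map ι (Q : MvPowerSeries (Fin N) (kk p n))

theorem isIntS_serQ (ι : kk p n →+* K) (Q : MvPolynomial (Fin N) (kk p n)) : IsIntS (serQ ι Q) :=
  isIntS_map (norm_iotaK_le p n ι) _

theorem eval_serQ (ι : kk p n →+* K) (Q : MvPolynomial (Fin N) (kk p n)) {x : Fin N → K} (hx : ‖x‖ < 1) :
    eval x (serQ ι Q) = MvPolynomial.eval₂ ι x Q := by
  induction Q using MvPolynomial.induction_on with
  | C a =>
    have : (serQ ι (MvPolynomial.C a) : MvPowerSeries (Fin N) K) = MvPowerSeries.C (ι a) := by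
      unfold serQ
      rw [MvPolynomial.coe_C, MvPowerSeries.map_C]
    rw [this, eval_C, MvPolynomial.eval₂_C]
  | add f g hf hg =>
    have : serQ ι (f + g) = serQ ι f + serQ ι g := by
      unfold serQ
      rw [MvPolynomial.coe_add, map_add]
    rw [this, eval_add_int (isIntS_serQ ι f) (isIntS_serQ ι g) hx, hf, hg, MvPolynomial.eval₂_add]
  | mul_X f i hf =>
    have : serQ ι (f * MvPolynomial.X i) = serQ ι f * MvPowerSeries.X i := by
      unfold serQ
      rw [MvPolynomial.coe_mul, MvPolynomial.coe_X, map_mul, MvPowerSeries.map_X]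
    rw [this, eval_mul_int (isIntS_serQ ι f) (IsIntS.X i) hx, hf, eval_X, MvPolynomial.eval₂_mul,
      MvPolynomial.eval₂_X]

end Shift

section Main

open Dickson

variable {p n N : ℕ} [hp : Fact p.Prime] [hn : NeZero n] {K : Type*} [NontriviallyNormedField K]
  [IsUltrametricDist K] [CompleteSpace K] [CharP K p] [PerfectRing K p] (ι : kk p n →+* K)

lemma shiftBy_eq_shiftV (D : Geom.Data p n N K) (a : kk p n) (j : ℕ) (T : MvPowerSeries (Fin N) K) :
    shiftBy D ι a j T = shiftV (G0K ι) (fun i => ι a * D.d j i) T := rfl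

lemma norm_d_lt (D : Geom.Data p n N K) (j : ℕ) (i : Fin N) : ‖D.d j i‖ < 1 := by
  have hp0 : (0 : ℝ) < p := by exact_mod_cast hp.out.pos
  rw [D.d_norm_le, Real.exp_lt_one_iff]
  have := mul_pos (pow_pos hp0 j) (D.ρ_pos i)
  linarith

lemma norm_digit_lt (D : Geom.Data p n N K) (a : kk p n) (j : ℕ) (i : Fin N) : ‖ι a * D.d j i‖ < 1 := by
  rw [norm_mul]
  calc ‖ι a‖ * ‖D.d j i‖ ≤ 1 * ‖D.d j i‖ :=
        mul_le_mul_of_nonneg_right (norm_iotaK_le p n ι a) (norm_nonneg _)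
    _ = ‖D.d j i‖ := one_mul _
    _ < 1 := norm_d_lt D j i

/-- The left-folded digit sum along the chain. -/
noncomputable def digS (D : Geom.Data p n N K) (c : Fin N → K) (a : ℕ → kk p n) : ℕ → Fin N → K
  | 0, i => c i
  | l + 1, i => gAdd (G0K ι) (digS D c a l i) (ι (a l) * D.d (N + 1 + l) i)

lemma norm_digS_lt (D : Geom.Data p n N K) {c : Fin N → K} (hc : ∀ i, ‖c i‖ < 1) (a : ℕ → kk p n) (l : ℕ)
    (i : Fin N) : ‖digS ι D c a l i‖ < 1 := by
  induction l with
  | zero => exact hc i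
  | succ l ih => exact norm_gAdd_lt (isIntS_G0K ι) ih (norm_digit_lt ι D _ _ i)

lemma isIntS_chainT (D : Geom.Data p n N K) {T : MvPowerSeries (Fin N) K} (hT : IsIntS T)
    (a : ℕ → kk p n) (l : ℕ) : IsIntS (chainT D ι T a l) := by
  induction l with
  | zero => exact hT
  | succ l ih =>
    exact isIntS_shiftV (isIntS_G0K ι) (fun i => (norm_digit_lt ι D _ _ i).le) ih

lemma norm_tuple_lt (hN : 0 < N) {x : Fin N → K} (hx : ∀ i, ‖x i‖ < 1) : ‖x‖ < 1 := by
  exact (pi_norm_lt_iff one_pos).2 hx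

/-- The value of the chain. -/
theorem eval_chainT (hN : 0 < N) (D : Geom.Data p n N K) {c : Fin N → K} (hc : ∀ i, ‖c i‖ < 1)
    (Q : MvPolynomial (Fin N) (kk p n)) (a : ℕ → kk p n) (l : ℕ) :
    ∀ y : Fin N → K, ‖y‖ < 1 →
      eval y (chainT D ι (shiftV (G0K ι) c (serQ ι Q)) a l)
        = MvPolynomial.eval₂ ι (fun i => gAdd (G0K ι) (digS ι D c a l i) (y i)) Q := by
  have hTi : IsIntS (shiftV (G0K ι) c (serQ ι Q)) :=
    isIntS_shiftV (isIntS_G0K ι) (fun i => (hc i).le) (isIntS_serQ ι Q)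
  induction l with
  | zero =>
    intro y hy
    have hyi : ∀ i, ‖y i‖ < 1 := fun i => (norm_le_pi_norm y i).trans_lt hy
    show eval y (shiftV (G0K ι) c (serQ ι Q)) = _
    rw [eval_shiftV hN (isIntS_G0K ι) hc (isIntS_serQ ι Q) hy,
      eval_serQ ι Q (norm_tuple_lt hN fun i => norm_gAdd_lt (isIntS_G0K ι) (hc i) (hyi i))]
    rfl
  | succ l ih =>
    intro y hy
    have hyi : ∀ i, ‖y i‖ < 1 := fun i => (norm_le_pi_norm y i).trans_lt hy
    have hint := isIntS_chainT ι D hTi a l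
    show eval y (shiftBy D ι (a l) (N + 1 + l) (chainT D ι (shiftV (G0K ι) c (serQ ι Q)) a l)) = _
    rw [eval_shiftBy D ι (a l) (by omega) hint hy]
    have hy' : ‖(fun i => gAdd ((Gamma0 p n).map ι) (ι (a l) * D.d (N + 1 + l) i) (y i))‖ < 1 :=
      norm_tuple_lt hN fun i => norm_gAdd_lt (isIntS_G0K ι) (norm_digit_lt ι D _ _ i) (hyi i)
    rw [ih _ hy']
    congr 1
    funext i
    show gAdd (G0K ι) (digS ι D c a l i) (gAdd (G0K ι) (ι (a l) * D.d (N + 1 + l) i) (y i))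
      = gAdd (G0K ι) (gAdd (G0K ι) (digS ι D c a l i) (ι (a l) * D.d (N + 1 + l) i)) (y i)
    rw [gAdd_assoc (isIntS_G0K ι) (norm_digS_lt ι D hc a l i) (norm_digit_lt ι D _ _ i) (hyi i)]

/-- The constant coefficient at the end of the chain. -/
theorem coeff_chainT (hN : 0 < N) (D : Geom.Data p n N K) {c : Fin N → K} (hc : ∀ i, ‖c i‖ < 1)
    (Q : MvPolynomial (Fin N) (kk p n)) (a : ℕ → kk p n) (l : ℕ) :
    coeff 0 (chainT D ι (shiftV (G0K ι) c (serQ ι Q)) a l)
      = MvPolynomial.eval₂ ι (digS ι D c a l) Q := by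
  rw [← eval_zero_eq, eval_chainT ι hN D hc Q a l 0 (by simp)]
  congr 1
  funext i
  exact gAdd_zero (isIntS_G0K ι) (norm_digS_lt ι D hc a l i)

/-- The digit sum at the level of the tuple `ζ`. -/
theorem digS_pow (D : Geom.Data p n N K) {c ζ : Fin N → K} (hc : ∀ i, ‖c i‖ < 1) (hζ : ∀ i, ‖ζ i‖ < 1) {m M : ℕ}
    (hcz : ∀ i, c i ^ p ^ m = ζ i) (hD : ∀ i, D.ζ i ^ p ^ m = ζ i ^ p ^ M) (a : ℕ → kk p n) (l : ℕ)
    (i : Fin N) :
    digS ι D c a l i ^ p ^ m = evalP (PowerSeries.map ι (digitSeries p n (fun l => a l ^ p ^ m)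
      (fun l => M + (N + 1 + l)) l)) (ζ i) := by
  induction l with
  | zero =>
    show c i ^ p ^ m = evalP (PowerSeries.map ι PowerSeries.X) (ζ i)
    rw [PowerSeries.map_X, evalP_X, hcz]
  | succ l ih =>
    show gAdd (G0K ι) (digS ι D c a l i) (ι (a l) * D.d (N + 1 + l) i) ^ p ^ m = _
    rw [gAdd_G0K_pow ι m (norm_digS_lt ι D hc a l i) (norm_digit_lt ι D _ _ i), ih,
      evalP_digit_succ ι _ _ l (hζ i)]
    congr 1
    rw [mul_pow, ← map_pow]
    congr 1
    show (D.ζ i ^ p ^ (N + 1 + l)) ^ p ^ m = ζ i ^ p ^ (M + (N + 1 + l))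
    rw [← pow_mul, mul_comm (p ^ (N + 1 + l)) (p ^ m), pow_mul, hD, ← pow_mul, ← pow_add]

/-- `‖y‖ ≤ exp(-s) ⟹ ‖y^{1/p^m}‖ ≤ exp(-s/p^m)`. -/
lemma norm_pRt_le_exp (m : ℕ) {y : K} {s : ℝ} (h : ‖y‖ ≤ Real.exp (-s)) :
    ‖pRt p m y‖ ≤ Real.exp (-(s / (p : ℝ) ^ m)) := by
  have hp0 : (0 : ℝ) < p := by exact_mod_cast hp.out.pos
  have hpm : (0 : ℝ) < (p : ℝ) ^ m := pow_pos hp0 m
  have hne : p ^ m ≠ 0 := pow_ne_zero _ hp.out.ne_zero
  refine (pow_le_pow_iff_left₀ (norm_nonneg _) (Real.exp_pos _).le hne).1 ?_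
  rw [norm_pRt_pow, ← Real.exp_nat_mul]
  refine h.trans (le_of_eq ?_)
  congr 1
  push_cast
  field_simp

/-- (E10) A function in `Apx` vanishing along all digit automorphisms of a good tuple vanishes. -/
theorem vanish_of_good (hN : 0 < N) (hNn : N < n) {ζ : Fin N → K} {ρ : Fin N → ℝ}
    (hG : GoodTuple p (thetaReal p n N) ζ ρ) {F : (Fin N → K) → K} (hF : IsApx p ι F) (M : ℕ)
    (hvan : ∀ (a : ℕ → kk p n) (e : ℕ → ℕ) (l : ℕ), (∀ l', M ≤ e l') →
      F (fun i => evalP (PowerSeries.map ι (digitSeries p n a e l)) (ζ i)) = 0) :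
    ∀ x, InMK x → F x = 0 := by
  intro xs hxs
  by_contra hne
  have hGI := isIntS_G0K ι
  have hp1 : (1 : ℝ) < p := by exact_mod_cast hp.out.one_lt
  have hp0 : (0 : ℝ) < p := by linarith
  have hζ : ∀ i, ‖ζ i‖ < 1 := fun i => by
    rw [hG.norm_eq, Real.exp_lt_one_iff]
    linarith [hG.rho_pos i]
  have hθ1 : thetaReal p n N < 1 := thetaReal_lt_one hp.out.one_lt hN.ne' hNn
  have h1θ : 0 < 1 - thetaReal p n N := by linarith
  -- the point `x0 = x* -_Γ ζ`
  set x0 : Fin N → K := fun i =>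
    gAdd (G0K ι) (evalP (Crest.Agent.LubinTate.fgNeg (G0K ι)) (ζ i)) (xs i) with hx0def
  have hneg := isIntS_fgNeg_G0K (p := p) (n := n) ι
  have hnegc : ∀ a : K, ‖a‖ < 1 → ‖evalP (Crest.Agent.LubinTate.fgNeg (G0K ι)) a‖ < 1 := fun a ha =>
    norm_evalP_lt (Crest.Agent.LubinTate.constantCoeff_fgNeg _) hneg ha
  have hx0lt : ∀ i, ‖x0 i‖ < 1 := fun i => norm_gAdd_lt hGI (hnegc _ (hζ i)) (hxs i)
  have hx0add : ∀ i, gAdd (G0K ι) (ζ i) (x0 i) = xs i := fun i => by
    rw [hx0def]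
    show gAdd (G0K ι) (ζ i) (gAdd (G0K ι) (evalP (Crest.Agent.LubinTate.fgNeg (G0K ι)) (ζ i)) (xs i)) = xs i
    rw [← gAdd_assoc hGI (hζ i) (hnegc _ (hζ i)) (hxs i), gAdd_neg hGI hneg (hζ i),
      zero_gAdd hGI (hxs i)]
  -- constants, independent of `m`
  have hApos : 0 < Dickson.AA p ρ := by
    unfold Dickson.AA
    exact Finset.sum_pos (fun i _ => mul_pos (pow_pos hp0 _) (hG.rho_pos i)) ⟨⟨0, hN⟩, Finset.mem_univ _⟩
  set R2 : ℝ := (p : ℝ) ^ (N + 1) * ((p : ℝ) ^ M * Dickson.AA p ρ) with hR2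
  have hR2pos : 0 < R2 := mul_pos (pow_pos hp0 _) (mul_pos (pow_pos hp0 _) hApos)
  obtain ⟨r0, hr0, hr0R, hr0x⟩ : ∃ r0 : ℝ, 0 < r0 ∧ r0 ≤ R2 ∧ ∀ i, ‖x0 i‖ ≤ Real.exp (-r0) := by
    have hn1 : ‖x0‖ < 1 := norm_tuple_lt hN hx0lt
    set ρ0 : ℝ := max (1 / 2) ‖x0‖ with hρ0
    have hρ00 : 0 < ρ0 := by positivity
    have hρ01 : ρ0 < 1 := max_lt (by norm_num) hn1
    have hlog : 0 < - Real.log ρ0 := by
      have := Real.log_neg hρ00 hρ01
      linarith
    refine ⟨min (- Real.log ρ0) R2, lt_min hlog hR2pos, min_le_right _ _, fun i => ?_⟩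
    calc ‖x0 i‖ ≤ ‖x0‖ := norm_le_pi_norm x0 i
      _ ≤ ρ0 := le_max_right _ _
      _ = Real.exp (- (- Real.log ρ0)) := by rw [neg_neg, Real.exp_log hρ00]
      _ ≤ _ := Real.exp_le_exp.2 (neg_le_neg (min_le_left _ _))
  have hFnorm : 0 < ‖F xs‖ := norm_pos_iff.mpr hne
  set B : ℝ := (R2 / r0) * (- Real.log ‖F xs‖) with hB
  set B' : ℝ := B / (1 - thetaReal p n N) with hB'
  have hR0 : tupleRad ζ < 1 := tupleRad_lt_one hζ
  -- the order of approximation
  obtain ⟨c, hc, hc1, hc2⟩ : ∃ c : ℝ, 0 < c ∧ tupleRad xs ^ c < ‖F xs‖ ∧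
      tupleRad ζ ^ c < Real.exp (-B') := by
    have t1 := tendsto_rpow_atTop_of_base_lt_one (tupleRad xs)
      (by linarith [tupleRad_nonneg xs]) (tupleRad_lt_one hxs)
    have t2 := tendsto_rpow_atTop_of_base_lt_one (tupleRad ζ)
      (by linarith [tupleRad_nonneg ζ]) hR0
    have e1 := t1.eventually (gt_mem_nhds hFnorm)
    have e2 := t2.eventually (gt_mem_nhds (Real.exp_pos (-B')))
    obtain ⟨c, hc1, hc2, hc⟩ := (e1.and (e2.and (Filter.eventually_gt_atTop 0))).exists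
    exact ⟨c, hc, hc1, hc2⟩
  obtain ⟨m, Q, hQ⟩ := hF.2 c hc
  have hpm : (0 : ℝ) < (p : ℝ) ^ m := pow_pos hp0 m
  -- the scaled tuple and its data
  set ξ : Fin N → K := fun i => pRt p m (ζ i ^ p ^ M) with hξ
  have hξp : ∀ i, ξ i ^ p ^ m = ζ i ^ p ^ M := fun i => pRt_pow m _
  have hG' := goodTuple_rescale hG m M hξp
  set D : Geom.Data p n N K := GoodTuple.toData hG' hN hNn with hD
  have hDθ : D.θ = thetaReal p n N := rfl
  have hDρ : D.ρ = fun i => (p : ℝ) ^ M * ρ i / (p : ℝ) ^ m := rfl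
  have hDAA : Geom.AA p D.ρ = ((p : ℝ) ^ M / (p : ℝ) ^ m) * Dickson.AA p ρ := by
    rw [geom_AA_eq, hDρ]
    unfold Dickson.AA
    rw [Finset.mul_sum]
    refine Finset.sum_congr rfl fun i _ => ?_
    field_simp
  -- the series
  set c' : Fin N → K := fun i => pRt p m (ζ i) with hc'
  have hc'lt : ∀ i, ‖c' i‖ < 1 := fun i => norm_pRt_lt_one m (hζ i)
  have hc'p : ∀ i, c' i ^ p ^ m = ζ i := fun i => pRt_pow m _
  set T : MvPowerSeries (Fin N) K := shiftV (G0K ι) c' (serQ ι Q) with hTdef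
  have hTi : IsIntS T := isIntS_shiftV hGI (fun i => (hc'lt i).le) (isIntS_serQ ι Q)
  set x0' : Fin N → K := fun i => pRt p m (x0 i) with hx0'
  have hx0'lt : ‖x0'‖ < 1 := norm_tuple_lt hN fun i => norm_pRt_lt_one m (hx0lt i)
  have hevalT : eval x0' T = MvPolynomial.eval₂ ι (pRtT p m xs) Q := by
    rw [hTdef, eval_shiftV hN hGI hc'lt (isIntS_serQ ι Q) hx0'lt,
      eval_serQ ι Q (norm_tuple_lt hN fun i => norm_gAdd_lt hGI (hc'lt i)
        ((norm_le_pi_norm x0' i).trans_lt hx0'lt))]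
    congr 1
    funext i
    show gAdd (G0K ι) (pRt p m (ζ i)) (pRt p m (x0 i)) = pRt p m (xs i)
    rw [gAdd_G0K_pRt ι m (hζ i) (hx0lt i), hx0add]
  -- the value at `x0'` is that of `F`
  have hnormT : ‖eval x0' T‖ = ‖F xs‖ := by
    rw [hevalT]
    have h1 := (hQ xs hxs).trans_lt hc1
    have h2 : MvPolynomial.eval₂ ι (pRtT p m xs) Q = F xs + -(F xs - MvPolynomial.eval₂ ι (pRtT p m xs) Q) := by
      ring
    rw [h2, IsUltrametricDist.norm_add_eq_max_of_norm_ne_norm (by rw [norm_neg]; exact h1.ne'), norm_neg,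
      max_eq_left h1.le]
  have hTx0 : eval x0' T ≠ 0 := by
    rw [← norm_pos_iff, hnormT]; exact hFnorm
  have hT0 : T ≠ 0 := by
    rintro h0
    apply hTx0
    rw [h0]
    simp [eval_def]
  -- (E9)
  have hZ : ZZ D (N + 1) T ≤ B := by
    have hrpos : 0 < r0 / (p : ℝ) ^ m := div_pos hr0 hpm
    have hAAeq : (p : ℝ) ^ (N + 1) * Geom.AA p D.ρ = R2 / (p : ℝ) ^ m := by
      rw [hDAA, hR2]
      field_simp
    have h1 := ZZ_le D hTi (Nat.le_succ N) hrpos (by
        rw [hAAeq]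
        exact div_le_div_of_nonneg_right hr0R hpm.le)
      (fun i => norm_pRt_le_exp m (hr0x i)) hTx0
    rw [hnormT, hAAeq] at h1
    refine h1.trans (le_of_eq ?_)
    rw [hB]
    congr 1
    field_simp
  have hP : stageP D (N + 1) T ≠ 0 := stageP_ne_zero D hTi (Nat.le_succ N) hT0
  -- the length of the chain
  have hrl : 0 < rhoLast D := rhoLast_pos D
  obtain ⟨l, hl⟩ : ∃ l : ℕ, ZZ D (N + 1) T / (1 - D.θ) < (p : ℝ) ^ (N + 1 + l) * rhoLast D := by
    obtain ⟨l, hl⟩ := pow_unbounded_of_one_lt (ZZ D (N + 1) T / (1 - D.θ) / rhoLast D) hp1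
    refine ⟨l, ?_⟩
    rw [div_lt_iff₀ hrl] at hl
    refine hl.trans_le (mul_le_mul_of_nonneg_right ?_ hrl.le)
    exact pow_le_pow_right₀ hp1.le (by omega)
  obtain ⟨a, ha⟩ := chain_lower D ι hTi hP l hl
  rw [hTdef, coeff_chainT ι hN D hc'lt Q a l, ← hTdef] at ha
  -- the digit automorphism
  set x' : Fin N → K := fun i => evalP (PowerSeries.map ι (digitSeries p n (fun l => a l ^ p ^ m)
      (fun l => M + (N + 1 + l)) l)) (ζ i) with hx'
  have hpow : ∀ i, digS ι D c' a l i ^ p ^ m = x' i := fun i =>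
    digS_pow ι D hc'lt hζ hc'p hξp a l i
  have hrt : pRtT p m x' = digS ι D c' a l := by
    funext i
    show pRt p m (x' i) = _
    rw [← hpow i, pRt_pow_eq]
  have hcc0 : ∀ f : PowerSeries (kk p n), PowerSeries.constantCoeff f = 0 →
      PowerSeries.constantCoeff (PowerSeries.map ι f) = 0 := by
    intro f hf
    rw [← PowerSeries.coeff_zero_eq_constantCoeff_apply, PowerSeries.coeff_map,
      PowerSeries.coeff_zero_eq_constantCoeff_apply, hf, map_zero]
  have hx'le : ∀ i, ‖x' i‖ ≤ ‖ζ i‖ := fun i =>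
    norm_evalP_le (hcc0 _ (isFGHom_digitSeries p n _ _ l).1) (isIntS_map_series ι _) (hζ i)
  have hx'mk : InMK x' := fun i => (hx'le i).trans_lt (hζ i)
  have h0 := hvan (fun l => a l ^ p ^ m) (fun l => M + (N + 1 + l)) l (fun l' => Nat.le_add_right _ _)
  have h3 := hQ x' hx'mk
  rw [hrt] at h3
  have h4 : F x' = 0 := h0
  rw [h4, zero_sub, norm_neg] at h3
  have h5 : tupleRad x' ≤ tupleRad ζ := tupleRad_le (tupleRad_nonneg ζ) fun i =>
    (hx'le i).trans (norm_le_tupleRad ζ i)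
  have h6 : tupleRad x' ^ c ≤ tupleRad ζ ^ c := Real.rpow_le_rpow (tupleRad_nonneg _) h5 hc.le
  have h7 : Real.exp (-B') ≤ Real.exp (-(ZZ D (N + 1) T / (1 - D.θ))) := by
    apply Real.exp_le_exp.2
    rw [hB', neg_le_neg_iff, hDθ]
    exact div_le_div_of_nonneg_right hZ h1θ.le
  linarith

/-- The norm of an `add`-sum is at most the maximal norm of its summands. -/
lemma norm_lawSum_le {add : K → K → K} (h : BallLaw add) {f : Fin N → K} (hf : ∀ i, ‖f i‖ < 1) {C : ℝ} (hC : 0 ≤ C)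
    (hle : ∀ i, ‖f i‖ ≤ C) : ‖lawSum add f‖ ≤ C := by
  unfold lawSum
  have key : ∀ L : List (Fin N), ‖(L.map f).foldr add 0‖ ≤ C ∧ ‖(L.map f).foldr add 0‖ < 1 := by
    intro L
    induction L with
    | nil => simpa using hC
    | cons a L ih =>
      simp only [List.map_cons, List.foldr_cons]
      have h1 := h.norm_add_le (hf a) ih.2
      exact ⟨h1.trans (max_le (hle a) ih.1), h1.trans_lt (max_lt (hf a) ih.2)⟩
  exact (key _).1

/-- Series over `k` commute with powers of the `q`-Frobenius. -/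
lemma evalP_frob_iter (f : PowerSeries (kk p n)) (K' : ℕ) {y : K} (hy : ‖y‖ < 1) :
    evalP (PowerSeries.map ι f) y ^ (p ^ n) ^ K' = evalP (PowerSeries.map ι f) (y ^ (p ^ n) ^ K') := by
  induction K' with
  | zero => simp
  | succ K' ih =>
    have hq : ‖y ^ (p ^ n) ^ K'‖ < 1 := by
      rw [norm_pow]
      exact pow_lt_one₀ (norm_nonneg _) hy
        (pow_ne_zero _ (pow_ne_zero _ hp.out.ne_zero))
    rw [pow_succ, pow_mul, ih, evalP_frob ι f hq, ← pow_mul]

/-- (E11) -/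
theorem chain_vanish (hN : 0 < N) (hNn : N < n) {b : Fin N → K} (hb : ∀ i, ‖b i‖ < 1)
    (hb0 : ∀ i, b i ≠ 0)
    (horth : ∀ (m : Fin N → ℕ) (i : Fin N), ‖lawNsmul (add0K ι) (m i) (b i)‖ ≤
      ‖lawSum (add0K ι) (fun j => lawNsmul (add0K ι) (m j) (b j))‖)
    {F : (Fin N → K) → K} (hF : IsApx p ι F) (m0 : ℕ)
    (hvan : ∀ (a : ℕ → kk p n) (e : ℕ → ℕ) (l : ℕ), (∀ l', m0 ≤ e l') →
      F (fun i => evalP (PowerSeries.map ι (digitSeries p n a e l)) (b i)) = 0) :
    ∀ x, InMK x → F x = 0 := by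
  have hBL := ballLaw_add0K (p := p) (n := n) ι
  let grp := hBL.addCommGroup
  let val : BallOf (add0K ι) → K := BallOf.val
  have hval0 : val 0 = 0 := hBL.val_zero
  have hvalnsmul : ∀ (m : ℕ) (x : BallOf (add0K ι)), val (m • x) = lawNsmul (add0K ι) m (val x) :=
    hBL.val_nsmul
  have hL : LawData p (p ^ n) val := by
    refine ⟨hval0, fun x => x.2, fun x y => ?_, fun x => ?_⟩
    · have h1 := hBL.close (val x) (val y) x.2 y.2
      have h2 : val (x + y) = add0K ι (val x) (val y) := hBL.val_add x y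
      rw [h2]
      have h3 : add0K ι (val x) (val y) - (val x + val y) = add0K ι (val x) (val y) - val x - val y := by
        ring
      rw [h3]
      refine h1.trans ?_
      rw [sq]
      exact mul_le_mul (le_max_left _ _) (le_max_right _ _) (norm_nonneg _) (le_max_of_le_left (norm_nonneg _))
    · rw [hvalnsmul]
      exact lawNsmul_add0K_p ι x.2
  let b' : Fin N → BallOf (add0K ι) := fun i => BallOf.mk (b i) (hb i)
  have hb'v : ∀ i, val (b' i) = b i := fun _ => rfl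
  have hmem : ∀ (m : ℕ) (i : Fin N), ‖lawNsmul (add0K ι) m (b i)‖ < 1 := fun m i =>
    hBL.lawNsmul_mem m (hb i)
  have horth' : OrthFamily val b' := by
    intro a j₀ hj
    have hsum : val (∑ j, a j • b' j) = lawSum (add0K ι) (fun j => lawNsmul (add0K ι) (a j) (b j)) := by
      have := hBL.val_sum (fun j => a j • b' j)
      refine this.trans ?_
      congr 1
      funext j
      exact hvalnsmul (a j) (b' j)
    rw [hsum]
    have hj₀ : val (a j₀ • b' j₀) = lawNsmul (add0K ι) (a j₀) (b j₀) := hvalnsmul _ _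
    rw [hj₀]
    refine le_antisymm (norm_lawSum_le hBL (fun j => hmem _ j) (norm_nonneg _) fun j => ?_) (horth a j₀)
    have := hj j
    rw [hj₀, hvalnsmul, hb'v] at this
    exact this
  have hb0' : ∀ j, val (b' j) ≠ 0 := fun j => hb0 j
  have hdiv : ∀ x : BallOf (add0K ι), ∃ y : BallOf (add0K ι), p • y = x := by
    intro x
    refine ⟨BallOf.mk (pRt p n (val x)) (norm_pRt_lt_one n x.2), ?_⟩
    apply BallOf.val_inj
    have := hvalnsmul p (BallOf.mk (pRt p n (val x)) (norm_pRt_lt_one n x.2))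
    show val _ = val x
    rw [this]
    show lawNsmul (add0K ι) p (pRt p n (val x)) = val x
    have hA : ‖pRt p n (val x)‖ < 1 := norm_pRt_lt_one n x.2
    rw [lawNsmul_add0K_p ι hA, pRt_pow]
  obtain ⟨σ, k, z, ρ, hz, hgood⟩ := exists_goodTuple hN.ne' hNn hL horth' hb0' hdiv
  -- the values
  have hzval : ∀ j, val (z j) ^ (p ^ n) ^ k j = b (σ j) := fun j => by
    rw [← hL.frob_pow, hz]
    rfl
  have hz1 : ∀ j, ‖val (z j)‖ < 1 := fun j => (z j).2
  have hF' := IsApx.precomp_pow hF (σ.symm : Fin N → Fin N) (fun i => n * k (σ.symm i))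
  have hmain := vanish_of_good ι hN hNn hgood hF' m0 (by
    intro a e l he
    have h := hvan a e l he
    convert h using 2
    funext i
    have e1 : ((p : ℕ) ^ (n * k (σ.symm i))) = (p ^ n) ^ k (σ.symm i) := pow_mul _ _ _
    show (evalP (PowerSeries.map ι (digitSeries p n a e l)) (val (z (σ.symm i)))) ^ p ^ (n * k (σ.symm i)) = _
    rw [e1, evalP_frob_iter ι _ _ (hz1 _), hzval, Equiv.apply_symm_apply])
  intro x hx
  have hy : InMK (fun j => pRt p (n * k j) (x (σ j))) := fun j => norm_pRt_lt_one _ (hx _)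
  have h := hmain _ hy
  convert h using 2
  funext i
  show x i = (pRt p (n * k (σ.symm i)) (x (σ (σ.symm i)))) ^ p ^ (n * k (σ.symm i))
  rw [pRt_pow, Equiv.apply_symm_apply]

end Main

end Chain

end Crest.Agent.LT
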