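import Crest.Agent.Lib.LubinTate.LatQMap

/-!
# Blueprint D3, D4: remainders modulo `∏ (Y - Y_v)` and the fixed point map

All of this is abstract: the coefficient functions `w l t` and the roots `Y v t` are given with
their estimates as hypotheses (in the application `Y v t = q_t (ξ_v x) ^ (p ^ h)`). Norm notation:
`v(x) ≥ r` of the blueprint is `‖x‖ ≤ exp (-r)`.
-/

set_option autoImplicit false
set_option linter.unusedSectionVars false
set_option linter.unusedVariables false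

namespace Crest.Agent.LT

open Polynomial

section Rem

variable {K : Type*} [NormedField K] [IsUltrametricDist K]

/-- `Y ^ l` modulo the (monic) polynomial `P`: the blueprint's `ρ_l(P)`. -/
noncomputable def remPow (P : K[X]) (l : ℕ) : K[X] := X ^ l %ₘ P

lemma remPow_of_lt {P : K[X]} (hP : P.Monic) {l : ℕ} (hl : l < P.natDegree) :
    remPow P l = X ^ l := by
  unfold remPow
  rw [Polynomial.modByMonic_eq_self_iff hP]
  rw [degree_X_pow]
  have := degree_eq_natDegree hP.ne_zero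
  rw [this]
  exact_mod_cast hl

lemma remPow_degree_lt {P : K[X]} (hP : P.Monic) (l : ℕ) :
    (remPow P l).degree < P.degree := by
  unfold remPow
  exact degree_modByMonic_lt _ hP

lemma remPow_coeff_eq_zero {P : K[X]} (hP : P.Monic) (l : ℕ) {m : ℕ} (hm : P.natDegree ≤ m) :
    (remPow P l).coeff m = 0 := by
  have h := remPow_degree_lt hP l
  rw [degree_eq_natDegree hP.ne_zero, degree_lt_iff_coeff_zero] at h
  exact h m hm

/-- The basic recursion of remainders. -/
lemma remPow_succ {P : K[X]} (hP : P.Monic) (hd : 0 < P.natDegree) (l : ℕ) :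
    remPow P (l + 1) =
      X * remPow P l - C ((remPow P l).coeff (P.natDegree - 1)) * P := by
  set ρ := remPow P l with hρ
  set c := ρ.coeff (P.natDegree - 1) with hc
  have hdeg : (X * ρ - C c * P).degree < P.degree := by
    rw [degree_eq_natDegree hP.ne_zero, degree_lt_iff_coeff_zero]
    intro m hm
    obtain ⟨m', rfl⟩ : ∃ m', m = m' + 1 := ⟨m - 1, by omega⟩
    rw [coeff_sub, coeff_X_mul, coeff_C_mul]
    rcases eq_or_lt_of_le hm with h | h
    · have h1 : m' = P.natDegree - 1 := by omega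
      have h2 : P.coeff (m' + 1) = 1 := by rw [← h]; exact hP.coeff_natDegree
      rw [h2, h1]; simp [hc]
    · have h1 : ρ.coeff m' = 0 := remPow_coeff_eq_zero hP l (by omega)
      have h2 : P.coeff (m' + 1) = 0 := coeff_eq_zero_of_natDegree_lt h
      simp [h1, h2]
  have h1 : (X * ρ - C c * P) %ₘ P = X * ρ - C c * P :=
    (Polynomial.modByMonic_eq_self_iff hP).2 hdeg
  have h2 : (X ^ (l + 1) : K[X]) %ₘ P = (X * ρ - C c * P) %ₘ P := by
    apply Polynomial.modByMonic_eq_of_dvd_sub hP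
    have h3 : ρ + P * (X ^ l /ₘ P) = X ^ l := Polynomial.modByMonic_add_div (X ^ l) P
    refine ⟨X * (X ^ l /ₘ P) + C c, ?_⟩
    have h4 : (X : K[X]) ^ (l + 1) = X * (ρ + P * (X ^ l /ₘ P)) := by rw [h3]; ring
    rw [h4]; ring
  unfold remPow at *
  rw [h2, h1]

/-- `P` is a monic polynomial of degree `d` with `‖coeff m P‖ ≤ R ^ (d - m)`. -/
structure RootBdd (P : K[X]) (d : ℕ) (R : ℝ) : Prop where
  monic : P.Monic
  natDegree_eq : P.natDegree = d
  coeff_le : ∀ m, m ≤ d → ‖P.coeff m‖ ≤ R ^ (d - m)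

lemma norm_sub_le_max' {E : Type*} [SeminormedAddCommGroup E] [IsUltrametricDist E] (a b : E) :
    ‖a - b‖ ≤ max ‖a‖ ‖b‖ :=
  by
    rw [sub_eq_add_neg]
    simpa using IsUltrametricDist.norm_add_le_max a (-b)

lemma rootBdd_prod {ι : Type*} (s : Finset ι) (Y : ι → K) {R : ℝ} (hR : 0 ≤ R)
    (hY : ∀ i ∈ s, ‖Y i‖ ≤ R) :
    RootBdd (∏ i ∈ s, (X - C (Y i))) s.card R := by
  classical
  induction s using Finset.induction_on with
  | empty => exact ⟨by simp, by simp, by
      intro m hm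
      have : m = 0 := by simpa using hm
      subst this; simp⟩
  | insert a s ha ih =>
    have ih' := ih (fun i hi => hY i (Finset.mem_insert_of_mem hi))
    have hmon : (∏ i ∈ s, (X - C (Y i))).Monic := ih'.monic
    rw [Finset.prod_insert ha, Finset.card_insert_of_notMem ha]
    refine ⟨(monic_X_sub_C _).mul hmon, ?_, ?_⟩
    · rw [(monic_X_sub_C _).natDegree_mul hmon, natDegree_X_sub_C, ih'.natDegree_eq]; omega
    · intro m hm
      have hya : ‖Y a‖ ≤ R := hY a (Finset.mem_insert_self a s)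
      set Q := ∏ i ∈ s, (X - C (Y i)) with hQ
      have hcoeff : ∀ m, ((X - C (Y a)) * Q).coeff m =
          (X * Q).coeff m - Y a * Q.coeff m := by
        intro m
        rw [sub_mul, coeff_sub, coeff_C_mul]
      rw [hcoeff]
      refine (norm_sub_le_max' _ _).trans (max_le ?_ ?_)
      · cases m with
        | zero => simpa using pow_nonneg hR _
        | succ m =>
          rw [coeff_X_mul]
          have := ih'.coeff_le m (by omega)
          have he : s.card + 1 - (m + 1) = s.card - m := by omega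
          rw [he]; exact this
      · rw [norm_mul]
        by_cases hm' : m ≤ s.card
        · have := ih'.coeff_le m hm'
          have he : s.card + 1 - m = (s.card - m) + 1 := by omega
          rw [he, pow_succ']
          exact mul_le_mul hya this (norm_nonneg _) hR
        · have h0 : Q.coeff m = 0 := coeff_eq_zero_of_natDegree_lt (by
            rw [ih'.natDegree_eq]; omega)
          simp only [h0, norm_zero, mul_zero]
          positivity

/-- Bound on coefficients of `remPow`: all coefficients have norm `≤ 1`. -/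
lemma remPow_coeff_le_one {P : K[X]} {d : ℕ} {R : ℝ} (hR : 0 ≤ R) (hR1 : R ≤ 1)
    (hP : RootBdd P d R) (hd : 0 < d) (l m : ℕ) : ‖(remPow P l).coeff m‖ ≤ 1 := by
  induction l generalizing m with
  | zero =>
    have h1 : remPow P 0 = X ^ 0 := by
      apply remPow_of_lt hP.monic; rw [hP.natDegree_eq]; exact hd
    rw [h1]
    simp only [pow_zero, coeff_one]
    split_ifs <;> simp
  | succ l ih =>
    have hdn : 0 < P.natDegree := by rw [hP.natDegree_eq]; exact hd
    rw [remPow_succ hP.monic hdn]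
    rw [coeff_sub, coeff_C_mul]
    have h2 : ∀ j, ‖P.coeff j‖ ≤ 1 := by
      intro j
      by_cases hj : j ≤ d
      · exact (hP.coeff_le j hj).trans (pow_le_one₀ hR hR1)
      · rw [coeff_eq_zero_of_natDegree_lt (by rw [hP.natDegree_eq]; omega)]; simp
    refine (norm_sub_le_max' _ _).trans (max_le ?_ ?_)
    · cases m with
      | zero => simp
      | succ m => rw [coeff_X_mul]; exact ih m
    · rw [norm_mul]
      exact mul_le_one₀ (ih _) (norm_nonneg _) (h2 m)

/-- Bound on the coefficients of `remPow` (`D3`): `‖coeff m ρ_l‖ ≤ R ^ (l - m)` for `m < d ≤ l`. -/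
lemma remPow_coeff_le {P : K[X]} {d : ℕ} {R : ℝ} (hR : 0 ≤ R)
    (hP : RootBdd P d R) (hd : 0 < d) {l m : ℕ} (hl : d ≤ l) (hm : m < d) :
    ‖(remPow P l).coeff m‖ ≤ R ^ (l - m) := by
  have hdn : 0 < P.natDegree := by rw [hP.natDegree_eq]; exact hd
  induction l, hl using Nat.le_induction generalizing m with
  | base =>
    obtain ⟨d', rfl⟩ : ∃ d', d = d' + 1 := ⟨d - 1, by omega⟩
    have h1 : remPow P d' = X ^ d' := by
      apply remPow_of_lt hP.monic; rw [hP.natDegree_eq]; omega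
    have h2 : (remPow P d').coeff (P.natDegree - 1) = 1 := by
      rw [h1, hP.natDegree_eq]; simp
    rw [remPow_succ hP.monic hdn, h2, h1, coeff_sub, coeff_C_mul]
    simp only [one_mul]
    have h3 : (X * X ^ d' : K[X]).coeff m = 0 := by
      rw [← pow_succ', coeff_X_pow]; simp; omega
    rw [h3, zero_sub, norm_neg]
    exact hP.coeff_le m (by omega)
  | succ l hl ih =>
    rw [remPow_succ hP.monic hdn, coeff_sub, coeff_C_mul]
    have hc : ‖(remPow P l).coeff (P.natDegree - 1)‖ ≤ R ^ (l - (d - 1)) := by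
      rw [hP.natDegree_eq]; exact ih (by omega)
    refine (norm_sub_le_max' _ _).trans (max_le ?_ ?_)
    · cases m with
      | zero => simpa using pow_nonneg hR _
      | succ m =>
        rw [coeff_X_mul]
        have := ih (m := m) (by omega)
        have he : l + 1 - (m + 1) = l - m := by omega
        rw [he]; exact this
    · rw [norm_mul]
      have h4 := hP.coeff_le m hm.le
      calc _ ≤ R ^ (l - (d - 1)) * R ^ (d - m) :=
            mul_le_mul hc h4 (norm_nonneg _) (pow_nonneg hR _)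
        _ = R ^ (l + 1 - m) := by
            rw [← pow_add]; congr 1; omega

/-- Lipschitz dependence of the remainders on the polynomial. -/
lemma remPow_coeff_sub_le {P P' : K[X]} {d : ℕ} {R : ℝ} {c : ℝ} (hR : 0 ≤ R) (hR1 : R ≤ 1)
    (hP : RootBdd P d R) (hP' : RootBdd P' d R) (hd : 0 < d) (hc0 : 0 ≤ c)
    (hc : ∀ m, ‖(P - P').coeff m‖ ≤ c) (l m : ℕ) :
    ‖(remPow P l - remPow P' l).coeff m‖ ≤ c := by
  have hdn : 0 < P.natDegree := by rw [hP.natDegree_eq]; exact hd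
  have hdn' : 0 < P'.natDegree := by rw [hP'.natDegree_eq]; exact hd
  induction l generalizing m with
  | zero =>
    have h1 : remPow P 0 = X ^ 0 := by
      apply remPow_of_lt hP.monic; exact hdn
    have h2 : remPow P' 0 = X ^ 0 := by
      apply remPow_of_lt hP'.monic; exact hdn'
    rw [h1, h2]; simpa using hc0
  | succ l ih =>
    rw [remPow_succ hP.monic hdn, remPow_succ hP'.monic hdn', hP.natDegree_eq, hP'.natDegree_eq]
    set a := (remPow P l).coeff (d - 1) with ha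
    set a' := (remPow P' l).coeff (d - 1) with ha'
    have hE : (X * remPow P l - C a * P - (X * remPow P' l - C a' * P')).coeff m =
        (X * (remPow P l - remPow P' l)).coeff m - (a - a') * P.coeff m
          - a' * (P - P').coeff m := by
      simp only [coeff_sub, coeff_C_mul, mul_sub, sub_mul]
      ring
    rw [hE]
    have h2 : ∀ j, ‖P.coeff j‖ ≤ 1 := by
      intro j
      by_cases hj : j ≤ d
      · exact (hP.coeff_le j hj).trans (pow_le_one₀ hR hR1)
      · rw [coeff_eq_zero_of_natDegree_lt (by rw [hP.natDegree_eq]; omega)]; simp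
    refine (norm_sub_le_max' _ _).trans (max_le ((norm_sub_le_max' _ _).trans (max_le ?_ ?_)) ?_)
    · cases m with
      | zero => simpa using hc0
      | succ m => rw [coeff_X_mul]; exact ih m
    · rw [norm_mul]
      have h3 : ‖a - a'‖ ≤ c := by
        have := ih (d - 1)
        rwa [coeff_sub] at this
      exact (mul_le_mul h3 (h2 m) (norm_nonneg _) hc0).trans (by simp)
    · rw [norm_mul]
      exact (mul_le_mul (remPow_coeff_le_one hR hR1 hP' hd l _) (hc m) (norm_nonneg _)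
        zero_le_one).trans (by simp)

/-- Lipschitz dependence of `∏ (Y - Y_v)` on the roots. -/
lemma prod_sub_prod_coeff_le {ι : Type*} (s : Finset ι) (Y Y' : ι → K) {R c : ℝ} (hR : 0 ≤ R)
    (hR1 : R ≤ 1) (hc0 : 0 ≤ c) (hY : ∀ i ∈ s, ‖Y i‖ ≤ R) (hY' : ∀ i ∈ s, ‖Y' i‖ ≤ R)
    (hc : ∀ i ∈ s, ‖Y i - Y' i‖ ≤ c) (m : ℕ) :
    ‖((∏ i ∈ s, (X - C (Y i))) - ∏ i ∈ s, (X - C (Y' i))).coeff m‖ ≤ c := by
  classical
  induction s using Finset.induction_on generalizing m with
  | empty => simpa using hc0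
  | insert a s ha ih =>
    have ih' := ih (fun i hi => hY i (Finset.mem_insert_of_mem hi))
      (fun i hi => hY' i (Finset.mem_insert_of_mem hi))
      (fun i hi => hc i (Finset.mem_insert_of_mem hi))
    rw [Finset.prod_insert ha, Finset.prod_insert ha]
    set Q := ∏ i ∈ s, (X - C (Y i)) with hQ
    set Q' := ∏ i ∈ s, (X - C (Y' i)) with hQ'
    have hE : ((X - C (Y a)) * Q - (X - C (Y' a)) * Q').coeff m =
        (X * (Q - Q')).coeff m - (Y a - Y' a) * Q.coeff m - Y' a * (Q - Q').coeff m := by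
      simp only [coeff_sub, coeff_C_mul, sub_mul, mul_sub]
      ring
    rw [hE]
    have hb := rootBdd_prod s Y hR (fun i hi => hY i (Finset.mem_insert_of_mem hi))
    have h2 : ‖Q.coeff m‖ ≤ 1 := by
      by_cases hj : m ≤ s.card
      · exact (hb.coeff_le m hj).trans (pow_le_one₀ hR hR1)
      · rw [coeff_eq_zero_of_natDegree_lt (by rw [hb.natDegree_eq]; omega)]; simp
    refine (norm_sub_le_max' _ _).trans (max_le ((norm_sub_le_max' _ _).trans (max_le ?_ ?_)) ?_)
    · cases m with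
      | zero => simpa using hc0
      | succ m => rw [coeff_X_mul]; exact ih' m
    · rw [norm_mul]
      exact (mul_le_mul (hc a (Finset.mem_insert_self a s)) h2 (norm_nonneg _) hc0).trans (by simp)
    · rw [norm_mul]
      have h3 : ‖Y' a‖ ≤ 1 := (hY' a (Finset.mem_insert_self a s)).trans hR1
      exact (mul_le_mul h3 (ih' m) (norm_nonneg _) zero_le_one).trans (by simp)

end Rem

section RemSum

variable {K : Type*} [NormedField K] [IsUltrametricDist K]

/-- Coefficient `m` of `Rem(W,P) = ∑ l, w l ρ_l(P)`. -/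
noncomputable def remCoeff (w : ℕ → K) (P : K[X]) (m : ℕ) : K :=
  ∑' l, w l * (remPow P l).coeff m

/-- The part of `remCoeff` with `l ≥ d`. -/
noncomputable def remTail (w : ℕ → K) (P : K[X]) (d m : ℕ) : K :=
  ∑' l, w (l + d) * (remPow P (l + d)).coeff m

variable [CompleteSpace K]

lemma remCoeff_summable {w : ℕ → K} {P : K[X]} {d : ℕ} {R : ℝ} (hR : 0 ≤ R) (hR1 : R < 1)
    (hP : RootBdd P d R) (hd : 0 < d) (hw : ∀ l, ‖w l‖ ≤ 1) {m : ℕ} (hm : m < d) :
    Summable (fun l => w l * (remPow P l).coeff m) := by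
  apply NonarchimedeanAddGroup.summable_of_tendsto_cofinite_zero
  rw [Nat.cofinite_eq_atTop]
  rw [tendsto_zero_iff_norm_tendsto_zero]
  have hlim : Filter.Tendsto (fun l : ℕ => R ^ (l - m)) Filter.atTop (nhds 0) :=
    (tendsto_pow_atTop_nhds_zero_of_lt_one hR hR1).comp (Filter.tendsto_sub_atTop_nat m)
  refine squeeze_zero' (Filter.Eventually.of_forall fun l => norm_nonneg _) ?_ hlim
  filter_upwards [Filter.eventually_ge_atTop d] with l hl
  rw [norm_mul]
  calc _ ≤ 1 * R ^ (l - m) := mul_le_mul (hw l) (remPow_coeff_le hR hP hd hl hm)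
        (norm_nonneg _) zero_le_one
    _ = _ := one_mul _

lemma remCoeff_eq_add_tail {w : ℕ → K} {P : K[X]} {d : ℕ} {R : ℝ} (hR : 0 ≤ R) (hR1 : R < 1)
    (hP : RootBdd P d R) (hd : 0 < d) (hw : ∀ l, ‖w l‖ ≤ 1) {m : ℕ} (hm : m < d) :
    remCoeff w P m = w m + remTail w P d m := by
  have hs := remCoeff_summable hR hR1 hP hd hw hm
  have h := hs.sum_add_tsum_nat_add d
  unfold remCoeff remTail
  rw [← h]
  congr 1
  rw [Finset.sum_eq_single m]
  · rw [remPow_of_lt hP.monic (by rw [hP.natDegree_eq]; exact hm)]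
    simp
  · intro l hl hlm
    rw [remPow_of_lt hP.monic (by rw [hP.natDegree_eq]; exact Finset.mem_range.1 hl)]
    rw [coeff_X_pow]
    simp [Ne.symm hlm]
  · intro hm'
    exact absurd (Finset.mem_range.2 hm) hm'

lemma remTail_summable {w : ℕ → K} {P : K[X]} {d : ℕ} {R : ℝ} (hR : 0 ≤ R) (hR1 : R < 1)
    (hP : RootBdd P d R) (hd : 0 < d) (hw : ∀ l, ‖w l‖ ≤ 1) {m : ℕ} (hm : m < d) :
    Summable (fun l => w (l + d) * (remPow P (l + d)).coeff m) :=
  (summable_nat_add_iff d).2 (remCoeff_summable hR hR1 hP hd hw hm)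

lemma remTail_norm_le {w : ℕ → K} {P : K[X]} {d : ℕ} {R : ℝ} (hR : 0 ≤ R) (hR1 : R ≤ 1)
    (hP : RootBdd P d R) (hd : 0 < d) (hw : ∀ l, ‖w l‖ ≤ 1) {m : ℕ} (hm : m < d) :
    ‖remTail w P d m‖ ≤ R ^ (d - m) := by
  apply IsUltrametricDist.norm_tsum_le_of_forall_le_of_nonneg (pow_nonneg hR _)
  intro l
  rw [norm_mul]
  calc _ ≤ 1 * R ^ (l + d - m) := mul_le_mul (hw _) (remPow_coeff_le hR hP hd (by omega) hm)
        (norm_nonneg _) zero_le_one
    _ = R ^ (l + d - m) := one_mul _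
    _ ≤ R ^ (d - m) := pow_le_pow_of_le_one hR hR1 (by omega)

lemma remTail_sub_norm_le {w w' : ℕ → K} {P P' : K[X]} {d : ℕ} {R A c : ℝ} (hR : 0 ≤ R)
    (hR1 : R < 1) (hP : RootBdd P d R) (hP' : RootBdd P' d R) (hd : 0 < d)
    (hw : ∀ l, ‖w l‖ ≤ 1) (hw' : ∀ l, ‖w' l‖ ≤ 1) (hA0 : 0 ≤ A) (hA : ∀ l, ‖w l - w' l‖ ≤ A)
    (hc0 : 0 ≤ c) (hc : ∀ m, ‖(P - P').coeff m‖ ≤ c) {m : ℕ} (hm : m < d) :
    ‖remTail w P d m - remTail w' P' d m‖ ≤ max (A * R ^ (d - m)) c := by
  unfold remTail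
  rw [← (remTail_summable hR hR1 hP hd hw hm).tsum_sub (remTail_summable hR hR1 hP' hd hw' hm)]
  apply IsUltrametricDist.norm_tsum_le_of_forall_le_of_nonneg (le_max_of_le_right hc0)
  intro l
  have hE : w (l + d) * (remPow P (l + d)).coeff m - w' (l + d) * (remPow P' (l + d)).coeff m =
      (w (l + d) - w' (l + d)) * (remPow P (l + d)).coeff m +
        w' (l + d) * (remPow P (l + d) - remPow P' (l + d)).coeff m := by
    rw [coeff_sub]; ring
  rw [hE]
  refine (IsUltrametricDist.norm_add_le_max _ _).trans (max_le_max ?_ ?_)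
  · rw [norm_mul]
    refine mul_le_mul (hA _) ?_ (norm_nonneg _) hA0
    exact (remPow_coeff_le hR hP hd (by omega) hm).trans
      (pow_le_pow_of_le_one hR hR1.le (by omega))
  · rw [norm_mul]
    exact (mul_le_mul (hw' _) (remPow_coeff_sub_le hR hR1.le hP hP' hd hc0 hc _ _) (norm_nonneg _)
      zero_le_one).trans (by simp)

/-- Evaluating `Rem(W,P)` at a root of `P` gives `W` at this root. -/
lemma sum_remCoeff_eval {w : ℕ → K} {P : K[X]} {d : ℕ} {R : ℝ} (hR : 0 ≤ R) (hR1 : R < 1)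
    (hP : RootBdd P d R) (hd : 0 < d) (hw : ∀ l, ‖w l‖ ≤ 1) {y : K} (hy : P.eval y = 0) :
    ∑ m ∈ Finset.range d, remCoeff w P m * y ^ m = ∑' l, w l * y ^ l := by
  have h1 : ∀ l, ∑ m ∈ Finset.range d, (remPow P l).coeff m * y ^ m = y ^ l := by
    intro l
    have h2 : (remPow P l).eval y = y ^ l := by
      have h3 := Polynomial.modByMonic_add_div (X ^ l : K[X]) P
      have h4 := congrArg (Polynomial.eval y) h3
      simp only [eval_add, eval_mul, hy, zero_mul, add_zero, eval_pow, eval_X] at h4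
      exact h4
    rw [← h2, eval_eq_sum_range' (n := d)]
    have := remPow_degree_lt hP.monic l
    rw [degree_eq_natDegree hP.monic.ne_zero, hP.natDegree_eq] at this
    by_cases h0 : remPow P l = 0
    · rw [h0]; simpa using hd
    · exact (natDegree_lt_iff_degree_lt h0).2 this
  have hs : ∀ m ∈ Finset.range d, Summable (fun l => w l * (remPow P l).coeff m * y ^ m) := by
    intro m hm
    exact (remCoeff_summable hR hR1 hP hd hw (Finset.mem_range.1 hm)).mul_right _
  have h5 : ∀ m ∈ Finset.range d, remCoeff w P m * y ^ m =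
      ∑' l, w l * (remPow P l).coeff m * y ^ m := by
    intro m _
    unfold remCoeff
    rw [tsum_mul_right]
  rw [Finset.sum_congr rfl h5, ← Summable.tsum_finsetSum hs]
  congr 1
  ext l
  rw [← h1 l, Finset.mul_sum]
  exact Finset.sum_congr rfl fun m _ => by ring

end RemSum

section Fix

variable {K : Type*} [NormedField K] [IsUltrametricDist K] [CompleteSpace K]
variable {N : ℕ} {V : Type*} [Fintype V]

/-- The product `P_{t,x} = ∏_v (Y - Y_v)` (the dependence on `x` is inside the family `Y`). -/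
noncomputable def rootPoly (Y : V → (Fin N → K) → K) (t : Fin N → K) : K[X] :=
  ∏ v, (X - C (Y v t))

/-- The map `T_x(t)_j = t_j - coeff_{e j} Rem(W_t, P_{t,x})` of `D4`, with `e j = p ^ j`. -/
noncomputable def fixMap (w : ℕ → (Fin N → K) → K) (e : Fin N → ℕ) (Y : V → (Fin N → K) → K)
    (t : Fin N → K) : Fin N → K :=
  fun j => t j - remCoeff (fun l => w l t) (rootPoly Y t) (e j)

/-- The iteration `t^(0) = 0`, `t^(m+1) = T_x(t^(m))`. -/
noncomputable def fixIter (w : ℕ → (Fin N → K) → K) (e : Fin N → ℕ) (Y : V → (Fin N → K) → K) :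
    ℕ → Fin N → K
  | 0 => 0
  | m + 1 => fixMap w e Y (fixIter w e Y m)

/-- Hypotheses on the coefficient functions `w_l(t)` (`D1` plus Corollary `A3.5`):
`e j = p ^ j`, `d = p ^ N`, `w_{p^j}(t) - t_j ∈ (t)^2`. -/
structure WHyp (w : ℕ → (Fin N → K) → K) (e : Fin N → ℕ) (d : ℕ) : Prop where
  d_pos : 0 < d
  e_lt : ∀ j, e j < d
  norm_le : ∀ l t, ‖t‖ < 1 → ‖w l t‖ ≤ 1
  lip : ∀ l t t', ‖t‖ < 1 → ‖t'‖ < 1 → ‖w l t - w l t'‖ ≤ ‖t - t'‖
  quad : ∀ j t t', ‖t‖ < 1 → ‖t'‖ < 1 →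
    ‖(t j - w (e j) t) - (t' j - w (e j) t')‖ ≤ ‖t - t'‖ * max ‖t‖ ‖t'‖
  w_zero : ∀ j, w (e j) 0 = 0

/-- Hypotheses on the family of roots: `D2 (a)`, `(d)` (`P = p ^ h`, `char K = p`). -/
structure YHyp (Y : V → (Fin N → K) → K) (P : ℕ) : Prop where
  two_le : 2 ≤ P
  lip : ∀ v t t', ‖t‖ < 1 → ‖t'‖ < 1 → ‖Y v t - Y v t'‖ ≤ ‖t - t'‖ ^ P
  lt_one : ∀ v t, ‖t‖ < 1 → ‖Y v t‖ < 1

variable {w : ℕ → (Fin N → K) → K} {e : Fin N → ℕ} {Y : V → (Fin N → K) → K} {P : ℕ}

lemma rootBdd_rootPoly {t : Fin N → K} {R : ℝ} (hR : 0 ≤ R) (hY : ∀ v, ‖Y v t‖ ≤ R) :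
    RootBdd (rootPoly Y t) (Fintype.card V) R := by
  have := rootBdd_prod (Finset.univ : Finset V) (fun v => Y v t) hR (fun v _ => hY v)
  simpa [rootPoly, Finset.card_univ] using this

lemma fixMap_apply_eq (hw : WHyp w e (Fintype.card V)) {t : Fin N → K} {R : ℝ} (hR0 : 0 ≤ R)
    (hR1 : R < 1) (ht : ‖t‖ < 1) (hYt : ∀ v, ‖Y v t‖ ≤ R) (j : Fin N) :
    fixMap w e Y t j = (t j - w (e j) t) -
      remTail (fun l => w l t) (rootPoly Y t) (Fintype.card V) (e j) := by
  unfold fixMap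
  rw [remCoeff_eq_add_tail hR0 hR1 (rootBdd_rootPoly hR0 hYt) hw.d_pos
    (fun l => hw.norm_le l t ht) (hw.e_lt j)]
  ring

/-- Contraction estimate of `D4`: `v(T t - T t') ≥ min (δ + ε, p^h δ)`. -/
theorem fixMap_sub_le (hw : WHyp w e (Fintype.card V)) (hY : YHyp Y P) {t t' : Fin N → K}
    {E R : ℝ} (hE0 : 0 ≤ E) (hE1 : E < 1) (hR0 : 0 ≤ R) (hR1 : R < 1)
    (ht : ‖t‖ ≤ E) (ht' : ‖t'‖ ≤ E) (hYt : ∀ v, ‖Y v t‖ ≤ R) (hYt' : ∀ v, ‖Y v t'‖ ≤ R)
    (hRE : ∀ j, R ^ (Fintype.card V - e j) ≤ E) :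
    ‖fixMap w e Y t - fixMap w e Y t'‖ ≤ max (‖t - t'‖ * E) (‖t - t'‖ ^ P) := by
  have hd := hw.d_pos
  have ht1 : ‖t‖ < 1 := ht.trans_lt hE1
  have ht1' : ‖t'‖ < 1 := ht'.trans_lt hE1
  set δ := ‖t - t'‖ with hδ
  have hδ0 : 0 ≤ δ := norm_nonneg _
  have hm0 : 0 ≤ max (δ * E) (δ ^ P) := le_max_of_le_left (mul_nonneg hδ0 hE0)
  rw [pi_norm_le_iff_of_nonneg hm0]
  intro j
  rw [Pi.sub_apply, fixMap_apply_eq hw hR0 hR1 ht1 hYt, fixMap_apply_eq hw hR0 hR1 ht1' hYt']
  have hE : (t j - w (e j) t) - remTail (fun l => w l t) (rootPoly Y t) (Fintype.card V) (e j)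
      - ((t' j - w (e j) t') - remTail (fun l => w l t') (rootPoly Y t') (Fintype.card V) (e j)) =
      ((t j - w (e j) t) - (t' j - w (e j) t')) -
      (remTail (fun l => w l t) (rootPoly Y t) (Fintype.card V) (e j)
        - remTail (fun l => w l t') (rootPoly Y t') (Fintype.card V) (e j)) := by ring
  rw [hE]
  refine (norm_sub_le_max' _ _).trans (max_le ?_ ?_)
  · refine (hw.quad j t t' ht1 ht1').trans (le_max_of_le_left ?_)
    exact mul_le_mul_of_nonneg_left (max_le ht ht') hδ0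
  · have hP0 : 0 ≤ δ ^ P := pow_nonneg hδ0 _
    have h1 := remTail_sub_norm_le (w := fun l => w l t) (w' := fun l => w l t') (A := δ)
      (c := δ ^ P) hR0 hR1 (rootBdd_rootPoly hR0 hYt) (rootBdd_rootPoly hR0 hYt') hd
      (fun l => hw.norm_le l t ht1) (fun l => hw.norm_le l t' ht1') hδ0
      (fun l => hw.lip l t t' ht1 ht1') hP0
      (fun m => prod_sub_prod_coeff_le Finset.univ (fun v => Y v t) (fun v => Y v t') hR0 hR1.le
        hP0 (fun v _ => hYt v) (fun v _ => hYt' v)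
        (fun v _ => hY.lip v t t' ht1 ht1') m) (hw.e_lt j)
    refine h1.trans (max_le_max ?_ le_rfl)
    exact mul_le_mul_of_nonneg_left (hRE j) hδ0

/-- `T_x` maps the ball of radius `E` into itself. -/
theorem fixMap_norm_le (hw : WHyp w e (Fintype.card V)) {t : Fin N → K}
    {E R : ℝ} (hE0 : 0 ≤ E) (hE1 : E < 1) (hR0 : 0 ≤ R) (hR1 : R < 1)
    (ht : ‖t‖ ≤ E) (hYt : ∀ v, ‖Y v t‖ ≤ R)
    (hRE : ∀ j, R ^ (Fintype.card V - e j) ≤ E) :
    ‖fixMap w e Y t‖ ≤ E := by
  have hd := hw.d_pos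
  have ht1 : ‖t‖ < 1 := ht.trans_lt hE1
  rw [pi_norm_le_iff_of_nonneg hE0]
  intro j
  rw [fixMap_apply_eq hw hR0 hR1 ht1 hYt]
  refine (norm_sub_le_max' _ _).trans (max_le ?_ ?_)
  · have h0 : ‖(0 : Fin N → K)‖ < 1 := by simp
    have h1 := hw.quad j t 0 ht1 h0
    rw [hw.w_zero j] at h1
    simp only [Pi.zero_apply, sub_self, sub_zero, norm_zero] at h1
    refine h1.trans ?_
    calc ‖t‖ * max ‖t‖ 0 ≤ E * 1 := by
          refine mul_le_mul ht ?_ (le_max_of_le_right le_rfl) hE0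
          exact max_le ht1.le zero_le_one
      _ = E := mul_one E
  · exact (remTail_norm_le hR0 hR1.le (rootBdd_rootPoly hR0 hYt) hd
      (fun l => hw.norm_le l t ht1) (hw.e_lt j)).trans (hRE j)

/-- Iterates stay in the ball and converge geometrically. -/
theorem fixIter_bounds (hw : WHyp w e (Fintype.card V)) (hY : YHyp Y P)
    {E R : ℝ} (hE0 : 0 ≤ E) (hE1 : E < 1) (hR0 : 0 ≤ R) (hR1 : R < 1)
    (hYE : ∀ t : Fin N → K, ‖t‖ ≤ E → ∀ v, ‖Y v t‖ ≤ R)
    (hRE : ∀ j, R ^ (Fintype.card V - e j) ≤ E) (m : ℕ) :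
    ‖fixIter w e Y m‖ ≤ E ∧ ‖fixIter w e Y (m + 1) - fixIter w e Y m‖ ≤ E ^ (m + 1) := by
  induction m with
  | zero =>
    have h0 : ‖(0 : Fin N → K)‖ ≤ E := by simpa using hE0
    refine ⟨by simpa [fixIter] using hE0, ?_⟩
    have := fixMap_norm_le (Y := Y) hw hE0 hE1 hR0 hR1 h0 (hYE 0 h0) hRE
    simpa [fixIter] using this
  | succ m ih =>
    have h1 : ‖fixIter w e Y (m + 1)‖ ≤ E :=
      fixMap_norm_le hw hE0 hE1 hR0 hR1 ih.1 (hYE _ ih.1) hRE
    refine ⟨h1, ?_⟩
    have h2 := fixMap_sub_le hw hY hE0 hE1 hR0 hR1 h1 ih.1 (hYE _ h1) (hYE _ ih.1) hRE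
    have h3 : fixIter w e Y (m + 1 + 1) = fixMap w e Y (fixIter w e Y (m + 1)) := rfl
    have h4 : fixIter w e Y (m + 1) = fixMap w e Y (fixIter w e Y m) := rfl
    rw [h3]
    rw [← h4] at h2
    refine h2.trans (max_le ?_ ?_)
    · rw [pow_succ]
      exact mul_le_mul_of_nonneg_right ih.2 hE0
    · refine (pow_le_pow_left₀ (norm_nonneg _) ih.2 P).trans ?_
      rw [← pow_mul]
      apply pow_le_pow_of_le_one hE0 hE1.le
      have := hY.two_le
      nlinarith

/-- Existence of the fixed point `D(x)`, with the rate of convergence of the iterates. -/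
theorem exists_fix (hw : WHyp w e (Fintype.card V)) (hY : YHyp Y P)
    {E R : ℝ} (hE0 : 0 ≤ E) (hE1 : E < 1) (hR0 : 0 ≤ R) (hR1 : R < 1)
    (hYE : ∀ t : Fin N → K, ‖t‖ ≤ E → ∀ v, ‖Y v t‖ ≤ R)
    (hRE : ∀ j, R ^ (Fintype.card V - e j) ≤ E) :
    ∃ D : Fin N → K, ‖D‖ ≤ E ∧ fixMap w e Y D = D ∧
      ∀ m, ‖fixIter w e Y m - D‖ ≤ E ^ (m + 1) := by
  have hb := fixIter_bounds (Y := Y) hw hY hE0 hE1 hR0 hR1 hYE hRE
  have hc : CauchySeq (fixIter w e Y) := by
    apply cauchySeq_of_le_geometric E 1 hE1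
    intro m
    rw [dist_comm, dist_eq_norm, one_mul]
    refine (hb m).2.trans ?_
    rw [pow_succ]
    exact mul_le_of_le_one_right (pow_nonneg hE0 _) hE1.le
  obtain ⟨D, hD⟩ := cauchySeq_tendsto_of_complete hc
  have hfar : ∀ m k, ‖fixIter w e Y (m + k) - fixIter w e Y m‖ ≤ E ^ (m + 1) := by
    intro m k
    induction k with
    | zero => simpa using pow_nonneg hE0 _
    | succ k ih =>
      have h1 : fixIter w e Y (m + (k + 1)) - fixIter w e Y m =
          (fixIter w e Y (m + k + 1) - fixIter w e Y (m + k)) +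
            (fixIter w e Y (m + k) - fixIter w e Y m) := by
        rw [← add_assoc]; abel
      rw [h1]
      refine (IsUltrametricDist.norm_add_le_max _ _).trans (max_le ?_ ih)
      refine (hb (m + k)).2.trans ?_
      exact pow_le_pow_of_le_one hE0 hE1.le (by omega)
  have hlim : ∀ m, ‖fixIter w e Y m - D‖ ≤ E ^ (m + 1) := by
    intro m
    have h1 : Filter.Tendsto (fun k => ‖fixIter w e Y m - fixIter w e Y (m + k)‖) Filter.atTop
        (nhds ‖fixIter w e Y m - D‖) := by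
      apply Filter.Tendsto.norm
      apply Filter.Tendsto.sub tendsto_const_nhds
      exact hD.comp (Filter.tendsto_atTop_mono (fun k => Nat.le_add_left k m) Filter.tendsto_id)
    refine le_of_tendsto h1 (Filter.Eventually.of_forall fun k => ?_)
    rw [norm_sub_rev]
    exact hfar m k
  have hDE : ‖D‖ ≤ E := by
    have h1 : Filter.Tendsto (fun k => ‖fixIter w e Y k‖) Filter.atTop (nhds ‖D‖) := hD.norm
    exact le_of_tendsto h1 (Filter.Eventually.of_forall fun k => (hb k).1)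
  refine ⟨D, hDE, ?_, hlim⟩
  -- `D` is fixed
  have hYD := hYE D hDE
  have hclose : ∀ m, ‖fixMap w e Y D - D‖ ≤ E ^ (m + 1) := by
    intro m
    have h1 := fixMap_sub_le hw hY hE0 hE1 hR0 hR1 hDE (hb m).1 hYD (hYE _ (hb m).1) hRE
    have h2 : ‖fixMap w e Y D - fixIter w e Y (m + 1)‖ ≤ E ^ (m + 1) := by
      have h3 : fixIter w e Y (m + 1) = fixMap w e Y (fixIter w e Y m) := rfl
      rw [h3]
      refine h1.trans (max_le ?_ ?_)
      · rw [norm_sub_rev]
        exact (mul_le_of_le_one_right (norm_nonneg _) hE1.le).trans (hlim m)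
      · rw [norm_sub_rev]
        refine (pow_le_pow_left₀ (norm_nonneg _) (hlim m) P).trans ?_
        rw [← pow_mul]
        apply pow_le_pow_of_le_one hE0 hE1.le
        have := hY.two_le
        nlinarith
    have h4 : fixMap w e Y D - D = (fixMap w e Y D - fixIter w e Y (m + 1)) +
        (fixIter w e Y (m + 1) - D) := by abel
    rw [h4]
    refine (IsUltrametricDist.norm_add_le_max _ _).trans (max_le h2 ?_)
    refine (hlim (m + 1)).trans ?_
    exact pow_le_pow_of_le_one hE0 hE1.le (by omega)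
  have h0 : ‖fixMap w e Y D - D‖ ≤ 0 := by
    have hlim0 : Filter.Tendsto (fun m : ℕ => E ^ (m + 1)) Filter.atTop (nhds 0) :=
      (tendsto_pow_atTop_nhds_zero_of_lt_one hE0 hE1).comp (Filter.tendsto_add_atTop_nat 1)
    exact ge_of_tendsto' hlim0 hclose
  exact sub_eq_zero.1 (norm_le_zero_iff.1 h0)

/-- Uniqueness of fixed points in the open unit polydisc. -/
theorem fix_unique (hw : WHyp w e (Fintype.card V)) (hY : YHyp Y P) {t t' : Fin N → K}
    (ht : ‖t‖ < 1) (ht' : ‖t'‖ < 1) (hT : fixMap w e Y t = t) (hT' : fixMap w e Y t' = t') :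
    t = t' := by
  have hV : Nonempty V := Fintype.card_pos_iff.1 hw.d_pos
  obtain ⟨v0, hv0⟩ := Finite.exists_max (fun v => max ‖Y v t‖ ‖Y v t'‖)
  set R := max ‖Y v0 t‖ ‖Y v0 t'‖ with hR
  have hR0 : 0 ≤ R := le_max_of_le_left (norm_nonneg _)
  have hR1 : R < 1 := max_lt (hY.lt_one v0 t ht) (hY.lt_one v0 t' ht')
  set E := max (max ‖t‖ ‖t'‖) R with hE
  have hE0 : 0 ≤ E := le_max_of_le_right hR0
  have hE1 : E < 1 := max_lt (max_lt ht ht') hR1
  have h1 := fixMap_sub_le hw hY (t := t) (t' := t') hE0 hE1 hR0 hR1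
    ((le_max_left _ _).trans (le_max_left _ _)) ((le_max_right _ _).trans (le_max_left _ _))
    (fun v => (le_max_left _ _).trans (hv0 v)) (fun v => (le_max_right _ _).trans (hv0 v))
    (fun j => by
      have hpos : 0 < Fintype.card V - e j := by have := hw.e_lt j; omega
      refine (pow_le_of_le_one hR0 hR1.le hpos.ne').trans (le_max_right _ _))
  rw [hT, hT'] at h1
  by_contra hne
  have hδ : 0 < ‖t - t'‖ := norm_pos_iff.2 (sub_ne_zero.2 hne)
  have hδ1 : ‖t - t'‖ < 1 := by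
    exact (norm_sub_le_max' _ _).trans_lt (max_lt ht ht')
  rcases le_max_iff.1 h1 with h | h
  · nlinarith
  · have h2 : ‖t - t'‖ ^ P < ‖t - t'‖ := by
      have := hY.two_le
      calc ‖t - t'‖ ^ P ≤ ‖t - t'‖ ^ 2 := pow_le_pow_of_le_one hδ.le hδ1.le this
        _ < ‖t - t'‖ := by nlinarith
    linarith

/-- `D7`: if all `Y v t` are distinct zeros of `W_t`, then `t` is a fixed point of `T_x`. -/
theorem fixMap_eq_of_roots (hw : WHyp w e (Fintype.card V)) (hY : YHyp Y P) {t : Fin N → K}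
    (ht : ‖t‖ < 1) (hroot : ∀ v, ∑' l, w l t * Y v t ^ l = 0)
    (hinj : Function.Injective (fun v => Y v t)) : fixMap w e Y t = t := by
  have hd := hw.d_pos
  have hV : Nonempty V := Fintype.card_pos_iff.1 hd
  obtain ⟨v0, hv0⟩ := Finite.exists_max (fun v => ‖Y v t‖)
  set R := ‖Y v0 t‖ with hR
  have hR0 : 0 ≤ R := norm_nonneg _
  have hR1 : R < 1 := hY.lt_one v0 t ht
  have hbd := rootBdd_rootPoly (Y := Y) (t := t) hR0 hv0
  set c := fun l => w l t with hc
  -- polynomial with the remainder coefficients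
  set S : K[X] := ∑ m ∈ Finset.range (Fintype.card V), C (remCoeff c (rootPoly Y t) m) * X ^ m
    with hS
  have hdeg : S.natDegree < Fintype.card V := by
    rw [hS]
    have : (∑ m ∈ Finset.range (Fintype.card V), C (remCoeff c (rootPoly Y t) m) * X ^ m).natDegree
        ≤ Fintype.card V - 1 := by
      apply natDegree_sum_le_of_forall_le
      intro m hm
      refine (natDegree_C_mul_X_pow_le _ _).trans ?_
      have := Finset.mem_range.1 hm
      omega
    omega
  have hroot' : ∀ v, (rootPoly Y t).eval (Y v t) = 0 := by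
    intro v
    unfold rootPoly
    rw [eval_prod]
    exact Finset.prod_eq_zero (Finset.mem_univ v) (by simp)
  have heval : ∀ v, S.eval (Y v t) = 0 := by
    intro v
    rw [hS, eval_finsetSum]
    simp only [eval_mul, eval_C, eval_pow, eval_X]
    rw [sum_remCoeff_eval hR0 hR1 hbd hd (fun l => hw.norm_le l t ht) (hroot' v)]
    exact hroot v
  have hS0 : S = 0 := eq_zero_of_natDegree_lt_card_of_eval_eq_zero S hinj heval hdeg
  ext j
  unfold fixMap
  have hej := hw.e_lt j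
  have hcoef : S.coeff (e j) = remCoeff c (rootPoly Y t) (e j) := by
    rw [hS, finsetSum_coeff]
    rw [Finset.sum_eq_single (e j)]
    · simp
    · intro m _ hm
      rw [coeff_C_mul, coeff_X_pow]
      simp [Ne.symm hm]
    · intro h; exact absurd (Finset.mem_range.2 hej) h
  rw [← hcoef, hS0]
  simp

/-- The fixed point as a total function: limit of the iterates. -/
noncomputable def fixPt (w : ℕ → (Fin N → K) → K) (e : Fin N → ℕ) (Y : V → (Fin N → K) → K) :
    Fin N → K :=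
  Filter.limUnder Filter.atTop (fixIter w e Y)

theorem fixPt_spec (hw : WHyp w e (Fintype.card V)) (hY : YHyp Y P)
    {E R : ℝ} (hE0 : 0 ≤ E) (hE1 : E < 1) (hR0 : 0 ≤ R) (hR1 : R < 1)
    (hYE : ∀ t : Fin N → K, ‖t‖ ≤ E → ∀ v, ‖Y v t‖ ≤ R)
    (hRE : ∀ j, R ^ (Fintype.card V - e j) ≤ E) :
    ‖fixPt w e Y‖ ≤ E ∧ fixMap w e Y (fixPt w e Y) = fixPt w e Y ∧
      ∀ m, ‖fixIter w e Y m - fixPt w e Y‖ ≤ E ^ (m + 1) := by
  obtain ⟨D, h1, h2, h3⟩ := exists_fix hw hY hE0 hE1 hR0 hR1 hYE hRE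
  have hD : Filter.Tendsto (fixIter w e Y) Filter.atTop (nhds D) := by
    rw [tendsto_iff_norm_sub_tendsto_zero]
    have hlim0 : Filter.Tendsto (fun m : ℕ => E ^ (m + 1)) Filter.atTop (nhds 0) :=
      (tendsto_pow_atTop_nhds_zero_of_lt_one hE0 hE1).comp (Filter.tendsto_add_atTop_nat 1)
    exact squeeze_zero (fun _ => norm_nonneg _) h3 hlim0
  have : fixPt w e Y = D := hD.limUnder_eq
  rw [this]
  exact ⟨h1, h2, h3⟩

end Fix

section Concrete

/-! ### The chart `D(x)` in the terms of `LatQMap`: `Y_v(t) = q_t(ξ_v) ^ (p ^ h)` -/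

variable {K : Type*} [NormedField K] [IsUltrametricDist K] [CompleteSpace K]
variable {p : ℕ} [Fact p.Prime] [CharP K p] [PerfectRing K p]
variable {N h n : ℕ} {V : Type*} [Fintype V]
variable {w : ℕ → (Fin N → K) → K}

/-- The hypothesis beyond `WFamily` used in `D4`: `w_{p^j}(t) - t_j ∈ (t)^2` (Corollary `A3.5`). -/
structure WQuad (w : ℕ → (Fin N → K) → K) (p : ℕ) : Prop where
  quad : ∀ (j : Fin N) (t t' : Fin N → K), ‖t‖ < 1 → ‖t'‖ < 1 →
    ‖(t j - w (p ^ (j : ℕ)) t) - (t' j - w (p ^ (j : ℕ)) t')‖ ≤ ‖t - t'‖ * max ‖t‖ ‖t'‖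

/-- The exponents `e j = p ^ j`. -/
def expE (p : ℕ) {N : ℕ} (j : Fin N) : ℕ := p ^ (j : ℕ)

lemma wHyp_of (hw : WFamily K N (p ^ N) w) (hq : WQuad w p) (hV : Fintype.card V = p ^ N) :
    WHyp w (expE p) (Fintype.card V) := by
  have hp : 1 < p := (Fact.out : p.Prime).one_lt
  have hlt : ∀ j : Fin N, p ^ (j : ℕ) < p ^ N := fun j => Nat.pow_lt_pow_right hp j.isLt
  rw [hV]
  refine ⟨pow_pos (by omega) _, hlt, fun l t ht => hw.norm_le_one ht l, ?_, hq.quad, ?_⟩
  · intro l t t' ht ht'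
    exact hw.lip t t' ht ht' l
  · intro j
    have h0 : ‖(0 : Fin N → K)‖ < 1 := by simp
    have := hw.small 0 h0 (p ^ (j : ℕ)) (hlt j).ne
    simpa [expE] using this

/-- The family of roots `Y_v(t) = q_t(ξ_v) ^ (p ^ h)`. -/
noncomputable def chartY (w : ℕ → (Fin N → K) → K) (p h n : ℕ) [Fact p.Prime] [CharP K p]
    [PerfectRing K p] (ξ : V → K) : V → (Fin N → K) → K :=
  fun v t => qmap w p h n t (ξ v) ^ p ^ h

lemma chartY_hyp (hw : WFamily K N (p ^ (n - h)) w) (h1 : 1 ≤ h) (hhn : h ≤ n) {ξ : V → K}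
    (hξ : ∀ v, ‖ξ v‖ < 1) : YHyp (chartY w p h n ξ) (p ^ h) := by
  refine ⟨two_le_pow p h1, ?_, ?_⟩
  · intro v t t' ht ht'
    unfold chartY
    rw [pow_p_pow_sub p h]
    exact pow_le_pow_left₀ (norm_nonneg _) (qmap_sub_t_le hw h1 hhn ht ht' (hξ v)) _
  · intro v t ht
    unfold chartY
    exact norm_pow_lt_one p h (norm_qmap_lt hw h1 hhn ht (hξ v))

lemma chartY_le (hw : WFamily K N (p ^ (n - h)) w) (h1 : 1 ≤ h) (hhn : h ≤ n) {ξ : V → K} {s : ℝ}
    (hs1 : s < 1) (hξ : ∀ v, ‖ξ v‖ ≤ s) {t : Fin N → K} (ht : ‖t‖ ≤ s) (v : V) :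
    ‖chartY w p h n ξ v t‖ ≤ s ^ p ^ h := by
  unfold chartY
  rw [norm_pow]
  exact pow_le_pow_left₀ (norm_nonneg _)
    (norm_qmap_le hw h1 hhn (ht.trans_lt hs1) ((hξ v).trans_lt hs1) (hξ v) ht) _

/-- `T_x`. -/
noncomputable def chartMap (w : ℕ → (Fin N → K) → K) (p h n : ℕ) [Fact p.Prime] [CharP K p]
    [PerfectRing K p] (ξ : V → K) : (Fin N → K) → Fin N → K :=
  fixMap w (expE p) (chartY w p h n ξ)

/-- The iterates `t^(m)`. -/
noncomputable def chartIter (w : ℕ → (Fin N → K) → K) (p h n : ℕ) [Fact p.Prime] [CharP K p]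
    [PerfectRing K p] (ξ : V → K) : ℕ → Fin N → K :=
  fixIter w (expE p) (chartY w p h n ξ)

/-- `D(x)`, in terms of the family `ξ_v = ξ_v(x)`. -/
noncomputable def chartFix (w : ℕ → (Fin N → K) → K) (p h n : ℕ) [Fact p.Prime] [CharP K p]
    [PerfectRing K p] (ξ : V → K) : Fin N → K :=
  fixPt w (expE p) (chartY w p h n ξ)

/-- The exponent `q - q/p` of `D4`: if `‖ξ_v‖ ≤ s` then `D(x)` lies in the ball of radius
`s ^ chartExp p n`, i.e. `v(D(x)) ≥ (1 - 1/p) ρ` if `s = exp (-ρ/q)`. -/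
def chartExp (p n : ℕ) : ℕ := p ^ n - p ^ (n - 1)

lemma chartExp_pos (hn : 1 ≤ n) : 0 < chartExp p n := by
  have hp : 1 < p := (Fact.out : p.Prime).one_lt
  have : p ^ (n - 1) < p ^ n := Nat.pow_lt_pow_right hp (by omega)
  unfold chartExp
  omega

lemma exp_le_chart (hN : N = n - h) (hhn : h ≤ n) (j : Fin N) :
    chartExp p n ≤ p ^ h * (p ^ N - p ^ (j : ℕ)) := by
  have hp : 1 < p := (Fact.out : p.Prime).one_lt
  have hj := j.isLt
  have h2 : p ^ (j : ℕ) ≤ p ^ (N - 1) := Nat.pow_le_pow_right (by omega) (by omega)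
  have h3 : p ^ h * p ^ N = p ^ n := by rw [← pow_add]; congr 1; omega
  have h4 : p ^ h * p ^ (N - 1) = p ^ (n - 1) := by rw [← pow_add]; congr 1; omega
  unfold chartExp
  rw [Nat.mul_sub, h3, ← h4]
  exact Nat.sub_le_sub_left (Nat.mul_le_mul_left _ h2) _

/-- `D4`, concrete form: existence of the fixed point `D(x)` in the ball of radius `E = s ^ (q - q/p)`
if all `‖ξ_v‖ ≤ s < 1`, with the convergence rate `‖t^(m) - D(x)‖ ≤ E ^ (m+1)`. -/
theorem chartFix_spec (hw : WFamily K N (p ^ (n - h)) w) (hq : WQuad w p) (hN : N = n - h)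
    (h1 : 1 ≤ h) (hhn : h ≤ n) (hV : Fintype.card V = p ^ N) {ξ : V → K} {s : ℝ} (hs0 : 0 ≤ s)
    (hs1 : s < 1) (hξ : ∀ v, ‖ξ v‖ ≤ s) :
    ‖chartFix w p h n ξ‖ ≤ s ^ chartExp p n ∧
      chartMap w p h n ξ (chartFix w p h n ξ) = chartFix w p h n ξ ∧
      ∀ m, ‖chartIter w p h n ξ m - chartFix w p h n ξ‖ ≤ (s ^ chartExp p n) ^ (m + 1) := by
  have hn : 1 ≤ n := by omega
  have hw' : WFamily K N (p ^ N) w := by
    have e : p ^ N = p ^ (n - h) := congrArg (p ^ ·) hN
    rw [e]; exact hw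
  have hp2 : 0 < p ^ h := pow_pos (Fact.out : p.Prime).pos _
  have hEpos := chartExp_pos (p := p) hn
  have hEs : s ^ chartExp p n ≤ s := pow_le_of_le_one hs0 hs1.le hEpos.ne'
  have hξ1 : ∀ v, ‖ξ v‖ < 1 := fun v => (hξ v).trans_lt hs1
  refine fixPt_spec (wHyp_of hw' hq hV) (chartY_hyp hw h1 hhn hξ1) (pow_nonneg hs0 _)
    (hEs.trans_lt hs1) (pow_nonneg hs0 _) (pow_lt_one₀ hs0 hs1 hp2.ne') ?_ ?_
  · intro t ht v
    exact chartY_le hw h1 hhn hs1 hξ (ht.trans hEs) v
  · intro j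
    rw [hV, ← pow_mul]
    exact pow_le_pow_of_le_one hs0 hs1.le (exp_le_chart hN hhn j)

/-- `D7` (points with lattices are fixed points): if the `Y_v(t)` are distinct and are zeros of
`W_t`, that is `[p]_t (q_t ξ_v) = 0`, then `T_x(t) = t`. -/
theorem chartMap_eq_of_roots (hw : WFamily K N (p ^ (n - h)) w) (hq : WQuad w p) (hN : N = n - h)
    (h1 : 1 ≤ h) (hhn : h ≤ n) (hV : Fintype.card V = p ^ N) {ξ : V → K} (hξ : ∀ v, ‖ξ v‖ < 1)
    {t : Fin N → K} (ht : ‖t‖ < 1) (hroot : ∀ v, pMap w p h t (qmap w p h n t (ξ v)) = 0)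
    (hinj : Function.Injective (fun v => qmap w p h n t (ξ v) ^ p ^ h)) :
    chartMap w p h n ξ t = t := by
  have hw' : WFamily K N (p ^ N) w := by
    have e : p ^ N = p ^ (n - h) := congrArg (p ^ ·) hN
    rw [e]; exact hw
  exact fixMap_eq_of_roots (wHyp_of hw' hq hV) (chartY_hyp hw h1 hhn hξ) ht hroot hinj

/-- Uniqueness of fixed points of `T_x` in the open polydisc. -/
theorem chartMap_fix_unique (hw : WFamily K N (p ^ (n - h)) w) (hq : WQuad w p) (hN : N = n - h)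
    (h1 : 1 ≤ h) (hhn : h ≤ n) (hV : Fintype.card V = p ^ N) {ξ : V → K} (hξ : ∀ v, ‖ξ v‖ < 1)
    {t t' : Fin N → K} (ht : ‖t‖ < 1) (ht' : ‖t'‖ < 1) (hT : chartMap w p h n ξ t = t)
    (hT' : chartMap w p h n ξ t' = t') : t = t' := by
  have hw' : WFamily K N (p ^ N) w := by
    have e : p ^ N = p ^ (n - h) := congrArg (p ^ ·) hN
    rw [e]; exact hw
  exact fix_unique (wHyp_of hw' hq hV) (chartY_hyp hw h1 hhn hξ) ht ht' hT hT'

/-- `D7` + uniqueness: a point `t` whose lattice is `ξ` equals `D(x)`. -/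
theorem chartFix_eq_of_roots (hw : WFamily K N (p ^ (n - h)) w) (hq : WQuad w p) (hN : N = n - h)
    (h1 : 1 ≤ h) (hhn : h ≤ n) (hV : Fintype.card V = p ^ N) {ξ : V → K} {s : ℝ} (hs0 : 0 ≤ s)
    (hs1 : s < 1) (hξ : ∀ v, ‖ξ v‖ ≤ s)
    {t : Fin N → K} (ht : ‖t‖ < 1) (hroot : ∀ v, pMap w p h t (qmap w p h n t (ξ v)) = 0)
    (hinj : Function.Injective (fun v => qmap w p h n t (ξ v) ^ p ^ h)) :
    chartFix w p h n ξ = t := by
  have hn : 1 ≤ n := by omega
  have hξ1 : ∀ v, ‖ξ v‖ < 1 := fun v => (hξ v).trans_lt hs1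
  obtain ⟨h2, h3, -⟩ := chartFix_spec hw hq hN h1 hhn hV hs0 hs1 hξ
  have hEs : s ^ chartExp p n ≤ s :=
    pow_le_of_le_one hs0 hs1.le (chartExp_pos (p := p) hn).ne'
  exact chartMap_fix_unique hw hq hN h1 hhn hV hξ1 (h2.trans_lt (hEs.trans_lt hs1)) ht h3
    (chartMap_eq_of_roots hw hq hN h1 hhn hV hξ1 ht hroot hinj)

end Concrete

end Crest.Agent.LT
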