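/-
S0351 (row 227), blueprint D7, D8, D9.
Abstract layer: everything is stated over the abstract data `WFamily`, `LawFamily` of `LatQMap`.
-/
import Crest.Agent.Lib.LubinTate.LatLaw
import Crest.Agent.Lib.LubinTate.LatFix

set_option autoImplicit false
set_option linter.unusedSectionVars false

namespace Crest.Agent.LT

open Filter Topology

section LawOpsNorm

variable {K : Type*} [NormedField K]

lemma norm_lawNsmul_lt {add : K → K → K} (hadd : ∀ a b : K, ‖a‖ < 1 → ‖b‖ < 1 → ‖add a b‖ < 1)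
    (m : ℕ) {x : K} (hx : ‖x‖ < 1) : ‖lawNsmul add m x‖ < 1 := by
  induction m with
  | zero => simp
  | succ m ih => exact hadd _ _ ih hx

lemma norm_lawFoldr_lt {add : K → K → K} (hadd : ∀ a b : K, ‖a‖ < 1 → ‖b‖ < 1 → ‖add a b‖ < 1)
    (l : List K) (hl : ∀ a ∈ l, ‖a‖ < 1) : ‖l.foldr add 0‖ < 1 := by
  induction l with
  | nil => simp
  | cons i l ih =>
    rw [List.foldr_cons]
    exact hadd _ _ (hl i (by simp)) (ih (fun a ha => hl a (by simp [ha])))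

lemma norm_lawSum_lt {N : ℕ} {add : K → K → K}
    (hadd : ∀ a b : K, ‖a‖ < 1 → ‖b‖ < 1 → ‖add a b‖ < 1) {f : Fin N → K} (hf : ∀ i, ‖f i‖ < 1) :
    ‖lawSum add f‖ < 1 := by
  apply norm_lawFoldr_lt hadd
  intro a ha
  obtain ⟨i, -, rfl⟩ := List.mem_map.mp ha
  exact hf i

/-- An additive map on the ball commutes with integer multiples. -/
lemma map_lawNsmul {add add' : K → K → K} {φ : K → K}
    (hadd : ∀ a b : K, ‖a‖ < 1 → ‖b‖ < 1 → ‖add a b‖ < 1) (h0 : φ 0 = 0)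
    (hφ : ∀ a b : K, ‖a‖ < 1 → ‖b‖ < 1 → φ (add a b) = add' (φ a) (φ b))
    (m : ℕ) {x : K} (hx : ‖x‖ < 1) : φ (lawNsmul add m x) = lawNsmul add' m (φ x) := by
  induction m with
  | zero => simpa using h0
  | succ m ih =>
    rw [lawNsmul_succ, hφ _ _ (norm_lawNsmul_lt hadd m hx) hx, ih, lawNsmul_succ]

/-- An additive map on the ball commutes with folds along lists. -/
lemma map_lawFoldr {add add' : K → K → K} {φ : K → K}
    (hadd : ∀ a b : K, ‖a‖ < 1 → ‖b‖ < 1 → ‖add a b‖ < 1) (h0 : φ 0 = 0)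
    (hφ : ∀ a b : K, ‖a‖ < 1 → ‖b‖ < 1 → φ (add a b) = add' (φ a) (φ b))
    (l : List K) (hl : ∀ a ∈ l, ‖a‖ < 1) :
    φ (l.foldr add 0) = (l.map φ).foldr add' 0 := by
  induction l with
  | nil => simpa using h0
  | cons i l ih =>
    rw [List.foldr_cons, List.map_cons, List.foldr_cons,
      hφ _ _ (hl i (by simp)) (norm_lawFoldr_lt hadd l (fun a ha => hl a (by simp [ha]))),
      ih (fun a ha => hl a (by simp [ha]))]

lemma map_lawSum {N : ℕ} {add add' : K → K → K} {φ : K → K}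
    (hadd : ∀ a b : K, ‖a‖ < 1 → ‖b‖ < 1 → ‖add a b‖ < 1) (h0 : φ 0 = 0)
    (hφ : ∀ a b : K, ‖a‖ < 1 → ‖b‖ < 1 → φ (add a b) = add' (φ a) (φ b))
    {f : Fin N → K} (hf : ∀ i, ‖f i‖ < 1) :
    φ (lawSum add f) = lawSum add' (fun i => φ (f i)) := by
  unfold lawSum
  rw [map_lawFoldr hadd h0 hφ, List.map_map]
  · rfl
  · intro a ha
    obtain ⟨i, -, rfl⟩ := List.mem_map.mp ha
    exact hf i

lemma lawSum_all_zero {N : ℕ} {add : K → K → K} (h00 : add 0 0 = 0) :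
    lawSum add (fun _ : Fin N => (0 : K)) = 0 := by
  unfold lawSum
  generalize List.finRange N = l
  induction l with
  | nil => rfl
  | cons i l ih => simp only [List.map_cons, List.foldr_cons, ih, h00]

lemma lawNsmul_of_zero {add : K → K → K} (h00 : add 0 0 = 0) (m : ℕ) :
    lawNsmul add m (0 : K) = 0 := by
  induction m with
  | zero => rfl
  | succ m ih => rw [lawNsmul_succ, ih, h00]

end LawOpsNorm

section Abstract

variable {K : Type*} [NormedField K] [IsUltrametricDist K] [CompleteSpace K]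
variable {p : ℕ} [Fact p.Prime] [CharP K p] [PerfectRing K p]
variable {N h n : ℕ} {w : ℕ → (Fin N → K) → K}
variable {add0 : K → K → K} {addH : (Fin N → K) → K → K → K}

/-- `η_v(x) = Σ^{Γ₀}_i [v_i]_{Γ₀} x_i`, so that `ξ_v(x) = η_v(x)^{1/q}`. -/
noncomputable def etaV (add0 : K → K → K) (v : Fin N → Fin p) (x : Fin N → K) : K :=
  lawSum add0 (fun i => lawNsmul add0 (v i : ℕ) (x i))

lemma qroot_zero' : qroot p n (0 : K) = 0 := by
  apply qroot_eq_of_pow_eq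
  rw [zero_pow (pow_ne_zero _ (Fact.out : p.Prime).ne_zero)]

/-- `ξ_v(x) = η_v(x)^{1/q}`. -/
theorem xiV_eq_qroot (hL : LawFamily w p h n add0 addH) (v : Fin N → Fin p) {x : Fin N → K}
    (hx : ∀ i, ‖x i‖ < 1) : xiV add0 p n v x = qroot p n (etaV add0 v x) := by
  unfold xiV etaV
  rw [map_lawSum hL.add0_mem qroot_zero' (fun a b ha hb => hL.qroot_add0 ha hb)
    (fun i => norm_lawNsmul_lt hL.add0_mem _ (hx i))]
  congr 1
  funext i
  rw [map_lawNsmul hL.add0_mem qroot_zero' (fun a b ha hb => hL.qroot_add0 ha hb) _ (hx i)]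

theorem norm_etaV_lt (hL : LawFamily w p h n add0 addH) (v : Fin N → Fin p) {x : Fin N → K}
    (hx : ∀ i, ‖x i‖ < 1) : ‖etaV add0 v x‖ < 1 :=
  norm_lawSum_lt hL.add0_mem (fun i => norm_lawNsmul_lt hL.add0_mem _ (hx i))

theorem norm_xiV_lt (hL : LawFamily w p h n add0 addH) (v : Fin N → Fin p) {x : Fin N → K}
    (hx : ∀ i, ‖x i‖ < 1) : ‖xiV add0 p n v x‖ < 1 := by
  rw [xiV_eq_qroot hL v hx]
  exact norm_qroot_lt n (norm_etaV_lt hL v hx)

/-- `q_t(η_v b) = 0` whenever all `q_t(b_i) = 0`. -/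
theorem qmap_etaV_eq_zero (hL : LawFamily w p h n add0 addH) (hw : WFamily K N (p ^ (n - h)) w)
    (h1 : 1 ≤ h) (hhn : h ≤ n) (hH00 : ∀ t : Fin N → K, ‖t‖ < 1 → addH t 0 0 = 0)
    {t : Fin N → K} (ht : ‖t‖ < 1) {b : Fin N → K} (hb : ∀ i, ‖b i‖ < 1)
    (hq : ∀ i, qmap w p h n t (b i) = 0) (v : Fin N → Fin p) :
    qmap w p h n t (etaV add0 v b) = 0 := by
  have hadd : ∀ a c : K, ‖a‖ < 1 → ‖c‖ < 1 →
      qmap w p h n t (add0 a c) = addH t (qmap w p h n t a) (qmap w p h n t c) :=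
    fun a c ha hc => qmap_add0 hL hw h1 hhn ht ha hc
  have h0 := qmap_zero hw h1 hhn ht
  unfold etaV
  rw [map_lawSum hL.add0_mem h0 hadd (fun i => norm_lawNsmul_lt hL.add0_mem _ (hb i))]
  have : (fun i => qmap w p h n t (lawNsmul add0 (v i : ℕ) (b i))) = fun _ => (0 : K) := by
    funext i
    rw [map_lawNsmul hL.add0_mem h0 hadd _ (hb i), hq i]
    exact lawNsmul_of_zero (hH00 t ht) _
  rw [this]
  exact lawSum_all_zero (hH00 t ht)

variable (p h n) in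
/-- `Y_v(t,x) = q_t(ξ_v x)^{p^h}`. -/
noncomputable def Yv (w : ℕ → (Fin N → K) → K) (add0 : K → K → K) (v : Fin N → Fin p) (t x : Fin N → K) :
    K := (qmap w p h n t (xiV add0 p n v x)) ^ p ^ h

/-- D7, the key identity: `W_t(Y_v) = 0`. -/
theorem wSeries_Yv_eq_zero (hL : LawFamily w p h n add0 addH) (hw : WFamily K N (p ^ (n - h)) w)
    (h1 : 1 ≤ h) (hhn : h ≤ n) (hH00 : ∀ t : Fin N → K, ‖t‖ < 1 → addH t 0 0 = 0)
    {t : Fin N → K} (ht : ‖t‖ < 1) {b : Fin N → K} (hb : ∀ i, ‖b i‖ < 1)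
    (hq : ∀ i, qmap w p h n t (b i) = 0) (v : Fin N → Fin p) :
    wSeries w t (Yv p h n w add0 v t b) = 0 := by
  have h2 : pMap w p h t (qmap w p h n t (xiV add0 p n v b)) = 0 := by
    rw [xiV_eq_qroot hL v hb, pMap_qmap_qroot hw h1 hhn ht (norm_etaV_lt hL v hb)]
    exact qmap_etaV_eq_zero hL hw h1 hhn hH00 ht hb hq v
  exact h2

/-- The data of D8: `θ : H_{t'} → H_t` over `O_K`, uniformly close to the automorphism `g` of `Γ₀`
with inverse `α`; everything as functions on the open ball. -/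
structure OrbitMaps (w : ℕ → (Fin N → K) → K) (p h n : ℕ) [Fact p.Prime] [CharP K p]
    [PerfectRing K p] (add0 : K → K → K) (t t' : Fin N → K) (θ g α : K → K) : Prop where
  θ_mem : ∀ a : K, ‖a‖ < 1 → ‖θ a‖ < 1
  θ_lip : ∀ a b : K, ‖a‖ < 1 → ‖b‖ < 1 → ‖θ a - θ b‖ ≤ ‖a - b‖
  θ_comm : ∀ a : K, ‖a‖ < 1 → θ (pMap w p h t' a) = pMap w p h t (θ a)
  θ_inj : ∀ a b : K, ‖a‖ < 1 → ‖b‖ < 1 → θ a = θ b → a = b
  θ_zero : θ 0 = 0
  g_mem : ∀ a : K, ‖a‖ < 1 → ‖g a‖ < 1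
  g_root : ∀ a : K, ‖a‖ < 1 → g (qroot p n a) = qroot p n (g a)
  close : ∃ v0 : ℝ, v0 < 1 ∧ ∀ a : K, ‖a‖ < 1 → ‖θ a - g a‖ ≤ v0
  α_mem : ∀ a : K, ‖a‖ < 1 → ‖α a‖ < 1
  α_root : ∀ a : K, ‖a‖ < 1 → α (qroot p n a) = qroot p n (α a)
  α_add : ∀ a b : K, ‖a‖ < 1 → ‖b‖ < 1 → α (add0 a b) = add0 (α a) (α b)
  α_zero : α 0 = 0
  g_α : ∀ a : K, ‖a‖ < 1 → g (α a) = a

/-- D2(e) in the situation of D8: `θ(q_{t'} x) = q_t(g x)`. -/
theorem OrbitMaps.intertwine {t t' : Fin N → K} {θ g α : K → K}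
    (hO : OrbitMaps w p h n add0 t t' θ g α) (hw : WFamily K N (p ^ (n - h)) w)
    (h1 : 1 ≤ h) (hhn : h ≤ n) (ht : ‖t‖ < 1) (ht' : ‖t'‖ < 1) {x : K} (hx : ‖x‖ < 1) :
    θ (qmap w p h n t' x) = qmap w p h n t (g x) := by
  obtain ⟨v0, hv0, hcl⟩ := hO.close
  exact qmap_intertwine hw h1 hhn ht ht' hO.θ_mem hO.θ_lip hO.θ_comm hO.g_mem hO.g_root hv0 hcl hx

/-- D8: `θ(q_{t'}(α x)) = q_t(x)`. -/
theorem OrbitMaps.qmap_α {t t' : Fin N → K} {θ g α : K → K}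
    (hO : OrbitMaps w p h n add0 t t' θ g α) (hw : WFamily K N (p ^ (n - h)) w)
    (h1 : 1 ≤ h) (hhn : h ≤ n) (ht : ‖t‖ < 1) (ht' : ‖t'‖ < 1) {x : K} (hx : ‖x‖ < 1) :
    θ (qmap w p h n t' (α x)) = qmap w p h n t x := by
  rw [hO.intertwine hw h1 hhn ht ht' (hO.α_mem x hx), hO.g_α x hx]

/-- D8: if `q_t(b_i) = 0` then `q_{t'}(α b_i) = 0`. -/
theorem OrbitMaps.qmap_α_eq_zero {t t' : Fin N → K} {θ g α : K → K}
    (hO : OrbitMaps w p h n add0 t t' θ g α) (hw : WFamily K N (p ^ (n - h)) w)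
    (h1 : 1 ≤ h) (hhn : h ≤ n) (ht : ‖t‖ < 1) (ht' : ‖t'‖ < 1) {x : K} (hx : ‖x‖ < 1)
    (hq : qmap w p h n t x = 0) : qmap w p h n t' (α x) = 0 := by
  apply hO.θ_inj _ _ (norm_qmap_lt hw h1 hhn ht' (hO.α_mem x hx)) (by simp)
  rw [hO.qmap_α hw h1 hhn ht ht' hx, hq, hO.θ_zero]

/-- `ξ_v(α b) = α(ξ_v b)`. -/
theorem OrbitMaps.xiV_α {t t' : Fin N → K} {θ g α : K → K}
    (hO : OrbitMaps w p h n add0 t t' θ g α) (hL : LawFamily w p h n add0 addH)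
    (v : Fin N → Fin p) {b : Fin N → K} (hb : ∀ i, ‖b i‖ < 1) :
    xiV add0 p n v (fun i => α (b i)) = α (xiV add0 p n v b) := by
  unfold xiV
  rw [map_lawSum hL.add0_mem hO.α_zero hO.α_add
    (fun i => norm_lawNsmul_lt hL.add0_mem _ (norm_qroot_lt n (hb i)))]
  congr 1
  funext i
  rw [map_lawNsmul hL.add0_mem hO.α_zero hO.α_add _ (norm_qroot_lt n (hb i)),
    hO.α_root _ (hb i)]

/-- D8: `θ(q_{t'}(ξ_v(α b))) = q_t(ξ_v b)`. -/
theorem OrbitMaps.qmap_xiV_α {t t' : Fin N → K} {θ g α : K → K}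
    (hO : OrbitMaps w p h n add0 t t' θ g α) (hL : LawFamily w p h n add0 addH)
    (hw : WFamily K N (p ^ (n - h)) w)
    (h1 : 1 ≤ h) (hhn : h ≤ n) (ht : ‖t‖ < 1) (ht' : ‖t'‖ < 1)
    (v : Fin N → Fin p) {b : Fin N → K} (hb : ∀ i, ‖b i‖ < 1) :
    θ (qmap w p h n t' (xiV add0 p n v (fun i => α (b i)))) = qmap w p h n t (xiV add0 p n v b) := by
  rw [hO.xiV_α hL v hb, hO.qmap_α hw h1 hhn ht ht' (norm_xiV_lt hL v hb)]

/-- `p^h`-th powers are injective in characteristic `p`. -/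
lemma pow_p_pow_injective {a b : K} (hab : a ^ p ^ h = b ^ p ^ h) : a = b :=
  iterateFrobenius_inj K p h (by simpa [iterateFrobenius_def] using hab)

/-! ### `D(x)` for the family `ξ_v(x)`, `v : Fin N → Fin p`. -/

variable (p h n) in
/-- The chart `D(x)` for the family `ξ_v(x) = Σ^{Γ₀}_i [v_i]_{Γ₀} x_i^{1/q}`, `v ∈ {0..p-1}^N`. -/
noncomputable def Dmap (w : ℕ → (Fin N → K) → K) (add0 : K → K → K) (x : Fin N → K) : Fin N → K :=
  chartFix w p h n (fun v : Fin N → Fin p => xiV add0 p n v x)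

lemma card_V : Fintype.card (Fin N → Fin p) = p ^ N := by simp

/-- D7: points with a lattice are fixed points: `D(b) = t`. -/
theorem Dmap_eq_of_lattice (hL : LawFamily w p h n add0 addH) (hw : WFamily K N (p ^ (n - h)) w)
    (hq : WQuad w p) (hN : N = n - h) (h1 : 1 ≤ h) (hhn : h ≤ n)
    (hH00 : ∀ t : Fin N → K, ‖t‖ < 1 → addH t 0 0 = 0)
    {t : Fin N → K} (ht : ‖t‖ < 1) {b : Fin N → K} (hb : ∀ i, ‖b i‖ < 1)
    (hq0 : ∀ i, qmap w p h n t (b i) = 0)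
    (hinj : Function.Injective
      (fun v : Fin N → Fin p => qmap w p h n t (xiV add0 p n v b))) :
    Dmap p h n w add0 b = t := by
  have hξ : ∀ v : Fin N → Fin p, ‖xiV add0 p n v b‖ < 1 :=
    fun v => norm_xiV_lt hL v hb
  haveI : Nonempty (Fin N → Fin p) := ⟨fun _ => ⟨0, (Fact.out : p.Prime).pos⟩⟩
  obtain ⟨v₀, hv₀⟩ := Finite.exists_max
    (fun v : Fin N → Fin p => ‖xiV add0 p n v b‖)
  refine chartFix_eq_of_roots hw hq hN h1 hhn card_V (s := _) (norm_nonneg _) (hξ v₀) hv₀ ht ?_ ?_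
  · intro v
    rw [xiV_eq_qroot hL _ hb, pMap_qmap_qroot hw h1 hhn ht (norm_etaV_lt hL _ hb)]
    exact qmap_etaV_eq_zero hL hw h1 hhn hH00 ht hb hq0 _
  · intro v v' hvv
    exact hinj (pow_p_pow_injective (p := p) (h := h) hvv)

/-- D8: `D(α b) = t'`, the coordinates of the transformed point. -/
theorem Dmap_orbit {t t' : Fin N → K} {θ g α : K → K}
    (hO : OrbitMaps w p h n add0 t t' θ g α) (hL : LawFamily w p h n add0 addH)
    (hw : WFamily K N (p ^ (n - h)) w) (hq : WQuad w p) (hN : N = n - h) (h1 : 1 ≤ h) (hhn : h ≤ n)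
    (hH00 : ∀ t : Fin N → K, ‖t‖ < 1 → addH t 0 0 = 0) (ht : ‖t‖ < 1) (ht' : ‖t'‖ < 1)
    {b : Fin N → K} (hb : ∀ i, ‖b i‖ < 1) (hq0 : ∀ i, qmap w p h n t (b i) = 0)
    (hinj : Function.Injective
      (fun v : Fin N → Fin p => qmap w p h n t (xiV add0 p n v b))) :
    Dmap p h n w add0 (fun i => α (b i)) = t' := by
  refine Dmap_eq_of_lattice hL hw hq hN h1 hhn hH00 ht' (fun i => hO.α_mem _ (hb i))
    (fun i => hO.qmap_α_eq_zero hw h1 hhn ht ht' (hb i) (hq0 i)) ?_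
  intro v v' hvv
  apply hinj
  simp only at hvv ⊢
  rw [← hO.qmap_xiV_α hL hw h1 hhn ht ht' _ hb, ← hO.qmap_xiV_α hL hw h1 hhn ht ht' _ hb, hvv]

/-- D9, abstract form: if `F ∘ D` vanishes on the polydisc and every point of a set `S` has a
lattice, then `F` vanishes on `S`. -/
theorem eq_zero_of_comp_Dmap {β : Type*} [Zero β] {F : (Fin N → K) → β}
    (hF : ∀ x : Fin N → K, (∀ i, ‖x i‖ < 1) → F (Dmap p h n w add0 x) = 0)
    {t : Fin N → K} {b : Fin N → K} (hb : ∀ i, ‖b i‖ < 1) (hDb : Dmap p h n w add0 b = t) :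
    F t = 0 := by
  rw [← hDb]
  exact hF b hb

end Abstract

end Crest.Agent.LT
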