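/-
S0351 (row 227), BLUEPRINT section D5, last sentence: the iterates `t^(m)(x)_j`, the chart `D(x)_j`
and `f ∘ D` (for `f` in the Lubin-Tate ring) are in the class `Apx` of `LatApx.lean`.

The first sections are abstract (`WFamily`, `WQuad`, `IsApx` of each `w_l`), the last section is the
concrete Hazewinkel instance: `isApx_Dmap`, `isApx_evT_Dmap`.
-/
import Crest.Agent.Lib.LubinTate.LatApx
import Crest.Agent.Lib.LubinTate.LatOrbit
import Crest.Agent.Lib.LubinTate.LatEval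

set_option autoImplicit false
set_option linter.unusedSectionVars false
set_option linter.unusedVariables false

namespace Crest.Agent.LT

section Tools

variable {p : ℕ} [hp : Fact p.Prime]
variable {k : Type*} [Field k] [CharP k p] [PerfectRing k p]
variable {K : Type*} [NormedField K] [IsUltrametricDist K] [CharP K p] [PerfectRing K p]
variable {τ σ : Type*} [Fintype τ] [Fintype σ]
variable {ι : k →+* K}

lemma inMK_iff_norm_lt {x : τ → K} : InMK x ↔ ‖x‖ < 1 :=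
  (pi_norm_lt_iff one_pos).symm

lemma tupleRad_eq_norm (x : τ → K) : tupleRad x = ‖x‖ := by
  rw [Pi.norm_def]; rfl

/-- Infinite sums of members of `Apx` with tails of arbitrarily high order. -/
lemma IsApx.of_hasSum (hι : ∀ a, ‖ι a‖ ≤ 1) {f : ℕ → (τ → K) → K} (hf : ∀ l, IsApx p ι (f l))
    (htail : ∀ c : ℝ, 0 < c → ∃ L : ℕ, ∀ l, L ≤ l → ∀ x, InMK x → ‖f l x‖ ≤ tupleRad x ^ c)
    {F : (τ → K) → K} (hF : ∀ x, InMK x → HasSum (fun l => f l x) (F x)) : IsApx p ι F := by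
  refine IsApx.of_approx (fun x hx => ?_) (fun c hc => ?_)
  · rw [← (hF x hx).tsum_eq]
    exact IsUltrametricDist.norm_tsum_le_of_forall_le_of_nonneg zero_le_one
      (fun l => (hf l).1 x hx)
  · obtain ⟨L, hL⟩ := htail c hc
    refine ⟨fun x => ∑ l ∈ Finset.range L, f l x, IsApx.sum hι _ (fun l _ => hf l), fun x hx => ?_⟩
    have h1 : HasSum (fun l => f (l + L) x) (F x - ∑ l ∈ Finset.range L, f l x) :=
      (hasSum_nat_add_iff' L).2 (hF x hx)
    rw [← h1.tsum_eq]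
    exact IsUltrametricDist.norm_tsum_le_of_forall_le_of_nonneg
      (Real.rpow_nonneg (tupleRad_nonneg x) c) (fun l => hL (l + L) (by omega) x hx)

omit [IsUltrametricDist K] [CharP K p] [PerfectRing K p] in
lemma norm_pRt_le_rpow [CharP K p] [PerfectRing K p] {m : ℕ} {y : K} {r e : ℝ} (hr : 0 ≤ r)
    (h : ‖y‖ ≤ r ^ e) : ‖pRt p m y‖ ≤ r ^ (e / (p ^ m : ℕ)) := by
  have hq : 0 < p ^ m := pow_pos hp.out.pos _
  have hq' : ((p ^ m : ℕ) : ℝ) ≠ 0 := by exact_mod_cast hq.ne'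
  by_contra hc
  push Not at hc
  have h2 : (r ^ (e / (p ^ m : ℕ))) ^ (p ^ m) < ‖pRt p m y‖ ^ (p ^ m) :=
    pow_lt_pow_left₀ hc (Real.rpow_nonneg hr _) hq.ne'
  rw [norm_pRt_pow, ← Real.rpow_natCast, ← Real.rpow_mul hr, div_mul_cancel₀ _ hq'] at h2
  linarith

/-- `F ∈ Apx` with `‖F x‖ ≤ tupleRad x ^ c`. -/
def SA (ι : k →+* K) (c : ℝ) (F : (τ → K) → K) : Prop :=
  IsApx p ι F ∧ ∀ x, InMK x → ‖F x‖ ≤ tupleRad x ^ c

lemma SA.mono {c c' : ℝ} {F : (τ → K) → K} (hF : SA (p := p) ι c F) (hc' : 0 ≤ c') (h : c' ≤ c) :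
    SA (p := p) ι c' F :=
  ⟨hF.1, fun x hx => (hF.2 x hx).trans (rpow_tupleRad_mono hx hc' h)⟩

lemma rad_rpow_lt_one {x : τ → K} (hx : InMK x) {c : ℝ} (hc : 0 < c) : tupleRad x ^ c < 1 :=
  Real.rpow_lt_one (tupleRad_nonneg x) (tupleRad_lt_one hx) hc

lemma SA.lt_one {c : ℝ} {F : (τ → K) → K} (hF : SA (p := p) ι c F) (hc : 0 < c) {x : τ → K}
    (hx : InMK x) : ‖F x‖ < 1 :=
  (hF.2 x hx).trans_lt (rad_rpow_lt_one hx hc)

lemma SA.zero (hι : ∀ a, ‖ι a‖ ≤ 1) (c : ℝ) : SA (p := p) ι c (fun _ : τ → K => (0 : K)) := by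
  refine ⟨by simpa using IsApx.const (p := p) (τ := τ) (ι := ι) hι (0 : k), fun x _ => ?_⟩
  rw [norm_zero]
  exact Real.rpow_nonneg (tupleRad_nonneg x) c

lemma SA.coord (i : τ) : SA (p := p) ι 1 (fun x : τ → K => x i) := by
  refine ⟨IsApx.coord i, fun x _ => ?_⟩
  rw [Real.rpow_one]
  exact norm_le_tupleRad x i

lemma SA.pRt {c : ℝ} {F : (τ → K) → K} (hF : SA (p := p) ι c F) (m : ℕ) :
    SA (p := p) ι (c / (p ^ m : ℕ)) (fun x => Crest.Agent.LT.pRt p m (F x)) :=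
  ⟨hF.1.rootIter m, fun x hx => norm_pRt_le_rpow (tupleRad_nonneg x) (hF.2 x hx)⟩

lemma norm_pi_le_rad {N : ℕ} {t : Fin N → K} {r : ℝ} (hr : 0 ≤ r) (h : ∀ j, ‖t j‖ ≤ r) : ‖t‖ ≤ r :=
  (pi_norm_le_iff_of_nonneg hr).2 h

/-- `a ↦ w(t(x))` for a member `w` of `Apx`, when the coordinates of `t` are in `SA`. -/
lemma IsApx.comp_tuple {N : ℕ} {w : (Fin N → K) → K} (hι : ∀ a, ‖ι a‖ ≤ 1)
    (hw : IsApx p ι w) {t : (τ → K) → Fin N → K} {c : ℝ} (hc : 0 < c)
    (ht : ∀ j, SA (p := p) ι c (fun x => t x j)) : IsApx p ι (fun x => w (t x)) :=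
  hw.comp hι (H := fun j x => t x j) (fun j => (ht j).1) hc (fun j x hx => (ht j).2 x hx)

end Tools

/-! ### Values of power series over `k` -/

section Series

variable {p : ℕ} [hp : Fact p.Prime]
variable {k : Type*} [Field k] [CharP k p] [PerfectRing k p]
variable {K : Type*} [NormedField K] [IsUltrametricDist K] [CompleteSpace K] [CharP K p]
  [PerfectRing K p]
variable {τ σ : Type*} [Fintype τ] [Fintype σ]
variable {ι : k →+* K}

lemma norm_monoB_le_rad (y : σ → K) (e : σ →₀ ℕ) :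
    ‖Crest.Agent.LT.monoB y e‖ ≤ tupleRad y ^ (Finsupp.degree e) := by
  classical
  induction e using Finsupp.induction_linear with
  | zero => simp
  | add e e' he he' =>
    rw [monoB_add, norm_mul, map_add, pow_add]
    exact mul_le_mul he he' (norm_nonneg _) (pow_nonneg (tupleRad_nonneg y) _)
  | single i m =>
    rw [monoB_single, norm_pow, Finsupp.degree_single]
    exact pow_le_pow_left₀ (norm_nonneg _) (norm_le_tupleRad y i) _

/-- The value of a power series over `k` is in `Apx`. -/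
theorem isApx_eval_map (hι : ∀ a, ‖ι a‖ ≤ 1) (T : MvPowerSeries σ k) :
    IsApx p ι (fun y : σ → K => Crest.Agent.LT.eval y (MvPowerSeries.map ι T)) := by
  have hT : IsIntS (MvPowerSeries.map ι T) := isIntS_map hι T
  refine IsApx.of_poly_approx
    (fun y hy => norm_eval_le_one hT (inMK_iff_norm_lt.1 hy)) (fun D hD => ?_)
  obtain ⟨d, hd⟩ := exists_nat_ge D
  have hfin := Finsupp.finite_of_degree_le (σ := σ) d
  refine ⟨∑ e ∈ hfin.toFinset, MvPolynomial.monomial e (MvPowerSeries.coeff e T), fun y hy => ?_⟩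
  have hsum := eval_summable hT (inMK_iff_norm_lt.1 hy)
  have h1 := hsum.sum_add_tsum_compl (s := hfin.toFinset)
  have h2 : MvPolynomial.eval₂ ι y
      (∑ e ∈ hfin.toFinset, MvPolynomial.monomial e (MvPowerSeries.coeff e T))
      = ∑ e ∈ hfin.toFinset,
        MvPowerSeries.coeff e (MvPowerSeries.map ι T) * Crest.Agent.LT.monoB y e := by
    rw [MvPolynomial.eval₂_sum]
    refine Finset.sum_congr rfl fun e _ => ?_
    rw [MvPolynomial.eval₂_monomial, MvPowerSeries.coeff_map]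
    rfl
  have h3 : Crest.Agent.LT.eval y (MvPowerSeries.map ι T) = _ := h1.symm
  rw [h2, h3, add_sub_cancel_left]
  refine IsUltrametricDist.norm_tsum_le_of_forall_le_of_nonneg
    (Real.rpow_nonneg (tupleRad_nonneg y) _) (fun e => ?_)
  obtain ⟨e, he⟩ := e
  have he' : d < Finsupp.degree e := by
    have : e ∉ hfin.toFinset := by simpa using he
    simpa using this
  simp only [norm_mul]
  have hc : ‖MvPowerSeries.coeff e (MvPowerSeries.map ι T)‖ ≤ 1 := hT e
  have h4 := norm_monoB_le_rad y e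
  have h5 : tupleRad y ^ Finsupp.degree e ≤ tupleRad y ^ D := by
    rw [← Real.rpow_natCast]
    refine rpow_tupleRad_mono hy hD.le ?_
    have : (d : ℝ) ≤ ((Finsupp.degree e : ℕ) : ℝ) := by exact_mod_cast he'.le
    linarith
  calc _ ≤ 1 * tupleRad y ^ D := mul_le_mul hc (h4.trans h5) (norm_nonneg _) zero_le_one
    _ = _ := one_mul _

end Series

/-! ### The abstract chart -/

section Chart

open Polynomial

variable {p : ℕ} [hp : Fact p.Prime]
variable {k : Type*} [Field k] [CharP k p] [PerfectRing k p]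
variable {K : Type*} [NormedField K] [IsUltrametricDist K] [CompleteSpace K] [CharP K p]
  [PerfectRing K p]
variable {τ : Type*} [Fintype τ]
variable {ι : k →+* K}

/-- Coefficients of a product of linear factors with roots in `Apx`. -/
lemma isApx_coeff_prod (hι : ∀ a, ‖ι a‖ ≤ 1) {V : Type*} (Y : V → (τ → K) → K)
    (hY : ∀ v, IsApx p ι (Y v)) (s : Finset V) (m : ℕ) :
    IsApx p ι (fun x => (∏ v ∈ s, (X - C (Y v x))).coeff m) := by
  classical
  induction s using Finset.induction_on generalizing m with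
  | empty =>
    simp only [Finset.prod_empty, coeff_one]
    by_cases hm : m = 0
    · simpa [hm] using IsApx.const (p := p) (τ := τ) (ι := ι) hι (1 : k)
    · simpa [hm] using IsApx.const (p := p) (τ := τ) (ι := ι) hι (0 : k)
  | insert a s ha ih =>
    have hcoeff : ∀ (x : τ → K), (∏ v ∈ insert a s, (X - C (Y v x))).coeff m =
        (X * ∏ v ∈ s, (X - C (Y v x))).coeff m - Y a x * (∏ v ∈ s, (X - C (Y v x))).coeff m := by
      intro x
      rw [Finset.prod_insert ha, sub_mul, coeff_sub, coeff_C_mul]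
    simp only [hcoeff]
    refine IsApx.sub ?_ ((hY a).mul hι (ih m))
    cases m with
    | zero =>
      simpa [coeff_zero_eq_eval_zero] using IsApx.const (p := p) (τ := τ) (ι := ι) hι (0 : k)
    | succ m =>
      simpa [coeff_X_mul] using ih m

/-- Coefficients of the remainders `ρ_l(∏ (Y - Y_v))`, with `Y_v` in `Apx`. -/
lemma isApx_coeff_remPow (hι : ∀ a, ‖ι a‖ ≤ 1) {V : Type*} [Fintype V] (hV : 0 < Fintype.card V)
    (Y : V → (τ → K) → K) (hY : ∀ v, IsApx p ι (Y v)) (l m : ℕ) :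
    IsApx p ι (fun x => (remPow (∏ v, (X - C (Y v x))) l).coeff m) := by
  have hb : ∀ x : τ → K, RootBdd (∏ v, (X - C (Y v x))) (Fintype.card V)
      (Finset.univ.sup' (Finset.univ_nonempty_iff.2 (Fintype.card_pos_iff.1 hV))
        fun v => ‖Y v x‖) := by
    intro x
    have := rootBdd_prod (Finset.univ : Finset V) (fun v => Y v x)
      (R := Finset.univ.sup' (Finset.univ_nonempty_iff.2 (Fintype.card_pos_iff.1 hV))
        fun v => ‖Y v x‖) ?_ ?_
    · simpa [Finset.card_univ] using this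
    · haveI : Nonempty V := Fintype.card_pos_iff.1 hV
      obtain ⟨v⟩ := ‹Nonempty V›
      exact (norm_nonneg _).trans (Finset.le_sup' (fun v => ‖Y v x‖) (Finset.mem_univ v))
    · intro v hv
      exact Finset.le_sup' (fun v => ‖Y v x‖) hv
  induction l generalizing m with
  | zero =>
    have h1 : ∀ x : τ → K, (remPow (∏ v, (X - C (Y v x))) 0).coeff m =
        ι (if m = 0 then 1 else 0) := by
      intro x
      rw [remPow_of_lt (hb x).monic (by rw [(hb x).natDegree_eq]; exact hV), pow_zero, coeff_one]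
      split_ifs <;> simp
    simp only [h1]
    exact IsApx.const hι _
  | succ l ih =>
    have h1 : ∀ x : τ → K, (remPow (∏ v, (X - C (Y v x))) (l + 1)).coeff m =
        (X * remPow (∏ v, (X - C (Y v x))) l).coeff m -
          (remPow (∏ v, (X - C (Y v x))) l).coeff (Fintype.card V - 1) *
            (∏ v, (X - C (Y v x))).coeff m := by
      intro x
      have hd := (hb x).natDegree_eq
      rw [remPow_succ (hb x).monic (by rw [hd]; exact hV), coeff_sub, coeff_C_mul, hd]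
    simp only [h1]
    refine IsApx.sub ?_ ((ih _).mul hι (isApx_coeff_prod hι Y hY _ m))
    cases m with
    | zero =>
      simpa [coeff_zero_eq_eval_zero] using IsApx.const (p := p) (τ := τ) (ι := ι) hι (0 : k)
    | succ m =>
      simpa [coeff_X_mul] using ih m

variable {N h n : ℕ} {w : ℕ → (Fin N → K) → K}

lemma exists_nat_mul_ge {c c' : ℝ} (hc : 0 < c) : ∃ L : ℕ, c' ≤ c * L := by
  obtain ⟨L, hL⟩ := exists_nat_ge (c' / c)
  exact ⟨L, by rwa [div_le_iff₀' hc] at hL⟩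

lemma rad_pow_le {x : τ → K} (hx : InMK x) {c c' : ℝ} (hc : 0 < c) {L l : ℕ} (hc' : 0 < c')
    (hL : c' ≤ c * L) (hl : L ≤ l) : (tupleRad x ^ c) ^ l ≤ tupleRad x ^ c' := by
  rw [← Real.rpow_natCast, ← Real.rpow_mul (tupleRad_nonneg x)]
  refine rpow_tupleRad_mono hx hc'.le (hL.trans ?_)
  have : (L : ℝ) ≤ l := by exact_mod_cast hl
  exact mul_le_mul_of_nonneg_left this hc.le

/-- `[p]_t(A)`. -/
lemma SA.pMap (hι : ∀ a, ‖ι a‖ ≤ 1) (hw : WFamily K N (p ^ (n - h)) w)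
    (hwA : ∀ l, IsApx p ι (w l)) {t : (τ → K) → Fin N → K} {A : (τ → K) → K} {c : ℝ} (hc : 0 < c)
    (ht : ∀ j, SA (p := p) ι c (fun x => t x j)) (hA : SA (p := p) ι c A) :
    SA (p := p) ι c (fun x => Crest.Agent.LT.pMap w p h (t x) (A x)) := by
  have hp0 : 0 < p := hp.out.pos
  have htn : ∀ x, InMK x → ‖t x‖ ≤ tupleRad x ^ c := fun x hx =>
    norm_pi_le_rad (Real.rpow_nonneg (tupleRad_nonneg x) c) (fun j => (ht j).2 x hx)
  have htlt : ∀ x, InMK x → ‖t x‖ < 1 := fun x hx => (htn x hx).trans_lt (rad_rpow_lt_one hx hc)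
  have hY : ∀ x, InMK x → ‖A x ^ p ^ h‖ ≤ ‖A x‖ := fun x hx => by
    rw [norm_pow]
    exact pow_le_of_le_one (norm_nonneg _) (hA.lt_one hc hx).le (pow_ne_zero _ hp0.ne')
  have hYlt : ∀ x, InMK x → ‖A x ^ p ^ h‖ < 1 := fun x hx =>
    (hY x hx).trans_lt (hA.lt_one hc hx)
  refine ⟨?_, fun x hx => ?_⟩
  · refine IsApx.of_hasSum hι (f := fun l x => w l (t x) * (A x ^ p ^ h) ^ l) (fun l => ?_)
      (fun c' hc' => ?_) (fun x hx => ?_)
    · exact ((hwA l).comp_tuple hι hc ht).mul hι ((hA.1.pow hι _).pow hι l)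
    · obtain ⟨L, hL⟩ := exists_nat_mul_ge (c' := c') hc
      refine ⟨L, fun l hl x hx => ?_⟩
      rw [norm_mul, norm_pow]
      have h1 : ‖w l (t x)‖ ≤ 1 := hw.norm_le_one (htlt x hx) l
      have h2 : ‖A x ^ p ^ h‖ ^ l ≤ (tupleRad x ^ c) ^ l :=
        pow_le_pow_left₀ (norm_nonneg _) ((hY x hx).trans (hA.2 x hx)) l
      calc _ ≤ 1 * tupleRad x ^ c' :=
            mul_le_mul h1 (h2.trans (rad_pow_le hx hc hc' hL hl)) (by positivity) zero_le_one
        _ = _ := one_mul _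
    · exact (hw.summable (htlt x hx) (hYlt x hx)).hasSum
  · refine (hw.norm_pMap_le (htlt x hx) (hA.lt_one hc hx)).trans (max_le ?_ ?_)
    · refine (pow_le_of_le_one (norm_nonneg _) (hA.lt_one hc hx).le ?_).trans (hA.2 x hx)
      exact mul_ne_zero (pow_ne_zero _ hp0.ne') (pow_ne_zero _ hp0.ne')
    · have h1 : ‖A x‖ ^ p ^ h ≤ 1 := pow_le_one₀ (norm_nonneg _) (hA.lt_one hc hx).le
      exact (mul_le_of_le_one_right (norm_nonneg _) h1).trans (htn x hx)

/-- `[p]_t^[k](A)`. -/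
lemma SA.iterate_pMap (hι : ∀ a, ‖ι a‖ ≤ 1) (hw : WFamily K N (p ^ (n - h)) w)
    (hwA : ∀ l, IsApx p ι (w l)) {t : (τ → K) → Fin N → K} {A : (τ → K) → K} {c : ℝ} (hc : 0 < c)
    (ht : ∀ j, SA (p := p) ι c (fun x => t x j)) (hA : SA (p := p) ι c A) (m : ℕ) :
    SA (p := p) ι c (fun x => (Crest.Agent.LT.pMap w p h (t x))^[m] (A x)) := by
  induction m with
  | zero => simpa using hA
  | succ m ih =>
    simp only [Function.iterate_succ_apply']
    exact SA.pMap hι hw hwA hc ht ih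

lemma SA.iterate_qroot {A : (τ → K) → K} {c : ℝ} (hA : SA (p := p) ι c A) (m : ℕ) :
    SA (p := p) ι (c / ((p ^ n : ℕ) : ℝ) ^ m) (fun x => (qroot p n)^[m] (A x)) := by
  induction m with
  | zero => simpa using hA
  | succ m ih =>
    have := ih.pRt n
    simp only [Function.iterate_succ_apply']
    have e : c / ((p ^ n : ℕ) : ℝ) ^ (m + 1) = c / ((p ^ n : ℕ) : ℝ) ^ m / ((p ^ n : ℕ) : ℝ) := by
      rw [pow_succ, div_div]
    rw [e]
    exact this

/-- `‖q_t(x) - u_k(t,x)‖ ≤ ‖t‖ ^ (p^h)^k`. -/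
lemma norm_qmap_sub_uSeq_le (hw : WFamily K N (p ^ (n - h)) w) (h1 : 1 ≤ h) (hhn : h ≤ n)
    {t : Fin N → K} (ht : ‖t‖ < 1) {x : K} (hx : ‖x‖ < 1) (m : ℕ) :
    ‖qmap w p h n t x - uSeq w p h n t x m‖ ≤ ‖t‖ ^ (p ^ h) ^ m := by
  have hp1 : 1 ≤ p ^ h := Nat.one_le_pow _ _ hp.out.pos
  have hb : ∀ m', m ≤ m' → ‖uSeq w p h n t x m' - uSeq w p h n t x m‖ ≤ ‖t‖ ^ (p ^ h) ^ m := by
    intro m' hm'
    induction m', hm' using Nat.le_induction with
    | base => simpa using pow_nonneg (norm_nonneg t) _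
    | succ m' hm' ih =>
      have e : uSeq w p h n t x (m' + 1) - uSeq w p h n t x m =
          (uSeq w p h n t x (m' + 1) - uSeq w p h n t x m') +
            (uSeq w p h n t x m' - uSeq w p h n t x m) := by ring
      rw [e]
      refine norm_add_le_of_le ((uSeq_succ_sub_le hw hhn ht hx m').trans ?_) ih
      exact pow_le_pow_of_le_one (norm_nonneg _) ht.le (Nat.pow_le_pow_right hp1 hm')
  have hlim := ((tendsto_uSeq hw h1 hhn ht hx).sub_const (uSeq w p h n t x m)).norm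
  refine le_of_tendsto hlim ?_
  filter_upwards [Filter.eventually_ge_atTop m] with m' hm' using hb m' hm'

/-- `q_t(ξ)`, with `t`, `ξ` in `Apx`. -/
lemma SA.qmap (hι : ∀ a, ‖ι a‖ ≤ 1) (hw : WFamily K N (p ^ (n - h)) w) (h1 : 1 ≤ h) (hhn : h ≤ n)
    (hwA : ∀ l, IsApx p ι (w l)) {t : (τ → K) → Fin N → K} {ξ : (τ → K) → K} {c : ℝ} (hc : 0 < c)
    (ht : ∀ j, SA (p := p) ι c (fun x => t x j)) (hξ : SA (p := p) ι c ξ) :
    SA (p := p) ι c (fun x => Crest.Agent.LT.qmap w p h n (t x) (ξ x)) := by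
  have htn : ∀ x, InMK x → ‖t x‖ ≤ tupleRad x ^ c := fun x hx =>
    norm_pi_le_rad (Real.rpow_nonneg (tupleRad_nonneg x) c) (fun j => (ht j).2 x hx)
  have htlt : ∀ x, InMK x → ‖t x‖ < 1 := fun x hx => (htn x hx).trans_lt (rad_rpow_lt_one hx hc)
  have hbd : ∀ x, InMK x → ‖Crest.Agent.LT.qmap w p h n (t x) (ξ x)‖ ≤ tupleRad x ^ c :=
    fun x hx => norm_qmap_le hw h1 hhn (htlt x hx) (hξ.lt_one hc hx) (hξ.2 x hx) (htn x hx)
  refine ⟨IsApx.of_approx (fun x hx => (hbd x hx).trans (rad_rpow_lt_one hx hc).le)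
    (fun c' hc' => ?_), hbd⟩
  obtain ⟨L, hL⟩ := exists_nat_mul_ge (c' := c') hc
  refine ⟨fun x => uSeq w p h n (t x) (ξ x) L, ?_, fun x hx => ?_⟩
  · have hq1 : (1 : ℝ) ≤ ((p ^ n : ℕ) : ℝ) ^ L := by
      apply one_le_pow₀
      exact_mod_cast Nat.one_le_pow _ _ hp.out.pos
    have hq : 0 < c / ((p ^ n : ℕ) : ℝ) ^ L := div_pos hc (by linarith)
    have hA := hξ.iterate_qroot (n := n) L
    exact (SA.iterate_pMap (n := n) hι hw hwA hq
      (fun j => (ht j).mono hq.le (div_le_self hc.le hq1)) hA L).1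
  · have h2 : 1 < p ^ h := by
      have := two_le_pow p h1
      omega
    have hLle : L ≤ (p ^ h) ^ L := (Nat.lt_pow_self h2).le
    refine (norm_qmap_sub_uSeq_le hw h1 hhn (htlt x hx) (hξ.lt_one hc hx) L).trans ?_
    exact (pow_le_pow_left₀ (norm_nonneg _) (htn x hx) _).trans (rad_pow_le hx hc hc' hL hLle)

/-- One step of the iteration: `x ↦ T_x(t(x))_j`. -/
lemma isApx_chartMap (hι : ∀ a, ‖ι a‖ ≤ 1) (hw : WFamily K N (p ^ (n - h)) w) (h1 : 1 ≤ h)
    (hhn : h ≤ n) (hwA : ∀ l, IsApx p ι (w l)) {V : Type*} [Fintype V]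
    (hV : Fintype.card V = p ^ N) {t : (τ → K) → Fin N → K}
    {ξ : V → (τ → K) → K} {c : ℝ} (hc : 0 < c)
    (ht : ∀ j, SA (p := p) ι c (fun x => t x j)) (hξ : ∀ v, SA (p := p) ι c (ξ v)) (j : Fin N) :
    IsApx p ι (fun x => chartMap w p h n (fun v => ξ v x) (t x) j) := by
  have hp1 : 1 < p := hp.out.one_lt
  have hp0 : 0 < p := hp.out.pos
  have htn : ∀ x, InMK x → ‖t x‖ ≤ tupleRad x ^ c := fun x hx =>
    norm_pi_le_rad (Real.rpow_nonneg (tupleRad_nonneg x) c) (fun j => (ht j).2 x hx)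
  have htlt : ∀ x, InMK x → ‖t x‖ < 1 := fun x hx => (htn x hx).trans_lt (rad_rpow_lt_one hx hc)
  have hq := fun v => SA.qmap (n := n) hι hw h1 hhn hwA hc ht (hξ v)
  let Yv : V → (τ → K) → K := fun v x => Crest.Agent.LT.qmap w p h n (t x) (ξ v x) ^ p ^ h
  have hYA : ∀ v, IsApx p ι (Yv v) := fun v => (hq v).1.pow hι _
  have hYb : ∀ v x, InMK x → ‖Yv v x‖ ≤ tupleRad x ^ c := fun v x hx => by
    show ‖Crest.Agent.LT.qmap w p h n (t x) (ξ v x) ^ p ^ h‖ ≤ _
    rw [norm_pow]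
    exact (pow_le_of_le_one (norm_nonneg _) ((hq v).lt_one hc hx).le
      (pow_ne_zero _ hp0.ne')).trans ((hq v).2 x hx)
  have hV0 : 0 < Fintype.card V := by rw [hV]; exact pow_pos hp0 _
  have hej : expE p j < Fintype.card V := by
    rw [hV]; exact Nat.pow_lt_pow_right hp1 j.isLt
  refine (ht j).1.sub ?_
  have hP : ∀ x, InMK x → RootBdd (rootPoly (chartY w p h n (fun v => ξ v x)) (t x))
      (Fintype.card V) (tupleRad x ^ c) := fun x hx =>
    rootBdd_rootPoly (Real.rpow_nonneg (tupleRad_nonneg x) c) (fun v => hYb v x hx)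
  refine IsApx.of_hasSum hι (f := fun l x => w l (t x) *
      (remPow (rootPoly (chartY w p h n (fun v => ξ v x)) (t x)) l).coeff (expE p j))
    (fun l => ?_) (fun c' hc' => ?_) (fun x hx => ?_)
  · exact ((hwA l).comp_tuple hι hc ht).mul hι (isApx_coeff_remPow hι hV0 Yv hYA l (expE p j))
  · obtain ⟨L, hL⟩ := exists_nat_mul_ge (c' := c') hc
    refine ⟨Fintype.card V + expE p j + L, fun l hl x hx => ?_⟩
    rw [norm_mul]
    have h1' : ‖w l (t x)‖ ≤ 1 := hw.norm_le_one (htlt x hx) l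
    have h2 := remPow_coeff_le (Real.rpow_nonneg (tupleRad_nonneg x) c) (hP x hx) hV0
      (l := l) (by omega) hej
    have h3 := rad_pow_le hx hc hc' hL (l := l - expE p j) (by omega)
    calc _ ≤ 1 * tupleRad x ^ c' := mul_le_mul h1' (h2.trans h3) (norm_nonneg _) zero_le_one
      _ = _ := one_mul _
  · exact (remCoeff_summable (Real.rpow_nonneg (tupleRad_nonneg x) c) (rad_rpow_lt_one hx hc)
      (hP x hx) hV0 (fun l => hw.norm_le_one (htlt x hx) l) hej).hasSum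

section Spec

variable {V : Type*} [Fintype V]

/-- The iterates stay in the ball of radius `s ^ chartExp`. -/
lemma norm_chartIter_le (hw : WFamily K N (p ^ (n - h)) w) (hq : WQuad w p) (hN : N = n - h)
    (h1 : 1 ≤ h) (hhn : h ≤ n) (hV : Fintype.card V = p ^ N) {ξ : V → K} {s : ℝ} (hs0 : 0 ≤ s)
    (hs1 : s < 1) (hξ : ∀ v, ‖ξ v‖ ≤ s) (m : ℕ) (j : Fin N) :
    ‖chartIter w p h n ξ m j‖ ≤ s ^ chartExp p n := by
  obtain ⟨h2, -, h3⟩ := chartFix_spec hw hq hN h1 hhn hV hs0 hs1 hξ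
  have hE0 : 0 ≤ s ^ chartExp p n := pow_nonneg hs0 _
  have hE1 : s ^ chartExp p n ≤ 1 := pow_le_one₀ hs0 hs1.le
  have e : chartIter w p h n ξ m j = (chartIter w p h n ξ m - chartFix w p h n ξ) j +
      chartFix w p h n ξ j := by simp
  rw [e]
  refine norm_add_le_of_le ?_ ((norm_le_pi_norm _ j).trans h2)
  refine (norm_le_pi_norm _ j).trans ((h3 m).trans ?_)
  rw [pow_succ]
  exact mul_le_of_le_one_left hE0 (pow_le_one₀ hE0 hE1)

end Spec

/-- `x ↦ t^(m)(x)_j` is in `Apx`. -/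
theorem SA.chartIter (hι : ∀ a, ‖ι a‖ ≤ 1) (hw : WFamily K N (p ^ (n - h)) w) (hq : WQuad w p)
    (hN : N = n - h) (h1 : 1 ≤ h) (hhn : h ≤ n) (hwA : ∀ l, IsApx p ι (w l)) {V : Type*}
    [Fintype V] (hV : Fintype.card V = p ^ N) {ξ : V → (τ → K) → K} {c : ℝ} (hc : 0 < c)
    (hξ : ∀ v, SA (p := p) ι c (ξ v)) (m : ℕ) (j : Fin N) :
    SA (p := p) ι c (fun x => Crest.Agent.LT.chartIter w p h n (fun v => ξ v x) m j) := by
  have hn : 1 ≤ n := by omega
  have hbd : ∀ m j x, InMK x →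
      ‖Crest.Agent.LT.chartIter w p h n (fun v => ξ v x) m j‖ ≤ tupleRad x ^ c := by
    intro m j x hx
    have hs0 := Real.rpow_nonneg (tupleRad_nonneg x) c
    have hs1 := rad_rpow_lt_one hx hc
    exact (norm_chartIter_le hw hq hN h1 hhn hV hs0 hs1 (fun v => (hξ v).2 x hx) m j).trans
      (pow_le_of_le_one hs0 hs1.le (chartExp_pos (p := p) hn).ne')
  refine ⟨?_, hbd m j⟩
  induction m generalizing j with
  | zero => exact (SA.zero hι c).1
  | succ m ih =>
    exact isApx_chartMap hι hw h1 hhn hwA hV hc (fun j => ⟨ih j, hbd m j⟩) hξ j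

/-- `x ↦ D(x)_j` is in `Apx`. -/
theorem SA.chartFix (hι : ∀ a, ‖ι a‖ ≤ 1) (hw : WFamily K N (p ^ (n - h)) w) (hq : WQuad w p)
    (hN : N = n - h) (h1 : 1 ≤ h) (hhn : h ≤ n) (hwA : ∀ l, IsApx p ι (w l)) {V : Type*}
    [Fintype V] (hV : Fintype.card V = p ^ N) {ξ : V → (τ → K) → K} {c : ℝ} (hc : 0 < c)
    (hξ : ∀ v, SA (p := p) ι c (ξ v)) (j : Fin N) :
    SA (p := p) ι c (fun x => Crest.Agent.LT.chartFix w p h n (fun v => ξ v x) j) := by
  have hn : 1 ≤ n := by omega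
  have hEx : ∀ x : τ → K, InMK x → (tupleRad x ^ c) ^ chartExp p n ≤ tupleRad x ^ c := fun x hx =>
    pow_le_of_le_one (Real.rpow_nonneg (tupleRad_nonneg x) c) (rad_rpow_lt_one hx hc).le
      (chartExp_pos (p := p) hn).ne'
  have hspec := fun (x : τ → K) (hx : InMK x) =>
    chartFix_spec (ξ := fun v => ξ v x) hw hq hN h1 hhn hV (Real.rpow_nonneg (tupleRad_nonneg x) c)
      (rad_rpow_lt_one hx hc) (fun v => (hξ v).2 x hx)
  have hbd : ∀ x, InMK x → ‖Crest.Agent.LT.chartFix w p h n (fun v => ξ v x) j‖ ≤ tupleRad x ^ c :=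
    fun x hx => (norm_le_pi_norm _ j).trans (((hspec x hx).1).trans (hEx x hx))
  refine ⟨IsApx.of_approx (fun x hx => (hbd x hx).trans (rad_rpow_lt_one hx hc).le)
    (fun c' hc' => ?_), hbd⟩
  obtain ⟨L, hL⟩ := exists_nat_mul_ge (c' := c') hc
  refine ⟨fun x => Crest.Agent.LT.chartIter w p h n (fun v => ξ v x) L j,
    (SA.chartIter hι hw hq hN h1 hhn hwA hV hc hξ L j).1, fun x hx => ?_⟩
  have h2 := (hspec x hx).2.2 L
  have e : Crest.Agent.LT.chartFix w p h n (fun v => ξ v x) j -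
      Crest.Agent.LT.chartIter w p h n (fun v => ξ v x) L j =
      -((Crest.Agent.LT.chartIter w p h n (fun v => ξ v x) L -
        Crest.Agent.LT.chartFix w p h n (fun v => ξ v x)) j) := by
    simp
  rw [e, norm_neg]
  refine (norm_le_pi_norm _ j).trans (h2.trans ?_)
  refine (pow_le_pow_left₀ (pow_nonneg (Real.rpow_nonneg (tupleRad_nonneg x) c) _) (hEx x hx) _).trans ?_
  exact rad_pow_le hx hc hc' hL (by omega)

/-- The norm bound for `D(x)`: `‖D(x)‖ ≤ (tupleRad x ^ c) ^ chartExp`. -/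
theorem norm_chartFix_le_rad (hw : WFamily K N (p ^ (n - h)) w) (hq : WQuad w p)
    (hN : N = n - h) (h1 : 1 ≤ h) (hhn : h ≤ n) {V : Type*}
    [Fintype V] (hV : Fintype.card V = p ^ N) {ξ : V → (τ → K) → K} {c : ℝ} (hc : 0 < c)
    (hξ : ∀ v x, InMK x → ‖ξ v x‖ ≤ tupleRad x ^ c) {x : τ → K} (hx : InMK x) :
    ‖Crest.Agent.LT.chartFix w p h n (fun v => ξ v x)‖ ≤ (tupleRad x ^ c) ^ chartExp p n :=
  (chartFix_spec (ξ := fun v => ξ v x) hw hq hN h1 hhn hV (Real.rpow_nonneg (tupleRad_nonneg x) c)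
      (rad_rpow_lt_one hx hc) (fun v => hξ v x hx)).1

/-! ### `ξ_v(x)` under a law whose values are in `Apx` -/

section LawOps

variable {add : K → K → K} {c : ℝ}

lemma SA.lawNsmul (hι : ∀ a, ‖ι a‖ ≤ 1)
    (hadd : ∀ a b : (τ → K) → K, SA (p := p) ι c a → SA (p := p) ι c b →
      SA (p := p) ι c (fun x => add (a x) (b x)))
    {a : (τ → K) → K} (ha : SA (p := p) ι c a) (m : ℕ) :
    SA (p := p) ι c (fun x => Crest.Agent.LT.lawNsmul add m (a x)) := by
  induction m with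
  | zero => simpa using SA.zero (p := p) (τ := τ) (ι := ι) hι c
  | succ m ih => exact hadd _ _ ih ha

lemma SA.lawFoldr (hι : ∀ a, ‖ι a‖ ≤ 1)
    (hadd : ∀ a b : (τ → K) → K, SA (p := p) ι c a → SA (p := p) ι c b →
      SA (p := p) ι c (fun x => add (a x) (b x)))
    {α : Type*} (l : List α) {f : α → (τ → K) → K} (hf : ∀ i, SA (p := p) ι c (f i)) :
    SA (p := p) ι c (fun x => (l.map (fun i => f i x)).foldr add 0) := by
  induction l with
  | nil => simpa using SA.zero (p := p) (τ := τ) (ι := ι) hι c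
  | cons i l ih => exact hadd _ _ (hf i) ih

lemma SA.lawSum (hι : ∀ a, ‖ι a‖ ≤ 1)
    (hadd : ∀ a b : (τ → K) → K, SA (p := p) ι c a → SA (p := p) ι c b →
      SA (p := p) ι c (fun x => add (a x) (b x)))
    {N' : ℕ} {f : Fin N' → (τ → K) → K} (hf : ∀ i, SA (p := p) ι c (f i)) :
    SA (p := p) ι c (fun x => Crest.Agent.LT.lawSum add (fun i => f i x)) :=
  SA.lawFoldr hι hadd (List.finRange N') hf

/-- `x ↦ ξ_v(x) = Σ^{add}_i [v_i] x_i^{1/q}` is in `Apx`, of order `1/q`. -/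
lemma SA.xiV (hι : ∀ a, ‖ι a‖ ≤ 1) {N' : ℕ}
    (hadd : ∀ a b : (Fin N' → K) → K, SA (p := p) ι (1 / (p ^ n : ℕ)) a →
      SA (p := p) ι (1 / (p ^ n : ℕ)) b →
      SA (p := p) ι (1 / (p ^ n : ℕ)) (fun x => add (a x) (b x)))
    (v : Fin N' → Fin p) :
    SA (p := p) ι (1 / (p ^ n : ℕ)) (fun x : Fin N' → K => Crest.Agent.LT.xiV add p n v x) := by
  refine SA.lawSum (f := fun i x => Crest.Agent.LT.lawNsmul add (v i : ℕ) (qroot p n (x i)))
    hι hadd (fun i => ?_)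
  exact SA.lawNsmul hι hadd (a := fun x => qroot p n (x i)) ((SA.coord i).pRt n) _

end LawOps

end Chart

/-! ### The concrete instance -/

section Concrete

open MvPowerSeries

variable {p : ℕ} [hp : Fact p.Prime] {n : ℕ} [NeZero n]
variable {K : Type*} [NormedField K] [IsUltrametricDist K] [CompleteSpace K] [CharP K p]
  [PerfectRing K p]

/-- `t ↦ f(t)`, for `f` in the Lubin-Tate ring, is in `Apx`. -/
theorem isApx_evT (ιk : kk p n →+* K) (h : ℕ) (a : AA p n) :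
    IsApx p ιk (fun t : Fin (n - h) → K => evT p n ιk h t a) := by
  have hι := norm_iotaK_le p n ιk
  have h1 := isApx_eval_map (p := p) (ι := ιk) (σ := Fin (n - 1)) hι
    (MvPowerSeries.map (WittVector.constantCoeff) a)
  have hτ : ∀ i : Fin (n - 1),
      SA (p := p) ιk 1 (fun t : Fin (n - h) → K => tauOf h t i) := by
    intro i
    unfold tauOf
    split_ifs with hi
    · exact SA.coord _
    · exact SA.zero hι 1
  refine (h1.comp hι (H := fun i t => tauOf h t i) (fun i => (hτ i).1) one_pos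
    (fun i t ht => (hτ i).2 t ht)).congr (fun t _ => ?_)
  show Crest.Agent.LT.eval (tauOf h t) (MvPowerSeries.map (iotaW p n ιk) a) = _
  congr 1

/-- `w_l ∈ Apx`. -/
theorem isApx_wFun (ιk : kk p n →+* K) (h l : ℕ) :
    IsApx p ιk (fun t : Fin (n - h) → K => wFun ιk h l t) :=
  isApx_evT ιk h _

/-- The hypothesis `WQuad` for the Hazewinkel law. -/
theorem wQuad_wFun (ιk : kk p n →+* K) {h : ℕ} (h1 : 1 ≤ h) (hh : h < n) :
    WQuad (wFun (p := p) ιk h) p := by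
  refine ⟨fun j t t' ht ht' => ?_⟩
  have hj := j.isLt
  have hmem := wwCoeff_pow_sub_mem p n h j h1 hh hj
  have hsub := evT_sub_of_mem_sq ιk h1 ht ht' hmem
  have hv : ∀ s : Fin (n - h) → K, ‖s‖ < 1 →
      evT p n ιk h s (wwCoeff p n h (p ^ (j : ℕ)) - vv p n (h + j)) =
        wFun ιk h (p ^ (j : ℕ)) s - s j := by
    intro s hs
    have h2 := (evTHom p n ιk h s hs).map_sub (wwCoeff p n h (p ^ (j : ℕ))) (vv p n (h + j))
    simp only [evTHom_apply] at h2
    rw [h2]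
    congr 1
    have h3 : vv p n (h + j) = tt p n ⟨h + j - 1, by omega⟩ := by
      unfold vv
      rw [if_neg (by omega), dif_pos (by omega)]
    rw [h3, evT_tt]
    unfold tauOf
    rw [dif_pos (by simp; omega)]
    congr 1
    ext
    simp
    omega
  rw [hv t ht, hv t' ht'] at hsub
  have e : (t j - wFun ιk h (p ^ (j : ℕ)) t) - (t' j - wFun ιk h (p ^ (j : ℕ)) t') =
      -((wFun ιk h (p ^ (j : ℕ)) t - t j) - (wFun ιk h (p ^ (j : ℕ)) t' - t' j)) := by ring
  rw [e, norm_neg]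
  exact hsub

/-- The values of `+_{Γ₀}` at members of `SA`. -/
theorem SA.add0K (ιk : kk p n →+* K) {τ : Type*} [Fintype τ] {a b : (τ → K) → K} {c : ℝ}
    (hc : 0 < c) (ha : SA (p := p) ιk c a) (hb : SA (p := p) ιk c b) :
    SA (p := p) ιk c (fun x => add0K ιk (a x) (b x)) := by
  have hι := norm_iotaK_le p n ιk
  have h1 := isApx_eval_map (p := p) (ι := ιk) (σ := Fin 2) hι (Gamma0 p n).toPowerSeries
  have hH : ∀ j : Fin 2, SA (p := p) ιk c ((![a, b] : Fin 2 → (τ → K) → K) j) := by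
    intro j
    fin_cases j
    · exact ha
    · exact hb
  refine ⟨(h1.comp hι (H := ![a, b]) (fun j => (hH j).1) hc (fun j x hx => (hH j).2 x hx)).congr
    (fun x _ => ?_), fun x hx => ?_⟩
  · show Crest.Agent.LT.eval ![a x, b x] (MvPowerSeries.map ιk (Gamma0 p n).toPowerSeries) = _
    congr 1
    funext j
    fin_cases j <;> rfl
  · exact (norm_gAdd_le (isIntS_G0K ιk) (ha.lt_one hc hx) (hb.lt_one hc hx)).trans
      (max_le (ha.2 x hx) (hb.2 x hx))

/-- `ξ_v` for the law `Γ₀`. -/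
theorem SA_xiV_add0K (ιk : kk p n →+* K) {N : ℕ} (v : Fin N → Fin p) :
    SA (p := p) ιk (1 / (p ^ n : ℕ)) (fun x : Fin N → K => xiV (add0K ιk) p n v x) := by
  have hq : (0 : ℝ) < 1 / (p ^ n : ℕ) := by
    have : 0 < p ^ n := pow_pos hp.out.pos _
    positivity
  exact SA.xiV (norm_iotaK_le p n ιk) (fun a b ha hb => SA.add0K ιk hq ha hb) v

variable {h : ℕ}

/-- `x ↦ t^(m)(x)_j` is in `Apx`. -/
theorem isApx_chartIter_xiV (ιk : kk p n →+* K) (h1 : 1 ≤ h) (hh : h < n) (m : ℕ)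
    (j : Fin (n - h)) :
    IsApx p ιk (fun x : Fin (n - h) → K => chartIter (wFun ιk h) p h n
      (fun v : Fin (n - h) → Fin p => xiV (add0K ιk) p n v x) m j) := by
  have hq : (0 : ℝ) < 1 / (p ^ n : ℕ) := by
    have : 0 < p ^ n := pow_pos hp.out.pos _
    positivity
  exact (SA.chartIter (norm_iotaK_le p n ιk) (wFamily ιk h1 hh) (wQuad_wFun ιk h1 hh) rfl h1 hh.le
    (isApx_wFun ιk h) (by simp) hq (fun v => SA_xiV_add0K ιk v) m j).1

/-- `x ↦ D(x)_j` is in `Apx`, and `‖D(x)_j‖ ≤ tupleRad x ^ (1/q)`. -/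
theorem SA_Dmap (ιk : kk p n →+* K) (h1 : 1 ≤ h) (hh : h < n) (j : Fin (n - h)) :
    SA (p := p) ιk (1 / (p ^ n : ℕ))
      (fun x : Fin (n - h) → K => Dmap p h n (wFun ιk h) (add0K ιk) x j) := by
  have hq : (0 : ℝ) < 1 / (p ^ n : ℕ) := by
    have : 0 < p ^ n := pow_pos hp.out.pos _
    positivity
  exact SA.chartFix (norm_iotaK_le p n ιk) (wFamily ιk h1 hh) (wQuad_wFun ιk h1 hh) rfl h1 hh.le
    (isApx_wFun ιk h) (by simp) hq (fun v => SA_xiV_add0K ιk v) j

/-- `x ↦ D(x)_j` is in `Apx`. -/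
theorem isApx_Dmap (ιk : kk p n →+* K) (h1 : 1 ≤ h) (hh : h < n) (j : Fin (n - h)) :
    IsApx p ιk (fun x : Fin (n - h) → K => Dmap p h n (wFun ιk h) (add0K ιk) x j) :=
  (SA_Dmap ιk h1 hh j).1

/-- The order of `D`: `v(D(x)) ≥ (1 - 1/p) ρ(x)`. -/
theorem norm_Dmap_le (ιk : kk p n →+* K) (h1 : 1 ≤ h) (hh : h < n) {x : Fin (n - h) → K}
    (hx : InMK x) :
    ‖Dmap p h n (wFun ιk h) (add0K ιk) x‖ ≤ (tupleRad x ^ ((1 : ℝ) / (p ^ n : ℕ))) ^ chartExp p n := by
  have hq : (0 : ℝ) < 1 / (p ^ n : ℕ) := by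
    have : 0 < p ^ n := pow_pos hp.out.pos _
    positivity
  exact norm_chartFix_le_rad (wFamily ιk h1 hh) (wQuad_wFun ιk h1 hh) rfl h1 hh.le (by simp) hq
    (ξ := fun v x => xiV (add0K ιk) p n v x) (fun v x hx => (SA_xiV_add0K ιk v).2 x hx) hx

/-- **Clause (iv) of `orbit_data`**: for `f` in the Lubin-Tate ring, `x ↦ f(D(x))` is in `Apx`. -/
theorem isApx_evT_Dmap (ιk : kk p n →+* K) (h1 : 1 ≤ h) (hh : h < n) (f : AA p n) :
    IsApx p ιk (fun x : Fin (n - h) → K =>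
      evT p n ιk h (Dmap p h n (wFun ιk h) (add0K ιk) x) f) := by
  have hq : (0 : ℝ) < 1 / (p ^ n : ℕ) := by
    have : 0 < p ^ n := pow_pos hp.out.pos _
    positivity
  exact (isApx_evT ιk h f).comp_tuple (norm_iotaK_le p n ιk) hq (fun j => SA_Dmap ιk h1 hh j)

end Concrete

end Crest.Agent.LT
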