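/-
S0351 (row 227). Blueprint sections D, E: the char p theorem, glue of D (LatOrbitConcrete, LatApxD)
and E (ChainFinal).  (helper28)
-/
import Crest.Agent.Lib.LubinTate.LatOrbitConcrete
import Crest.Agent.Lib.LubinTate.LatApxD
import Crest.Agent.Lib.LubinTate.ChainFinal
import Crest.Agent.Lib.LubinTate.ChainDigits

set_option autoImplicit false
set_option linter.unusedSectionVars false

namespace Crest.Agent.LT

open Crest.LubinTate

variable (p : ℕ) [Fact p.Prime] (n : ℕ) [NeZero n]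

/-- Blueprint D+E: `1 ≤ h < n`, a stable ideal killed by a point with `z I_h = 0`, `z t_h ≠ 0` is
contained in `I_h`. -/
theorem charP_main (h : ℕ) (h1 : 1 ≤ h) (hh : h < n) (M : ℕ) (hM : 1 ≤ M) (J : Ideal (AA p n))
    (hs : CoreStable p n M J)
    {K : Type} [NontriviallyNormedField K] [IsUltrametricDist K] [CompleteSpace K] [IsAlgClosed K]
    (z : AA p n →+* K) (hz1 : ∀ a, ‖z a‖ ≤ 1)
    (hzm : ∀ a ∈ IsLocalRing.maximalIdeal (AA p n), ‖z a‖ < 1)
    (hzJ : ∀ a ∈ J, z a = 0) (hzI : ∀ a ∈ II p n h, z a = 0) (hzv : z (vv p n h) ≠ 0) :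
    J ≤ II p n h := by
  intro f hf
  have hpII : (p : AA p n) ∈ II p n h := by
    rw [II, if_neg (by omega)]
    exact Ideal.subset_span (Or.inl rfl)
  have hpz : z (p : AA p n) = 0 := hzI _ hpII
  have hKp : (p : K) = 0 := by simpa [map_natCast] using hpz
  have : CharP K p := charP_of_cast_eq_zero hKp
  have : PerfectRing K p := PerfectRing.ofSurjective K p (fun x => by
    obtain ⟨y, hy⟩ := IsAlgClosed.exists_pow_nat_eq x (Fact.out : p.Prime).pos
    exact ⟨y, by simpa [frobenius_def] using hy⟩)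
  obtain ⟨ιk, hιk⟩ := exists_iotaK z hpz
  have ht : ‖tOf z h‖ < 1 := norm_tOf_lt z hzm h
  have hzeq : ∀ a, z a = evT p n ιk h (tOf z h) a := fun a => eq_evT z hz1 hzm h1 hzI hιk a
  have ht0 : tOf z h ⟨0, by omega⟩ ≠ 0 := by
    have := evT_vv ιk h1 (tOf z h) ⟨0, by omega⟩
    simp only [add_zero] at this
    rw [← this, ← hzeq]
    exact hzv
  obtain ⟨b, hb, hb0, hq0, horth, hinj⟩ := exists_lattice_point ιk h1 hh ht ht0
  refine mem_II_of_forall_Dmap ιk h1 hh ?_
  intro x hx
  refine Chain.chain_vanish (N := n - h) ιk (by omega) (by omega) hb hb0 horth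
    (F := fun x => evT p n ιk h (Dmap p h n (wFun ιk h) (add0K ιk) x) f)
    (isApx_evT_Dmap ιk h1 hh f) M ?_ x ((inMK_iff_norm_lt).2 ?_)
  · intro a e l he
    have hp2 : ∀ l', 2 ≤ p ^ e l' := fun l' => by
      have h2 : 2 ≤ p := (Fact.out : p.Prime).two_le
      have : e l' ≠ 0 := by have := he l'; omega
      calc 2 ≤ p := h2
        _ = p ^ 1 := (pow_one p).symm
        _ ≤ p ^ e l' := Nat.pow_le_pow_right (by omega) (by omega)
    have hpM : ∀ l', M ≤ p ^ e l' := fun l' =>
      (he l').trans (Nat.lt_pow_self (Fact.out : p.Prime).one_lt).le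
    exact orbit_vanish ιk h1 hh hs ht (fun a ha => by rw [← hzeq]; exact hzJ a ha) hb hq0 hinj
      (digitSeries p n a e l) (isFGAut_digitSeries p n a e hp2 l)
      (coeff_digitSeries p n a e M hpM l) hf
  · exact (pi_norm_lt_iff one_pos).2 hx

end Crest.Agent.LT
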