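import Mathlib

/-!
# A real absolute value out of a valuation (row 227, section B1)

`val : Valuation F Γ₀` (arbitrary rank), `w` with `0 < val w < 1`, and every nonzero `x` has
`(val w)^c ≤ val x` for some `c`. Then `ν γ := sup {a/b : γ^b ≤ θ^a}` (`θ = val w`) is additive and
monotone, which gives a real nonarchimedean absolute value `abv`. This is the composite of `val`
with the quotient by the largest proper convex subgroup; `val` itself may have higher rank.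
-/

set_option autoImplicit false

namespace Crest.Agent.LT

section Nu

variable {Γ₀ : Type*} [LinearOrderedCommGroupWithZero Γ₀]

/-- the lower cut of `γ` relative to `θ`. -/
def nuCut (θ γ : Γ₀) : Set ℝ :=
  {q | ∃ (a : ℤ) (b : ℕ), 0 < b ∧ q = (a : ℝ) / b ∧ γ ^ b ≤ θ ^ a}

/-- `ν γ = sup {a/b : γ^b ≤ θ^a}`. -/
noncomputable def nu (θ γ : Γ₀) : ℝ := sSup (nuCut θ γ)

/-- `γ` lies in the convex subgroup generated by `θ`. -/
def NuBd (θ γ : Γ₀) : Prop := ∃ c : ℕ, θ ^ c ≤ γ ∧ γ ≤ (θ ^ c)⁻¹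

variable {θ : Γ₀} (hθ0 : θ ≠ 0) (hθ1 : θ < 1)

omit hθ1 in
include hθ0 in
lemma NuBd.ne_zero {γ : Γ₀} (h : NuBd θ γ) : γ ≠ 0 := by
  obtain ⟨c, hc, -⟩ := h
  intro h0
  rw [h0] at hc
  exact (pow_ne_zero c hθ0) (le_antisymm hc zero_le)

omit hθ1 in
lemma NuBd.mul {γ δ : Γ₀} (h : NuBd θ γ) (h' : NuBd θ δ) : NuBd θ (γ * δ) := by
  obtain ⟨c, hc, hc'⟩ := h
  obtain ⟨d, hd, hd'⟩ := h'
  refine ⟨c + d, ?_, ?_⟩
  · rw [pow_add]; exact mul_le_mul' hc hd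
  · rw [pow_add, mul_inv]; exact mul_le_mul' hc' hd'

include hθ0 in
omit hθ1 in
lemma NuBd.inv {γ : Γ₀} (h : NuBd θ γ) : NuBd θ γ⁻¹ := by
  obtain ⟨c, hc, hc'⟩ := h
  have hpos : 0 < θ ^ c := zero_lt_iff.mpr (pow_ne_zero c hθ0)
  have hγ : 0 < γ := lt_of_lt_of_le hpos hc
  refine ⟨c, ?_, ?_⟩
  · exact (le_inv_comm₀ hγ hpos).mp hc'
  · exact (inv_le_inv₀ hγ hpos).mpr hc

include hθ0 hθ1

lemma zpow_le_zpow_iff_of_lt_one {x y : ℤ} : θ ^ x ≤ θ ^ y ↔ y ≤ x := by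
  have h0 : 0 < θ := zero_lt_iff.mpr hθ0
  have hanti : StrictAnti (fun n : ℤ => θ ^ n) := zpow_right_strictAnti₀ h0 hθ1
  exact hanti.le_iff_ge

lemma nuCut_le {γ : Γ₀} {c : ℕ} (hc : θ ^ c ≤ γ) {q : ℝ} (hq : q ∈ nuCut θ γ) : q ≤ c := by
  obtain ⟨a, b, hb, rfl, hab⟩ := hq
  have h1 : θ ^ (c * b : ℕ) ≤ γ ^ b := by
    rw [pow_mul]; exact pow_le_pow_left₀ zero_le hc b
  have h2 : θ ^ ((c * b : ℕ) : ℤ) ≤ θ ^ a := by
    rw [zpow_natCast]; exact h1.trans hab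
  have h3 : a ≤ ((c * b : ℕ) : ℤ) := (zpow_le_zpow_iff_of_lt_one hθ0 hθ1).mp h2
  have hbpos : (0 : ℝ) < b := by exact_mod_cast hb
  rw [div_le_iff₀ hbpos]
  have h4 : (a : ℝ) ≤ ((c * b : ℕ) : ℝ) := by exact_mod_cast h3
  simpa using h4

lemma nuCut_bdd {γ : Γ₀} (h : NuBd θ γ) : BddAbove (nuCut θ γ) := by
  obtain ⟨c, hc, -⟩ := h
  exact ⟨c, fun _ hq => nuCut_le hθ0 hθ1 hc hq⟩

omit hθ0 hθ1 in
lemma mem_nuCut_of_le {γ : Γ₀} {a : ℤ} {b : ℕ} (hb : 0 < b) (h : γ ^ b ≤ θ ^ a) :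
    (a : ℝ) / b ∈ nuCut θ γ := ⟨a, b, hb, rfl, h⟩

omit hθ0 hθ1 in
lemma nuCut_nonempty {γ : Γ₀} (h : NuBd θ γ) : (nuCut θ γ).Nonempty := by
  obtain ⟨c, -, hc⟩ := h
  refine ⟨_, mem_nuCut_of_le (a := -(c : ℤ)) (b := 1) Nat.one_pos ?_⟩
  simpa using hc

lemma le_nu {γ : Γ₀} (h : NuBd θ γ) {q : ℝ} (hq : q ∈ nuCut θ γ) : q ≤ nu θ γ :=
  le_csSup (nuCut_bdd hθ0 hθ1 h) hq

lemma le_nu_of_le {γ : Γ₀} (h : NuBd θ γ) {a : ℤ} {b : ℕ} (hb : 0 < b) (hab : γ ^ b ≤ θ ^ a) :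
    (a : ℝ) / b ≤ nu θ γ := le_nu hθ0 hθ1 h (mem_nuCut_of_le hb hab)

/-- monotonicity (order reversing). -/
lemma nu_anti {γ δ : Γ₀} (h : NuBd θ γ) (h' : NuBd θ δ) (hle : γ ≤ δ) : nu θ δ ≤ nu θ γ := by
  refine csSup_le (nuCut_nonempty h') fun q hq => ?_
  obtain ⟨a, b, hb, rfl, hab⟩ := hq
  exact le_nu_of_le hθ0 hθ1 h hb ((pow_le_pow_left₀ zero_le hle b).trans hab)

/-- superadditivity. -/
lemma nu_add_le {γ δ : Γ₀} (h : NuBd θ γ) (h' : NuBd θ δ) :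
    nu θ γ + nu θ δ ≤ nu θ (γ * δ) := by
  have hmul : NuBd θ (γ * δ) := NuBd.mul h h'
  have key : ∀ q ∈ nuCut θ γ, ∀ q' ∈ nuCut θ δ, q + q' ≤ nu θ (γ * δ) := by
    rintro _ ⟨a, b, hb, rfl, hab⟩ _ ⟨c, d, hd, rfl, hcd⟩
    have hbR : (b : ℝ) ≠ 0 := by positivity
    have hdR : (d : ℝ) ≠ 0 := by positivity
    have e : (a : ℝ) / b + (c : ℝ) / d = ((a * d + c * b : ℤ) : ℝ) / ((b * d : ℕ) : ℝ) := by
      push_cast; field_simp
    rw [e]
    refine le_nu_of_le hθ0 hθ1 hmul (Nat.mul_pos hb hd) ?_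
    have h0 : θ ^ (a * d + c * b) = (θ ^ a) ^ d * (θ ^ c) ^ b := by
      rw [zpow_add₀ hθ0, zpow_mul, zpow_mul, zpow_natCast, zpow_natCast]
    rw [h0, mul_pow]
    refine mul_le_mul' ?_ ?_
    · rw [pow_mul]; exact pow_le_pow_left₀ zero_le hab d
    · rw [mul_comm b d, pow_mul]; exact pow_le_pow_left₀ zero_le hcd b
  have h1 : nu θ γ ≤ nu θ (γ * δ) - nu θ δ := by
    refine csSup_le (nuCut_nonempty h) fun q hq => ?_
    have h2 : nu θ δ ≤ nu θ (γ * δ) - q := by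
      refine csSup_le (nuCut_nonempty h') fun q' hq' => ?_
      linarith [key q hq q' hq']
    linarith
  linarith

lemma nu_one : nu θ (1 : Γ₀) = 0 := by
  have hb : NuBd θ (1 : Γ₀) := ⟨0, by simp, by simp⟩
  apply le_antisymm
  · refine csSup_le (nuCut_nonempty hb) fun q hq => ?_
    simpa using nuCut_le hθ0 hθ1 (c := 0) (by simp) hq
  · simpa using le_nu_of_le hθ0 hθ1 hb (a := 0) (b := 1) Nat.one_pos (by simp)

lemma nu_self : nu θ θ = 1 := by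
  have hb : NuBd θ θ := ⟨1, by simp, by
    rw [pow_one]
    exact hθ1.le.trans ((one_le_inv₀ (zero_lt_iff.mpr hθ0)).mpr hθ1.le)⟩
  apply le_antisymm
  · refine csSup_le (nuCut_nonempty hb) fun q hq => ?_
    simpa using nuCut_le hθ0 hθ1 (c := 1) (by simp) hq
  · simpa using le_nu_of_le hθ0 hθ1 hb (a := 1) (b := 1) Nat.one_pos (by simp)

/-- the key computation: `-1/b ≤ ν γ + ν γ⁻¹`. -/
lemma nu_add_inv_ge {γ : Γ₀} (h : NuBd θ γ) {b : ℕ} (hb : 0 < b) :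
    -(1 / (b : ℝ)) ≤ nu θ γ + nu θ γ⁻¹ := by
  have hγ0 := NuBd.ne_zero hθ0 h
  have hγpos : 0 < γ ^ b := zero_lt_iff.mpr (pow_ne_zero b hγ0)
  obtain ⟨c, hc, hc'⟩ := h
  -- the greatest integer `a` with `γ^b ≤ θ^a`
  have hPex : ∃ a : ℤ, γ ^ b ≤ θ ^ a := by
    refine ⟨-((c * b : ℕ) : ℤ), ?_⟩
    rw [zpow_neg, zpow_natCast, pow_mul, ← inv_pow]
    exact pow_le_pow_left₀ zero_le hc' b
  have hPbd : ∃ M : ℤ, ∀ a : ℤ, γ ^ b ≤ θ ^ a → a ≤ M := by
    refine ⟨((c * b : ℕ) : ℤ), fun a ha => ?_⟩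
    have h1 : θ ^ (c * b : ℕ) ≤ γ ^ b := by
      rw [pow_mul]; exact pow_le_pow_left₀ zero_le hc b
    have h2 : θ ^ ((c * b : ℕ) : ℤ) ≤ θ ^ a := by
      rw [zpow_natCast]; exact h1.trans ha
    exact (zpow_le_zpow_iff_of_lt_one hθ0 hθ1).mp h2
  obtain ⟨a, ha, hmax⟩ := Int.exists_greatest_of_bdd hPbd hPex
  have hlt : θ ^ (a + 1) < γ ^ b := by
    by_contra hcon
    push Not at hcon
    have := hmax (a + 1) hcon
    omega
  have hinv : (γ⁻¹) ^ b ≤ θ ^ (-(a + 1)) := by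
    rw [inv_pow, zpow_neg]
    have hthpos : 0 < θ ^ (a + 1) := zero_lt_iff.mpr (zpow_ne_zero _ hθ0)
    exact (inv_le_inv₀ hγpos hthpos).mpr hlt.le
  have hbd : NuBd θ γ := ⟨c, hc, hc'⟩
  have h1 : (a : ℝ) / b ≤ nu θ γ := le_nu_of_le hθ0 hθ1 hbd hb ha
  have h2 : ((-(a + 1) : ℤ) : ℝ) / b ≤ nu θ γ⁻¹ :=
    le_nu_of_le hθ0 hθ1 (NuBd.inv hθ0 hbd) hb hinv
  have hbR : (b : ℝ) ≠ 0 := by positivity
  have e : (a : ℝ) / b + ((-(a + 1) : ℤ) : ℝ) / b = -(1 / (b : ℝ)) := by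
    push_cast; field_simp; ring
  linarith

lemma nu_inv {γ : Γ₀} (h : NuBd θ γ) : nu θ γ⁻¹ = - nu θ γ := by
  have hγ0 := NuBd.ne_zero hθ0 h
  have h1 : nu θ γ + nu θ γ⁻¹ ≤ 0 := by
    have := nu_add_le hθ0 hθ1 h (NuBd.inv hθ0 h)
    rwa [mul_inv_cancel₀ hγ0, nu_one hθ0 hθ1] at this
  have h2 : 0 ≤ nu θ γ + nu θ γ⁻¹ := by
    by_contra hneg
    push Not at hneg
    obtain ⟨n, hn⟩ := exists_nat_gt (-1 / (nu θ γ + nu θ γ⁻¹))
    have hnpos : (0 : ℝ) < n := lt_of_le_of_lt (by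
      apply div_nonneg_of_nonpos <;> linarith) hn
    have hn' : 0 < n := by exact_mod_cast hnpos
    have h3 := nu_add_inv_ge hθ0 hθ1 h hn'
    rw [div_lt_iff_of_neg hneg] at hn
    have : (1 / (n : ℝ)) * n = 1 := by field_simp
    have h4 : -(1 / (n : ℝ)) * n ≤ (nu θ γ + nu θ γ⁻¹) * n :=
      mul_le_mul_of_nonneg_right h3 hnpos.le
    nlinarith
  linarith

/-- additivity. -/
lemma nu_mul {γ δ : Γ₀} (h : NuBd θ γ) (h' : NuBd θ δ) :
    nu θ (γ * δ) = nu θ γ + nu θ δ := by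
  apply le_antisymm _ (nu_add_le hθ0 hθ1 h h')
  have hmul : NuBd θ (γ * δ) := NuBd.mul h h'
  have h1 := nu_add_le hθ0 hθ1 hmul (NuBd.inv hθ0 h')
  have hδ0 := NuBd.ne_zero hθ0 h'
  rw [mul_assoc, mul_inv_cancel₀ hδ0, mul_one, nu_inv hθ0 hθ1 h'] at h1
  linarith

end Nu

/-- The real absolute value attached to a valuation, relative to `w`. -/
theorem exists_absoluteValue_of_valuation {F Γ₀ : Type*} [Field F]
    [LinearOrderedCommGroupWithZero Γ₀] (val : Valuation F Γ₀) (w : F)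
    (hw0 : val w ≠ 0) (hw1 : val w < 1)
    (hbd : ∀ x : F, x ≠ 0 → ∃ c : ℕ, (val w) ^ c ≤ val x) :
    ∃ abv : AbsoluteValue F ℝ, (∀ x y, abv (x + y) ≤ max (abv x) (abv y)) ∧
      (∀ x, val x ≤ 1 → abv x ≤ 1) ∧
      (∀ x, x ≠ 0 → ∀ N : ℕ, 0 < N → (val x) ^ N ≤ val w → abv x < 1) ∧
      abv w = Real.exp (-1) := by
  classical
  set θ := val w with hθ
  -- all values are in the convex subgroup
  have hBd : ∀ x : F, x ≠ 0 → NuBd θ (val x) := by
    intro x hx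
    obtain ⟨c, hc⟩ := hbd x hx
    obtain ⟨d, hd⟩ := hbd x⁻¹ (inv_ne_zero hx)
    have hθ1' : θ ≤ 1 := hw1.le
    refine ⟨c + d, ?_, ?_⟩
    · rw [pow_add]
      calc θ ^ c * θ ^ d ≤ θ ^ c * 1 := mul_le_mul_right (pow_le_one₀ zero_le hθ1') _
        _ = θ ^ c := mul_one _
        _ ≤ val x := hc
    · have hvx : 0 < val x := zero_lt_iff.mpr ((Valuation.ne_zero_iff _).mpr hx)
      have hpow : 0 < θ ^ (c + d) := zero_lt_iff.mpr (pow_ne_zero _ hw0)
      rw [le_inv_comm₀ hvx hpow]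
      rw [map_inv₀] at hd
      rw [pow_add]
      calc θ ^ c * θ ^ d ≤ 1 * θ ^ d := mul_le_mul_left (pow_le_one₀ zero_le hθ1') _
        _ = θ ^ d := one_mul _
        _ ≤ (val x)⁻¹ := hd
  let f : F → ℝ := fun x => if x = 0 then 0 else Real.exp (- nu θ (val x))
  have f0 : f 0 = 0 := by simp [f]
  have fne : ∀ x, x ≠ 0 → f x = Real.exp (- nu θ (val x)) := fun x hx => by simp [f, hx]
  have fmax : ∀ x y, f (x + y) ≤ max (f x) (f y) := by
    intro x y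
    by_cases hx : x = 0
    · subst hx; rw [zero_add]; exact le_max_right _ _
    by_cases hy : y = 0
    · subst hy; rw [add_zero]; exact le_max_left _ _
    by_cases hxy : x + y = 0
    · rw [hxy, f0]
      exact le_max_of_le_left (by rw [fne x hx]; exact (Real.exp_pos _).le)
    rw [fne _ hxy, fne x hx, fne y hy]
    rcases le_total (val x) (val y) with hle | hle
    · have h1 : val (x + y) ≤ val y := by
        have := val.map_add x y
        exact this.trans (max_le hle le_rfl)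
      have h2 := nu_anti hw0 hw1 (hBd _ hxy) (hBd _ hy) h1
      exact le_max_of_le_right (Real.exp_le_exp.mpr (by linarith))
    · have h1 : val (x + y) ≤ val x := by
        have := val.map_add x y
        exact this.trans (max_le le_rfl hle)
      have h2 := nu_anti hw0 hw1 (hBd _ hxy) (hBd _ hx) h1
      exact le_max_of_le_left (Real.exp_le_exp.mpr (by linarith))
  have fnonneg : ∀ x, 0 ≤ f x := fun x => by
    by_cases hx : x = 0
    · rw [hx, f0]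
    · rw [fne x hx]; exact (Real.exp_pos _).le
  let abv : AbsoluteValue F ℝ :=
    { toFun := f
      map_mul' := by
        intro x y
        by_cases hx : x = 0
        · subst hx; simp [f0]
        by_cases hy : y = 0
        · subst hy; simp [f0]
        rw [fne _ (mul_ne_zero hx hy), fne x hx, fne y hy, map_mul,
          nu_mul hw0 hw1 (hBd x hx) (hBd y hy), ← Real.exp_add]
        congr 1; ring
      nonneg' := fnonneg
      eq_zero' := by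
        intro x
        constructor
        · intro h
          by_contra hx
          rw [fne x hx] at h
          exact (Real.exp_pos _).ne' h
        · rintro rfl; exact f0
      add_le' := by
        intro x y
        refine (fmax x y).trans (max_le ?_ ?_)
        · linarith [fnonneg y]
        · linarith [fnonneg x] }
  have abv_ne : ∀ x, x ≠ 0 → abv x = Real.exp (- nu θ (val x)) := fne
  refine ⟨abv, fmax, ?_, ?_, ?_⟩
  · intro x hx
    by_cases hx0 : x = 0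
    · subst hx0; simp
    rw [abv_ne x hx0, Real.exp_le_one_iff]
    have : (0 : ℝ) ≤ nu θ (val x) := by
      simpa using le_nu_of_le hw0 hw1 (hBd x hx0) (a := 0) (b := 1) Nat.one_pos (by simpa using hx)
    linarith
  · intro x hx N hN hxN
    rw [abv_ne x hx, Real.exp_lt_one_iff]
    have h1 : (1 : ℝ) / N ≤ nu θ (val x) := by
      simpa using le_nu_of_le hw0 hw1 (hBd x hx) (a := 1) (b := N) hN (by simpa using hxN)
    have h2 : (0 : ℝ) < 1 / N := by positivity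
    linarith
  · have hw : w ≠ 0 := (Valuation.ne_zero_iff _).mp hw0
    rw [abv_ne w hw, ← hθ, nu_self hw0 hw1]

end Crest.Agent.LT
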