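import Crest.Agent.Lib.LubinTate.PointsClosure
import Crest.Agent.Lib.LubinTate.PointsVal
import Crest.Agent.Lib.LubinTate.Defs
import Crest.Agent.Lib.LubinTate.LTRingAlg

/-!
# Points of a Noetherian local ring (row 227, BLUEPRINT section B)

`exists_point_general`: `A` Noetherian local, `Q` prime, `v ∉ Q`, `v` in the maximal ideal. There is a complete,
algebraically closed, nontrivially normed ultrametric field `K` and a ring hom `z : A →+* K` with
`‖z x‖ ≤ 1`, `‖z x‖ < 1` on the maximal ideal, `z (Q) = 0`, `z v ≠ 0`.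

`exists_point_of_isRadical`: the same for a radical ideal `J` in place of `Q`.

`exists_point`: the instance for `A = AA p n` used by `Core.lean`.
-/

set_option autoImplicit false

namespace Crest.Agent.LT

open IsLocalRing

universe u

section Krull

variable {B : Type u} [CommRing B] [IsDomain B] [IsLocalRing B] [IsNoetherianRing B]

/-- `B` Noetherian local domain in which each nonzero prime contains `v ≠ 0`. Then each element
of the maximal ideal has a power divisible by `v` (`B` has dimension one), by Krull's height theorem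
and prime avoidance. -/
lemma exists_dvd_pow_of_mem_maximalIdeal {v : B} (hv0 : v ≠ 0)
    (hprime : ∀ P : Ideal B, P.IsPrime → P ≠ ⊥ → v ∈ P) {a : B} (ha : a ∈ maximalIdeal B) :
    ∃ N : ℕ, v ∣ a ^ N := by
  classical
  by_contra hcon
  push Not at hcon
  have hdisj : Disjoint ((Ideal.span {v} : Ideal B) : Set B)
      ((Submonoid.powers a : Submonoid B) : Set B) := by
    rw [Set.disjoint_left]
    rintro x hx ⟨N, rfl⟩
    exact hcon N (Ideal.mem_span_singleton.mp hx)
  obtain ⟨P, hP, hvP, hdP⟩ := Ideal.exists_le_prime_disjoint _ _ hdisj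
  have haP : a ∉ P := fun h => by
    have h1 : a ∈ ((Submonoid.powers a : Submonoid B) : Set B) := Submonoid.mem_powers a
    exact (Set.disjoint_left.mp hdP) h h1
  -- a minimal prime of `v` below `P`
  have := hP
  obtain ⟨P₀, hP₀, hP₀le⟩ := Ideal.exists_minimalPrimes_le hvP
  have hfin := (Ideal.span {v}).finite_minimalPrimes_of_isNoetherianRing B
  -- the maximal ideal is not contained in a minimal prime of `v`
  have hnot : ∀ R ∈ (Ideal.span {v}).minimalPrimes, ¬ (maximalIdeal B ≤ R) := by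
    intro R hR hle
    have hP₀m : P₀ ≤ maximalIdeal B := by
      have hP₀prime : P₀.IsPrime := hP₀.1.1
      exact le_maximalIdeal hP₀prime.ne_top
    have hle' : R ≤ P₀ := hR.2 hP₀.1 (hP₀m.trans hle)
    exact haP (hP₀le (hle' (hle ha)))
  -- prime avoidance
  have hav : ¬ (((maximalIdeal B : Ideal B) : Set B) ⊆
      ⋃ R ∈ ((hfin.toFinset : Finset (Ideal B)) : Set (Ideal B)), (id R : Set B)) := by
    intro hsub
    have := (Ideal.subset_union_prime (s := hfin.toFinset) (f := id) (⊥ : Ideal B) (⊥ : Ideal B)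
      (fun R hR _ _ => by
        have : R ∈ (Ideal.span {v}).minimalPrimes := hfin.mem_toFinset.mp hR
        exact this.1.1)).mp hsub
    obtain ⟨R, hR, hle⟩ := this
    exact hnot R (hfin.mem_toFinset.mp hR) hle
  obtain ⟨y, hym, hy⟩ := Set.not_subset.mp hav
  have hyR : ∀ R ∈ (Ideal.span {v}).minimalPrimes, y ∉ R := by
    intro R hR hyR
    apply hy
    simp only [Set.mem_iUnion]
    exact ⟨R, by simpa using hR, hyR⟩
  have hy0 : y ≠ 0 := by
    rintro rfl
    exact hyR P₀ hP₀ (Ideal.zero_mem _)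
  -- a minimal prime of `y`
  have hspy : Ideal.span {y} ≤ maximalIdeal B := by
    rw [Ideal.span_singleton_le_iff_mem]; exact hym
  obtain ⟨P', hP', hP'le⟩ := Ideal.exists_minimalPrimes_le hspy
  have hP'prime : P'.IsPrime := hP'.1.1
  have hyP' : y ∈ P' := hP'.1.2 (Ideal.mem_span_singleton_self y)
  have hP'ne : P' ≠ ⊥ := fun h => hy0 (by rw [h] at hyP'; simpa using hyP')
  have hvP' : v ∈ P' := hprime P' hP'prime hP'ne
  have hht : P'.height ≤ 1 := Ideal.height_le_one_of_isPrincipal_of_mem_minimalPrimes _ _ hP'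
  have hspv : Ideal.span {v} ≤ P' := by
    rw [Ideal.span_singleton_le_iff_mem]; exact hvP'
  obtain ⟨P'', hP'', hP''le⟩ := Ideal.exists_minimalPrimes_le hspv
  have hP''prime : P''.IsPrime := hP''.1.1
  have hlt : P'' < P' := lt_of_le_of_ne hP''le (fun h => hyR P'' hP'' (h ▸ hyP'))
  have hvP'' : v ∈ P'' := hP''.1.2 (Ideal.mem_span_singleton_self v)
  have hne : P'' ≠ ⊥ := fun h => hv0 (by rw [h] at hvP''; simpa using hvP'')
  have h1 : P''.height + 1 ≤ P'.height := Ideal.height_add_one_le_of_lt_of_isPrime hlt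
  have h2 : P''.height = 0 := by
    have h3 : P''.height + 1 ≤ 1 := h1.trans hht
    by_contra h4
    have h5 : (1 : ℕ∞) ≤ P''.height := Order.one_le_iff_ne_zero.mpr h4
    have h6 : (2 : ℕ∞) ≤ 1 := by
      calc (2 : ℕ∞) = 1 + 1 := by norm_num
        _ ≤ P''.height + 1 := by gcongr
        _ ≤ 1 := h3
    exact absurd h6 (by norm_num)
  exact hne (Ideal.height_eq_zero_iff_eq_bot.mp h2)

omit [IsDomain B] [IsLocalRing B] [IsNoetherianRing B] in
/-- under the same hypothesis each nonzero element divides a power of `v`. -/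
lemma exists_dvd_pow_of_ne_zero {v x : B}
    (hprime : ∀ P : Ideal B, P.IsPrime → P ≠ ⊥ → v ∈ P) (hx : x ≠ 0) :
    ∃ c : ℕ, x ∣ v ^ c := by
  have h : v ∈ (Ideal.span {x}).radical := by
    rw [Ideal.radical_eq_sInf, Ideal.mem_sInf]
    rintro P ⟨hxP, hP⟩
    refine hprime P hP fun h0 => hx ?_
    have : x ∈ P := hxP (Ideal.mem_span_singleton_self x)
    rw [h0] at this
    simpa using this
  obtain ⟨c, hc⟩ := h
  exact ⟨c, Ideal.mem_span_singleton.mp hc⟩

/-- The point of the domain `B`. -/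
theorem exists_point_domain {v : B} (hv0 : v ≠ 0) (hvm : v ∈ maximalIdeal B)
    (hprime : ∀ P : Ideal B, P.IsPrime → P ≠ ⊥ → v ∈ P) :
    ∃ (K : Type u) (_ : NontriviallyNormedField K) (_ : CompleteSpace K)
      (_ : IsUltrametricDist K) (_ : IsAlgClosed K) (z : B →+* K),
      (∀ x, ‖z x‖ ≤ 1) ∧ (∀ x ∈ maximalIdeal B, ‖z x‖ < 1) ∧ z v ≠ 0 := by
  classical
  let F := FractionRing B
  let φ : B →+* F := algebraMap B F
  have hφinj : Function.Injective φ := IsFractionRing.injective B F
  obtain ⟨V, hV⟩ := (LocalSubring.range φ).exists_le_valuationSubring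
  obtain ⟨hle, hloc⟩ := hV
  have hrangeMem : ∀ x : B, φ x ∈ (LocalSubring.range φ).toSubring := fun x => by
    change φ x ∈ φ.range
    exact ⟨x, rfl⟩
  have hrangeEx : ∀ y ∈ (LocalSubring.range φ).toSubring, ∃ x, φ x = y := fun y hy => by
    change y ∈ φ.range at hy
    exact hy
  have hmem : ∀ x : B, φ x ∈ V := fun x => hle (hrangeMem x)
  let val := V.valuation
  have hle1 : ∀ x : B, val (φ x) ≤ 1 := fun x => (V.valuation_le_one_iff _).mpr (hmem x)
  have hlt1 : ∀ x ∈ maximalIdeal B, val (φ x) < 1 := by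
    intro x hx
    refine lt_of_le_of_ne (hle1 x) fun h1 => ?_
    have hunit : IsUnit (⟨φ x, hmem x⟩ : V) := (V.valuation_eq_one_iff _).mpr h1
    have hunit' : IsUnit (⟨φ x, hrangeMem x⟩ : (LocalSubring.range φ).toSubring) :=
      hloc.map_nonunit _ hunit
    obtain ⟨⟨y, hy⟩, hxy⟩ := hunit'.exists_right_inv
    obtain ⟨y', rfl⟩ := hrangeEx y hy
    have hxy' : φ (x * y') = 1 := by
      have := congrArg Subtype.val hxy
      simpa using this
    have hxy'' : x * y' = 1 := hφinj (by simpa using hxy')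
    exact ((mem_maximalIdeal x).mp hx) (IsUnit.of_mul_eq_one _ hxy'')
  have hφv : φ v ≠ 0 := fun h => hv0 (hφinj (by simpa using h))
  have hw0 : val (φ v) ≠ 0 := (Valuation.ne_zero_iff _).mpr hφv
  have hw1 : val (φ v) < 1 := hlt1 v hvm
  have hbd : ∀ x : F, x ≠ 0 → ∃ c : ℕ, (val (φ v)) ^ c ≤ val x := by
    intro x hx
    obtain ⟨a, b, hb, rfl⟩ := IsFractionRing.div_surjective (A := B) x
    have ha0 : a ≠ 0 := by
      rintro rfl
      exact hx (by simp)
    obtain ⟨c, e, he⟩ := exists_dvd_pow_of_ne_zero hprime ha0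
    refine ⟨c, ?_⟩
    have hb0 : φ b ≠ 0 := fun h =>
      (nonZeroDivisors.ne_zero hb) (hφinj (by simpa using h))
    have h1 : (val (φ v)) ^ c = val (φ a) * val (φ e) := by
      rw [← map_pow, ← map_pow, he, map_mul, map_mul]
    have h2 : val (φ v) ^ c ≤ val (φ a) := by
      rw [h1]
      calc val (φ a) * val (φ e) ≤ val (φ a) * 1 := mul_le_mul_right (hle1 e) _
        _ = val (φ a) := mul_one _
    have h3 : val (φ a) ≤ val (algebraMap B F a / algebraMap B F b) := by
      change val (φ a) ≤ val (φ a / φ b)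
      rw [map_div₀]
      have hvb : 0 < val (φ b) := zero_lt_iff.mpr ((Valuation.ne_zero_iff _).mpr hb0)
      exact (le_div_iff₀ hvb).mpr (by
        calc val (φ a) * val (φ b) ≤ val (φ a) * 1 := mul_le_mul_right (hle1 b) _
          _ = val (φ a) := mul_one _)
    exact h2.trans h3
  obtain ⟨abv, hna, habv1, habvlt, habvw⟩ :=
    exists_absoluteValue_of_valuation val (φ v) hw0 hw1 hbd
  let nf : NormedField F := abv.toNormedField
  have hnorm : ∀ x : F, ‖x‖ = abv x := fun _ => rfl
  let nnf : NontriviallyNormedField F :=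
    { nf with
      non_trivial := by
        refine ⟨(φ v)⁻¹, ?_⟩
        rw [norm_inv, hnorm, habvw]
        exact (one_lt_inv₀ (Real.exp_pos _)).mpr (by
          rw [Real.exp_lt_one_iff]; norm_num) }
  have : IsUltrametricDist F :=
    IsUltrametricDist.isUltrametricDist_of_forall_norm_add_le_max_norm hna
  obtain ⟨K, i1, i2, i3, i4, i, hi⟩ := exists_completeAlgClosed_embedding F
  refine ⟨K, i1, i2, i3, i4, i.comp φ, ?_, ?_, ?_⟩
  · intro x
    rw [RingHom.comp_apply, hi]
    exact habv1 _ (hle1 x)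
  · intro x hx
    rw [RingHom.comp_apply, hi]
    by_cases hx0 : x = 0
    · subst hx0; simp
    obtain ⟨N, e, he⟩ := exists_dvd_pow_of_mem_maximalIdeal hv0 hprime hx
    have hNpos : 0 < N := by
      rcases Nat.eq_zero_or_pos N with rfl | h
      · exfalso
        rw [pow_zero] at he
        exact ((mem_maximalIdeal v).mp hvm) (IsUnit.of_mul_eq_one _ he.symm)
      · exact h
    refine habvlt _ (fun h => hx0 (hφinj (by simpa using h))) N hNpos ?_
    rw [← map_pow, ← map_pow, he, map_mul, map_mul]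
    calc val (φ v) * val (φ e) ≤ val (φ v) * 1 := mul_le_mul_right (hle1 e) _
      _ = val (φ v) := mul_one _
  · intro h
    rw [RingHom.comp_apply] at h
    have := (map_eq_zero i).mp h
    exact hφv this

end Krull

section Main

variable {A : Type u} [CommRing A] [IsLocalRing A] [IsNoetherianRing A]

/-- **Section B of the blueprint.** `A` Noetherian local, `Q` prime, `v ∉ Q`, `v` in the maximal ideal. -/
theorem exists_point_general (Q : Ideal A) (hQ : Q.IsPrime) (v : A) (hvQ : v ∉ Q)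
    (hvm : v ∈ maximalIdeal A) :
    ∃ (K : Type u) (_ : NontriviallyNormedField K) (_ : CompleteSpace K)
      (_ : IsUltrametricDist K) (_ : IsAlgClosed K) (z : A →+* K),
      (∀ x, ‖z x‖ ≤ 1) ∧ (∀ x ∈ maximalIdeal A, ‖z x‖ < 1) ∧ (∀ x ∈ Q, z x = 0) ∧ z v ≠ 0 := by
  classical
  -- a maximal ideal above `Q` avoiding powers of `v`
  have hdQ : Disjoint (Q : Set A) ((Submonoid.powers v : Submonoid A) : Set A) := by
    rw [Set.disjoint_left]
    rintro x hx ⟨N, rfl⟩
    exact hvQ (hQ.mem_of_pow_mem N hx)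
  have wf : WellFoundedGT (Ideal A) := inferInstance
  obtain ⟨Q', ⟨hQQ', hdQ'⟩, hmax⟩ := wf.wf.has_min
    {I : Ideal A | Q ≤ I ∧ Disjoint (I : Set A) ((Submonoid.powers v : Submonoid A) : Set A)}
    ⟨Q, le_rfl, hdQ⟩
  have hQ'prime : Q'.IsPrime := Ideal.isPrime_of_maximally_disjoint Q' (Submonoid.powers v) hdQ'
    (fun J hJ hd => hmax J ⟨hQQ'.trans hJ.le, hd⟩ hJ)
  have hvQ' : v ∉ Q' := fun h => by
    have h1 : v ∈ ((Submonoid.powers v : Submonoid A) : Set A) := Submonoid.mem_powers v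
    exact (Set.disjoint_left.mp hdQ') h h1
  have := hQ'prime
  let B := A ⧸ Q'
  let π : A →+* B := Ideal.Quotient.mk Q'
  have hπs : Function.Surjective π := Ideal.Quotient.mk_surjective
  have : IsLocalRing B := IsLocalRing.of_surjective' π hπs
  have hQ'm : Q' ≤ maximalIdeal A := le_maximalIdeal hQ'prime.ne_top
  -- `π` maps the maximal ideal into the maximal ideal
  have hπm : ∀ x ∈ maximalIdeal A, π x ∈ maximalIdeal B := by
    intro x hx
    rw [mem_maximalIdeal]
    intro hunit
    obtain ⟨y, hy⟩ := hunit.exists_right_inv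
    obtain ⟨y', rfl⟩ := hπs y
    have h1 : π (x * y' - 1) = 0 := by
      rw [map_sub, map_mul, hy, map_one, sub_self]
    have h2 : x * y' - 1 ∈ Q' := Ideal.Quotient.eq_zero_iff_mem.mp h1
    have h3 : x * y' - 1 ∈ maximalIdeal A := hQ'm h2
    have h4 : x * y' ∈ maximalIdeal A := Ideal.mul_mem_right _ _ hx
    have h5 : (1 : A) ∈ maximalIdeal A := by
      have := (maximalIdeal A).sub_mem h4 h3
      simp at this
    exact ((mem_maximalIdeal _).mp h5) isUnit_one
  have hπv : π v ≠ 0 := fun h => hvQ' (Ideal.Quotient.eq_zero_iff_mem.mp h)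
  have hprime : ∀ P : Ideal B, P.IsPrime → P ≠ ⊥ → π v ∈ P := by
    intro P hP hP0
    have hP' : (P.comap π).IsPrime := Ideal.comap_isPrime π P
    have hle : Q' ≤ P.comap π := by
      intro x hx
      have : π x = 0 := Ideal.Quotient.eq_zero_iff_mem.mpr hx
      simp [this]
    have hlt : Q' < P.comap π := by
      refine lt_of_le_of_ne hle fun heq => hP0 ?_
      rw [eq_bot_iff]
      intro y hy
      obtain ⟨y', rfl⟩ := hπs y
      have : y' ∈ P.comap π := hy
      rw [← heq] at this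
      simpa using Ideal.Quotient.eq_zero_iff_mem.mpr this
    have hnd : ¬ Disjoint ((P.comap π : Ideal A) : Set A)
        ((Submonoid.powers v : Submonoid A) : Set A) :=
      fun hd => hmax (P.comap π) ⟨hQQ'.trans hlt.le, hd⟩ hlt
    rw [Set.not_disjoint_iff] at hnd
    obtain ⟨x, hx1, ⟨N, rfl⟩⟩ := hnd
    have : v ^ N ∈ P.comap π := hx1
    exact hP'.mem_of_pow_mem N this
  obtain ⟨K, i1, i2, i3, i4, z, h1, h2, h3⟩ :=
    exists_point_domain hπv (hπm v hvm) hprime
  refine ⟨K, i1, i2, i3, i4, z.comp π, fun x => h1 _, fun x hx => h2 _ (hπm x hx), ?_, h3⟩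
  intro x hx
  have : π x = 0 := Ideal.Quotient.eq_zero_iff_mem.mpr (hQQ' hx)
  simp [this]

/-- `exists_point` for a radical ideal. -/
theorem exists_point_of_isRadical (J : Ideal A) (hJ : J.IsRadical) (v : A) (hvJ : v ∉ J)
    (hvm : v ∈ maximalIdeal A) :
    ∃ (K : Type u) (_ : NontriviallyNormedField K) (_ : CompleteSpace K)
      (_ : IsUltrametricDist K) (_ : IsAlgClosed K) (z : A →+* K),
      (∀ x, ‖z x‖ ≤ 1) ∧ (∀ x ∈ maximalIdeal A, ‖z x‖ < 1) ∧ (∀ x ∈ J, z x = 0) ∧ z v ≠ 0 := by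
  have h : v ∉ sInf {P : Ideal A | J ≤ P ∧ P.IsPrime} := by
    rw [← Ideal.radical_eq_sInf, hJ.radical]
    exact hvJ
  rw [Ideal.mem_sInf] at h
  push Not at h
  obtain ⟨Q, ⟨hJQ, hQ⟩, hvQ⟩ := h
  obtain ⟨K, i1, i2, i3, i4, z, h1, h2, h3, h4⟩ := exists_point_general Q hQ v hvQ hvm
  exact ⟨K, i1, i2, i3, i4, z, h1, h2, fun x hx => h3 x (hJQ hx), h4⟩

end Main

section Stub

open Crest.LubinTate

variable (p : ℕ) [Fact p.Prime] (n : ℕ)

/-- Blueprint B: a prime `Q` and `v ∉ Q`, `v` in the maximal ideal, give a point in a complete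
algebraically closed ultrametric field with `z Q = 0`, `z v ≠ 0`. -/
theorem exists_point (Q : Ideal (AA p n)) (hQ : Q.IsPrime) (v : AA p n) (hv : v ∉ Q)
    (hvm : v ∈ IsLocalRing.maximalIdeal (AA p n)) :
    ∃ (K : Type) (_ : NontriviallyNormedField K) (_ : IsUltrametricDist K) (_ : CompleteSpace K)
      (_ : IsAlgClosed K) (z : AA p n →+* K),
      (∀ a, ‖z a‖ ≤ 1) ∧ (∀ a ∈ IsLocalRing.maximalIdeal (AA p n), ‖z a‖ < 1) ∧
      (∀ a ∈ Q, z a = 0) ∧ z v ≠ 0 := by
  obtain ⟨K, i1, i2, i3, i4, z, h1, h2, h3, h4⟩ := exists_point_general Q hQ v hv hvm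
  exact ⟨K, i1, i3, i2, i4, z, h1, h2, h3, h4⟩

end Stub

end Crest.Agent.LT
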