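import Crest.Agent.Lib.LubinTate.ZeroCore

/-!
# Row 227 (S0351), section F5: from the limit theorem to the vanishing of the leading form.
-/

set_option autoImplicit false
set_option linter.unusedSectionVars false

namespace Crest.Agent.LT.ZeroCore

open Matrix

variable {K : Type*} [NormedField K] [IsUltrametricDist K]
variable {ι σ : Type*} [Fintype ι] [DecidableEq ι] [Fintype σ]

lemma eval_aeval {κ : Type*} (c : κ → K) (f : σ → MvPolynomial κ K) (P : MvPolynomial σ K) :
    MvPolynomial.eval c (MvPolynomial.aeval f P)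
      = MvPolynomial.eval (fun i => MvPolynomial.eval c (f i)) P := by
  induction P using MvPolynomial.induction_on with
  | C a => simp
  | add p q hp hq => rw [map_add, map_add, map_add, hp, hq]
  | mul_X p i hp =>
    rw [map_mul, map_mul, map_mul, hp, MvPolynomial.aeval_X, MvPolynomial.eval_X]

/-- **The core of F5**: if the orbit hypothesis holds for every integer combination of the
generators `R k`, and the vectors `R k y` span, then the leading form `P` is zero. -/
theorem core_zero [CharZero K] {p : ℕ} (hpp : p.Prime) (hp : ‖(p : K)‖ < 1)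
    (y : ι → K) (i0 : ι)
    (L : (σ → K) → (ι → K)) (CL : ℝ) (hCL : 0 ≤ CL) (hL : ∀ s, ‖L s‖ ≤ CL * ‖s‖)
    (Q : (ι → K) →ₗ[K] (σ → K)) (CQ : ℝ) (hCQ : 0 ≤ CQ) (hQb : ∀ u, ‖Q u‖ ≤ CQ * ‖u‖)
    (hQ : ∀ s, Q (piv y i0 (L s)) = s)
    (w : (σ → K) → (ι → K)) (δ Cw : ℝ) (hδ : 0 < δ) (hCw : 0 ≤ Cw)
    (hw : ∀ s, ‖s‖ < δ → ‖w s - y - L s‖ ≤ Cw * ‖s‖ ^ 2)
    (g : (σ → K) → K) (P : MvPolynomial σ K) (m : ℕ) (hP : P.IsHomogeneous m)
    (Cg : ℝ) (hCg : 0 ≤ Cg)
    (hg : ∀ s, ‖s‖ < δ → ‖g s - MvPolynomial.eval s P‖ ≤ Cg * ‖s‖ ^ (m + 1))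
    {κ : Type*} [Fintype κ] (R : κ → Matrix ι ι K)
    (hspan : Submodule.span K (Set.range fun k => R k *ᵥ y) = ⊤)
    (horb : ∀ (c : κ → ℕ) (a₀ : ℕ) (ε : ℝ), 0 < ε → ∃ a, a₀ ≤ a ∧ ∃ B : Matrix ι ι K, MatBd 1 B ∧
      MatBd (‖(p : K)‖ ^ a) (B - ∑ k, (c k : K) • R k) ∧
      ∃ τ : ℕ, τ ≠ 0 ∧ ‖(τ : K)‖ < ε ∧ ∃ s : σ → K, ‖s‖ < ε ∧
        ∃ lam : K, w s = lam • (((1 + ((p : K) ^ a) • B) ^ τ) *ᵥ y) ∧ g s = 0) :
    P = 0 := by
  classical
  set q : κ → σ → K := fun k => Q (piv y i0 (R k *ᵥ y)) with hq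
  have hlin : ∀ c : κ → K, Q (piv y i0 ((∑ k, c k • R k) *ᵥ y)) = ∑ k, c k • q k := by
    intro c
    have hmv : (∑ k, c k • R k) *ᵥ y = ∑ k, c k • (R k *ᵥ y) := by
      rw [Matrix.sum_mulVec]
      exact Finset.sum_congr rfl fun k _ => Matrix.smul_mulVec _ _ _
    rw [hmv]
    have hpivsum : ∀ (t : Finset κ), piv y i0 (∑ k ∈ t, c k • (R k *ᵥ y))
        = ∑ k ∈ t, c k • piv y i0 (R k *ᵥ y) := by
      intro t
      induction t using Finset.induction_on with
      | empty => ext i; simp [piv]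
      | insert a t ha ih =>
        rw [Finset.sum_insert ha, Finset.sum_insert ha, piv_add, piv_smul, ih]
    rw [hpivsum, map_sum]
    exact Finset.sum_congr rfl fun k _ => map_smul _ _ _
  have hnat : ∀ c : κ → ℕ, MvPolynomial.eval (∑ k, ((c k : ℕ) : K) • q k) P = 0 := by
    intro c
    have h := core_limit (K := K) hpp hp y i0 L CL hCL hL Q CQ hCQ hQb hQ w δ Cw hδ hCw hw g P m hP
      Cg hCg hg (∑ k, (c k : K) • R k) (horb c)
    rwa [hlin (fun k => (c k : K))] at h
  -- the polynomial in the coefficients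
  set P' : MvPolynomial κ K :=
    MvPolynomial.aeval (fun i : σ => ∑ k, MvPolynomial.C (q k i) * MvPolynomial.X k) P with hP'
  have hevalP' : ∀ c : κ → K, MvPolynomial.eval c P' = MvPolynomial.eval (∑ k, c k • q k) P := by
    intro c
    have hfun : (fun i : σ => MvPolynomial.eval c (∑ k, MvPolynomial.C (q k i) * MvPolynomial.X k))
        = ∑ k, c k • q k := by
      ext i
      simp only [map_sum, map_mul, MvPolynomial.eval_C, MvPolynomial.eval_X,
        Finset.sum_apply, Pi.smul_apply, smul_eq_mul]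
      exact Finset.sum_congr rfl fun k _ => mul_comm _ _
    rw [hP', eval_aeval, hfun]
  have hP'0 : P' = 0 := by
    refine MvPolynomial.funext_set (fun _ => Set.range (Nat.cast : ℕ → K))
      (fun _ => Set.infinite_range_of_injective Nat.cast_injective) ?_
    intro x hx
    have hc : ∀ k, ∃ n : ℕ, (n : K) = x k := fun k => hx k (Set.mem_univ k)
    choose c hc using hc
    have hxc : x = fun k => (c k : K) := by ext k; exact (hc k).symm
    rw [hxc, hevalP', map_zero]
    exact hnat c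
  refine MvPolynomial.funext fun s => ?_
  obtain ⟨c, hc⟩ := (Submodule.mem_span_range_iff_exists_fun K).mp
    (by rw [hspan]; exact Submodule.mem_top : L s ∈ Submodule.span K (Set.range fun k => R k *ᵥ y))
  have hs : s = ∑ k, c k • q k := by
    rw [← hlin c, ← hQ s, ← hc]
    congr 2
    rw [Matrix.sum_mulVec]
    exact Finset.sum_congr rfl fun k _ => (Matrix.smul_mulVec _ _ _).symm
  rw [map_zero, hs, ← hevalP', hP'0, map_zero]

end Crest.Agent.LT.ZeroCore
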