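import Mathlib

/-!
# Row 227 (S0351), module F-a-Periods (BLUEPRINT section F1).

`K` complete ultrametric, `‖p‖ < 1`, `p ≠ 0` in `K`.  At a point `z : Fin (n-1) → K` the logarithm
coefficients `ell p n z m` satisfy the (right) Hazewinkel recursion
`p ℓ_m = ∑_{i=1}^{min(m,n)} ℓ_{m-i} c_i^{p^{m-i}}`, `c_i = z_{i-1}` for `i<n`, `c_n = 1`.
We treat `ℓ_m` as functions of `z` with explicit derivatives `dell`, and we work with a "two-jet
norm" (`IsJet`) that plays the role of the Gauss norm at radius `r`.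

Main results:
* `ell_jet_bound` : `‖ℓ_m‖_r ≤ C ρ^{-m}` with `ρ^n = ‖p‖`;
* `W i z = lim_k p^k ℓ_{nk+i}(z)` for `i : ℤ`, `‖z‖<1` (`tendsto_W`), `W_sub_n : W (i-n) = p W i`;
* `dW i z = lim_k p^k dℓ_{nk+i}(z)` (`tendsto_dW`), `dW_sub_n`;
* `W_jet` : `(W i, dW i)` is a jet at each radius `r<1` (bounded, Lipschitz, Taylor).
-/

set_option autoImplicit false

namespace Crest.Agent.LT

open Filter Topology

noncomputable section

section Jet

variable {K : Type*} [NontriviallyNormedField K] [IsUltrametricDist K]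
variable {ι : Type*} [Fintype ι]

/-- Two-jet bound at radius `r` with constant `C`. -/
structure IsJet (r C : ℝ) (f : (ι → K) → K) (df : (ι → K) → (ι → K) →ₗ[K] K) : Prop where
  bound : ∀ z, ‖z‖ ≤ r → ‖f z‖ ≤ C
  dbound : ∀ z, ‖z‖ ≤ r → ∀ s, ‖df z s‖ * r ≤ C * ‖s‖
  taylor : ∀ z, ‖z‖ ≤ r → ∀ s, ‖s‖ ≤ r → ‖f (z + s) - f z - df z s‖ * r ^ 2 ≤ C * ‖s‖ ^ 2

omit [IsUltrametricDist K] in
lemma pi_norm_add_le_max [IsUltrametricDist K] (z s : ι → K) : ‖z + s‖ ≤ max ‖z‖ ‖s‖ := by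
  refine (pi_norm_le_iff_of_nonneg (le_max_of_le_left (norm_nonneg _))).2 fun i => ?_
  refine (IsUltrametricDist.norm_add_le_max _ _).trans ?_
  exact max_le_max (norm_le_pi_norm _ _) (norm_le_pi_norm _ _)

lemma IsJet.mono {r C C' : ℝ} {f : (ι → K) → K} {df : (ι → K) → (ι → K) →ₗ[K] K}
    (h : IsJet r C f df) (hC : C ≤ C') : IsJet r C' f df where
  bound z hz := (h.bound z hz).trans hC
  dbound z hz s := (h.dbound z hz s).trans (by gcongr)
  taylor z hz s hs := (h.taylor z hz s hs).trans (by gcongr)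

lemma IsJet.C_nonneg {r C : ℝ} {f : (ι → K) → K} {df : (ι → K) → (ι → K) →ₗ[K] K}
    (h : IsJet r C f df) (hr : 0 ≤ r) : 0 ≤ C :=
  (norm_nonneg _).trans (h.bound 0 (by simpa using hr))

lemma IsJet.add {r C : ℝ} {f g : (ι → K) → K} {df dg : (ι → K) → (ι → K) →ₗ[K] K}
    (hf : IsJet r C f df) (hg : IsJet r C g dg) (hr : 0 ≤ r) :
    IsJet r C (fun z => f z + g z) (fun z => df z + dg z) where
  bound z hz := (IsUltrametricDist.norm_add_le_max _ _).trans (max_le (hf.bound z hz) (hg.bound z hz))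
  dbound z hz s := by
    have : ‖(df z + dg z) s‖ ≤ max ‖df z s‖ ‖dg z s‖ := IsUltrametricDist.norm_add_le_max _ _
    calc ‖(df z + dg z) s‖ * r ≤ max ‖df z s‖ ‖dg z s‖ * r := by gcongr
      _ ≤ C * ‖s‖ := by
        rcases max_cases ‖df z s‖ ‖dg z s‖ with ⟨h, _⟩ | ⟨h, _⟩ <;> rw [h]
        · exact hf.dbound z hz s
        · exact hg.dbound z hz s
  taylor z hz s hs := by
    have e : f (z + s) + g (z + s) - (f z + g z) - (df z + dg z) s
        = (f (z + s) - f z - df z s) + (g (z + s) - g z - dg z s) := by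
      simp only [LinearMap.add_apply]; ring
    rw [e]
    have := IsUltrametricDist.norm_add_le_max (f (z + s) - f z - df z s) (g (z + s) - g z - dg z s)
    calc _ ≤ max ‖f (z + s) - f z - df z s‖ ‖g (z + s) - g z - dg z s‖ * r ^ 2 := by gcongr
      _ ≤ C * ‖s‖ ^ 2 := by
        rcases max_cases ‖f (z + s) - f z - df z s‖ ‖g (z + s) - g z - dg z s‖ with ⟨h, _⟩ | ⟨h, _⟩ <;>
          rw [h]
        · exact hf.taylor z hz s hs
        · exact hg.taylor z hz s hs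

lemma IsJet.zero {r C : ℝ} (hC : 0 ≤ C) :
    IsJet r C (fun _ : ι → K => (0 : K)) (fun _ => 0) where
  bound z _ := by simpa using hC
  dbound z _ s := by simpa using mul_nonneg hC (norm_nonneg s)
  taylor z _ s _ := by simpa using mul_nonneg hC (sq_nonneg ‖s‖)

lemma IsJet.sum {α : Type*} (t : Finset α) {r C : ℝ} {f : α → (ι → K) → K}
    {df : α → (ι → K) → (ι → K) →ₗ[K] K} (h : ∀ a ∈ t, IsJet r C (f a) (df a)) (hr : 0 ≤ r)
    (hC : 0 ≤ C) :
    IsJet r C (fun z => ∑ a ∈ t, f a z) (fun z => ∑ a ∈ t, df a z) := by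
  classical
  induction t using Finset.induction_on with
  | empty => simpa using IsJet.zero hC
  | insert a t ha ih =>
    have h1 := h a (Finset.mem_insert_self a t)
    have h2 := ih fun b hb => h b (Finset.mem_insert_of_mem hb)
    simpa [Finset.sum_insert ha] using h1.add h2 hr

lemma IsJet.const_smul {r C : ℝ} {f : (ι → K) → K} {df : (ι → K) → (ι → K) →ₗ[K] K}
    (h : IsJet r C f df) (a : K) :
    IsJet r (‖a‖ * C) (fun z => a * f z) (fun z => a • df z) where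
  bound z hz := by rw [norm_mul]; exact mul_le_mul_of_nonneg_left (h.bound z hz) (norm_nonneg _)
  dbound z hz s := by
    rw [LinearMap.smul_apply, norm_smul, mul_assoc, mul_assoc]
    exact mul_le_mul_of_nonneg_left (h.dbound z hz s) (norm_nonneg _)
  taylor z hz s hs := by
    have e : a * f (z + s) - a * f z - (a • df z) s = a * (f (z + s) - f z - df z s) := by
      simp only [LinearMap.smul_apply, smul_eq_mul]; ring
    rw [e, norm_mul, mul_assoc, mul_assoc]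
    exact mul_le_mul_of_nonneg_left (h.taylor z hz s hs) (norm_nonneg _)

lemma IsJet.mul {r C D : ℝ} {f g : (ι → K) → K} {df dg : (ι → K) → (ι → K) →ₗ[K] K}
    (hf : IsJet r C f df) (hg : IsJet r D g dg) (hr : 0 < r) :
    IsJet r (C * D) (fun z => f z * g z) (fun z => f z • dg z + g z • df z) := by
  have hC := hf.C_nonneg hr.le
  have hD := hg.C_nonneg hr.le
  refine ⟨fun z hz => ?_, fun z hz s => ?_, fun z hz s hs => ?_⟩
  · rw [norm_mul]
    exact mul_le_mul (hf.bound z hz) (hg.bound z hz) (norm_nonneg _) hC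
  · have h1 : ‖(f z • dg z) s‖ * r ≤ C * D * ‖s‖ := by
      rw [LinearMap.smul_apply, norm_smul, mul_assoc, mul_assoc]
      exact mul_le_mul (hf.bound z hz) (hg.dbound z hz s)
        (mul_nonneg (norm_nonneg _) hr.le) hC
    have h2 : ‖(g z • df z) s‖ * r ≤ C * D * ‖s‖ := by
      rw [LinearMap.smul_apply, norm_smul, mul_assoc]
      calc ‖g z‖ * (‖df z s‖ * r) ≤ D * (C * ‖s‖) :=
            mul_le_mul (hg.bound z hz) (hf.dbound z hz s) (mul_nonneg (norm_nonneg _) hr.le) hD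
        _ = C * D * ‖s‖ := by ring
    have h3 := IsUltrametricDist.norm_add_le_max ((f z • dg z) s) ((g z • df z) s)
    rw [LinearMap.add_apply]
    calc _ ≤ max ‖(f z • dg z) s‖ ‖(g z • df z) s‖ * r := by gcongr
      _ ≤ C * D * ‖s‖ := by
        rcases max_cases ‖(f z • dg z) s‖ ‖(g z • df z) s‖ with ⟨h, _⟩ | ⟨h, _⟩ <;> rw [h]
        · exact h1
        · exact h2
  · have hzs : ‖z + s‖ ≤ r := (pi_norm_add_le_max z s).trans (max_le hz hs)
    set a := f z
    set a' := f (z + s)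
    set α := df z s
    set b := g z
    set b' := g (z + s)
    set β := dg z s
    have e : a' * b' - a * b - (a • dg z + b • df z) s
        = (a' - a - α) * b' + a * (b' - b - β) + α * (b' - b) := by
      simp only [LinearMap.add_apply, LinearMap.smul_apply, smul_eq_mul]
      ring
    rw [e]
    have h1 : ‖(a' - a - α) * b'‖ * r ^ 2 ≤ C * D * ‖s‖ ^ 2 := by
      rw [norm_mul]
      calc ‖a' - a - α‖ * ‖b'‖ * r ^ 2 = (‖a' - a - α‖ * r ^ 2) * ‖b'‖ := by ring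
        _ ≤ (C * ‖s‖ ^ 2) * D :=
            mul_le_mul (hf.taylor z hz s hs) (hg.bound _ hzs) (norm_nonneg _)
              (mul_nonneg hC (sq_nonneg _))
        _ = C * D * ‖s‖ ^ 2 := by ring
    have h2 : ‖a * (b' - b - β)‖ * r ^ 2 ≤ C * D * ‖s‖ ^ 2 := by
      rw [norm_mul]
      calc ‖a‖ * ‖b' - b - β‖ * r ^ 2 = ‖a‖ * (‖b' - b - β‖ * r ^ 2) := by ring
        _ ≤ C * (D * ‖s‖ ^ 2) :=
            mul_le_mul (hf.bound z hz) (hg.taylor z hz s hs)
              (mul_nonneg (norm_nonneg _) (sq_nonneg _)) hC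
        _ = C * D * ‖s‖ ^ 2 := by ring
    have hdiff : ‖b' - b‖ * r ≤ D * ‖s‖ := by
      have e2 : b' - b = β + (b' - b - β) := by ring
      have h4 := hg.dbound z hz s
      have h5 := hg.taylor z hz s hs
      have h6 : ‖b' - b - β‖ * r ≤ D * ‖s‖ := by
        have hr2 : 0 < r ^ 2 := by positivity
        have : ‖b' - b - β‖ * r * r ≤ D * ‖s‖ * r := by
          calc ‖b' - b - β‖ * r * r = ‖b' - b - β‖ * r ^ 2 := by ring
            _ ≤ D * ‖s‖ ^ 2 := h5
            _ = D * ‖s‖ * ‖s‖ := by ring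
            _ ≤ D * ‖s‖ * r := by gcongr
        exact le_of_mul_le_mul_right this hr
      rw [e2]
      have h7 := IsUltrametricDist.norm_add_le_max β (b' - b - β)
      calc _ ≤ max ‖β‖ ‖b' - b - β‖ * r := by gcongr
        _ ≤ D * ‖s‖ := by
          rcases max_cases ‖β‖ ‖b' - b - β‖ with ⟨h, _⟩ | ⟨h, _⟩ <;> rw [h]
          · exact h4
          · exact h6
    have h3 : ‖α * (b' - b)‖ * r ^ 2 ≤ C * D * ‖s‖ ^ 2 := by
      rw [norm_mul]
      calc ‖α‖ * ‖b' - b‖ * r ^ 2 = (‖α‖ * r) * (‖b' - b‖ * r) := by ring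
        _ ≤ (C * ‖s‖) * (D * ‖s‖) :=
            mul_le_mul (hf.dbound z hz s) hdiff (mul_nonneg (norm_nonneg _) hr.le)
              (mul_nonneg hC (norm_nonneg _))
        _ = C * D * ‖s‖ ^ 2 := by ring
    have h8 := IsUltrametricDist.norm_add_le_max ((a' - a - α) * b' + a * (b' - b - β))
      (α * (b' - b))
    have h9 := IsUltrametricDist.norm_add_le_max ((a' - a - α) * b') (a * (b' - b - β))
    have h10 : ‖(a' - a - α) * b' + a * (b' - b - β)‖ * r ^ 2 ≤ C * D * ‖s‖ ^ 2 := by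
      calc _ ≤ max ‖(a' - a - α) * b'‖ ‖a * (b' - b - β)‖ * r ^ 2 := by gcongr
        _ ≤ C * D * ‖s‖ ^ 2 := by
          rcases max_cases ‖(a' - a - α) * b'‖ ‖a * (b' - b - β)‖ with ⟨h, _⟩ | ⟨h, _⟩ <;> rw [h]
          · exact h1
          · exact h2
    calc _ ≤ max ‖(a' - a - α) * b' + a * (b' - b - β)‖ ‖α * (b' - b)‖ * r ^ 2 := by gcongr
      _ ≤ C * D * ‖s‖ ^ 2 := by
        rcases max_cases ‖(a' - a - α) * b' + a * (b' - b - β)‖ ‖α * (b' - b)‖ with
          ⟨h, _⟩ | ⟨h, _⟩ <;> rw [h]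
        · exact h10
        · exact h3

lemma IsJet.of_tendsto {r C : ℝ} {f : ℕ → (ι → K) → K} {df : ℕ → (ι → K) → (ι → K) →ₗ[K] K}
    {F : (ι → K) → K} {dF : (ι → K) → (ι → K) →ₗ[K] K} (h : ∀ k, IsJet r C (f k) (df k))
    (hF : ∀ z, ‖z‖ ≤ r → Tendsto (fun k => f k z) atTop (𝓝 (F z)))
    (hdF : ∀ z, ‖z‖ ≤ r → ∀ s, Tendsto (fun k => df k z s) atTop (𝓝 (dF z s))) :
    IsJet r C F dF where
  bound z hz := le_of_tendsto' (hF z hz).norm fun k => (h k).bound z hz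
  dbound z hz s := le_of_tendsto' ((hdF z hz s).norm.mul_const r) fun k => (h k).dbound z hz s
  taylor z hz s hs := by
    have hzs : ‖z + s‖ ≤ r := (pi_norm_add_le_max z s).trans (max_le hz hs)
    refine le_of_tendsto' ((((hF _ hzs).sub (hF z hz)).sub (hdF z hz s)).norm.mul_const _) fun k => ?_
    exact (h k).taylor z hz s hs

/-- Constant function. -/
lemma IsJet.const (r : ℝ) (a : K) : IsJet r ‖a‖ (fun _ : ι → K => a) (fun _ => 0) where
  bound z _ := le_rfl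
  dbound z _ s := by simpa using mul_nonneg (norm_nonneg a) (norm_nonneg s)
  taylor z _ s _ := by simpa using mul_nonneg (norm_nonneg a) (sq_nonneg ‖s‖)

variable [DecidableEq ι]

/-- Coordinate function. -/
lemma IsJet.coord {r : ℝ} (hr : 0 ≤ r) (i : ι) :
    IsJet r r (fun z : ι → K => z i) (fun _ => LinearMap.proj i) where
  bound z hz := (norm_le_pi_norm z i).trans hz
  dbound z _ s := by
    rw [LinearMap.proj_apply, mul_comm]
    exact mul_le_mul_of_nonneg_left (norm_le_pi_norm s i) hr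
  taylor z _ s _ := by
    simp only [Pi.add_apply, LinearMap.proj_apply, add_sub_cancel_left, sub_self, norm_zero, zero_mul]
    exact mul_nonneg hr (sq_nonneg _)

/-- Powers of a jet. -/
lemma IsJet.pow {r C : ℝ} {f : (ι → K) → K} {df : (ι → K) → (ι → K) →ₗ[K] K}
    (hf : IsJet r C f df) (hr : 0 < r) (P : ℕ) :
    IsJet r (C ^ P) (fun z => f z ^ P) (fun z => ((P : K) * f z ^ (P - 1)) • df z) := by
  induction P with
  | zero =>
    have := IsJet.const (ι := ι) r (1 : K)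
    simpa using this
  | succ P ih =>
    have h3 := ih.mul hf hr
    have e : (fun z => f z ^ P * f z) = fun z => f z ^ (P + 1) := by
      funext z; ring
    have e2 : (fun z => f z ^ P • df z + f z • (((P : K) * f z ^ (P - 1)) • df z))
        = fun z => (((P + 1 : ℕ) : K) * f z ^ (P + 1 - 1)) • df z := by
      funext z
      rw [smul_smul, ← add_smul]
      congr 1
      rcases P with _ | P
      · simp
      · simp only [Nat.add_sub_cancel, Nat.cast_add, Nat.cast_one]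
        ring
    rw [pow_succ, ← e2, ← e]
    exact h3

end Jet

section Ell

variable {K : Type*} [NontriviallyNormedField K] [IsUltrametricDist K]
variable (p n : ℕ)

/-- `c_i` at `z`: `z_{i-1}` for `1 ≤ i < n`, and `1` for `i = n`. -/
def cAt (z : Fin (n - 1) → K) (i : ℕ) : K := if h : i - 1 < n - 1 then z ⟨i - 1, h⟩ else 1

/-- Derivative of `c_i` (independent of the point). -/
def dcAt (i : ℕ) : (Fin (n - 1) → K) →ₗ[K] K :=
  if h : i - 1 < n - 1 then LinearMap.proj ⟨i - 1, h⟩ else 0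

/-- Derivative of `c_i ^ P` at `z`. -/
def dPow (z : Fin (n - 1) → K) (i P : ℕ) : (Fin (n - 1) → K) →ₗ[K] K :=
  ((P : K) * cAt n z i ^ (P - 1)) • dcAt n i

/-- `ℓ_m(z)`: `ℓ_0 = 1`, `p ℓ_{m+1} = ∑_{i<min(m+1,n)} ℓ_{m-i} c_{i+1}^{p^{m-i}}`. -/
def ell (z : Fin (n - 1) → K) : ℕ → K
  | 0 => 1
  | m + 1 => (p : K)⁻¹ *
      ∑ i ∈ Finset.range (min (m + 1) n), ell z (m - i) * cAt n z (i + 1) ^ (p ^ (m - i))
decreasing_by exact Nat.lt_succ_of_le (Nat.sub_le _ _)

/-- Derivative `dℓ_m(z)`, same recursion. -/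
def dell (z : Fin (n - 1) → K) : ℕ → (Fin (n - 1) → K) →ₗ[K] K
  | 0 => 0
  | m + 1 => (p : K)⁻¹ • ∑ i ∈ Finset.range (min (m + 1) n),
      (ell p n z (m - i) • dPow n z (i + 1) (p ^ (m - i)) +
        cAt n z (i + 1) ^ (p ^ (m - i)) • dell z (m - i))
decreasing_by exact Nat.lt_succ_of_le (Nat.sub_le _ _)

@[simp] lemma ell_zero (z : Fin (n - 1) → K) : ell p n z 0 = 1 := by rw [ell]

lemma ell_succ (z : Fin (n - 1) → K) (m : ℕ) : ell p n z (m + 1) = (p : K)⁻¹ *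
      ∑ i ∈ Finset.range (min (m + 1) n), ell p n z (m - i) * cAt n z (i + 1) ^ (p ^ (m - i)) := by
  rw [ell]

@[simp] lemma dell_zero (z : Fin (n - 1) → K) : dell p n z 0 = 0 := by rw [dell]

lemma dell_succ (z : Fin (n - 1) → K) (m : ℕ) : dell p n z (m + 1) = (p : K)⁻¹ •
    ∑ i ∈ Finset.range (min (m + 1) n),
      (ell p n z (m - i) • dPow n z (i + 1) (p ^ (m - i)) +
        cAt n z (i + 1) ^ (p ^ (m - i)) • dell p n z (m - i)) := by
  rw [dell]

lemma cAt_of_not_lt (z : Fin (n - 1) → K) {i : ℕ} (h : ¬ i - 1 < n - 1) : cAt n z i = 1 := by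
  simp [cAt, h]

lemma dcAt_of_not_lt {i : ℕ} (h : ¬ i - 1 < n - 1) : (dcAt n i : (Fin (n - 1) → K) →ₗ[K] K) = 0 := by
  simp [dcAt, h]

lemma dPow_of_not_lt (z : Fin (n - 1) → K) {i : ℕ} (h : ¬ i - 1 < n - 1) (P : ℕ) :
    dPow n z i P = 0 := by
  simp [dPow, dcAt_of_not_lt n h]

lemma cAt_jet_lt {r : ℝ} (hr : 0 ≤ r) {i : ℕ} (h : i - 1 < n - 1) :
    IsJet r r (fun z : Fin (n - 1) → K => cAt n z i) (fun _ => dcAt n i) := by
  have := IsJet.coord (K := K) hr (⟨i - 1, h⟩ : Fin (n - 1))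
  simpa [cAt, dcAt, h] using this

lemma cPow_jet_lt {r : ℝ} (hr : 0 < r) {i : ℕ} (h : i - 1 < n - 1) (P : ℕ) :
    IsJet r (r ^ P) (fun z : Fin (n - 1) → K => cAt n z i ^ P) (fun z => dPow n z i P) :=
  (cAt_jet_lt n (K := K) hr.le h).pow hr P

lemma cPow_jet_top {r : ℝ} {i : ℕ} (h : ¬ i - 1 < n - 1) (P : ℕ) :
    IsJet r 1 (fun z : Fin (n - 1) → K => cAt n z i ^ P) (fun z => dPow n z i P) := by
  have := IsJet.const (K := K) (ι := Fin (n - 1)) r 1
  simpa [cAt_of_not_lt, h, dPow_of_not_lt] using this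

lemma p_mul_ell_succ (hp0 : (p : K) ≠ 0) (z : Fin (n - 1) → K) (m : ℕ) : (p : K) * ell p n z (m + 1) =
      ∑ i ∈ Finset.range (min (m + 1) n), ell p n z (m - i) * cAt n z (i + 1) ^ (p ^ (m - i)) := by
  rw [ell_succ, mul_inv_cancel_left₀ hp0]

lemma p_smul_dell_succ (hp0 : (p : K) ≠ 0) (z : Fin (n - 1) → K) (m : ℕ) :
    (p : K) • dell p n z (m + 1) = ∑ i ∈ Finset.range (min (m + 1) n),
      (ell p n z (m - i) • dPow n z (i + 1) (p ^ (m - i)) +
        cAt n z (i + 1) ^ (p ^ (m - i)) • dell p n z (m - i)) := by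
  rw [dell_succ, smul_smul, mul_inv_cancel₀ hp0, one_smul]

variable [hp2 : Fact p.Prime]

/-- Existence of a jet bound for each `ℓ_m`. -/
lemma ell_jet_exists {r : ℝ} (hr0 : 0 < r) (m : ℕ) :
    ∃ C, IsJet r C (fun z : Fin (n - 1) → K => ell p n z m) (fun z => dell p n z m) := by
  induction m using Nat.strong_induction_on with
  | _ m ih =>
    rcases m with _ | m
    · refine ⟨1, ?_⟩
      have := IsJet.const (K := K) (ι := Fin (n - 1)) r 1
      simpa using this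
    · have key : ∀ i ∈ Finset.range (min (m + 1) n), ∃ C, 0 ≤ C ∧
          IsJet r C (fun z : Fin (n - 1) → K => ell p n z (m - i) * cAt n z (i + 1) ^ (p ^ (m - i)))
          (fun z => ell p n z (m - i) • dPow n z (i + 1) (p ^ (m - i)) +
            cAt n z (i + 1) ^ (p ^ (m - i)) • dell p n z (m - i)) := by
        intro i _
        obtain ⟨C, hC⟩ := ih (m - i) (Nat.lt_succ_of_le (Nat.sub_le _ _))
        by_cases h : i + 1 - 1 < n - 1
        · exact ⟨_, mul_nonneg (hC.C_nonneg hr0.le) (by positivity),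
            hC.mul (cPow_jet_lt n (K := K) hr0 h _) hr0⟩
        · exact ⟨_, mul_nonneg (hC.C_nonneg hr0.le) zero_le_one,
            hC.mul (cPow_jet_top n (K := K) h _) hr0⟩
      choose! C hC0 hC using key
      have hS : 0 ≤ ∑ i ∈ Finset.range (min (m + 1) n), C i := Finset.sum_nonneg hC0
      have h2 := (IsJet.sum (Finset.range (min (m + 1) n))
        (fun i hi => (hC i hi).mono (Finset.single_le_sum (f := C) (fun j hj => hC0 j hj) hi))
        hr0.le hS).const_smul (p : K)⁻¹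
      have e1 : (fun z : Fin (n - 1) → K => ell p n z (m + 1))
          = fun z => (p : K)⁻¹ * ∑ i ∈ Finset.range (min (m + 1) n),
            ell p n z (m - i) * cAt n z (i + 1) ^ (p ^ (m - i)) := by
        funext z; rw [ell_succ]
      have e2 : (fun z : Fin (n - 1) → K => dell p n z (m + 1))
          = fun z => (p : K)⁻¹ • ∑ i ∈ Finset.range (min (m + 1) n),
            (ell p n z (m - i) • dPow n z (i + 1) (p ^ (m - i)) +
              cAt n z (i + 1) ^ (p ^ (m - i)) • dell p n z (m - i)) := by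
        funext z; rw [dell_succ]
      rw [e1, e2]
      exact ⟨_, h2⟩

/-- Gauss-type bound: `‖ℓ_m‖_r ≤ C ρ^{-m}`, where `ρ^n = ‖p‖`. -/
theorem ell_jet_bound (hp0 : (p : K) ≠ 0) (hn : 1 ≤ n) {r : ℝ} (hr0 : 0 < r) (hr1 : r < 1)
    {ρ : ℝ} (hρ0 : 0 < ρ) (hρ1 : ρ ≤ 1) (hρn : ρ ^ n = ‖(p : K)‖) :
    ∃ C, 0 ≤ C ∧ ∀ m, IsJet r (C * (ρ⁻¹) ^ m)
      (fun z : Fin (n - 1) → K => ell p n z m) (fun z => dell p n z m) := by
  have hpn : 0 < ‖(p : K)‖ := norm_pos_iff.2 hp0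
  obtain ⟨m0, hm0⟩ := exists_pow_lt_of_lt_one hpn hr1
  have hρi : 1 ≤ ρ⁻¹ := (one_le_inv₀ hρ0).2 hρ1
  -- finite part
  have hfin : ∃ C, 0 ≤ C ∧ ∀ m ≤ m0 + n, IsJet r C
      (fun z : Fin (n - 1) → K => ell p n z m) (fun z => dell p n z m) := by
    have key := fun m => ell_jet_exists (K := K) p n hr0 m
    choose C hC using key
    refine ⟨∑ m ∈ Finset.range (m0 + n + 1), C m,
      Finset.sum_nonneg fun m _ => (hC m).C_nonneg hr0.le, fun m hm => (hC m).mono ?_⟩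
    exact Finset.single_le_sum (f := C) (fun j _ => (hC j).C_nonneg hr0.le)
      (Finset.mem_range.2 (Nat.lt_succ_of_le hm))
  obtain ⟨C0, hC0, hC⟩ := hfin
  refine ⟨C0, hC0, fun m => ?_⟩
  induction m using Nat.strong_induction_on with
  | _ m ih =>
    by_cases hm : m ≤ m0 + n
    · exact (hC m hm).mono (le_mul_of_one_le_right hC0 (one_le_pow₀ hρi))
    · obtain ⟨m', rfl⟩ : ∃ m', m = m' + 1 := ⟨m - 1, by omega⟩
      have hmin : min (m' + 1) n = n := min_eq_right (by omega)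
      have hpos : 0 ≤ ‖(p : K)‖ * (C0 * ρ⁻¹ ^ (m' + 1)) := by positivity
      have key : ∀ i ∈ Finset.range n, IsJet r (‖(p : K)‖ * (C0 * ρ⁻¹ ^ (m' + 1)))
          (fun z : Fin (n - 1) → K => ell p n z (m' - i) * cAt n z (i + 1) ^ (p ^ (m' - i)))
          (fun z => ell p n z (m' - i) • dPow n z (i + 1) (p ^ (m' - i)) +
            cAt n z (i + 1) ^ (p ^ (m' - i)) • dell p n z (m' - i)) := by
        intro i hi
        have hi' : i < n := Finset.mem_range.1 hi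
        have hih := ih (m' - i) (Nat.lt_succ_of_le (Nat.sub_le _ _))
        by_cases h : i + 1 - 1 < n - 1
        · refine (hih.mul (cPow_jet_lt n (K := K) hr0 h _) hr0).mono ?_
          have hP : m0 ≤ p ^ (m' - i) := by
            have h1 : m' - i < p ^ (m' - i) := Nat.lt_pow_self hp2.out.one_lt
            omega
          have h3 : r ^ (p ^ (m' - i)) ≤ ‖(p : K)‖ :=
            (pow_le_pow_of_le_one hr0.le hr1.le hP).trans hm0.le
          have h4 : ρ⁻¹ ^ (m' - i) ≤ ρ⁻¹ ^ (m' + 1) := pow_le_pow_right₀ hρi (by omega)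
          calc C0 * ρ⁻¹ ^ (m' - i) * r ^ p ^ (m' - i)
              ≤ C0 * ρ⁻¹ ^ (m' + 1) * ‖(p : K)‖ := by gcongr
            _ = _ := by ring
        · have hi2 : i = n - 1 := by omega
          refine (hih.mul (cPow_jet_top n (K := K) h _) hr0).mono ?_
          have e : ρ⁻¹ ^ (m' + 1) * ρ ^ n = ρ⁻¹ ^ (m' - i) := by
            have : m' + 1 = (m' - i) + n := by omega
            rw [this, pow_add, mul_assoc, ← mul_pow, inv_mul_cancel₀ hρ0.ne', one_pow, mul_one]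
          rw [mul_one, ← e, hρn]
          apply le_of_eq; ring
      have h2 := (IsJet.sum (Finset.range n) key hr0.le hpos).const_smul (p : K)⁻¹
      have e : ‖(p : K)⁻¹‖ * (‖(p : K)‖ * (C0 * ρ⁻¹ ^ (m' + 1))) = C0 * ρ⁻¹ ^ (m' + 1) := by
        rw [norm_inv]; field_simp
      rw [e] at h2
      have e1 : (fun z : Fin (n - 1) → K => ell p n z (m' + 1))
          = fun z => (p : K)⁻¹ * ∑ i ∈ Finset.range n,
            ell p n z (m' - i) * cAt n z (i + 1) ^ (p ^ (m' - i)) := by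
        funext z; rw [ell_succ, hmin]
      have e2 : (fun z : Fin (n - 1) → K => dell p n z (m' + 1))
          = fun z => (p : K)⁻¹ • ∑ i ∈ Finset.range n,
            (ell p n z (m' - i) • dPow n z (i + 1) (p ^ (m' - i)) +
              cAt n z (i + 1) ^ (p ^ (m' - i)) • dell p n z (m' - i)) := by
        funext z; rw [dell_succ, hmin]
      rw [e1, e2]
      exact h2

/-- Existence of `ρ` with `ρ ^ n = ‖p‖`. -/
lemma exists_rho (hp0 : (p : K) ≠ 0) (hp1 : ‖(p : K)‖ < 1) (hn : 1 ≤ n) :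
    ∃ ρ : ℝ, 0 < ρ ∧ ρ ≤ 1 ∧ ρ ^ n = ‖(p : K)‖ := by
  have hpn : 0 < ‖(p : K)‖ := norm_pos_iff.2 hp0
  refine ⟨‖(p : K)‖ ^ ((n : ℝ)⁻¹), Real.rpow_pos_of_pos hpn _,
    Real.rpow_le_one hpn.le hp1.le (by positivity), ?_⟩
  exact Real.rpow_inv_natCast_pow hpn.le (by omega)

/-- `P_{k,i} = p^k ℓ_{nk+i}` has uniformly bounded jets. -/
lemma Pk_jet {r ρ C : ℝ} (hρ0 : 0 < ρ) (hρn : ρ ^ n = ‖(p : K)‖)
    (hC : ∀ m, IsJet r (C * (ρ⁻¹) ^ m)
      (fun z : Fin (n - 1) → K => ell p n z m) (fun z => dell p n z m)) (k i : ℕ) :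
    IsJet r (C * (ρ⁻¹) ^ i) (fun z : Fin (n - 1) → K => (p : K) ^ k * ell p n z (n * k + i))
      (fun z => (p : K) ^ k • dell p n z (n * k + i)) := by
  have h := (hC (n * k + i)).const_smul ((p : K) ^ k)
  have e : ‖(p : K) ^ k‖ * (C * ρ⁻¹ ^ (n * k + i)) = C * ρ⁻¹ ^ i := by
    rw [norm_pow, ← hρn, ← pow_mul, pow_add, ← mul_assoc, ← mul_assoc, mul_comm _ C, mul_assoc C,
      ← mul_pow, mul_inv_cancel₀ hρ0.ne', one_pow, mul_one]
  rwa [e] at h

/-- The telescoping identity for `ℓ`. -/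
lemma Pk_diff_ell (hp0 : (p : K) ≠ 0) (hn : 1 ≤ n) (k i : ℕ) (z : Fin (n - 1) → K) :
    (p : K) ^ (k + 1) * ell p n z (n * (k + 1) + i) - (p : K) ^ k * ell p n z (n * k + i)
      = (p : K) ^ k * ∑ j ∈ Finset.range (n - 1), ell p n z (n * k + i + (n - 1) - j) *
          cAt n z (j + 1) ^ (p ^ (n * k + i + (n - 1) - j)) := by
  have e1 : n * (k + 1) + i = (n * k + i + (n - 1)) + 1 := by
    rw [mul_add, mul_one]; omega
  have hmin : min (n * k + i + (n - 1) + 1) n = n := min_eq_right (by omega)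
  have e2 : Finset.range n = Finset.range ((n - 1) + 1) := by
    congr 1; omega
  rw [e1, ell_succ, hmin, e2, Finset.sum_range_succ]
  have e3 : n * k + i + (n - 1) - (n - 1) = n * k + i := by omega
  rw [e3, cAt_of_not_lt n z (i := n - 1 + 1) (by omega), one_pow, mul_one, pow_succ]
  field_simp
  ring

/-- The telescoping identity for `dℓ`. -/
lemma Pk_diff_dell (hp0 : (p : K) ≠ 0) (hn : 1 ≤ n) (k i : ℕ) (z : Fin (n - 1) → K) :
    (p : K) ^ (k + 1) • dell p n z (n * (k + 1) + i) - (p : K) ^ k • dell p n z (n * k + i)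
      = (p : K) ^ k • ∑ j ∈ Finset.range (n - 1),
          (ell p n z (n * k + i + (n - 1) - j) • dPow n z (j + 1) (p ^ (n * k + i + (n - 1) - j)) +
            cAt n z (j + 1) ^ (p ^ (n * k + i + (n - 1) - j)) •
              dell p n z (n * k + i + (n - 1) - j)) := by
  have e1 : n * (k + 1) + i = (n * k + i + (n - 1)) + 1 := by
    rw [mul_add, mul_one]; omega
  have hmin : min (n * k + i + (n - 1) + 1) n = n := min_eq_right (by omega)
  have e2 : Finset.range n = Finset.range ((n - 1) + 1) := by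
    congr 1; omega
  rw [e1, dell_succ, hmin, e2, Finset.sum_range_succ]
  have e3 : n * k + i + (n - 1) - (n - 1) = n * k + i := by omega
  rw [e3, cAt_of_not_lt n z (i := n - 1 + 1) (by omega), one_pow,
    dPow_of_not_lt n z (i := n - 1 + 1) (by omega), smul_zero, zero_add, one_smul, pow_succ,
    smul_smul, mul_assoc, mul_inv_cancel₀ hp0, mul_one, smul_add, add_sub_cancel_right]

/-- The jet of a consecutive difference is geometrically small. -/
lemma Pk_diff_jet (hp0 : (p : K) ≠ 0) (hn : 1 ≤ n) {r ρ C : ℝ} (hr0 : 0 < r) (hr1 : r < 1)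
    (hρ0 : 0 < ρ) (hρ1 : ρ ≤ 1) (hρn : ρ ^ n = ‖(p : K)‖) (hC0 : 0 ≤ C)
    (hC : ∀ m, IsJet r (C * (ρ⁻¹) ^ m)
      (fun z : Fin (n - 1) → K => ell p n z m) (fun z => dell p n z m)) (k i : ℕ) :
    IsJet r (C * (ρ⁻¹) ^ (n + i) * r ^ k)
      (fun z : Fin (n - 1) → K =>
        (p : K) ^ (k + 1) * ell p n z (n * (k + 1) + i) - (p : K) ^ k * ell p n z (n * k + i))
      (fun z => (p : K) ^ (k + 1) • dell p n z (n * (k + 1) + i) -
        (p : K) ^ k • dell p n z (n * k + i)) := by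
  have hρi : 1 ≤ ρ⁻¹ := (one_le_inv₀ hρ0).2 hρ1
  have hB : 0 ≤ (ρ⁻¹) ^ (n * k) * (C * (ρ⁻¹) ^ (n + i) * r ^ k) := by positivity
  have key : ∀ j ∈ Finset.range (n - 1),
      IsJet r ((ρ⁻¹) ^ (n * k) * (C * (ρ⁻¹) ^ (n + i) * r ^ k))
        (fun z : Fin (n - 1) → K => ell p n z (n * k + i + (n - 1) - j) *
          cAt n z (j + 1) ^ (p ^ (n * k + i + (n - 1) - j)))
        (fun z => ell p n z (n * k + i + (n - 1) - j) •
            dPow n z (j + 1) (p ^ (n * k + i + (n - 1) - j)) +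
          cAt n z (j + 1) ^ (p ^ (n * k + i + (n - 1) - j)) •
            dell p n z (n * k + i + (n - 1) - j)) := by
    intro j hj
    have hj' : j < n - 1 := Finset.mem_range.1 hj
    have h := (hC (n * k + i + (n - 1) - j)).mul
      (cPow_jet_lt n (K := K) hr0 (i := j + 1) (by omega) (p ^ (n * k + i + (n - 1) - j))) hr0
    refine h.mono ?_
    have hP : k ≤ p ^ (n * k + i + (n - 1) - j) := by
      have h1 : n * k + i + (n - 1) - j < p ^ (n * k + i + (n - 1) - j) :=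
        Nat.lt_pow_self hp2.out.one_lt
      have h2 : k ≤ n * k := Nat.le_mul_of_pos_left k (by omega)
      omega
    have h3 : r ^ (p ^ (n * k + i + (n - 1) - j)) ≤ r ^ k := pow_le_pow_of_le_one hr0.le hr1.le hP
    have h4 : ρ⁻¹ ^ (n * k + i + (n - 1) - j) ≤ ρ⁻¹ ^ (n * k + (n + i)) :=
      pow_le_pow_right₀ hρi (by omega)
    rw [pow_add] at h4
    calc C * ρ⁻¹ ^ (n * k + i + (n - 1) - j) * r ^ p ^ (n * k + i + (n - 1) - j)
        ≤ C * (ρ⁻¹ ^ (n * k) * ρ⁻¹ ^ (n + i)) * r ^ k := by gcongr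
      _ = _ := by ring
  have h2 := (IsJet.sum (Finset.range (n - 1)) key hr0.le hB).const_smul ((p : K) ^ k)
  have e : ‖(p : K) ^ k‖ * (ρ⁻¹ ^ (n * k) * (C * ρ⁻¹ ^ (n + i) * r ^ k))
      = C * ρ⁻¹ ^ (n + i) * r ^ k := by
    rw [norm_pow, ← hρn, ← pow_mul, ← mul_assoc, ← mul_pow, mul_inv_cancel₀ hρ0.ne', one_pow,
      one_mul]
  rw [e] at h2
  have e1 : (fun z : Fin (n - 1) → K =>
      (p : K) ^ (k + 1) * ell p n z (n * (k + 1) + i) - (p : K) ^ k * ell p n z (n * k + i))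
      = fun z => (p : K) ^ k * ∑ j ∈ Finset.range (n - 1), ell p n z (n * k + i + (n - 1) - j) *
          cAt n z (j + 1) ^ (p ^ (n * k + i + (n - 1) - j)) := by
    funext z; exact Pk_diff_ell p n hp0 hn k i z
  have e2 : (fun z : Fin (n - 1) → K =>
      (p : K) ^ (k + 1) • dell p n z (n * (k + 1) + i) - (p : K) ^ k • dell p n z (n * k + i))
      = fun z => (p : K) ^ k • ∑ j ∈ Finset.range (n - 1),
          (ell p n z (n * k + i + (n - 1) - j) • dPow n z (j + 1) (p ^ (n * k + i + (n - 1) - j)) +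
            cAt n z (j + 1) ^ (p ^ (n * k + i + (n - 1) - j)) •
              dell p n z (n * k + i + (n - 1) - j)) := by
    funext z; exact Pk_diff_dell p n hp0 hn k i z
  rw [e1, e2]
  exact h2

variable [CompleteSpace K]

/-- Existence of the limits for natural `i`. -/
lemma exists_lim_nat (hp0 : (p : K) ≠ 0) (hp1 : ‖(p : K)‖ < 1) (hn : 1 ≤ n) {r : ℝ}
    (hr0 : 0 < r) (hr1 : r < 1) (i : ℕ) (z : Fin (n - 1) → K) (hz : ‖z‖ ≤ r) :
    (∃ l, Tendsto (fun k : ℕ => (p : K) ^ k * ell p n z (n * k + i)) atTop (𝓝 l)) ∧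
    ∀ s, ∃ l, Tendsto (fun k : ℕ => ((p : K) ^ k • dell p n z (n * k + i)) s) atTop (𝓝 l) := by
  obtain ⟨ρ, hρ0, hρ1, hρn⟩ := exists_rho (K := K) p n hp0 hp1 hn
  obtain ⟨C, hC0, hC⟩ := ell_jet_bound (K := K) p n hp0 hn hr0 hr1 hρ0 hρ1 hρn
  have hd := Pk_diff_jet (K := K) p n hp0 hn hr0 hr1 hρ0 hρ1 hρn hC0 hC
  constructor
  · have : CauchySeq (fun k : ℕ => (p : K) ^ k * ell p n z (n * k + i)) := by
      refine cauchySeq_of_le_geometric r (C * ρ⁻¹ ^ (n + i)) hr1 fun k => ?_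
      rw [dist_comm, dist_eq_norm]
      exact (hd k i).bound z hz
    exact cauchySeq_tendsto_of_complete this
  · intro s
    have : CauchySeq (fun k : ℕ => ((p : K) ^ k • dell p n z (n * k + i)) s) := by
      refine cauchySeq_of_le_geometric r (C * ρ⁻¹ ^ (n + i) * ‖s‖ / r) hr1 fun k => ?_
      rw [dist_comm, dist_eq_norm, ← LinearMap.sub_apply]
      have := (hd k i).dbound z hz s
      rw [div_mul_eq_mul_div, le_div_iff₀ hr0]
      refine this.trans (le_of_eq ?_)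
      ring
    exact cauchySeq_tendsto_of_complete this

/-- Index `n k + i` for `i : ℤ`. -/
def idx (k : ℕ) (i : ℤ) : ℕ := ((n : ℤ) * k + i).toNat

/-- The period function `W_i(z) = lim_k p^k ℓ_{nk+i}(z)`. -/
def W (i : ℤ) (z : Fin (n - 1) → K) : K :=
  limUnder atTop (fun k : ℕ => (p : K) ^ k * ell p n z (idx n k i))

/-- Partial derivative of `W_i`. -/
def dWc (i : ℤ) (z : Fin (n - 1) → K) (j : Fin (n - 1)) : K :=
  limUnder atTop (fun k : ℕ => (p : K) ^ k * dell p n z (idx n k i) (Pi.single j 1))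

/-- Derivative of `W_i`. -/
def dW (i : ℤ) (z : Fin (n - 1) → K) : (Fin (n - 1) → K) →ₗ[K] K :=
  ∑ j, dWc p n i z j • LinearMap.proj j

lemma idx_nat (k i : ℕ) : idx n k (i : ℤ) = n * k + i := by
  simp only [idx]
  have : ((n : ℤ) * k + i) = ((n * k + i : ℕ) : ℤ) := by push_cast; ring
  rw [this, Int.toNat_natCast]

lemma idx_shift (hn : 1 ≤ n) (k : ℕ) (i : ℤ) :
    idx n (k + i.natAbs) i = n * k + ((n : ℤ) * i.natAbs + i).toNat := by
  simp only [idx]
  have h1 : (0 : ℤ) ≤ (n : ℤ) * i.natAbs + i := by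
    have h2 : (i.natAbs : ℤ) ≤ (n : ℤ) * i.natAbs := by
      have : (1 : ℤ) ≤ n := by exact_mod_cast hn
      nlinarith [Int.natCast_nonneg i.natAbs]
    have h3 : -i ≤ (i.natAbs : ℤ) := by
      rw [← Int.natAbs_neg]; exact Int.le_natAbs
    linarith
  obtain ⟨m, hm⟩ := Int.eq_ofNat_of_zero_le h1
  rw [hm, Int.toNat_natCast]
  have : (n : ℤ) * ((k + i.natAbs : ℕ) : ℤ) + i = ((n * k + m : ℕ) : ℤ) := by
    rw [Nat.cast_add, Nat.cast_add, Nat.cast_mul, mul_add]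
    linarith
  rw [this, Int.toNat_natCast]

/-- `W_i(z)` is the limit of `p^k ℓ_{nk+i}(z)`. -/
theorem tendsto_W (hp0 : (p : K) ≠ 0) (hp1 : ‖(p : K)‖ < 1) (hn : 1 ≤ n) (i : ℤ)
    (z : Fin (n - 1) → K) (hz : ‖z‖ < 1) :
    Tendsto (fun k : ℕ => (p : K) ^ k * ell p n z (idx n k i)) atTop (𝓝 (W p n i z)) := by
  obtain ⟨l, hl⟩ : ∃ l, Tendsto (fun k : ℕ => (p : K) ^ k * ell p n z (idx n k i)) atTop (𝓝 l) := by
    set r := max ‖z‖ (1 / 2) with hr
    have hr0 : 0 < r := lt_max_of_lt_right (by norm_num)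
    have hr1 : r < 1 := max_lt hz (by norm_num)
    obtain ⟨l, hl⟩ := (exists_lim_nat (K := K) p n hp0 hp1 hn hr0 hr1
      ((n : ℤ) * i.natAbs + i).toNat z (le_max_left _ _)).1
    refine ⟨(p : K) ^ i.natAbs * l, ?_⟩
    rw [← tendsto_add_atTop_iff_nat i.natAbs]
    refine (hl.const_mul ((p : K) ^ i.natAbs)).congr fun k => ?_
    rw [idx_shift n hn]
    ring
  rw [W, hl.limUnder_eq]
  exact hl

/-- The derivative `dW_i(z)(s)` is the limit of `p^k dℓ_{nk+i}(z)(s)`. -/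
theorem tendsto_dWc (hp0 : (p : K) ≠ 0) (hp1 : ‖(p : K)‖ < 1) (hn : 1 ≤ n) (i : ℤ)
    (z : Fin (n - 1) → K) (hz : ‖z‖ < 1) (s : Fin (n - 1) → K) :
    ∃ l, Tendsto (fun k : ℕ => (p : K) ^ k * dell p n z (idx n k i) s) atTop (𝓝 l) := by
  set r := max ‖z‖ (1 / 2) with hr
  have hr0 : 0 < r := lt_max_of_lt_right (by norm_num)
  have hr1 : r < 1 := max_lt hz (by norm_num)
  obtain ⟨l, hl⟩ := (exists_lim_nat (K := K) p n hp0 hp1 hn hr0 hr1
    ((n : ℤ) * i.natAbs + i).toNat z (le_max_left _ _)).2 s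
  refine ⟨(p : K) ^ i.natAbs * l, ?_⟩
  rw [← tendsto_add_atTop_iff_nat i.natAbs]
  refine (hl.const_mul ((p : K) ^ i.natAbs)).congr fun k => ?_
  rw [idx_shift n hn, LinearMap.smul_apply, smul_eq_mul]
  ring

omit [CompleteSpace K] [hp2 : Fact p.Prime] in
lemma lin_eq_sum (f : (Fin (n - 1) → K) →ₗ[K] K) (s : Fin (n - 1) → K) :
    f s = ∑ j, s j * f (Pi.single j 1) := by
  have : s = ∑ j, s j • (Pi.single j (1 : K) : Fin (n - 1) → K) := by
    ext i
    simp [Finset.sum_apply, Pi.single_apply]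
  conv_lhs => rw [this, map_sum]
  simp [map_smul]

/-- The derivative `dW_i(z)(s)` is the limit of `p^k dℓ_{nk+i}(z)(s)`. -/
theorem tendsto_dW (hp0 : (p : K) ≠ 0) (hp1 : ‖(p : K)‖ < 1) (hn : 1 ≤ n) (i : ℤ)
    (z : Fin (n - 1) → K) (hz : ‖z‖ < 1) (s : Fin (n - 1) → K) :
    Tendsto (fun k : ℕ => (p : K) ^ k * dell p n z (idx n k i) s) atTop (𝓝 (dW p n i z s)) := by
  have h1 : ∀ j : Fin (n - 1), Tendsto
      (fun k : ℕ => (p : K) ^ k * dell p n z (idx n k i) (Pi.single j 1)) atTop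
      (𝓝 (dWc p n i z j)) := by
    intro j
    obtain ⟨l, hl⟩ := tendsto_dWc (K := K) p n hp0 hp1 hn i z hz (Pi.single j 1)
    rw [dWc, hl.limUnder_eq]
    exact hl
  have h2 : Tendsto (fun k : ℕ => ∑ j, s j * ((p : K) ^ k * dell p n z (idx n k i) (Pi.single j 1)))
      atTop (𝓝 (∑ j, s j * dWc p n i z j)) :=
    tendsto_finsetSum _ fun j _ => (h1 j).const_mul (s j)
  have e : dW p n i z s = ∑ j, s j * dWc p n i z j := by
    simp [dW, LinearMap.sum_apply, mul_comm]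
  rw [e]
  refine h2.congr fun k => ?_
  conv_rhs => rw [lin_eq_sum n (dell p n z (idx n k i)) s, Finset.mul_sum]
  refine Finset.sum_congr rfl fun j _ => ?_
  ring

/-- For natural `i`: `W_i(z) = lim_k p^k ℓ_{nk+i}(z)`. -/
theorem tendsto_W_nat (hp0 : (p : K) ≠ 0) (hp1 : ‖(p : K)‖ < 1) (hn : 1 ≤ n) (i : ℕ)
    (z : Fin (n - 1) → K) (hz : ‖z‖ < 1) :
    Tendsto (fun k : ℕ => (p : K) ^ k * ell p n z (n * k + i)) atTop (𝓝 (W p n (i : ℤ) z)) := by
  have := tendsto_W (K := K) p n hp0 hp1 hn (i : ℤ) z hz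
  simpa only [idx_nat] using this

omit [CompleteSpace K] [hp2 : Fact p.Prime] in
lemma idx_sub_n (k : ℕ) (i : ℤ) : idx n (k + 1) (i - n) = idx n k i := by
  simp only [idx]
  congr 1
  push_cast
  ring

/-- `W_{i-n} = p W_i`. -/
theorem W_sub_n (hp0 : (p : K) ≠ 0) (hp1 : ‖(p : K)‖ < 1) (hn : 1 ≤ n) (i : ℤ)
    (z : Fin (n - 1) → K) (hz : ‖z‖ < 1) : W p n (i - n) z = (p : K) * W p n i z := by
  have h1 := tendsto_W (K := K) p n hp0 hp1 hn (i - n) z hz
  rw [← tendsto_add_atTop_iff_nat 1] at h1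
  have h2 := (tendsto_W (K := K) p n hp0 hp1 hn i z hz).const_mul (p : K)
  refine tendsto_nhds_unique h1 (h2.congr fun k => ?_)
  rw [idx_sub_n n, pow_succ]
  ring

/-- `dW_{i-n} = p dW_i`. -/
theorem dW_sub_n (hp0 : (p : K) ≠ 0) (hp1 : ‖(p : K)‖ < 1) (hn : 1 ≤ n) (i : ℤ)
    (z : Fin (n - 1) → K) (hz : ‖z‖ < 1) : dW p n (i - n) z = (p : K) • dW p n i z := by
  ext j
  have h1 := tendsto_dW (K := K) p n hp0 hp1 hn (i - n) z hz (Pi.single j 1)
  rw [← tendsto_add_atTop_iff_nat 1] at h1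
  have h2 := (tendsto_dW (K := K) p n hp0 hp1 hn i z hz (Pi.single j 1)).const_mul (p : K)
  refine tendsto_nhds_unique h1 (h2.congr fun k => ?_)
  rw [idx_sub_n n, pow_succ]
  ring

/-- `(W_i, dW_i)` is a jet at each radius `r<1`. This gives boundedness, Lipschitz bounds and the
Taylor estimate. -/
theorem W_jet (hp0 : (p : K) ≠ 0) (hp1 : ‖(p : K)‖ < 1) (hn : 1 ≤ n) {r : ℝ} (hr0 : 0 < r)
    (hr1 : r < 1) (i : ℤ) : ∃ C, IsJet r C (W p n i : (Fin (n - 1) → K) → K) (dW p n i) := by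
  obtain ⟨ρ, hρ0, hρ1, hρn⟩ := exists_rho (K := K) p n hp0 hp1 hn
  obtain ⟨C, hC0, hC⟩ := ell_jet_bound (K := K) p n hp0 hn hr0 hr1 hρ0 hρ1 hρn
  have hz : ∀ z : Fin (n - 1) → K, ‖z‖ ≤ r → ‖z‖ < 1 := fun z h => h.trans_lt hr1
  refine ⟨‖(p : K) ^ i.natAbs‖ * (C * ρ⁻¹ ^ ((n : ℤ) * i.natAbs + i).toNat), ?_⟩
  refine IsJet.of_tendsto (f := fun (k : ℕ) (z : Fin (n - 1) → K) => (p : K) ^ i.natAbs *
      ((p : K) ^ k * ell p n z (n * k + ((n : ℤ) * i.natAbs + i).toNat)))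
    (df := fun k z => (p : K) ^ i.natAbs •
      ((p : K) ^ k • dell p n z (n * k + ((n : ℤ) * i.natAbs + i).toNat)))
    (fun k => (Pk_jet (K := K) p n hρ0 hρn hC k _).const_smul _) (fun z h => ?_) (fun z h s => ?_)
  · have h1 := tendsto_W (K := K) p n hp0 hp1 hn i z (hz z h)
    rw [← tendsto_add_atTop_iff_nat i.natAbs] at h1
    refine h1.congr fun k => ?_
    rw [idx_shift n hn]
    ring
  · have h1 := tendsto_dW (K := K) p n hp0 hp1 hn i z (hz z h) s
    rw [← tendsto_add_atTop_iff_nat i.natAbs] at h1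
    refine h1.congr fun k => ?_
    rw [idx_shift n hn]
    simp only [LinearMap.smul_apply, smul_eq_mul]
    ring

/-- Taylor estimate for `W_i`. -/
theorem W_taylor (hp0 : (p : K) ≠ 0) (hp1 : ‖(p : K)‖ < 1) (hn : 1 ≤ n) {r : ℝ} (hr0 : 0 < r)
    (hr1 : r < 1) (i : ℤ) : ∃ C, 0 ≤ C ∧ ∀ z s : Fin (n - 1) → K, ‖z‖ ≤ r → ‖s‖ ≤ r →
      ‖W p n i (z + s) - W p n i z - dW p n i z s‖ ≤ C * ‖s‖ ^ 2 := by
  obtain ⟨C, hC⟩ := W_jet (K := K) p n hp0 hp1 hn hr0 hr1 i
  have hr2 : 0 < r ^ 2 := by positivity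
  refine ⟨C / r ^ 2, div_nonneg (hC.C_nonneg hr0.le) hr2.le, fun z s hz hs => ?_⟩
  have := hC.taylor z hz s hs
  rw [div_mul_eq_mul_div, le_div_iff₀ hr2]
  exact this

end Ell

end

end Crest.Agent.LT
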