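import Mathlib

/-!
# F-b (`ZeroWronsk`): the Wronskian of the Hazewinkel recursion has norm `|p|^{-m}`

BLUEPRINT section F2.  Everything is done at a point: `K` an ultrametric normed field,
`z : Fin N → K` with `‖z i‖ < 1` (`n = N + 1`), `‖p‖ < 1`.  A sequence `l` satisfying the right
recursion `p l_{m+1} = ∑_{j ≤ min(m, N)} l_{m-j} τ_j ^ (p ^ (m-j))` (`τ_j = z j`, `τ_N = 1`), and
sequences `dl i` satisfying the differentiated recursion.  Then
`‖det [v_m | D_0 v_m | ... | D_{N-1} v_m]‖ * ‖p‖ ^ m = 1` for `m ≥ N`, where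
`v_m = (l_m, l_{m-1}, ..., l_{m-N})`.  Limits and the cross map `Λ` are at the end of the file.
-/

set_option linter.unusedSectionVars false

namespace Crest.Agent.LT.Wronsk

open Matrix Finset

variable {K : Type*} [NormedField K] [IsUltrametricDist K]

/-! ### Ultrametric helpers -/

lemma norm_sum_lt_one {ι : Type*} (s : Finset ι) (f : ι → K) (h : ∀ i ∈ s, ‖f i‖ < 1) :
    ‖∑ i ∈ s, f i‖ < 1 := by
  by_cases hs : s.Nonempty
  · obtain ⟨i, hi, hle⟩ := IsUltrametricDist.exists_norm_finsetSum_le_of_nonempty hs f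
    exact lt_of_le_of_lt hle (h i hi)
  · rw [Finset.not_nonempty_iff_eq_empty] at hs
    simp [hs]

lemma norm_sum_le_one {ι : Type*} (s : Finset ι) (f : ι → K) (h : ∀ i ∈ s, ‖f i‖ ≤ 1) :
    ‖∑ i ∈ s, f i‖ ≤ 1 :=
  IsUltrametricDist.norm_sum_le_of_forall_le_of_nonneg zero_le_one h

lemma norm_prod_sub_prod_lt {ι : Type*} (s : Finset ι) (f g : ι → K)
    (hf : ∀ i ∈ s, ‖f i‖ ≤ 1) (hg : ∀ i ∈ s, ‖g i‖ ≤ 1) (h : ∀ i ∈ s, ‖f i - g i‖ < 1) :
    ‖∏ i ∈ s, f i - ∏ i ∈ s, g i‖ < 1 := by
  classical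
  induction s using Finset.induction_on with
  | empty => simp
  | insert a s ha ih =>
    rw [Finset.prod_insert ha, Finset.prod_insert ha]
    have e : f a * ∏ i ∈ s, f i - g a * ∏ i ∈ s, g i =
        f a * (∏ i ∈ s, f i - ∏ i ∈ s, g i) + (f a - g a) * ∏ i ∈ s, g i := by ring
    rw [e]
    refine lt_of_le_of_lt (IsUltrametricDist.norm_add_le_max _ _) (max_lt ?_ ?_)
    · rw [norm_mul]
      have h1 := hf a (Finset.mem_insert_self a s)
      have h2 := ih (fun i hi => hf i (Finset.mem_insert_of_mem hi))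
        (fun i hi => hg i (Finset.mem_insert_of_mem hi))
        (fun i hi => h i (Finset.mem_insert_of_mem hi))
      calc ‖f a‖ * _ ≤ 1 * _ := by gcongr
        _ < 1 := by simpa using h2
    · rw [norm_mul]
      have h1 := h a (Finset.mem_insert_self a s)
      have h2 : ‖∏ i ∈ s, g i‖ ≤ 1 := by
        rw [norm_prod]
        exact Finset.prod_le_one (fun _ _ => norm_nonneg _)
          (fun i hi => hg i (Finset.mem_insert_of_mem hi))
      calc ‖f a - g a‖ * _ ≤ ‖f a - g a‖ * 1 := by gcongr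
        _ < 1 := by simpa using h1

/-! ### Integral matrices, closeness -/

section Mat

variable {n : Type*} [Fintype n] [DecidableEq n]

/-- all entries have norm `≤ 1` -/
def Integral (A : Matrix n n K) : Prop := ∀ r c, ‖A r c‖ ≤ 1

lemma integral_one : Integral (1 : Matrix n n K) := by
  intro r c
  by_cases h : r = c
  · subst h; simp
  · simp [Matrix.one_apply_ne h]

lemma integral_mul {A B : Matrix n n K} (hA : Integral A) (hB : Integral B) :
    Integral (A * B) := by
  intro r c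
  rw [Matrix.mul_apply]
  refine norm_sum_le_one _ _ fun s _ => ?_
  rw [norm_mul]
  exact mul_le_one₀ (hA r s) (norm_nonneg _) (hB s c)

lemma norm_mulVec_le_one {A : Matrix n n K} (hA : Integral A) {u : n → K}
    (hu : ∀ r, ‖u r‖ ≤ 1) (r : n) : ‖(A *ᵥ u) r‖ ≤ 1 := by
  simp only [Matrix.mulVec, dotProduct]
  refine norm_sum_le_one _ _ fun s _ => ?_
  rw [norm_mul]
  exact mul_le_one₀ (hA r s) (norm_nonneg _) (hu s)

lemma norm_mulVec_lt_one {A : Matrix n n K} (hA : Integral A) {u : n → K}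
    (hu : ∀ r, ‖u r‖ < 1) (r : n) : ‖(A *ᵥ u) r‖ < 1 := by
  simp only [Matrix.mulVec, dotProduct]
  refine norm_sum_lt_one _ _ fun s _ => ?_
  rw [norm_mul]
  calc ‖A r s‖ * ‖u s‖ ≤ 1 * ‖u s‖ := by gcongr; exact hA r s
    _ < 1 := by simpa using hu s

lemma norm_det_sub_lt {A B : Matrix n n K} (hA : Integral A) (hB : Integral B)
    (h : ∀ r c, ‖A r c - B r c‖ < 1) : ‖A.det - B.det‖ < 1 := by
  rw [Matrix.det_apply, Matrix.det_apply, ← Finset.sum_sub_distrib]
  refine norm_sum_lt_one _ _ fun σ _ => ?_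
  rw [← smul_sub]
  have hs : ‖(Equiv.Perm.sign σ) • (∏ i, A (σ i) i - ∏ i, B (σ i) i)‖ =
      ‖∏ i, A (σ i) i - ∏ i, B (σ i) i‖ := by
    rcases Int.units_eq_one_or (Equiv.Perm.sign σ) with h1 | h1
    · simp [h1]
    · rw [h1, Units.neg_smul, one_smul, norm_neg]
  rw [hs]
  exact norm_prod_sub_prod_lt _ _ _ (fun i _ => hA _ _) (fun i _ => hB _ _) (fun i _ => h _ _)

/-- A matrix with integral entries congruent to the identity has determinant of norm 1. -/
lemma norm_det_eq_one_of_close {A : Matrix n n K} (hA : Integral A)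
    (h : ∀ r c, ‖A r c - (1 : Matrix n n K) r c‖ < 1) : ‖A.det‖ = 1 := by
  have h1 := norm_det_sub_lt hA integral_one h
  rw [Matrix.det_one] at h1
  have hle : ‖A.det‖ ≤ 1 := by
    have := IsUltrametricDist.norm_add_le_max (A.det - 1) 1
    simp only [sub_add_cancel, norm_one] at this
    exact this.trans (max_le h1.le le_rfl)
  refine le_antisymm hle ?_
  by_contra hlt
  push Not at hlt
  have : ‖(1:K)‖ ≤ max ‖A.det‖ ‖A.det - 1‖ := by
    have := IsUltrametricDist.norm_add_le_max A.det (-(A.det - 1))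
    rw [norm_neg] at this
    simpa using this
  simp only [norm_one] at this
  exact absurd this (not_le.mpr (max_lt hlt h1))

end Mat

/-! ### The recursion and its inverse companion matrices -/

variable {N : ℕ} (p : ℕ) (z : Fin N → K)

/-- `τ_j`: `z j` for `j < N`, and `1` for `j = N`. -/
def tau : Fin (N + 1) → K := Fin.snoc (α := fun _ => K) z 1

@[simp] lemma tau_castSucc (j : Fin N) : tau z j.castSucc = z j := by simp [tau]
@[simp] lemma tau_last : tau z (Fin.last N) = 1 := by simp [tau]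

/-- The recursion `p l_{m+1} = ∑_{j ≤ min(m,N)} l_{m-j} τ_j ^ (p^(m-j))`. -/
def IsEll (l : ℕ → K) : Prop :=
  l 0 = 1 ∧ ∀ m, (p : K) * l (m + 1) =
    ∑ j : Fin (N + 1), if (j : ℕ) ≤ m then l (m - j) * tau z j ^ (p ^ (m - j)) else 0

/-- The defect term of the differentiated recursion (`p Y_{i, m+1}` in the blueprint). -/
def defect (l : ℕ → K) (i : Fin N) (m : ℕ) : K :=
  if (i : ℕ) ≤ m then l (m - i) * (p : K) ^ (m - i) * z i ^ (p ^ (m - i) - 1) else 0

/-- The differentiated recursion, `dl = ∂ l / ∂ z_i` (at the point `z`). -/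
def IsDEll (l dl : ℕ → K) (i : Fin N) : Prop :=
  dl 0 = 0 ∧ ∀ m, (p : K) * dl (m + 1) =
    (∑ j : Fin (N + 1), if (j : ℕ) ≤ m then dl (m - j) * tau z j ^ (p ^ (m - j)) else 0)
      + defect p z l i m

/-- The window `(l_m, l_{m-1}, ..., l_{m-N})`, with `l_{negative} = 0`. -/
def win (l : ℕ → K) (m : ℕ) : Fin (N + 1) → K := fun r => if (r : ℕ) ≤ m then l (m - r) else 0

/-- The row `(p, -z_0^(p^m), -z_1^(p^(m-1)), ...)`. -/
def lastRow (m : ℕ) : Fin (N + 1) → K :=
  Fin.cons (α := fun _ => K) (p : K) (fun j : Fin N => -(z j ^ (p ^ (m - j))))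

/-- The inverse companion matrix `C_{m+1}⁻¹` of the blueprint. -/
def cinv (m : ℕ) : Matrix (Fin (N + 1)) (Fin (N + 1)) K :=
  Matrix.of (Fin.snoc (α := fun _ => Fin (N + 1) → K)
    (fun r : Fin N => Pi.single r.succ (1 : K)) (lastRow p z m))

@[simp] lemma cinv_castSucc (m : ℕ) (r : Fin N) (c : Fin (N + 1)) :
    cinv p z m r.castSucc c = (Pi.single r.succ (1 : K) : Fin (N + 1) → K) c := by
  simp [cinv]

@[simp] lemma cinv_last (m : ℕ) (c : Fin (N + 1)) :
    cinv p z m (Fin.last N) c = lastRow p z m c := by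
  simp [cinv]

lemma cinv_mulVec_castSucc (m : ℕ) (u : Fin (N + 1) → K) (r : Fin N) :
    (cinv p z m *ᵥ u) r.castSucc = u r.succ := by
  simp [Matrix.mulVec, dotProduct, Pi.single_apply]

lemma cinv_mulVec_last (m : ℕ) (u : Fin (N + 1) → K) :
    (cinv p z m *ᵥ u) (Fin.last N) =
      (p : K) * u 0 - ∑ j : Fin N, z j ^ (p ^ (m - j)) * u j.succ := by
  simp only [Matrix.mulVec, dotProduct, cinv_last]
  rw [Fin.sum_univ_succ]
  simp [lastRow, sub_eq_add_neg, Finset.sum_neg_distrib]

lemma win_zero_succ_aux (l : ℕ → K) (m : ℕ) :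
    win (N := N) l (m + 1) 0 = l (m + 1) := by
  simp [win]

lemma win_succ_succ (l : ℕ → K) (m : ℕ) (j : Fin N) :
    win (N := N) l (m + 1) j.succ = if (j : ℕ) ≤ m then l (m - j) else 0 := by
  simp only [win, Fin.val_succ]
  by_cases h : (j : ℕ) ≤ m
  · rw [if_pos (by omega), if_pos h]
    congr 1
    omega
  · rw [if_neg (by omega), if_neg h]

/-- Main step: `C_{m+1}⁻¹ v_{m+1} = v_m + (extra) e_N` whenever `l` satisfies the recursion at `m`
up to the additive `extra`. -/
lemma cinv_mulVec_win (l : ℕ → K) (m : ℕ) (extra : K)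
    (hl : (p : K) * l (m + 1) =
      (∑ j : Fin (N + 1), if (j : ℕ) ≤ m then l (m - j) * tau z j ^ (p ^ (m - j)) else 0) + extra) :
    cinv p z m *ᵥ win l (m + 1) = win l m + extra • Pi.single (Fin.last N) 1 := by
  funext r
  induction r using Fin.lastCases with
  | last =>
    rw [cinv_mulVec_last, win_zero_succ_aux, hl, Fin.sum_univ_castSucc]
    have e : ∀ j : Fin N, z j ^ (p ^ (m - j)) * win l (m + 1) j.succ =
        if ((j.castSucc : Fin (N + 1)) : ℕ) ≤ m then
          l (m - (j.castSucc : Fin (N + 1))) * tau z j.castSucc ^ (p ^ (m - j)) else 0 := by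
      intro j
      rw [win_succ_succ]
      simp only [Fin.val_castSucc, tau_castSucc]
      split_ifs <;> ring
    rw [Finset.sum_congr rfl (fun j _ => e j)]
    simp only [Fin.val_castSucc, Fin.val_last, tau_last, one_pow, mul_one, Pi.add_apply,
      Pi.smul_apply, Pi.single_eq_same, smul_eq_mul, win]
    ring
  | cast r =>
    rw [cinv_mulVec_castSucc]
    have : win l (m + 1) r.succ = win l m r.castSucc := by
      rw [win_succ_succ]
      simp [win]
    rw [this]
    have hne : r.castSucc ≠ Fin.last N := (Fin.castSucc_lt_last r).ne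
    simp [Pi.single_apply, hne]

/-! ### Integrality -/

variable (hp1 : ‖(p : K)‖ ≤ 1) (hz : ∀ i, ‖z i‖ < 1)

include hp1 hz in
lemma integral_cinv (m : ℕ) : Integral (cinv p z m) := by
  intro r c
  induction r using Fin.lastCases with
  | last =>
    rw [cinv_last]
    induction c using Fin.cases with
    | zero => simpa [lastRow] using hp1
    | succ j =>
      simp only [lastRow, Fin.cons_succ, norm_neg, norm_pow]
      exact pow_le_one₀ (norm_nonneg _) (hz j).le
  | cast r =>
    rw [cinv_castSucc]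
    by_cases h : c = r.succ
    · subst h; simp
    · simp [Pi.single_apply, h]

/-- The product `Q_m = C_1⁻¹ ⋯ C_m⁻¹`. -/
def Q : ℕ → Matrix (Fin (N + 1)) (Fin (N + 1)) K
  | 0 => 1
  | m + 1 => Q m * cinv p z m

include hp1 hz in
lemma integral_Q (m : ℕ) : Integral (Q p z m) := by
  induction m with
  | zero => exact integral_one
  | succ m ih => exact integral_mul ih (integral_cinv p z hp1 hz m)

/-! ### The determinant of `cinv` -/

/-- `cinv` with rows rotated: upper triangular. -/
def cinvT (m : ℕ) : Matrix (Fin (N + 1)) (Fin (N + 1)) K :=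
  Matrix.of (Fin.cons (α := fun _ => Fin (N + 1) → K) (lastRow p z m)
    (fun r : Fin N => Pi.single r.succ (1 : K)))

lemma cinvT_det (m : ℕ) : (cinvT p z m).det = (p : K) := by
  rw [Matrix.det_of_isUpperTriangular]
  · rw [Fin.prod_univ_succ]
    simp [cinvT, lastRow]
  · intro i j hij
    induction i using Fin.cases with
    | zero => exact absurd hij (Fin.not_lt_zero j)
    | succ i =>
      have hne : j ≠ i.succ := (show j < i.succ from hij).ne
      simp [cinvT, Pi.single_apply, hne]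

lemma cinv_eq_submatrix (m : ℕ) :
    cinv p z m = (cinvT p z m).submatrix (finRotate (N + 1)) id := by
  ext r c
  induction r using Fin.lastCases with
  | last =>
    simp [cinvT]
  | cast r =>
    have : finRotate (N + 1) r.castSucc = r.succ := by
      ext
      rw [coe_finRotate_of_ne_last (Fin.castSucc_lt_last r).ne]
      simp
    simp [cinvT, this]

lemma norm_det_cinv (m : ℕ) : ‖(cinv p z m).det‖ = ‖(p : K)‖ := by
  rw [cinv_eq_submatrix, Matrix.det_permute, cinvT_det]
  rcases Int.units_eq_one_or (Equiv.Perm.sign (finRotate (N + 1))) with h | h <;> simp [h]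

lemma norm_det_Q (m : ℕ) : ‖(Q p z m).det‖ = ‖(p : K)‖ ^ m := by
  induction m with
  | zero => simp [Q]
  | succ m ih => rw [Q, Matrix.det_mul, norm_mul, ih, norm_det_cinv, pow_succ]

/-! ### Action on the windows -/

variable {p z} {l : ℕ → K}

lemma win_zero_of (hl0 : l 0 = 1) :
    win (N := N) l 0 = Pi.single (0 : Fin (N + 1)) (1 : K) := by
  funext r
  induction r using Fin.cases with
  | zero => simp [win, hl0]
  | succ r => simp [win, Pi.single_apply, Fin.succ_ne_zero]

lemma Q_mulVec_win (hl : IsEll p z l) (m : ℕ) :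
    Q p z m *ᵥ win l m = Pi.single (0 : Fin (N + 1)) (1 : K) := by
  induction m with
  | zero => rw [Q, Matrix.one_mulVec, win_zero_of hl.1]
  | succ m ih =>
    have h := cinv_mulVec_win p z l m 0 (by simpa using hl.2 m)
    rw [Q, ← Matrix.mulVec_mulVec, h]
    simpa using ih

/-- `G i m = Q_m D_i v_m`. -/
def G (p : ℕ) (z : Fin N → K) (dl : Fin N → ℕ → K) (i : Fin N) (m : ℕ) : Fin (N + 1) → K :=
  Q p z m *ᵥ win (dl i) m

variable {dl : Fin N → ℕ → K}

lemma G_succ (hd : ∀ i, IsDEll p z l (dl i) i) (i : Fin N) (m : ℕ) :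
    G p z dl i (m + 1) = G p z dl i m +
      defect p z l i m • (Q p z m *ᵥ Pi.single (Fin.last N) (1 : K)) := by
  have h := cinv_mulVec_win p z (dl i) m (defect p z l i m) ((hd i).2 m)
  simp only [G, Q]
  rw [← Matrix.mulVec_mulVec, h, Matrix.mulVec_add, Matrix.mulVec_smul]

lemma win_zero_dl (hd : ∀ i, IsDEll p z l (dl i) i) (i : Fin N) :
    win (N := N) (dl i) 0 = 0 := by
  funext r
  by_cases h : (r : ℕ) ≤ 0
  · have : (r : ℕ) = 0 := by omega
    simp [win, this, (hd i).1]
  · simp [win, h]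

lemma defect_eq_zero (i : Fin N) (m : ℕ) (h : m < i) : defect p z l i m = 0 := by
  simp only [defect]
  rw [if_neg (by omega)]

lemma defect_self (hl0 : l 0 = 1) (i : Fin N) : defect p z l i (i : ℕ) = 1 := by
  simp [defect, hl0]

include hp1 in
lemma norm_pow_mul_ell_le (hl : IsEll p z l) (hz : ∀ i, ‖z i‖ < 1) (m : ℕ) :
    ‖(p : K) ^ m * l m‖ ≤ 1 := by
  induction m using Nat.strong_induction_on with
  | _ m ih =>
    cases m with
    | zero => simp [hl.1]
    | succ m =>
      have : (p : K) ^ (m + 1) * l (m + 1) = (p : K) ^ m * ((p : K) * l (m + 1)) := by ring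
      rw [this, hl.2 m, Finset.mul_sum]
      refine norm_sum_le_one _ _ fun j _ => ?_
      split_ifs with hj
      · have hτ : ‖tau z j‖ ≤ 1 := by
          induction j using Fin.lastCases with
          | last => simp
          | cast j => simpa using (hz j).le
        have e : (p : K) ^ m * (l (m - j) * tau z j ^ (p ^ (m - j))) =
            (p : K) ^ (j : ℕ) * ((p : K) ^ (m - j) * l (m - j)) * tau z j ^ (p ^ (m - j)) := by
          have : (p : K) ^ m = (p : K) ^ (j : ℕ) * (p : K) ^ (m - j) := by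
            rw [← pow_add]; congr 1; omega
          rw [this]; ring
        rw [e, norm_mul, norm_mul, norm_pow, norm_pow]
        have h1 := ih (m - j) (by omega)
        have h2 : ‖(p : K)‖ ^ (j : ℕ) ≤ 1 := pow_le_one₀ (norm_nonneg _) hp1
        have h3 : ‖tau z j‖ ^ (p ^ (m - j)) ≤ 1 := pow_le_one₀ (norm_nonneg _) hτ
        exact mul_le_one₀ (mul_le_one₀ h2 (norm_nonneg _) h1) (by positivity) h3
      · simp

include hp1 in
/-- For `m > i` the defect is small. -/
lemma norm_defect_lt (hp2 : 2 ≤ p) (hl : IsEll p z l) (hz : ∀ i, ‖z i‖ < 1) (i : Fin N) (m : ℕ)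
    (h : (i : ℕ) < m) : ‖defect p z l i m‖ < 1 := by
  simp only [defect]
  rw [if_pos h.le]
  set a := m - (i : ℕ) with ha
  have ha1 : 1 ≤ a := by omega
  have e : l a * (p : K) ^ a * z i ^ (p ^ a - 1) = ((p : K) ^ a * l a) * z i ^ (p ^ a - 1) := by ring
  rw [e, norm_mul, norm_pow (z i)]
  have h1 := norm_pow_mul_ell_le hp1 hl hz a
  have hpa : 1 ≤ p ^ a - 1 := by
    have : 2 ^ 1 ≤ p ^ a := (Nat.pow_le_pow_left hp2 1).trans (Nat.pow_le_pow_right (by omega) ha1)
    omega
  have h2 : ‖z i‖ ^ (p ^ a - 1) < 1 := pow_lt_one₀ (norm_nonneg _) (hz i) (by omega)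
  calc _ ≤ 1 * ‖z i‖ ^ (p ^ a - 1) := by gcongr
    _ < 1 := by simpa using h2

/-! ### The columns `G i m` modulo the maximal ideal -/

lemma G_eq_zero (hd : ∀ i, IsDEll p z l (dl i) i) (i : Fin N) (m : ℕ) (h : m ≤ i) :
    G p z dl i m = 0 := by
  induction m with
  | zero => simp [G, win_zero_dl hd i]
  | succ m ih =>
    rw [G_succ hd, ih (by omega), defect_eq_zero i m (by omega)]
    simp

/-- `Q_i e_N`, the limit mod `m_K` of the column `G i m`. -/
def E0 (p : ℕ) (z : Fin N → K) (i : ℕ) : Fin (N + 1) → K :=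
  Q p z i *ᵥ Pi.single (Fin.last N) (1 : K)

lemma G_self (hl0 : l 0 = 1) (hd : ∀ i, IsDEll p z l (dl i) i) (i : Fin N) :
    G p z dl i ((i : ℕ) + 1) = E0 p z i := by
  rw [G_succ hd, G_eq_zero hd i i le_rfl, defect_self hl0]
  simp [E0]

lemma norm_single_le (c : Fin (N + 1)) (r : Fin (N + 1)) :
    ‖(Pi.single c (1 : K) : Fin (N + 1) → K) r‖ ≤ 1 := by
  by_cases h : r = c
  · subst h; simp
  · simp [h]

include hp1 in
lemma G_close (hp2 : 2 ≤ p) (hz : ∀ i, ‖z i‖ < 1) (hl : IsEll p z l)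
    (hd : ∀ i, IsDEll p z l (dl i) i) (i : Fin N) (m : ℕ) (hm : (i : ℕ) + 1 ≤ m)
    (r : Fin (N + 1)) : ‖G p z dl i m r - E0 p z i r‖ < 1 := by
  induction m, hm using Nat.le_induction with
  | base => rw [G_self hl.1 hd]; simp
  | succ m hm ih =>
    rw [G_succ hd]
    have e : (G p z dl i m + defect p z l i m •
        (Q p z m *ᵥ Pi.single (Fin.last N) (1 : K))) r - E0 p z i r =
        (G p z dl i m r - E0 p z i r) + defect p z l i m *
          (Q p z m *ᵥ Pi.single (Fin.last N) (1 : K)) r := by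
      simp only [Pi.add_apply, Pi.smul_apply, smul_eq_mul]
      ring
    rw [e]
    refine lt_of_le_of_lt (IsUltrametricDist.norm_add_le_max _ _) (max_lt ih ?_)
    rw [norm_mul]
    have h1 := norm_defect_lt hp1 hp2 hl hz i m (by omega)
    have h2 := norm_mulVec_le_one (integral_Q p z hp1 hz m) (u := Pi.single (Fin.last N) (1 : K))
      (norm_single_le _) r
    calc _ ≤ ‖defect p z l i m‖ * 1 := by gcongr
      _ < 1 := by simpa using h1

/-- Column `c ≥ 1` of `cinv` is `e_{c-1}` modulo the maximal ideal. -/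
lemma cinv_single_close (hp2 : 2 ≤ p) (hz : ∀ i, ‖z i‖ < 1) (m : ℕ) (c : Fin N) (r : Fin (N + 1)) :
    ‖(cinv p z m *ᵥ Pi.single c.succ (1 : K)) r - (Pi.single c.castSucc (1 : K) : _ → K) r‖ < 1 := by
  induction r using Fin.lastCases with
  | last =>
    rw [cinv_mulVec_last]
    have h0 : (Pi.single c.succ (1 : K) : Fin (N + 1) → K) 0 = 0 := by
      simp [Pi.single_apply, (Fin.succ_ne_zero c).symm]
    have h1 : (Pi.single c.castSucc (1 : K) : Fin (N + 1) → K) (Fin.last N) = 0 := by
      simp [Pi.single_apply, (Fin.castSucc_lt_last c).ne']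
    have h2 : ∑ j : Fin N, z j ^ (p ^ (m - (j : ℕ))) *
        (Pi.single c.succ (1 : K) : Fin (N + 1) → K) j.succ = z c ^ (p ^ (m - (c : ℕ))) := by
      rw [Finset.sum_eq_single c]
      · simp
      · intro j _ hj
        have : j.succ ≠ c.succ := fun h => hj (Fin.succ_injective _ h)
        simp [Pi.single_apply, this]
      · simp
    rw [h0, h1, h2]
    simp only [mul_zero, zero_sub, sub_zero, norm_neg, norm_pow]
    exact pow_lt_one₀ (norm_nonneg _) (hz c) (by positivity)
  | cast r =>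
    rw [cinv_mulVec_castSucc]
    have : (Pi.single c.succ (1 : K) : Fin (N + 1) → K) r.succ =
        (Pi.single c.castSucc (1 : K) : Fin (N + 1) → K) r.castSucc := by
      by_cases h : r = c
      · subst h; simp
      · have h1 : r.succ ≠ c.succ := fun h' => h (Fin.succ_injective _ h')
        have h2 : r.castSucc ≠ c.castSucc := fun h' => h (Fin.castSucc_injective _ h')
        simp [h1, h2]
    rw [this]
    simp

include hp1 in
/-- `Q_i e_c ≡ e_{c-i}` modulo the maximal ideal (for `i ≤ c`). -/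
lemma Q_single_close (hp2 : 2 ≤ p) (hz : ∀ i, ‖z i‖ < 1) (i : ℕ) :
    ∀ (c : Fin (N + 1)) (hc : i ≤ c) (r : Fin (N + 1)),
      ‖(Q p z i *ᵥ Pi.single c (1 : K)) r -
        (Pi.single (⟨c - i, by omega⟩ : Fin (N + 1)) (1 : K) : _ → K) r‖ < 1 := by
  induction i with
  | zero =>
    intro c _ r
    rw [Q, Matrix.one_mulVec]
    simp
  | succ i ih =>
    intro c hc r
    have hc' : (c : ℕ) ≠ 0 := by omega
    obtain ⟨c', rfl⟩ : ∃ c' : Fin N, c = c'.succ := by
      induction c using Fin.cases with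
      | zero => simp at hc'
      | succ c' => exact ⟨c', rfl⟩
    rw [Q, ← Matrix.mulVec_mulVec]
    have h1 := ih c'.castSucc (by simp at hc ⊢; omega) r
    have h2 : ‖(Q p z i *ᵥ (cinv p z i *ᵥ Pi.single c'.succ (1 : K) -
        Pi.single c'.castSucc (1 : K))) r‖ < 1 :=
      norm_mulVec_lt_one (integral_Q p z hp1 hz i) (fun s => cinv_single_close hp2 hz i c' s) r
    rw [Matrix.mulVec_sub] at h2
    have e : (⟨(c'.succ : ℕ) - (i + 1), by simp at hc ⊢; omega⟩ : Fin (N + 1)) =
        ⟨(c'.castSucc : ℕ) - i, by simp at hc ⊢; omega⟩ := by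
      ext; simp
    rw [e]
    have e2 : (Q p z i *ᵥ (cinv p z i *ᵥ Pi.single c'.succ (1 : K))) r -
        (Pi.single (⟨(c'.castSucc : ℕ) - i, by simp at hc ⊢; omega⟩ : Fin (N + 1)) (1 : K) : _ → K) r
        = (Q p z i *ᵥ (cinv p z i *ᵥ Pi.single c'.succ (1 : K)) -
            Q p z i *ᵥ Pi.single c'.castSucc (1 : K)) r +
          ((Q p z i *ᵥ Pi.single c'.castSucc (1 : K)) r -
            (Pi.single (⟨(c'.castSucc : ℕ) - i, by simp at hc ⊢; omega⟩ : Fin (N + 1)) (1 : K) :
              _ → K) r) := by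
      simp only [Pi.sub_apply]
      ring
    rw [e2]
    exact lt_of_le_of_lt (IsUltrametricDist.norm_add_le_max _ _) (max_lt h2 h1)

/-! ### The Wronskian matrix -/

/-- The matrix with columns `y, A 0, ..., A (N-1)`. -/
def wronsk (y : Fin (N + 1) → K) (A : Fin N → Fin (N + 1) → K) :
    Matrix (Fin (N + 1)) (Fin (N + 1)) K :=
  Matrix.of fun r c => Fin.cases (motive := fun _ => K) (y r) (fun i => A i r) c

@[simp] lemma wronsk_zero (y : Fin (N + 1) → K) (A : Fin N → Fin (N + 1) → K) (r) :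
    wronsk y A r 0 = y r := rfl

@[simp] lemma wronsk_succ (y : Fin (N + 1) → K) (A : Fin N → Fin (N + 1) → K) (r) (i : Fin N) :
    wronsk y A r i.succ = A i r := rfl

lemma mul_wronsk (B : Matrix (Fin (N + 1)) (Fin (N + 1)) K) (y : Fin (N + 1) → K)
    (A : Fin N → Fin (N + 1) → K) :
    B * wronsk y A = wronsk (B *ᵥ y) (fun i => B *ᵥ A i) := by
  ext r c
  induction c using Fin.cases with
  | zero => simp [Matrix.mul_apply, Matrix.mulVec, dotProduct]
  | succ i => simp [Matrix.mul_apply, Matrix.mulVec, dotProduct]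

/-- The permutation `0 ↦ 0`, `i+1 ↦ (N-1-i)+1`. -/
def sig (N : ℕ) : Equiv.Perm (Fin (N + 1)) :=
  Equiv.Perm.decomposeFin.symm (0, Fin.revPerm)

@[simp] lemma sig_zero : sig N 0 = 0 := by simp [sig]
@[simp] lemma sig_succ (i : Fin N) : sig N i.succ = (Fin.rev i).succ := by simp [sig]

include hp1 in
/-- The matrix `[e_0 | G_0 | ... | G_{N-1}]` has determinant of norm one for `m ≥ N`. -/
lemma norm_det_GM (hp2 : 2 ≤ p) (hz : ∀ i, ‖z i‖ < 1) (hl : IsEll p z l)
    (hd : ∀ i, IsDEll p z l (dl i) i) (m : ℕ) (hm : N ≤ m) :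
    ‖(wronsk (Pi.single (0 : Fin (N + 1)) (1 : K)) (fun i => G p z dl i m)).det‖ = 1 := by
  set M := wronsk (Pi.single (0 : Fin (N + 1)) (1 : K)) (fun i => G p z dl i m) with hM
  have hdet : (M.submatrix id (sig N)).det = Equiv.Perm.sign (sig N) * M.det :=
    Matrix.det_permute' _ _
  have hnorm : ‖(M.submatrix id (sig N)).det‖ = ‖M.det‖ := by
    rw [hdet]
    rcases Int.units_eq_one_or (Equiv.Perm.sign (sig N)) with h | h <;> simp [h]
  rw [← hnorm]
  have hclose : ∀ (i : Fin N) (r : Fin (N + 1)),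
      ‖G p z dl i m r - (Pi.single (⟨(N : ℕ) - i, by omega⟩ : Fin (N + 1)) (1 : K) : _ → K) r‖ < 1 := by
    intro i r
    have h1 := G_close hp1 hp2 hz hl hd i m (by have := i.isLt; omega) r
    have h2 := Q_single_close hp1 hp2 hz (i : ℕ) (Fin.last N) (by simp) r
    have e : G p z dl i m r -
        (Pi.single (⟨(N : ℕ) - i, by omega⟩ : Fin (N + 1)) (1 : K) : _ → K) r =
        (G p z dl i m r - E0 p z i r) +
        ((Q p z i *ᵥ Pi.single (Fin.last N) (1 : K)) r -
          (Pi.single (⟨((Fin.last N : Fin (N + 1)) : ℕ) - i, by simp⟩ : Fin (N + 1)) (1 : K) :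
            _ → K) r) := by
      simp [E0]
    rw [e]
    exact lt_of_le_of_lt (IsUltrametricDist.norm_add_le_max _ _) (max_lt h1 h2)
  have hint : ∀ (i : Fin N) (r : Fin (N + 1)), ‖G p z dl i m r‖ ≤ 1 := by
    intro i r
    have h1 := hclose i r
    have h2 := norm_single_le (K := K) (⟨(N : ℕ) - i, by omega⟩ : Fin (N + 1)) r
    have e : G p z dl i m r = (G p z dl i m r -
        (Pi.single (⟨(N : ℕ) - i, by omega⟩ : Fin (N + 1)) (1 : K) : _ → K) r) +
        (Pi.single (⟨(N : ℕ) - i, by omega⟩ : Fin (N + 1)) (1 : K) : _ → K) r := by ring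
    rw [e]
    exact (IsUltrametricDist.norm_add_le_max _ _).trans (max_le h1.le h2)
  refine norm_det_eq_one_of_close ?_ ?_
  · intro r c
    induction c using Fin.cases with
    | zero => simpa [hM] using norm_single_le (K := K) (0 : Fin (N + 1)) r
    | succ i => simpa [hM] using hint _ r
  · intro r c
    induction c using Fin.cases with
    | zero =>
      simp only [Matrix.submatrix_apply, id, sig_zero, hM, wronsk_zero]
      have : (Pi.single (0 : Fin (N + 1)) (1 : K) : Fin (N + 1) → K) r =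
          (1 : Matrix (Fin (N + 1)) (Fin (N + 1)) K) r 0 := by
        simp [Pi.single_apply, Matrix.one_apply]
      rw [this]
      simp
    | succ i =>
      simp only [Matrix.submatrix_apply, id, sig_succ, hM, wronsk_succ]
      have h1 := hclose (Fin.rev i) r
      have e : (⟨(N : ℕ) - (Fin.rev i : Fin N), by omega⟩ : Fin (N + 1)) = i.succ := by
        ext
        simp only [Fin.val_rev, Fin.val_succ]
        omega
      rw [e] at h1
      have e2 : (Pi.single i.succ (1 : K) : Fin (N + 1) → K) r =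
          (1 : Matrix (Fin (N + 1)) (Fin (N + 1)) K) r i.succ := by
        simp [Pi.single_apply, Matrix.one_apply]
      rwa [e2] at h1

/-- **F2, finite level.** `‖det [v_m | D_0 v_m | ... | D_{N-1} v_m]‖ * ‖p‖ ^ m = 1` for `m ≥ N`. -/
theorem norm_det_wronsk (hp1 : ‖(p : K)‖ ≤ 1) (hp2 : 2 ≤ p) (hz : ∀ i, ‖z i‖ < 1)
    (hl : IsEll p z l) (hd : ∀ i, IsDEll p z l (dl i) i) (m : ℕ) (hm : N ≤ m) :
    ‖(wronsk (win l m) (fun i => win (dl i) m)).det‖ * ‖(p : K)‖ ^ m = 1 := by
  have h := norm_det_GM hp1 hp2 hz hl hd m hm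
  have e : Q p z m * wronsk (win l m) (fun i => win (dl i) m) =
      wronsk (Pi.single (0 : Fin (N + 1)) (1 : K)) (fun i => G p z dl i m) := by
    rw [mul_wronsk, Q_mulVec_win hl m]
    rfl
  rw [← e, Matrix.det_mul, norm_mul, norm_det_Q] at h
  linarith

/-- **F2, limit form.** If `p^k v_{(N+1)k} → w` and `p^k D_i v_{(N+1)k} → dw i`, then
`‖det [w | dw_0 | ... | dw_{N-1}]‖ = 1`. -/
theorem norm_det_limit (hp1 : ‖(p : K)‖ ≤ 1) (hp2 : 2 ≤ p) (hz : ∀ i, ‖z i‖ < 1)
    (hl : IsEll p z l) (hd : ∀ i, IsDEll p z l (dl i) i)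
    {w : Fin (N + 1) → K} {dw : Fin N → Fin (N + 1) → K}
    (hw : ∀ r, Filter.Tendsto (fun k : ℕ => (p : K) ^ k * win l ((N + 1) * k) r)
      Filter.atTop (nhds (w r)))
    (hdw : ∀ i r, Filter.Tendsto (fun k : ℕ => (p : K) ^ k * win (dl i) ((N + 1) * k) r)
      Filter.atTop (nhds (dw i r))) :
    ‖(wronsk w dw).det‖ = 1 := by
  set S : ℕ → Matrix (Fin (N + 1)) (Fin (N + 1)) K := fun k =>
    wronsk (fun r => (p : K) ^ k * win l ((N + 1) * k) r)
      (fun i r => (p : K) ^ k * win (dl i) ((N + 1) * k) r) with hS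
  have hlim : Filter.Tendsto S Filter.atTop (nhds (wronsk w dw)) := by
    refine tendsto_pi_nhds.2 fun r => tendsto_pi_nhds.2 fun c => ?_
    induction c using Fin.cases with
    | zero => exact hw r
    | succ i => exact hdw i r
  have hdet : Filter.Tendsto (fun k => ‖(S k).det‖) Filter.atTop
      (nhds ‖(wronsk w dw).det‖) := by
    have hc : Continuous (fun M : Matrix (Fin (N + 1)) (Fin (N + 1)) K => ‖M.det‖) :=
      (Continuous.matrix_det continuous_id).norm
    exact hc.continuousAt.tendsto.comp hlim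
  have hone : ∀ k, 1 ≤ k → ‖(S k).det‖ = 1 := by
    intro k hk
    have e : S k = ((p : K) ^ k) • wronsk (win l ((N + 1) * k))
        (fun i => win (dl i) ((N + 1) * k)) := by
      ext r c
      induction c using Fin.cases with
      | zero => simp [hS]
      | succ i => simp [hS]
    have hm : N ≤ (N + 1) * k := by nlinarith
    have := norm_det_wronsk hp1 hp2 hz hl hd ((N + 1) * k) hm
    rw [e, Matrix.det_smul, norm_mul, norm_pow, norm_pow, Fintype.card_fin]
    calc (‖(p : K)‖ ^ k) ^ (N + 1) * _ = _ * ‖(p : K)‖ ^ ((N + 1) * k) := by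
          rw [← pow_mul, mul_comm k, mul_comm]
      _ = 1 := this
  have hev : Filter.Tendsto (fun k => ‖(S k).det‖) Filter.atTop (nhds 1) := by
    refine tendsto_const_nhds.congr' ?_
    filter_upwards [Filter.eventually_ge_atTop 1] with k hk
    exact (hone k hk).symm
  exact tendsto_nhds_unique hdet hev

/-- The first column of an invertible Wronskian is nonzero. -/
theorem ne_zero_of_det_ne_zero {y : Fin (N + 1) → K} {A : Fin N → Fin (N + 1) → K}
    (h : (wronsk y A).det ≠ 0) : y ≠ 0 := by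
  rintro rfl
  exact h (Matrix.det_eq_zero_of_column_eq_zero 0 (fun r => rfl))

/-- The cross map `s ↦ (y_{i0} (A s)_i - y_i (A s)_{i0})_i` is injective if `[y | A]` is invertible
and `y_{i0} ≠ 0`. -/
theorem cross_injective {y : Fin (N + 1) → K} {A : Fin N → Fin (N + 1) → K}
    (h : (wronsk y A).det ≠ 0) (i0 : Fin (N + 1)) (hy : y i0 ≠ 0) (s : Fin N → K)
    (hs : ∀ i, y i0 * (∑ k, s k * A k i) - y i * (∑ k, s k * A k i0) = 0) : s = 0 := by
  set a := ∑ k, s k * A k i0 with ha
  have hker : wronsk y A *ᵥ (Fin.cons (-(a / y i0)) s : Fin (N + 1) → K) = 0 := by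
    funext r
    simp only [Matrix.mulVec, dotProduct, Pi.zero_apply]
    rw [Fin.sum_univ_succ]
    simp only [wronsk_zero, wronsk_succ, Fin.cons_zero, Fin.cons_succ]
    have := hs r
    have e : ∑ k : Fin N, A k r * s k = ∑ k, s k * A k r :=
      Finset.sum_congr rfl (fun k _ => mul_comm _ _)
    rw [e]
    field_simp
    linear_combination this
  have hzero := Matrix.eq_zero_of_mulVec_eq_zero h hker
  funext k
  have := congrFun hzero k.succ
  simpa using this

end Crest.Agent.LT.Wronsk
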