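import Crest.Agent.Lib.LubinTate.Defs
import Crest.Agent.Lib.LubinTate.ZeroPeriods
import Crest.Agent.Lib.LubinTate.ZeroWronsk

/-!
Row 227, F-a/F-b glue: `aeval z (ellPoly p n m) = ell p n z m`, and `ell`, `dell` satisfy the
recursions `IsEll`, `IsDEll` of `ZeroWronsk`.
-/

set_option autoImplicit false

namespace Crest.Agent.LT

noncomputable section

variable {K : Type*} [NontriviallyNormedField K] [IsUltrametricDist K]
variable (p n : ℕ)

lemma aeval_ccPoly [Algebra ℚ K] (z : Fin (n - 1) → K) {i : ℕ} (h1 : 1 ≤ i) (h2 : i ≤ n) :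
    MvPolynomial.aeval z (ccPoly n i) = cAt n z i := by
  unfold ccPoly cAt
  by_cases h : i < n
  · have h3 : i - 1 < n - 1 := by omega
    simp [h1, h, h3]
  · have h3 : i = n := by omega
    subst h3
    simp

/-- `ℓ_m` at a point is the evaluation of the universal polynomial. -/
theorem aeval_ellPoly [Fact p.Prime] [Algebra ℚ K] (z : Fin (n - 1) → K) (m : ℕ) :
    MvPolynomial.aeval z (ellPoly p n m) = ell p n z m := by
  induction m using Nat.strong_induction_on with
  | _ m ih =>
    rcases m with _ | m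
    · simp [ellPoly_zero]
    · rw [ellPoly_succ, ell_succ, map_smul, map_sum]
      have hs : ∑ i ∈ Finset.range (m + 1), MvPolynomial.aeval z
          (ellPoly p n (m - i) * ccPoly n (i + 1) ^ p ^ (m - i))
          = ∑ i ∈ Finset.range (min (m + 1) n), ell p n z (m - i) * cAt n z (i + 1) ^ (p ^ (m - i)) := by
        symm
        refine Finset.sum_subset_zero_on_sdiff ?_ ?_ ?_
        · intro i hi
          simp only [Finset.mem_range] at hi ⊢
          omega
        · intro i hi
          simp only [Finset.mem_sdiff, Finset.mem_range, not_lt] at hi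
          have h3 : ccPoly n (i + 1) = 0 := by
            unfold ccPoly
            have h4 : ¬ (1 ≤ i + 1 ∧ i + 1 < n) := by omega
            have h5 : ¬ (i + 1 = n) := by omega
            rw [dif_neg h4, if_neg h5]
          have hp : p ^ (m - i) ≠ 0 := pow_ne_zero _ (Fact.out : p.Prime).ne_zero
          rw [map_mul, map_pow, h3, map_zero, zero_pow hp, mul_zero]
        · intro i hi
          simp only [Finset.mem_range] at hi
          rw [map_mul, map_pow, ih (m - i) (by omega), aeval_ccPoly n z (by omega) (by omega)]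
      rw [hs]
      have : ((p : ℚ)⁻¹ • (1 : K)) = (p : K)⁻¹ := by
        rw [← Algebra.algebraMap_eq_smul_one, map_inv₀, map_natCast]
      rw [← this, smul_mul_assoc, one_mul]

omit [IsUltrametricDist K] in
lemma sum_fin_ite_eq {N : ℕ} (m : ℕ) (g : ℕ → K) :
    ∑ j : Fin (N + 1), (if (j : ℕ) ≤ m then g j else 0)
      = ∑ i ∈ Finset.range (min (m + 1) (N + 1)), g i := by
  rw [Fin.sum_univ_eq_sum_range (fun i => if i ≤ m then g i else 0) (N + 1)]
  symm
  refine Finset.sum_subset_zero_on_sdiff ?_ ?_ ?_
  · intro i hi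
    simp only [Finset.mem_range] at hi ⊢
    omega
  · intro i hi
    simp only [Finset.mem_sdiff, Finset.mem_range, not_lt] at hi
    rw [if_neg (by omega)]
  · intro i hi
    simp only [Finset.mem_range] at hi
    rw [if_pos (by omega)]

lemma tau_eq_cAt {N : ℕ} (z : Fin N → K) (j : Fin (N + 1)) :
    Wronsk.tau z j = cAt (N + 1) z (j + 1) := by
  induction j using Fin.lastCases with
  | last => simp [cAt]
  | cast j =>
    have h : (j : ℕ) + 1 - 1 < N + 1 - 1 := by simp
    simp [cAt]

/-- `ell` satisfies the recursion `IsEll` of `ZeroWronsk` (here `n = N + 1`). -/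
theorem ell_isEll [Fact p.Prime] {N : ℕ} (hp0 : (p : K) ≠ 0) (z : Fin N → K) :
    Wronsk.IsEll p z (ell p (N + 1) z) := by
  refine ⟨ell_zero p (N + 1) z, fun m => ?_⟩
  rw [p_mul_ell_succ p (N + 1) hp0 z m]
  rw [← sum_fin_ite_eq (N := N) m (fun i => ell p (N + 1) z (m - i) * cAt (N + 1) z (i + 1) ^ p ^ (m - i))]
  refine Finset.sum_congr rfl fun j _ => ?_
  rw [tau_eq_cAt]

omit [IsUltrametricDist K] in
lemma dPow_single {N : ℕ} (z : Fin N → K) (i : Fin N) (j P : ℕ) :
    dPow (N + 1) z (j + 1) P (Pi.single i 1)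
      = if j = i then (P : K) * z i ^ (P - 1) else 0 := by
  unfold dPow dcAt cAt
  by_cases hj : j + 1 - 1 < N + 1 - 1
  · have hj' : j < N := by simpa using hj
    by_cases h : j = i
    · subst h
      simp [hj']
    · have h2 : (⟨j, hj'⟩ : Fin N) ≠ i := fun e => h (by rw [← e])
      simp [hj', h, Pi.single_eq_of_ne h2]
  · have hj' : ¬ j < N := by simpa using hj
    have h : j ≠ i := by
      intro e
      exact hj' (e ▸ i.isLt)
    simp [hj', h]

/-- `dell` satisfies the recursion `IsDEll` of `ZeroWronsk` (here `n = N + 1`). -/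
theorem dell_isDEll [Fact p.Prime] {N : ℕ} (hp0 : (p : K) ≠ 0) (z : Fin N → K) (i : Fin N) :
    Wronsk.IsDEll p z (ell p (N + 1) z) (fun m => dell p (N + 1) z m (Pi.single i 1)) i := by
  refine ⟨by simp, fun m => ?_⟩
  have h := congrArg (fun f => f (Pi.single i (1 : K))) (p_smul_dell_succ p (N + 1) hp0 z m)
  simp only [LinearMap.smul_apply, smul_eq_mul, LinearMap.sum_apply, LinearMap.add_apply] at h
  rw [h, Finset.sum_add_distrib, add_comm]
  congr 1
  · rw [← sum_fin_ite_eq (N := N) m (fun j => cAt (N + 1) z (j + 1) ^ p ^ (m - j) *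
      dell p (N + 1) z (m - j) (Pi.single i 1))]
    refine Finset.sum_congr rfl fun j _ => ?_
    rw [tau_eq_cAt]
    split_ifs <;> ring
  · simp only [dPow_single, Wronsk.defect, mul_ite, mul_zero]
    rw [Finset.sum_ite_eq']
    have hi : (i : ℕ) ≤ N := by omega
    by_cases h2 : (i : ℕ) ≤ m
    · rw [if_pos (by simp only [Finset.mem_range]; omega), if_pos h2]
      push_cast
      ring
    · rw [if_neg (by simp only [Finset.mem_range]; omega), if_neg h2]

end

end Crest.Agent.LT
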