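/-
Row 227 (S0351), module F-c-Transf (Blueprint F3, F4): the transformation law of the periods.
-/
import Crest.Agent.Lib.LubinTate.ZeroTransfAlg
import Crest.Agent.Lib.LubinTate.ZeroPeriods
import Crest.Agent.Lib.LubinTate.ZeroBridge
import Crest.Agent.Lib.LubinTate.HazAPI
import Crest.Agent.Lib.LubinTate.LTRingAlg

set_option autoImplicit false
set_option linter.unusedSectionVars false

namespace Crest.Agent.LT

open Filter Topology

noncomputable section

section PowLimit

variable {K : Type*} [NormedField K] [IsUltrametricDist K]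

lemma norm_pow_prime_sub_le {p : ℕ} (hp : p.Prime) {x y : K} (hy : ‖y‖ ≤ 1) (hxy : ‖x - y‖ ≤ 1) :
    ‖x ^ p - y ^ p‖ ≤ ‖x - y‖ * max ‖(p : K)‖ (‖x - y‖ ^ (p - 1)) := by
  set d := x - y with hd
  have hx : x = y + d := by rw [hd]; ring
  have hexp : x ^ p - y ^ p = ∑ m ∈ Finset.range p, y ^ m * d ^ (p - m) * (p.choose m : K) := by
    rw [hx, add_pow, Finset.sum_range_succ]
    simp
  rw [hexp]
  have hC : 0 ≤ ‖d‖ * max ‖(p : K)‖ (‖d‖ ^ (p - 1)) :=
    mul_nonneg (norm_nonneg _) (le_max_of_le_left (norm_nonneg _))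
  refine IsUltrametricDist.norm_sum_le_of_forall_le_of_nonneg hC fun m hm => ?_
  have hmp : m < p := Finset.mem_range.mp hm
  rw [norm_mul, norm_mul, norm_pow, norm_pow]
  rcases Nat.eq_zero_or_pos m with rfl | hm0
  · simp only [pow_zero, one_mul, Nat.sub_zero, Nat.choose_zero_right, Nat.cast_one, norm_one,
      mul_one]
    have hp1 : p = (p - 1) + 1 := by have := hp.two_le; omega
    calc ‖d‖ ^ p = ‖d‖ * ‖d‖ ^ (p - 1) := by
          conv_lhs => rw [hp1, pow_succ']
      _ ≤ _ := by gcongr; exact le_max_right _ _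
  · obtain ⟨c, hc⟩ := hp.dvd_choose_self (by omega) hmp
    have h1 : ‖((p.choose m : ℕ) : K)‖ ≤ ‖(p : K)‖ := by
      rw [hc, Nat.cast_mul, norm_mul]
      exact mul_le_of_le_one_right (norm_nonneg _) (IsUltrametricDist.norm_natCast_le_one K c)
    have h2 : ‖d‖ ^ (p - m) ≤ ‖d‖ := by
      have : p - m = (p - m - 1) + 1 := by omega
      rw [this, pow_succ']
      exact mul_le_of_le_one_right (norm_nonneg _) (pow_le_one₀ (norm_nonneg _) hxy)
    have h3 : ‖y‖ ^ m ≤ 1 := pow_le_one₀ (norm_nonneg _) hy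
    calc ‖y‖ ^ m * ‖d‖ ^ (p - m) * ‖((p.choose m : ℕ) : K)‖
        ≤ 1 * ‖d‖ * ‖(p : K)‖ := by gcongr
      _ = ‖d‖ * ‖(p : K)‖ := by ring
      _ ≤ _ := by gcongr; exact le_max_left _ _

lemma tendsto_pow_sub {p : ℕ} (hp : p.Prime) (hp1 : ‖(p : K)‖ < 1) {a τ : K}
    (ha : ‖a‖ ≤ 1) (hτ : ‖τ‖ ≤ 1) (haτ : ‖a - τ‖ < 1) :
    Tendsto (fun N : ℕ => a ^ (p ^ N) - τ ^ (p ^ N)) atTop (𝓝 0) := by
  set c := max ‖(p : K)‖ ‖a - τ‖ with hc
  have hc1 : c < 1 := max_lt hp1 haτ
  have hc0 : 0 ≤ c := le_max_of_le_left (norm_nonneg _)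
  have key : ∀ N : ℕ, ‖a ^ (p ^ N) - τ ^ (p ^ N)‖ ≤ ‖a - τ‖ ∧
      ‖a ^ (p ^ N) - τ ^ (p ^ N)‖ ≤ c ^ N * ‖a - τ‖ := by
    intro N
    induction N with
    | zero => simp
    | succ N ih =>
      obtain ⟨h1, h2⟩ := ih
      have hx : ‖τ ^ (p ^ N)‖ ≤ 1 := by
        rw [norm_pow]; exact pow_le_one₀ (norm_nonneg _) hτ
      have hd1 : ‖a ^ (p ^ N) - τ ^ (p ^ N)‖ ≤ 1 := h1.trans haτ.le
      have hb := norm_pow_prime_sub_le hp hx hd1
      have he : ∀ u : K, u ^ (p ^ (N + 1)) = (u ^ (p ^ N)) ^ p := by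
        intro u; rw [pow_succ, pow_mul]
      rw [← he, ← he] at hb
      have hmax : max ‖(p : K)‖ (‖a ^ (p ^ N) - τ ^ (p ^ N)‖ ^ (p - 1)) ≤ c := by
        refine max_le (le_max_left _ _) ?_
        have hp2 : p - 1 = (p - 1 - 1) + 1 := by have := hp.two_le; omega
        calc ‖a ^ (p ^ N) - τ ^ (p ^ N)‖ ^ (p - 1) ≤ ‖a ^ (p ^ N) - τ ^ (p ^ N)‖ := by
              conv_lhs => rw [hp2, pow_succ']
              exact mul_le_of_le_one_right (norm_nonneg _) (pow_le_one₀ (norm_nonneg _) hd1)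
          _ ≤ ‖a - τ‖ := h1
          _ ≤ c := le_max_right _ _
      have hb2 : ‖a ^ (p ^ (N + 1)) - τ ^ (p ^ (N + 1))‖ ≤ ‖a ^ (p ^ N) - τ ^ (p ^ N)‖ * c :=
        hb.trans (by gcongr)
      constructor
      · exact hb2.trans ((mul_le_of_le_one_right (norm_nonneg _) hc1.le).trans h1)
      · refine hb2.trans ?_
        calc ‖a ^ (p ^ N) - τ ^ (p ^ N)‖ * c ≤ (c ^ N * ‖a - τ‖) * c := by gcongr
          _ = c ^ (N + 1) * ‖a - τ‖ := by ring
  refine squeeze_zero_norm (fun N => (key N).2) ?_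
  have := (tendsto_pow_atTop_nhds_zero_of_lt_one hc0 hc1).mul_const ‖a - τ‖
  simpa using this

lemma pow_pow_periodic {p n : ℕ} {τ : K} (hτ : τ ^ (p ^ n) = τ) (a r : ℕ) :
    τ ^ (p ^ (n * a + r)) = τ ^ (p ^ r) := by
  have h1 : ∀ a : ℕ, τ ^ (p ^ (n * a)) = τ := by
    intro a
    induction a with
    | zero => simp
    | succ a ih =>
      rw [Nat.mul_succ, pow_add, pow_mul, ih, hτ]
  rw [pow_add, pow_mul, h1]

end PowLimit

section Limit

variable {K : Type*} [NontriviallyNormedField K] [IsUltrametricDist K]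
variable (p n : ℕ) [hpf : Fact p.Prime]

/-- The limit of Frobenius powers along `idx`. -/
lemma tendsto_pow_idx (hn : 1 ≤ n) (hp1 : ‖(p : K)‖ < 1) {a τ : K} (ha : ‖a‖ ≤ 1) (hτ : ‖τ‖ ≤ 1)
    (haτ : ‖a - τ‖ < 1) (hq : τ ^ (p ^ n) = τ) (s : ℤ) :
    Tendsto (fun k : ℕ => a ^ (p ^ (idx n k s))) atTop (𝓝 (τ ^ (p ^ (s % n).toNat))) := by
  have hnpos : (0 : ℤ) < n := by exact_mod_cast hn
  have hidx : Tendsto (fun k : ℕ => idx n k s) atTop atTop := by
    refine tendsto_atTop.2 fun b => ?_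
    filter_upwards [eventually_ge_atTop (b + s.natAbs)] with k hk
    simp only [idx]
    have h1 : (k : ℤ) ≤ (n : ℤ) * k := by
      have : (1 : ℤ) ≤ n := by exact_mod_cast hn
      nlinarith [Int.natCast_nonneg k]
    have h2 : -s ≤ (s.natAbs : ℤ) := by
      rw [← Int.natAbs_neg]; exact Int.le_natAbs
    have h3 : ((b : ℤ) + s.natAbs) ≤ k := by exact_mod_cast hk
    omega
  have h1 := (tendsto_pow_sub hpf.out hp1 ha hτ haτ).comp hidx
  have h2 : ∀ᶠ k : ℕ in atTop, τ ^ (p ^ (idx n k s)) = τ ^ (p ^ (s % n).toNat) := by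
    filter_upwards [eventually_ge_atTop ((s / n).natAbs)] with k hk
    have hr0 : 0 ≤ s % n := Int.emod_nonneg _ (by omega)
    have hdm : s = (n : ℤ) * (s / n) + s % n := (Int.mul_ediv_add_emod s n).symm
    have hk' : 0 ≤ (k : ℤ) + s / n := by
      have : -(s / n) ≤ ((s / n).natAbs : ℤ) := by
        rw [← Int.natAbs_neg]; exact Int.le_natAbs
      have h3 : ((s / n).natAbs : ℤ) ≤ k := by exact_mod_cast hk
      omega
    have hid : idx n k s = n * ((k : ℤ) + s / n).toNat + (s % n).toNat := by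
      simp only [idx]
      zify
      rw [Int.toNat_of_nonneg hk', Int.toNat_of_nonneg hr0, Int.toNat_of_nonneg (by
        have : (n : ℤ) * k + s = (n : ℤ) * (k + s / n) + s % n := by
          conv_lhs => rw [hdm]
          ring
        rw [this]; positivity)]
      conv_lhs => rw [hdm]
      ring
    rw [hid]
    exact pow_pow_periodic hq _ _
  have h3 : Tendsto (fun k : ℕ => (a ^ (p ^ idx n k s) - τ ^ (p ^ idx n k s)) +
      τ ^ (p ^ idx n k s)) atTop (𝓝 (0 + τ ^ (p ^ (s % n).toNat))) :=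
    h1.add (tendsto_const_nhds.congr' (h2.mono fun _ h => h.symm))
  simpa using h3

variable [CompleteSpace K]

/-- **Abstract limit form of the transformation law.** -/
theorem transf_limit (hn : 1 ≤ n) (hp0 : (p : K) ≠ 0) (hp1 : ‖(p : K)‖ < 1)
    {z z' : Fin (n - 1) → K} (hz : ‖z‖ < 1) (hz' : ‖z'‖ < 1)
    {α t : ℕ → K} {u : K} (hα : ∀ j, ‖α j‖ ≤ 1) (ht : ∀ j, ‖t j‖ ≤ 1)
    (hαt : ∀ j, ‖α j - t j‖ < 1) (htq : ∀ j, t j ^ (p ^ n) = t j)
    (hrel : ∀ M, u * ell p n z' M =
      ∑ j ∈ Finset.range (M + 1), ell p n z (M - j) * (α j) ^ (p ^ (M - j)))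
    (s : Finset ℕ) (hs : ∀ j, j ∉ s → t j = 0) (i : ℤ) :
    u * W p n i z' = ∑ j ∈ s, W p n (i - j) z * (t j) ^ (p ^ ((i - j) % n).toNat) := by
  have hpp : p ≠ 0 := hpf.out.ne_zero
  obtain ⟨ρ, hρ0, hρ1, hρn⟩ := exists_rho (K := K) p n hp0 hp1 hn
  have hρlt : ρ < 1 := by
    rcases hρ1.lt_or_eq with h | h
    · exact h
    · rw [h, one_pow] at hρn
      exact absurd hp1 (by rw [← hρn]; exact lt_irrefl _)
  set r := max ‖z‖ (1 / 2) with hr
  have hr0 : 0 < r := lt_max_of_lt_right (by norm_num)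
  have hr1 : r < 1 := max_lt hz (by norm_num)
  obtain ⟨C, hC0, hC⟩ := ell_jet_bound (K := K) p n hp0 hn hr0 hr1 hρ0 hρ1 hρn
  have hell : ∀ m, ‖ell p n z m‖ ≤ C * ρ⁻¹ ^ m := fun m => (hC m).bound z (le_max_left _ _)
  -- the sequence
  let f : ℕ → ℕ → K := fun k j => if j ≤ idx n k i then
    ((p : K) ^ k * ell p n z (idx n k i - j)) * (α j) ^ (p ^ (idx n k i - j)) else 0
  let g : ℕ → K := fun j => W p n (i - j) z * (t j) ^ (p ^ ((i - j) % n).toNat)
  have hfsum : ∀ k, ∑' j, f k j = u * ((p : K) ^ k * ell p n z' (idx n k i)) := by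
    intro k
    rw [tsum_eq_sum (s := Finset.range (idx n k i + 1))]
    · have : u * ((p : K) ^ k * ell p n z' (idx n k i)) =
          (p : K) ^ k * (u * ell p n z' (idx n k i)) := by ring
      rw [this, hrel, Finset.mul_sum]
      refine Finset.sum_congr rfl fun j hj => ?_
      have hj' : j ≤ idx n k i := by simpa [Nat.lt_succ_iff] using hj
      simp only [f, if_pos hj']
      ring
    · intro j hj
      have hj' : ¬ j ≤ idx n k i := by simpa [Nat.lt_succ_iff] using hj
      simp only [f, if_neg hj']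
  -- the bound
  let bound : ℕ → ℝ := fun j => C * ρ⁻¹ ^ i.toNat * ρ ^ j
  have hbound_sum : Summable bound :=
    (summable_geometric_of_lt_one hρ0.le hρlt).mul_left _
  have hbound : ∀ k j, ‖f k j‖ ≤ bound j := by
    intro k j
    simp only [f, bound]
    split_ifs with hj
    · rw [norm_mul, norm_mul, norm_pow, norm_pow, ← hρn]
      have h1 : ‖α j‖ ^ (p ^ (idx n k i - j)) ≤ 1 := pow_le_one₀ (norm_nonneg _) (hα j)
      have hidx : idx n k i ≤ n * k + i.toNat := by
        simp only [idx]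
        have : ((n : ℤ) * k + i).toNat ≤ ((n : ℤ) * k + (i.toNat : ℤ)).toNat := by
          apply Int.toNat_le_toNat
          have := Int.self_le_toNat i
          omega
        refine this.trans (le_of_eq ?_)
        have : (n : ℤ) * k + (i.toNat : ℤ) = ((n * k + i.toNat : ℕ) : ℤ) := by push_cast; ring
        rw [this, Int.toNat_natCast]
      have hρ' : ρ⁻¹ ≠ 0 := inv_ne_zero hρ0.ne'
      have h2 : (ρ ^ n) ^ k * (ρ⁻¹ ^ (idx n k i - j)) ≤ ρ⁻¹ ^ i.toNat * ρ ^ j := by
        have e1 : (ρ ^ n) ^ k = ρ ^ (n * k) := by rw [pow_mul]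
        rw [e1]
        have hpos : 0 < ρ ^ (idx n k i - j) * ρ ^ i.toNat := by positivity
        rw [← mul_le_mul_iff_left₀ hpos]
        have e2 : ρ ^ (n * k) * ρ⁻¹ ^ (idx n k i - j) * (ρ ^ (idx n k i - j) * ρ ^ i.toNat) =
            ρ ^ (n * k + i.toNat) := by
          rw [inv_pow, pow_add]
          field_simp
        have e3 : ρ⁻¹ ^ i.toNat * ρ ^ j * (ρ ^ (idx n k i - j) * ρ ^ i.toNat) =
            ρ ^ (idx n k i) := by
          have : idx n k i = j + (idx n k i - j) := by omega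
          conv_rhs => rw [this, pow_add]
          rw [inv_pow]
          field_simp
        rw [e2, e3]
        exact pow_le_pow_of_le_one hρ0.le hρ1 hidx
      calc (ρ ^ n) ^ k * ‖ell p n z (idx n k i - j)‖ * ‖α j‖ ^ (p ^ (idx n k i - j))
          ≤ (ρ ^ n) ^ k * (C * ρ⁻¹ ^ (idx n k i - j)) * 1 := by
            gcongr
            exact hell _
        _ = C * ((ρ ^ n) ^ k * ρ⁻¹ ^ (idx n k i - j)) := by ring
        _ ≤ C * (ρ⁻¹ ^ i.toNat * ρ ^ j) := by gcongr
        _ = C * ρ⁻¹ ^ i.toNat * ρ ^ j := by ring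
    · rw [norm_zero]; positivity
  -- termwise limit
  have hterm : ∀ j, Tendsto (fun k => f k j) atTop (𝓝 (g j)) := by
    intro j
    have h1 := tendsto_W (K := K) p n hp0 hp1 hn (i - j) z hz
    have h2 := tendsto_pow_idx (K := K) p n hn hp1 (hα j) (ht j) (hαt j) (htq j) (i - j)
    refine (h1.mul h2).congr' ?_
    filter_upwards [eventually_ge_atTop (j + i.natAbs)] with k hk
    have h3 : 0 ≤ (n : ℤ) * k + i - j := by
      have h1 : (k : ℤ) ≤ (n : ℤ) * k := by
        have : (1 : ℤ) ≤ n := by exact_mod_cast hn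
        nlinarith [Int.natCast_nonneg k]
      have h2 : -i ≤ (i.natAbs : ℤ) := by
        rw [← Int.natAbs_neg]; exact Int.le_natAbs
      have h4 : ((j : ℤ) + i.natAbs) ≤ k := by exact_mod_cast hk
      omega
    have hj : j ≤ idx n k i := by
      simp only [idx]; omega
    have hid : idx n k (i - j) = idx n k i - j := by
      simp only [idx]; omega
    simp only [f, if_pos hj, hid]
  -- conclude
  have hlim := tendsto_tsum_of_dominated_convergence hbound_sum hterm
    (Eventually.of_forall fun k j => hbound k j)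
  have hlim2 : Tendsto (fun k => u * ((p : K) ^ k * ell p n z' (idx n k i))) atTop
      (𝓝 (u * W p n i z')) :=
    (tendsto_W (K := K) p n hp0 hp1 hn i z' hz').const_mul u
  have heq := tendsto_nhds_unique (hlim.congr hfsum) hlim2
  rw [← heq, tsum_eq_sum (s := s)]
  intro j hj
  simp only [g]
  rw [hs j hj, zero_pow (pow_ne_zero _ hpp), mul_zero]

end Limit

section Concrete

open Crest.LubinTate Crest.Agent.LubinTate

variable (p : ℕ) [hpf : Fact p.Prime] (n : ℕ) [hn0 : NeZero n]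
variable {K : Type} [NontriviallyNormedField K] [IsUltrametricDist K] [CompleteSpace K]

/-- The Teichmüller lift of `ζ`, at the point `z`. -/
def Tch (z : AA p n →+* K) (ζ : kk p n) : K :=
  z (MvPowerSeries.C (WittVector.teichmuller p ζ))

omit [IsUltrametricDist K] [CompleteSpace K] in
lemma Tch_zero (z : AA p n →+* K) : Tch p n z 0 = 0 := by
  simp [Tch]

omit [IsUltrametricDist K] [CompleteSpace K] in
lemma Tch_one (z : AA p n →+* K) : Tch p n z 1 = 1 := by
  simp [Tch]

omit [IsUltrametricDist K] [CompleteSpace K] in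
lemma Tch_mul (z : AA p n →+* K) (a b : kk p n) : Tch p n z (a * b) = Tch p n z a * Tch p n z b := by
  simp [Tch]

omit [IsUltrametricDist K] [CompleteSpace K] in
lemma Tch_pow (z : AA p n →+* K) (a : kk p n) (e : ℕ) : Tch p n z (a ^ e) = Tch p n z a ^ e := by
  simp [Tch]

lemma kk_pow_card_zt (a : kk p n) : a ^ (p ^ n) = a := by
  have hcard : Nat.card (kk p n) = p ^ n := GaloisField.card p n (NeZero.ne n)
  haveI : Finite (kk p n) := Nat.finite_of_card_ne_zero (by
    rw [hcard]; exact pow_ne_zero _ hpf.out.ne_zero)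
  haveI := Fintype.ofFinite (kk p n)
  have := FiniteField.pow_card a
  rwa [← Nat.card_eq_fintype_card, hcard] at this

omit [IsUltrametricDist K] [CompleteSpace K] in
lemma Tch_pow_card (z : AA p n →+* K) (a : kk p n) : Tch p n z a ^ (p ^ n) = Tch p n z a := by
  rw [← Tch_pow, kk_pow_card_zt]

omit [CompleteSpace K] [IsUltrametricDist K] in
lemma norm_Tch_le (z : AA p n →+* K) (hz1 : ∀ a, ‖z a‖ ≤ 1) (a : kk p n) : ‖Tch p n z a‖ ≤ 1 :=
  hz1 _

omit [CompleteSpace K] [IsUltrametricDist K] in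
lemma residue_Teich (a : kk p n) : LTRing.residue p n (MvPowerSeries.C (WittVector.teichmuller p a)) = a := by
  rw [residue_C]
  simp

omit [CompleteSpace K] [IsUltrametricDist K] in
/-- An element of `A` is congruent at `z` to the Teichmüller lift of its residue. -/
lemma norm_sub_Tch_lt (z : AA p n →+* K)
    (hzm : ∀ a ∈ IsLocalRing.maximalIdeal (AA p n), ‖z a‖ < 1) (a : AA p n) :
    ‖z a - Tch p n z (LTRing.residue p n a)‖ < 1 := by
  rw [Tch, ← map_sub]
  apply hzm
  rw [mem_maximalIdeal_iff_residue, map_sub, residue_Teich, sub_self]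

lemma fg_map_map {R S T : Type*} [CommRing R] [CommRing S] [CommRing T] (F : FormalGroup R)
    (f : R →+* S) (g : S →+* T) : (F.map f).map g = F.map (g.comp f) := by
  refine FormalGroup.ext ?_
  ext e
  simp [MvPowerSeries.coeff_map]

variable [CharZero K]

omit [CompleteSpace K] [IsUltrametricDist K] in
lemma coeff_one_logSeries (τ : Fin (n - 1) → K) :
    PowerSeries.coeff 1 (logSeries p n τ) = 1 := by
  have := coeff_logSeries_pow p n τ 0
  rw [pow_zero, ellPoly_zero, map_one] at this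
  exact this

/-- **Finite level of the transformation law**, for `hazF`: here `u = z θ₁`, and `α_j = dα hazF p θ j`. -/
theorem haz_transf_finite (z z' : AA p n →+* K) {θ : PowerSeries (AA p n)}
    (hθ0 : PowerSeries.constantCoeff θ = 0)
    (hθ : IsFGHom ((hazF p n).map z') ((hazF p n).map z) (PowerSeries.map z θ)) (M : ℕ) :
    z (PowerSeries.coeff 1 θ) * ell p n (fun s => z' (tt p n s)) M =
      ∑ j ∈ Finset.range (M + 1), ell p n (fun s => z (tt p n s)) (M - j) *
        (z (dα (hazF p n) p θ j)) ^ (p ^ (M - j)) := by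
  have hp1 : 1 < p := hpf.out.one_lt
  set τ : Fin (n - 1) → K := fun s => z (tt p n s) with hτ
  set τ' : Fin (n - 1) → K := fun s => z' (tt p n s) with hτ'
  have hL := hazF_log p n K z
  have hL' := hazF_log p n K z'
  have hrel : PowerSeries.subst (PowerSeries.map z θ) (logSeries p n τ) =
      PowerSeries.C (z (PowerSeries.coeff 1 θ)) * logSeries p n τ' := by
    have := log_comp_hom K hθ hL (coeff_one_logSeries p n τ) hL' (coeff_one_logSeries p n τ')
    rwa [PowerSeries.coeff_map] at this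
  have hfin := transf_finite (F := hazF p n) (p := p) (θ := θ) (ι := z) (L := logSeries p n τ)
    (L' := logSeries p n τ') (u := z (PowerSeries.coeff 1 θ)) hp1 hθ0 hL
    (coeff_one_logSeries p n τ) (coeff_logSeries_of_ne p n τ) (coeff_logSeries_of_ne p n τ') hrel M
  rw [coeff_logSeries_pow, aeval_ellPoly] at hfin
  rw [hfin]
  refine Finset.sum_congr rfl fun j _ => ?_
  rw [coeff_logSeries_pow, aeval_ellPoly]

/-- **The transformation law of the periods (Blueprint F3)**, general form of the reductions. -/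
theorem haz_transf_limit (z z' : AA p n →+* K) (hz1 : ∀ a, ‖z a‖ ≤ 1)
    (hzm : ∀ a ∈ IsLocalRing.maximalIdeal (AA p n), ‖z a‖ < 1)
    (hzm' : ∀ a ∈ IsLocalRing.maximalIdeal (AA p n), ‖z' a‖ < 1)
    {θ : PowerSeries (AA p n)} (hθ0 : PowerSeries.constantCoeff θ = 0)
    (hθ : IsFGHom ((hazF p n).map z') ((hazF p n).map z) (PowerSeries.map z θ))
    (hp1 : ‖(p : K)‖ < 1) (s : Finset ℕ)
    (hs : ∀ j, j ∉ s → LTRing.residue p n (dα (hazF p n) p θ j) = 0) (i : ℤ) :
    z (PowerSeries.coeff 1 θ) * W p n i (fun s => z' (tt p n s)) =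
      ∑ j ∈ s, W p n (i - j) (fun s => z (tt p n s)) *
        (Tch p n z (LTRing.residue p n (dα (hazF p n) p θ j))) ^ (p ^ ((i - j) % n).toNat) := by
  have hn : 1 ≤ n := Nat.one_le_iff_ne_zero.mpr (NeZero.ne n)
  have hp0 : (p : K) ≠ 0 := by exact_mod_cast hpf.out.ne_zero
  have htm : ∀ {u : AA p n →+* K}, (∀ a ∈ IsLocalRing.maximalIdeal (AA p n), ‖u a‖ < 1) →
      ‖(fun s => u (tt p n s) : Fin (n - 1) → K)‖ < 1 := by
    intro u hu
    refine (pi_norm_lt_iff one_pos).2 fun s => hu _ ?_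
    rw [mem_maximalIdeal_iff_residue, tt, LTRing.residue]
    simp
  refine transf_limit p n hn hp0 hp1 (htm hzm) (htm hzm') (α := fun j => z (dα (hazF p n) p θ j))
    (t := fun j => Tch p n z (LTRing.residue p n (dα (hazF p n) p θ j)))
    (fun j => hz1 _) (fun j => hz1 _) (fun j => norm_sub_Tch_lt p n z hzm _)
    (fun j => Tch_pow_card p n z _) (haz_transf_finite p n z z' hθ0 hθ) s ?_ i
  intro j hj
  rw [hs j hj, Tch_zero]

/-- **The transformation law (Blueprint F3)** for `g_{m,ζ} = X +_Γ₀ ζ X^{p^m}`, `m ≥ 1`: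
`θ₁ W_i(z ∘ ψ) = W_i(z) + Teich(ζ)^{p^{(i-m) mod n}} W_{i-m}(z)`, and `θ₁ ≡ 1`. -/
theorem transf_law (z : AA p n →+* K) (hz1 : ∀ a, ‖z a‖ ≤ 1)
    (hzm : ∀ a ∈ IsLocalRing.maximalIdeal (AA p n), ‖z a‖ < 1)
    (hp1 : ‖(p : K)‖ < 1)
    {m : ℕ} (hm : 1 ≤ m) (ζ : kk p n) {ψ : AA p n →ₐ[WW p n] AA p n}
    (hψ : IsStabilizerMap p n (hazF p n) (gmz (Gamma0 p n) p ζ m) ψ) :
    ∃ u : K, ‖u - 1‖ < 1 ∧ ∀ i : ℤ,
      u * W p n i (fun s => z (ψ (tt p n s))) =
        W p n i (fun s => z (tt p n s)) +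
          Tch p n z ζ ^ (p ^ ((i - m) % n).toNat) * W p n (i - m) (fun s => z (tt p n s)) := by
  have hp : 1 < p := hpf.out.one_lt
  have hpp : p ≠ 0 := by omega
  obtain ⟨hres, θ, hθ, hθr⟩ := hψ
  set z' : AA p n →+* K := z.comp ψ.toRingHom with hz'
  have hθ0 : PowerSeries.constantCoeff θ = 0 := hθ.1
  have hθz : IsFGHom ((hazF p n).map z') ((hazF p n).map z) (PowerSeries.map z θ) := by
    have := fgHom_map hθ z
    rwa [fg_map_map] at this
  have hresz : ∀ a, LTRing.residue p n (ψ a) = LTRing.residue p n a := fun a =>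
    congrFun (congrArg DFunLike.coe hres) a
  have hzm' : ∀ a ∈ IsLocalRing.maximalIdeal (AA p n), ‖z' a‖ < 1 := by
    intro a ha
    apply hzm
    rw [mem_maximalIdeal_iff_residue] at ha ⊢
    change LTRing.residue p n (ψ a) = 0
    rw [hresz, ha]
  -- the residues of the `α_j`
  have hα : ∀ j, LTRing.residue p n (dα (hazF p n) p θ j) =
      dα (Gamma0 p n) p (gmz (Gamma0 p n) p ζ m) j := by
    intro j
    rw [map_dα (hazF p n) (LTRing.residue p n) hpp hθ0 j, hθr]
    rfl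
  refine ⟨z (PowerSeries.coeff 1 θ), ?_, fun i => ?_⟩
  · have h1 : LTRing.residue p n (PowerSeries.coeff 1 θ) = 1 := by
      rw [← PowerSeries.coeff_map, hθr]
      exact coeff_one_gmz hp hm
    have := norm_sub_Tch_lt p n z hzm (PowerSeries.coeff 1 θ)
    rwa [h1, Tch_one] at this
  · have hs : ∀ j, j ∉ ({0, m} : Finset ℕ) → LTRing.residue p n (dα (hazF p n) p θ j) = 0 := by
      intro j hj
      simp only [Finset.mem_insert, Finset.mem_singleton, not_or] at hj
      rw [hα]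
      rcases Nat.lt_or_ge j m with h | h
      · exact dα_gmz_mid hp hm (by omega) h
      · exact dα_gmz_gt hp hm (by omega)
    have h := haz_transf_limit p n z z' hz1 hzm hzm' hθ0 hθz hp1 {0, m} hs i
    have hm0 : (0 : ℕ) ∉ ({m} : Finset ℕ) := by simp; omega
    rw [Finset.sum_insert hm0, Finset.sum_singleton, hα, hα, dα_gmz_zero hp hm,
      dα_gmz_self hp hm, Tch_one, one_pow, mul_one] at h
    simp only [Nat.cast_zero, sub_zero] at h
    rw [mul_comm (Tch p n z ζ ^ _)]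
    exact h

end Concrete

end

end Crest.Agent.LT
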