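/-
Row 227 (S0351), module F-c-Transf (Blueprint F3 vector form, F4): `w(z ∘ ψ) = u⁻¹ (1 + p^a R) w(z)`
and the spanning statement for the operators `R_{r,ζ}`.
-/
import Crest.Agent.Lib.LubinTate.ZeroTransf

set_option autoImplicit false
set_option linter.unusedSectionVars false

namespace Crest.Agent.LT

open Crest.LubinTate Crest.Agent.LubinTate

noncomputable section

variable (p : ℕ) [hpf : Fact p.Prime] (n : ℕ) [hn0 : NeZero n]
variable {K : Type} [NontriviallyNormedField K]

/-- `y^{[i-r]}`: `y_{i-r}` if `r ≤ i`, `p y_{i-r+n}` otherwise. -/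
def shiftC (r : Fin n) (y : Fin n → K) (i : Fin n) : K :=
  if h : (r : ℕ) ≤ i then y ⟨i - r, by omega⟩ else (p : K) * y ⟨i + n - r, by omega⟩

lemma shiftC_of_add_eq (r : Fin n) (y : Fin n → K) (l i0 : Fin n) (h : (r : ℕ) + i0 = l) :
    shiftC p n r y l = y i0 := by
  simp only [shiftC]
  rw [dif_pos (by omega)]
  congr 1
  ext
  simp only
  omega

lemma shiftC_of_add_eq' (r : Fin n) (y : Fin n → K) (l i0 : Fin n) (h : (r : ℕ) + i0 = l + n) :
    shiftC p n r y l = (p : K) * y i0 := by
  simp only [shiftC]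
  have := i0.2
  rw [dif_neg (by omega)]
  congr 2
  ext
  simp only
  omega

/-- The operator `R_{r,T}`: `(R y)_i = T^{p^{(i-r) mod n}} y^{[i-r]}`. -/
def Rr (T : K) (r : Fin n) : (Fin n → K) →ₗ[K] (Fin n → K) where
  toFun y i := T ^ (p ^ (((i : ℤ) - r) % n).toNat) * shiftC p n r y i
  map_add' y y' := by
    ext i
    simp only [shiftC, Pi.add_apply]
    split_ifs <;> ring
  map_smul' c y := by
    ext i
    simp only [shiftC, Pi.smul_apply, smul_eq_mul, RingHom.id_apply]
    split_ifs <;> ring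

lemma Rr_apply (T : K) (r : Fin n) (y : Fin n → K) (i : Fin n) :
    Rr p n T r y i = T ^ (p ^ (((i : ℤ) - r) % n).toNat) * shiftC p n r y i := rfl

/-- The period vector. -/
def wvec [IsUltrametricDist K] (z : Fin (n - 1) → K) : Fin n → K := fun i => W p n (i : ℤ) z

variable [IsUltrametricDist K] [CompleteSpace K]

lemma W_sub_mul (hp0 : (p : K) ≠ 0) (hp1 : ‖(p : K)‖ < 1) (z : Fin (n - 1) → K) (hz : ‖z‖ < 1)
    (j : ℤ) (a : ℕ) : W p n (j - n * a) z = (p : K) ^ a * W p n j z := by
  have hn : 1 ≤ n := Nat.one_le_iff_ne_zero.mpr (NeZero.ne n)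
  induction a with
  | zero => simp
  | succ a ih =>
    have : j - (n : ℤ) * ((a + 1 : ℕ) : ℤ) = (j - n * a) - n := by push_cast; ring
    rw [this, W_sub_n p n hp0 hp1 hn _ z hz, ih, pow_succ]
    ring

lemma W_shift (hp0 : (p : K) ≠ 0) (hp1 : ‖(p : K)‖ < 1) (z : Fin (n - 1) → K) (hz : ‖z‖ < 1)
    (i r : Fin n) (a : ℕ) :
    W p n ((i : ℤ) - ((n * a + r : ℕ) : ℤ)) z = (p : K) ^ a * shiftC p n r (wvec p n z) i := by
  have hn : 1 ≤ n := Nat.one_le_iff_ne_zero.mpr (NeZero.ne n)
  have e : (i : ℤ) - ((n * a + r : ℕ) : ℤ) = ((i : ℤ) - r) - n * a := by push_cast; ring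
  rw [e, W_sub_mul p n hp0 hp1 z hz]
  congr 1
  simp only [shiftC, wvec]
  split_ifs with h
  · congr 1
    push_cast [h]
    simp
  · have e2 : ((i : ℤ) - r) = (((i + n - r : ℕ) : ℤ)) - n := by
      have : r.val ≤ i.val + n := by omega
      push_cast [this]
      ring
    rw [e2, W_sub_n p n hp0 hp1 hn _ z hz]

lemma emod_shift (i r : Fin n) (a : ℕ) :
    (((i : ℤ) - ((n * a + r : ℕ) : ℤ)) % n) = ((i : ℤ) - r) % n := by
  have e : (i : ℤ) - ((n * a + r : ℕ) : ℤ) = ((i : ℤ) - r) + n * (-(a : ℤ)) := by push_cast; ring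
  rw [e, Int.add_mul_emod_self_left]

variable [CharZero K]

/-- **The vector form of the transformation law**: for `m = n a + r ≥ 1`,
`u w(z ∘ ψ) = w(z) + p^a R_{r,ζ} w(z)`, with `‖u - 1‖ < 1`. -/
theorem transf_vec (z : AA p n →+* K) (hz1 : ∀ a, ‖z a‖ ≤ 1)
    (hzm : ∀ a ∈ IsLocalRing.maximalIdeal (AA p n), ‖z a‖ < 1)
    (hp1 : ‖(p : K)‖ < 1) (a : ℕ) (r : Fin n) (hm : 1 ≤ n * a + r) (ζ : kk p n)
    {ψ : AA p n →ₐ[WW p n] AA p n}
    (hψ : IsStabilizerMap p n (hazF p n) (gmz (Gamma0 p n) p ζ (n * a + r)) ψ) :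
    ∃ u : K, ‖u - 1‖ < 1 ∧
      u • wvec p n (fun s => z (ψ (tt p n s))) =
        wvec p n (fun s => z (tt p n s)) +
          (p : K) ^ a • Rr p n (Tch p n z ζ) r (wvec p n (fun s => z (tt p n s))) := by
  have hp0 : (p : K) ≠ 0 := by exact_mod_cast hpf.out.ne_zero
  obtain ⟨u, hu, hlaw⟩ := transf_law p n z hz1 hzm hp1 hm ζ hψ
  refine ⟨u, hu, ?_⟩
  ext i
  have hzn : ‖(fun s => z (tt p n s) : Fin (n - 1) → K)‖ < 1 := by
    refine (pi_norm_lt_iff one_pos).2 fun s => hzm _ ?_
    rw [mem_maximalIdeal_iff_residue, tt, LTRing.residue]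
    simp
  have h := hlaw (i : ℤ)
  simp only [Pi.smul_apply, Pi.add_apply, smul_eq_mul, wvec]
  rw [h, Rr_apply, W_shift p n hp0 hp1 _ hzn i r a, emod_shift]
  ring

omit [IsUltrametricDist K] [CompleteSpace K] [CharZero K] in
lemma Tch_injective (z : AA p n →+* K) : Function.Injective (Tch p n z) := by
  intro a b hab
  by_contra hne
  set x : AA p n := MvPowerSeries.C (WittVector.teichmuller p a) -
    MvPowerSeries.C (WittVector.teichmuller p b) with hx
  have hres : LTRing.residue p n x = a - b := by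
    rw [hx, map_sub, residue_Teich, residue_Teich]
  have hxm : x ∉ IsLocalRing.maximalIdeal (AA p n) := by
    rw [mem_maximalIdeal_iff_residue, hres]
    exact sub_ne_zero.mpr hne
  have hu : IsUnit x := by
    by_contra h
    exact hxm ((IsLocalRing.mem_maximalIdeal x).mpr h)
  have hz0 : z x ≠ 0 := (hu.map z).ne_zero
  apply hz0
  rw [hx, map_sub, sub_eq_zero]
  exact hab

/-- Distinct powers of Frobenius differ on `kk`. -/
lemma exists_frob_ne {s s' : ℕ} (hs : s < n) (hs' : s' < n) (h : s ≠ s') :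
    ∃ ζ : kk p n, ζ ^ (p ^ s) ≠ ζ ^ (p ^ s') := by
  classical
  by_contra hall
  simp only [not_exists, not_not] at hall
  have hp : 1 < p := hpf.out.one_lt
  have hcard : Nat.card (kk p n) = p ^ n := GaloisField.card p n (NeZero.ne n)
  have : Finite (kk p n) := Nat.finite_of_card_ne_zero (by
    rw [hcard]; exact pow_ne_zero _ hpf.out.ne_zero)
  haveI := Fintype.ofFinite (kk p n)
  have hcard' : (Finset.univ : Finset (kk p n)).card = p ^ n := by
    rw [Finset.card_univ, ← Nat.card_eq_fintype_card, hcard]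
  set P : Polynomial (kk p n) := Polynomial.X ^ (p ^ s) - Polynomial.X ^ (p ^ s') with hP
  have hne : p ^ s ≠ p ^ s' := fun e => h (Nat.pow_right_injective hp e)
  have hdeg : P.natDegree < (Finset.univ : Finset (kk p n)).card := by
    rw [hcard', hP]
    refine (Polynomial.natDegree_sub_le _ _).trans_lt ?_
    simp only [Polynomial.natDegree_X_pow]
    exact max_lt (Nat.pow_lt_pow_right hp hs) (Nat.pow_lt_pow_right hp hs')
  have h0 : P = 0 := Polynomial.eq_zero_of_natDegree_lt_card_of_eval_eq_zero' P Finset.univ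
    (fun i _ => by simp [hP, hall i]) hdeg
  have hc := congrArg (fun Q => Polynomial.coeff Q (p ^ s)) h0
  simp only [hP, Polynomial.coeff_sub, Polynomial.coeff_X_pow, Polynomial.coeff_zero] at hc
  simp [hne] at hc

/-- The characters `ζ ↦ Teich(ζ)^{p^s}`. -/
def chi (z : AA p n →+* K) (s : Fin n) : kk p n →* K where
  toFun ζ := Tch p n z ζ ^ (p ^ (s : ℕ))
  map_one' := by simp [Tch_one]
  map_mul' a b := by rw [Tch_mul, mul_pow]

omit [IsUltrametricDist K] [CompleteSpace K] [CharZero K] in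
lemma chi_injective (z : AA p n →+* K) : Function.Injective (chi p n z) := by
  intro s s' h
  by_contra hne
  have hv : (s : ℕ) ≠ s' := fun e => hne (Fin.ext e)
  obtain ⟨ζ, hζ⟩ := exists_frob_ne p n s.2 s'.2 hv
  apply hζ
  apply Tch_injective p n z
  rw [Tch_pow, Tch_pow]
  exact DFunLike.congr_fun h ζ

omit [IsUltrametricDist K] [CompleteSpace K] [CharZero K] in
/-- Dedekind independence of the characters. -/
lemma chi_independent (z : AA p n →+* K) (a : Fin n → K)
    (h : ∀ ζ : kk p n, ∑ s : Fin n, a s * Tch p n z ζ ^ (p ^ (s : ℕ)) = 0) : a = 0 := by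
  have hli : LinearIndependent K (fun s : Fin n => (chi p n z s : kk p n → K)) :=
    (linearIndependent_monoidHom (kk p n) K).comp _ (chi_injective p n z)
  rw [Fintype.linearIndependent_iff] at hli
  ext s
  refine hli a ?_ s
  ext ζ
  simpa [chi] using h ζ

omit [IsUltrametricDist K] [CompleteSpace K] [CharZero K] in
lemma toNat_emod_sub (l r : Fin n) :
    (((l : ℤ) - r) % n).toNat = ((l - r : Fin n) : ℕ) := by
  have hn : (0 : ℤ) < n := by
    have := Nat.pos_of_ne_zero (NeZero.ne n)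
    exact_mod_cast this
  rw [Fin.val_sub]
  have : (((n - r + l) % n : ℕ) : ℤ) = ((l : ℤ) - r) % n := by
    rw [Int.natCast_mod]
    have hr : (r : ℕ) ≤ n := r.2.le
    have e : ((n - r + l : ℕ) : ℤ) = ((l : ℤ) - r) + n := by
      push_cast [hr]; ring
    rw [e, Int.add_emod_right]
  rw [← this, Int.toNat_natCast]

/-- **Blueprint F4**: the vectors `R_{r,ζ} y` span `K^n` for `y ≠ 0`. -/
theorem span_Rr (z : AA p n →+* K) (hp0 : (p : K) ≠ 0) {y : Fin n → K} (hy : y ≠ 0) :
    Submodule.span K (Set.range fun q : Fin n × kk p n => Rr p n (Tch p n z q.2) q.1 y) = ⊤ := by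
  classical
  by_contra hne
  obtain ⟨f, hf0, hle⟩ := Submodule.exists_le_ker_of_lt_top _ (lt_top_iff_ne_top.mpr hne)
  -- coordinates of `f`
  set c : Fin n → K := fun l => f (Pi.single l 1) with hc
  have hf : ∀ v : Fin n → K, f v = ∑ l, v l * c l := by
    intro v
    have : v = ∑ l, v l • (Pi.single l 1 : Fin n → K) := by
      ext i
      simp [Finset.sum_apply, Pi.single_apply]
    conv_lhs => rw [this]
    simp [map_sum, hc]
  -- vanishing
  have hvan : ∀ (r : Fin n) (l : Fin n), shiftC p n r y l * c l = 0 := by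
    intro r
    have hζ : ∀ ζ : kk p n, ∑ s : Fin n, (shiftC p n r y (s + r) * c (s + r)) *
        Tch p n z ζ ^ (p ^ (s : ℕ)) = 0 := by
      intro ζ
      have h1 : f (Rr p n (Tch p n z ζ) r y) = 0 :=
        hle (Submodule.subset_span ⟨(r, ζ), rfl⟩)
      rw [hf] at h1
      rw [← h1]
      refine Fintype.sum_equiv (Equiv.addRight r) _ _ fun s => ?_
      simp only [Equiv.coe_addRight, Rr_apply]
      rw [toNat_emod_sub, add_sub_cancel_right]
      ring
    have := chi_independent p n z _ hζ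
    intro l
    have h2 := congrFun this (l - r)
    simpa using h2
  -- conclusion
  obtain ⟨i0, hi0⟩ : ∃ i0, y i0 ≠ 0 := by
    by_contra hall
    simp only [not_exists, not_not] at hall
    exact hy (funext hall)
  have hc0 : ∀ l, c l = 0 := by
    intro l
    have h3 := hvan (l - i0) l
    have hval : ((l - i0 : Fin n) : ℕ) = (n - (i0 : ℕ) + l) % n := by
      rw [Fin.val_sub]
    have h4 : shiftC p n (l - i0) y l ≠ 0 := by
      by_cases hil : (i0 : ℕ) ≤ l
      · have e : ((l - i0 : Fin n) : ℕ) + i0 = l := by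
          rw [hval]
          have hi : (i0 : ℕ) < n := i0.2
          have hl : (l : ℕ) < n := l.2
          have : n - (i0 : ℕ) + l = n + (l - i0) := by omega
          rw [this, Nat.add_mod_left, Nat.mod_eq_of_lt (by omega)]
          omega
        rw [shiftC_of_add_eq p n _ _ _ _ e]
        exact hi0
      · have e : ((l - i0 : Fin n) : ℕ) + i0 = l + n := by
          rw [hval]
          have hi : (i0 : ℕ) < n := i0.2
          have hl : (l : ℕ) < n := l.2
          rw [Nat.mod_eq_of_lt (by omega)]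
          omega
        rw [shiftC_of_add_eq' p n _ _ _ _ e]
        exact mul_ne_zero hp0 hi0
    exact (mul_eq_zero.mp h3).resolve_left h4
  apply hf0
  refine LinearMap.ext fun v => ?_
  rw [hf]
  simp [hc0]

end

end Crest.Agent.LT
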