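import Crest.Agent.Lib.LubinTate.Tate
import Crest.Agent.Lib.LubinTate.LatBall

/-!
# Row 227 (S0351), section F5: Taylor expansion of an element of `A` at a point, and evaluation.

* `exists_leading_form`: a nonzero restricted series has a leading homogeneous form.
* `point_eq_eval`: a ring map `z : A → K` with `‖z‖ ≤ 1`, `‖z m‖ < 1` is the evaluation at its
  coordinates.
-/

set_option autoImplicit false
set_option linter.unusedSectionVars false

namespace Crest.Agent.LT

section Leading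

variable {K : Type*} [NormedField K] [IsUltrametricDist K] [CompleteSpace K]
variable {σ : Type*} [Fintype σ]

lemma rpow_const_eq (ρ : ℝ) (e : σ →₀ ℕ) : rpow (fun _ => ρ) e = ρ ^ (Finsupp.degree e) := by
  unfold rpow Finsupp.prod
  rw [Finset.prod_pow_eq_pow_sum, Finsupp.degree_apply]

/-- A nonzero restricted series has a nonzero leading homogeneous form. -/
theorem exists_leading_form (G : MvPowerSeries σ K) {r : ℝ} (hr : 0 < r)
    (hG : MvPowerSeries.IsRestricted (fun _ : σ => r) G) (hG0 : G ≠ 0) :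
    ∃ (m : ℕ) (P : MvPolynomial σ K) (C : ℝ), P.IsHomogeneous m ∧ P ≠ 0 ∧ 0 ≤ C ∧
      ∀ s : σ → K, ‖s‖ ≤ r → ‖eval s G - MvPolynomial.eval s P‖ ≤ C * ‖s‖ ^ (m + 1) := by
  classical
  have hex : ∃ d, ∃ e : σ →₀ ℕ, Finsupp.degree e = d ∧ MvPowerSeries.coeff e G ≠ 0 := by
    by_contra h
    push Not at h
    apply hG0
    ext e
    simpa using h _ e rfl
  set m := Nat.find hex with hm
  obtain ⟨e0, he0, hc0⟩ := Nat.find_spec hex
  have hmin : ∀ e : σ →₀ ℕ, Finsupp.degree e < m → MvPowerSeries.coeff e G = 0 := by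
    intro e he
    by_contra hne
    exact Nat.find_min hex he ⟨e, rfl, hne⟩
  set S : Finset (σ →₀ ℕ) := ((Finsupp.finite_of_degree_le (σ := σ) m).toFinset).filter
    (fun e => Finsupp.degree e = m) with hS
  have hSmem : ∀ e, e ∈ S ↔ Finsupp.degree e = m := by
    intro e
    simp only [hS, Finset.mem_filter, Set.Finite.mem_toFinset, Set.mem_setOf_eq]
    constructor
    · exact fun h => h.2
    · exact fun h => ⟨h.le, h⟩
  set P : MvPolynomial σ K := ∑ e ∈ S, MvPolynomial.monomial e (MvPowerSeries.coeff e G) with hP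
  have hPhom : P.IsHomogeneous m := by
    refine MvPolynomial.IsHomogeneous.sum _ _ _ fun e he => ?_
    exact MvPolynomial.isHomogeneous_monomial _ ((hSmem e).mp he)
  have hPne : P ≠ 0 := by
    intro h0
    have h1 : MvPolynomial.coeff e0 P = MvPowerSeries.coeff e0 G := by
      rw [hP, MvPolynomial.coeff_sum]
      simp only [MvPolynomial.coeff_monomial]
      rw [Finset.sum_ite_eq' S e0]
      rw [if_pos ((hSmem e0).mpr he0)]
    rw [h0, MvPolynomial.coeff_zero] at h1
    exact hc0 h1.symm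
  set g : ℝ := gn (fun _ : σ => r) G with hg
  have hg0 : 0 ≤ g := gn_nonneg _ _
  refine ⟨m, P, g / r ^ (m + 1), hPhom, hPne, by positivity, fun s hs => ?_⟩
  have hb : ∀ i, ‖s i‖ ≤ r := fun i => (norm_le_pi_norm s i).trans hs
  set x : ℝ := ‖s‖ with hx
  have hx0 : 0 ≤ x := norm_nonneg _
  set f : (σ →₀ ℕ) → K := fun e => MvPowerSeries.coeff e G * monoB s e with hf
  have hsum : Summable f := by
    have := aev_summable (K := K) (B := K) (r := fun _ => r) hb hG
    simpa [smul_eq_mul] using this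
  have hPeval : MvPolynomial.eval s P = ∑ e ∈ S, f e := by
    rw [hP, map_sum]
    refine Finset.sum_congr rfl fun e _ => ?_
    rw [MvPolynomial.eval_monomial]
    rfl
  set h : (σ →₀ ℕ) → K := fun e => if e ∈ S then 0 else f e with hh
  set g' : (σ →₀ ℕ) → K := fun e => if e ∈ S then f e else 0 with hg'
  have hg'sum : HasSum g' (∑ e ∈ S, f e) := by
    have h1 : HasSum g' (∑ e ∈ S, g' e) :=
      hasSum_sum_of_ne_finset_zero (fun e he => by simp [hg', he])
    have h2 : ∑ e ∈ S, g' e = ∑ e ∈ S, f e :=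
      Finset.sum_congr rfl fun e he => by simp [hg', he]
    rwa [h2] at h1
  have hhsum : HasSum h (eval s G - MvPolynomial.eval s P) := by
    have h1 := hsum.hasSum.sub hg'sum
    have h2 : (fun e => f e - g' e) = h := by
      funext e
      by_cases he : e ∈ S <;> simp [hg', hh, he]
    rw [h2, ← hPeval] at h1
    exact h1
  rw [← hhsum.tsum_eq]
  refine IsUltrametricDist.norm_tsum_le_of_forall_le_of_nonneg (by positivity) fun e => ?_
  by_cases he : e ∈ S
  · simp only [hh, he, if_true, norm_zero]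
    positivity
  · simp only [hh, he, if_false]
    have hd : Finsupp.degree e ≠ m := fun h => he ((hSmem e).mpr h)
    rcases lt_or_gt_of_ne hd with hlt | hgt
    · simp only [hf]
      rw [hmin e hlt, zero_mul, norm_zero]
      positivity
    · set d := Finsupp.degree e with hdd
      have h1 : ‖monoB s e‖ ≤ x ^ d := by
        have := norm_monoB_le (r := fun _ => x) (b := s) (fun i => norm_le_pi_norm s i) e
        rwa [rpow_const_eq] at this
      have h2 : ‖MvPowerSeries.coeff e G‖ * r ^ d ≤ g := by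
        have := le_gn hG e
        rwa [rpow_const_eq] at this
      have hxr : x / r ≤ 1 := by rw [div_le_one hr]; exact hs
      have hxr0 : 0 ≤ x / r := by positivity
      have h3 : (x / r) ^ d ≤ (x / r) ^ (m + 1) := pow_le_pow_of_le_one hxr0 hxr hgt
      simp only [hf]
      rw [norm_mul]
      calc ‖MvPowerSeries.coeff e G‖ * ‖monoB s e‖
          ≤ ‖MvPowerSeries.coeff e G‖ * x ^ d := by gcongr
        _ = (‖MvPowerSeries.coeff e G‖ * r ^ d) * (x / r) ^ d := by
            rw [div_pow]; field_simp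
        _ ≤ g * (x / r) ^ (m + 1) := by
            apply mul_le_mul h2 h3 (by positivity) hg0
        _ = g / r ^ (m + 1) * x ^ (m + 1) := by
            rw [div_pow]; ring

end Leading

section Point

variable (p : ℕ) [Fact p.Prime] (n : ℕ) [NeZero n]
variable {K : Type*} [NormedField K] [IsUltrametricDist K] [CompleteSpace K]

/-- A ring map `ψ : A → K` with `‖ψ‖ ≤ 1`, `‖ψ p‖ ≤ r` and `‖ψ X_i‖ ≤ r` maps `m^k` into the ball of
radius `r^k`. -/
theorem norm_le_pow_of_mem_pow' (ψ : AA p n →+* K) (hψ1 : ∀ a, ‖ψ a‖ ≤ 1) {r : ℝ} (hr : 0 ≤ r)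
    (hψp : ‖(p : K)‖ ≤ r) (hψX : ∀ i, ‖ψ (tt p n i)‖ ≤ r) (k : ℕ)
    {a : AA p n} (ha : a ∈ (IsLocalRing.maximalIdeal (AA p n)) ^ k) : ‖ψ a‖ ≤ r ^ k := by
  let I : ℕ → Ideal (AA p n) := fun j =>
    { carrier := {x | ‖ψ x‖ ≤ r ^ j}
      add_mem' := by
        intro x y hx hy
        simp only [Set.mem_setOf_eq] at hx hy ⊢
        rw [map_add]
        exact (IsUltrametricDist.norm_add_le_max _ _).trans (max_le hx hy)
      zero_mem' := by
        simp only [Set.mem_setOf_eq, map_zero, norm_zero]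
        positivity
      smul_mem' := by
        intro c x hx
        simp only [Set.mem_setOf_eq, smul_eq_mul] at hx ⊢
        rw [map_mul, norm_mul]
        exact (mul_le_of_le_one_left (norm_nonneg _) (hψ1 c)).trans hx }
  have hI : ∀ j x, x ∈ I j ↔ ‖ψ x‖ ≤ r ^ j := fun _ _ => Iff.rfl
  have hm : IsLocalRing.maximalIdeal (AA p n) ≤ I 1 := by
    rw [ltRing_maximalIdeal_eq, sup_le_iff]
    constructor
    · rw [Ideal.span_le]
      rintro x rfl
      show ‖ψ (p : AA p n)‖ ≤ r ^ 1
      rw [map_natCast, pow_one]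
      exact hψp
    · rw [Ideal.span_le]
      rintro x ⟨i, rfl⟩
      show ‖ψ (MvPowerSeries.X i)‖ ≤ r ^ 1
      rw [pow_one]
      exact hψX i
  have key : ∀ j, (IsLocalRing.maximalIdeal (AA p n)) ^ j ≤ I j := by
    intro j
    induction j with
    | zero =>
      intro x _
      rw [hI, pow_zero]
      exact hψ1 x
    | succ j ih =>
      rw [pow_succ, Ideal.mul_le]
      intro x hx y hy
      rw [hI, map_mul, norm_mul, pow_succ]
      have h2 : ‖ψ y‖ ≤ r ^ 1 := (hI 1 y).1 (hm hy)
      rw [pow_one] at h2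
      exact mul_le_mul ((hI j x).1 (ih hx)) h2 (norm_nonneg _) (pow_nonneg hr j)
  exact (hI k a).1 (key k ha)

/-- The coordinates of a point. -/
noncomputable def coord (z : AA p n →+* K) : Fin (n - 1) → K := fun s => z (tt p n s)

theorem tt_mem_maximalIdeal (i : Fin (n - 1)) : tt p n i ∈ IsLocalRing.maximalIdeal (AA p n) := by
  rw [ltRing_maximalIdeal_eq]
  exact Ideal.mem_sup_right (Ideal.subset_span ⟨i, rfl⟩)

theorem p_mem_maximalIdeal' : (p : AA p n) ∈ IsLocalRing.maximalIdeal (AA p n) := by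
  rw [ltRing_maximalIdeal_eq]
  exact Ideal.mem_sup_left (Ideal.subset_span rfl)

theorem norm_coord_lt (z : AA p n →+* K)
    (hzm : ∀ a ∈ IsLocalRing.maximalIdeal (AA p n), ‖z a‖ < 1) : ‖coord p n z‖ < 1 :=
  (pi_norm_lt_iff one_pos).2 fun s => hzm _ (tt_mem_maximalIdeal p n s)

theorem norm_p_lt (z : AA p n →+* K)
    (hzm : ∀ a ∈ IsLocalRing.maximalIdeal (AA p n), ‖z a‖ < 1) : ‖(p : K)‖ < 1 := by
  have := hzm _ (p_mem_maximalIdeal' p n)
  rwa [map_natCast] at this

/-- Evaluation at a point of the polydisc, as a ring map on `A`. -/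
noncomputable def evalHom (ι : WW p n →+* K) (hι : ∀ w, ‖ι w‖ ≤ 1) (x : Fin (n - 1) → K) {r : ℝ}
    (hr0 : 0 < r) (hr1 : r < 1) (hx : ∀ i, ‖x i‖ ≤ r) : AA p n →+* K := by
  have hres : ∀ a : AA p n, MvPowerSeries.IsRestricted (fun _ : Fin (n - 1) => r)
      (MvPowerSeries.map ι a) := fun a =>
    restr_of_bounded (fun _ => hr0) (fun _ => hr1) (C := 1) (fun e => by
      rw [MvPowerSeries.coeff_map]; exact hι _)
  exact
  { toFun := fun a => eval x (MvPowerSeries.map ι a)
    map_one' := by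
      rw [map_one, ← map_one (MvPowerSeries.C (σ := Fin (n - 1)) (R := K)), eval_C]
    map_mul' := fun a b => by
      rw [map_mul, eval_mul hx (hres a) (hres b)]
    map_zero' := by
      rw [map_zero, ← map_zero (MvPowerSeries.C (σ := Fin (n - 1)) (R := K)), eval_C]
    map_add' := fun a b => by
      rw [map_add, eval_add hx (hres a) (hres b)] }

lemma evalHom_apply (ι : WW p n →+* K) (hι : ∀ w, ‖ι w‖ ≤ 1) (x : Fin (n - 1) → K) {r : ℝ}
    (hr0 : 0 < r) (hr1 : r < 1) (hx : ∀ i, ‖x i‖ ≤ r) (a : AA p n) :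
    evalHom p n ι hι x hr0 hr1 hx a = eval x (MvPowerSeries.map ι a) := rfl

/-- A point is the evaluation at its coordinates. -/
theorem point_eq_eval (z : AA p n →+* K) (hz1 : ∀ a, ‖z a‖ ≤ 1)
    (hzm : ∀ a ∈ IsLocalRing.maximalIdeal (AA p n), ‖z a‖ < 1) (a : AA p n) :
    z a = eval (coord p n z) (MvPowerSeries.map (z.comp MvPowerSeries.C) a) := by
  set x := coord p n z with hxdef
  set ι : WW p n →+* K := z.comp MvPowerSeries.C with hιdef
  have hι : ∀ w, ‖ι w‖ ≤ 1 := fun w => hz1 _
  have hp1 : ‖(p : K)‖ < 1 := norm_p_lt p n z hzm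
  have hx1 : ‖x‖ < 1 := norm_coord_lt p n z hzm
  -- the radius
  set r : ℝ := max (1 / 2) (max ‖(p : K)‖ ‖x‖) with hr
  have hr0 : 0 < r := lt_of_lt_of_le (by norm_num) (le_max_left _ _)
  have hr1 : r < 1 := max_lt (by norm_num) (max_lt hp1 hx1)
  have hrp : ‖(p : K)‖ ≤ r := (le_max_left _ _).trans (le_max_right _ _)
  have hrx : ‖x‖ ≤ r := (le_max_right _ _).trans (le_max_right _ _)
  have hxi : ∀ i, ‖x i‖ ≤ r := fun i => (norm_le_pi_norm x i).trans hrx
  set ψ := evalHom p n ι hι x hr0 hr1 hxi with hψ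
  have hψa : ψ a = eval x (MvPowerSeries.map ι a) := rfl
  rw [← hψa]
  have hres : ∀ a : AA p n, MvPowerSeries.IsRestricted (fun _ : Fin (n - 1) => r)
      (MvPowerSeries.map ι a) := fun a =>
    restr_of_bounded (fun _ => hr0) (fun _ => hr1) (C := 1) (fun e => by
      rw [MvPowerSeries.coeff_map]; exact hι _)
  have hψ1 : ∀ a, ‖ψ a‖ ≤ 1 := by
    intro a
    refine (isSubst_eval_bound hxi (hres a)).trans ?_
    refine gn_le_one_of_integral (fun _ => hr0.le) (fun _ => hr1.le) fun e => ?_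
    rw [MvPowerSeries.coeff_map]
    exact hι _
  have hψX : ∀ i, ψ (tt p n i) = z (tt p n i) := by
    intro i
    show eval x (MvPowerSeries.map ι (MvPowerSeries.X i)) = _
    rw [MvPowerSeries.map_X, eval_X]
    rfl
  have hψC : ∀ w, ψ (MvPowerSeries.C w) = z (MvPowerSeries.C w) := by
    intro w
    show eval x (MvPowerSeries.map ι (MvPowerSeries.C w)) = _
    rw [MvPowerSeries.map_C, eval_C]
    rfl
  refine eq_of_eq_on_gens z ψ (fun w => (hψC w).symm) (fun i => (hψX i).symm) hr0.le hr1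
    (fun k a ha => ?_) a
  have h1 := norm_le_pow_of_mem_pow' p n z hz1 hr0.le hrp (fun i => hxi i) k ha
  have h2 := norm_le_pow_of_mem_pow' p n ψ hψ1 hr0.le hrp
    (fun i => by rw [hψX]; exact hxi i) k ha
  rw [sub_eq_add_neg]
  refine (IsUltrametricDist.norm_add_le_max _ _).trans (max_le h1 ?_)
  rwa [norm_neg]

end Point

end Crest.Agent.LT
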