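import Crest.Agent.Lib.LubinTate.ZeroPeriods
import Crest.Agent.Lib.LubinTate.ZeroWronsk

/-!
# Bridge F-a / F-b: the Wronskian of the periods has norm one

`norm_det_periods`: with `n = N + 1`, `‖det [W^# | ∂_0 W^# | ... | ∂_{N-1} W^#]‖ = 1` where
`W^# = (W_0, W_{-1}, ..., W_{-N})`, for `‖z‖ < 1`.  Also `periods_ne_zero`, `periods_cross_injective`.
-/

set_option linter.unusedSectionVars false

namespace Crest.Agent.LT

open Filter Topology

section Bridge

variable {K : Type*} [NontriviallyNormedField K] [IsUltrametricDist K]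
variable (p : ℕ) {N : ℕ} (z : Fin N → K)

lemma tau_eq_cAt_wb (j : Fin (N + 1)) : Wronsk.tau z j = cAt (N + 1) z ((j : ℕ) + 1) := by
  induction j using Fin.lastCases with
  | last =>
    rw [Wronsk.tau_last]
    simp [cAt]
  | cast j =>
    rw [Wronsk.tau_castSucc]
    have h : (j : ℕ) + 1 - 1 < N + 1 - 1 := by simp
    simp only [Fin.val_castSucc, cAt]
    rw [dif_pos h]
    rfl

/-- turning a sum over `range (min (m+1) (N+1))` into a sum over `Fin (N+1)` with an `if`. -/
lemma sum_range_min_eq {A : Type*} [AddCommMonoid A] (g : ℕ → A) (m : ℕ) :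
    ∑ i ∈ Finset.range (min (m + 1) (N + 1)), g i =
      ∑ j : Fin (N + 1), if (j : ℕ) ≤ m then g j else 0 := by
  rw [Fin.sum_univ_eq_sum_range (fun j => if j ≤ m then g j else 0) (N + 1),
    ← Finset.sum_filter]
  refine Finset.sum_congr ?_ (fun _ _ => rfl)
  ext i
  simp only [Finset.mem_range, Finset.mem_filter]
  omega

lemma isEll_ell (hp0 : (p : K) ≠ 0) : Wronsk.IsEll p z (ell p (N + 1) z) := by
  refine ⟨ell_zero p (N + 1) z, fun m => ?_⟩
  have h := p_mul_ell_succ (K := K) p (N + 1) hp0 z m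
  rw [h, sum_range_min_eq]
  refine Finset.sum_congr rfl fun j _ => ?_
  rw [tau_eq_cAt_wb]

lemma dPow_single_wb (i : Fin N) (j P : ℕ) (hj : j < N + 1) :
    dPow (N + 1) z (j + 1) P (Pi.single i 1) =
      if j = (i : ℕ) then (P : K) * z i ^ (P - 1) else 0 := by
  simp only [dPow, LinearMap.smul_apply, smul_eq_mul]
  by_cases hjN : j < N
  · have hc : cAt (N + 1) z (j + 1) = z ⟨j, hjN⟩ := by
      have h : j + 1 - 1 < N + 1 - 1 := by simpa using hjN
      simp only [cAt]
      rw [dif_pos h]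
      rfl
    have hd : dcAt (K := K) (N + 1) (j + 1) (Pi.single i 1) =
        if j = (i : ℕ) then 1 else 0 := by
      have h : j + 1 - 1 < N + 1 - 1 := by simpa using hjN
      simp only [dcAt]
      rw [dif_pos h]
      simp only [LinearMap.proj_apply, Pi.single_apply]
      by_cases hji : j = (i : ℕ)
      · subst hji
        simp
      · have : (⟨j + 1 - 1, h⟩ : Fin (N + 1 - 1)) ≠ i := by
          intro h'
          apply hji
          have := congrArg Fin.val h'
          simpa using this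
        rw [if_neg this, if_neg hji]
    rw [hd, hc]
    by_cases hji : j = (i : ℕ)
    · have : (⟨j, hjN⟩ : Fin N) = i := Fin.ext hji
      rw [if_pos hji, if_pos hji, this, mul_one]
    · rw [if_neg hji, if_neg hji, mul_zero]
  · have hji : j ≠ (i : ℕ) := by have := i.isLt; omega
    have h : ¬ (j + 1 - 1 < N + 1 - 1) := by simpa using hjN
    rw [if_neg hji, dcAt_of_not_lt (N + 1) h]
    simp

lemma isDEll_dell (hp0 : (p : K) ≠ 0) (i : Fin N) :
    Wronsk.IsDEll p z (ell p (N + 1) z) (fun m => dell p (N + 1) z m (Pi.single i 1)) i := by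
  refine ⟨by simp, fun m => ?_⟩
  have h := p_smul_dell_succ (K := K) p (N + 1) hp0 z m
  have h2 := congrArg (fun f => f (Pi.single i (1 : K) : Fin N → K)) h
  simp only [LinearMap.smul_apply, smul_eq_mul, LinearMap.sum_apply, LinearMap.add_apply] at h2
  rw [h2, sum_range_min_eq]
  have e : ∀ j : Fin (N + 1), (if (j : ℕ) ≤ m then
        ell p (N + 1) z (m - j) * dPow (N + 1) z ((j : ℕ) + 1) (p ^ (m - j)) (Pi.single i 1) +
        cAt (N + 1) z ((j : ℕ) + 1) ^ (p ^ (m - j)) * dell p (N + 1) z (m - j) (Pi.single i 1)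
        else 0) =
      (if (j : ℕ) ≤ m then dell p (N + 1) z (m - j) (Pi.single i 1) * Wronsk.tau z j ^ (p ^ (m - j))
        else 0) +
      (if (j : ℕ) = (i : ℕ) then Wronsk.defect p z (ell p (N + 1) z) i m else 0) := by
    intro j
    rw [dPow_single_wb z i j _ j.isLt, tau_eq_cAt_wb]
    by_cases hjm : (j : ℕ) ≤ m
    · rw [if_pos hjm, if_pos hjm]
      by_cases hji : (j : ℕ) = (i : ℕ)
      · rw [if_pos hji, if_pos hji]
        simp only [Wronsk.defect]
        rw [if_pos (hji ▸ hjm), hji]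
        push_cast
        ring
      · rw [if_neg hji, if_neg hji]
        ring
    · rw [if_neg hjm, if_neg hjm]
      by_cases hji : (j : ℕ) = (i : ℕ)
      · rw [if_pos hji]
        simp only [Wronsk.defect]
        rw [if_neg (hji ▸ hjm)]
        simp
      · rw [if_neg hji]
        simp
  rw [Finset.sum_congr rfl (fun j _ => e j), Finset.sum_add_distrib]
  congr 1
  rw [Finset.sum_eq_single i.castSucc]
  · simp
  · intro j _ hj
    rw [if_neg]
    intro h'
    exact hj (Fin.ext (by simpa using h'))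
  · simp

variable [hp2 : Fact p.Prime] [CompleteSpace K]

/-- For `k ≥ 1` the window entry is the index used in `W`. -/
lemma win_eq_idx (l : ℕ → K) (r : Fin (N + 1)) (k : ℕ) (hk : 1 ≤ k) :
    Wronsk.win l ((N + 1) * k) r = l (idx (N + 1) k (-(r : ℤ))) := by
  have hr : (r : ℕ) ≤ (N + 1) * k := by
    have := r.isLt
    nlinarith
  simp only [Wronsk.win]
  rw [if_pos hr]
  congr 1
  simp only [idx]
  omega

/-- **F2, final form.** The Wronskian of the periods has norm one. -/
theorem norm_det_periods (hp0 : (p : K) ≠ 0) (hp1 : ‖(p : K)‖ < 1) (hz : ‖z‖ < 1) :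
    ‖(Wronsk.wronsk (fun r : Fin (N + 1) => W p (N + 1) (-(r : ℤ)) z)
      (fun i r => dW p (N + 1) (-(r : ℤ)) z (Pi.single i 1))).det‖ = 1 := by
  have hz' : ∀ i, ‖z i‖ < 1 := fun i => lt_of_le_of_lt (norm_le_pi_norm z i) hz
  refine Wronsk.norm_det_limit (p := p) (z := z) (l := ell p (N + 1) z)
    (dl := fun i m => dell p (N + 1) z m (Pi.single i 1)) hp1.le hp2.out.two_le hz'
    (isEll_ell p z hp0) (fun i => isDEll_dell p z hp0 i) ?_ ?_
  · intro r
    refine (tendsto_W (K := K) p (N + 1) hp0 hp1 (by omega) (-(r : ℤ)) z hz).congr' ?_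
    filter_upwards [eventually_ge_atTop 1] with k hk
    rw [win_eq_idx _ r k hk]
  · intro i r
    refine (tendsto_dW (K := K) p (N + 1) hp0 hp1 (by omega) (-(r : ℤ)) z hz
      (Pi.single i 1)).congr' ?_
    filter_upwards [eventually_ge_atTop 1] with k hk
    rw [win_eq_idx _ r k hk]

/-- The period vector is nonzero. -/
theorem periods_ne_zero (hp0 : (p : K) ≠ 0) (hp1 : ‖(p : K)‖ < 1) (hz : ‖z‖ < 1) :
    (fun r : Fin (N + 1) => W p (N + 1) (-(r : ℤ)) z) ≠ 0 := by
  refine Wronsk.ne_zero_of_det_ne_zero (A := fun i r => dW p (N + 1) (-(r : ℤ)) z (Pi.single i 1)) ?_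
  intro h
  have := norm_det_periods p z hp0 hp1 hz
  rw [h] at this
  simp at this

/-- The cross map `s ↦ y_{i0} dW_i(s) - y_i dW_{i0}(s)` is injective. -/
theorem periods_cross_injective (hp0 : (p : K) ≠ 0) (hp1 : ‖(p : K)‖ < 1) (hz : ‖z‖ < 1)
    (i0 : Fin (N + 1)) (hy : W p (N + 1) (-(i0 : ℤ)) z ≠ 0) (s : Fin N → K)
    (hs : ∀ i : Fin (N + 1), W p (N + 1) (-(i0 : ℤ)) z * dW p (N + 1) (-(i : ℤ)) z s -
      W p (N + 1) (-(i : ℤ)) z * dW p (N + 1) (-(i0 : ℤ)) z s = 0) : s = 0 := by
  have hdet : (Wronsk.wronsk (fun r : Fin (N + 1) => W p (N + 1) (-(r : ℤ)) z)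
      (fun i r => dW p (N + 1) (-(r : ℤ)) z (Pi.single i 1))).det ≠ 0 := by
    intro h
    have := norm_det_periods p z hp0 hp1 hz
    rw [h] at this
    simp at this
  refine Wronsk.cross_injective hdet i0 hy s fun i => ?_
  have e : ∀ r : Fin (N + 1), ∑ k, s k * dW p (N + 1) (-(r : ℤ)) z (Pi.single k 1) =
      dW p (N + 1) (-(r : ℤ)) z s := fun r =>
    (lin_eq_sum (N + 1) (dW p (N + 1) (-(r : ℤ)) z) s).symm
  rw [e, e]
  exact hs i

end Bridge

end Crest.Agent.LT
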