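import Crest.Agent.Lib.LubinTate.Transfer
import Crest.Agent.Lib.LubinTate.ZeroTaylor
import Crest.Agent.Lib.LubinTate.ZeroSpan
import Crest.Agent.Lib.LubinTate.Gamma0Endo
import Crest.Agent.Lib.LubinTate.ZeroCoreSpan
import Crest.Agent.Lib.LubinTate.ZeroWronskBridge

/-!
# Row 227 (S0351), section F5: the orbit of a point in characteristic zero.

Iterates of a composition of stabilizer maps: they are congruent to the identity modulo `m^k`, and
they act on the period vector through `(1 + p^a B)^τ`.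
-/

set_option autoImplicit false
set_option linter.unusedSectionVars false

namespace Crest.Agent.LT.ZeroOrbit

open Crest.LubinTate Crest.Agent.LT Crest.Agent.LubinTate Crest.Agent.LT.ZeroCore Matrix

noncomputable section

variable (p : ℕ) [hpf : Fact p.Prime] (n : ℕ) [hn0 : NeZero n]

/-! ### Iterates modulo powers of the maximal ideal -/

theorem finite_quot_pow (k : ℕ) : Finite (AA p n ⧸ (IsLocalRing.maximalIdeal (AA p n)) ^ k) := by
  have hfin : Finite (AA p n ⧸ IsLocalRing.maximalIdeal (AA p n)) := by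
    have hk : Finite (kk p n) := inferInstance
    let f : AA p n ⧸ IsLocalRing.maximalIdeal (AA p n) →+* kk p n :=
      Ideal.Quotient.lift _ (LTRing.residue p n)
        (fun a ha => (mem_maximalIdeal_iff_residue p n).1 ha)
    refine Finite.of_injective f ?_
    exact RingHom.lift_injective_of_ker_le_ideal _ _
      (fun a ha => (mem_maximalIdeal_iff_residue p n).2 ha)
  exact Ideal.finite_quotient_pow (IsNoetherian.noetherian _) k

theorem exists_iterate_sub_mem (Φ : AA p n →ₐ[WW p n] AA p n)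
    (hres : ∀ a, LTRing.residue p n (Φ a) = LTRing.residue p n a)
    (hsurj : Function.Surjective Φ) (k : ℕ) :
    ∃ e : ℕ, 0 < e ∧ ∀ (b : ℕ) (x : AA p n),
      Φ^[e * b] x - x ∈ (IsLocalRing.maximalIdeal (AA p n)) ^ k := by
  set m := IsLocalRing.maximalIdeal (AA p n) with hm
  have hfin := finite_quot_pow p n k
  have hmm : m ≤ m.comap Φ.toRingHom := by
    intro a ha
    rw [Ideal.mem_comap, hm, mem_maximalIdeal_iff_residue]
    rw [hm, mem_maximalIdeal_iff_residue] at ha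
    show LTRing.residue p n (Φ a) = 0
    rw [hres, ha]
  have hI : m ^ k ≤ (m ^ k).comap Φ.toRingHom :=
    (Ideal.pow_right_mono hmm k).trans (Ideal.le_comap_pow _ _)
  let Θ : AA p n ⧸ m ^ k →+* AA p n ⧸ m ^ k := Ideal.quotientMap (m ^ k) Φ.toRingHom hI
  have hΘ : ∀ x, Θ (Ideal.Quotient.mk _ x) = Ideal.Quotient.mk _ (Φ x) := fun x =>
    Ideal.quotientMap_mk
  have hΘs : Function.Surjective Θ := by
    intro y
    obtain ⟨x, rfl⟩ := Ideal.Quotient.mk_surjective y
    obtain ⟨x', rfl⟩ := hsurj x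
    exact ⟨Ideal.Quotient.mk _ x', hΘ x'⟩
  have hΘb : Function.Bijective Θ := ⟨Finite.injective_iff_surjective.2 hΘs, hΘs⟩
  let σ : Equiv.Perm (AA p n ⧸ m ^ k) := Equiv.ofBijective Θ hΘb
  obtain ⟨e, he, hpow⟩ := isOfFinOrder_iff_pow_eq_one.1 (isOfFinOrder_of_finite σ)
  refine ⟨e, he, fun b x => ?_⟩
  have hiter : (⇑Θ)^[e] = id := by
    have h1 : (⇑σ)^[e] = ⇑(σ ^ e) := Equiv.Perm.iterate_eq_pow σ e
    have h2 : (⇑σ) = ⇑Θ := rfl
    rw [h2, hpow] at h1
    rw [h1]
    rfl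
  have hsemi : Function.Semiconj (Ideal.Quotient.mk (m ^ k)) Φ Θ := fun x => (hΘ x).symm
  have h2 := (hsemi.iterate_right (e * b)) x
  rw [Function.iterate_mul (⇑Θ) e b, hiter, Function.iterate_id] at h2
  rw [← Ideal.Quotient.eq]
  exact h2

/-- Stabilizer maps are surjective. -/
theorem stabilizer_surjective {g : PowerSeries (kk p n)} {ψ : AA p n →ₐ[WW p n] AA p n}
    (hψ : IsStabilizerMap p n (hazF p n) g ψ) (hg : IsUnit (PowerSeries.coeff 1 g)) :
    Function.Surjective ψ := by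
  obtain ⟨-, θ, hθ, hres⟩ := hψ
  have hu : IsUnit (PowerSeries.coeff 1 θ) := by
    apply Xfer.isUnit_of_isUnit_residue
    rw [← PowerSeries.coeff_map, hres]
    exact hg
  have h1 := Xfer.heightIdeal_eq_of_hom p n hθ hu n
  rw [Xfer.heightIdeal_map, heightIdeal_hazF p n n le_rfl, II_eq_maximalIdeal] at h1
  exact (ltRing_bijective_of_map_eq p n ψ h1).2

/-! ### Iterates as algebra maps -/

/-- The iterates of an algebra endomorphism, composing on the right. -/
def iterA (Φ : AA p n →ₐ[WW p n] AA p n) : ℕ → (AA p n →ₐ[WW p n] AA p n)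
  | 0 => AlgHom.id _ _
  | j + 1 => (iterA Φ j).comp Φ

lemma iterA_apply (Φ : AA p n →ₐ[WW p n] AA p n) (j : ℕ) (x : AA p n) :
    iterA p n Φ j x = Φ^[j] x := by
  induction j generalizing x with
  | zero => rfl
  | succ j ih =>
    rw [Function.iterate_succ_apply]
    exact ih (Φ x)

variable {K : Type} [NontriviallyNormedField K] [IsUltrametricDist K] [CompleteSpace K]

/-! ### Points -/

/-- Points with the same `W`-structure as `z`. -/
structure IsPt (z z' : AA p n →+* K) : Prop where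
  one : ∀ a, ‖z' a‖ ≤ 1
  lt : ∀ a ∈ IsLocalRing.maximalIdeal (AA p n), ‖z' a‖ < 1
  C : ∀ w : WW p n, z' (MvPowerSeries.C w) = z (MvPowerSeries.C w)

variable {p n}

lemma IsPt.comp {z z' : AA p n →+* K} (h : IsPt p n z z') (Φ : AA p n →ₐ[WW p n] AA p n)
    (hres : ∀ a, LTRing.residue p n (Φ a) = LTRing.residue p n a) :
    IsPt p n z (z'.comp Φ.toRingHom) where
  one a := h.one _
  lt a ha := h.lt _ (by
    rw [mem_maximalIdeal_iff_residue] at ha ⊢
    rw [show Φ.toRingHom a = Φ a from rfl, hres, ha])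
  C w := by
    have h1 : Φ.toRingHom (MvPowerSeries.C w) = MvPowerSeries.C w := Φ.commutes w
    rw [RingHom.comp_apply, h1]
    exact h.C w

variable (p n)

/-- The period vector of a point. -/
def wv (z' : AA p n →+* K) : Fin n → K := wvec p n (coord p n z')

/-- The matrix of `R_{r,ζ}`. -/
def Rm (z : AA p n →+* K) (q : Fin n × kk p n) : Matrix (Fin n) (Fin n) K :=
  LinearMap.toMatrix' (Rr p n (Tch p n z q.2) q.1)

lemma Rm_mulVec (z : AA p n →+* K) (q : Fin n × kk p n) (y : Fin n → K) :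
    Rm p n z q *ᵥ y = Rr p n (Tch p n z q.2) q.1 y :=
  LinearMap.toMatrix'_mulVec _ _

lemma Rm_bd (z : AA p n →+* K) (hz1 : ∀ a, ‖z a‖ ≤ 1) (hp1 : ‖(p : K)‖ ≤ 1)
    (q : Fin n × kk p n) : MatBd 1 (Rm p n z q) := by
  intro i j
  rw [Rm, LinearMap.toMatrix'_apply, Rr_apply, norm_mul, norm_pow]
  have hT : ‖Tch p n z q.2‖ ≤ 1 := norm_Tch_le p n z hz1 _
  have h1 : ‖Tch p n z q.2‖ ^ (p ^ (((i : ℤ) - q.1) % n).toNat) ≤ 1 := pow_le_one₀ (norm_nonneg _) hT
  have hv : ∀ j' : Fin n, ‖(Pi.single j (1 : K) : Fin n → K) j'‖ ≤ 1 := by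
    intro j'
    by_cases h : j' = j
    · subst h; simp
    · simp [Pi.single_eq_of_ne h]
  have h2 : ‖shiftC p n q.1 (Pi.single j (1 : K)) i‖ ≤ 1 := by
    unfold shiftC
    split_ifs with h
    · exact hv _
    · rw [norm_mul]
      exact mul_le_one₀ hp1 (norm_nonneg _) (hv _)
  exact mul_le_one₀ h1 (norm_nonneg _) h2

variable [CharZero K]

/-- One stabilizer map acts on periods by `1 + p^a R_{r,ζ}`. -/
lemma step_periods {z z' : AA p n →+* K} (hz' : IsPt p n z z') (hp1 : ‖(p : K)‖ < 1) (a : ℕ)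
    (q : Fin n × kk p n) (hm : 1 ≤ n * a + q.1)
    {ψ : AA p n →ₐ[WW p n] AA p n}
    (hψ : IsStabilizerMap p n (hazF p n) (gmz (Gamma0 p n) p q.2 (n * a + q.1)) ψ) :
    ∃ lam : K, wv p n (z'.comp ψ.toRingHom) =
      lam • ((1 + ((p : K) ^ a) • Rm p n z q) *ᵥ wv p n z') := by
  obtain ⟨u, hu, h⟩ := transf_vec p n z' hz'.one hz'.lt hp1 a q.1 hm q.2 hψ
  have hTch : Tch p n z' q.2 = Tch p n z q.2 := hz'.C _
  have hu0 : u ≠ 0 := by
    rintro rfl
    simp at hu
  refine ⟨u⁻¹, ?_⟩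
  have h2 : wv p n (z'.comp ψ.toRingHom) = wvec p n (fun s => z' (ψ (tt p n s))) := rfl
  have h3 : wv p n z' = wvec p n (fun s => z' (tt p n s)) := rfl
  rw [h2, h3, Matrix.add_mulVec, Matrix.one_mulVec, Matrix.smul_mulVec, Rm_mulVec, ← hTch, ← h,
    smul_smul, inv_mul_cancel₀ hu0, one_smul]

omit [CharZero K]

/-! ### Reachable maps -/

/-- `Φ` is an admissible map acting on periods by `1 + p^a B`. -/
structure Reach (a : ℕ) (J : Ideal (AA p n)) (z : AA p n →+* K) (Φ : AA p n →ₐ[WW p n] AA p n)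
    (B : Matrix (Fin n) (Fin n) K) : Prop where
  res : ∀ x, LTRing.residue p n (Φ x) = LTRing.residue p n x
  surj : Function.Surjective Φ
  mem : ∀ x ∈ J, Φ x ∈ J
  per : ∀ z' : AA p n →+* K, IsPt p n z z' → ∃ lam : K, wv p n (z'.comp Φ.toRingHom) =
    lam • ((1 + ((p : K) ^ a) • B) *ᵥ wv p n z')

lemma Reach.id (a : ℕ) (J : Ideal (AA p n)) (z : AA p n →+* K) :
    Reach p n a J z (AlgHom.id _ _) 0 where
  res _ := rfl
  surj := Function.surjective_id
  mem _ h := h
  per z' _ := ⟨1, by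
    have : z'.comp (AlgHom.id (WW p n) (AA p n)).toRingHom = z' := rfl
    rw [this]
    simp⟩

lemma Reach.comp {a : ℕ} {J : Ideal (AA p n)} {z : AA p n →+* K}
    {Φ ψ : AA p n →ₐ[WW p n] AA p n} {B R : Matrix (Fin n) (Fin n) K}
    (h1 : Reach p n a J z Φ B) (h2 : Reach p n a J z ψ R) :
    Reach p n a J z (Φ.comp ψ) (B + R + ((p : K) ^ a) • (R * B)) where
  res x := by
    rw [AlgHom.comp_apply, h1.res, h2.res]
  surj := h1.surj.comp h2.surj
  mem x hx := h1.mem _ (h2.mem _ hx)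
  per z' hz' := by
    obtain ⟨l1, hl1⟩ := h1.per z' hz'
    obtain ⟨l2, hl2⟩ := h2.per _ (hz'.comp Φ h1.res)
    refine ⟨l2 * l1, ?_⟩
    have e : z'.comp (Φ.comp ψ).toRingHom = (z'.comp Φ.toRingHom).comp ψ.toRingHom := rfl
    rw [e, hl2, hl1, Matrix.mulVec_smul, Matrix.mulVec_mulVec, smul_smul]
    congr 2
    simp only [add_mul, mul_add, one_mul, mul_one, smul_mul_assoc, mul_smul_comm, smul_add, smul_smul]
    abel

lemma matBd_comp {a : ℕ} {B R Rt : Matrix (Fin n) (Fin n) K} (hp1 : ‖(p : K)‖ ≤ 1)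
    (hB : MatBd 1 B) (hR : MatBd 1 R) (hBR : MatBd (‖(p : K)‖ ^ a) (B - Rt)) :
    MatBd 1 (B + R + ((p : K) ^ a) • (R * B)) ∧
      MatBd (‖(p : K)‖ ^ a) (B + R + ((p : K) ^ a) • (R * B) - (Rt + R)) := by
  have hpa : ‖(p : K)‖ ^ a ≤ 1 := pow_le_one₀ (norm_nonneg _) hp1
  have hRB : MatBd 1 (R * B) := by simpa using hR.mul zero_le_one zero_le_one hB
  have hs : MatBd (‖(p : K)‖ ^ a) (((p : K) ^ a) • (R * B)) := by
    have := hRB.smul ((p : K) ^ a)
    simpa [norm_pow] using this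
  constructor
  · exact (hB.add hR).add (hs.mono hpa)
  · have e : B + R + ((p : K) ^ a) • (R * B) - (Rt + R) = (B - Rt) + ((p : K) ^ a) • (R * B) := by
      abel
    rw [e]
    exact hBR.add hs

/-- Every integer combination of the generators is reached. -/
lemma reach_sum {a : ℕ} {J : Ideal (AA p n)} {z : AA p n →+* K} (hp1 : ‖(p : K)‖ ≤ 1)
    {κ : Type} [DecidableEq κ] (ψ : κ → AA p n →ₐ[WW p n] AA p n)
    (R : κ → Matrix (Fin n) (Fin n) K) (hR : ∀ k, MatBd 1 (R k))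
    (hψ : ∀ k, Reach p n a J z (ψ k) (R k)) (c : κ → ℕ) (t : Finset κ) :
    ∃ (Φ : AA p n →ₐ[WW p n] AA p n) (B : Matrix (Fin n) (Fin n) K), Reach p n a J z Φ B ∧
      MatBd 1 B ∧ MatBd (‖(p : K)‖ ^ a) (B - ∑ k ∈ t, (c k : K) • R k) := by
  have hpa : 0 ≤ ‖(p : K)‖ ^ a := pow_nonneg (norm_nonneg _) _
  induction t using Finset.induction_on with
  | empty =>
    refine ⟨AlgHom.id _ _, 0, Reach.id p n a J z, ?_, ?_⟩
    · intro i j; simp
    · intro i j; simpa using hpa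
  | insert k0 t hk0 ih =>
    obtain ⟨Φ, B, hΦ, hB, hBt⟩ := ih
    have key : ∀ j : ℕ, ∃ (Φ' : AA p n →ₐ[WW p n] AA p n) (B' : Matrix (Fin n) (Fin n) K),
        Reach p n a J z Φ' B' ∧ MatBd 1 B' ∧
          MatBd (‖(p : K)‖ ^ a) (B' - (∑ k ∈ t, (c k : K) • R k + (j : K) • R k0)) := by
      intro j
      induction j with
      | zero =>
        refine ⟨Φ, B, hΦ, hB, ?_⟩
        simpa using hBt
      | succ j ihj =>
        obtain ⟨Φ', B', hΦ', hB', hB't⟩ := ihj
        refine ⟨Φ'.comp (ψ k0), _, hΦ'.comp p n (hψ k0), ?_⟩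
        have := matBd_comp p n hp1 hB' (hR k0) hB't
        refine ⟨this.1, ?_⟩
        have e : ∑ k ∈ t, (c k : K) • R k + ((j + 1 : ℕ) : K) • R k0
            = (∑ k ∈ t, (c k : K) • R k + (j : K) • R k0) + R k0 := by
          push_cast
          rw [add_smul, one_smul, add_assoc]
        rw [e]
        exact this.2
    obtain ⟨Φ', B', h1, h2, h3⟩ := key (c k0)
    refine ⟨Φ', B', h1, h2, ?_⟩
    rw [Finset.sum_insert hk0, add_comm ((c k0 : K) • R k0)]
    exact h3

/-- Iterates act on periods through the powers. -/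
lemma Reach.iter {a : ℕ} {J : Ideal (AA p n)} {z : AA p n →+* K}
    {Φ : AA p n →ₐ[WW p n] AA p n} {B : Matrix (Fin n) (Fin n) K}
    (h : Reach p n a J z Φ B) (hz : IsPt p n z z) (j : ℕ) :
    IsPt p n z (z.comp (iterA p n Φ j).toRingHom) ∧
      (∀ x ∈ J, iterA p n Φ j x ∈ J) ∧
      ∃ lam : K, wv p n (z.comp (iterA p n Φ j).toRingHom) =
        lam • (((1 + ((p : K) ^ a) • B) ^ j) *ᵥ wv p n z) := by
  induction j with
  | zero =>
    refine ⟨hz, fun _ hx => hx, 1, ?_⟩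
    have : z.comp (iterA p n Φ 0).toRingHom = z := rfl
    rw [this]
    simp
  | succ j ih =>
    obtain ⟨h1, h2, lam, hlam⟩ := ih
    have e : z.comp (iterA p n Φ (j + 1)).toRingHom =
        (z.comp (iterA p n Φ j).toRingHom).comp Φ.toRingHom := rfl
    refine ⟨?_, fun x hx => h2 _ (h.mem _ hx), ?_⟩
    · rw [e]
      exact h1.comp Φ h.res
    · obtain ⟨l, hl⟩ := h.per _ h1
      refine ⟨l * lam, ?_⟩
      rw [e, hl, hlam, Matrix.mulVec_smul, Matrix.mulVec_mulVec, smul_smul, pow_succ']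

end

end Crest.Agent.LT.ZeroOrbit
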