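/-
S0351 (row 227). Blueprint section F: the char 0 theorem (module F-d-Main).
-/
import Crest.Agent.Lib.LubinTate.Transfer
import Crest.Agent.Lib.LubinTate.ZeroOrbit

set_option autoImplicit false
set_option linter.unusedSectionVars false

namespace Crest.Agent.LT

open Crest.LubinTate Crest.Agent.LubinTate Crest.Agent.LT.ZeroCore Crest.Agent.LT.ZeroOrbit Matrix

section Periods

variable (p : ℕ) [hpf : Fact p.Prime]
variable {K : Type} [NontriviallyNormedField K] [IsUltrametricDist K] [CompleteSpace K]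
variable {N : ℕ}

lemma period_pair (z0 : Fin (N + 1 - 1) → K) (hz : ‖z0‖ < 1) (hp0 : (p : K) ≠ 0)
    (hp1 : ‖(p : K)‖ < 1) (r i : Fin (N + 1)) (h : (r : ℕ) + i = N + 1) :
    W p (N + 1) (-(r : ℤ)) z0 = (p : K) * W p (N + 1) (i : ℤ) z0 ∧
      dW p (N + 1) (-(r : ℤ)) z0 = (p : K) • dW p (N + 1) (i : ℤ) z0 := by
  have e : ((i : ℤ) - ((N + 1 : ℕ) : ℤ)) = -(r : ℤ) := by
    push_cast
    omega
  have h1 := W_sub_n (K := K) p (N + 1) hp0 hp1 (by omega) (i : ℤ) z0 hz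
  have h2 := dW_sub_n (K := K) p (N + 1) hp0 hp1 (by omega) (i : ℤ) z0 hz
  rw [e] at h1 h2
  exact ⟨h1, h2⟩

lemma period_A (z0 : Fin (N + 1 - 1) → K) (hz : ‖z0‖ < 1) (hp0 : (p : K) ≠ 0)
    (hp1 : ‖(p : K)‖ < 1) (r : Fin (N + 1)) :
    ∃ (i : Fin (N + 1)) (ε : K), ε ≠ 0 ∧ W p (N + 1) (-(r : ℤ)) z0 = ε * W p (N + 1) (i : ℤ) z0 ∧
      ∀ s, dW p (N + 1) (-(r : ℤ)) z0 s = ε * dW p (N + 1) (i : ℤ) z0 s := by
  rcases Nat.eq_zero_or_pos (r : ℕ) with hr | hr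
  · have e : (-(r : ℤ)) = ((⟨0, by omega⟩ : Fin (N + 1)) : ℤ) := by simp [hr]
    refine ⟨⟨0, by omega⟩, 1, one_ne_zero, ?_, fun s => ?_⟩
    · rw [e, one_mul]
    · rw [e, one_mul]
  · have hi : N + 1 - (r : ℕ) < N + 1 := by omega
    obtain ⟨h1, h2⟩ := period_pair p z0 hz hp0 hp1 r ⟨N + 1 - r, hi⟩
      (by have := r.isLt; simp only; omega)
    refine ⟨⟨N + 1 - r, hi⟩, p, hp0, h1, fun s => ?_⟩
    rw [h2]
    rfl

lemma period_B (z0 : Fin (N + 1 - 1) → K) (hz : ‖z0‖ < 1) (hp0 : (p : K) ≠ 0)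
    (hp1 : ‖(p : K)‖ < 1) (i : Fin (N + 1)) :
    ∃ (r : Fin (N + 1)) (ε : K), ε ≠ 0 ∧ W p (N + 1) (-(r : ℤ)) z0 = ε * W p (N + 1) (i : ℤ) z0 ∧
      ∀ s, dW p (N + 1) (-(r : ℤ)) z0 s = ε * dW p (N + 1) (i : ℤ) z0 s := by
  rcases Nat.eq_zero_or_pos (i : ℕ) with hi | hi
  · have e : (-((⟨0, by omega⟩ : Fin (N + 1)) : ℤ)) = (i : ℤ) := by simp [hi]
    refine ⟨⟨0, by omega⟩, 1, one_ne_zero, ?_, fun s => ?_⟩
    · rw [e, one_mul]
    · rw [e, one_mul]
  · have hr : N + 1 - (i : ℕ) < N + 1 := by omega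
    obtain ⟨h1, h2⟩ := period_pair p z0 hz hp0 hp1 ⟨N + 1 - i, hr⟩ i
      (by have := i.isLt; simp only; omega)
    refine ⟨⟨N + 1 - i, hr⟩, p, hp0, h1, fun s => ?_⟩
    rw [h2]
    rfl

/-- The period vector in the window `0..N` is nonzero, and the cross map is injective. -/
theorem wvec_facts (z0 : Fin (N + 1 - 1) → K) (hz : ‖z0‖ < 1) (hp0 : (p : K) ≠ 0)
    (hp1 : ‖(p : K)‖ < 1) :
    wvec p (N + 1) z0 ≠ 0 ∧ ∀ i0 : Fin (N + 1), wvec p (N + 1) z0 i0 ≠ 0 → ∀ s : Fin (N + 1 - 1) → K,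
      (∀ i : Fin (N + 1), wvec p (N + 1) z0 i0 * dW p (N + 1) (i : ℤ) z0 s -
        wvec p (N + 1) z0 i * dW p (N + 1) (i0 : ℤ) z0 s = 0) → s = 0 := by
  constructor
  · intro h0
    apply periods_ne_zero (K := K) (N := N) p z0 hp0 hp1 hz
    funext r
    obtain ⟨i, ε, -, h1, -⟩ := period_A p z0 hz hp0 hp1 r
    have hi : W p (N + 1) (i : ℤ) z0 = 0 := congrFun h0 i
    rw [h1, hi, mul_zero]
    rfl
  · intro i0 hi0 s hs
    obtain ⟨r0, ε0, hε0, h10, h20⟩ := period_B p z0 hz hp0 hp1 i0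
    have hW0 : W p (N + 1) (-(r0 : ℤ)) z0 ≠ 0 := by
      rw [h10]
      exact mul_ne_zero hε0 hi0
    refine periods_cross_injective (K := K) (N := N) p z0 hp0 hp1 hz r0 hW0 s fun r => ?_
    obtain ⟨i, ε, -, h1, h2⟩ := period_A p z0 hz hp0 hp1 r
    have h := hs i
    simp only [wvec] at h
    rw [h10, h1, h2 s, h20 s]
    linear_combination ε0 * ε * h

end Periods

variable (p : ℕ) [Fact p.Prime] (n : ℕ) [NeZero n]

theorem charZero_aux (M : ℕ) (J : Ideal (AA p n)) (hs : CoreStable p n M J)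
    {K : Type} [NontriviallyNormedField K] [IsUltrametricDist K] [CompleteSpace K]
    (z : AA p n →+* K) (hz1 : ∀ a, ‖z a‖ ≤ 1)
    (hzm : ∀ a ∈ IsLocalRing.maximalIdeal (AA p n), ‖z a‖ < 1)
    (hzJ : ∀ a ∈ J, z a = 0) (hzp : z (p : AA p n) ≠ 0) (f : AA p n) (hf : f ∈ J) (hf0 : f ≠ 0) :
    False := by
  obtain ⟨N, rfl⟩ : ∃ N, n = N + 1 := ⟨n - 1, by have := NeZero.ne n; omega⟩
  have hpp : p.Prime := Fact.out
  have hp0 : (p : K) ≠ 0 := by rwa [map_natCast] at hzp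
  have hp1 : ‖(p : K)‖ < 1 := norm_p_lt p _ z hzm
  have : Fintype (kk p (N + 1)) := Fintype.ofFinite _
  have : CharZero K := charZero_of_inj_zero (fun m hm => by
    by_contra hne
    have h := norm_nat_ge (K := K) hpp hp1 hne
    rw [hm, norm_zero] at h
    have : 0 < ‖(p : K)‖ ^ (m - 1) := pow_pos (norm_pos_iff.2 hp0) _
    linarith)
  set z0 : Fin (N + 1 - 1) → K := coord p (N + 1) z with hz0def
  have hz0 : ‖z0‖ < 1 := norm_coord_lt p _ z hzm
  set r : ℝ := max (1 / 2) (max ‖(p : K)‖ ‖z0‖) with hr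
  have hr0 : 0 < r := lt_of_lt_of_le (by norm_num) (le_max_left _ _)
  have hr1 : r < 1 := max_lt (by norm_num) (max_lt hp1 hz0)
  have hrp : ‖(p : K)‖ ≤ r := (le_max_left _ _).trans (le_max_right _ _)
  have hrz : ‖z0‖ ≤ r := (le_max_right _ _).trans (le_max_right _ _)
  have hδ : ∀ i, ‖z0 i‖ ≤ (fun _ : Fin (N + 1 - 1) => r) i :=
    fun i => (norm_le_pi_norm z0 i).trans hrz
  -- the series
  set ι : WW p (N + 1) →+* K := z.comp MvPowerSeries.C with hι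
  have hιinj : ∀ w, ι w = 0 → w = 0 := by
    intro w hw
    by_contra hne
    obtain ⟨e, b, hb⟩ := WittVector.exists_eq_pow_p_mul' w hne
    rw [hb, map_mul, map_pow, map_natCast] at hw
    have hb0 : ι (b : WW p (N + 1)) ≠ 0 := (b.isUnit.map ι).ne_zero
    exact (mul_ne_zero (pow_ne_zero _ hp0) hb0) hw
  set F : MvPowerSeries (Fin (N + 1 - 1)) K := MvPowerSeries.map ι f with hF
  have hF0 : F ≠ 0 := by
    intro h
    apply hf0
    ext e
    have h1 := congrArg (MvPowerSeries.coeff e) h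
    rw [hF, MvPowerSeries.coeff_map, map_zero] at h1
    rw [hιinj _ h1, map_zero]
  have hFres : MvPowerSeries.IsRestricted (fun _ : Fin (N + 1 - 1) => r) F :=
    restr_of_bounded (fun _ => hr0) (fun _ => hr1) (C := 1) (fun e => by
      rw [hF, MvPowerSeries.coeff_map]; exact hz1 _)
  have hsub := isSubst_shift (r := fun _ : Fin (N + 1 - 1) => r) (fun _ => hr0) hδ
  set G : MvPowerSeries (Fin (N + 1 - 1)) K :=
    comp F (fun i => MvPowerSeries.X i + MvPowerSeries.C (z0 i)) with hG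
  have hGres : MvPowerSeries.IsRestricted (fun _ : Fin (N + 1 - 1) => r) G :=
    comp_restricted (fun _ => hr0) hsub hFres
  have hG0 : G ≠ 0 := by
    intro h
    have h1 := gn_comp_shift (r := fun _ : Fin (N + 1 - 1) => r) (fun _ => hr0) hδ hFres
    rw [← hG, h, gn_zero] at h1
    exact hF0 (gn_eq_zero (fun _ => hr0) hFres h1.symm)
  obtain ⟨m, P, Cg, hPh, hP0, hCg, hgP⟩ := exists_leading_form G hr0 hGres hG0
  have hevalG : ∀ s : Fin (N + 1 - 1) → K, ‖s‖ ≤ r → eval s G = eval (z0 + s) F := by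
    intro s hs'
    have hx : ∀ i, ‖s i‖ ≤ (fun _ : Fin (N + 1 - 1) => r) i :=
      fun i => (norm_le_pi_norm s i).trans hs'
    rw [hG, eval_comp (fun _ => hr0) (fun _ => hr0) hsub hx hFres]
    congr 1
    funext i
    rw [eval_add hx (isRestricted_X _ i) (isRestricted_C _ _), eval_X, eval_C, add_comm]
    rfl
  -- the periods
  set y : Fin (N + 1) → K := wvec p (N + 1) z0 with hy
  obtain ⟨hy0, hcross⟩ := wvec_facts p z0 hz0 hp0 hp1
  obtain ⟨i0, hi0⟩ := Function.ne_iff.1 hy0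
  set LL : (Fin (N + 1 - 1) → K) →ₗ[K] (Fin (N + 1) → K) :=
    LinearMap.pi (fun i : Fin (N + 1) => dW p (N + 1) (i : ℤ) z0) with hLL
  set ff : (Fin (N + 1 - 1) → K) →ₗ[K] (Fin (N + 1) → K) :=
    LinearMap.pi (fun i : Fin (N + 1) =>
      y i0 • dW p (N + 1) (i : ℤ) z0 - y i • dW p (N + 1) (i0 : ℤ) z0) with hff
  have hffker : LinearMap.ker ff = ⊥ := by
    rw [LinearMap.ker_eq_bot']
    intro s hs'
    refine hcross i0 hi0 s fun i => ?_
    have := congrFun hs' i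
    simpa [hff] using this
  obtain ⟨Q, hQ⟩ := ff.exists_leftInverse_of_injective hffker
  have hpiv : ∀ s, piv y i0 (LL s) = ff s := by
    intro s
    ext i
    simp [piv, hLL, hff]
  set CL : ℝ := ‖LinearMap.toContinuousLinearMap LL‖ with hCLd
  have hCL : 0 ≤ CL := norm_nonneg _
  have hL : ∀ s, ‖LL s‖ ≤ CL * ‖s‖ := fun s =>
    (LinearMap.toContinuousLinearMap LL).le_opNorm s
  set CQ : ℝ := ‖LinearMap.toContinuousLinearMap Q‖ with hCQd
  have hCQ : 0 ≤ CQ := norm_nonneg _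
  have hQb : ∀ u, ‖Q u‖ ≤ CQ * ‖u‖ := fun u =>
    (LinearMap.toContinuousLinearMap Q).le_opNorm u
  -- Taylor for the periods
  choose C hC0 hC using fun i : Fin (N + 1) =>
    W_taylor (K := K) p (N + 1) hp0 hp1 (by omega) hr0 hr1 (i : ℤ)
  set Cw : ℝ := ∑ i, C i with hCw
  have hCw0 : 0 ≤ Cw := Finset.sum_nonneg fun i _ => hC0 i
  set w : (Fin (N + 1 - 1) → K) → (Fin (N + 1) → K) := fun s => wvec p (N + 1) (z0 + s) with hw
  have hwT : ∀ s, ‖s‖ < r → ‖w s - y - LL s‖ ≤ Cw * ‖s‖ ^ 2 := by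
    intro s hs'
    refine (pi_norm_le_iff_of_nonneg (by positivity)).mpr fun i => ?_
    have h1 := hC i z0 s hrz hs'.le
    refine h1.trans ?_
    gcongr
    exact Finset.single_le_sum (f := C) (fun j _ => hC0 j) (Finset.mem_univ i)
  set g : (Fin (N + 1 - 1) → K) → K := fun s => eval s G with hg
  have hgT : ∀ s, ‖s‖ < r → ‖g s - MvPolynomial.eval s P‖ ≤ Cg * ‖s‖ ^ (m + 1) :=
    fun s hs' => hgP s hs'.le
  set R : Fin (N + 1) × kk p (N + 1) → Matrix (Fin (N + 1)) (Fin (N + 1)) K :=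
    Rm p (N + 1) z with hRd
  have hspan : Submodule.span K (Set.range fun k => R k *ᵥ y) = ⊤ := by
    have h1 := span_Rr p (N + 1) z hp0 hy0
    have h2 : (fun k => R k *ᵥ y) = fun q : Fin (N + 1) × kk p (N + 1) =>
        Rr p (N + 1) (Tch p (N + 1) z q.2) q.1 y := by
      funext q
      exact Rm_mulVec p (N + 1) z q y
    rw [h2]
    exact h1
  have hptz : IsPt p (N + 1) z z := ⟨hz1, hzm, fun _ => rfl⟩
  apply hP0
  refine core_zero (K := K) hpp hp1 y i0 LL CL hCL hL Q CQ hCQ hQb ?_ w r Cw hr0 hCw0 hwT g P m hPh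
    Cg hCg hgT R hspan ?_
  · intro s
    rw [hpiv]
    exact LinearMap.congr_fun hQ s
  intro c a₀ ε hε
  set a : ℕ := a₀ + M + 1 with ha
  have hma : ∀ q : Fin (N + 1) × kk p (N + 1),
      1 ≤ (N + 1) * a + (q.1 : ℕ) ∧ M ≤ p ^ ((N + 1) * a + (q.1 : ℕ)) := by
    intro q
    have h1 : a ≤ (N + 1) * a := Nat.le_mul_of_pos_left _ (by omega)
    have h2 : (N + 1) * a + (q.1 : ℕ) < p ^ ((N + 1) * a + (q.1 : ℕ)) :=
      Nat.lt_pow_self hpp.one_lt
    constructor <;> omega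
  have haut : ∀ q : Fin (N + 1) × kk p (N + 1),
      IsFGAut (Gamma0 p (N + 1)) (gmz (Gamma0 p (N + 1)) p q.2 ((N + 1) * a + (q.1 : ℕ))) :=
    fun q => isFGAut_Gamma0_gmz p (N + 1) q.2 (hma q).1
  have hlow : ∀ (q : Fin (N + 1) × kk p (N + 1)) (i : ℕ), i < M →
      PowerSeries.coeff i (gmz (Gamma0 p (N + 1)) p q.2 ((N + 1) * a + (q.1 : ℕ)))
        = PowerSeries.coeff i PowerSeries.X :=
    fun q i hi => coeff_gmz_low (Gamma0 p (N + 1)) p q.2 _ i (lt_of_lt_of_le hi (hma q).2)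
  choose ψ hψ1 hψ2 using fun q => hs _ (haut q) (hlow q)
  have hreach : ∀ q, Reach p (N + 1) a J z (ψ q) (R q) := by
    intro q
    refine ⟨fun x => congrFun (congrArg DFunLike.coe (hψ1 q).1) x,
      stabilizer_surjective p (N + 1) (hψ1 q) (haut q).2, fun x hx => ?_,
      fun z' hz' => step_periods p (N + 1) hz' hp1 a q (hma q).1 (hψ1 q)⟩
    have h1 : x ∈ Ideal.comap (ψ q).toRingHom J := by
      rw [hψ2 q]
      exact hx
    exact h1
  classical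
  obtain ⟨Φ, B, hΦ, hB, hBR⟩ := reach_sum p (N + 1) hp1.le ψ R
    (fun q => Rm_bd p (N + 1) z hz1 hp1.le q) hreach c Finset.univ
  obtain ⟨k, hk⟩ := exists_pow_lt_of_lt_one hε hr1
  have hk1 : r ^ (k + 1) ≤ r ^ k := pow_le_pow_of_le_one hr0.le hr1.le (Nat.le_succ k)
  have hk2 : r ^ (k + 1) ≤ r := pow_le_of_le_one hr0.le hr1.le (Nat.succ_ne_zero k)
  obtain ⟨e, he, hiter⟩ := exists_iterate_sub_mem p (N + 1) Φ hΦ.res hΦ.surj (k + 1)
  obtain ⟨b, hb⟩ := exists_pow_lt_of_lt_one hε hp1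
  set τ : ℕ := e * p ^ b with hτ
  have hτ0 : τ ≠ 0 := Nat.mul_ne_zero he.ne' (pow_ne_zero _ hpp.ne_zero)
  have hτn : ‖(τ : K)‖ < ε := by
    rw [hτ]
    push_cast
    rw [norm_mul, norm_pow]
    calc ‖(e : K)‖ * ‖(p : K)‖ ^ b ≤ 1 * ‖(p : K)‖ ^ b := by
          gcongr
          exact IsUltrametricDist.norm_natCast_le_one K e
      _ < ε := by rwa [one_mul]
  obtain ⟨hpt, hmemJ, lam, hlam⟩ := hΦ.iter p (N + 1) hptz τ
  set zτ : AA p (N + 1) →+* K := z.comp (iterA p (N + 1) Φ τ).toRingHom with hzτ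
  set s : Fin (N + 1 - 1) → K := coord p (N + 1) zτ - z0 with hsd
  have hX : ∀ i, ‖z (tt p (N + 1) i)‖ ≤ r := fun i => (norm_le_pi_norm z0 i).trans hrz
  have hsn : ‖s‖ ≤ r ^ (k + 1) := by
    refine (pi_norm_le_iff_of_nonneg (by positivity)).mpr fun i => ?_
    have h1 : s i = z (Φ^[e * p ^ b] (tt p (N + 1) i) - tt p (N + 1) i) := by
      rw [map_sub, ← iterA_apply]
      rfl
    rw [h1]
    exact norm_le_pow_of_mem_pow' p (N + 1) z hz1 hr0.le hrp hX (k + 1) (hiter _ _)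
  have hsum0 : z0 + s = coord p (N + 1) zτ := by
    rw [hsd]
    abel
  refine ⟨a, by omega, B, hB, hBR, τ, hτ0, hτn, s, lt_of_le_of_lt (hsn.trans hk1) hk, lam, ?_, ?_⟩
  · show wvec p (N + 1) (z0 + s) = _
    rw [hsum0]
    exact hlam
  · show eval s G = 0
    rw [hevalG s (hsn.trans hk2), hsum0]
    have hιτ : zτ.comp MvPowerSeries.C = ι := RingHom.ext hpt.C
    have h1 := point_eq_eval p (N + 1) zτ hpt.one hpt.lt f
    rw [hιτ] at h1
    rw [hF, ← h1]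
    exact hzJ _ (hmemJ f hf)

/-- Blueprint F: a stable ideal killed by a point of characteristic zero is zero. -/
theorem charZero_main (M : ℕ) (hM : 1 ≤ M) (J : Ideal (AA p n)) (hs : CoreStable p n M J)
    {K : Type} [NontriviallyNormedField K] [IsUltrametricDist K] [CompleteSpace K]
    (z : AA p n →+* K) (hz1 : ∀ a, ‖z a‖ ≤ 1)
    (hzm : ∀ a ∈ IsLocalRing.maximalIdeal (AA p n), ‖z a‖ < 1)
    (hzJ : ∀ a ∈ J, z a = 0) (hzp : z (p : AA p n) ≠ 0) : J = ⊥ := by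
  rw [Submodule.eq_bot_iff]
  intro f hf
  by_contra hf0
  exact charZero_aux p n M J hs z hz1 hzm hzJ hzp f hf hf0

end Crest.Agent.LT
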