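/-
S0351 (row 227).  Statement of the core classification (Blueprint G1) and the derivation of the
frozen statement from it.  The theorem `final_statement` here is the frozen statement.
-/
import Crest.Agent.Lib.LubinTate.Transfer
import Crest.Agent.Lib.LubinTate.LTRingAlg
import Crest.Agent.Lib.LubinTate.Points
import Crest.Agent.Lib.LubinTate.ZeroMain
import Crest.Agent.Lib.LubinTate.CharPMain

set_option autoImplicit false
set_option linter.unusedSectionVars false

namespace Crest.Agent.LT

open Crest.LubinTate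

variable (p : ℕ) [Fact p.Prime] (n : ℕ) [NeZero n]

theorem II_zero : II p n 0 = ⊥ := by simp [II]

theorem II_mono {a b : ℕ} (hab : a ≤ b) : II p n a ≤ II p n b := by
  unfold II
  by_cases ha : a = 0
  · simp [ha]
  · have hb : b ≠ 0 := by omega
    simp only [ha, hb, if_false]
    refine Ideal.span_mono (Set.union_subset_union_right _ ?_)
    rintro x ⟨i, hi, rfl⟩
    exact ⟨i, by omega, rfl⟩

theorem II_succ (h : ℕ) (hh : h < n) : II p n (h + 1) = II p n h ⊔ Ideal.span {vv p n h} := by
  apply le_antisymm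
  · unfold II
    simp only [Nat.add_eq_zero_iff, one_ne_zero, and_false, if_false]
    rw [Ideal.span_le]
    rintro x (rfl | ⟨i, hi, rfl⟩)
    · by_cases h0 : h = 0
      · subst h0
        apply Ideal.mem_sup_right
        apply Ideal.subset_span
        simp [vv]
      · apply Ideal.mem_sup_left
        simp only [h0, if_false]
        exact Ideal.subset_span (Or.inl rfl)
    · by_cases hi' : i.val + 1 = h
      · apply Ideal.mem_sup_right
        apply Ideal.subset_span
        have h0 : h ≠ 0 := by omega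
        have h2 : h - 1 < n - 1 := by have := i.isLt; omega
        have h3 : (⟨h - 1, h2⟩ : Fin (n - 1)) = i := by ext; simp; omega
        simp [vv, h0, h2, h3]
      · apply Ideal.mem_sup_left
        have h0 : h ≠ 0 := by omega
        simp only [h0, if_false]
        exact Ideal.subset_span (Or.inr ⟨i, by omega, rfl⟩)
  · refine sup_le (II_mono p n (Nat.le_succ h)) ?_
    rw [Ideal.span_le, Set.singleton_subset_iff]
    show vv p n h ∈ II p n (h + 1)
    unfold II vv
    simp only [Nat.add_eq_zero_iff, one_ne_zero, and_false, if_false]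
    by_cases h0 : h = 0
    · simp only [h0, if_true]
      exact Ideal.subset_span (Or.inl rfl)
    · simp only [h0, if_false]
      have h2 : h - 1 < n - 1 := by omega
      simp only [h2, dif_pos]
      exact Ideal.subset_span (Or.inr ⟨⟨h - 1, h2⟩, by simp; omega, rfl⟩)

theorem II_top : II p n n = IsLocalRing.maximalIdeal (AA p n) := by
  have hn : n ≠ 0 := NeZero.ne n
  rw [ltRing_maximalIdeal_eq]
  unfold II
  simp only [hn, if_false]
  apply le_antisymm
  · rw [Ideal.span_le]
    rintro x (rfl | ⟨i, hi, rfl⟩)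
    · exact Ideal.mem_sup_left (Ideal.subset_span rfl)
    · exact Ideal.mem_sup_right (Ideal.subset_span ⟨i, rfl⟩)
  · refine sup_le (Ideal.span_mono (Set.subset_union_of_subset_left subset_rfl _)) ?_
    rw [Ideal.span_le]
    rintro x ⟨i, rfl⟩
    apply Ideal.subset_span
    refine Or.inr ⟨i, ?_, rfl⟩
    have := i.isLt
    omega

theorem vv_mem_maximalIdeal (h : ℕ) (hh : h < n) :
    vv p n h ∈ IsLocalRing.maximalIdeal (AA p n) := by
  rw [← II_top, ]
  have : II p n (h + 1) ≤ II p n n := II_mono p n (by omega)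
  apply this
  rw [II_succ p n h hh]
  exact Ideal.mem_sup_right (Ideal.subset_span rfl)

/-- G1: the core classification. -/
theorem core_theorem (M : ℕ) (hM : 1 ≤ M) (J : Ideal (AA p n)) (hJ : J.IsRadical) (hne : J ≠ ⊤)
    (hs : CoreStable p n M J) : ∃ h : ℕ, h ≤ n ∧ J = II p n h := by
  classical
  -- maximal `h ≤ n` with `I_h ≤ J`
  have hex : ∃ h, h ≤ n ∧ II p n h ≤ J ∧ ∀ h', h < h' → h' ≤ n → ¬ II p n h' ≤ J := by
    have h0 : ∃ h, (n - h) ≤ n ∧ II p n (n - h) ≤ J := ⟨n, by omega, by simp [II_zero]⟩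
    let h1 := Nat.find h0
    have h1s := Nat.find_spec h0
    refine ⟨n - h1, by omega, h1s.2, fun h' hlt hle hI => ?_⟩
    have : Nat.find h0 ≤ n - h' := Nat.find_min' h0 ⟨by omega, by
      have : n - (n - h') = h' := by omega
      rw [this]; exact hI⟩
    have h1le : h1 ≤ n := by
      by_contra hcon
      have : n - h1 = 0 := by omega
      omega
    have : h1 ≤ n - h' := this
    omega
  obtain ⟨h, hhn, hIJ, hmax⟩ := hex
  refine ⟨h, hhn, ?_⟩
  rcases Nat.lt_or_ge h n with hlt | hge
  · -- `h < n`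
    have hvJ : vv p n h ∉ J := by
      intro hv
      refine hmax (h + 1) (by omega) (by omega) ?_
      rw [II_succ p n h hlt]
      refine sup_le hIJ ?_
      rw [Ideal.span_le, Set.singleton_subset_iff]
      exact hv
    -- a prime above `J` avoiding `v`
    have hrad : J.radical = J := hJ.radical
    have hexQ : ∃ Q : Ideal (AA p n), Q.IsPrime ∧ J ≤ Q ∧ vv p n h ∉ Q := by
      by_contra hcon
      push Not at hcon
      apply hvJ
      rw [← hrad, Ideal.radical_eq_sInf, Ideal.mem_sInf]
      rintro Q ⟨hQJ, hQ⟩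
      exact hcon Q hQ hQJ
    obtain ⟨Q, hQ, hJQ, hvQ⟩ := hexQ
    obtain ⟨K, i1, i2, i3, i4, z, hz1, hzm, hzQ, hzv⟩ :=
      exists_point p n Q hQ (vv p n h) hvQ (vv_mem_maximalIdeal p n h hlt)
    have hzJ : ∀ a ∈ J, z a = 0 := fun a ha => hzQ a (hJQ ha)
    by_cases h0 : h = 0
    · subst h0
      rw [II_zero]
      refine charZero_main p n M hM J hs z hz1 hzm hzJ ?_
      simpa [vv] using hzv
    · refine le_antisymm ?_ hIJ
      exact charP_main p n h (by omega) hlt M hM J hs z hz1 hzm hzJ (fun a ha => hzJ a (hIJ ha)) hzv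
  · -- `h = n`
    have hhn' : h = n := by omega
    subst hhn'
    refine le_antisymm ?_ hIJ
    rw [II_top]
    exact IsLocalRing.le_maximalIdeal hne

theorem final_statement
    (Γ : FormalGroup (GaloisField p n)) [Γ.IsComm]
    (hΓ : mulSeries Γ p = PowerSeries.X ^ (p ^ n))
    (H : FormalGroup (LTRing p n)) [H.IsComm] (hH : IsUniversalDeformation p n Γ H)
    (M : ℕ) (hM : 1 ≤ M) :
    (∀ P : Ideal (LTRing p n),
        (P.IsPrime ∧ IsStableIdeal p n Γ H M P) ↔ ∃ h : ℕ, h ≤ n ∧ P = heightIdeal p n H h) ∧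
    (∀ J : Ideal (LTRing p n),
        (J.IsRadical ∧ IsStableIdeal p n Γ H M J) ↔
          (∃ h : ℕ, h ≤ n ∧ J = heightIdeal p n H h) ∨ J = ⊤) := by
  obtain ⟨Φ, hΦ, hst⟩ := exists_transfer p n Γ hΓ H hH
  -- `Φ`-images
  have hcomap : ∀ J : Ideal (LTRing p n), J.map (Φ : AA p n →+* AA p n)
      = Ideal.comap (Φ.symm : AA p n →+* AA p n) J := fun J =>
    Ideal.map_comap_of_equiv Φ
  have hinj : ∀ J J' : Ideal (LTRing p n), J.map (Φ : AA p n →+* AA p n)
      = J'.map (Φ : AA p n →+* AA p n) → J = J' := fun J J' hJJ => by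
    have := congrArg (Ideal.map (Φ.symm : AA p n →+* AA p n)) hJJ
    have key : ∀ I : Ideal (LTRing p n), (I.map (Φ : AA p n →+* AA p n)).map
        (Φ.symm : AA p n →+* AA p n) = I := fun I => by
      rw [Ideal.map_map]
      have : ((Φ.symm : AA p n →+* AA p n)).comp (Φ : AA p n →+* AA p n) = RingHom.id _ :=
        RingEquiv.symm_toRingHom_comp_toRingHom Φ
      rw [this, Ideal.map_id]
    rwa [key, key] at this
  have hprimeH : ∀ h, h ≤ n → (heightIdeal p n H h).IsPrime := fun h hh => by
    have h1 : (II p n h).IsPrime := II_isPrime p n h hh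
    have h2 : heightIdeal p n H h = Ideal.comap (Φ : AA p n →+* AA p n) (II p n h) := by
      rw [← hΦ h hh]
      exact (Ideal.comap_map_of_bijective _ Φ.bijective).symm
    rw [h2]
    exact Ideal.comap_isPrime _ _
  have hrad : ∀ J : Ideal (LTRing p n), J.IsRadical → (J.map (Φ : AA p n →+* AA p n)).IsRadical :=
    fun J hJ => by
      rw [hcomap]
      exact hJ.comap _
  have hne : ∀ J : Ideal (LTRing p n), J ≠ ⊤ → J.map (Φ : AA p n →+* AA p n) ≠ ⊤ := fun J hJ h => by
    apply hJ
    apply hinj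
    rw [h, Ideal.map_top]
  have hcore : ∀ J : Ideal (LTRing p n), J.IsRadical → J ≠ ⊤ → IsStableIdeal p n Γ H M J →
      ∃ h : ℕ, h ≤ n ∧ J = heightIdeal p n H h := fun J hJ hJne hJs => by
    obtain ⟨h, hh, hEq⟩ := core_theorem p n M hM (J.map (Φ : AA p n →+* AA p n)) (hrad J hJ)
      (hne J hJne) (hst M J hM hJs)
    refine ⟨h, hh, hinj _ _ ?_⟩
    rw [hEq, hΦ h hh]
  constructor
  · intro P
    constructor
    · rintro ⟨hP, hPs⟩
      exact hcore P hP.isRadical hP.ne_top hPs
    · rintro ⟨h, hh, rfl⟩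
      exact ⟨hprimeH h hh, heightIdeal_isStable p n Γ hΓ H hH M h hh⟩
  · intro J
    constructor
    · rintro ⟨hJ, hJs⟩
      by_cases hT : J = ⊤
      · exact Or.inr hT
      · exact Or.inl (hcore J hJ hT hJs)
    · rintro (⟨h, hh, rfl⟩ | rfl)
      · exact ⟨(hprimeH h hh).isRadical, heightIdeal_isStable p n Γ hΓ H hH M h hh⟩
      · refine ⟨fun x _ => Submodule.mem_top, ?_⟩
        intro g φ _ _ _
        exact Ideal.comap_top

end Crest.Agent.LT
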