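import Mathlib

/-!
# Complete algebraically closed extensions of ultrametric normed fields (row 227, section B2)

`isAlgClosed_of_denseRange`: a complete normed field with an algebraically closed dense subfield
is algebraically closed (any characteristic; Mathlib only has characteristic zero).

`exists_completeAlgClosed_embedding`: every nontrivially normed ultrametric field embeds isometrically
into a complete, algebraically closed, nontrivially normed ultrametric field.
-/

set_option autoImplicit false

namespace Crest.Agent.LT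

open Polynomial

universe u

/-- a root of a monic polynomial with coefficients of norm `≤ C` has norm at most
`max 1 (d * C)` (`d` the degree). -/
lemma norm_root_le {L : Type*} [NormedField L] {g : L[X]} (hg : g.Monic) {C : ℝ} (hC0 : 0 ≤ C)
    (hC : ∀ i, i < g.natDegree → ‖g.coeff i‖ ≤ C) {a : L} (ha : g.eval a = 0) :
    ‖a‖ ≤ max 1 ((g.natDegree : ℝ) * C) := by
  by_contra hlt
  push Not at hlt
  have h1 : 1 < ‖a‖ := lt_of_le_of_lt (le_max_left _ _) hlt
  have h2 : (g.natDegree : ℝ) * C < ‖a‖ := lt_of_le_of_lt (le_max_right _ _) hlt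
  set d := g.natDegree with hd
  have hdpos : 0 < d := by
    rcases Nat.eq_zero_or_pos d with h | h
    · have : g = 1 := hg.natDegree_eq_zero.mp h
      rw [this] at ha; simp at ha
    · exact h
  have hsum : g.eval a = a ^ d + ∑ i ∈ Finset.range d, g.coeff i * a ^ i := by
    rw [Polynomial.eval_eq_sum_range, Finset.sum_range_succ, hd, hg.coeff_natDegree, one_mul,
      add_comm]
  have heq : a ^ d = - ∑ i ∈ Finset.range d, g.coeff i * a ^ i := by
    rw [ha] at hsum
    exact eq_neg_of_add_eq_zero_left hsum.symm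
  have hnorm : ‖a‖ ^ d ≤ ∑ i ∈ Finset.range d, C * ‖a‖ ^ (d - 1) := by
    calc ‖a‖ ^ d = ‖a ^ d‖ := (norm_pow _ _).symm
      _ = ‖∑ i ∈ Finset.range d, g.coeff i * a ^ i‖ := by rw [heq, norm_neg]
      _ ≤ ∑ i ∈ Finset.range d, ‖g.coeff i * a ^ i‖ := norm_sum_le _ _
      _ ≤ ∑ i ∈ Finset.range d, C * ‖a‖ ^ (d - 1) := by
          refine Finset.sum_le_sum fun i hi => ?_
          rw [norm_mul, norm_pow]
          have hi' := Finset.mem_range.mp hi
          exact mul_le_mul (hC i hi') (pow_le_pow_right₀ h1.le (by omega)) (by positivity) hC0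
  rw [Finset.sum_const, Finset.card_range, nsmul_eq_mul] at hnorm
  have h3 : ‖a‖ ^ d = ‖a‖ * ‖a‖ ^ (d - 1) := by
    rw [← pow_succ']; congr 1; omega
  rw [h3, ← mul_assoc] at hnorm
  have hpos : 0 < ‖a‖ ^ (d - 1) := by positivity
  have := le_of_mul_le_mul_right hnorm hpos
  linarith

/-- A complete normed field with an algebraically closed dense subfield is algebraically closed
(no hypothesis on the characteristic). -/
theorem isAlgClosed_of_denseRange {K₀ L : Type*} [Field K₀] [NormedField L] [CompleteSpace L]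
    [Algebra K₀ L] (hi : DenseRange (algebraMap K₀ L)) [IsAlgClosed K₀] : IsAlgClosed L := by
  apply IsAlgClosed.of_exists_root
  intro f fmon firr
  set d := f.natDegree with hd
  have hdpos : 0 < d := firr.natDegree_pos
  -- a bound for the coefficients of `f`
  obtain ⟨C₀, hC₀0, hC₀⟩ : ∃ C₀ : ℝ, 0 ≤ C₀ ∧ ∀ i, ‖f.coeff i‖ ≤ C₀ := by
    refine ⟨∑ i ∈ Finset.range (d + 1), ‖f.coeff i‖, by positivity, fun i => ?_⟩
    by_cases h : i < d + 1
    · exact Finset.single_le_sum (f := fun i => ‖f.coeff i‖) (fun _ _ => norm_nonneg _)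
        (Finset.mem_range.mpr h)
    · rw [Polynomial.coeff_eq_zero_of_natDegree_lt (by omega), norm_zero]
      positivity
  set C : ℝ := C₀ + 1 with hC
  have hC1 : 1 ≤ C := by linarith
  set R : ℝ := max 1 ((d : ℝ) * C) with hR
  have hR1 : 1 ≤ R := le_max_left _ _
  have hRpos : 0 < R := by linarith
  -- the tolerances
  let δ : ℕ → ℝ := fun k => (1 / 2 : ℝ) ^ k
  have hδpos : ∀ k, 0 < δ k := fun k => by positivity
  have hδle : ∀ k, δ k ≤ 1 := fun k => pow_le_one₀ (by norm_num) (by norm_num)
  have hδanti : ∀ k, δ (k + 1) ≤ δ k := fun k => by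
    simp only [δ]; exact pow_le_pow_of_le_one (by norm_num) (by norm_num) (Nat.le_succ k)
  let ε : ℕ → ℝ := fun k => (δ k / R) ^ d / (2 * ((d : ℝ) + 1))
  have hεpos : ∀ k, 0 < ε k := fun k => by
    have := hδpos k
    positivity
  have hεanti : ∀ k, ε (k + 1) ≤ ε k := fun k => by
    simp only [ε]
    gcongr
    exact hδanti k
  have hεle : ∀ k, ε k ≤ 1 := fun k => by
    have h1 : (δ k / R) ^ d ≤ 1 := pow_le_one₀ (by have := hδpos k; positivity)
      ((div_le_one hRpos).mpr ((hδle k).trans hR1))
    have h2 : (1 : ℝ) ≤ 2 * ((d : ℝ) + 1) := by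
      have : (0 : ℝ) ≤ d := by positivity
      linarith
    calc ε k ≤ 1 / (2 * ((d : ℝ) + 1)) := by
          simp only [ε]; gcongr
      _ ≤ 1 := by
          rw [div_le_one (by linarith)]; exact h2
  -- the approximating polynomials
  have happrox := fun k => Polynomial.exists_monic_and_natDegree_eq_and_norm_map_algebraMap_coeff_sub_lt
    hi fmon (hεpos k)
  choose g gmon gdeg gcoeff using happrox
  let G : ℕ → L[X] := fun k => (g k).map (algebraMap K₀ L)
  have Gmon : ∀ k, (G k).Monic := fun k => (gmon k).map _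
  have Gdeg : ∀ k, (G k).natDegree = d := fun k => by
    simp only [G]; rw [(gmon k).natDegree_map, ← gdeg k]
  have Gsplit : ∀ k, (G k).Splits := fun k => (IsAlgClosed.splits (g k)).map _
  have Gbd : ∀ k i, ‖(G k).coeff i‖ ≤ C := fun k i => by
    have h1 := gcoeff k i
    have h2 : ‖(G k).coeff i‖ ≤ ‖(G k).coeff i - f.coeff i‖ + ‖f.coeff i‖ := by
      simpa using norm_add_le ((G k).coeff i - f.coeff i) (f.coeff i)
    have h3 := hεle k
    have h4 := hC₀ i
    simp only [G] at h1 h2 ⊢
    linarith
  have Gclose : ∀ k i, ‖(G (k + 1)).coeff i - (G k).coeff i‖ < 2 * ε k := fun k i => by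
    have h1 := gcoeff (k + 1) i
    have h2 := gcoeff k i
    have h3 : ‖(G (k + 1)).coeff i - (G k).coeff i‖ ≤
        ‖(G (k + 1)).coeff i - f.coeff i‖ + ‖(G k).coeff i - f.coeff i‖ := by
      have := norm_sub_le ((G (k + 1)).coeff i - f.coeff i) ((G k).coeff i - f.coeff i)
      simpa using this
    have h4 := hεanti k
    simp only [G] at h1 h2 h3 ⊢
    linarith
  have Rroot : ∀ k a, (G k).eval a = 0 → ‖a‖ ≤ R := fun k a ha => by
    have := norm_root_le (Gmon k) (by linarith : (0 : ℝ) ≤ C)
      (fun i _ => Gbd k i) ha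
    rwa [Gdeg k] at this
  -- roots: one step
  have hstep : ∀ k (a : L), (G k).eval a = 0 → ∃ b : L, (G (k + 1)).eval b = 0 ∧ ‖a - b‖ ≤ δ k := by
    intro k a ha
    obtain ⟨b, hb, hab⟩ := Polynomial.exists_roots_norm_sub_lt_of_norm_coeff_sub_lt
      (f := G k) (g := G (k + 1)) (ε := 2 * ε k) (by have := hεpos k; positivity) ha (Gmon k)
      (Gmon (k + 1)) (by rw [Gdeg, Gdeg]) (Gclose k) (Gsplit (k + 1))
    refine ⟨b, ?_, ?_⟩
    · exact Polynomial.isRoot_of_mem_roots hb
    · rw [Gdeg k] at hab
      have hd0 : (d : ℝ) ≠ 0 := by positivity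
      have hroot : (((d : ℝ) + 1) * (2 * ε k)) ^ ((d : ℝ)⁻¹) = δ k / R := by
        have : ((d : ℝ) + 1) * (2 * ε k) = (δ k / R) ^ d := by
          simp only [ε]
          field_simp
        rw [this, ← Real.rpow_natCast, ← Real.rpow_mul (by have := hδpos k; positivity),
          mul_inv_cancel₀ hd0, Real.rpow_one]
      rw [hroot] at hab
      have hmax : max ‖a‖ 1 ≤ R := max_le (Rroot k a ha) hR1
      have : δ k / R * max ‖a‖ 1 ≤ δ k / R * R :=
        mul_le_mul_of_nonneg_left hmax (by have := hδpos k; positivity)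
      rw [div_mul_cancel₀ _ hRpos.ne'] at this
      linarith
  -- the initial root
  obtain ⟨a₀, ha₀⟩ : ∃ a, (G 0).eval a = 0 := by
    obtain ⟨a, ha⟩ := IsAlgClosed.exists_root (g 0) (by
      have : (g 0).natDegree = d := (gdeg 0).symm
      rw [Polynomial.degree_eq_natDegree (gmon 0).ne_zero, this]
      exact_mod_cast hdpos.ne')
    refine ⟨algebraMap K₀ L a, ?_⟩
    simp only [G]
    rw [Polynomial.eval_map_algebraMap, Polynomial.aeval_algebraMap_apply, Polynomial.coe_aeval_eq_eval, ha.eq_zero, map_zero]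
  -- the sequence of roots
  choose! nxt hnxt hnxt' using hstep
  let a : (k : ℕ) → {x : L // (G k).eval x = 0} := fun k => Nat.rec ⟨a₀, ha₀⟩
    (fun k x => ⟨nxt k x.1, hnxt k x.1 x.2⟩) k
  have hadist : ∀ k, dist (a k).1 (a (k + 1)).1 ≤ 1 * (1 / 2) ^ k := fun k => by
    rw [dist_eq_norm, one_mul]
    exact hnxt' k _ (a k).2
  have hcau : CauchySeq (fun k => (a k).1) := cauchySeq_of_le_geometric _ _ (by norm_num) hadist
  obtain ⟨x, hx⟩ := cauchySeq_tendsto_of_complete hcau
  refine ⟨x, ?_⟩
  -- `f (a k) → 0`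
  have hlim : Filter.Tendsto (fun k => f.eval (a k).1) Filter.atTop (nhds (f.eval x)) :=
    (Polynomial.continuous f).tendsto x |>.comp hx
  have hsmall : ∀ k, ‖f.eval (a k).1‖ ≤ ((d : ℝ) + 1) * (ε k * R ^ d) := fun k => by
    have hak : (G k).eval (a k).1 = 0 := (a k).2
    have hR' := Rroot k _ hak
    have hsub : f.eval (a k).1 = (f - G k).eval (a k).1 := by
      rw [Polynomial.eval_sub, hak, sub_zero]
    have hdegle : (f - G k).natDegree < d + 1 := by
      have := Polynomial.natDegree_sub_le f (G k)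
      rw [Gdeg k, ← hd, max_self] at this
      omega
    rw [hsub, Polynomial.eval_eq_sum_range' hdegle]
    calc ‖∑ i ∈ Finset.range (d + 1), (f - G k).coeff i * (a k).1 ^ i‖
        ≤ ∑ i ∈ Finset.range (d + 1), ‖(f - G k).coeff i * (a k).1 ^ i‖ := norm_sum_le _ _
      _ ≤ ∑ i ∈ Finset.range (d + 1), (ε k * R ^ d) := by
          refine Finset.sum_le_sum fun i hi => ?_
          rw [norm_mul, norm_pow, Polynomial.coeff_sub]
          have h1 : ‖f.coeff i - (G k).coeff i‖ ≤ ε k := by
            rw [norm_sub_rev]; exact (gcoeff k i).le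
          have hi' : i ≤ d := by have := Finset.mem_range.mp hi; omega
          have h2 : ‖(a k).1‖ ^ i ≤ R ^ d :=
            (pow_le_pow_left₀ (norm_nonneg _) hR' i).trans (pow_le_pow_right₀ hR1 hi')
          exact mul_le_mul h1 h2 (by positivity) (hεpos k).le
      _ = ((d : ℝ) + 1) * (ε k * R ^ d) := by
          rw [Finset.sum_const, Finset.card_range, nsmul_eq_mul]; push_cast; ring
  have hεlim : Filter.Tendsto ε Filter.atTop (nhds 0) := by
    have h1 : ∀ k, ε k ≤ (δ k / R) / (2 * ((d : ℝ) + 1)) := fun k => by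
      simp only [ε]
      gcongr
      have h0 : 0 ≤ δ k / R := by have := hδpos k; positivity
      have h1 : δ k / R ≤ 1 := (div_le_one hRpos).mpr ((hδle k).trans hR1)
      calc (δ k / R) ^ d ≤ (δ k / R) ^ 1 := pow_le_pow_of_le_one h0 h1 hdpos
        _ = δ k / R := pow_one _
    have h2 : Filter.Tendsto (fun k => (δ k / R) / (2 * ((d : ℝ) + 1))) Filter.atTop (nhds 0) := by
      have h3 : Filter.Tendsto δ Filter.atTop (nhds 0) :=
        tendsto_pow_atTop_nhds_zero_of_lt_one (by norm_num) (by norm_num)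
      simpa using (h3.div_const R).div_const (2 * ((d : ℝ) + 1))
    exact squeeze_zero (fun k => (hεpos k).le) h1 h2
  have hzero : Filter.Tendsto (fun k => ((d : ℝ) + 1) * (ε k * R ^ d)) Filter.atTop (nhds 0) := by
    simpa using (hεlim.mul_const (R ^ d)).const_mul ((d : ℝ) + 1)
  have hnorm0 : Filter.Tendsto (fun k => ‖f.eval (a k).1‖) Filter.atTop (nhds 0) :=
    squeeze_zero (fun _ => norm_nonneg _) hsmall hzero
  have : ‖f.eval x‖ = 0 := tendsto_nhds_unique hlim.norm hnorm0
  exact norm_eq_zero.mp this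

/-- Every nontrivially normed ultrametric field embeds isometrically into a complete, algebraically
closed, nontrivially normed ultrametric field (in the same universe). -/
theorem exists_completeAlgClosed_embedding (F : Type u) [NontriviallyNormedField F]
    [IsUltrametricDist F] :
    ∃ (K : Type u) (_ : NontriviallyNormedField K) (_ : CompleteSpace K)
      (_ : IsUltrametricDist K) (_ : IsAlgClosed K) (i : F →+* K), ∀ x, ‖i x‖ = ‖x‖ := by
  -- first completion
  let K₁ := UniformSpace.Completion F
  let _ : NontriviallyNormedField K₁ :=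
    { (inferInstance : NormedField K₁) with
      non_trivial := by
        obtain ⟨x, hx⟩ := NontriviallyNormedField.non_trivial (α := F)
        exact ⟨(x : K₁), by simpa [K₁] using hx⟩ }
  have _ : IsUltrametricDist K₁ := IsUltrametricDist.of_normedAlgebra F
  -- algebraic closure with the spectral norm
  let L := AlgebraicClosure K₁
  let _ : NontriviallyNormedField L := spectralNorm.nontriviallyNormedField K₁ L
  let _ : NormedAlgebra K₁ L := spectralNorm.normedAlgebra K₁ L
  have _ : IsUltrametricDist L := IsUltrametricDist.of_normedAlgebra K₁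
  -- second completion
  let K := UniformSpace.Completion L
  let _ : NontriviallyNormedField K :=
    { (inferInstance : NormedField K) with
      non_trivial := by
        obtain ⟨x, hx⟩ := NontriviallyNormedField.non_trivial (α := L)
        exact ⟨(x : K), by simpa [K] using hx⟩ }
  have _ : IsUltrametricDist K := IsUltrametricDist.of_normedAlgebra L
  have _ : IsAlgClosed K := isAlgClosed_of_denseRange (K₀ := L)
    (UniformSpace.Completion.denseRange_coe)
  let i₁ : F →+* K₁ := UniformSpace.Completion.coeRingHom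
  let i₂ : K₁ →+* L := algebraMap K₁ L
  let i₃ : L →+* K := UniformSpace.Completion.coeRingHom
  refine ⟨K, inferInstance, inferInstance, inferInstance, inferInstance,
    i₃.comp (i₂.comp i₁), fun x => ?_⟩
  have h1 : ‖i₁ x‖ = ‖x‖ := UniformSpace.Completion.norm_coe x
  have h2 : ‖i₂ (i₁ x)‖ = ‖i₁ x‖ := norm_algebraMap' L (i₁ x)
  have h3 : ‖i₃ (i₂ (i₁ x))‖ = ‖i₂ (i₁ x)‖ := UniformSpace.Completion.norm_coe _
  simp only [RingHom.comp_apply, h3, h2, h1]

end Crest.Agent.LT
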