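import Mathlib

/-!
# Row 227 (S0351), section F5: the analytic core of the characteristic zero theorem.

Everything here is abstract: an ultrametric field `K` of characteristic zero, a "period map" `w`
near a point with first order expansion `y + L s`, a function `g` with leading homogeneous form `P`,
and an orbit hypothesis. The conclusion is `P = 0`.
-/

set_option autoImplicit false
set_option linter.unusedSectionVars false

namespace Crest.Agent.LT.ZeroCore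

open Matrix

variable {K : Type*} [NormedField K] [IsUltrametricDist K]

/-! ### Natural numbers in an ultrametric field with `‖p‖ < 1` -/

lemma norm_nat_of_coprime {p : ℕ} (hp : ‖(p : K)‖ < 1) {l : ℕ} (hl : Nat.Coprime l p) :
    ‖(l : K)‖ = 1 := by
  refine le_antisymm (IsUltrametricDist.norm_natCast_le_one K l) ?_
  by_contra hlt
  push Not at hlt
  have hc : IsCoprime (l : ℤ) (p : ℤ) := Nat.isCoprime_iff_coprime.mpr hl
  obtain ⟨a, b, hab⟩ := hc
  have h1 : ((a : K) * (l : K) + (b : K) * (p : K)) = 1 := by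
    have := congrArg (Int.cast : ℤ → K) hab
    push_cast at this
    exact this
  have h2 : ‖(a : K) * (l : K) + (b : K) * (p : K)‖ < 1 := by
    refine lt_of_le_of_lt (IsUltrametricDist.norm_add_le_max _ _) (max_lt ?_ ?_)
    · rw [norm_mul]
      calc ‖(a : K)‖ * ‖(l : K)‖ ≤ 1 * ‖(l : K)‖ := by
            gcongr; exact IsUltrametricDist.norm_intCast_le_one K a
        _ < 1 := by simpa using hlt
    · rw [norm_mul]
      calc ‖(b : K)‖ * ‖(p : K)‖ ≤ 1 * ‖(p : K)‖ := by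
            gcongr; exact IsUltrametricDist.norm_intCast_le_one K b
        _ < 1 := by simpa using hp
  rw [h1, norm_one] at h2
  exact lt_irrefl _ h2

lemma norm_nat_ge {p : ℕ} (hpp : p.Prime) (hp : ‖(p : K)‖ < 1) {j : ℕ} (hj : j ≠ 0) :
    ‖(p : K)‖ ^ (j - 1) ≤ ‖(j : K)‖ := by
  obtain ⟨v, l, hl, rfl⟩ := Nat.exists_eq_pow_mul_and_not_dvd hj p hpp.ne_one
  have hlc : Nat.Coprime l p := ((Nat.Prime.coprime_iff_not_dvd hpp).mpr hl).symm
  have hv : v ≤ p ^ v * l - 1 := by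
    have h1 : v < p ^ v := Nat.lt_pow_self hpp.one_lt
    have h2 : 1 ≤ l := by
      rcases Nat.eq_zero_or_pos l with h | h
      · subst h; simp at hl
      · exact h
    have h3 : p ^ v ≤ p ^ v * l := Nat.le_mul_of_pos_right _ h2
    omega
  push_cast
  rw [norm_mul, norm_nat_of_coprime hp hlc, mul_one, norm_pow]
  exact pow_le_pow_of_le_one (norm_nonneg _) hp.le hv

/-! ### Entrywise bounds for matrices -/

section Mat

variable {ι : Type*} [Fintype ι] [DecidableEq ι]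

/-- Entrywise bound of a matrix. -/
def MatBd (u : ℝ) (A : Matrix ι ι K) : Prop := ∀ i j, ‖A i j‖ ≤ u

lemma MatBd.mono {u v : ℝ} {A : Matrix ι ι K} (h : MatBd u A) (huv : u ≤ v) : MatBd v A :=
  fun i j => (h i j).trans huv

lemma MatBd.mul {u v : ℝ} (hu : 0 ≤ u) (hv : 0 ≤ v) {A B : Matrix ι ι K}
    (hA : MatBd u A) (hB : MatBd v B) : MatBd (u * v) (A * B) := by
  intro i j
  rw [Matrix.mul_apply]
  refine IsUltrametricDist.norm_sum_le_of_forall_le_of_nonneg (mul_nonneg hu hv) ?_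
  intro l _
  rw [norm_mul]
  exact mul_le_mul (hA i l) (hB l j) (norm_nonneg _) hu

lemma MatBd.one : MatBd (1 : ℝ) (1 : Matrix ι ι K) := by
  intro i j
  by_cases h : i = j
  · subst h; simp
  · simp [Matrix.one_apply_ne h]

lemma MatBd.pow {A : Matrix ι ι K} (hA : MatBd 1 A) (j : ℕ) : MatBd 1 (A ^ j) := by
  induction j with
  | zero => simpa using MatBd.one
  | succ j ih =>
    rw [pow_succ]
    simpa using ih.mul zero_le_one zero_le_one hA

lemma MatBd.add {u : ℝ} {A B : Matrix ι ι K} (hA : MatBd u A) (hB : MatBd u B) :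
    MatBd u (A + B) := by
  intro i j
  rw [Matrix.add_apply]
  exact (IsUltrametricDist.norm_add_le_max _ _).trans (max_le (hA i j) (hB i j))

lemma MatBd.sub {u : ℝ} {A B : Matrix ι ι K} (hA : MatBd u A) (hB : MatBd u B) :
    MatBd u (A - B) := by
  intro i j
  rw [Matrix.sub_apply, sub_eq_add_neg]
  refine (IsUltrametricDist.norm_add_le_max _ _).trans (max_le (hA i j) ?_)
  rw [norm_neg]
  exact hB i j

lemma MatBd.smul {u : ℝ} {A : Matrix ι ι K} (c : K) (hA : MatBd u A) :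
    MatBd (‖c‖ * u) (c • A) := by
  intro i j
  rw [Matrix.smul_apply, smul_eq_mul, norm_mul]
  exact mul_le_mul_of_nonneg_left (hA i j) (norm_nonneg _)

lemma MatBd.sum {u : ℝ} (hu : 0 ≤ u) {α : Type*} (s : Finset α) (A : α → Matrix ι ι K)
    (hA : ∀ a ∈ s, MatBd u (A a)) : MatBd u (∑ a ∈ s, A a) := by
  intro i j
  rw [Matrix.sum_apply]
  exact IsUltrametricDist.norm_sum_le_of_forall_le_of_nonneg hu fun a ha => hA a ha i j

lemma MatBd.mulVec_norm {u : ℝ} (hu : 0 ≤ u) {A : Matrix ι ι K} (hA : MatBd u A) (y : ι → K) :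
    ‖A *ᵥ y‖ ≤ u * ‖y‖ := by
  refine (pi_norm_le_iff_of_nonneg (mul_nonneg hu (norm_nonneg _))).mpr ?_
  intro i
  simp only [Matrix.mulVec, dotProduct]
  refine IsUltrametricDist.norm_sum_le_of_forall_le_of_nonneg (mul_nonneg hu (norm_nonneg _)) ?_
  intro j _
  rw [norm_mul]
  exact mul_le_mul (hA i j) (norm_le_pi_norm y j) (norm_nonneg _) hu

/-- The binomial lemma: `(1 + p^a B)^τ = 1 + τ p^a D`, with `D` integral and `D ≡ B` modulo
`p^(a-1)`. -/
lemma pow_one_add [CharZero K] {p : ℕ} (hpp : p.Prime) (hp : ‖(p : K)‖ < 1) {a τ : ℕ}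
    (ha : 1 ≤ a) (hτ : τ ≠ 0) {B : Matrix ι ι K} (hB : MatBd 1 B) :
    ∃ D : Matrix ι ι K, MatBd 1 D ∧ MatBd (‖(p : K)‖ ^ (a - 1)) (D - B) ∧
      (1 + ((p : K) ^ a) • B) ^ τ = 1 + (((τ : K) * (p : K) ^ a)) • D := by
  obtain ⟨τ', rfl⟩ := Nat.exists_eq_succ_of_ne_zero hτ
  set X : Matrix ι ι K := ((p : K) ^ a) • B with hX
  have hτK : ((τ' + 1 : ℕ) : K) ≠ 0 := by exact_mod_cast Nat.succ_ne_zero τ'
  set coef : ℕ → K := fun m =>
    (((τ' + 1).choose (m + 2) : ℕ) : K) * (p : K) ^ (a * (m + 1)) / ((τ' + 1 : ℕ) : K) with hcoef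
  have hcoef_bd : ∀ m, ‖coef m‖ ≤ ‖(p : K)‖ ^ (a - 1) := by
    intro m
    have hnonneg : 0 ≤ ‖(p : K)‖ := norm_nonneg _
    -- `(m+2) * C(τ'+1, m+2) = (τ'+1) * C(τ', m+1)`
    have hch : ((m + 2 : ℕ) : K) * (((τ' + 1).choose (m + 2) : ℕ) : K)
        = ((τ' + 1 : ℕ) : K) * ((τ'.choose (m + 1) : ℕ) : K) := by
      have := Nat.add_one_mul_choose_eq τ' (m + 1)
      have h2 : ((τ' + 1 : ℕ) : K) * ((τ'.choose (m + 1) : ℕ) : K)
          = (((τ' + 1).choose (m + 2) : ℕ) : K) * ((m + 2 : ℕ) : K) := by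
        exact_mod_cast congrArg (Nat.cast : ℕ → K) this
      rw [h2, mul_comm]
    have hm2 : ((m + 2 : ℕ) : K) ≠ 0 := by exact_mod_cast Nat.succ_ne_zero (m + 1)
    have hform : coef m =
        ((τ'.choose (m + 1) : ℕ) : K) * (p : K) ^ (a * (m + 1)) / ((m + 2 : ℕ) : K) := by
      simp only [hcoef]
      field_simp
      linear_combination (p : K) ^ (a * (m + 1)) * hch
    rw [hform, norm_div, norm_mul, norm_pow]
    have hge : ‖(p : K)‖ ^ (m + 1) ≤ ‖((m + 2 : ℕ) : K)‖ := by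
      simpa using norm_nat_ge (K := K) hpp hp (j := m + 2) (by omega)
    have hpos : 0 < ‖((m + 2 : ℕ) : K)‖ := norm_pos_iff.mpr hm2
    rw [div_le_iff₀ hpos]
    have hch1 : ‖((τ'.choose (m + 1) : ℕ) : K)‖ ≤ 1 := IsUltrametricDist.norm_natCast_le_one K _
    have hexp : a * (m + 1) = (a - 1) + ((a - 1) * m + (m + 1)) := by
      obtain ⟨a', rfl⟩ : ∃ a', a = a' + 1 := ⟨a - 1, by omega⟩
      simp only [Nat.add_sub_cancel]
      ring
    calc ‖((τ'.choose (m + 1) : ℕ) : K)‖ * ‖(p : K)‖ ^ (a * (m + 1))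
        ≤ 1 * ‖(p : K)‖ ^ (a * (m + 1)) := by gcongr
      _ = ‖(p : K)‖ ^ (a - 1) * (‖(p : K)‖ ^ ((a - 1) * m) * ‖(p : K)‖ ^ (m + 1)) := by
          rw [one_mul, hexp]; ring
      _ ≤ ‖(p : K)‖ ^ (a - 1) * (1 * ‖((m + 2 : ℕ) : K)‖) := by
          gcongr
          exact pow_le_one₀ hnonneg hp.le
      _ = ‖(p : K)‖ ^ (a - 1) * ‖((m + 2 : ℕ) : K)‖ := by ring
  have hpow1 : ‖(p : K)‖ ^ (a - 1) ≤ 1 := pow_le_one₀ (norm_nonneg _) hp.le
  refine ⟨B + ∑ m ∈ Finset.range τ', coef m • B ^ (m + 2), ?_, ?_, ?_⟩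
  · refine hB.add (MatBd.sum zero_le_one _ _ fun m _ => ?_)
    have := (hB.pow (m + 2)).smul (coef m)
    refine this.mono ?_
    rw [mul_one]
    exact (hcoef_bd m).trans hpow1
  · rw [add_sub_cancel_left]
    refine MatBd.sum (pow_nonneg (norm_nonneg _) _) _ _ fun m _ => ?_
    have := (hB.pow (m + 2)).smul (coef m)
    refine this.mono ?_
    rw [mul_one]
    exact hcoef_bd m
  · have hbin : (1 + X) ^ (τ' + 1)
        = ∑ m ∈ Finset.range (τ' + 1 + 1), X ^ m * (((τ' + 1).choose m : ℕ) : Matrix ι ι K) := by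
      rw [add_comm 1 X, (Commute.one_right X).add_pow]
      simp
    rw [hbin, Finset.sum_range_succ', Finset.sum_range_succ']
    have hnat : ∀ (A : Matrix ι ι K) (n : ℕ), A * ((n : ℕ) : Matrix ι ι K) = (n : K) • A := by
      intro A n
      rw [← nsmul_eq_mul', Nat.cast_smul_eq_nsmul]
    have hterm : ∀ m, X ^ (m + 1 + 1) * (((τ' + 1).choose (m + 1 + 1) : ℕ) : Matrix ι ι K)
        = (((τ' + 1 : ℕ) : K) * (p : K) ^ a) • (coef m • B ^ (m + 2)) := by
      intro m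
      have hXp : X ^ (m + 1 + 1) = ((p : K) ^ a) ^ (m + 2) • B ^ (m + 2) := by
        rw [hX, smul_pow]
      rw [hXp, hnat, smul_smul, smul_smul]
      congr 1
      simp only [hcoef]
      field_simp
      ring
    rw [Finset.sum_congr rfl fun m _ => hterm m, ← Finset.smul_sum, smul_add]
    simp only [zero_add, pow_one, pow_zero, one_mul, Nat.choose_zero_right, Nat.choose_one_right,
      Nat.cast_one]
    rw [hnat, hX, smul_smul]
    simp only [Nat.succ_eq_add_one]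
    abel

end Mat

/-! ### The limit theorem -/

section Limit

variable {ι σ : Type*} [Fintype ι] [DecidableEq ι] [Fintype σ]

/-- The pivot projection `u ↦ (y_{i0} u_i - y_i u_{i0})_i`, whose kernel is `K y` if `y_{i0} ≠ 0`. -/
def piv (y : ι → K) (i0 : ι) (u : ι → K) : ι → K := fun i => y i0 * u i - y i * u i0

lemma piv_add (y : ι → K) (i0 : ι) (u v : ι → K) : piv y i0 (u + v) = piv y i0 u + piv y i0 v := by
  ext i; simp [piv]; ring

lemma piv_sub (y : ι → K) (i0 : ι) (u v : ι → K) : piv y i0 (u - v) = piv y i0 u - piv y i0 v := by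
  ext i; simp [piv]; ring

lemma piv_smul (y : ι → K) (i0 : ι) (c : K) (u : ι → K) : piv y i0 (c • u) = c • piv y i0 u := by
  ext i; simp [piv]; ring

lemma norm_mul_sub_mul_le (a b c d : K) (A B : ℝ) (hA : 0 ≤ A) (hB : 0 ≤ B)
    (ha : ‖a‖ ≤ A) (hb : ‖b‖ ≤ B) (hc : ‖c‖ ≤ A) (hd : ‖d‖ ≤ B) :
    ‖a * b - c * d‖ ≤ A * B := by
  rw [sub_eq_add_neg]
  refine (IsUltrametricDist.norm_add_le_max _ _).trans (max_le ?_ ?_)
  · rw [norm_mul]; exact mul_le_mul ha hb (norm_nonneg _) hA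
  · rw [norm_neg, norm_mul]; exact mul_le_mul hc hd (norm_nonneg _) hA

lemma norm_piv_le (y : ι → K) (i0 : ι) (u : ι → K) : ‖piv y i0 u‖ ≤ ‖y‖ * ‖u‖ := by
  refine (pi_norm_le_iff_of_nonneg (mul_nonneg (norm_nonneg _) (norm_nonneg _))).mpr ?_
  intro i
  exact norm_mul_sub_mul_le _ _ _ _ _ _ (norm_nonneg _) (norm_nonneg _)
    (norm_le_pi_norm y i0) (norm_le_pi_norm u i) (norm_le_pi_norm y i) (norm_le_pi_norm u i0)

lemma nsub {V : Type*} [SeminormedAddCommGroup V] [IsUltrametricDist V] (a b : V) :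
    ‖a - b‖ ≤ max ‖a‖ ‖b‖ := by
  rw [sub_eq_add_neg]
  simpa using IsUltrametricDist.norm_add_le_max a (-b)

lemma eval_smul_homog {P : MvPolynomial σ K} {m : ℕ} (hP : P.IsHomogeneous m) (c : K) (x : σ → K) :
    MvPolynomial.eval (c • x) P = c ^ m * MvPolynomial.eval x P := by
  classical
  rw [MvPolynomial.eval_eq', MvPolynomial.eval_eq', Finset.mul_sum]
  refine Finset.sum_congr rfl fun d hd => ?_
  have hdeg : ∑ i, d i = m := by
    have := hP (MvPolynomial.mem_support_iff.mp hd)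
    have h2 : (Finsupp.weight (1 : σ → ℕ)) d = Finsupp.degree d := by
      rw [Finsupp.degree_eq_weight_one]
      rfl
    rw [← Finsupp.degree_eq_sum]
    exact h2.symm.trans this
  simp only [Pi.smul_apply, smul_eq_mul, mul_pow, Finset.prod_mul_distrib, Finset.prod_pow_eq_pow_sum,
    hdeg]
  ring

/-- **The limit theorem**: along the orbit, the leading form `P` vanishes at the first order
displacement `Q (piv (Rt y))`. -/
theorem core_limit [CharZero K] {p : ℕ} (hpp : p.Prime) (hp : ‖(p : K)‖ < 1)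
    (y : ι → K) (i0 : ι)
    (L : (σ → K) → (ι → K)) (CL : ℝ) (hCL : 0 ≤ CL) (hL : ∀ s, ‖L s‖ ≤ CL * ‖s‖)
    (Q : (ι → K) →ₗ[K] (σ → K)) (CQ : ℝ) (hCQ : 0 ≤ CQ) (hQb : ∀ u, ‖Q u‖ ≤ CQ * ‖u‖)
    (hQ : ∀ s, Q (piv y i0 (L s)) = s)
    (w : (σ → K) → (ι → K)) (δ Cw : ℝ) (hδ : 0 < δ) (hCw : 0 ≤ Cw)
    (hw : ∀ s, ‖s‖ < δ → ‖w s - y - L s‖ ≤ Cw * ‖s‖ ^ 2)
    (g : (σ → K) → K) (P : MvPolynomial σ K) (m : ℕ) (hP : P.IsHomogeneous m)
    (Cg : ℝ) (hCg : 0 ≤ Cg)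
    (hg : ∀ s, ‖s‖ < δ → ‖g s - MvPolynomial.eval s P‖ ≤ Cg * ‖s‖ ^ (m + 1))
    (Rt : Matrix ι ι K)
    (horb : ∀ (a₀ : ℕ) (ε : ℝ), 0 < ε → ∃ a, a₀ ≤ a ∧ ∃ B : Matrix ι ι K, MatBd 1 B ∧
      MatBd (‖(p : K)‖ ^ a) (B - Rt) ∧ ∃ τ : ℕ, τ ≠ 0 ∧ ‖(τ : K)‖ < ε ∧ ∃ s : σ → K, ‖s‖ < ε ∧
        ∃ lam : K, w s = lam • (((1 + ((p : K) ^ a) • B) ^ τ) *ᵥ y) ∧ g s = 0) :
    MvPolynomial.eval (Q (piv y i0 (Rt *ᵥ y))) P = 0 := by
  by_contra hne
  set xs : σ → K := Q (piv y i0 (Rt *ᵥ y)) with hxs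
  set η : ℝ := ‖MvPolynomial.eval xs P‖ with hη
  have hηpos : 0 < η := norm_pos_iff.mpr hne
  obtain ⟨δ', hδ', hcont⟩ := Metric.continuous_iff.mp (MvPolynomial.continuous_eval P) xs η hηpos
  set Y : ℝ := ‖y‖ with hY
  have hY0 : 0 ≤ Y := norm_nonneg _
  set A : ℝ := CQ * Y ^ 2 with hA
  have hA0 : 0 ≤ A := mul_nonneg hCQ (sq_nonneg _)
  set C1 : ℝ := Cw + CL with hC1
  have hC10 : 0 ≤ C1 := add_nonneg hCw hCL
  set A2 : ℝ := CQ * Y * (Cw * A ^ 2 + C1 * A) with hA2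
  have hA20 : 0 ≤ A2 := by positivity
  set Cf : ℝ := Cg * A ^ (m + 1) with hCf
  have hCf0 : 0 ≤ Cf := by positivity
  set X : ℝ := CQ * Y * Cw + CQ * C1 * Y + A2 / δ' + Cf / η with hX
  have hX0 : 0 ≤ X := by positivity
  set ε : ℝ := min (min 1 δ) (1 / (2 * (X + 1))) with hε
  have hεpos : 0 < ε := by
    refine lt_min (lt_min one_pos hδ) (by positivity)
  have hε1 : ε ≤ 1 := (min_le_left _ _).trans (min_le_left _ _)
  have hεδ : ε ≤ δ := (min_le_left _ _).trans (min_le_right _ _)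
  have hεX : X * ε ≤ 1 / 2 := by
    have h1 : ε ≤ 1 / (2 * (X + 1)) := min_le_right _ _
    calc X * ε ≤ X * (1 / (2 * (X + 1))) := by gcongr
      _ ≤ 1 / 2 := by
          rw [mul_one_div, div_le_iff₀ (by positivity)]
          nlinarith
  have ht1 : CQ * Y * Cw * ε ≤ 1 / 2 := by
    refine le_trans ?_ hεX
    gcongr
    rw [hX]
    have : 0 ≤ CQ * C1 * Y := by positivity
    have : 0 ≤ A2 / δ' := by positivity
    have : 0 ≤ Cf / η := by positivity
    linarith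
  have ht2 : CQ * C1 * Y * ε ≤ 1 / 2 := by
    refine le_trans ?_ hεX
    gcongr
    rw [hX]
    have : 0 ≤ CQ * Y * Cw := by positivity
    have : 0 ≤ A2 / δ' := by positivity
    have : 0 ≤ Cf / η := by positivity
    linarith
  have ht3 : A2 * ε ≤ δ' / 2 := by
    have h : A2 / δ' * ε ≤ 1 / 2 := by
      refine le_trans ?_ hεX
      gcongr
      rw [hX]
      have : 0 ≤ CQ * Y * Cw := by positivity
      have : 0 ≤ CQ * C1 * Y := by positivity
      have : 0 ≤ Cf / η := by positivity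
      linarith
    have h2 : A2 / δ' * ε = A2 * ε / δ' := by ring
    rw [h2, div_le_iff₀ hδ'] at h
    linarith
  have ht4 : Cf * ε ≤ η / 2 := by
    have h : Cf / η * ε ≤ 1 / 2 := by
      refine le_trans ?_ hεX
      gcongr
      rw [hX]
      have : 0 ≤ CQ * Y * Cw := by positivity
      have : 0 ≤ CQ * C1 * Y := by positivity
      have : 0 ≤ A2 / δ' := by positivity
      linarith
    have h2 : Cf / η * ε = Cf * ε / η := by ring
    rw [h2, div_le_iff₀ hηpos] at h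
    linarith
  -- the exponent
  have hp0 : 0 ≤ ‖(p : K)‖ := norm_nonneg _
  obtain ⟨n, hn⟩ : ∃ n : ℕ, ‖(p : K)‖ ^ n < δ' / (A + 1) :=
    exists_pow_lt_of_lt_one (by positivity) hp
  obtain ⟨a, ha, B, hB, hBR, τ, hτ0, hτε, s, hsε, lam, hws, hgs⟩ := horb (n + 1) ε hεpos
  have ha1 : 1 ≤ a := by omega
  have hpn : ‖(p : K)‖ ^ (a - 1) ≤ ‖(p : K)‖ ^ n :=
    pow_le_pow_of_le_one hp0 hp.le (by omega)
  have hpA : A * ‖(p : K)‖ ^ (a - 1) < δ' := by
    have h1 : A * ‖(p : K)‖ ^ (a - 1) ≤ (A + 1) * ‖(p : K)‖ ^ n := by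
      apply mul_le_mul (by linarith) hpn (pow_nonneg hp0 _) (by positivity)
    have h2 : (A + 1) * ‖(p : K)‖ ^ n < (A + 1) * (δ' / (A + 1)) := by
      gcongr
    have h3 : (A + 1) * (δ' / (A + 1)) = δ' := by field_simp
    linarith
  have hspos : ‖s‖ < 1 := lt_of_lt_of_le hsε hε1
  have hsδ : ‖s‖ < δ := lt_of_lt_of_le hsε hεδ
  have hs0 : 0 ≤ ‖s‖ := norm_nonneg _
  -- `T`
  set T : K := (τ : K) * (p : K) ^ a with hT
  have hpK : (p : K) ≠ 0 := by exact_mod_cast hpp.ne_zero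
  have hτK : (τ : K) ≠ 0 := by exact_mod_cast hτ0
  have hT0 : T ≠ 0 := mul_ne_zero hτK (pow_ne_zero _ hpK)
  have hTpos : 0 < ‖T‖ := norm_pos_iff.mpr hT0
  have hTε : ‖T‖ ≤ ε := by
    rw [hT, norm_mul, norm_pow]
    calc ‖(τ : K)‖ * ‖(p : K)‖ ^ a ≤ ‖(τ : K)‖ * 1 := by
          gcongr; exact pow_le_one₀ hp0 hp.le
      _ ≤ ε := by rw [mul_one]; exact hτε.le
  -- binomial
  obtain ⟨D, hD, hDB, hpow⟩ := pow_one_add (K := K) hpp hp ha1 hτ0 hB
  set v : ι → K := D *ᵥ y with hv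
  have hvY : ‖v‖ ≤ Y := by simpa using hD.mulVec_norm zero_le_one y
  have hu : ((1 + ((p : K) ^ a) • B) ^ τ) *ᵥ y = y + T • v := by
    rw [hpow, Matrix.add_mulVec, Matrix.one_mulVec, Matrix.smul_mulVec]
  rw [hu] at hws
  -- the error terms
  set l : ι → K := w s - y with hl
  set e : ι → K := l - L s with he
  have heb : ‖e‖ ≤ Cw * ‖s‖ ^ 2 := hw s hsδ
  have hlb : ‖l‖ ≤ C1 * ‖s‖ := by
    have hl' : l = e + L s := by rw [he]; abel
    rw [hl']
    refine (IsUltrametricDist.norm_add_le_max _ _).trans (max_le ?_ ?_)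
    · calc ‖e‖ ≤ Cw * ‖s‖ ^ 2 := heb
        _ = Cw * (‖s‖ * ‖s‖) := by ring
        _ ≤ Cw * (1 * ‖s‖) := by gcongr
        _ ≤ C1 * ‖s‖ := by rw [one_mul]; gcongr; rw [hC1]; linarith
    · calc ‖L s‖ ≤ CL * ‖s‖ := hL s
        _ ≤ C1 * ‖s‖ := by gcongr; rw [hC1]; linarith
  set cr : ι → K := fun i => l i * v i0 - l i0 * v i with hcr
  have hcrb : ‖cr‖ ≤ C1 * ‖s‖ * Y := by
    refine (pi_norm_le_iff_of_nonneg (by positivity)).mpr fun i => ?_
    exact norm_mul_sub_mul_le _ _ _ _ _ _ (by positivity) hY0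
      ((norm_le_pi_norm l i).trans hlb) ((norm_le_pi_norm v i0).trans hvY)
      ((norm_le_pi_norm l i0).trans hlb) ((norm_le_pi_norm v i).trans hvY)
  have hid : piv y i0 (L s) = T • piv y i0 v - piv y i0 e - T • cr := by
    ext i
    have hwi : w s = y + l := by rw [hl]; abel
    have hLi : L s = l - e := by rw [he]; abel
    have h1 : (y i + l i) = lam * (y i + T * v i) := by
      have := congrFun hws i
      simpa [hwi] using this
    have h2 : (y i0 + l i0) = lam * (y i0 + T * v i0) := by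
      have := congrFun hws i0
      simpa [hwi] using this
    have hcross : (y i + l i) * (y i0 + T * v i0) - (y i0 + l i0) * (y i + T * v i) = 0 := by
      rw [h1, h2]; ring
    simp only [piv, hLi, Pi.sub_apply, Pi.smul_apply, smul_eq_mul, hcr]
    linear_combination hcross
  set E : σ → K := Q (piv y i0 e) + T • Q cr with hE
  have hsEq : s = T • Q (piv y i0 v) - E := by
    have := hQ s
    rw [hid, map_sub, map_sub, map_smul, map_smul] at this
    rw [hE, ← this]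
    abel
  have hE1 : ‖Q (piv y i0 e)‖ ≤ CQ * Y * Cw * ‖s‖ ^ 2 := by
    calc ‖Q (piv y i0 e)‖ ≤ CQ * ‖piv y i0 e‖ := hQb _
      _ ≤ CQ * (Y * ‖e‖) := by gcongr; exact norm_piv_le _ _ _
      _ ≤ CQ * (Y * (Cw * ‖s‖ ^ 2)) := by gcongr
      _ = CQ * Y * Cw * ‖s‖ ^ 2 := by ring
  have hE2 : ‖T • Q cr‖ ≤ ‖T‖ * (CQ * C1 * Y * ‖s‖) := by
    rw [norm_smul]
    gcongr
    calc ‖Q cr‖ ≤ CQ * ‖cr‖ := hQb _
      _ ≤ CQ * (C1 * ‖s‖ * Y) := by gcongr
      _ = CQ * C1 * Y * ‖s‖ := by ring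
  have hE3 : ‖E‖ ≤ (1 / 2) * ‖s‖ := by
    refine (IsUltrametricDist.norm_add_le_max _ _).trans (max_le ?_ ?_)
    · refine hE1.trans ?_
      calc CQ * Y * Cw * ‖s‖ ^ 2 = (CQ * Y * Cw * ‖s‖) * ‖s‖ := by ring
        _ ≤ (CQ * Y * Cw * ε) * ‖s‖ := by gcongr
        _ ≤ (1 / 2) * ‖s‖ := by gcongr
    · refine hE2.trans ?_
      calc ‖T‖ * (CQ * C1 * Y * ‖s‖) = (CQ * C1 * Y * ‖T‖) * ‖s‖ := by ring
        _ ≤ (CQ * C1 * Y * ε) * ‖s‖ := by gcongr
        _ ≤ (1 / 2) * ‖s‖ := by gcongr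
  have hQv : ‖Q (piv y i0 v)‖ ≤ A := by
    calc ‖Q (piv y i0 v)‖ ≤ CQ * ‖piv y i0 v‖ := hQb _
      _ ≤ CQ * (Y * ‖v‖) := by gcongr; exact norm_piv_le _ _ _
      _ ≤ CQ * (Y * Y) := by gcongr
      _ = A := by rw [hA]; ring
  have hsT : ‖s‖ ≤ ‖T‖ * A := by
    have h1 : ‖s‖ ≤ max (‖T • Q (piv y i0 v)‖) ‖E‖ := by
      conv_lhs => rw [hsEq]
      exact nsub _ _
    rcases le_max_iff.mp h1 with h | h
    · rw [norm_smul] at h
      exact h.trans (by gcongr)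
    · have : ‖s‖ ≤ 0 := by linarith
      exact this.trans (by positivity)
  -- the rescaled point
  set xT : σ → K := T⁻¹ • s with hxT
  have hxTeq : xT = Q (piv y i0 v) - T⁻¹ • E := by
    rw [hxT, hsEq, smul_sub, smul_smul, inv_mul_cancel₀ hT0, one_smul]
  have hTinvE : ‖T⁻¹ • E‖ ≤ A2 * ‖T‖ := by
    rw [norm_smul, norm_inv, inv_mul_le_iff₀ hTpos]
    refine (IsUltrametricDist.norm_add_le_max _ _).trans (max_le ?_ ?_)
    · refine hE1.trans ?_
      have : ‖s‖ ^ 2 ≤ (‖T‖ * A) ^ 2 := by gcongr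
      calc CQ * Y * Cw * ‖s‖ ^ 2 ≤ CQ * Y * Cw * (‖T‖ * A) ^ 2 := by gcongr
        _ = ‖T‖ * (‖T‖ * (CQ * Y * (Cw * A ^ 2))) := by ring
        _ ≤ ‖T‖ * (‖T‖ * A2) := by
            gcongr
            rw [hA2]
            have : 0 ≤ CQ * Y * (C1 * A) := by positivity
            nlinarith
        _ = ‖T‖ * (A2 * ‖T‖) := by ring
    · refine hE2.trans ?_
      calc ‖T‖ * (CQ * C1 * Y * ‖s‖) ≤ ‖T‖ * (CQ * C1 * Y * (‖T‖ * A)) := by gcongr
        _ = ‖T‖ * (‖T‖ * (CQ * Y * (C1 * A))) := by ring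
        _ ≤ ‖T‖ * (‖T‖ * A2) := by
            gcongr
            rw [hA2]
            have : 0 ≤ CQ * Y * (Cw * A ^ 2) := by positivity
            nlinarith
        _ = ‖T‖ * (A2 * ‖T‖) := by ring
  have hDR : MatBd (‖(p : K)‖ ^ (a - 1)) (D - Rt) := by
    have h1 : D - Rt = (D - B) + (B - Rt) := by abel
    rw [h1]
    refine hDB.add (hBR.mono ?_)
    exact pow_le_pow_of_le_one hp0 hp.le (by omega)
  have hvR : ‖Q (piv y i0 v) - xs‖ ≤ A * ‖(p : K)‖ ^ (a - 1) := by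
    have h1 : Q (piv y i0 v) - xs = Q (piv y i0 ((D - Rt) *ᵥ y)) := by
      rw [hxs, hv, Matrix.sub_mulVec, piv_sub, map_sub]
    rw [h1]
    calc ‖Q (piv y i0 ((D - Rt) *ᵥ y))‖ ≤ CQ * ‖piv y i0 ((D - Rt) *ᵥ y)‖ := hQb _
      _ ≤ CQ * (Y * ‖(D - Rt) *ᵥ y‖) := by gcongr; exact norm_piv_le _ _ _
      _ ≤ CQ * (Y * (‖(p : K)‖ ^ (a - 1) * Y)) := by
          gcongr
          exact hDR.mulVec_norm (pow_nonneg hp0 _) y
      _ = A * ‖(p : K)‖ ^ (a - 1) := by rw [hA]; ring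
  have hclose : ‖xT - xs‖ < δ' := by
    have h1 : xT - xs = (Q (piv y i0 v) - xs) - T⁻¹ • E := by rw [hxTeq]; abel
    rw [h1]
    refine lt_of_le_of_lt (nsub _ _) (max_lt (lt_of_le_of_lt hvR hpA) ?_)
    calc ‖T⁻¹ • E‖ ≤ A2 * ‖T‖ := hTinvE
      _ ≤ A2 * ε := by gcongr
      _ ≤ δ' / 2 := ht3
      _ < δ' := by linarith
  have hevalclose := hcont xT (by rwa [dist_eq_norm])
  rw [dist_eq_norm] at hevalclose
  -- the polynomial is small at `xT`
  have hsx : s = T • xT := by rw [hxT, smul_smul, mul_inv_cancel₀ hT0, one_smul]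
  have hPs : ‖MvPolynomial.eval s P‖ ≤ Cg * ‖s‖ ^ (m + 1) := by
    have := hg s hsδ
    rwa [hgs, zero_sub, norm_neg] at this
  have hPx : ‖MvPolynomial.eval xT P‖ ≤ Cf * ‖T‖ := by
    rw [hsx, eval_smul_homog hP, norm_mul, norm_pow, ← hsx] at hPs
    have h1 : ‖T‖ ^ m * ‖MvPolynomial.eval xT P‖ ≤ Cg * (‖T‖ * A) ^ (m + 1) :=
      hPs.trans (by gcongr)
    have h2 : Cg * (‖T‖ * A) ^ (m + 1) = ‖T‖ ^ m * (Cf * ‖T‖) := by
      rw [hCf]; ring
    rw [h2] at h1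
    exact le_of_mul_le_mul_left h1 (pow_pos hTpos _)
  have hPlt : ‖MvPolynomial.eval xT P‖ < η := by
    calc ‖MvPolynomial.eval xT P‖ ≤ Cf * ‖T‖ := hPx
      _ ≤ Cf * ε := by gcongr
      _ ≤ η / 2 := ht4
      _ < η := by linarith
  have hfinal : η ≤ max ‖MvPolynomial.eval xT P‖
      ‖MvPolynomial.eval xT P - MvPolynomial.eval xs P‖ := by
    have h1 : MvPolynomial.eval xs P = MvPolynomial.eval xT P -
        (MvPolynomial.eval xT P - MvPolynomial.eval xs P) := by abel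
    rw [hη]
    conv_lhs => rw [h1]
    exact nsub _ _
  exact absurd hfinal (not_le.mpr (max_lt hPlt hevalclose))

end Limit



end Crest.Agent.LT.ZeroCore
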